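import Vale.Agent.P140.StmC

/-!
Algebra and measurability of the operators of part C.
-/

namespace Vale.Agent.P140

open MeasureTheory Set Filter Topology
open scoped ENNReal

noncomputable section

namespace AlgCAux

lemma m_vp (v : E) : Measurable fun q : E × S2 => vp v q.1 q.2 :=
  continuous_vp.measurable.comp measurable_prodMk_left

lemma m_wp (v : E) : Measurable fun q : E × S2 => wp v q.1 q.2 :=
  continuous_wp.measurable.comp measurable_prodMk_left

lemma m_ker {k : ℝ → ℝ → ℝ} (hk : IsKer k) (v : E) :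
    Measurable fun q : E × S2 => ENNReal.ofReal (k |cf v q.1 q.2| ‖v - q.1‖) := by
  have h3 : Measurable fun q : E × S2 => |cf v q.1 q.2| :=
    (continuous_cf.measurable.comp measurable_prodMk_left).abs
  have h4 : Measurable fun q : E × S2 => ‖v - q.1‖ := by fun_prop
  exact (hk.comp (h3.prodMk h4)).ennreal_ofReal

lemma m_int {k : ℝ → ℝ → ℝ} (hk : IsKer k) {f h : E → ℝ≥0∞} (hf : Measurable f)
    (hh : Measurable h) (v : E) :
    Measurable fun q : E × S2 => ENNReal.ofReal (k |cf v q.1 q.2| ‖v - q.1‖) *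
      (f (vp v q.1 q.2) * h (wp v q.1 q.2)) :=
  (m_ker hk v).mul ((hf.comp (m_vp v)).mul (hh.comp (m_wp v)))

lemma abs_int (c : ℝ) (hc : 0 ≤ c) :
    ∫⁻ u in Icc (-1 : ℝ) 1, ENNReal.ofReal (c * |u|) = ENNReal.ofReal c := by
  have hi : IntegrableOn (fun u : ℝ => c * |u|) (Icc (-1 : ℝ) 1) :=
    (by fun_prop : Continuous fun u : ℝ => c * |u|).integrableOn_Icc
  rw [← ofReal_integral_eq_lintegral_ofReal hi
    (Eventually.of_forall fun u => mul_nonneg hc (abs_nonneg u)), integral_const_mul]
  congr 1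
  have h1 : ∫ u in Icc (-1 : ℝ) 1, |u| = 1 := by
    rw [integral_Icc_eq_integral_Ioc, ← intervalIntegral.integral_of_le (by norm_num),
      ← intervalIntegral.integral_add_adjacent_intervals (b := 0)
        (continuous_abs.intervalIntegrable _ _) (continuous_abs.intervalIntegrable _ _)]
    have h2 : ∫ u in (-1 : ℝ)..0, |u| = ∫ u in (-1 : ℝ)..0, -u :=
      intervalIntegral.integral_congr fun u hu => by
        rw [uIcc_of_le (by norm_num)] at hu
        exact abs_of_nonpos hu.2
    have h3 : ∫ u in (0 : ℝ)..1, |u| = ∫ u in (0 : ℝ)..1, u :=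
      intervalIntegral.integral_congr fun u hu => by
        rw [uIcc_of_le (by norm_num)] at hu
        exact abs_of_nonneg hu.1
    rw [h2, h3, intervalIntegral.integral_neg, integral_id, integral_id]
    norm_num
  rw [h1, mul_one]

lemma sph_cf (hb : Base) (v u : E) :
    ∫⁻ ω, ENNReal.ofReal |cf v u ω| ∂sph = ENNReal.ofReal (2 * Real.pi * ‖v - u‖) := by
  by_cases h : v - u = 0
  · simp [cf, h]
  have hn : 0 < ‖v - u‖ := norm_pos_iff.2 h
  have h1 : ‖(‖v - u‖⁻¹ • (v - u) : E)‖ = 1 := by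
    rw [norm_smul, norm_inv, norm_norm, inv_mul_cancel₀ hn.ne']
  have h2 := hb.arch _ h1 (fun s => ENNReal.ofReal (‖v - u‖ * |s|)) (by fun_prop)
  rw [abs_int _ hn.le, ← ENNReal.ofReal_mul (by have := Real.pi_pos; positivity)] at h2
  rw [← h2]
  refine lintegral_congr fun ω => ?_
  congr 1
  rw [real_inner_smul_left, abs_mul, abs_inv, abs_norm, ← mul_assoc, mul_inv_cancel₀ hn.ne',
    one_mul]
  rfl

lemma slice {f : ST} (hf : JM f) :
    Measurable fun z : (ℝ × Om) × E => f z.1.1 (z.1.2.1, z.2) :=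
  hf.comp (f := fun z : (ℝ × Om) × E => (z.1.1, (z.1.2.1, z.2))) (by fun_prop)

lemma jm_G2 (hb : Base) {k : ℝ → ℝ → ℝ} {f h : ST} (hk : IsKer k) (hf : JM f) (hh : JM h) :
    JM (G2 k f h) :=
  (hb.meas.2.2.2.1 (ℝ × Om) k (fun y u => f y.1 (y.2.1, u)) (fun y u => h y.1 (y.2.1, u))
    (fun y => y.2.2) hk (slice hf) (slice hh) (by fun_prop)).1

lemma jm_slice {f : ST} (hf : JM f) (t : ℝ) (x : T3) : Measurable fun u => f t (x, u) :=
  hf.comp (f := fun u : E => (t, (x, u))) (by fun_prop)

lemma carl (hb : Base) (f h : E → ℝ≥0∞) (v : E) (S : ℝ≥0∞) (hf : Measurable f)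
    (hh : Measurable h)
    (H : ∀ u, f u ≠ 0 → ∀ ι : E2 →ₗᵢ[ℝ] E, (∀ y, inner ℝ (ι y) (v - u) = 0) →
      ∫⁻ y, h (v - ι y) ≤ S) :
    gainK kF f h v ≤ 2 * (∫⁻ u, f u * (ENNReal.ofReal ‖v - u‖)⁻¹) * S := by
  obtain ⟨ι, hι, hc⟩ := hb.carl
  have hΦ : Measurable fun z : E × E => f (v - z.1) * h (v - z.2) :=
    (hf.comp (by fun_prop)).mul (hh.comp (by fun_prop))
  have h1 := (hc _ hΦ).2 v
  simp only [sub_sub_cancel] at h1
  have h2 : gainK kF f h v = _ := h1
  have hm : Measurable fun u : E => f u * (ENNReal.ofReal ‖v - u‖)⁻¹ :=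
    hf.mul (by fun_prop)
  rw [h2, mul_assoc, ← lintegral_mul_const _ hm,
    ← lintegral_sub_left_eq_self (μ := (volume : Measure E))
      (fun u => f u * (ENNReal.ofReal ‖v - u‖)⁻¹ * S) v]
  refine mul_le_mul_right (lintegral_mono fun p => ?_) _
  have hm2 : Measurable fun y : E2 => h (v - ι p y) :=
    hh.comp (measurable_const.sub (ι p).continuous.measurable)
  simp only [sub_sub_cancel]
  rw [lintegral_const_mul _ hm2, ← mul_assoc, mul_comm _ (f (v - p))]
  by_cases h0 : f (v - p) = 0
  · simp [h0]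
  · exact mul_le_mul_right (H _ h0 (ι p) fun y => by rw [sub_sub_cancel]; exact hι p y) _

end AlgCAux

open AlgCAux in
theorem algC (hb : Base) : AlgStmt where
  gain_mono k k' f f' h h' v hk hf hh :=
    lintegral_mono fun q => mul_le_mul' (ENNReal.ofReal_le_ofReal (hk _ _ (abs_nonneg _)))
      (mul_le_mul' (hf _) (hh _))
  gain_add_left k f f' h v hk hf hh := by
    unfold gainK
    rw [← lintegral_add_left (m_int hk hf hh v)]
    exact lintegral_congr fun q => by ring
  gain_add_right k f h h' v hk hf hh := by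
    unfold gainK
    rw [← lintegral_add_left (m_int hk hf hh v)]
    exact lintegral_congr fun q => by ring
  gain_mul k f h v a b ha hb' := by
    unfold gainK
    rw [← lintegral_const_mul' _ _ (ENNReal.mul_ne_top ha hb')]
    exact lintegral_congr fun q => by ring
  gain_zero k f h v H := by
    unfold gainK
    rcases H with H | H <;> simp [H]
  kT_le R a r ha := by
    unfold kT kF
    split_ifs
    · exact min_le_left _ _
    · exact ha
  freq_eq h v hh := by
    unfold freqK
    have hm0 : Measurable fun q : E × S2 =>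
        ENNReal.ofReal (kF |cf v q.1 q.2| ‖v - q.1‖) * h q.1 :=
      (m_ker hb.meas.1 v).mul (hh.comp measurable_fst)
    rw [lintegral_prod _ hm0.aemeasurable]
    refine lintegral_congr fun u => ?_
    have hm : Measurable fun ω : S2 => ENNReal.ofReal |cf v u ω| :=
      (m_ker hb.meas.1 v).comp (f := fun ω : S2 => (u, ω)) measurable_prodMk_left
    rw [← sph_cf hb v u, ← lintegral_mul_const _ hm]
    rfl
  sph_cf := sph_cf hb
  jm_slice f hf t x := jm_slice hf t x
  jm_time f hf t := hf.comp (f := fun p : Om => (t, p)) measurable_prodMk_left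
  jm_flight f hf t p :=
    ⟨hf.comp (f := fun s : ℝ => (s, fl (s - t) p)) (measurable_id.prodMk
      (continuous_fl.measurable.comp (f := fun s : ℝ => (s - t, p)) (by fun_prop))),
    hf.comp (f := fun s : ℝ => (s, fl s p)) (measurable_id.prodMk
      (continuous_fl.measurable.comp (f := fun s : ℝ => (s, p)) (by fun_prop)))⟩
  jm_G2 k f h hk hf hh := jm_G2 hb hk hf hh
  jm_QZ k f h hk hf hh :=
    ((jm_G2 hb hk hf hh).add (jm_G2 hb hk hh hf)).add (jm_G2 hb hk hh hh)
  jm_Nu h hh :=
    (hb.meas.2.2.2.1 (ℝ × Om) kF (fun y u => h y.1 (y.2.1, u)) (fun y u => h y.1 (y.2.1, u))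
      (fun y => y.2.2) hb.meas.1 (slice hh) (slice hh) (by fun_prop)).2
  jm_duh t₀ q hq := by
    have h1 : Measurable fun z : (ℝ × Om) × ℝ => q z.2 (fl (z.2 - z.1.1) z.1.2) :=
      hq.comp (f := fun z : (ℝ × Om) × ℝ => (z.2, fl (z.2 - z.1.1) z.1.2))
        (measurable_snd.prodMk (continuous_fl.measurable.comp
          (f := fun z : (ℝ × Om) × ℝ => (z.2 - z.1.1, z.1.2)) (by fun_prop)))
    have hS : MeasurableSet {z : (ℝ × Om) × ℝ | t₀ < z.2 ∧ z.2 ≤ z.1.1} :=
      (measurableSet_lt measurable_const measurable_snd).inter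
        (measurableSet_le measurable_snd (by fun_prop))
    have h2 := (h1.indicator hS).lintegral_prod_right' (ν := (volume : Measure ℝ))
    refine (congrArg Measurable (funext fun y => ?_)).mp h2
    unfold duh
    rw [← lintegral_indicator measurableSet_Ioc]
    rfl
  jm_gN Rk δ F hF :=
    (jm_G2 hb (hb.meas.2.1 Rk) hF hF).div (measurable_const.add (measurable_const.mul
      ((slice hF).lintegral_prod_right' (ν := (volume : Measure E)))))
  jm_restr V h hV hh := by
    have h1 : MeasurableSet {y : ℝ × Om | y.2.2 ∈ V} :=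
      (by fun_prop : Measurable fun y : ℝ × Om => y.2.2) hV
    exact (congrArg Measurable (funext fun y => rfl)).mp (Measurable.indicator hh h1)
  duh_mono t₀ t q q' p H :=
    setLIntegral_mono' measurableSet_Ioc fun s hs => H s hs _
  duh_add t₀ t q q' p hq :=
    lintegral_add_left (hq.comp (f := fun s : ℝ => (s, fl (s - t) p)) (measurable_id.prodMk
      (continuous_fl.measurable.comp (f := fun s : ℝ => (s - t, p)) (by fun_prop)))) _
  duh_mul t₀ t q p a ha := lintegral_const_mul' _ _ ha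
  duh_split t₀ t₁ t q p h1 h2 := by
    unfold duh
    rw [← Ioc_union_Ioc_eq_Ioc h1 h2, lintegral_union measurableSet_Ioc
      (Ioc_disjoint_Ioc_of_le le_rfl)]
    congr 1
    refine lintegral_congr fun s => ?_
    rw [fl_fl, sub_add_sub_cancel]
  QZ_kF Z h hZ hh t p := by
    unfold QZ G2
    rw [(hb.sym.2 _ _ (jm_slice hh t p.1) (jm_slice hZ t p.1) p.2).1, two_mul]
  carl := carl hb

end

end Vale.Agent.P140
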