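import Vale.Agent.P140.StmB

/-! A priori bounds of an approximating sequence. -/

namespace Vale.Agent.P140

open MeasureTheory Set Filter Topology
open scoped ENNReal

namespace Apr

theorem bdd {a : ℕ → ℝ≥0∞} {b : ℝ≥0∞} (ha : ∀ n, a n < ⊤) (hb : b < ⊤)
    (h : ∀ᶠ n in atTop, a n ≤ b) : ∃ C : ℝ, 0 ≤ C ∧ ∀ n, a n ≤ ENNReal.ofReal C := by
  obtain ⟨N, hN⟩ := eventually_atTop.1 h
  have hs : b + ∑ i ∈ Finset.range N, a i ≠ ⊤ :=
    ENNReal.add_ne_top.2 ⟨hb.ne, (ENNReal.sum_lt_top.2 fun i _ => ha i).ne⟩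
  refine ⟨(b + ∑ i ∈ Finset.range N, a i).toReal, ENNReal.toReal_nonneg, fun n => ?_⟩
  rw [ENNReal.ofReal_toReal hs]
  rcases le_or_gt N n with hn | hn
  · exact (hN n hn).trans le_self_add
  · exact (Finset.single_le_sum (f := a) (fun _ _ => zero_le) (Finset.mem_range.2 hn)).trans
      le_add_self

theorem split {f : Om → ℝ} (hm : Measurable f) (h0 : ∀ p, 0 ≤ f p)
    (hi : Integrable fun p : Om => f p * (1 + ‖p.2‖ ^ 2)) :
    ∫ p : Om, f p * (1 + ‖p.2‖ ^ 2) = (∫ p : Om, f p) + ∫ p : Om, ‖p.2‖ ^ 2 * f p := by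
  have h1 : Integrable f := hi.mono' hm.aestronglyMeasurable (ae_of_all _ fun p => by
    rw [Real.norm_of_nonneg (h0 p)]
    nlinarith [h0 p, sq_nonneg ‖p.2‖])
  have h2 : Integrable fun p : Om => ‖p.2‖ ^ 2 * f p :=
    (hi.sub h1).congr (ae_of_all _ fun p => by simp only [Pi.sub_apply]; ring)
  rw [← integral_add h1 h2]
  exact integral_congr_ae (ae_of_all _ fun p => by ring)

variable {R δ : ℕ → ℝ} {Fn : ℕ → ℝ → Om → ℝ} {F₀ : Om → ℝ}

theorem measT (h : Seq R δ Fn F₀) (n : ℕ) (t : ℝ) : Measurable (Fn n t) :=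
  (h.ts n).meas.comp measurable_prodMk_left

theorem mom' (hC : TSConsStmt) (h : Seq R δ Fn F₀) :
    ∃ C : ℝ, ∀ n t, 0 ≤ t → Integrable (fun p : Om => Fn n t p * (1 + ‖p.2‖) ^ 2) ∧
      ∫ p : Om, Fn n t p * (1 + ‖p.2‖) ^ 2 ≤ C := by
  obtain ⟨B, hB⟩ := h.conv.bddAbove_range
  obtain ⟨hm0, h00, hi0⟩ := h.datum
  have hi1 : Integrable fun p : Om => F₀ p * (1 + ‖p.2‖ ^ 2) :=
    hi0.mono' (Measurable.aestronglyMeasurable (by fun_prop)) (ae_of_all _ fun p => by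
      rw [Real.norm_of_nonneg (mul_nonneg (h00 p) (by positivity))]
      exact mul_le_mul_of_nonneg_left (le_add_of_nonneg_right (abs_nonneg _)) (h00 p))
  refine ⟨2 * (B + ∫ p : Om, F₀ p * (1 + ‖p.2‖ ^ 2)), fun n t ht => ?_⟩
  have hc := (hC _ _ _ _ (h.Rpos n) (h.δpos n) (h.ts n)).1
  obtain ⟨a1, a2, -, a3⟩ := hc t ht
  have b1 := (hc 0 le_rfl).1
  have hm := measT h n t
  have hm' := measT h n 0
  have hle : ∀ p : Om, Fn n t p * (1 + ‖p.2‖) ^ 2 ≤ 2 * (Fn n t p * (1 + ‖p.2‖ ^ 2)) := by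
    intro p
    have := (h.ts n).nonneg t p
    nlinarith [mul_nonneg this (sq_nonneg (1 - ‖p.2‖))]
  have hi : Integrable fun p : Om => Fn n t p * (1 + ‖p.2‖) ^ 2 :=
    (a1.const_mul 2).mono' (Measurable.aestronglyMeasurable (by fun_prop))
      (ae_of_all _ fun p => by
        rw [Real.norm_of_nonneg (mul_nonneg ((h.ts n).nonneg t p) (by positivity))]
        exact hle p)
  refine ⟨hi, (integral_mono hi (a1.const_mul 2) hle).trans ?_⟩
  rw [integral_const_mul, split hm ((h.ts n).nonneg t) a1, a2, a3,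
    ← split hm' ((h.ts n).nonneg 0) b1]
  have hi2 : Integrable fun p : Om => |Fn n 0 p - F₀ p| * (1 + ‖p.2‖ ^ 2) :=
    (b1.sub hi1).abs.congr (ae_of_all _ fun p => by
      simp only [Pi.sub_apply]
      rw [← sub_mul, abs_mul, abs_of_nonneg (show (0 : ℝ) ≤ 1 + ‖p.2‖ ^ 2 by positivity)])
  have c1 : ∫ p : Om, Fn n 0 p * (1 + ‖p.2‖ ^ 2)
      ≤ ∫ p : Om, (|Fn n 0 p - F₀ p| * (1 + ‖p.2‖ ^ 2) + F₀ p * (1 + ‖p.2‖ ^ 2)) :=
    integral_mono b1 (hi2.add hi1) fun p => by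
      dsimp only
      rw [← add_mul]
      exact mul_le_mul_of_nonneg_right (by linarith [le_abs_self (Fn n 0 p - F₀ p)])
        (by positivity)
  rw [integral_add hi2 hi1] at c1
  have c2 := hB (mem_range_self n)
  linarith

theorem ent' (hE : TSEntStmt) (hI : IneqStmt) (h : Seq R δ Fn F₀) :
    ∃ C : ℝ, 0 ≤ C ∧ ∀ n t, 0 ≤ t → relEnt (Fn n t) ≤ ENNReal.ofReal C ∧
      ∫⁻ r in Icc (0 : ℝ) t, ∫⁻ p, eT (R n) (δ n) (Fn n r) p ≤ ENNReal.ofReal C := by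
  have key : ∀ n, relEnt (Fn n 0) < ⊤ ∧ ∀ t, 0 ≤ t → relEnt (Fn n t) +
      (1 / 4) * ∫⁻ r in Icc (0 : ℝ) t, ∫⁻ p, eT (R n) (δ n) (Fn n r) p ≤ relEnt (Fn n 0) := by
    intro n
    obtain ⟨s, hs, hl⟩ := h.low n
    exact hE _ _ _ _ (h.Rpos n) (h.δpos n) (h.ts n) s hs hl
  obtain ⟨C, hC0, hC⟩ := bdd (fun n => (key n).1) (ENNReal.add_lt_top.2
    ⟨hI.2.2.2.2.2.2.2.2.2.2 F₀ h.datum, ENNReal.ofReal_lt_top⟩) (h.ent 1 one_pos)
  refine ⟨4 * C, by positivity, fun n t ht => ⟨?_, ?_⟩⟩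
  · exact (le_self_add.trans (((key n).2 t ht).trans (hC n))).trans
      (ENNReal.ofReal_le_ofReal (by linarith))
  · have h1 := le_add_self.trans (((key n).2 t ht).trans (hC n))
    rw [ENNReal.ofReal_mul (by norm_num), ENNReal.ofReal_ofNat]
    have h2 : (4 : ℝ≥0∞) * (1 / 4) = 1 := by
      rw [one_div, ENNReal.mul_inv_cancel (by norm_num) (by norm_num)]
    have h3 := mul_le_mul_right h1 4
    rwa [← mul_assoc, h2, one_mul] at h3

theorem tail' (hE : TSEntStmt) (hI : IneqStmt) (h : Seq R δ Fn F₀) (ε : ℝ) (hε : 0 < ε) :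
    ∃ K : ℝ, 0 < K ∧ ∀ n t, 0 ≤ t →
      ∫⁻ p : Om, ENNReal.ofReal (Fn n t p - K * Mx p.2) ≤ ENNReal.ofReal ε := by
  obtain ⟨C, hC0, hC⟩ := ent' hE hI h
  have hd : 0 ≤ C / ε := by positivity
  refine ⟨Real.exp (2 + C / ε), Real.exp_pos _, fun n t ht => ?_⟩
  have hp : 0 < 1 + C / ε := by positivity
  have h1 : ∀ p : Om, ENNReal.ofReal (Fn n t p - Real.exp (2 + C / ε) * Mx p.2)
      ≤ ENNReal.ofReal (1 + C / ε)⁻¹ * ENNReal.ofReal
        (Fn n t p * Real.log (Fn n t p / Mx p.2) - Fn n t p + Mx p.2) := by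
    intro p
    have h2 := (hI.2.2.2.2.1 _ _ ((h.ts n).nonneg t p) (Mx_pos p.2)).2.1 (Real.exp (2 + C / ε))
      (Real.exp_le_exp.2 (by linarith))
    rw [Real.log_exp, show 2 + C / ε - 1 = 1 + C / ε by ring] at h2
    rw [← ENNReal.ofReal_mul (by positivity)]
    apply ENNReal.ofReal_le_ofReal
    rwa [inv_mul_eq_div, le_div_iff₀ hp]
  refine (lintegral_mono h1).trans ?_
  rw [lintegral_const_mul' _ _ ENNReal.ofReal_ne_top]
  refine (mul_le_mul_right (hC n t ht).1 _).trans ?_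
  rw [← ENNReal.ofReal_mul (by positivity)]
  apply ENNReal.ofReal_le_ofReal
  rw [inv_mul_eq_div, div_le_iff₀ hp, mul_add, mul_div_cancel₀ _ hε.ne']
  linarith

theorem intM (hT : TorusStmt) (hI : IneqStmt) (K : ℝ) :
    Integrable fun p : Om => K * Mx p.2 := by
  have : IsFiniteMeasure (volume : Measure T3) := ⟨by rw [hT.2.2.2.2.2.1]; exact ENNReal.one_lt_top⟩
  exact (hI.2.2.2.2.2.2.1.comp_snd (volume : Measure T3)).const_mul K

end Apr

theorem apr (hU : UIStmt) (hT : TorusStmt) (hF : TSFlStmt) (hC : TSConsStmt) (hE : TSEntStmt)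
    (hI : IneqStmt) : AprStmt := by
  intro R δ Fn F₀ h
  have hM : Measurable Mx := continuous_Mx.measurable
  refine ⟨h, Apr.mom' hC h, (Apr.ent' hE hI h).imp fun C hC => hC.2, Apr.tail' hE hI h,
    fun t ht => ⟨fun n => Apr.measT h n t, fun ε hε => ?_⟩,
    fun T => ⟨fun n => (h.ts n).meas, fun ε hε => ?_⟩⟩
  · obtain ⟨K, hK, H⟩ := Apr.tail' hE hI h ε hε
    refine ⟨fun p => K * Mx p.2, by fun_prop, fun p => (mul_pos hK (Mx_pos _)).le,
      Apr.intM hT hI K, fun n => ?_⟩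
    simpa only [abs_of_nonneg ((h.ts n).nonneg t _)] using H n t ht
  · have hp : 0 < |T| + 1 := by positivity
    obtain ⟨K, hK, H⟩ := Apr.tail' hE hI h (ε / (|T| + 1)) (by positivity)
    refine ⟨fun y => K * Mx y.2.2, by fun_prop, fun p => (mul_pos hK (Mx_pos _)).le,
      (Apr.intM hT hI K).comp_snd (mT T), fun n => ?_⟩
    simp only [abs_of_nonneg ((h.ts n).nonneg _ _)]
    refine (lintegral_prod_le _).trans ?_
    have h1 : ∀ᵐ t ∂(mT T), ∫⁻ p : Om, ENNReal.ofReal (Fn n t p - K * Mx p.2)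
        ≤ ENNReal.ofReal (ε / (|T| + 1)) :=
      (ae_restrict_mem measurableSet_Icc).mono fun t ht => H n t ht.1
    refine (lintegral_mono_ae h1).trans ?_
    rw [lintegral_const, mT, Measure.restrict_apply_univ, Real.volume_Icc,
      ← ENNReal.ofReal_mul (by positivity)]
    apply ENNReal.ofReal_le_ofReal
    rw [div_mul_eq_mul_div, div_le_iff₀ hp]
    exact mul_le_mul_of_nonneg_left (by linarith [le_abs_self T]) hε.le

end Vale.Agent.P140
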