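import Vale.Agent.P140.StmA

/-! Archimedes: the height function on the unit sphere is uniformly distributed. -/

namespace Vale.Agent.P140

open MeasureTheory Set Filter Topology
open scoped ENNReal Pointwise

noncomputable section

namespace Arch

theorem coords (n : E) (hn : ‖n‖ = 1) (G : ℝ × ℝ → ℝ≥0∞) (hG : Measurable G) :
    ∫⁻ p : E, G (inner ℝ n p, ‖p‖) =
      ∫⁻ s : ℝ, ∫⁻ q : ℝ × ℝ, G (s, √(s ^ 2 + (q.1 ^ 2 + q.2 ^ 2))) := by
  have ho : Orthonormal ℝ (({0} : Set (Fin 3)).domRestrict fun _ : Fin 3 => n) := by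
    refine ⟨fun _ => hn, fun i j hij => absurd (Subsingleton.elim i j) hij⟩
  obtain ⟨b, hb⟩ := ho.exists_orthonormalBasis_extension_of_card_eq (by simp)
  have hb0 : b 0 = n := hb 0 rfl
  have m1 : MeasurePreserving (fun x : Fin 3 → ℝ => b.repr.symm (WithLp.toLp 2 x)) :=
    b.measurePreserving_repr_symm.comp (PiLp.volume_preserving_toLp (Fin 3))
  have m2 := (volume_preserving_piFinSuccAbove (fun _ : Fin 3 => ℝ) 0).symm
  have m3 : MeasurePreserving
      (Prod.map id (MeasurableEquiv.finTwoArrow (α := ℝ)).symm : ℝ × ℝ × ℝ → ℝ × (Fin 2 → ℝ)) :=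
    (MeasurePreserving.id volume).prod (volume_preserving_finTwoArrow ℝ).symm
  have hm : Measurable fun p : E => G (inner ℝ n p, ‖p‖) := hG.comp (by fun_prop)
  rw [← ((m1.comp m2).comp m3).lintegral_comp hm]
  have hm2 : Measurable fun z : ℝ × ℝ × ℝ =>
      G (z.1, √(z.1 ^ 2 + (z.2.1 ^ 2 + z.2.2 ^ 2))) := hG.comp (by fun_prop)
  rw [← lintegral_prod _ hm2.aemeasurable]
  refine lintegral_congr fun z => ?_
  congr 2
  · rw [← hb0, ← b.repr_apply_apply]
    simp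
  · simp [EuclideanSpace.norm_eq, Fin.sum_univ_succ, MeasurableEquiv.finTwoArrow]

theorem plane (g : ℝ → ℝ≥0∞) (hg : Measurable g) :
    ∫⁻ q : ℝ × ℝ, g (q.1 ^ 2 + q.2 ^ 2) =
      ENNReal.ofReal (2 * Real.pi) * ∫⁻ r in Ioi (0 : ℝ), ENNReal.ofReal r * g (r ^ 2) := by
  rw [← lintegral_comp_polarCoord_symm, polarCoord_target, Measure.volume_eq_prod,
    ← Measure.prod_restrict]
  have e : ∀ p : ℝ × ℝ, ENNReal.ofReal p.1 • g ((polarCoord.symm p).1 ^ 2 + (polarCoord.symm p).2 ^ 2)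
      = (ENNReal.ofReal p.1 * g (p.1 ^ 2)) * 1 := by
    intro p
    rw [polarCoord_symm_apply, smul_eq_mul, mul_one]
    congr 2
    have := Real.cos_sq_add_sin_sq p.2
    simp only
    linear_combination p.1 ^ 2 * this
  simp only [e]
  rw [lintegral_prod_mul (f := fun r : ℝ => ENNReal.ofReal r * g (r ^ 2)) (g := fun _ : ℝ => 1)
    (Measurable.aemeasurable (by fun_prop)) aemeasurable_const, mul_comm]
  congr 1
  rw [lintegral_const, one_mul, Measure.restrict_apply_univ, Real.volume_Ioo]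
  congr 1
  ring

theorem radial (s : ℝ) (H : ℝ → ℝ≥0∞) :
    ∫⁻ r in Ioi (0 : ℝ), ENNReal.ofReal r * H (√(s ^ 2 + r ^ 2)) =
      ∫⁻ ρ in Ioi |s|, ENNReal.ofReal ρ * H ρ := by
  have him : (fun r : ℝ => √(s ^ 2 + r ^ 2)) '' Ioi 0 = Ioi |s| := by
    ext ρ
    constructor
    · rintro ⟨r, hr, rfl⟩
      have hr' : 0 < r := hr
      exact Real.lt_sqrt_of_sq_lt (by rw [sq_abs]; nlinarith)
    · intro h
      have h' : |s| < ρ := h
      have h2 : s ^ 2 < ρ ^ 2 := by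
        rw [← sq_abs s]
        exact pow_lt_pow_left₀ h' (abs_nonneg s) two_ne_zero
      refine ⟨√(ρ ^ 2 - s ^ 2), Real.sqrt_pos.2 (by linarith), ?_⟩
      simp only
      rw [Real.sq_sqrt (by linarith), add_sub_cancel, Real.sqrt_sq ((abs_nonneg s).trans h'.le)]
  have hd : ∀ r ∈ Ioi (0 : ℝ), HasDerivWithinAt (fun r : ℝ => √(s ^ 2 + r ^ 2))
      (2 * r / (2 * √(s ^ 2 + r ^ 2))) (Ioi 0) r := by
    intro r hr
    have hr' : 0 < r := hr
    have h1 : HasDerivAt (fun r : ℝ => s ^ 2 + r ^ 2) (2 * r) r := by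
      simpa using (hasDerivAt_pow 2 r).const_add (s ^ 2)
    exact (h1.sqrt (by positivity)).hasDerivWithinAt
  have hi : InjOn (fun r : ℝ => √(s ^ 2 + r ^ 2)) (Ioi 0) := by
    intro a ha c hc h
    have ha' : 0 < a := ha
    have hc' : 0 < c := hc
    have h1 := (Real.sqrt_inj (by positivity) (by positivity)).1 h
    exact (pow_left_inj₀ ha'.le hc'.le two_ne_zero).1 (by linarith)
  rw [← him, lintegral_image_eq_lintegral_abs_deriv_mul measurableSet_Ioi hd hi]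
  refine setLIntegral_congr_fun measurableSet_Ioi fun r hr => ?_
  have hr' : 0 < r := hr
  have hp : 0 < √(s ^ 2 + r ^ 2) := Real.sqrt_pos.2 (by positivity)
  rw [← mul_assoc, ← ENNReal.ofReal_mul (abs_nonneg _), abs_of_pos (by positivity)]
  congr 2
  field_simp

theorem scale {ρ : ℝ} (hρ : 0 < ρ) (f : ℝ → ℝ≥0∞) :
    ∫⁻ s in Ioo (-ρ) ρ, f (s / ρ) = ENNReal.ofReal ρ * ∫⁻ u in Icc (-1 : ℝ) 1, f u := by
  have him : (fun u : ℝ => ρ * u) '' Ioo (-1) 1 = Ioo (-ρ) ρ := by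
    rw [image_mul_left_Ioo hρ]
    simp
  have hd : ∀ u ∈ Ioo (-1 : ℝ) 1, HasDerivWithinAt (fun u : ℝ => ρ * u) ρ (Ioo (-1) 1) u :=
    fun u _ => by simpa using ((hasDerivAt_id u).const_mul ρ).hasDerivWithinAt
  rw [← him, lintegral_image_eq_lintegral_abs_deriv_mul measurableSet_Ioo hd
    (fun a _ c _ h => mul_left_cancel₀ hρ.ne' h), setLIntegral_congr Ioo_ae_eq_Icc,
    lintegral_const_mul' _ _ ENNReal.ofReal_ne_top, abs_of_pos hρ]
  congr 1
  refine lintegral_congr fun u => ?_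
  rw [mul_div_cancel_left₀ _ hρ.ne']

theorem cube : ∫⁻ ρ in Ioo (0 : ℝ) 1, ENNReal.ofReal ρ * ENNReal.ofReal ρ = ENNReal.ofReal (1 / 3) := by
  have h := Measure.volumeIoiPow_apply_Iio 2 ⟨1, mem_Ioi.2 one_pos⟩
  rw [Measure.volumeIoiPow, withDensity_apply _ measurableSet_Iio,
    setLIntegral_subtype measurableSet_Ioi _ fun a : ℝ => ENNReal.ofReal (a ^ 2),
    image_subtype_val_Ioi_Iio] at h
  rw [show (1 / 3 : ℝ) = 1 ^ (2 + 1) / ((2 : ℕ) + 1) by norm_num, ← h]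
  refine setLIntegral_congr_fun measurableSet_Ioo fun ρ hρ => ?_
  rw [sq, ENNReal.ofReal_mul hρ.1.le]

theorem cone (n : E) (hn : ‖n‖ = 1) (f : ℝ → ℝ≥0∞) (hf : Measurable f) :
    ∫⁻ p : E, (Ioo (0 : ℝ) 1).indicator 1 ‖p‖ * f (inner ℝ n p / ‖p‖) =
      ENNReal.ofReal (2 * Real.pi) * (ENNReal.ofReal (1 / 3) * ∫⁻ u in Icc (-1 : ℝ) 1, f u) := by
  have hI : Measurable ((Ioo (0 : ℝ) 1).indicator (1 : ℝ → ℝ≥0∞)) :=
    measurable_one.indicator measurableSet_Ioo
  have hG : Measurable fun z : ℝ × ℝ => (Ioo (0 : ℝ) 1).indicator 1 z.2 * f (z.1 / z.2) :=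
    (hI.comp measurable_snd).mul (hf.comp (measurable_fst.div measurable_snd))
  rw [coords n hn _ hG]
  have h1 : ∀ s : ℝ, ∫⁻ q : ℝ × ℝ, (Ioo (0 : ℝ) 1).indicator 1 √(s ^ 2 + (q.1 ^ 2 + q.2 ^ 2)) *
      f (s / √(s ^ 2 + (q.1 ^ 2 + q.2 ^ 2))) = ENNReal.ofReal (2 * Real.pi) *
        ∫⁻ ρ, (Ioo (0 : ℝ) 1).indicator 1 ρ * (ENNReal.ofReal ρ *
          (Ioo (-ρ) ρ).indicator (fun s => f (s / ρ)) s) := by
    intro s
    rw [plane (fun t => (Ioo (0 : ℝ) 1).indicator 1 √(s ^ 2 + t) * f (s / √(s ^ 2 + t)))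
      ((hI.comp (by fun_prop)).mul (hf.comp (by fun_prop))),
      radial s fun ρ => (Ioo (0 : ℝ) 1).indicator 1 ρ * f (s / ρ),
      ← lintegral_indicator measurableSet_Ioi]
    congr 1
    refine lintegral_congr fun ρ => ?_
    by_cases h : |s| < ρ
    · rw [indicator_of_mem (mem_Ioi.2 h), indicator_of_mem (mem_Ioo.2 (abs_lt.1 h)), mul_left_comm]
    · rw [indicator_of_notMem (fun h' => h (mem_Ioi.1 h')),
        indicator_of_notMem (fun h' => h (abs_lt.2 (mem_Ioo.1 h'))), mul_zero, mul_zero]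
  simp only [h1]
  rw [lintegral_const_mul' _ _ ENNReal.ofReal_ne_top]
  congr 1
  have hm : Measurable (Function.uncurry fun s ρ : ℝ => (Ioo (0 : ℝ) 1).indicator 1 ρ *
      (ENNReal.ofReal ρ * (Ioo (-ρ) ρ).indicator (fun s => f (s / ρ)) s)) := by
    refine (hI.comp measurable_snd).mul ((ENNReal.measurable_ofReal.comp measurable_snd).mul ?_)
    exact (hf.comp (measurable_fst.div measurable_snd)).indicator
      (s := {z : ℝ × ℝ | -z.2 < z.1 ∧ z.1 < z.2})
      ((measurableSet_lt measurable_snd.neg measurable_fst).inter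
        (measurableSet_lt measurable_fst measurable_snd))
  rw [lintegral_lintegral_swap hm.aemeasurable, ← cube,
    ← lintegral_mul_const _ (by fun_prop), ← lintegral_indicator measurableSet_Ioo]
  refine lintegral_congr fun ρ => ?_
  by_cases h : ρ ∈ Ioo (0 : ℝ) 1
  · rw [indicator_of_mem h, indicator_of_mem h, Pi.one_apply]
    simp only [one_mul]
    rw [lintegral_const_mul' _ _ ENNReal.ofReal_ne_top, lintegral_indicator measurableSet_Ioo,
      scale h.1, mul_assoc]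
  · rw [indicator_of_notMem h, indicator_of_notMem h]
    simp only [zero_mul, lintegral_zero]

theorem cone_set (n : E) (A : Set ℝ) :
    Ioo (0 : ℝ) 1 • ((↑) '' ((fun ω : S2 => inner ℝ n (ω : E)) ⁻¹' A) : Set E) =
      {p : E | ‖p‖ ∈ Ioo (0 : ℝ) 1 ∧ inner ℝ n p / ‖p‖ ∈ A} := by
  ext p
  constructor
  · rintro ⟨r, hr, _, ⟨ω, hω, rfl⟩, rfl⟩
    have e : ‖r • (ω : E)‖ = r := by rw [norm_smul, norm_S2, mul_one, Real.norm_of_nonneg hr.1.le]
    simp only [mem_ofPred_eq]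
    rw [e, real_inner_smul_right, mul_div_cancel_left₀ _ hr.1.ne']
    exact ⟨hr, hω⟩
  · rintro ⟨h1, h2⟩
    have h0 : ‖p‖ ≠ 0 := h1.1.ne'
    refine ⟨‖p‖, h1, ‖p‖⁻¹ • p, ⟨⟨‖p‖⁻¹ • p, ?_⟩, ?_, rfl⟩, ?_⟩
    · rw [mem_sphere_zero_iff_norm, norm_smul, norm_inv, norm_norm, inv_mul_cancel₀ h0]
    · rw [mem_preimage, real_inner_smul_right, ← div_eq_inv_mul]
      exact h2
    · simp only
      rw [smul_smul, mul_inv_cancel₀ h0, one_smul]

end Arch

theorem arch : ArchStmt := by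
  intro n hn f hf
  have hh : Measurable fun ω : S2 => inner ℝ n (ω : E) := by fun_prop
  have key : sph.map (fun ω : S2 => inner ℝ n (ω : E)) =
      ENNReal.ofReal (2 * Real.pi) • (volume : Measure ℝ).restrict (Icc (-1) 1) := by
    ext A hA
    have hm : MeasurableSet {p : E | ‖p‖ ∈ Ioo (0 : ℝ) 1 ∧ inner ℝ n p / ‖p‖ ∈ A} :=
      (measurable_norm measurableSet_Ioo).inter
        ((by fun_prop : Measurable fun p : E => inner ℝ n p / ‖p‖) hA)
    have h := Arch.cone n hn (A.indicator 1) (measurable_one.indicator hA)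
    rw [lintegral_indicator_one hA] at h
    rw [Measure.map_apply hh hA, sph, Measure.toSphere_apply' _ (hh hA), Arch.cone_set,
      ← lintegral_indicator_one hm, Measure.smul_apply, smul_eq_mul]
    have e : ∀ p : E, {p : E | ‖p‖ ∈ Ioo (0 : ℝ) 1 ∧ inner ℝ n p / ‖p‖ ∈ A}.indicator 1 p =
        (Ioo (0 : ℝ) 1).indicator (1 : ℝ → ℝ≥0∞) ‖p‖ * A.indicator 1 (inner ℝ n p / ‖p‖) := by
      intro p
      by_cases h1 : ‖p‖ ∈ Ioo (0 : ℝ) 1
      · by_cases h2 : inner ℝ n p / ‖p‖ ∈ A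
        · rw [indicator_of_mem h1, indicator_of_mem h2, indicator_of_mem (by exact ⟨h1, h2⟩)]
          simp
        · rw [indicator_of_notMem h2, indicator_of_notMem (fun h => h2 h.2), mul_zero]
      · rw [indicator_of_notMem h1, indicator_of_notMem (fun h => h1 h.1), zero_mul]
    simp only [e]
    rw [h, mul_left_comm, ← mul_assoc (_ : ℝ≥0∞) (ENNReal.ofReal (1 / 3)), finrank_euclideanSpace_fin,
      ← ENNReal.ofReal_natCast, ← ENNReal.ofReal_mul (by positivity)]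
    norm_num
  rw [← lintegral_map hf hh, key, lintegral_smul_measure, smul_eq_mul]

end

end Vale.Agent.P140
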