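import Vale.Agent.P140.AvAux

/-! The L¹ velocity averaging lemma. -/

namespace Vale.Agent.P140

open MeasureTheory Set Filter Topology AvAux
open scoped ENNReal

noncomputable section

namespace Av

/-- Truncation at level `M`. -/
def cl (M a : ℝ) : ℝ := max (-M) (min a M)

theorem meas_cl (M : ℝ) : Measurable (cl M) :=
  measurable_const.max (measurable_id.min measurable_const)

theorem abs_cl {M : ℝ} (hM : 0 ≤ M) (a : ℝ) : |cl M a| ≤ M :=
  abs_le.2 ⟨le_max_left _ _, max_le (by linarith) (min_le_right _ _)⟩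

theorem sub_cl {m M : ℝ} (hM : 0 ≤ M) (h : m ≤ M) (a : ℝ) :
    ENNReal.ofReal |a - cl M a| ≤ ENNReal.ofReal (|a| - m) := by
  rcases le_total a (-M) with h1 | h1
  · refine ENNReal.ofReal_le_ofReal ?_
    rw [cl, min_eq_left (by linarith), max_eq_left h1, abs_of_nonpos (by linarith),
      abs_of_nonpos (by linarith)]
    linarith
  rcases le_total a M with h2 | h2
  · simp [cl, h1, h2]
  · refine ENNReal.ofReal_le_ofReal ?_
    rw [cl, min_eq_right h2, max_eq_right (by linarith), abs_of_nonneg (by linarith),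
      abs_of_nonneg (by linarith)]
    linarith

theorem small {α : Type} [MeasurableSpace α] {μ : Measure α} {f : α → ℝ} (hf : Measurable f)
    {m M ε : ℝ} {A : Set α} (hM : 0 ≤ M) (h : m ≤ M) (hε : 0 ≤ ε)
    (h1 : ∫⁻ x, ENNReal.ofReal (|f x| - A.indicator (fun _ => m) x) ∂μ ≤ ENNReal.ofReal ε) :
    Integrable (fun x => |f x - cl M (f x)|) μ ∧ ∫ x, |f x - cl M (f x)| ∂μ ≤ ε := by
  have m1 : AEStronglyMeasurable (fun x => |f x - cl M (f x)|) μ :=
    (hf.sub ((meas_cl M).comp hf)).abs.aestronglyMeasurable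
  have h2 : ∫⁻ x, ENNReal.ofReal |f x - cl M (f x)| ∂μ ≤ ENNReal.ofReal ε :=
    (lintegral_mono fun x => sub_cl hM (indicator_apply_le' (fun _ => h) fun _ => hM) _).trans h1
  have h3 : 0 ≤ᵐ[μ] fun x => |f x - cl M (f x)| := Eventually.of_forall fun _ => abs_nonneg _
  refine ⟨(lintegral_ofReal_ne_top_iff_integrable m1 h3).1
    (h2.trans_lt ENNReal.ofReal_lt_top).ne, ?_⟩
  rw [integral_eq_lintegral_of_nonneg_ae h3 m1]
  exact ENNReal.toReal_le_of_le_ofReal hε h2

theorem prim_sub {T : ℝ} {H K : ℝ → ℝ} (hH : Integrable H (mT T)) (hK : Integrable K (mT T))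
    (t : ℝ) : |prim T H t - prim T K t| ≤ ∫ s, |H s - K s| ∂mT T := by
  refine (congrArg _ (integral_sub (hH.indicator (measurableSet_Iic (a := t)))
    (hK.indicator measurableSet_Iic)).symm).trans_le (norm_integral_le_of_norm_le
      (f := fun s => (Iic t).indicator H s - (Iic t).indicator K s) (hH.sub hK).abs
      (Eventually.of_forall fun s => ?_))
  by_cases hs : s ∈ Iic t <;> simp [hs]

theorem close (hT : TorusStmt) {T δ : ℝ} (h0 : 0 ≤ T) {D : ℝ × Om → ℝ} {e : Om → ℝ}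
    (hD : Measurable D) (he : Integrable e) (hδ : ∫ p, e p ≤ δ)
    (h : ∀ t ∈ Icc 0 T, ∀ p, |D (t, fl t p)| ≤ e p) :
    Integrable (fun q : (ℝ × T3) × E => D (q.1.1, q.1.2, q.2)) ((mX T).prod volume) ∧
      ∫ q : (ℝ × T3) × E, |D (q.1.1, q.1.2, q.2)| ∂(mX T).prod volume ≤ T * δ := by
  have h1 := hT.2.2.2.2.2.2.2.1 (mT T) 1 0
  simp only [one_mul, add_zero] at h1
  have h2 : ∀ᵐ y ∂(mT T).prod volume, ‖D (y.1, fl y.1 y.2)‖ ≤ e y.2 :=
    (ae_fst volume T).mono fun y hy => h _ hy _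
  have h3 := (he.comp_snd (mT T)).mono' (hD.comp h1.measurable).aestronglyMeasurable h2
  have h4 := measurePreserving_prodAssoc (mT T) (volume : Measure T3) (volume : Measure E)
  refine ⟨h4.integrable_comp_of_integrable
    ((h1.integrable_comp hD.aestronglyMeasurable).1 h3), ?_⟩
  refine ((int_mp h4 hD.abs).symm.trans (int_mp h1 hD.abs)).trans_le
    ((integral_mono_ae h3.abs (he.comp_snd (mT T)) h2).trans ?_)
  rw [integral_fun_snd, real_mT h0]
  exact mul_le_mul_of_nonneg_left hδ h0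

end Av

open Av in
theorem av (hU : UIStmt) (hT : TorusStmt) (h : AvBddStmt) : AvStmt := by
  intro T ψ h0 hm h1 hr g₀ k g u0 uk mg ik hg ε hε
  have hψ := int_psi hm h1 hr
  have := finX T
  obtain ⟨κ, hκ, e1⟩ : ∃ κ : ℝ, 0 < κ ∧ κ * (2 * T + 1) = ε :=
    ⟨ε / (2 * T + 1), by positivity, by field_simp⟩
  obtain ⟨M₁, A₁, a1, -, -, a2⟩ := (hU.2.2 _ _).2.1 _ u0 κ hκ
  obtain ⟨M₂, A₂, -, -, -, a3⟩ := (hU.2.2 _ _).2.1 _ uk κ hκ
  obtain ⟨M, hM, b1, b2⟩ : ∃ M, 0 ≤ M ∧ M₁ ≤ M ∧ M₂ ≤ M :=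
    ⟨max M₁ M₂, le_max_of_le_left a1, le_max_left _ _, le_max_right _ _⟩
  have m0 : ∀ n, Measurable fun p => cl M (g₀ n p) := fun n => (meas_cl M).comp (u0.1 n)
  have mk : ∀ n, Measurable fun y : ℝ × Om => cl M (k n y.1 y.2) := fun n =>
    (meas_cl M).comp (uk.1 n)
  obtain ⟨G, hG⟩ : ∃ G : ℕ → ℝ → Om → ℝ, G = fun n t p =>
    sol T (fun p => cl M (g₀ n p)) (fun s p => cl M (k n s p)) t (fl (-t) p) := ⟨_, rfl⟩
  have mG : ∀ n, Measurable fun y : ℝ × Om => G n y.1 y.2 := fun n => hG ▸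
    (meas_sol T (h := fun s p => cl M (k n s p)) (m0 n) (mk n)).comp
      (measurable_fst.prodMk (meas_fl measurable_fst.neg measurable_snd))
  have bG : ∀ n t p, |G n t p| ≤ M + M * T := fun n t p =>
    hG ▸ abs_sol h0 (fun _ => abs_cl hM _) (fun _ _ => abs_cl hM _) _ _
  have eG : ∀ n t p, G n t (fl t p) =
      cl M (g₀ n p) + prim T (fun s => cl M (k n s (fl s p))) t := fun n t p => by
    simp only [hG, fl_fl, neg_add_cancel, neg_add_cancel_right, fl_zero, sol]
  obtain ⟨ζ, z1, z2⟩ := h T M ψ h0 hm h1 hr _ (fun n s p => cl M (k n s p)) G m0 mk mG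
    (fun _ _ => abs_cl hM _) (fun _ _ _ => abs_cl hM _)
    (fun n t ht p => by rw [eG, prim_eq ht]) κ hκ
  refine ⟨ζ, z1, z2.mono fun n hn => ?_⟩
  obtain ⟨c1, c2⟩ := small (u0.1 n) hM b1 hκ.le (a2 n)
  obtain ⟨c3, c4⟩ := small (uk.1 n) hM b2 hκ.le (a3 n)
  have h2 := hT.2.2.2.2.2.2.2.1 (mT T) 1 0
  simp only [one_mul, add_zero] at h2
  have c5 : Integrable (fun y : ℝ × Om => |k n y.1 (fl y.1 y.2) - cl M (k n y.1 (fl y.1 y.2))|)
      ((mT T).prod volume) := h2.integrable_comp_of_integrable c3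
  obtain ⟨d1, d2⟩ := close hT h0 (δ := κ + κ) ((mg n).fun_sub (mG n))
    (c1.add c5.integral_prod_right) ((integral_add c1 c5.integral_prod_right).trans_le
      (add_le_add c2 (((integral_prod_symm _ c5).symm.trans
        (int_mp h2 ((uk.1 n).sub (mk n)).abs).symm).trans_le c4))) fun t ht p => by
    simp only [Pi.add_apply]
    rw [hg n t ht, eG, ← prim_eq ht, add_sub_add_comm]
    exact (abs_add_le _ _).trans (add_le_add le_rfl (prim_sub
      ((intervalIntegrable_iff_integrableOn_Icc_of_le h0).1 (ik n p))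
      (intb ((mk n).comp (measurable_id.prodMk (meas_fl measurable_id measurable_const)))
        fun _ => abs_cl hM _) t))
  have i1 : Integrable (fun y : ℝ × T3 => ∫ v, G n y.1 (y.2, v) * ψ v) (mX T) :=
    intb (meas_int _ (((mG n).comp (measurable_fst.fst.prodMk (measurable_fst.snd.prodMk
      measurable_snd))).mul (hm.comp measurable_snd))) fun y => abs_intm hψ fun _ => bG n _ _
  refine (integral_mono_of_nonneg (Eventually.of_forall fun _ => abs_nonneg _)
    (d1.abs.integral_prod_left.add (i1.sub z1).abs) (d1.prod_right_ae.mono fun y hy => ?_)).trans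
    ((integral_add d1.abs.integral_prod_left (i1.sub z1).abs).trans_le ?_)
  · have i2 : Integrable fun v => G n y.1 (y.2, v) * ψ v := intm hψ
      ((mG n).comp (measurable_const.prodMk measurable_prodMk_left)) fun _ => bG n _ _
    have i3 : Integrable fun v => (g n y.1 (y.2, v) - G n y.1 (y.2, v)) * ψ v :=
      hy.mul_bdd hm.aestronglyMeasurable (Eventually.of_forall h1)
    have e2 : ∫ v, g n y.1 (y.2, v) * ψ v = (∫ v, (g n y.1 (y.2, v) - G n y.1 (y.2, v)) * ψ v) +
        ∫ v, G n y.1 (y.2, v) * ψ v := by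
      simp only [← integral_add i3 i2, ← add_mul, sub_add_cancel]
    simp only [e2, add_sub_assoc]
    refine (abs_add_le _ _).trans (add_le_add (norm_integral_le_of_norm_le
      (f := fun v => (g n y.1 (y.2, v) - G n y.1 (y.2, v)) * ψ v) hy.abs
      (Eventually.of_forall fun v => ?_)) le_rfl)
    rw [Real.norm_eq_abs, abs_mul]
    exact mul_le_of_le_one_right (abs_nonneg _) (h1 v)
  · refine (add_le_add ((integral_prod _ d1.abs).symm.trans_le d2) hn).trans_eq ?_
    linarith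

end

end Vale.Agent.P140
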