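import Vale.Agent.P140.StmB

/-! Common tools for the velocity averaging lemmas. -/

namespace Vale.Agent.P140

open MeasureTheory Set Filter Topology
open scoped ENNReal

noncomputable section

namespace AvAux

theorem prob : IsProbabilityMeasure (volume : Measure T3) :=
  ⟨by simp [volume_pi, Measure.pi_univ]⟩

theorem inv : (volume : Measure Om).IsAddRightInvariant :=
  ⟨fun q => ((measurePreserving_add_right (volume : Measure T3) q.1).prod
    (measurePreserving_add_right (volume : Measure E) q.2)).map_eq⟩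

theorem finX (T : ℝ) : IsFiniteMeasure (mX T) := by unfold mX; infer_instance

theorem real_mT {T : ℝ} (hT : 0 ≤ T) : (mT T).real univ = T := by simp [mT, hT]

theorem real_mX {T : ℝ} (hT : 0 ≤ T) : (mX T).real univ = T := by
  have := prob
  rw [mX, ← univ_prod_univ, measureReal_prod_prod, real_mT hT]
  simp

theorem ae_mT (T : ℝ) : ∀ᵐ t ∂mT T, t ∈ Icc 0 T := ae_restrict_mem measurableSet_Icc

theorem ae_fst {β : Type} [MeasurableSpace β] (ν : Measure β) [SFinite ν] (T : ℝ) :
    ∀ᵐ y ∂(mT T).prod ν, y.1 ∈ Icc 0 T :=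
  Measure.quasiMeasurePreserving_fst.ae (ae_mT T)

theorem intb {α : Type} [MeasurableSpace α] {μ : Measure α} [IsFiniteMeasure μ] {F : α → ℝ}
    (hF : Measurable F) {K : ℝ} (hK : ∀ y, |F y| ≤ K) : Integrable F μ :=
  Integrable.of_bound hF.aestronglyMeasurable K (Eventually.of_forall hK)

theorem intg {α β : Type} [MeasurableSpace α] [MeasurableSpace β] {μ : Measure α} {ν : Measure β}
    [IsFiniteMeasure μ] [SFinite ν] {w : β → ℝ} (hw : Integrable w ν) {F : α × β → ℝ} (hF : Measurable F)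
    {K : ℝ} (hK : ∀ y, |F y| ≤ K) : Integrable (fun y => w y.2 * F y) (μ.prod ν) :=
  (hw.comp_snd μ).mul_bdd hF.aestronglyMeasurable (Eventually.of_forall hK)

theorem intm {β : Type} [MeasurableSpace β] {ν : Measure β} {w F : β → ℝ} (hw : Integrable w ν)
    (hF : Measurable F) {K : ℝ} (hK : ∀ y, |F y| ≤ K) : Integrable (fun y => F y * w y) ν :=
  hw.bdd_mul hF.aestronglyMeasurable (Eventually.of_forall hK)

theorem abs_intm {β : Type} [MeasurableSpace β] {ν : Measure β} {w F : β → ℝ}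
    (hw : Integrable w ν) {K : ℝ} (hK : ∀ y, |F y| ≤ K) :
    |∫ y, F y * w y ∂ν| ≤ K * ∫ y, |w y| ∂ν := by
  rw [← integral_const_mul]
  refine norm_integral_le_of_norm_le (f := fun y => F y * w y) (hw.abs.const_mul K)
    (Eventually.of_forall fun y => ?_)
  rw [Real.norm_eq_abs, abs_mul]
  exact mul_le_mul_of_nonneg_right (hK y) (abs_nonneg _)

theorem abs_intb {T K : ℝ} (hT : 0 ≤ T) {F : ℝ → ℝ} (hK : ∀ y, |F y| ≤ K) :
    |∫ y, F y ∂mT T| ≤ K * T :=
  (norm_integral_le_of_norm_le_const (f := F) (Eventually.of_forall hK)).trans_eq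
    (by rw [real_mT hT])

theorem meas_int {α β : Type} [MeasurableSpace α] [MeasurableSpace β] (ν : Measure β) [SFinite ν]
    {F : α → β → ℝ} (hF : Measurable fun y : α × β => F y.1 y.2) :
    Measurable fun x => ∫ y, F x y ∂ν :=
  (hF.stronglyMeasurable.integral_prod_right' (ν := ν)).measurable

theorem int_mp {α β : Type} [MeasurableSpace α] [MeasurableSpace β] {μ : Measure α}
    {ν : Measure β} {φ : α → β} (h : MeasurePreserving φ μ ν) {F : β → ℝ} (hF : Measurable F) :
    ∫ y, F y ∂ν = ∫ x, F (φ x) ∂μ := by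
  rw [← h.map_eq, integral_map h.measurable.aemeasurable hF.aestronglyMeasurable]

theorem int_psi {ψ : E → ℝ} (hm : Measurable ψ) (h1 : ∀ v, |ψ v| ≤ 1)
    (hr : ∃ r : ℝ, ∀ v, r < ‖v‖ → ψ v = 0) : Integrable ψ := by
  obtain ⟨r, hr⟩ := hr
  refine IntegrableOn.integrable_of_forall_notMem_eq_zero (s := Metric.closedBall 0 r)
    (Measure.integrableOn_of_bounded (M := 1) measure_closedBall_lt_top.ne
      hm.aestronglyMeasurable (Eventually.of_forall h1)) fun v hv => hr v (by simpa using hv)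

theorem meas_pr : Measurable pr := continuous_pr.measurable

theorem meas_fl {α : Type} [MeasurableSpace α] {t : α → ℝ} {p : α → Om} (ht : Measurable t)
    (hp : Measurable p) : Measurable fun a => fl (t a) (p a) :=
  continuous_fl.measurable.comp (ht.prodMk hp)

/-- Modulus of continuity of translations. -/
def om (w : E → ℝ) (u : E) : ℝ := ∫ v, |w (v + u) - w v|

theorem om_zero (w : E → ℝ) : om w 0 = 0 := by simp [om]

theorem om_nonneg (w : E → ℝ) (u : E) : 0 ≤ om w u := integral_nonneg fun _ => abs_nonneg _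

theorem om_le {w : E → ℝ} (hw : Integrable w) (u : E) : |om w u| ≤ 2 * ∫ v, |w v| := by
  rw [abs_of_nonneg (om_nonneg w u), two_mul]
  have h1 := hw.comp_add_right u
  refine (integral_mono (h1.sub hw).abs (h1.abs.add hw.abs) fun v => abs_sub _ _).trans_eq ?_
  exact (integral_add h1.abs hw.abs).trans
    (congrArg (· + _) (integral_add_right_eq_self (fun v => |w v|) u))

theorem om_cont {w : E → ℝ} (hw : Integrable w) : Continuous (om w) := by
  let g : E → C(E, E) := fun u => ⟨fun v => v + u, by fun_prop⟩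
  have hg : Continuous g :=
    ContinuousMap.continuous_of_continuous_uncurry _ (continuous_snd.add continuous_fst)
  have hm : ∀ u, MeasurePreserving (g u) volume volume := fun u => measurePreserving_add_right _ u
  have h1 := (continuous_const (y := hw.toL1 w)).compMeasurePreservingLp hg hm ENNReal.one_ne_top
  refine (h1.fun_sub (continuous_const (y := hw.toL1 w))).norm.congr fun u => ?_
  rw [L1.norm_eq_integral_norm]
  refine integral_congr_ae ?_
  filter_upwards [Lp.coeFn_sub (Lp.compMeasurePreserving (g u) (hm u) (hw.toL1 w)) (hw.toL1 w),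
    Lp.coeFn_compMeasurePreserving (hw.toL1 w) (hm u), hw.coeFn_toL1,
    (hm u).quasiMeasurePreserving.ae_eq_comp hw.coeFn_toL1] with v h2 h3 h4 h5
  rw [h2, Pi.sub_apply, h3, h4, h5]
  rfl

/-- Primitive in time. -/
def prim (T : ℝ) (H : ℝ → ℝ) (t : ℝ) : ℝ := ∫ s, (if s ≤ t then H s else 0) ∂mT T

theorem prim_eq {T t : ℝ} (ht : t ∈ Icc 0 T) (H : ℝ → ℝ) : prim T H t = ∫ s in (0 : ℝ)..t, H s := by
  have h1 : Iic t ∩ Icc 0 T = Icc 0 t :=
    Set.ext fun s => ⟨fun h => ⟨h.2.1, h.1⟩, fun h => ⟨h.2, h.1, h.2.trans ht.2⟩⟩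
  rw [intervalIntegral.integral_of_le ht.1, ← integral_Icc_eq_integral_Ioc, ← h1,
    ← Measure.restrict_restrict measurableSet_Iic, ← integral_indicator measurableSet_Iic]
  rfl

theorem abs_ite {p : Prop} [Decidable p] {a M : ℝ} (h : |a| ≤ M) : |if p then a else 0| ≤ M := by
  split_ifs
  · exact h
  · exact abs_zero.trans_le ((abs_nonneg a).trans h)

theorem abs_prim {T M : ℝ} (hT : 0 ≤ T) {H : ℝ → ℝ} (hM : ∀ s, |H s| ≤ M) (t : ℝ) :
    |prim T H t| ≤ M * T := abs_intb hT fun s => abs_ite (hM s)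

theorem meas_prim {α : Type} [MeasurableSpace α] (T : ℝ) {H : α → ℝ → ℝ} {t : α → ℝ}
    (hH : Measurable fun y : α × ℝ => H y.1 y.2) (ht : Measurable t) :
    Measurable fun a => prim T (H a) (t a) :=
  meas_int _ (Measurable.ite (measurableSet_le measurable_snd (ht.comp measurable_fst)) hH
    measurable_const)

/-- The solution of the transport equation along flights. -/
def sol (T : ℝ) (g₀ : Om → ℝ) (h : ℝ → Om → ℝ) (t : ℝ) (p : Om) : ℝ :=
  g₀ p + prim T (fun s => h s (fl s p)) t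

theorem meas_sol (T : ℝ) {g₀ : Om → ℝ} {h : ℝ → Om → ℝ} (h0 : Measurable g₀)
    (hh : Measurable fun y : ℝ × Om => h y.1 y.2) :
    Measurable fun y : ℝ × Om => sol T g₀ h y.1 y.2 :=
  (h0.comp measurable_snd).add (meas_prim T (H := fun (y : ℝ × Om) s => h s (fl s y.2))
    (hh.comp (measurable_snd.prodMk (meas_fl measurable_snd measurable_fst.snd))) measurable_fst)

theorem abs_sol {T M : ℝ} (hT : 0 ≤ T) {g₀ : Om → ℝ} {h : ℝ → Om → ℝ} (h0 : ∀ p, |g₀ p| ≤ M)
    (hh : ∀ t p, |h t p| ≤ M) (t : ℝ) (p : Om) : |sol T g₀ h t p| ≤ M + M * T :=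
  (abs_add_le _ _).trans (add_le_add (h0 p) (abs_prim hT (fun _ => hh _ _) t))

theorem sol_eq {T t : ℝ} (ht : t ∈ Icc 0 T) {g₀ : Om → ℝ} {h g : ℝ → Om → ℝ}
    (hg : ∀ t ∈ Icc (0 : ℝ) T, ∀ p, g t (fl t p) = g₀ p + ∫ s in (0 : ℝ)..t, h s (fl s p))
    (p : Om) : g t p = sol T g₀ h t (fl (-t) p) := by
  rw [sol, prim_eq ht, ← hg t ht, fl_fl, add_neg_cancel, fl_zero]

theorem abs_le_sq {κ : ℝ} (hκ : 0 < κ) (a : ℝ) : |a| ≤ κ + a ^ 2 / κ := by
  rw [← sub_le_iff_le_add', le_div_iff₀ hκ, ← sq_abs a]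
  nlinarith [sq_nonneg (|a| - κ), mul_nonneg (abs_nonneg a) hκ.le]

end AvAux

end

end Vale.Agent.P140
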