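import Vale.Agent.P140.AvAux

/-! Compactness of velocity averages of bounded solutions. -/

namespace Vale.Agent.P140

open MeasureTheory Set Filter Topology AvAux
open scoped ENNReal

noncomputable section

namespace AvBdd

theorem lim {X : Type} [TopologicalSpace X] {F : ℕ → X → ℝ} {K : ℝ} (hK : ∀ n y, |F n y| ≤ K)
    (hb : ∀ y₀, ∃ b : X → ℝ, Tendsto b (𝓝 y₀) (𝓝 0) ∧ ∀ n y, |F n y - F n y₀| ≤ b y) :
    ∃ f : X → ℝ, Continuous f ∧ (∀ y, |f y| ≤ K) ∧ ∀ S, IsCompact S → ∀ ε : ℝ, 0 < ε →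
      ∀ᶠ n in UF, ∀ y ∈ S, |F n y - f y| ≤ ε := by
  have h1 : ∀ y, ∃ l ∈ Icc (-K) K, Tendsto (fun n => F n y) UF (𝓝 l) := fun y =>
    isCompact_Icc.ultrafilter_le_nhds' ((hyperfilter ℕ).map fun n => F n y)
      (Ultrafilter.mem_map.2 (univ_mem' fun n => abs_le.1 (hK n y)))
  choose f h2 h3 using h1
  choose b h4 h5 using hb
  have : UF.NeBot := (hyperfilter ℕ).neBot
  have h6 : ∀ y₀ y, |f y - f y₀| ≤ b y₀ y := fun y₀ y =>
    le_of_tendsto' ((h3 y).sub (h3 y₀)).abs fun n => h5 y₀ n y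
  refine ⟨f, continuous_iff_continuousAt.2 fun y₀ => tendsto_iff_dist_tendsto_zero.2
    (squeeze_zero (fun _ => dist_nonneg) (h6 y₀) (h4 y₀)), fun y => abs_le.2 (h2 y),
    fun S hS ε hε => ?_⟩
  refine hS.induction_on (p := fun S => ∀ᶠ n in UF, ∀ y ∈ S, |F n y - f y| ≤ ε) (by simp)
    (fun s t hst h => h.mono fun n hn y hy => hn y (hst hy))
    (fun s t hs ht => (hs.and ht).mono fun n hn y hy => hy.elim (hn.1 y) (hn.2 y)) fun y₀ _ =>
    ⟨{y | b y₀ y < ε / 3}, mem_nhdsWithin_of_mem_nhds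
      ((h4 y₀).eventually (gt_mem_nhds (by positivity))), ?_⟩
  filter_upwards [Metric.tendsto_nhds.1 (h3 y₀) (ε / 3) (by positivity)] with n hn y hy
  have a1 := abs_le.1 ((h5 y₀ n y).trans hy.le)
  have a2 := abs_le.1 ((h6 y₀ y).trans hy.le)
  have a3 := abs_lt.1 (show |F n y₀ - f y₀| < ε / 3 from hn)
  exact abs_le.2 ⟨by linarith, by linarith⟩

theorem prim_lip {T M : ℝ} {H : ℝ → ℝ} (hH : Measurable H) (hM : ∀ s, |H s| ≤ M) (t t' : ℝ) :
    |prim T H t' - prim T H t| ≤ M * |t' - t| := by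
  have h1 : ∀ t, prim T H t = ∫ s in Iic t, (Icc 0 T).indicator H s := fun t => by
    rw [integral_indicator measurableSet_Icc, Measure.restrict_restrict measurableSet_Icc,
      inter_comm, ← Measure.restrict_restrict measurableSet_Iic,
      ← integral_indicator measurableSet_Iic]
    rfl
  have h2 : Integrable ((Icc 0 T).indicator H) :=
    (integrable_indicator_iff measurableSet_Icc).2 (intb (μ := mT T) hH hM)
  rw [h1, h1, intervalIntegral.integral_Iic_sub_Iic h2.integrableOn h2.integrableOn]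
  exact intervalIntegral.norm_integral_le_of_norm_le_const fun s _ =>
    (norm_indicator_le_norm_self H s).trans (hM s)

theorem norm_rep (hT : TorusStmt) (x : T3) : ‖rep x‖ ≤ 1 := by
  have h := hT.2.2.1 x
  rw [← sq_le_one_iff₀ (norm_nonneg _), EuclideanSpace.real_norm_sq_eq, Fin.sum_univ_three]
  nlinarith [(h 0).1, (h 0).2, (h 1).1, (h 1).2, (h 2).1, (h 2).2]

/-- Velocity average. -/
def rh (ψ : E → ℝ) (G : ℝ → Om → ℝ) (y : ℝ × T3) : ℝ := ∫ v, G y.1 (fl (-y.1) (y.2, v)) * ψ v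

/-- Average in space at fixed velocity. -/
def A (φ : E → ℝ) (G : ℝ → Om → ℝ) (y : ℝ × E) (v : E) : ℝ :=
  ∫ z, G y.1 (fl (-y.1) (pr y.2 + pr z, v)) * φ z

variable {ψ φ : E → ℝ} {G : ℝ → Om → ℝ} {L M : ℝ}

theorem meas_G (hG : Measurable fun y : ℝ × Om => G y.1 y.2) {α : Type} [MeasurableSpace α]
    {t s : α → ℝ} {x : α → T3} {v : α → E} (ht : Measurable t) (hs : Measurable s)
    (hx : Measurable x) (hv : Measurable v) :
    Measurable fun a => G (t a) (fl (-s a) (x a, v a)) :=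
  hG.comp (ht.prodMk (meas_fl hs.neg (hx.prodMk hv)))

theorem meas_rh (hG : Measurable fun y : ℝ × Om => G y.1 y.2) (hm : Measurable ψ) :
    Measurable (rh ψ G) :=
  meas_int _ ((meas_G hG measurable_fst.fst measurable_fst.fst measurable_fst.snd
    measurable_snd).mul (hm.comp measurable_snd))

theorem meas_A (hG : Measurable fun y : ℝ × Om => G y.1 y.2) (hm : Measurable φ) (y : ℝ × E) :
    Measurable (A φ G y) :=
  meas_int _ ((meas_G hG measurable_const measurable_const
    ((meas_pr.comp measurable_snd).const_add _) measurable_fst).mul (hm.comp measurable_snd))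

theorem A_sub (hG : Measurable fun y : ℝ × Om => G y.1 y.2) (hφ : Integrable φ)
    (hL : ∀ t p, |G t p| ≤ L) (hM : ∀ t t' p, |G t' p - G t p| ≤ M * |t' - t|) (y y' : ℝ × E)
    (v : E) : |A φ G y' v - A φ G y v| ≤
      L * om φ ((y'.1 - y.1) • v - (y'.2 - y.2)) + M * |y'.1 - y.1| * ∫ z, |φ z| := by
  obtain ⟨d, hd⟩ : ∃ d, d = (y'.1 - y.1) • v - (y'.2 - y.2) := ⟨_, rfl⟩
  have m : ∀ t, Measurable fun z => G t (fl (-y.1) (pr y.2 + pr z, v)) := fun t =>
    meas_G hG measurable_const measurable_const (meas_pr.const_add _) measurable_const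
  have h1 : A φ G y' v = ∫ z, G y'.1 (fl (-y.1) (pr y.2 + pr z, v)) * φ (z + d) := by
    rw [A, ← integral_add_right_eq_self _ d]
    refine integral_congr_ae (Eventually.of_forall fun z => ?_)
    have e : pr y'.2 + pr (z + d) + pr (-y'.1 • v) = pr y.2 + pr z + pr (-y.1 • v) := by
      simp only [← pr_add, hd]
      congr 1
      module
    simp only [fl, e]
  have h2 : A φ G y' v - A φ G y v =
      (∫ z, G y'.1 (fl (-y.1) (pr y.2 + pr z, v)) * (φ (z + d) - φ z)) +
      ∫ z, (G y'.1 (fl (-y.1) (pr y.2 + pr z, v)) - G y.1 (fl (-y.1) (pr y.2 + pr z, v))) * φ z := by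
    simp only [mul_sub, sub_mul]
    rw [integral_sub (intm (hφ.comp_add_right d) (m _) fun _ => hL _ _)
      (intm hφ (m _) fun _ => hL _ _), integral_sub (intm hφ (m _) fun _ => hL _ _)
      (intm hφ (m _) fun _ => hL _ _), h1, sub_add_sub_cancel, A]
  rw [h2, ← hd]
  exact (abs_add_le _ _).trans (add_le_add (abs_intm ((hφ.comp_add_right d).sub hφ) fun _ => hL _ _)
    (abs_intm hφ fun _ => hM _ _ _))

theorem modulus (hψ : Integrable ψ) (hφ : Integrable φ) (L M : ℝ) (y : ℝ × E) :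
    Tendsto (fun y' : ℝ × E => L * (∫ v, om φ ((y'.1 - y.1) • v - (y'.2 - y.2)) * |ψ v|) +
      M * |y'.1 - y.1| * (∫ z, |φ z|) * ∫ v, |ψ v|) (𝓝 y) (𝓝 0) := by
  have h0 := om_cont hφ
  have h1 : Continuous fun y' : ℝ × E => ∫ v, om φ ((y'.1 - y.1) • v - (y'.2 - y.2)) * |ψ v| :=
    continuous_of_dominated (bound := fun v => (2 * ∫ z, |φ z|) * |ψ v|)
      (fun y' => (by fun_prop : Continuous fun v : E =>
        om φ ((y'.1 - y.1) • v - (y'.2 - y.2))).aestronglyMeasurable.mul hψ.abs.1)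
      (fun y' => Eventually.of_forall fun v => by
        rw [Real.norm_eq_abs, abs_mul, abs_abs]
        exact mul_le_mul_of_nonneg_right (om_le hφ _) (abs_nonneg _))
      (hψ.abs.const_mul _) (Eventually.of_forall fun v => by fun_prop)
  refine Continuous.tendsto' (by fun_prop) _ _ ?_
  simp [om_zero]

theorem J_sub (hG : Measurable fun y : ℝ × Om => G y.1 y.2) (hψ : Integrable ψ)
    (hφ : Integrable φ) (hm : Measurable φ) (hL : ∀ t p, |G t p| ≤ L)
    (hM : ∀ t t' p, |G t' p - G t p| ≤ M * |t' - t|) (y y' : ℝ × E) :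
    |(∫ v, A φ G y' v * ψ v) - ∫ v, A φ G y v * ψ v| ≤
      L * (∫ v, om φ ((y'.1 - y.1) • v - (y'.2 - y.2)) * |ψ v|) +
        M * |y'.1 - y.1| * (∫ z, |φ z|) * ∫ v, |ψ v| := by
  have i1 : ∀ y, Integrable fun v => A φ G y v * ψ v := fun y =>
    intm hψ (meas_A hG hm y) fun v => abs_intm hφ fun _ => hL _ _
  have i2 : Integrable fun v => L * (om φ ((y'.1 - y.1) • v - (y'.2 - y.2)) * |ψ v|) :=
    (intm hψ.abs ((om_cont hφ).measurable.comp (by fun_prop)) fun v => om_le hφ _).const_mul L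
  rw [← integral_sub (i1 y') (i1 y), ← integral_const_mul, ← integral_const_mul _ fun v => |ψ v|,
    ← integral_add i2 (hψ.abs.const_mul _)]
  refine norm_integral_le_of_norm_le (f := fun v => A φ G y' v * ψ v - A φ G y v * ψ v)
    (i2.add (hψ.abs.const_mul _)) (Eventually.of_forall fun v => ?_)
  rw [← sub_mul, Real.norm_eq_abs, abs_mul, ← mul_assoc, ← add_mul]
  exact mul_le_mul_of_nonneg_right (A_sub hG hφ hL hM y y' v) (abs_nonneg _)

theorem J_eq (hG : Measurable fun y : ℝ × Om => G y.1 y.2) (hψ : Integrable ψ)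
    (hφ : Integrable φ) (hL : ∀ t p, |G t p| ≤ L) (y : ℝ × E) :
    ∫ v, A φ G y v * ψ v = ∫ z, φ z * rh ψ G (y.1, pr y.2 + pr z) := by
  simp only [A, rh, ← integral_const_mul, ← integral_mul_const]
  rw [integral_integral_swap
    (f := fun v z => G y.1 (fl (-y.1) (pr y.2 + pr z, v)) * φ z * ψ v)]
  · simp only [mul_comm _ (φ _), mul_assoc]
  · simp only [Function.uncurry_def, mul_assoc, mul_comm (φ _)]
    exact intm (hψ.mul_prod hφ) (meas_G hG measurable_const measurable_const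
      ((meas_pr.comp measurable_snd).const_add _) measurable_fst) fun _ => hL _ _

theorem J_close {ρ : ℝ × T3 → ℝ} (hρ : Measurable ρ) {K T δ η : ℝ} (hK : ∀ y, |ρ y| ≤ K)
    (hφ : Integrable φ) (h0 : ∀ z, 0 ≤ φ z) (h1 : ∫ z, φ z = 1) (hη : ∀ z, φ z ≠ 0 → ‖z‖ ≤ η)
    (hδ : ∀ z, ‖z‖ ≤ η → ∫ y, |ρ (y.1, y.2 + pr z) - ρ y| ∂mX T ≤ δ) :
    ∃ e : ℝ × T3 → ℝ, Integrable e (mX T) ∧ ∫ y, e y ∂mX T ≤ δ ∧
      ∀ y, |ρ y - ∫ z, φ z * ρ (y.1, y.2 + pr z)| ≤ e y := by
  have := finX T
  have m : Measurable fun q : (ℝ × T3) × E => ρ (q.1.1, q.1.2 + pr q.2) :=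
    hρ.comp (measurable_fst.fst.prodMk (measurable_fst.snd.add (meas_pr.comp measurable_snd)))
  have i1 := intg (μ := mX T) hφ (m.fun_sub (hρ.comp measurable_fst)).abs
    fun q => (abs_abs _).trans_le ((abs_sub _ _).trans (add_le_add (hK _) (hK _)))
  have h2 : ∀ a : ℝ, ∫ z, φ z * a = a := fun a => by rw [integral_mul_const, h1, one_mul]
  refine ⟨_, i1.integral_prod_left, ?_, fun y => ?_⟩
  · rw [integral_integral_swap i1, ← h2 δ]
    refine integral_mono i1.integral_prod_right (hφ.mul_const δ) fun z => ?_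
    simp only [Function.comp, integral_const_mul]
    by_cases hz : φ z = 0
    · simp [hz]
    · exact mul_le_mul_of_nonneg_left (hδ z (hη z hz)) (h0 z)
  · have m1 : Measurable fun z => ρ (y.1, y.2 + pr z) := m.comp (measurable_prodMk_left (x := y))
    have i2 : Integrable fun z => φ z * ρ (y.1, y.2 + pr z) :=
      hφ.mul_bdd m1.aestronglyMeasurable (Eventually.of_forall fun _ => hK _)
    rw [abs_sub_comm, ← h2 (ρ y), ← integral_sub i2 (hφ.mul_const _)]
    refine abs_integral_le_integral_abs.trans_eq (integral_congr_ae (Eventually.of_forall fun z => ?_))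
    simp only [Function.comp, ← mul_sub, abs_mul, abs_of_nonneg (h0 z)]

end AvBdd

open AvBdd in
theorem avBdd (hU : UIStmt) (hT : TorusStmt) (h : AvL2Stmt) : AvBddStmt := by
  intro T M ψ h0 hm h1 hr g₀ k g m0 mk _ b0 bk hg ε hε
  have hψ := int_psi hm h1 hr
  have := finX T
  obtain ⟨κ, hκ, e1⟩ : ∃ κ : ℝ, 0 < κ ∧ κ * (2 * (T + 1)) = ε :=
    ⟨ε / (2 * (T + 1)), by positivity, by field_simp⟩
  obtain ⟨η, hη, h2⟩ := h T M ψ h0 hm h1 hr (κ * κ) (by positivity)
  let b : ContDiffBump (0 : E) := ⟨η / 2, η, half_pos hη, half_lt_self hη⟩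
  have p1 : Integrable (b.normed volume) := b.integrable_normed
  have p2 : Measurable (b.normed volume) := b.continuous_normed.measurable
  have mG := fun n => meas_sol T (m0 n) (mk n)
  have bG := fun n => abs_sol h0 (b0 n) (bk n)
  obtain ⟨f, f1, f2, f3⟩ := lim
    (F := fun n y => ∫ v, A (b.normed volume) (sol T (g₀ n) (k n)) y v * ψ v)
    (fun n y => abs_intm hψ fun v => abs_intm p1 fun _ => bG n _ _)
    fun y => ⟨_, modulus hψ p1 (M + M * T) M y, fun n y' => J_sub (mG n) hψ p1 p2 (bG n)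
      (fun t t' p => by
        rw [sol, sol, add_sub_add_left_eq_sub]
        exact prim_lip ((mk n).comp (measurable_id.prodMk (meas_fl measurable_id measurable_const)))
          (fun _ => bk n _ _) t t') y y'⟩
  refine ⟨fun y => f (y.1, rep y.2), intb (f1.measurable.comp
    (measurable_fst.prodMk (hT.1.comp measurable_snd))) fun _ => f2 _, ?_⟩
  filter_upwards [f3 _ ((isCompact_Icc (a := 0) (b := T)).prod (isCompact_closedBall (0 : E) 1))
    κ hκ] with n hn
  have m1 := meas_rh (mG n) hm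
  have b1 : ∀ y, |rh ψ (sol T (g₀ n) (k n)) y| ≤ (M + M * T) * ∫ v, |ψ v| := fun y =>
    abs_intm hψ fun _ => bG n _ _
  obtain ⟨e, e2, e3, e4⟩ := J_close (T := T) (δ := κ * T + κ) (η := η) m1 b1 p1 b.nonneg_normed
    b.integral_normed (fun z hz => (mem_ball_zero_iff.1 (b.support_normed_eq.subset hz)).le)
    fun z hz => by
      have h3 := h2 (g₀ n) (k n) (fun t p => sol T (g₀ n) (k n) t (fl (-t) p)) (m0 n) (mk n)
        ((mG n).comp (measurable_fst.prodMk (meas_fl measurable_fst.neg measurable_snd))) (b0 n)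
        (bk n) (fun t ht p => by rw [fl_fl, neg_add_cancel, fl_zero, sol, prim_eq ht]) z hz
      have i1 : Integrable (fun y => (rh ψ (sol T (g₀ n) (k n)) (y.1, y.2 + pr z) -
          rh ψ (sol T (g₀ n) (k n)) y) ^ 2 / κ) (mX T) := (intb (((m1.comp
        (measurable_fst.prodMk (measurable_snd.add_const _))).sub m1).pow_const 2) fun y =>
          (abs_pow _ 2).trans_le (pow_le_pow_left₀ (abs_nonneg _)
            ((abs_sub _ _).trans (add_le_add (b1 _) (b1 _))) 2)).div_const κ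
      refine (integral_mono_of_nonneg (Eventually.of_forall fun _ => abs_nonneg _)
        ((integrable_const κ).add i1) (Eventually.of_forall fun y => abs_le_sq hκ _)).trans
        ((integral_add (integrable_const κ) i1).trans_le ?_)
      rw [integral_const, real_mX h0, integral_div, smul_eq_mul, mul_comm]
      exact add_le_add le_rfl ((div_le_iff₀ hκ).2 h3)
  refine (integral_mono_of_nonneg (Eventually.of_forall fun _ => abs_nonneg _)
    (e2.add (integrable_const κ)) ((ae_fst volume T).mono fun y hy => ?_)).trans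
    ((integral_add e2 (integrable_const κ)).trans_le ?_)
  · have h3 := hn (y.1, rep y.2) ⟨hy, mem_closedBall_zero_iff.2 (norm_rep hT _)⟩
    rw [J_eq (mG n) hψ p1 (bG n), hT.2.1] at h3
    simp only [sol_eq hy (hg n)]
    exact (abs_sub_le _ _ _).trans (add_le_add (e4 y) h3)
  · rw [integral_const, real_mX h0, smul_eq_mul]
    nlinarith

end

end Vale.Agent.P140
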