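import Vale.Agent.P140.AvFA

/-!
Strong convergence of the velocity averages of an approximating sequence.
-/

namespace Vale.Agent.P140

open MeasureTheory Set Filter Topology
open scoped ENNReal

noncomputable section

namespace AvF

lemma tail_le {q C s r : ℝ} (h : |q| ≤ C * (1 + s)) (hr : 0 ≤ r) (hs : r < s) :
    |q| ≤ |C| / (1 + r) * (1 + s) ^ 2 := by
  have h1 : |q| ≤ |C| * (1 + s) := h.trans (by gcongr; linarith; exact le_abs_self C)
  have h2 : (1 + s) ≤ (1 + s) ^ 2 / (1 + r) := by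
    rw [le_div_iff₀ (by linarith)]; nlinarith
  calc |q| ≤ |C| * (1 + s) := h1
    _ ≤ |C| * ((1 + s) ^ 2 / (1 + r)) := by gcongr
    _ = |C| / (1 + r) * (1 + s) ^ 2 := by ring

lemma radius_ok {K B ε : ℝ} (hK : 0 ≤ K) (hε : 0 < ε) :
    K / (1 + K * |B| / ε) * B ≤ ε := by
  have h0 : 0 ≤ K * |B| / ε := by positivity
  rw [div_mul_eq_mul_div, div_le_iff₀ (by linarith)]
  have h1 : ε * (1 + K * |B| / ε) = ε + K * |B| := by field_simp
  rw [h1]
  have h2 : K * B ≤ K * |B| := by gcongr; exact le_abs_self B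
  linarith

lemma integral_pos_le {α : Type} [MeasurableSpace α] {μ : Measure α} {g : α → ℝ} {ε : ℝ}
    (hg : AEStronglyMeasurable g μ) (hε : 0 ≤ ε)
    (h : ∫⁻ x, ENNReal.ofReal (g x) ∂μ ≤ ENNReal.ofReal ε) : ∫ x, max (g x) 0 ∂μ ≤ ε := by
  rw [integral_eq_lintegral_of_nonneg_ae (f := fun x => max (g x) 0)
    (Eventually.of_forall fun x => le_max_right _ _)
    (hg.aemeasurable.max aemeasurable_const).aestronglyMeasurable]
  refine ENNReal.toReal_le_of_le_ofReal hε (le_trans (le_of_eq ?_) h)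
  refine lintegral_congr fun x => ?_
  rcases le_total (g x) 0 with h0 | h0
  · rw [max_eq_right h0, ENNReal.ofReal_zero, ENNReal.ofReal_of_nonpos h0]
  · rw [max_eq_left h0]

lemma ren_err {y b m : ℝ} (hy : 0 ≤ y) (hb : 0 ≤ b) (hm : 0 < m) :
    0 ≤ y - y / (1 + y / m) ∧ y - y / (1 + y / m) ≤ 4 * b ^ 2 / m + 2 * max (y - b) 0 := by
  have h1 : y - y / (1 + y / m) = y ^ 2 / (m + y) := by field_simp; ring
  rw [h1]
  refine ⟨by positivity, ?_⟩
  rcases le_total y (2 * b) with h | h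
  · have h2 : y ^ 2 / (m + y) ≤ 4 * b ^ 2 / m := by
      rw [div_le_div_iff₀ (by linarith) hm]
      have : y ^ 2 ≤ 4 * b ^ 2 := by nlinarith
      nlinarith [sq_nonneg b, mul_nonneg (sq_nonneg b) hy]
    have := le_max_right (y - b) 0
    linarith
  · have h2 : y ^ 2 / (m + y) ≤ y := by
      rw [div_le_iff₀ (by linarith)]; nlinarith
    have h3 := le_max_left (y - b) 0
    have h4 : 0 ≤ 4 * b ^ 2 / m := by positivity
    linarith

lemma ui_weight (hU : UIStmt) {R δ : ℕ → ℝ} {Fn : ℕ → ℝ → Om → ℝ} {F₀ : Om → ℝ}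
    (hap : Apr R δ Fn F₀) (T : ℝ) {C : ℝ} {ψ : E → ℝ} (hψ : Measurable ψ)
    (hψb : ∀ v, |ψ v| ≤ C * (1 + ‖v‖)) :
    UI (mY T) (fun n y => Fn n y.1 y.2 * ψ y.2.2) := by
  obtain ⟨Cm, hCm⟩ := hap.mom
  have hmn := fun n => mom_int (T := T) (hap.ts n).meas (hap.ts n).nonneg (hCm n)
  obtain ⟨-, -, -, -, -, h6, h7, -, -⟩ := hU.2.2 _ (mY T)
  refine h7 _ (fun n => (hap.ts n).meas.mul (hψ.comp (by fun_prop))) fun ε hε => ?_
  set B := (mT T).real univ * Cm with hB
  set r := |C| * |B| / ε with hr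
  have hr0 : 0 ≤ r := by positivity
  refine ⟨fun n y => (|C| * (1 + r)) * Fn n y.1 y.2, h6 _ _ (hap.uiY T), fun n => ?_⟩
  have hI := (hmn n).1.const_mul (|C| / (1 + r))
  calc ∫⁻ y, ENNReal.ofReal (|Fn n y.1 y.2 * ψ y.2.2| - |(|C| * (1 + r)) * Fn n y.1 y.2|) ∂(mY T)
      ≤ ∫⁻ y, ENNReal.ofReal (|C| / (1 + r) * (Fn n y.1 y.2 * (1 + ‖y.2.2‖) ^ 2)) ∂(mY T) := by
        refine lintegral_mono fun y => ENNReal.ofReal_le_ofReal ?_
        have h0 := (hap.ts n).nonneg y.1 y.2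
        rw [abs_mul, abs_mul, abs_of_nonneg h0, abs_of_nonneg (by positivity : 0 ≤ |C| * (1 + r))]
        rcases le_or_gt ‖y.2.2‖ r with h | h
        · have h1 : |ψ y.2.2| ≤ |C| * (1 + r) :=
            (hψb _).trans (by gcongr; exact le_abs_self C)
          have h2 : Fn n y.1 y.2 * |ψ y.2.2| ≤ Fn n y.1 y.2 * (|C| * (1 + r)) := by gcongr
          have h3 : 0 ≤ |C| / (1 + r) * (Fn n y.1 y.2 * (1 + ‖y.2.2‖) ^ 2) := by positivity
          linarith
        · have h1 := tail_le (hψb y.2.2) hr0 h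
          have h2 : Fn n y.1 y.2 * |ψ y.2.2| ≤
              Fn n y.1 y.2 * (|C| / (1 + r) * (1 + ‖y.2.2‖) ^ 2) := by gcongr
          have h3 : 0 ≤ |C| * (1 + r) * Fn n y.1 y.2 := by positivity
          linarith
    _ = ENNReal.ofReal (∫ y, |C| / (1 + r) * (Fn n y.1 y.2 * (1 + ‖y.2.2‖) ^ 2) ∂(mY T)) := by
        rw [ofReal_integral_eq_lintegral_ofReal hI]
        refine Eventually.of_forall fun y => ?_
        have h0 := (hap.ts n).nonneg y.1 y.2
        show 0 ≤ |C| / (1 + r) * (Fn n y.1 y.2 * (1 + ‖y.2.2‖) ^ 2)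
        positivity
    _ ≤ ENNReal.ofReal ε := by
        refine ENNReal.ofReal_le_ofReal ?_
        rw [integral_const_mul]
        calc |C| / (1 + r) * ∫ y, Fn n y.1 y.2 * (1 + ‖y.2.2‖) ^ 2 ∂(mY T)
            ≤ |C| / (1 + r) * B := by gcongr; exact (hmn n).2
          _ ≤ ε := radius_ok (abs_nonneg C) hε

/-- The averaging lemma applied to the renormalized truncated sequence. -/
lemma ren_av (hU : UIStmt) (hR : RenUIStmt) (hB : BetaStmt) (hA : AvStmt)
    {R δ : ℕ → ℝ} {Fn : ℕ → ℝ → Om → ℝ} {F₀ : Om → ℝ}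
    (hap : Apr R δ Fn F₀) {T r m : ℝ} (hT : 0 ≤ T) (hm : 0 < m) {ψ : E → ℝ} (hψ : Measurable ψ)
    (hψb : ∀ v, |ψ v| ≤ 1) (hψr : ∀ v, r < ‖v‖ → ψ v = 0) {ε : ℝ} (hε : 0 < ε) :
    ∃ ζ : ℝ × T3 → ℝ, Integrable ζ (mX T) ∧ ∀ᶠ n in UF,
      ∫ y, |(∫ v, cut r (y.2, v) * (Fn n y.1 (y.2, v) / (1 + Fn n y.1 (y.2, v) / m)) * ψ v) - ζ y|
        ∂(mX T) ≤ ε := by
  obtain ⟨-, hR2, hR3⟩ := hR R δ Fn F₀ hap T r m hm
  obtain ⟨-, -, -, h4, h5, h6, -, -, -⟩ := hU.2.2 _ (mY T)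
  have hden : ∀ n t p, 1 ≤ 1 + Fn n t p / m := fun n t p => by
    have := (hap.ts n).nonneg t p
    have : 0 ≤ Fn n t p / m := by positivity
    linarith
  have hdm : ∀ n, Measurable (fun y : ℝ × Om => 1 + Fn n y.1 y.2 / m) := fun n =>
    measurable_const.add ((hap.ts n).meas.div_const m)
  have hdiv : ∀ a d : ℝ, 1 ≤ d → |a / d| ≤ |a| := fun a d hd => by
    rw [abs_div, abs_of_pos (by linarith : 0 < d)]
    exact div_le_self (abs_nonneg _) hd
  refine hA T ψ hT hψ hψb ⟨r, hψr⟩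
    (fun n p => cut r p * (Fn n 0 p / (1 + Fn n 0 p / m)))
    (fun n s p => cut r p * (gT (R n) (δ n) (Fn n s) p / (1 + Fn n s p / m) ^ 2 -
      nT (R n) (δ n) (Fn n s) p * Fn n s p / (1 + Fn n s p / m) ^ 2))
    (fun n t p => cut r p * (Fn n t p / (1 + Fn n t p / m))) ?_ ?_ ?_ ?_ ?_ ε hε
  · have h0 := hap.uiT 0 le_rfl
    refine (hU.2.2 _ volume).2.2.2.1 _ _ h0 (fun n => ?_) fun n => Eventually.of_forall fun p => ?_
    · exact (meas_cut r).mul ((h0.1 n).div (measurable_const.add ((h0.1 n).div_const m)))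
    · rw [abs_mul, abs_of_nonneg (cut_nonneg r p)]
      calc cut r p * |Fn n 0 p / (1 + Fn n 0 p / m)| ≤ 1 * |Fn n 0 p| :=
            mul_le_mul (cut_le_one r p) (hdiv _ _ (hden n 0 p)) (abs_nonneg _) zero_le_one
        _ = |Fn n 0 p| := one_mul _
  · have ha := h4 _ (fun n y => cut r y.2 * (gT (R n) (δ n) (Fn n y.1) y.2 /
      (1 + Fn n y.1 y.2 / m)) / (1 + Fn n y.1 y.2 / m)) hR3 (fun n => (hR3.1 n).div (hdm n))
      fun n => Eventually.of_forall fun y => hdiv _ _ (hden n y.1 y.2)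
    have hb := h4 _ (fun n y => cut r y.2 * (nT (R n) (δ n) (Fn n y.1) y.2 * Fn n y.1 y.2 /
      (1 + Fn n y.1 y.2 / m)) / (1 + Fn n y.1 y.2 / m)) hR2 (fun n => (hR2.1 n).div (hdm n))
      fun n => Eventually.of_forall fun y => hdiv _ _ (hden n y.1 y.2)
    have hc := h5 _ _ ha (h6 _ (-1) hb)
    convert hc using 3 with n y
    have := hden n y.1 y.2
    field_simp
    ring
  · intro n
    exact ((meas_cut r).comp measurable_snd).mul ((hap.ts n).meas.div (hdm n))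
  · intro n p
    obtain ⟨h1, h2, -⟩ := hB _ _ _ _ (hap.Rpos n) (hap.δpos n) (hap.ts n) m hm p 0 T le_rfl hT
    simp only [cut_fl]
    exact (h1.sub h2).const_mul _
  · intro n t ht p
    obtain ⟨-, -, h3⟩ := hB _ _ _ _ (hap.Rpos n) (hap.δpos n) (hap.ts n) m hm p 0 t le_rfl ht.1
    simp only [cut_fl]
    rw [h3, fl_zero, intervalIntegral.integral_const_mul, mul_add]

lemma err_pt {y b m M C r : ℝ} {q s : ℝ} (hy : 0 ≤ y) (hb : 0 ≤ b) (hm : 0 < m) (hr : 0 ≤ r)
    (hs : 0 ≤ s) (hM : M = |C| * (1 + r) + 1) (hq : |q| ≤ C * (1 + s)) :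
    |y * q - M * ((if s ≤ r then 1 else 0) * (y / (1 + y / m)) * (if s ≤ r then q / M else 0))| ≤
      |C| / (1 + r) * (y * (1 + s) ^ 2) + 4 * M / m * b ^ 2 + 2 * M * max (|y| - b) 0 := by
  have hM0 : 0 < M := by rw [hM]; positivity
  have h0 : 0 ≤ max (|y| - b) 0 := le_max_right _ _
  split_ifs with h
  · obtain ⟨h1, h2⟩ := ren_err hy hb hm
    have e : y * q - M * (1 * (y / (1 + y / m)) * (q / M)) = (y - y / (1 + y / m)) * q := by
      field_simp
    have h3 : |q| ≤ M := by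
      have : C * (1 + s) ≤ |C| * (1 + r) := by gcongr; exact le_abs_self C
      linarith
    rw [e, abs_mul, abs_of_nonneg h1, abs_of_nonneg hy]
    have h4 : (y - y / (1 + y / m)) * |q| ≤ (4 * b ^ 2 / m + 2 * max (y - b) 0) * M := by
      gcongr
    have h5 : 0 ≤ |C| / (1 + r) * (y * (1 + s) ^ 2) := by positivity
    have h6 : (4 * b ^ 2 / m + 2 * max (y - b) 0) * M =
      4 * M / m * b ^ 2 + 2 * M * max (y - b) 0 := by ring
    linarith
  · have h1 := tail_le hq hr (not_le.1 h)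
    rw [mul_zero, mul_zero, sub_zero, abs_mul, abs_of_nonneg hy]
    have h2 : y * |q| ≤ y * (|C| / (1 + r) * (1 + s) ^ 2) := by gcongr
    have h3 : 0 ≤ 4 * M / m * b ^ 2 := by positivity
    have h4 : 0 ≤ 2 * M * max (y - b) 0 := by have := le_max_right (y - b) 0; positivity
    linarith

lemma approx (hU : UIStmt) (hR : RenUIStmt) (hB : BetaStmt) (hA : AvStmt)
    {R δ : ℕ → ℝ} {Fn : ℕ → ℝ → Om → ℝ} {F₀ : Om → ℝ}
    (hap : Apr R δ Fn F₀) {T C : ℝ} (hT : 0 ≤ T) {ψ : E → ℝ} (hψ : Measurable ψ)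
    (hψb : ∀ v, |ψ v| ≤ C * (1 + ‖v‖)) (ε : ℝ) (hε : 0 < ε) :
    ∃ ζ : ℝ × T3 → ℝ, Integrable ζ (mX T) ∧ ∀ᶠ n in UF,
      ∫ y, |(∫ v, Fn n y.1 (y.2, v) * ψ v) - ζ y| ∂(mX T) ≤ ε := by
  obtain ⟨Cm, hCm⟩ := hap.mom
  have hmn := fun n => mom_int (T := T) (hap.ts n).meas (hap.ts n).nonneg (hCm n)
  set B := (mT T).real univ * Cm with hBdef
  set r := |C| * |B| / (ε / 4) with hr
  have hr0 : 0 ≤ r := by positivity
  obtain ⟨M, hM⟩ : ∃ M, M = |C| * (1 + r) + 1 := ⟨_, rfl⟩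
  have hM0 : 0 < M := by rw [hM]; positivity
  obtain ⟨M₀, A, hM₀, hAm, hAfin, hAb⟩ :=
    (hU.2.2 _ (mY T)).2.1 _ (hap.uiY T) (ε / (8 * M)) (by positivity)
  have hFI : ∀ n, Integrable (fun y : ℝ × Om => Fn n y.1 y.2) (mY T) :=
    ((hU.2.2 _ (mY T)).1 _ (hap.uiY T)).1
  have hA0 : 0 ≤ (mY T).real A := measureReal_nonneg
  obtain ⟨m, hm⟩ : ∃ m, m = 16 * M * M₀ ^ 2 * (mY T).real A / ε + 1 := ⟨_, rfl⟩
  have hm0 : 0 < m := by rw [hm]; positivity
  set ψ' : E → ℝ := fun v => if ‖v‖ ≤ r then ψ v / M else 0 with hψ'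
  have hψ'm : Measurable ψ' :=
    Measurable.ite (measurableSet_le (by fun_prop) measurable_const) (hψ.div_const M)
      measurable_const
  have hψ'b : ∀ v, |ψ' v| ≤ 1 := by
    intro v
    simp only [hψ']
    split_ifs with h
    · rw [abs_div, abs_of_pos hM0, div_le_one hM0]
      have : C * (1 + ‖v‖) ≤ |C| * (1 + r) := by gcongr; exact le_abs_self C
      linarith [hψb v]
    · simp
  obtain ⟨ζ, hζ, hev⟩ := ren_av hU hR hB hA hap (r := r) hT hm0 hψ'm hψ'b
    (fun v hv => if_neg (not_le.2 hv)) (ε := ε / (4 * M)) (by positivity)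
  refine ⟨fun y => M * ζ y, hζ.const_mul M, ?_⟩
  filter_upwards [hev] with n hn
  have h0 := (hap.ts n).nonneg
  set G : ℝ × Om → ℝ := fun y => Fn n y.1 y.2 * ψ y.2.2 with hG
  set H : ℝ × Om → ℝ := fun y =>
    cut r y.2 * (Fn n y.1 y.2 / (1 + Fn n y.1 y.2 / m)) * ψ' y.2.2 with hH
  have hGI : Integrable G (mY T) :=
    int_weight (hap.ts n).meas (fun y => h0 _ _) (hmn n).1 (hψ.comp (by fun_prop))
      fun y => hψb y.2.2
  have hHI : Integrable H (mY T) := by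
    refine (hFI n).mono' ?_ (Eventually.of_forall fun y => ?_)
    · exact ((((meas_cut r).comp measurable_snd).mul ((hap.ts n).meas.div
        (measurable_const.add ((hap.ts n).meas.div_const m)))).mul
        (hψ'm.comp (by fun_prop))).aestronglyMeasurable
    · have h1 := h0 y.1 y.2
      have h2 : 0 ≤ Fn n y.1 y.2 / m := by positivity
      have h3 : Fn n y.1 y.2 / (1 + Fn n y.1 y.2 / m) ≤ Fn n y.1 y.2 :=
        div_le_self h1 (by linarith)
      simp only [hH]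
      rw [Real.norm_eq_abs, abs_mul, abs_mul, abs_of_nonneg (cut_nonneg _ _),
        abs_of_nonneg (by positivity)]
      calc cut r y.2 * (Fn n y.1 y.2 / (1 + Fn n y.1 y.2 / m)) * |ψ' y.2.2|
          ≤ 1 * Fn n y.1 y.2 * 1 := by
            gcongr
            · exact cut_le_one _ _
            · exact hψ'b _
        _ = Fn n y.1 y.2 := by ring
  have hbI : Integrable (A.indicator fun _ => M₀) (mY T) :=
    (integrable_indicator_iff hAm).2 (integrableOn_const hAfin.ne)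
  have hb2I : Integrable (fun y => (A.indicator (fun _ => M₀) y) ^ 2) (mY T) ∧
      ∫ y, (A.indicator (fun _ => M₀) y) ^ 2 ∂(mY T) = (mY T).real A * M₀ ^ 2 := by
    have e : (fun y => (A.indicator (fun _ => M₀) y) ^ 2) = A.indicator fun _ => M₀ ^ 2 := by
      funext y; by_cases hy : y ∈ A <;> simp [hy]
    rw [e]
    refine ⟨(integrable_indicator_iff hAm).2 (integrableOn_const hAfin.ne), ?_⟩
    rw [integral_indicator hAm]; simp
  have hpI : Integrable (fun y : ℝ × Om => max (|Fn n y.1 y.2| - A.indicator (fun _ => M₀) y) 0)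
      (mY T) := ((hFI n).abs.sub hbI).pos_part
  have hp : ∫ y, max (|Fn n y.1 y.2| - A.indicator (fun _ => M₀) y) 0 ∂(mY T) ≤ ε / (8 * M) :=
    integral_pos_le ((hFI n).abs.sub hbI).aestronglyMeasurable (by positivity) (hAb n)
  have hEI : Integrable (fun y => |G y - M * H y|) (mY T) := (hGI.sub (hHI.const_mul M)).abs
  have hE : ∫ y, |G y - M * H y| ∂(mY T) ≤ 3 * (ε / 4) := by
    have hI1 := (hmn n).1.const_mul (|C| / (1 + r))
    have hI2 := hb2I.1.const_mul (4 * M / m)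
    have hI3 := hpI.const_mul (2 * M)
    have hI12 : Integrable (fun y : ℝ × Om => |C| / (1 + r) * (Fn n y.1 y.2 * (1 + ‖y.2.2‖) ^ 2) +
      4 * M / m * (A.indicator (fun _ => M₀) y) ^ 2) (mY T) := hI1.add hI2
    calc ∫ y, |G y - M * H y| ∂(mY T)
        ≤ ∫ y, (|C| / (1 + r) * (Fn n y.1 y.2 * (1 + ‖y.2.2‖) ^ 2) +
            4 * M / m * (A.indicator (fun _ => M₀) y) ^ 2 +
            2 * M * max (|Fn n y.1 y.2| - A.indicator (fun _ => M₀) y) 0) ∂(mY T) := by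
          refine integral_mono hEI (hI12.add hI3) fun y => ?_
          exact err_pt (h0 _ _) (indicator_nonneg (fun _ _ => hM₀) y) hm0 hr0 (norm_nonneg _) hM
            (hψb y.2.2)
      _ = |C| / (1 + r) * ∫ y, Fn n y.1 y.2 * (1 + ‖y.2.2‖) ^ 2 ∂(mY T) +
            4 * M / m * ((mY T).real A * M₀ ^ 2) +
            2 * M * ∫ y, max (|Fn n y.1 y.2| - A.indicator (fun _ => M₀) y) 0 ∂(mY T) := by
          rw [integral_add hI12 hI3, integral_add hI1 hI2, integral_const_mul,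
            integral_const_mul, integral_const_mul, hb2I.2]
      _ ≤ ε / 4 + ε / 4 + ε / 4 := by
          gcongr ?_ + ?_ + ?_
          · calc |C| / (1 + r) * ∫ y, Fn n y.1 y.2 * (1 + ‖y.2.2‖) ^ 2 ∂(mY T)
                ≤ |C| / (1 + r) * B := by gcongr; exact (hmn n).2
              _ ≤ ε / 4 := radius_ok (abs_nonneg C) (by positivity)
          · rw [div_mul_eq_mul_div, div_le_iff₀ hm0, hm]
            have : ε / 4 * (16 * M * M₀ ^ 2 * (mY T).real A / ε + 1) =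
              4 * M * ((mY T).real A * M₀ ^ 2) + ε / 4 := by field_simp; ring
            rw [this]; linarith
          · calc 2 * M * ∫ y, max (|Fn n y.1 y.2| - A.indicator (fun _ => M₀) y) 0 ∂(mY T)
                ≤ 2 * M * (ε / (8 * M)) := by gcongr
              _ = ε / 4 := by field_simp; ring
      _ = 3 * (ε / 4) := by ring
  have hD : Integrable (fun y : ℝ × T3 => |(∫ v, H (y.1, (y.2, v))) - ζ y|) (mX T) :=
    ((int_marg hHI).sub hζ).abs
  calc ∫ y, |(∫ v, Fn n y.1 (y.2, v) * ψ v) - M * ζ y| ∂(mX T)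
      ≤ ∫ y, ((∫ v, |G (y.1, (y.2, v)) - M * H (y.1, (y.2, v))|) +
          M * |(∫ v, H (y.1, (y.2, v))) - ζ y|) ∂(mX T) := by
        refine integral_mono_ae ((int_marg hGI).sub (hζ.const_mul M)).abs
          ((int_marg hEI).add (hD.const_mul M)) ?_
        filter_upwards [ae_slice hGI, ae_slice hHI] with y h1 h2
        have e : (∫ v, Fn n y.1 (y.2, v) * ψ v) - M * ζ y =
            (∫ v, (G (y.1, (y.2, v)) - M * H (y.1, (y.2, v)))) +
              M * ((∫ v, H (y.1, (y.2, v))) - ζ y) := by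
          rw [integral_sub h1 (h2.const_mul M), integral_const_mul]
          simp only [hG]; ring
        rw [e]
        refine (abs_add_le _ _).trans ?_
        rw [abs_mul, abs_of_pos hM0]
        gcongr
        exact abs_integral_le_integral_abs
    _ = ∫ y, |G y - M * H y| ∂(mY T) + M * ∫ y, |(∫ v, H (y.1, (y.2, v))) - ζ y| ∂(mX T) := by
        rw [integral_add (int_marg hEI) (hD.const_mul M), integral_const_mul, integral_as hEI]
    _ ≤ 3 * (ε / 4) + M * (ε / (4 * M)) := by gcongr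
    _ = ε := by field_simp; ring

end AvF


open AvF in
theorem avF (hM : MeasStmt) (hU : UIStmt) (hW : WLStmt) (hT : TorusStmt) (hF : TSFlStmt)
    (hR : RenUIStmt) (hB : BetaStmt) (hA : AvStmt) : AvFStmt := by
  intro R δ Fn F₀ F hL T C ψ hψ hψb
  have hap := hL.apr
  obtain ⟨Cm, hCm⟩ := hap.mom
  obtain ⟨Cl, hCl⟩ := hL.mom
  have hmn := fun n => mom_int (T := T) (hap.ts n).meas (hap.ts n).nonneg (hCm n)
  have hml := mom_int (T := T) hL.meas hL.nonneg hCl
  have hψ2 : Measurable (fun y : ℝ × Om => ψ y.2.2) := hψ.comp (by fun_prop)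
  have hGn : ∀ n, Integrable (fun y : ℝ × Om => Fn n y.1 y.2 * ψ y.2.2) (mY T) := fun n =>
    int_weight (hap.ts n).meas (fun y => (hap.ts n).nonneg _ _) (hmn n).1 hψ2 fun y => hψb y.2.2
  have hG : Integrable (fun y : ℝ × Om => F y.1 y.2 * ψ y.2.2) (mY T) :=
    int_weight hL.meas (fun y => hL.nonneg _ _) hml.1 hψ2 fun y => hψb y.2.2
  refine ⟨int_marg hG, ?_, ?_⟩
  · have h1 := ui_weight hU hap T hψ hψb
    have h2 := (hU.2.2 _ ((mX T).prod (volume : Measure E))).2.2.2.2.2.2.2.1 _ (mY T) _ _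
      (mp_as T) h1
    exact (hU.2.2 _ (mX T)).2.2.2.2.2.2.2.2 _ volume _ h2
  · rcases lt_or_ge T 0 with hT0 | hT0
    · have e : mX T = 0 := by
        unfold mX mT
        rw [Icc_eq_empty (not_le.2 hT0), Measure.restrict_empty, Measure.zero_prod]
      simp only [e, integral_zero_measure]
      exact tendsto_const_nhds
    refine close_of_weak hU.2.1 (fun n => int_marg (hGn n)) (int_marg hG) (fun s hs hs1 => ?_)
      (approx hU hR hB hA hap hT0 hψ hψb)
    set B := (mT T).real univ * Cm with hBdef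
    have hsm : Measurable (fun y : ℝ × Om => ψ y.2.2 * s (y.1, y.2.1)) :=
      hψ2.mul (hs.comp (by fun_prop))
    have hsb : ∀ D : ℝ, |C| ≤ D → ∀ y : ℝ × Om,
        |ψ y.2.2 * s (y.1, y.2.1)| ≤ D * (1 + ‖y.2.2‖) := fun D hD y => by
      rw [abs_mul]
      calc |ψ y.2.2| * |s (y.1, y.2.1)| ≤ |ψ y.2.2| * 1 := by gcongr; exact hs1 _
        _ ≤ C * (1 + ‖y.2.2‖) := by rw [mul_one]; exact hψb _
        _ ≤ D * (1 + ‖y.2.2‖) := by gcongr; exact (le_abs_self C).trans hD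
    have h4 := ((hW _ (mY T)).2.2.2.1 (fun n y => Fn n y.1 y.2) (fun y => F y.1 y.2)
      (fun y => 1 + ‖y.2.2‖) (fun y => ψ y.2.2 * s (y.1, y.2.1)) (max |C| B) (hap.uiY T)
      (fun n y => (hap.ts n).nonneg _ _) (hL.wlY T) (by fun_prop)
      (fun y => by have := norm_nonneg y.2.2; linarith) (fun n => (hmn n).1)
      (fun n => (hmn n).2.trans (le_max_right _ _)) hsm (hsb _ (le_max_left _ _))).2
    have key : ∀ G : ℝ → Om → ℝ, Measurable (fun y : ℝ × Om => G y.1 y.2) → (∀ t p, 0 ≤ G t p) →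
        Integrable (fun y : ℝ × Om => G y.1 y.2 * (1 + ‖y.2.2‖) ^ 2) (mY T) →
        ∫ y, G y.1 y.2 * (ψ y.2.2 * s (y.1, y.2.1)) ∂(mY T) =
          ∫ y, (∫ v, G y.1 (y.2, v) * ψ v) * s y ∂(mX T) := by
      intro G h1 h2 h3
      rw [integral_as (int_weight h1 (fun y => h2 _ _) h3 hsm (hsb _ le_rfl))]
      refine integral_congr_ae (Eventually.of_forall fun y => ?_)
      simp only [← mul_assoc]
      rw [integral_mul_const]
    rw [key F hL.meas hL.nonneg hml.1] at h4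
    refine h4.congr fun n => ?_
    exact key (Fn n) (hap.ts n).meas (hap.ts n).nonneg (hmn n).1

end

end Vale.Agent.P140
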