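import Vale.Agent.P140.StmB

/-!
Fubini-type helpers on `[0, T] × T³ × ℝ³`.
-/

namespace Vale.Agent.P140

open MeasureTheory Set Filter Topology
open scoped ENNReal

noncomputable section

namespace AvF

lemma mp_as (T : ℝ) : MeasurePreserving
    (MeasurableEquiv.prodAssoc : (ℝ × T3) × E ≃ᵐ ℝ × T3 × E) ((mX T).prod volume) (mY T) :=
  measurePreserving_prodAssoc _ _ _

lemma int_as {T : ℝ} {G : ℝ × Om → ℝ} :
    Integrable (fun z : (ℝ × T3) × E => G (z.1.1, (z.1.2, z.2))) ((mX T).prod volume) ↔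
      Integrable G (mY T) :=
  (mp_as T).integrable_comp_emb (MeasurableEquiv.measurableEmbedding _)

lemma integral_as' {T : ℝ} (G : ℝ × Om → ℝ) :
    ∫ z : (ℝ × T3) × E, G (z.1.1, (z.1.2, z.2)) ∂((mX T).prod volume) = ∫ y, G y ∂(mY T) :=
  (mp_as T).integral_comp' G

lemma integral_as {T : ℝ} {G : ℝ × Om → ℝ} (h : Integrable G (mY T)) :
    ∫ y, G y ∂(mY T) = ∫ y, (∫ v, G (y.1, (y.2, v))) ∂(mX T) := by
  rw [← integral_as', integral_prod _ (int_as.2 h)]

lemma int_marg {T : ℝ} {G : ℝ × Om → ℝ} (h : Integrable G (mY T)) :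
    Integrable (fun y : ℝ × T3 => ∫ v, G (y.1, (y.2, v))) (mX T) :=
  (int_as.2 h).integral_prod_left

lemma ae_slice {T : ℝ} {G : ℝ × Om → ℝ} (h : Integrable G (mY T)) :
    ∀ᵐ y ∂(mX T), Integrable (fun v => G (y.1, (y.2, v))) :=
  (int_as.2 h).prod_right_ae

lemma ae_lift {T : ℝ} {P : ℝ × T3 → Prop} (h : ∀ᵐ y ∂(mX T), P y) :
    ∀ᵐ y ∂(mY T), P (y.1, y.2.1) := by
  have h1 : ∀ᵐ z ∂((mX T).prod (volume : Measure E)), P z.1 :=
    Measure.quasiMeasurePreserving_fst.ae h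
  exact ((mp_as T).symm _).quasiMeasurePreserving.ae h1

lemma meas_marg {G : ℝ × Om → ℝ} (h : Measurable G) :
    Measurable (fun y : ℝ × T3 => ∫ v, G (y.1, (y.2, v))) := by
  have h1 : Measurable (fun z : (ℝ × T3) × E => G (z.1.1, (z.1.2, z.2))) :=
    h.comp (by fun_prop)
  exact (h1.stronglyMeasurable.integral_prod_right' (ν := (volume : Measure E))).measurable

lemma meas_cut (r : ℝ) : Measurable (cut r) := by
  unfold cut
  exact Measurable.ite (measurableSet_le (by fun_prop) measurable_const) measurable_const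
    measurable_const

lemma cut_nonneg (r : ℝ) (p : Om) : 0 ≤ cut r p := by
  unfold cut; split_ifs <;> norm_num

lemma cut_le_one (r : ℝ) (p : Om) : cut r p ≤ 1 := by
  unfold cut; split_ifs <;> norm_num

lemma cut_fl (r s : ℝ) (p : Om) : cut r (fl s p) = cut r p := rfl

/-- Volume of the closed velocity ball. -/
def vb (r : ℝ) : ℝ := (volume : Measure E).real (Metric.closedBall 0 r)

lemma vb_nonneg (r : ℝ) : 0 ≤ vb r := measureReal_nonneg

lemma cut_eq (r : ℝ) (x : T3) (v : E) :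
    cut r (x, v) = (Metric.closedBall (0 : E) r).indicator (fun _ => (1 : ℝ)) v := by
  unfold cut
  by_cases h : ‖v‖ ≤ r
  · rw [if_pos h, indicator_of_mem (by simpa using h)]
  · rw [if_neg h, indicator_of_notMem (by simpa using h)]

lemma cut_int {T r : ℝ} {H : ℝ × T3 → ℝ} (h : Integrable H (mX T)) :
    Integrable (fun y : ℝ × Om => cut r y.2 * H (y.1, y.2.1)) (mY T) ∧
      ∫ y, cut r y.2 * H (y.1, y.2.1) ∂(mY T) = vb r * ∫ y, H y ∂(mX T) := by
  have hI : Integrable ((Metric.closedBall (0 : E) r).indicator (fun _ => (1 : ℝ))) volume :=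
    (integrable_indicator_iff measurableSet_closedBall).2
      (integrableOn_const (measure_closedBall_lt_top).ne)
  have he : (fun z : (ℝ × T3) × E => cut r (z.1.2, z.2) * H (z.1.1, z.1.2)) =
      fun z => H z.1 * (Metric.closedBall (0 : E) r).indicator (fun _ => (1 : ℝ)) z.2 := by
    funext z; rw [cut_eq, mul_comm]
  constructor
  · rw [← int_as]
    show Integrable (fun z : (ℝ × T3) × E => cut r (z.1.2, z.2) * H (z.1.1, z.1.2)) _
    rw [he]
    exact h.mul_prod hI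
  · rw [← integral_as']
    show ∫ z : (ℝ × T3) × E, cut r (z.1.2, z.2) * H (z.1.1, z.1.2) ∂_ = _
    rw [he, integral_prod_mul H, integral_indicator measurableSet_closedBall]
    simp [vb, mul_comm]

lemma ae_mT (T : ℝ) : ∀ᵐ t ∂(mT T), t ∈ Icc (0 : ℝ) T := by
  unfold mT; exact ae_restrict_mem measurableSet_Icc

lemma ae_mX (T : ℝ) : ∀ᵐ y ∂(mX T), y.1 ∈ Icc (0 : ℝ) T :=
  Measure.quasiMeasurePreserving_fst.ae (ae_mT T)

lemma ae_mY (T : ℝ) : ∀ᵐ y ∂(mY T), y.1 ∈ Icc (0 : ℝ) T :=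
  Measure.quasiMeasurePreserving_fst.ae (ae_mT T)

lemma mom_int {T C : ℝ} {F : ℝ → Om → ℝ} (hm : Measurable (fun y : ℝ × Om => F y.1 y.2))
    (h0 : ∀ t p, 0 ≤ F t p)
    (h : ∀ t, 0 ≤ t → Integrable (fun p : Om => F t p * (1 + ‖p.2‖) ^ 2) ∧
      ∫ p : Om, F t p * (1 + ‖p.2‖) ^ 2 ≤ C) :
    Integrable (fun y : ℝ × Om => F y.1 y.2 * (1 + ‖y.2.2‖) ^ 2) (mY T) ∧
      ∫ y, F y.1 y.2 * (1 + ‖y.2.2‖) ^ 2 ∂(mY T) ≤ (mT T).real univ * C := by
  have hm2 : Measurable (fun y : ℝ × Om => F y.1 y.2 * (1 + ‖y.2.2‖) ^ 2) :=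
    hm.mul (by fun_prop)
  have hI : Integrable (fun y : ℝ × Om => F y.1 y.2 * (1 + ‖y.2.2‖) ^ 2) (mY T) := by
    unfold mY
    rw [integrable_prod_iff hm2.aestronglyMeasurable]
    refine ⟨(ae_mT T).mono fun t ht => (h t ht.1).1, ?_⟩
    refine Integrable.of_bound (C := |C|) ?_ ?_
    · exact (hm2.norm.stronglyMeasurable.integral_prod_right'
        (ν := (volume : Measure Om))).aestronglyMeasurable
    · filter_upwards [ae_mT T] with t ht
      have e : ∫ p : Om, ‖F t p * (1 + ‖p.2‖) ^ 2‖ = ∫ p : Om, F t p * (1 + ‖p.2‖) ^ 2 := by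
        refine integral_congr_ae (Eventually.of_forall fun p => ?_)
        exact Real.norm_of_nonneg (mul_nonneg (h0 _ _) (by positivity))
      rw [Real.norm_of_nonneg (integral_nonneg fun p => norm_nonneg _)]
      exact (e.le.trans (h t ht.1).2).trans (le_abs_self C)
  refine ⟨hI, ?_⟩
  unfold mY at hI ⊢
  rw [integral_prod _ hI]
  calc ∫ t, (∫ p : Om, F t p * (1 + ‖p.2‖) ^ 2) ∂(mT T) ≤ ∫ _t, C ∂(mT T) :=
        integral_mono_ae hI.integral_prod_left (integrable_const C)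
          ((ae_mT T).mono fun t ht => (h t ht.1).2)
    _ = (mT T).real univ * C := by simp

lemma int_weight {T C : ℝ} {G : ℝ × Om → ℝ} {ψ : ℝ × Om → ℝ} (hG : Measurable G)
    (h0 : ∀ y, 0 ≤ G y) (hI : Integrable (fun y : ℝ × Om => G y * (1 + ‖y.2.2‖) ^ 2) (mY T))
    (hψ : Measurable ψ) (hb : ∀ y, |ψ y| ≤ C * (1 + ‖y.2.2‖)) :
    Integrable (fun y => G y * ψ y) (mY T) := by
  refine (hI.const_mul |C|).mono' (hG.mul hψ).aestronglyMeasurable
    (Eventually.of_forall fun y => ?_)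
  rw [Real.norm_eq_abs, abs_mul, abs_of_nonneg (h0 y)]
  have h1 : |ψ y| ≤ |C| * (1 + ‖y.2.2‖) ^ 2 := by
    have h2 : (1 + ‖y.2.2‖) ≤ (1 + ‖y.2.2‖) ^ 2 := by nlinarith [norm_nonneg y.2.2]
    calc |ψ y| ≤ C * (1 + ‖y.2.2‖) := hb y
      _ ≤ |C| * (1 + ‖y.2.2‖) := by gcongr; exact le_abs_self C
      _ ≤ |C| * (1 + ‖y.2.2‖) ^ 2 := by gcongr
  calc G y * |ψ y| ≤ G y * (|C| * (1 + ‖y.2.2‖) ^ 2) := by gcongr; exact h0 y
    _ = |C| * (G y * (1 + ‖y.2.2‖) ^ 2) := by ring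

/-- Weak convergence and eventual closeness to fixed functions give strong convergence. -/
lemma close_of_weak {α : Type} [MeasurableSpace α] {μ : Measure α} (hne : UF.NeBot)
    {a : ℕ → α → ℝ} {b : α → ℝ} (ha : ∀ n, Integrable (a n) μ) (hb : Integrable b μ)
    (hw : ∀ s : α → ℝ, Measurable s → (∀ x, |s x| ≤ 1) →
      Tendsto (fun n => ∫ x, a n x * s x ∂μ) UF (𝓝 (∫ x, b x * s x ∂μ)))
    (hz : ∀ ε : ℝ, 0 < ε → ∃ ζ : α → ℝ, Integrable ζ μ ∧ ∀ᶠ n in UF, ∫ x, |a n x - ζ x| ∂μ ≤ ε) :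
    Tendsto (fun n => ∫ x, |a n x - b x| ∂μ) UF (𝓝 0) := by
  rw [Metric.tendsto_nhds]
  intro ε hε
  obtain ⟨ζ, hζ, hev⟩ := hz (ε / 3) (by positivity)
  have hd : AEMeasurable (fun x => b x - ζ x) μ := (hb.sub hζ).aemeasurable
  set s : α → ℝ := fun x => if 0 ≤ hd.mk _ x then 1 else -1 with hs
  have hsm : Measurable s :=
    Measurable.ite (measurableSet_le measurable_const hd.measurable_mk) measurable_const
      measurable_const
  have hs1 : ∀ x, |s x| ≤ 1 := by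
    intro x; simp only [hs]; split_ifs <;> simp
  have hmul : ∀ f : α → ℝ, Integrable f μ → Integrable (fun x => f x * s x) μ := fun f hf =>
    hf.mul_bdd hsm.aestronglyMeasurable (Eventually.of_forall fun x => hs1 x)
  have h1 : ∫ x, |b x - ζ x| ∂μ = ∫ x, b x * s x ∂μ - ∫ x, ζ x * s x ∂μ := by
    rw [← integral_sub (hmul _ hb) (hmul _ hζ)]
    refine integral_congr_ae ?_
    filter_upwards [hd.ae_eq_mk] with x hx
    simp only [hs, ← hx]
    split_ifs with h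
    · rw [abs_of_nonneg h]; ring
    · rw [abs_of_neg (not_le.1 h)]; ring
  have h2 : ∫ x, |b x - ζ x| ∂μ ≤ ε / 3 := by
    rw [h1]
    refine le_of_tendsto ((hw s hsm hs1).sub_const (∫ x, ζ x * s x ∂μ)) ?_
    filter_upwards [hev] with n hn
    rw [← integral_sub (hmul _ (ha n)) (hmul _ hζ)]
    refine le_trans (integral_mono ((hmul _ (ha n)).sub (hmul _ hζ)) ((ha n).sub hζ).abs
      fun x => ?_) hn
    calc a n x * s x - ζ x * s x = (a n x - ζ x) * s x := by ring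
      _ ≤ |(a n x - ζ x) * s x| := le_abs_self _
      _ = |a n x - ζ x| * |s x| := abs_mul _ _
      _ ≤ |a n x - ζ x| * 1 := by gcongr; exact hs1 x
      _ = |a n x - ζ x| := mul_one _
  filter_upwards [hev] with n hn
  rw [Real.dist_eq, sub_zero, abs_of_nonneg (integral_nonneg fun x => abs_nonneg _)]
  have h3 : ∫ x, |a n x - b x| ∂μ ≤ ∫ x, (|a n x - ζ x| + |b x - ζ x|) ∂μ := by
    refine integral_mono ((ha n).sub hb).abs (((ha n).sub hζ).abs.add (hb.sub hζ).abs)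
      fun x => ?_
    calc |a n x - b x| = |(a n x - ζ x) - (b x - ζ x)| := by congr 1; ring
      _ ≤ |a n x - ζ x| + |b x - ζ x| := abs_sub _ _
  have h4 : ∫ x, (|a n x - ζ x| + |b x - ζ x|) ∂μ =
      ∫ x, |a n x - ζ x| ∂μ + ∫ x, |b x - ζ x| ∂μ :=
    integral_add ((ha n).sub hζ).abs (hb.sub hζ).abs
  linarith

end AvF

end

end Vale.Agent.P140
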