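import Vale.Agent.P140.AvAux

/-! The dispersive L² estimate for velocity averages. -/

namespace Vale.Agent.P140

open MeasureTheory Set Filter Topology AvAux
open scoped ENNReal

noncomputable section

namespace AvL2

theorem intO {w : E → ℝ} (hw : Integrable w) : Integrable fun p : Om => w p.2 :=
  hw.comp_snd (volume : Measure T3)

theorem abs_mul_le {a b K L : ℝ} (ha : |a| ≤ K) (hb : |b| ≤ L) : |a * b| ≤ K * L :=
  (abs_mul a b).trans_le (mul_le_mul ha hb (abs_nonneg b) ((abs_nonneg a).trans ha))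

theorem shift {w : E → ℝ} (hw : Integrable w) {a b : T3 → ℝ} (ha : Measurable a)
    (hb : Measurable b) {K L : ℝ} (hK : ∀ x, |a x| ≤ K) (hL : ∀ x, |b x| ≤ L) {t t' : ℝ}
    (h : t ≠ t') (z : E) :
    |∫ p : Om, w p.2 * ((a ((fl t p).1 - pr z) - a (fl t p).1) * b (fl t' p).1)| ≤
      K * L * om w ((t - t')⁻¹ • z) := by
  obtain ⟨u, hu⟩ : ∃ u, u = (t - t')⁻¹ • z := ⟨_, rfl⟩
  have hz : z = t • u - t' • u := by
    rw [← sub_smul, hu, smul_smul, mul_inv_cancel₀ (sub_ne_zero.2 h), one_smul]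
  have m1 : ∀ s : ℝ, Measurable fun p : Om => (fl s p).1 := fun s =>
    (meas_fl measurable_const measurable_id).fst
  have m2 : Measurable fun p : Om => a (fl t p).1 * b (fl t' p).1 :=
    (ha.comp (m1 t)).mul (hb.comp (m1 t'))
  have m3 : Measurable fun p : Om => a ((fl t p).1 - pr z) * b (fl t' p).1 :=
    (ha.comp ((m1 t).sub_const _)).mul (hb.comp (m1 t'))
  have b2 : ∀ p : Om, |a (fl t p).1 * b (fl t' p).1| ≤ K * L := fun p => abs_mul_le (hK _) (hL _)
  have h1 : ∫ p : Om, a ((fl t p).1 - pr z) * b (fl t' p).1 * w p.2 =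
      ∫ p : Om, a (fl t p).1 * b (fl t' p).1 * w (p.2 + u) := by
    have := AvAux.inv
    rw [← integral_add_right_eq_self _ ((-pr (t' • u), u) : Om)]
    refine integral_congr_ae (Eventually.of_forall fun p => ?_)
    have e1 : (fl t (p + (-pr (t' • u), u))).1 - pr z = (fl t p).1 := by
      simp only [fl, hz, Prod.fst_add, Prod.snd_add, smul_add, pr_add, pr_sub]; abel
    have e2 : (fl t' (p + (-pr (t' • u), u))).1 = (fl t' p).1 := by
      simp only [fl, Prod.fst_add, Prod.snd_add, smul_add, pr_add]; abel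
    simp only [e1, e2, Prod.snd_add]
  have h2 : ∫ p : Om, w p.2 * ((a ((fl t p).1 - pr z) - a (fl t p).1) * b (fl t' p).1) =
      ∫ p : Om, a (fl t p).1 * b (fl t' p).1 * (w (p.2 + u) - w p.2) := by
    simp only [mul_sub]
    rw [integral_sub (intm (intO (hw.comp_add_right u)) m2 b2) (intm (intO hw) m2 b2), ← h1,
      ← integral_sub (intm (intO hw) m3 fun p => abs_mul_le (hK _) (hL _)) (intm (intO hw) m2 b2)]
    exact integral_congr_ae (Eventually.of_forall fun p => by ring)
  rw [h2, ← hu]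
  refine (abs_intm (intO ((hw.comp_add_right u).sub hw)) b2).trans_eq ?_
  have := prob
  congr 1
  exact (integral_fun_snd (μ := (volume : Measure T3)) fun v => |w (v + u) - w v|).trans
    (by simp [om])

/-- Increment of `c` along the flight. -/
def dI (z : E) (c : ℝ × T3 → ℝ) (t : ℝ) (p : Om) : ℝ :=
  c (t, (fl t p).1 - pr z) - c (t, (fl t p).1)

theorem meas_dI {α : Type} [MeasurableSpace α] (z : E) {c : ℝ × T3 → ℝ} (hc : Measurable c)
    {t : α → ℝ} {p : α → Om} (ht : Measurable t) (hp : Measurable p) :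
    Measurable fun a => dI z c (t a) (p a) :=
  (hc.comp (ht.prodMk ((meas_fl ht hp).fst.sub_const _))).sub
    (hc.comp (ht.prodMk (meas_fl ht hp).fst))

theorem abs_dI (z : E) {c : ℝ × T3 → ℝ} {K : ℝ} (hK : ∀ y, |c y| ≤ K) (t : ℝ) (p : Om) :
    |dI z c t p| ≤ 2 * K :=
  (abs_sub _ _).trans ((add_le_add (hK _) (hK _)).trans_eq (two_mul K).symm)

/-- Averaged modulus of continuity. -/
def Omg (w : E → ℝ) (T : ℝ) (z : E) : ℝ :=
  ∫ q : ℝ × ℝ, om w ((q.1 - q.2)⁻¹ • z) ∂(mT T).prod (mT T)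

theorem meas_om {w : E → ℝ} (hw : Integrable w) (z : E) :
    Measurable fun q : ℝ × ℝ => om w ((q.1 - q.2)⁻¹ • z) :=
  (om_cont hw).measurable.comp (by fun_prop)

theorem Omg_cont {w : E → ℝ} (hw : Integrable w) (T : ℝ) : Continuous (Omg w T) :=
  continuous_of_dominated (fun z => (meas_om hw z).aestronglyMeasurable)
    (fun _ => Eventually.of_forall fun _ => om_le hw _) (integrable_const _)
    (Eventually.of_forall fun _ => (om_cont hw).comp (by fun_prop))

theorem sqI {w : E → ℝ} (hw : Integrable w) {c : ℝ × T3 → ℝ} (hc : Measurable c) {K : ℝ}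
    (hK : ∀ y, |c y| ≤ K) (T : ℝ) (z : E) :
    ∫ p : Om, w p.2 * (∫ t, dI z c t p ∂mT T) ^ 2 ≤ K * (2 * K) * Omg w T z := by
  have h1 : Integrable (fun y : (ℝ × ℝ) × Om => w y.2.2 * (dI z c y.1.1 y.2 * dI z c y.1.2 y.2))
      (((mT T).prod (mT T)).prod volume) :=
    intg (intO hw) ((meas_dI z hc measurable_fst.fst measurable_snd).mul
      (meas_dI z hc measurable_fst.snd measurable_snd))
      fun y => abs_mul_le (abs_dI z hK _ _) (abs_dI z hK _ _)
  have h2 : ∀ p : Om, w p.2 * (∫ t, dI z c t p ∂mT T) ^ 2 =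
      ∫ q : ℝ × ℝ, w p.2 * (dI z c q.1 p * dI z c q.2 p) ∂(mT T).prod (mT T) := fun p => by
    rw [integral_const_mul, integral_prod_mul (fun t => dI z c t p) (fun t => dI z c t p), sq]
  simp only [h2]
  rw [← integral_integral_swap (f := fun (q : ℝ × ℝ) (p : Om) =>
    w p.2 * (dI z c q.1 p * dI z c q.2 p)) h1, Omg, ← integral_const_mul]
  refine (le_abs_self _).trans (norm_integral_le_of_norm_le
    (f := fun q : ℝ × ℝ => ∫ p : Om, w p.2 * (dI z c q.1 p * dI z c q.2 p))
    ((intb (meas_om hw z) fun _ => om_le hw _).const_mul _) ?_)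
  have h3 : ∀ᵐ q ∂(mT T).prod (mT T), q.1 ≠ q.2 := by
    have : NullSingletonClass (mT T) := by unfold mT; infer_instance
    exact (Measure.ae_prod_iff_ae_ae (measurableSet_eq_fun measurable_fst measurable_snd).compl).2
      (Eventually.of_forall fun t => ((mT T).ae_ne t).mono fun _ h => h.symm)
  filter_upwards [h3] with q hq
  exact shift hw (a := fun x => c (q.1, x)) (b := fun x => c (q.2, x - pr z) - c (q.2, x))
    (hc.comp measurable_prodMk_left)
    ((hc.comp (measurable_const.prodMk (measurable_id.sub_const _))).sub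
      (hc.comp measurable_prodMk_left)) (fun _ => hK _)
    (fun x => (abs_sub _ _).trans (by linarith [hK (q.2, x - pr z), hK (q.2, x)])) hq z

theorem absI {w : E → ℝ} (hw : Integrable w) (h0 : ∀ v, 0 ≤ w v) {c : ℝ × T3 → ℝ}
    (hc : Measurable c) {K T κ : ℝ} (hK : ∀ y, |c y| ≤ K) (hT : 0 ≤ T) (hκ : 0 < κ) (z : E) :
    ∫ p : Om, w p.2 * |∫ t, dI z c t p ∂mT T| ≤
      κ * (∫ p : Om, w p.2) + K * (2 * K) * Omg w T z / κ := by
  have m : Measurable fun p : Om => (∫ t, dI z c t p ∂mT T) ^ 2 :=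
    (meas_int _ (F := fun p t => dI z c t p) (meas_dI z hc measurable_snd measurable_fst)).pow_const 2
  have h1 : Integrable fun p : Om => w p.2 * (∫ t, dI z c t p ∂mT T) ^ 2 :=
    (intO hw).mul_bdd m.aestronglyMeasurable (c := (2 * K * T) ^ 2) (Eventually.of_forall fun p => by
      rw [norm_pow]
      exact pow_le_pow_left₀ (norm_nonneg _) (abs_intb hT fun t => abs_dI z hK t p) 2)
  refine (integral_mono_of_nonneg (Eventually.of_forall fun p => mul_nonneg (h0 _) (abs_nonneg _))
    (((intO hw).const_mul κ).add (h1.div_const κ)) (Eventually.of_forall fun p => ?_)).trans ?_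
  · exact (mul_le_mul_of_nonneg_left (abs_le_sq hκ _) (h0 _)).trans_eq
      (by simp only [Pi.add_apply]; ring)
  · refine (integral_add ((intO hw).const_mul κ) (h1.div_const κ)).trans_le ?_
    rw [integral_const_mul, integral_div]
    gcongr
    exact sqI hw hc hK T z

theorem dual0 {ψ : E → ℝ} (hψ : Integrable ψ) (hm : Measurable ψ) {a : T3 → ℝ} {γ : Om → ℝ}
    (ha : Measurable a) (hγ : Measurable γ) {K L : ℝ} (hK : ∀ x, |a x| ≤ K) (hL : ∀ p, |γ p| ≤ L)
    (y : T3) : ∫ x, a x * ((∫ v, γ (x + y, v) * ψ v) - ∫ v, γ (x, v) * ψ v) =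
      ∫ p : Om, ψ p.2 * ((a (p.1 - y) - a p.1) * γ p) := by
  have m : Measurable fun x => ∫ v, γ (x, v) * ψ v := meas_int _ (hγ.mul (hm.comp measurable_snd))
  have b : ∀ x, |∫ v, γ (x, v) * ψ v| ≤ L * ∫ v, |ψ v| := fun x => abs_intm hψ fun v => hL _
  have h1 : ∫ x, a x * ∫ v, γ (x + y, v) * ψ v = ∫ x, a (x - y) * ∫ v, γ (x, v) * ψ v := by
    rw [← integral_add_right_eq_self (fun x => a (x - y) * ∫ v, γ (x, v) * ψ v) y]
    simp only [add_sub_cancel_right]
  have i1 : Integrable fun x => a x * ∫ v, γ (x + y, v) * ψ v :=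
    intb (ha.mul (m.comp (measurable_add_const y))) fun x => abs_mul_le (hK _) (b _)
  have i2 : Integrable fun x => a x * ∫ v, γ (x, v) * ψ v :=
    intb (ha.mul m) fun x => abs_mul_le (hK _) (b _)
  have i3 : Integrable fun x => a (x - y) * ∫ v, γ (x, v) * ψ v :=
    intb ((ha.comp (measurable_sub_const y)).mul m) fun x => abs_mul_le (hK _) (b _)
  simp only [mul_sub]
  rw [integral_sub i1 i2, h1, ← integral_sub i3 i2]
  refine Eq.trans ?_ (integral_prod _ (intg hψ
    (((ha.comp (measurable_fst.sub_const y)).sub (ha.comp measurable_fst)).mul hγ)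
    fun p => abs_mul_le ((abs_sub _ _).trans (add_le_add (hK _) (hK _))) (hL _))).symm
  refine integral_congr_ae (Eventually.of_forall fun x => ?_)
  simp only [Function.comp, Pi.mul_apply, Pi.sub_apply]
  rw [← sub_mul, ← integral_const_mul]
  exact integral_congr_ae (Eventually.of_forall fun v => by ring)

theorem dual (hT : TorusStmt) {ψ : E → ℝ} (hψ : Integrable ψ) (hm : Measurable ψ)
    {c : ℝ × T3 → ℝ} {G : ℝ → Om → ℝ} (hc : Measurable c)
    (hG : Measurable fun y : ℝ × Om => G y.1 y.2) {K L : ℝ} (hK : ∀ y, |c y| ≤ K)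
    (hL : ∀ t p, |G t p| ≤ L) (T : ℝ) (z : E) :
    ∫ y, c y * ((∫ v, G y.1 (fl (-y.1) (y.2 + pr z, v)) * ψ v) -
      ∫ v, G y.1 (fl (-y.1) (y.2, v)) * ψ v) ∂mX T =
      ∫ p : Om, ψ p.2 * ∫ t, dI z c t p * G t p ∂mT T := by
  have m : Measurable fun y : ℝ × T3 => ∫ v, G y.1 (fl (-y.1) (y.2, v)) * ψ v :=
    meas_int _ ((hG.comp (measurable_fst.fst.prodMk (meas_fl measurable_fst.fst.neg
      (measurable_fst.snd.prodMk measurable_snd)))).mul (hm.comp measurable_snd))
  have b : ∀ t x, |∫ v, G t (fl (-t) (x, v)) * ψ v| ≤ L * ∫ v, |ψ v| := fun t x =>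
    abs_intm hψ fun v => hL _ _
  refine (integral_prod _ (intb (hc.mul ((m.comp (measurable_fst.prodMk
    (measurable_snd.add_const (pr z)))).sub m)) fun y => abs_mul_le (hK _)
      ((abs_sub _ _).trans (add_le_add (b _ _) (b _ _))))).trans ?_
  simp only [← integral_const_mul]
  rw [← integral_integral_swap (f := fun (t : ℝ) (p : Om) => ψ p.2 * (dI z c t p * G t p))
    (intg (intO hψ) ((meas_dI z hc measurable_fst measurable_snd).mul hG)
      fun y => abs_mul_le (abs_dI z hK _ _) (hL _ _))]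
  refine integral_congr_ae (Eventually.of_forall fun t => ?_)
  have m1 : Measurable fun x => c (t, x) := hc.comp measurable_prodMk_left
  have m2 : Measurable fun p => G t (fl (-t) p) :=
    hG.comp (measurable_const.prodMk (meas_fl measurable_const measurable_id))
  have h1 := dual0 hψ hm m1 m2 (fun _ => hK _) (fun _ => hL _ _) (pr z)
  simp only [integral_const_mul]
  refine h1.trans ?_
  refine (int_mp (hT.2.2.2.2.2.2.1 t) ((hm.comp measurable_snd).mul
    (((m1.comp (measurable_fst.sub_const _)).sub (m1.comp measurable_fst)).mul m2))).trans ?_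
  simp only [Function.comp, Pi.mul_apply, Pi.sub_apply, fl_fl, neg_add_cancel, fl_zero, fl_snd, dI]

theorem tri {T K M a : ℝ} {d H : ℝ → ℝ} (hT : 0 ≤ T) (hd : Measurable d) (hH : Measurable H)
    (hK : ∀ t, |d t| ≤ K) (hM : ∀ t, |H t| ≤ M) (ha : |a| ≤ M) :
    |∫ t, d t * (a + prim T H t) ∂mT T| ≤ M * |∫ t, d t ∂mT T| +
      ∫ s, M * |∫ t, (if s ≤ t then d t else 0) ∂mT T| ∂mT T := by
  have m : Measurable (prim T H) := meas_prim T (hH.comp measurable_snd) measurable_id
  have m2 : Measurable fun s => ∫ t, (if s ≤ t then d t else 0) ∂mT T := meas_int _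
    (Measurable.ite measurableSet_le' (hd.comp measurable_snd) measurable_const)
  have h1 : ∫ t, d t * prim T H t ∂mT T =
      ∫ s, H s * ∫ t, (if s ≤ t then d t else 0) ∂mT T ∂mT T := by
    simp only [prim, ← integral_const_mul]
    rw [integral_integral_swap (f := fun t s => d t * if s ≤ t then H s else 0)
      (intb ((hd.comp measurable_fst).mul (Measurable.ite (measurableSet_le measurable_snd
        measurable_fst) (hH.comp measurable_snd) measurable_const))
        fun y => abs_mul_le (hK _) (abs_ite (hM _)))]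
    simp only [mul_ite, mul_zero, mul_comm]
  simp only [mul_add]
  rw [integral_add ((intb hd hK).mul_const a)
    (intb (hd.fun_mul m) fun t => abs_mul_le (hK t) (abs_prim hT hM t)), integral_mul_const, h1]
  refine (abs_add_le _ _).trans (add_le_add ((abs_mul_le le_rfl ha).trans_eq (mul_comm _ _)) ?_)
  exact norm_integral_le_of_norm_le
    (f := fun s => H s * ∫ t, (if s ≤ t then d t else 0) ∂mT T)
    ((intb m2 fun s => abs_intb hT fun t => abs_ite (hK t)).abs.const_mul M)
    (Eventually.of_forall fun s => abs_mul_le (hM s) le_rfl)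

theorem main (hT : TorusStmt) {ψ : E → ℝ} (hψ : Integrable ψ) (hm : Measurable ψ)
    {c : ℝ × T3 → ℝ} {g₀ : Om → ℝ} {h : ℝ → Om → ℝ} (hc : Measurable c) (m0 : Measurable g₀)
    (mh : Measurable fun y : ℝ × Om => h y.1 y.2) {K M T κ : ℝ} (hK : ∀ y, |c y| ≤ K)
    (b0 : ∀ p, |g₀ p| ≤ M) (bh : ∀ t p, |h t p| ≤ M) (h0 : 0 ≤ T) (hκ : 0 < κ) (z : E) :
    ∫ y, c y * ((∫ v, sol T g₀ h y.1 (fl (-y.1) (y.2 + pr z, v)) * ψ v) -
      ∫ v, sol T g₀ h y.1 (fl (-y.1) (y.2, v)) * ψ v) ∂mX T ≤ (M + M * T) *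
      (κ * (∫ p : Om, |ψ p.2|) + K * (2 * K) * Omg (fun v => |ψ v|) T z / κ) := by
  have hM : 0 ≤ M := (abs_nonneg _).trans (b0 0)
  rw [dual hT hψ hm hc (meas_sol T m0 mh) hK (abs_sol h0 b0 bh)]
  have m1 : Measurable fun p : Om => |∫ t, dI z c t p ∂mT T| :=
    (meas_int _ (F := fun p t => dI z c t p) (meas_dI z hc measurable_snd measurable_fst)).abs
  have m2 : Measurable fun y : ℝ × Om =>
      M * |∫ t, (if y.1 ≤ t then dI z c t y.2 else 0) ∂mT T| :=
    (meas_int _ (F := fun (y : ℝ × Om) t => if y.1 ≤ t then dI z c t y.2 else 0)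
      (Measurable.ite (measurableSet_le measurable_fst.fst measurable_snd) (meas_dI z hc
        measurable_snd measurable_fst.snd) measurable_const)).abs.const_mul M
  have i1 : Integrable fun p : Om => M * (|ψ p.2| * |∫ t, dI z c t p ∂mT T|) :=
    ((intO hψ.abs).mul_bdd m1.aestronglyMeasurable (c := 2 * K * T) (Eventually.of_forall fun p =>
      (abs_abs _).trans_le (abs_intb h0 fun t => abs_dI z hK t p))).const_mul M
  have i2 := intg (μ := mT T) (intO hψ.abs) m2 (K := M * (2 * K * T)) fun y => abs_mul_le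
    (abs_of_nonneg hM).le ((abs_abs _).trans_le (abs_intb h0 fun t => abs_ite (abs_dI z hK t _)))
  refine (le_abs_self _).trans ((norm_integral_le_of_norm_le
    (f := fun p : Om => ψ p.2 * ∫ t, dI z c t p * sol T g₀ h t p ∂mT T)
    (i1.add i2.integral_prod_right) (Eventually.of_forall fun p => ?_)).trans ?_)
  · simp only [Pi.add_apply, integral_const_mul (|ψ p.2|)]
    rw [Real.norm_eq_abs, abs_mul, mul_left_comm, ← mul_add]
    exact mul_le_mul_of_nonneg_left (tri h0 (meas_dI z hc measurable_id measurable_const)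
      (mh.comp (measurable_id.prodMk (meas_fl measurable_id measurable_const)))
      (fun t => abs_dI z hK t p) (fun t => bh _ _) (b0 p)) (abs_nonneg _)
  · refine (integral_add i1 i2.integral_prod_right).trans_le ?_
    rw [add_mul, integral_const_mul, ← integral_integral_swap i2, mul_right_comm M T]
    refine add_le_add (mul_le_mul_of_nonneg_left
      (absI hψ.abs (fun _ => abs_nonneg _) hc hK h0 hκ z) hM)
      ((le_abs_self _).trans (abs_intb h0 fun s => ?_))
    rw [abs_of_nonneg (integral_nonneg fun p => by positivity)]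
    simp only [mul_left_comm _ M, integral_const_mul M]
    have h1 := absI hψ.abs (fun _ => abs_nonneg _) (c := fun y => if s ≤ y.1 then c y else 0)
      (Measurable.ite (measurableSet_le measurable_const measurable_fst) hc measurable_const)
      (fun y => abs_ite (hK y)) h0 hκ z
    have h2 : ∀ t p, dI z (fun y => if s ≤ y.1 then c y else 0) t p =
        if s ≤ t then dI z c t p else 0 := fun t p => by
      simp only [dI]
      split_ifs <;> simp
    simp only [h2] at h1
    exact mul_le_mul_of_nonneg_left h1 hM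

end AvL2

open AvL2 in
theorem avL2 (hT : TorusStmt) : AvL2Stmt := by
  intro T M ψ h0 hm h1 hr ε hε
  have hψ := int_psi hm h1 hr
  obtain ⟨K, hK⟩ : ∃ K, K = (M + M * T) * (∫ v, |ψ v|) + (M + M * T) * ∫ v, |ψ v| := ⟨_, rfl⟩
  have h2 : Tendsto (fun κ : ℝ => (M + M * T) * (κ * ∫ p : Om, |ψ p.2|)) (𝓝[>] 0) (𝓝 0) := by
    have : Continuous fun κ : ℝ => (M + M * T) * (κ * ∫ p : Om, |ψ p.2|) := by fun_prop
    simpa using (this.tendsto 0).mono_left nhdsWithin_le_nhds
  obtain ⟨κ, h3, hκ⟩ := ((h2.eventually (gt_mem_nhds hε)).and self_mem_nhdsWithin).exists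
  have h4 : Continuous fun z => (M + M * T) *
      (κ * (∫ p : Om, |ψ p.2|) + K * (2 * K) * Omg (fun v => |ψ v|) T z / κ) := by
    have := Omg_cont hψ.abs T
    fun_prop
  obtain ⟨η, hη, h5⟩ := Metric.eventually_nhds_iff_ball.1
    ((h4.tendsto 0).eventually (gt_mem_nhds (a := ε) (by simpa [Omg, om_zero] using h3)))
  refine ⟨η / 2, half_pos hη, fun g₀ h g m0 mh _ b0 bh hg z hz => ?_⟩
  have m : Measurable fun y : ℝ × T3 => ∫ v, sol T g₀ h y.1 (fl (-y.1) (y.2, v)) * ψ v :=
    meas_int _ (((meas_sol T m0 mh).comp (measurable_fst.fst.prodMk (meas_fl measurable_fst.fst.neg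
      (measurable_fst.snd.prodMk measurable_snd)))).mul (hm.comp measurable_snd))
  have b : ∀ t x, |∫ v, sol T g₀ h t (fl (-t) (x, v)) * ψ v| ≤ (M + M * T) * ∫ v, |ψ v| :=
    fun t x => abs_intm hψ fun v => abs_sol h0 b0 bh _ _
  refine le_trans (le_of_eq ?_) ((main hT hψ hm
    ((m.comp (measurable_fst.prodMk (measurable_snd.add_const (pr z)))).sub m) m0 mh
    (fun y => hK ▸ (abs_sub _ _).trans (add_le_add (b _ _) (b _ _))) b0 bh h0 hκ z).trans
    (h5 z (mem_ball_zero_iff.2 (by linarith))).le)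
  refine integral_congr_ae ((ae_fst volume T).mono fun y hy => ?_)
  simp only [sol_eq hy hg, sq, Function.comp, Pi.sub_apply]

end

end Vale.Agent.P140
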