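import Vale.Agent.P140.StmC

/-!
Supersolutions.
-/

namespace Vale.Agent.P140

open MeasureTheory Set Filter Topology
open scoped ENNReal

noncomputable section

namespace BarAux

variable (hb : Base) (hc : BaseC)
include hb hc

theorem addl {f f' h : ST} (hf : JM f) (hh : JM h) (s : ℝ) (p : Om) :
    G2 kF (fun t p => f t p + f' t p) h s p = G2 kF f h s p + G2 kF f' h s p :=
  hc.alg.gain_add_left kF _ _ _ _ hb.meas.1 (hc.alg.jm_slice f hf _ _) (hc.alg.jm_slice h hh _ _)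

theorem addr {f h h' : ST} (hf : JM f) (hh : JM h) (s : ℝ) (p : Om) :
    G2 kF f (fun t p => h t p + h' t p) s p = G2 kF f h s p + G2 kF f h' s p :=
  hc.alg.gain_add_right kF _ _ _ _ hb.meas.1 (hc.alg.jm_slice f hf _ _) (hc.alg.jm_slice h hh _ _)

theorem symm {f h : ST} (hf : JM f) (hh : JM h) (s : ℝ) (p : Om) :
    G2 kF f h s p = G2 kF h f s p :=
  (hb.sym.2 _ _ (hc.alg.jm_slice f hf _ _) (hc.alg.jm_slice h hh _ _) _).1

omit hb

theorem mul2 (f h : ST) (a b : ℝ) (s : ℝ) (p : Om) :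
    G2 kF (fun t p => ENNReal.ofReal a * f t p) (fun t p => ENNReal.ofReal b * h t p) s p =
      ENNReal.ofReal a * ENNReal.ofReal b * G2 kF f h s p :=
  hc.alg.gain_mul kF _ _ _ _ _ ENNReal.ofReal_ne_top ENNReal.ofReal_ne_top

theorem mulr (f h : ST) (b : ℝ) (s : ℝ) (p : Om) :
    G2 kF f (fun t p => ENNReal.ofReal b * h t p) s p = ENNReal.ofReal b * G2 kF f h s p := by
  simpa using mul2 hc f h 1 b s p

theorem mull (f h : ST) (a : ℝ) (s : ℝ) (p : Om) :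
    G2 kF (fun t p => ENNReal.ofReal a * f t p) h s p = ENNReal.ofReal a * G2 kF f h s p := by
  simpa using mul2 hc f h a 1 s p

theorem monol {f f' : ST} (h : ST) {s : ℝ} (hf : ∀ p, f s p ≤ f' s p) (p : Om) :
    G2 kF f h s p ≤ G2 kF f' h s p :=
  hc.alg.gain_mono kF kF _ _ _ _ _ (fun _ _ _ => le_rfl) (fun _ => hf _) fun _ => le_rfl

omit hc

theorem jm_mul {f : ST} (hf : JM f) (a : ℝ≥0∞) : JM fun t p => a * f t p :=
  Measurable.const_mul hf a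

include hb hc

theorem partA {g : Geo} {C : ℝ} {Λ : ℕ} (hg : g.Ok) (hO : OSP g C) (hC : 1 ≤ C) (hΛ : 1 ≤ Λ)
    (h1 : C * g.c / (g.κ * Λ) ≤ 1 / 8) (h2 : g.R ^ 19 * (C * 2 ^ Λ) ≤ 1 / 4)
    (hcc : ∀ t ∈ Icc (0 : ℝ) g.R, ∀ p, duh 0 (G2 kF (CC g) (CC g)) t p ≤
      EE g t p + ENNReal.ofReal (g.R ^ 19 / 4) * wt g (1 / (8 * Λ)) Λ t p) :
    ∀ t ∈ Icc (0 : ℝ) g.R, ∀ p,
      BB g t p + duh 0 (G2 kF (Z0 g Λ) (Z0 g Λ)) t p ≤ Z0 g Λ t p := by
  intro t ht p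
  obtain ⟨-, -, jC, -, jw, jZ, -⟩ := hc.me.jm g
  have hΛ' : (1 : ℝ) ≤ Λ := by exact_mod_cast hΛ
  have hR := hg.R0
  have hμ : 0 ≤ g.R ^ 19 := by positivity
  set μ := g.R ^ 19 with hμd
  set Ψ := wt g (1 / (8 * Λ)) Λ with hΨ
  have jΨ : JM Ψ := jw _ _
  have e : G2 kF (Z0 g Λ) (Z0 g Λ) = fun s p => G2 kF (CC g) (CC g) s p +
      (ENNReal.ofReal (2 * μ) * G2 kF (CC g) Ψ s p +
        ENNReal.ofReal (μ * μ) * G2 kF Ψ Ψ s p) := by
    funext s p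
    have e1 : G2 kF (Z0 g Λ) (Z0 g Λ) s p = G2 kF (CC g) (Z0 g Λ) s p +
        G2 kF (fun t p => ENNReal.ofReal μ * Ψ t p) (Z0 g Λ) s p := addl hb hc jC (jZ Λ) s p
    have e2 : G2 kF (CC g) (Z0 g Λ) s p = G2 kF (CC g) (CC g) s p +
        G2 kF (CC g) (fun t p => ENNReal.ofReal μ * Ψ t p) s p := addr hb hc jC jC s p
    have e3 : G2 kF Ψ (Z0 g Λ) s p = G2 kF Ψ (CC g) s p +
        G2 kF Ψ (fun t p => ENNReal.ofReal μ * Ψ t p) s p := addr hb hc jΨ jC s p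
    rw [e1, e2, mull hc, e3, mulr hc, mulr hc, symm hb hc jΨ jC, ENNReal.ofReal_mul hμ,
      ENNReal.ofReal_mul (by norm_num), ENNReal.ofReal_ofNat]
    ring
  have jCC := hc.alg.jm_G2 kF _ _ hb.meas.1 jC jC
  have jCΨ := hc.alg.jm_G2 kF _ _ hb.meas.1 jC jΨ
  rw [e, hc.alg.duh_add _ _ _ _ _ jCC, hc.alg.duh_add _ _ _ _ _ (jm_mul jCΨ _),
    hc.alg.duh_mul _ _ _ _ _ ENNReal.ofReal_ne_top, hc.alg.duh_mul _ _ _ _ _ ENNReal.ofReal_ne_top]
  have hl0 : (0 : ℝ) ≤ 1 / (8 * Λ) := by positivity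
  have b1 := hcc t ht p
  have b2 := hO.cold (1 / (8 * Λ)) Λ hl0 hΛ (le_of_eq (by field_simp)) t ht p
  have b3 := hO.quad (1 / (8 * Λ)) Λ hl0
    (one_div_le_one_div_of_le (by norm_num) (by linarith)) t ht p
  have hκ := hg.κ0
  have hc1 := hg.c1
  have h3 : 0 ≤ C * g.c / (g.κ * Λ) := by positivity
  calc _ ≤ BB g t p + ((EE g t p + ENNReal.ofReal (μ / 4) * Ψ t p) +
        (ENNReal.ofReal (2 * μ) * (ENNReal.ofReal (C * g.c / (g.κ * Λ)) * Ψ t p) +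
          ENNReal.ofReal (μ * μ) * (ENNReal.ofReal (C * 2 ^ Λ) * Ψ t p))) := by gcongr
    _ = CC g t p + ENNReal.ofReal (μ / 4 + (2 * μ * (C * g.c / (g.κ * Λ)) +
          μ * μ * (C * 2 ^ Λ))) * Ψ t p := by
        rw [ENNReal.ofReal_add (by positivity) (by positivity),
          ENNReal.ofReal_add (by positivity) (by positivity),
          ENNReal.ofReal_mul (p := 2 * μ) (by positivity),
          ENNReal.ofReal_mul (p := μ * μ) (by positivity)]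
        unfold CC; ring
    _ ≤ CC g t p + ENNReal.ofReal μ * Ψ t p := by
        gcongr
        nlinarith [mul_le_mul_of_nonneg_left h1 hμ, mul_le_mul_of_nonneg_left h2 hμ]
    _ = _ := rfl

theorem partB {g : Geo} {C : ℝ} {Λ : ℕ} (hg : g.Ok) (hO : OSP g C) (hC : 1 ≤ C) (hΛ : 1 ≤ Λ)
    (h1 : C * g.c / (g.κ * Λ) ≤ 1 / 8) (h2 : g.R ^ 19 * C ≤ 1 / 16) :
    ∀ T ∈ Icc (0 : ℝ) g.R, ∀ N : ℝ, 0 ≤ N → N * g.te T ^ Λ ≤ 1 / (8 * C) →
      ∀ t ∈ Icc (0 : ℝ) T, ∀ p,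
      duh 0 (QZ kF (Z0 g Λ) (fun t p => ENNReal.ofReal N * wt g 0 Λ t p)) t p ≤
        ENNReal.ofReal (N / 2) * wt g 0 Λ t p := by
  intro T hT N hN hε t ht p
  obtain ⟨-, -, jC, jP, jw, jZ, -⟩ := hc.me.jm g
  have gb := hc.gb g hg
  have hΛ' : (1 : ℝ) ≤ Λ := by exact_mod_cast hΛ
  have hR := hg.R0
  have hR1 := gb.R_le
  have hμ : 0 ≤ g.R ^ 19 := by positivity
  set μ := g.R ^ 19 with hμd
  set ε := 1 / (8 * C) with hεd
  have hε0 : 0 ≤ ε := by positivity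
  set Y := wt g 0 Λ with hY
  have jY : JM Y := jw _ _
  have hl0 : (0 : ℝ) ≤ 1 / (8 * Λ) := by positivity
  have hl1 : (1 : ℝ) / (8 * Λ) ≤ 1 / 8 := one_div_le_one_div_of_le (by norm_num) (by linarith)
  have key : ∀ s ∈ Ioc (0 : ℝ) t, ∀ p,
      QZ kF (Z0 g Λ) (fun t p => ENNReal.ofReal N * Y t p) s p ≤
        ENNReal.ofReal (2 * N) * G2 kF (CC g) Y s p +
          ENNReal.ofReal ((2 * μ + ε) * N) * G2 kF (psE g) Y s p := by
    intro s hs p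
    have hs' : s ∈ Icc (0 : ℝ) (1 / 32) := ⟨hs.1.le, by linarith [hs.2, ht.2, hT.2]⟩
    have hte0 : 0 ≤ g.te s := by rw [gb.te.2.2]; linarith [gb.te.1, hs.1]
    have hte : g.te s ≤ g.te T := by
      rw [gb.te.2.2 s, gb.te.2.2 T]; linarith [hs.2, ht.2]
    have hps : ∀ p, 0 ≤ ps g s p := fun p => by
      obtain ⟨-, a, -, b, -⟩ := gb.ps_bd s hs' p
      linarith
    have z1 : ∀ p, Z0 g Λ s p ≤ CC g s p + ENNReal.ofReal μ * psE g s p := fun p => by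
      obtain ⟨a, b, -⟩ := gb.tau_bd _ hl0 hl1 s hs' p
      unfold Z0 wt psE
      gcongr
      exact mul_le_of_le_one_left (hps p) (pow_le_one₀ (hte0.trans a) b)
    have z2 : ∀ p, ENNReal.ofReal N * Y s p ≤ ENNReal.ofReal ε * psE g s p := fun p => by
      obtain ⟨-, -, a, -⟩ := gb.tau_bd _ hl0 hl1 s hs' p
      rw [hY]
      unfold wt psE
      rw [a, ← ENNReal.ofReal_mul hN, ← ENNReal.ofReal_mul hε0, ← mul_assoc]
      refine ENNReal.ofReal_le_ofReal (mul_le_mul_of_nonneg_right (le_trans ?_ hε) (hps p))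
      gcongr
    rw [hc.alg.QZ_kF _ _ (jZ Λ) (jm_mul jY _), mulr hc, mulr hc]
    have z3 : G2 kF (Z0 g Λ) Y s p ≤
        G2 kF (CC g) Y s p + ENNReal.ofReal μ * G2 kF (psE g) Y s p := by
      rw [← mull hc, ← addl hb hc jC jY]
      exact monol hc Y z1 p
    have z4 : G2 kF (fun t p => ENNReal.ofReal N * Y t p) Y s p ≤
        ENNReal.ofReal ε * G2 kF (psE g) Y s p := by
      rw [← mull hc]
      exact monol hc Y z2 p
    calc _ ≤ 2 * (ENNReal.ofReal N *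
          (G2 kF (CC g) Y s p + ENNReal.ofReal μ * G2 kF (psE g) Y s p)) +
          ENNReal.ofReal N * (ENNReal.ofReal ε * G2 kF (psE g) Y s p) := by gcongr
      _ = _ := by
        rw [ENNReal.ofReal_mul (p := 2 * μ + ε) (by positivity),
          ENNReal.ofReal_add (by positivity) hε0, ENNReal.ofReal_mul (p := 2) (by norm_num),
          ENNReal.ofReal_mul (p := 2) (by norm_num), ENNReal.ofReal_ofNat]
        ring
  have jCY := hc.alg.jm_G2 kF _ _ hb.meas.1 jC jY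
  refine (hc.alg.duh_mono _ _ _ _ _ key).trans ?_
  rw [hc.alg.duh_add _ _ _ _ _ (jm_mul jCY _),
    hc.alg.duh_mul _ _ _ _ _ ENNReal.ofReal_ne_top, hc.alg.duh_mul _ _ _ _ _ ENNReal.ofReal_ne_top]
  have ht' : t ∈ Icc (0 : ℝ) g.R := ⟨ht.1, ht.2.trans hT.2⟩
  have b2 := hO.cold 0 Λ le_rfl hΛ (by simp) t ht' p
  have b3 := hO.hot Λ t ht' p
  have hκ := hg.κ0
  have hc1 := hg.c1
  have h3 : 0 ≤ C * g.c / (g.κ * Λ) := by positivity
  have h4 : ε * C = 1 / 8 := by rw [hεd]; field_simp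
  calc _ ≤ ENNReal.ofReal (2 * N) * (ENNReal.ofReal (C * g.c / (g.κ * Λ)) * Y t p) +
          ENNReal.ofReal ((2 * μ + ε) * N) * (ENNReal.ofReal C * Y t p) := by gcongr
    _ = ENNReal.ofReal (2 * N * (C * g.c / (g.κ * Λ)) + (2 * μ + ε) * N * C) * Y t p := by
        rw [ENNReal.ofReal_add (by positivity) (by positivity),
          ENNReal.ofReal_mul (p := 2 * N) (by positivity),
          ENNReal.ofReal_mul (p := (2 * μ + ε) * N) (by positivity)]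
        ring
    _ ≤ _ := by
        gcongr
        have e : (2 * μ + ε) * N * C = N * (2 * (μ * C) + ε * C) := by ring
        rw [e, h4]
        nlinarith [mul_le_mul_of_nonneg_left h1 hN, mul_le_mul_of_nonneg_left h2 hN]

end BarAux

theorem bar (hb : Base) (hc : BaseC) (hO : OSStmt) (hC : CCStmt) : BarStmt := by
  obtain ⟨C, hC1, hO⟩ := hO
  intro c κ hc1 hκ hκ1
  have ev : ∀ᶠ Λ : ℕ in atTop, 8 * C * c / κ ≤ Λ :=
    tendsto_natCast_atTop_atTop.eventually_ge_atTop _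
  filter_upwards [ev, eventually_ge_atTop 1] with Λ h1 hΛ
  refine ⟨1 / (8 * C), by positivity, ?_⟩
  have hΛ' : (1 : ℝ) ≤ Λ := by exact_mod_cast hΛ
  have h2 : C * c / (κ * Λ) ≤ 1 / 8 := by
    rw [div_le_iff₀ hκ] at h1
    rw [div_le_iff₀ (by positivity)]
    nlinarith
  have hp : (0 : ℝ) < min (κ ^ 2) (1 / (16 * (C * 2 ^ Λ))) := by positivity
  filter_upwards [hC c κ Λ hc1 hκ hκ1 hΛ, Ioc_mem_nhdsGT hp] with R hcc hR K
  have hR1 : R ≤ κ ^ 2 := hR.2.trans (min_le_left _ _)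
  have hR2 : R ≤ 1 / (16 * (C * 2 ^ Λ)) := hR.2.trans (min_le_right _ _)
  have hg : (⟨c, κ, R, K⟩ : Geo).Ok := ⟨hc1, hκ, hκ1, hR.1, hR1⟩
  have hR0 := hR.1
  have hR3 : R ^ 19 ≤ R := by
    have : R ≤ 1 := by nlinarith
    simpa using pow_le_pow_of_le_one hR0.le this (show 1 ≤ 19 by norm_num)
  have h3 : R ^ 19 * (C * 2 ^ Λ) ≤ 1 / 16 := by
    rw [le_div_iff₀ (by positivity)] at hR2
    have : R ^ 19 * (C * 2 ^ Λ) ≤ R * (C * 2 ^ Λ) := by gcongr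
    linarith
  have h4 : R ^ 19 * C ≤ 1 / 16 := by
    refine le_trans ?_ h3
    have : (1 : ℝ) ≤ 2 ^ Λ := one_le_pow₀ (by norm_num)
    gcongr
    nlinarith
  exact ⟨BarAux.partA hb hc hg (hO _ hg) hC1 hΛ h2 (h3.trans (by norm_num)) (hcc K),
    BarAux.partB hb hc hg (hO _ hg) hC1 hΛ h2 h4⟩

end

end Vale.Agent.P140
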