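import Vale.Agent.P140.StmB

/-!
Statements, part C: the ring construction (see PLANC.md).
-/

namespace Vale.Agent.P140

open MeasureTheory Set Filter Topology
open scoped ENNReal

noncomputable section

/-! ### Operators on nonnegative space-time functions -/

abbrev ST : Type := ℝ → Om → ℝ≥0∞

/-- Joint measurability. -/
def JM (f : ST) : Prop := Measurable (fun y : ℝ × Om => f y.1 y.2)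

/-- Bilinear gain term. -/
def G2 (k : ℝ → ℝ → ℝ) (f h : ST) : ST := fun t p =>
  gainK k (fun u => f t (p.1, u)) (fun u => h t (p.1, u)) p.2

/-- Collision frequency. -/
def Nu (h : ST) : ST := fun t p => freqK kF (fun u => h t (p.1, u)) p.2

/-- Duhamel integral from time t₀ along the flight ending at p at time t. -/
def duh (t₀ : ℝ) (q : ST) : ST := fun t p => ∫⁻ s in Ioc t₀ t, q s (fl (s - t) p)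

/-- Linearized plus quadratic gain. -/
def QZ (k : ℝ → ℝ → ℝ) (Z h : ST) : ST := fun t p => G2 k Z h t p + G2 k h Z t p + G2 k h h t p

/-- exp (-x). -/
def en (x : ℝ≥0∞) : ℝ≥0∞ := if x = ⊤ then 0 else ENNReal.ofReal (Real.exp (-x.toReal))

/-- Restriction to a set of velocities. -/
def restr (V : Set E) (h : ST) : ST := fun t p => V.indicator (fun u => h t (p.1, u)) p.2

/-! ### Geometry -/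

def hz (v : E) : ℂ := ⟨v 0, v 1⟩

def pl (x : T3) : ℂ := hz (rep x)

structure Geo where
  c : ℝ
  κ : ℝ
  R : ℝ
  K : ℕ

structure Geo.Ok (g : Geo) : Prop where
  c1 : 1 ≤ g.c
  κ0 : 0 < g.κ
  κ1 : g.κ ≤ 1 / 100
  R0 : 0 < g.R
  R1 : g.R ≤ g.κ ^ 2

/-- For all small outer radii and all truncation levels. -/
def EvR (c κ : ℝ) (P : Geo → Prop) : Prop := ∀ᶠ R in 𝓝[>] (0 : ℝ), ∀ K : ℕ, P ⟨c, κ, R, K⟩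

def Geo.r (g : Geo) (j : ℕ) : ℝ := g.R * (3999 / 4000) ^ j
def Geo.w (g : Geo) (j : ℕ) : ℝ := g.r j / 4000
def Geo.mid (g : Geo) (j : ℕ) : ℝ := g.r j - g.w j / 2
def Geo.th (g : Geo) (j : ℕ) : ℝ := g.r j ^ 7
def Geo.gg (g : Geo) (j : ℕ) : ℝ := g.r j ^ 6
def Geo.a (g : Geo) (j : ℕ) : ℝ := g.c / (g.th j ^ 3 * g.r j)
def Geo.te (g : Geo) (t : ℝ) : ℝ := t + g.r (g.K + 1) / g.κ
def Geo.lab (g : Geo) (t : ℝ) (x : T3) : ℝ := ‖pl x‖ - g.κ * t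

def sg (j : ℕ) : ℝ := (-1) ^ j

/-- Squared distance of the velocity to the beam velocity. -/
def gq (κ σ : ℝ) (p : Om) : ℝ :=
  ‖hz p.2‖ ^ 2 + κ ^ 2 - 2 * κ * ((starRingEnd ℂ (hz p.2) * pl p.1).re / ‖pl p.1‖) +
    (p.2 2 - σ) ^ 2

/-- The beam velocity. -/
def uu (κ σ : ℝ) (x : T3) : E := !₂[κ * ((pl x).re / ‖pl x‖), κ * ((pl x).im / ‖pl x‖), σ]

def B0s (g : Geo) (j : ℕ) : Set Om :=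
  {p | |‖pl p.1‖ - g.mid j| ≤ 3 / 10 * g.w j ∧ gq g.κ (sg j) p ≤ g.th j ^ 2}

/-- The truncated datum (rings 0, …, K). -/
def B0 (g : Geo) (p : Om) : ℝ :=
  ∑ j ∈ Finset.range (g.K + 1), (B0s g j).indicator (fun _ => g.a j) p

/-- The datum (all rings; it does not depend on K). -/
def F00 (g : Geo) (p : Om) : ℝ := ∑' j, (B0s g j).indicator (fun _ => g.a j) p

/-- The datum with a seed. -/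
def seed (g : Geo) (s : ℝ) (p : Om) : ℝ := B0 g p + s * Mx p.2

/-- Free flow of the truncated datum. -/
def BB (g : Geo) : ST := fun t p => ENNReal.ofReal (B0 g (fl (-t) p))

def Tube (g : Geo) (j : ℕ) (t : ℝ) : Set T3 :=
  {x | |g.lab t x - g.mid j| ≤ 7 / 20 * g.w j + g.gg j * t}

def Core (g : Geo) (j : ℕ) (t : ℝ) : Set T3 := {x | |g.lab t x - g.mid j| ≤ 1 / 5 * g.w j}

def Cold (g : Geo) (j : ℕ) (t : ℝ) : Set Om :=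
  {p | p.1 ∈ Tube g j t ∧ gq g.κ (sg j) p ≤ g.gg j ^ 2}

def InT (g : Geo) (t : ℝ) (x : T3) : Prop := ∃ j ≤ g.K, x ∈ Tube g j t

/-- Envelope of the cold-cold collisions. -/
def EE (g : Geo) : ST := fun t p => ∑ j ∈ Finset.range (g.K + 1), (Cold g j t).indicator
  (fun p => ENNReal.ofReal
    (3 * t * g.r j ^ 4 * g.a j * Real.exp (-(gq g.κ (sg j) p) / g.th j ^ 2))) p

def CC (g : Geo) : ST := fun t p => BB g t p + EE g t p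

def ee (t : ℝ) (v : E) : ℝ := Real.exp (-(1 / 2 - t) * ‖v‖ ^ 2)

def sw (g : Geo) (t : ℝ) (p : Om) : ℝ :=
  if ‖p.2‖ ≤ 4 ∧ ‖pl p.1‖ ≤ 1 / 8 + 4 * t then
    (√(gq g.κ 1 p + g.th g.K ^ 2))⁻¹ + (√(gq g.κ (-1) p + g.th g.K ^ 2))⁻¹
  else 0

def ps (g : Geo) (t : ℝ) (p : Om) : ℝ := ee t p.2 * (1 + sw g t p)

def psE (g : Geo) : ST := fun t p => ENNReal.ofReal (ps g t p)

def tau (g : Geo) (l t : ℝ) (p : Om) : ℝ :=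
  g.te t + ‖pl p.1‖ * (l / max 1 (2 * l * ‖p.2‖))

def wt (g : Geo) (l : ℝ) (a : ℕ) : ST := fun t p => ENNReal.ofReal (tau g l t p ^ a * ps g t p)

/-- The quiet supersolution. -/
def Z0 (g : Geo) (Λ : ℕ) : ST := fun t p =>
  CC g t p + ENNReal.ofReal (g.R ^ 19) * wt g (1 / (8 * Λ)) Λ t p

/-- The hot part. -/
def HH (g : Geo) (Λ : ℕ) (F : ST) : ST := fun t p => F t p - Z0 g Λ t p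

/-! ### Harnack sets -/

def VV (η κ : ℝ) : Set E := {u | ‖u‖ ≤ 1 / η ∧ η ≤ |‖hz u‖ - κ|}

def good (η κ : ℝ) (v : E) : Set E := {u | u ∈ VV η κ ∧ η ≤ ‖u - v‖}

def KK (g : Geo) (η s : ℝ) : Set Om :=
  {p | p.2 ∈ VV η g.κ ∧ η ^ 4 * g.te s < g.lab s p.1 ∧ ‖pl p.1‖ ≤ g.te s / η}

def cutS (g : Geo) (η t : ℝ) (p : Om) : Set ℝ :=
  {s | η * g.te t ≤ g.te s ∧ s ≤ t - η * g.te t ∧
    η ^ 4 * g.te s < g.lab s (fl (s - t) p).1 ∧ ‖pl (fl (s - t) p).1‖ ≤ g.te s / η}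

/-- The main linear operator. -/
def GB (g : Geo) (h : ST) : ST := duh 0 (fun s p => 2 * G2 kF (BB g) h s p)

/-- Its good part. -/
def GK (g : Geo) (η : ℝ) (h : ST) : ST := fun t p => ∫⁻ s in Ioc 0 t ∩ cutS g η t p,
  2 * G2 kF (BB g) (restr (good η g.κ p.2) h) s (fl (s - t) p)

/-! ### The adjoint weight -/

structure Par where
  p : ℝ
  η : ℝ
  D : ℝ
  V : ℝ

open Classical in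
def om (q : Par) (v : E) : ℝ := if q.η ≤ ‖hz v‖ ∧ ‖v‖ ≤ q.V then min ‖hz v‖ 1 ^ q.p else 0

open Classical in
def kS (D a₀ a r : ℝ) : ℝ := if D ≤ r ∧ a₀ ≤ a then a else 0

open Classical in
def SS (g : Geo) (V t : ℝ) (x : T3) : ℝ :=
  if ‖pl x‖ ≤ g.R / 4 + V * t then ‖pl x‖⁻¹ ^ 18 else 0

open Classical in
def nuS (g : Geo) (q : Par) : ST := fun t p =>
  if ‖p.2‖ ≤ q.V then ENNReal.ofReal (9 / 10 * SS g q.V t p.1) *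
    ∫⁻ z : E × S2, ENNReal.ofReal (kS q.D q.η |cf p.2 z.1 z.2| ‖p.2 - z.1‖) *
      (BB g t (p.1, z.1) * ENNReal.ofReal (om q (vp p.2 z.1 z.2) + om q (wp p.2 z.1 z.2)))
      ∂(volume.prod sph)
  else 0

def WW (g : Geo) (q : Par) : ST := fun t p => ∫⁻ s in Ioc t 1,
  en (∫⁻ r in Ioc t s, Nu (BB g) r (fl (r - t) p)) * nuS g q s (fl (s - t) p)

def Phi (g : Geo) (q : Par) (F : ST) (t : ℝ) : ℝ≥0∞ := ∫⁻ p, WW g q t p * F t p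

/-- Normalized truncated gain. -/
def gN (Rk δ : ℝ) (F : ST) : ST := fun t p =>
  G2 (kT Rk) F F t p / (1 + ENNReal.ofReal δ * ∫⁻ u, F t (p.1, u))

/-- What is used of a solution of the truncated problem with datum seed g s. -/
structure Sub (g : Geo) (s Rk δ : ℝ) (F : ST) : Prop where
  jm : JM F
  bd : ∃ C : ℝ, ∀ t ∈ Icc (0 : ℝ) 1, ∀ p : Om, F t p ≤ ENNReal.ofReal (C * Real.exp (-‖p.2‖))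
  init : ∀ p, F 0 p = ENNReal.ofReal (seed g s p)
  up : ∀ t, 0 ≤ t → ∀ p : Om, F t p ≤ BB g t p + ENNReal.ofReal (s * Mx p.2) +
    duh 0 (G2 (kT Rk) F F) t p
  low : ∀ a b, 0 ≤ a → a ≤ b → ∀ p : Om,
    F a (fl a p) * en (∫⁻ r in Ioc a b, Nu F r (fl r p)) +
      ∫⁻ τ in Ioc a b, gN Rk δ F τ (fl τ p) * en (∫⁻ r in Ioc τ b, Nu F r (fl r p)) ≤
      F b (fl b p)

/-! ### Basic facts -/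

/-- Algebra and measurability of the operators. -/
structure AlgStmt : Prop where
  gain_mono : ∀ (k k' : ℝ → ℝ → ℝ) (f f' h h' : E → ℝ≥0∞) (v : E),
    (∀ a r, 0 ≤ a → k a r ≤ k' a r) → (∀ u, f u ≤ f' u) → (∀ u, h u ≤ h' u) →
    gainK k f h v ≤ gainK k' f' h' v
  gain_add_left : ∀ (k : ℝ → ℝ → ℝ) (f f' h : E → ℝ≥0∞) (v : E), IsKer k → Measurable f →
    Measurable h → gainK k (fun u => f u + f' u) h v = gainK k f h v + gainK k f' h v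
  gain_add_right : ∀ (k : ℝ → ℝ → ℝ) (f h h' : E → ℝ≥0∞) (v : E), IsKer k → Measurable f →
    Measurable h → gainK k f (fun u => h u + h' u) v = gainK k f h v + gainK k f h' v
  gain_mul : ∀ (k : ℝ → ℝ → ℝ) (f h : E → ℝ≥0∞) (v : E) (a b : ℝ≥0∞), a ≠ ⊤ → b ≠ ⊤ →
    gainK k (fun u => a * f u) (fun u => b * h u) v = a * b * gainK k f h v
  gain_zero : ∀ (k : ℝ → ℝ → ℝ) (f h : E → ℝ≥0∞) (v : E), (∀ u, f u = 0) ∨ (∀ u, h u = 0) →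
    gainK k f h v = 0
  kT_le : ∀ R a r : ℝ, 0 ≤ a → kT R a r ≤ kF a r
  freq_eq : ∀ (h : E → ℝ≥0∞) (v : E), Measurable h →
    freqK kF h v = ∫⁻ u, ENNReal.ofReal (2 * Real.pi * ‖v - u‖) * h u
  sph_cf : ∀ v u : E, ∫⁻ ω, ENNReal.ofReal |cf v u ω| ∂sph = ENNReal.ofReal (2 * Real.pi * ‖v - u‖)
  jm_slice : ∀ f : ST, JM f → ∀ t x, Measurable (fun u => f t (x, u))
  jm_time : ∀ f : ST, JM f → ∀ t, Measurable (f t)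
  jm_flight : ∀ f : ST, JM f → ∀ (t : ℝ) (p : Om), Measurable (fun s => f s (fl (s - t) p)) ∧
    Measurable (fun s => f s (fl s p))
  jm_G2 : ∀ (k : ℝ → ℝ → ℝ) (f h : ST), IsKer k → JM f → JM h → JM (G2 k f h)
  jm_QZ : ∀ (k : ℝ → ℝ → ℝ) (f h : ST), IsKer k → JM f → JM h → JM (QZ k f h)
  jm_Nu : ∀ h : ST, JM h → JM (Nu h)
  jm_duh : ∀ (t₀ : ℝ) (q : ST), JM q → JM (duh t₀ q)
  jm_gN : ∀ (Rk δ : ℝ) (F : ST), JM F → JM (gN Rk δ F)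
  jm_restr : ∀ (V : Set E) (h : ST), MeasurableSet V → JM h → JM (restr V h)
  duh_mono : ∀ (t₀ t : ℝ) (q q' : ST) (p : Om), (∀ s ∈ Ioc t₀ t, ∀ p, q s p ≤ q' s p) →
    duh t₀ q t p ≤ duh t₀ q' t p
  duh_add : ∀ (t₀ t : ℝ) (q q' : ST) (p : Om), JM q →
    duh t₀ (fun s p => q s p + q' s p) t p = duh t₀ q t p + duh t₀ q' t p
  duh_mul : ∀ (t₀ t : ℝ) (q : ST) (p : Om) (a : ℝ≥0∞), a ≠ ⊤ →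
    duh t₀ (fun s p => a * q s p) t p = a * duh t₀ q t p
  duh_split : ∀ (t₀ t₁ t : ℝ) (q : ST) (p : Om), t₀ ≤ t₁ → t₁ ≤ t →
    duh t₀ q t p = duh t₀ q t₁ (fl (t₁ - t) p) + duh t₁ q t p
  QZ_kF : ∀ (Z h : ST), JM Z → JM h → ∀ t p,
    QZ kF Z h t p = 2 * G2 kF Z h t p + G2 kF h h t p
  carl : ∀ (f h : E → ℝ≥0∞) (v : E) (S : ℝ≥0∞), Measurable f → Measurable h →
    (∀ u, f u ≠ 0 → ∀ ι : E2 →ₗᵢ[ℝ] E, (∀ y, inner ℝ (ι y) (v - u) = 0) →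
      ∫⁻ y, h (v - ι y) ≤ S) →
    gainK kF f h v ≤ 2 * (∫⁻ u, f u * (ENNReal.ofReal ‖v - u‖)⁻¹) * S

/-- The function en, a quadratic sublevel bound. -/
structure EnStmt : Prop where
  zero : en 0 = 1
  anti : ∀ x y, x ≤ y → en y ≤ en x
  add : ∀ x y, en (x + y) = en x * en y
  le_one : ∀ x, en x ≤ 1
  meas : Measurable en
  ofReal : ∀ x : ℝ, 0 ≤ x → en (ENNReal.ofReal x) = ENNReal.ofReal (Real.exp (-x))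
  expo : ∀ (a b : ℝ) (n : ℝ → ℝ≥0∞), a ≤ b → Measurable n → ∫⁻ r in Ioc a b, n r ≠ ⊤ →
    (∫⁻ s in Ioc a b, en (∫⁻ r in Ioc a s, n r) * n s) + en (∫⁻ r in Ioc a b, n r) = 1
  meas_int : ∀ (n : ℝ → ℝ≥0∞) (a : ℝ), Measurable n →
    Measurable (fun s => ∫⁻ r in Ioc a s, n r) ∧ Measurable (fun s => ∫⁻ r in Ioc s a, n r) ∧
    Measurable (fun z : ℝ × ℝ => ∫⁻ r in Ioc z.1 z.2, n r)
  qsl : ∀ A b c ε : ℝ, A ≠ 0 → 0 ≤ ε →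
    volume {s : ℝ | |A * s ^ 2 + b * s + c| ≤ ε} ≤ ENNReal.ofReal (4 * √(ε / |A|))

/-- Measurability of the objects of the construction. -/
structure MeCStmt : Prop where
  hz : Continuous hz
  pl : Measurable pl
  gq : ∀ κ σ, Measurable (gq κ σ)
  b0s : ∀ g j, MeasurableSet (B0s g j)
  b0 : ∀ g, Measurable (B0 g) ∧ ∀ s, Measurable (seed g s)
  tube : ∀ g j, MeasurableSet {y : ℝ × T3 | y.2 ∈ Tube g j y.1} ∧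
    MeasurableSet {y : ℝ × T3 | y.2 ∈ Core g j y.1} ∧
    MeasurableSet {y : ℝ × Om | y.2 ∈ Cold g j y.1} ∧ ∀ t, MeasurableSet (Cold g j t)
  jm : ∀ g, JM (BB g) ∧ JM (EE g) ∧ JM (CC g) ∧ JM (psE g) ∧ (∀ l a, JM (wt g l a)) ∧
    (∀ Λ, JM (Z0 g Λ)) ∧ (∀ Λ F, JM F → JM (HH g Λ F))
  vv : ∀ η κ, MeasurableSet (VV η κ) ∧ (∀ v, MeasurableSet (good η κ v)) ∧
    MeasurableSet {z : E × E | z.2 ∈ good η κ z.1}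
  kk : ∀ g η, MeasurableSet {y : ℝ × Om | y.2 ∈ KK g η y.1} ∧ (∀ s, MeasurableSet (KK g η s)) ∧
    ∀ t p, MeasurableSet (cutS g η t p)
  om : ∀ q, Measurable (om q)
  kS : ∀ D a₀, IsKer (kS D a₀)
  ww : ∀ g q, JM (nuS g q) ∧ JM (WW g q)

/-- Flat geometry of the torus and of the function gq. -/
structure GeoAStmt : Prop where
  hz_add : ∀ (u v : E) (a : ℝ), hz (u + v) = hz u + hz v ∧ hz (u - v) = hz u - hz v ∧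
    hz (a • v) = (a : ℂ) * hz v
  norm_sq : ∀ v : E, ‖v‖ ^ 2 = ‖hz v‖ ^ 2 + v 2 ^ 2 ∧ ‖hz v‖ ≤ ‖v‖ ∧ |v 2| ≤ ‖v‖
  lift : ∀ (p : Om) (Δ : ℝ), ‖pl p.1‖ + |Δ| * ‖hz p.2‖ < 1 / 2 →
    pl (fl Δ p).1 = pl p.1 + (Δ : ℂ) * hz p.2
  lip : ∀ (p : Om) (Δ : ℝ), ‖pl (fl Δ p).1‖ ≤ ‖pl p.1‖ + |Δ| * ‖hz p.2‖
  pl_le : ∀ x, ‖pl x‖ ≤ 1
  gq_uu : ∀ (κ σ : ℝ) (p : Om), ‖p.2 - uu κ σ p.1‖ ^ 2 ≤ gq κ σ p ∧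
    (pl p.1 ≠ 0 → gq κ σ p = ‖p.2 - uu κ σ p.1‖ ^ 2)
  uu_le : ∀ (κ σ : ℝ) (x : T3), 0 ≤ κ → ‖hz (uu κ σ x)‖ ≤ κ ∧ uu κ σ x 2 = σ ∧
    ‖uu κ σ x‖ ≤ κ + |σ|
  gq_ge : ∀ (κ σ : ℝ) (p : Om), 0 ≤ κ → (‖hz p.2‖ - κ) ^ 2 + (p.2 2 - σ) ^ 2 ≤ gq κ σ p
  gq_polar : ∀ (κ σ : ℝ) (p : Om), pl p.1 ≠ 0 → gq κ σ p =
    ((starRingEnd ℂ (pl p.1) * hz p.2).re / ‖pl p.1‖ - κ) ^ 2 +
    ((starRingEnd ℂ (pl p.1) * hz p.2).im / ‖pl p.1‖) ^ 2 + (p.2 2 - σ) ^ 2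
  gq_mono : ∀ (κ σ Δ : ℝ) (p : Om), 0 ≤ κ → 0 ≤ Δ → ‖pl p.1‖ + Δ * ‖hz p.2‖ < 1 / 2 →
    gq κ σ (fl Δ p) ≤ gq κ σ p
  vol_le : ∀ ρ : ℝ, 0 ≤ ρ → volume {x : T3 | ‖pl x‖ ≤ ρ} ≤ ENNReal.ofReal (4 * ρ ^ 2)
  vol_ge : ∀ ρ : ℝ, 0 < ρ → ρ ≤ 1 / 8 →
    ENNReal.ofReal (ρ ^ 2 / 4) ≤ volume {x : T3 | ρ ≤ ‖pl x‖ ∧ ‖pl x‖ ≤ 2 * ρ}

/-- Rings, tubes, cold sets, weights. -/
structure GeoB (g : Geo) : Prop where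
  r_pos : ∀ j, 0 < g.r j ∧ g.r j ≤ g.R ∧ g.r (j + 1) = g.r j - g.w j ∧ 0 < g.a j ∧
    0 < g.th j ∧ g.th j ≤ g.gg j ∧ g.gg j ≤ g.w j / 10 ∧ g.gg j ≤ g.R ^ 6
  r_anti : ∀ i j, i ≤ j → g.r j ≤ g.r i ∧ g.th j ≤ g.th i ∧ g.a i ≤ g.a j
  R_le : g.R ≤ 1 / 10000
  te : 0 < g.te 0 ∧ g.te 0 ≤ g.κ ∧ ∀ t, g.te t = t + g.te 0
  tube : ∀ j, ∀ t ∈ Icc (0 : ℝ) 1, ∀ x ∈ Tube g j t, g.r (j + 1) < g.lab t x ∧ g.lab t x < g.r j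
  tube_disj : ∀ i j, ∀ t ∈ Icc (0 : ℝ) 1, ∀ x, x ∈ Tube g i t → x ∈ Tube g j t → i = j
  core : ∀ j t, 0 ≤ t → Core g j t ⊆ Tube g j t
  inT : ∀ t ∈ Icc (0 : ℝ) 1, ∀ x, InT g t x →
    g.κ * g.te t ≤ ‖pl x‖ ∧ ‖pl x‖ ≤ g.R + g.κ * t ∧ pl x ≠ 0 ∧ g.r (g.K + 1) ≤ g.lab t x
  cold_fwd : ∀ j s t, 0 ≤ s → s ≤ t → t ≤ 1 → ∀ p ∈ Cold g j s,
    fl (t - s) p ∈ Cold g j t ∧ gq g.κ (sg j) (fl (t - s) p) ≤ gq g.κ (sg j) p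
  cold_v : ∀ j, ∀ t ∈ Icc (0 : ℝ) 1, ∀ p ∈ Cold g j t,
    ‖p.2 - uu g.κ (sg j) p.1‖ ≤ g.gg j ∧ ‖p.2‖ ≤ 2 ∧ ‖hz p.2‖ ≤ 2 * g.κ
  supp : ∀ j, ∀ t ∈ Icc (0 : ℝ) 1, ∀ p, fl (-t) p ∈ B0s g j →
    p ∈ Cold g j t ∧ gq g.κ (sg j) p ≤ g.th j ^ 2 ∧ ‖p.2 - uu g.κ (sg j) p.1‖ ≤ g.th j ∧
      |(starRingEnd ℂ (pl p.1) * hz p.2).im| ≤ g.th j * g.r j
  bb_tube : ∀ j, ∀ t ∈ Icc (0 : ℝ) 1, ∀ p : Om, p.1 ∈ Tube g j t →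
    BB g t p = if j ≤ g.K then (B0s g j).indicator (fun _ => ENNReal.ofReal (g.a j)) (fl (-t) p)
      else 0
  ee_tube : ∀ j, ∀ t ∈ Icc (0 : ℝ) 1, ∀ p : Om, p.1 ∈ Tube g j t →
    EE g t p = if j ≤ g.K then (Cold g j t).indicator (fun p => ENNReal.ofReal
      (3 * t * g.r j ^ 4 * g.a j * Real.exp (-(gq g.κ (sg j) p) / g.th j ^ 2))) p else 0
  cc_supp : ∀ t ∈ Icc (0 : ℝ) 1, ∀ p, CC g t p ≠ 0 → ∃ j ≤ g.K, p ∈ Cold g j t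
  bb_fl : ∀ s t p, BB g s (fl (s - t) p) = BB g t p
  ps_mono : ∀ s t, 0 ≤ s → s ≤ t → t ≤ 1 / 32 → ∀ p, ps g s (fl (s - t) p) ≤ ps g t p
  tau_mono : ∀ l s t, 0 ≤ l → s ≤ t → ∀ p, tau g l s (fl (s - t) p) + (t - s) / 2 ≤ tau g l t p
  tau_bd : ∀ l, 0 ≤ l → l ≤ 1 / 8 → ∀ t ∈ Icc (0 : ℝ) (1 / 32), ∀ p,
    g.te t ≤ tau g l t p ∧ tau g l t p ≤ 1 ∧ tau g 0 t p = g.te t ∧
      (InT g t p.1 → g.κ * tau g l t p ≤ 2 * ‖pl p.1‖)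
  ps_bd : ∀ t ∈ Icc (0 : ℝ) (1 / 32), ∀ p : Om, Mx p.2 ≤ ee t p.2 ∧ ee t p.2 ≤ ps g t p ∧
    0 ≤ sw g t p ∧ 0 < ee t p.2 ∧ ee t p.2 ≤ 3 * Real.exp (-‖p.2‖) ∧
    Real.exp (-‖p.2‖ ^ 2 / 2) ≤ ee t p.2
  crude : ∃ C : ℝ, 1 ≤ C ∧ ∀ t ∈ Icc (0 : ℝ) (1 / 32), ∀ p : Om, ps g t p ≤ C * ee t p.2 ∧
    CC g t p ≤ ENNReal.ofReal (C * ee t p.2) ∧
    ∀ Λ : ℕ, 1 ≤ Λ → Z0 g Λ t p ≤ ENNReal.ofReal (C * ee t p.2)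

def GeoBStmt : Prop := ∀ g : Geo, g.Ok → GeoB g

/-- The proved statements of part A that part C uses. -/
structure Base : Prop where
  meas : MeasStmt
  weak : WeakStmt
  sym : SymStmt
  carl : CarlStmt
  arch : ArchStmt
  torus : TorusStmt
  chain : ChainStmt
  exp : ExpStmt
  top : TOpStmt
  tsEx : TSExStmt
  tsStab : TSStabStmt
  tsFl : TSFlStmt
  ineq : IneqStmt

/-- The basic facts of part C. -/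
structure BaseC : Prop where
  alg : AlgStmt
  en : EnStmt
  me : MeCStmt
  ga : GeoAStmt
  gb : GeoBStmt

/-- Densities of the beams, upper bounds. -/
def DensUStmt : Prop :=
  ∀ g : Geo, g.Ok → ∀ t ∈ Icc (0 : ℝ) 1, ∀ x : T3,
    ∫⁻ u, BB g t (x, u) ≤ ENNReal.ofReal (8 * g.c / ‖pl x‖) ∧
    ∫⁻ u, EE g t (x, u) ≤ ENNReal.ofReal (24 * g.c * t) ∧
    (∀ j, x ∈ Tube g j t → ∀ (v : E) (ι : E2 →ₗᵢ[ℝ] E),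
      ∫⁻ y, BB g t (x, v - ι y) ≤ ENNReal.ofReal (4 * g.c / g.r j ^ 8))

/-- Densities of the beams, lower bound in the cores. -/
def DensLStmt : Prop :=
  ∀ g : Geo, g.Ok → ∀ t ∈ Icc (0 : ℝ) 1, ∀ x : T3, ∀ j ≤ g.K, x ∈ Core g j t →
    ENNReal.ofReal (g.c / (16 * ‖pl x‖)) ≤ ∫⁻ u, BB g t (x, u)

/-- Singular integrals of the beams. -/
def SingStmt : Prop :=
  ∃ C : ℝ, 1 ≤ C ∧ ∀ g : Geo, g.Ok → ∀ t ∈ Icc (0 : ℝ) (1 / 32), ∀ p : Om,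
    ∫⁻ u, BB g t (p.1, u) * (ENNReal.ofReal ‖p.2 - u‖)⁻¹ ≤
      ENNReal.ofReal (C * g.c / ‖pl p.1‖ * ((1 + sw g t p) / (1 + ‖p.2‖))) ∧
    ∫⁻ u, EE g t (p.1, u) * (ENNReal.ofReal ‖p.2 - u‖)⁻¹ ≤
      ENNReal.ofReal (C * g.c * t * ((1 + sw g t p) / (1 + ‖p.2‖)))

/-- Plane integrals of the profile. -/
def PB1Stmt : Prop :=
  ∃ C : ℝ, 1 ≤ C ∧ ∀ g : Geo, g.Ok → ∀ t ∈ Icc (0 : ℝ) (1 / 32), ∀ (x : T3) (v u : E)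
    (ι : E2 →ₗᵢ[ℝ] E), ‖u‖ ≤ 4 → (∀ y, inner ℝ (ι y) (v - u) = 0) →
    ∫⁻ y, psE g t (x, v - ι y) ≤ ENNReal.ofReal (C * ee t v)

/-- Plane integrals over the bad velocities. -/
def PB2Stmt : Prop :=
  ∀ ε : ℝ, 0 < ε → ∀ᶠ η in 𝓝[>] (0 : ℝ), ∀ g : Geo, g.Ok → ∀ t ∈ Icc (0 : ℝ) (1 / 32),
    ∀ (x : T3) (v u : E) (ι : E2 →ₗᵢ[ℝ] E), ‖u‖ ≤ 4 → (∀ y, inner ℝ (ι y) (v - u) = 0) →
    ∫⁻ y, (good η g.κ v)ᶜ.indicator (fun u => psE g t (x, u)) (v - ι y) ≤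
      ENNReal.ofReal (ε * (1 + ‖v‖) * ee t v)

/-- Hot-hot collisions. -/
structure PPP (g : Geo) (C : ℝ) : Prop where
  gain : ∀ t ∈ Icc (0 : ℝ) (1 / 32), ∀ p : Om,
    G2 kF (psE g) (psE g) t p ≤ ENNReal.ofReal (C * (1 + ‖p.2‖) * ee t p.2)
  freq : ∀ t ∈ Icc (0 : ℝ) (1 / 32), ∀ p : Om, Nu (psE g) t p ≤ ENNReal.ofReal (C * (1 + ‖p.2‖))
  dens : ∀ t ∈ Icc (0 : ℝ) (1 / 32), ∀ x : T3, ∫⁻ u, psE g t (x, u) ≤ ENNReal.ofReal C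
  time : ∀ t₀ t, 0 ≤ t₀ → t₀ ≤ t → t ≤ 1 / 32 → ∀ v : E,
    ∫⁻ s in Ioc t₀ t, ENNReal.ofReal ((1 + ‖v‖) * ee s v) ≤ ENNReal.ofReal (2 * √(t - t₀) * ee t v)

def PPStmt : Prop := ∃ C : ℝ, 1 ≤ C ∧ ∀ g : Geo, g.Ok → PPP g C

/-- One Duhamel step. -/
structure OSP (g : Geo) (C : ℝ) : Prop where
  cold : ∀ (l : ℝ) (a : ℕ), 0 ≤ l → 1 ≤ a → 8 * a * l ≤ 1 → ∀ t ∈ Icc (0 : ℝ) g.R, ∀ p,
    duh 0 (G2 kF (CC g) (wt g l a)) t p ≤ ENNReal.ofReal (C * g.c / (g.κ * a)) * wt g l a t p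
  warm : ∀ t ∈ Icc (0 : ℝ) g.R, ∀ p,
    duh 0 (G2 kF (EE g) (wt g 0 1)) t p ≤ ENNReal.ofReal (C * g.c * g.R) * wt g 0 1 t p
  hot : ∀ a : ℕ, ∀ t ∈ Icc (0 : ℝ) g.R, ∀ p,
    duh 0 (G2 kF (psE g) (wt g 0 a)) t p ≤ ENNReal.ofReal C * wt g 0 a t p
  quad : ∀ (l : ℝ) (a : ℕ), 0 ≤ l → l ≤ 1 / 8 → ∀ t ∈ Icc (0 : ℝ) g.R, ∀ p,
    duh 0 (G2 kF (wt g l a) (wt g l a)) t p ≤ ENNReal.ofReal (C * 2 ^ a) * wt g l a t p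

def OSStmt : Prop := ∃ C : ℝ, 1 ≤ C ∧ ∀ g : Geo, g.Ok → OSP g C

/-- Cold-cold collisions. -/
def CCStmt : Prop :=
  ∀ (c κ : ℝ) (Λ : ℕ), 1 ≤ c → 0 < κ → κ ≤ 1 / 100 → 1 ≤ Λ → EvR c κ fun g =>
    ∀ t ∈ Icc (0 : ℝ) g.R, ∀ p, duh 0 (G2 kF (CC g) (CC g)) t p ≤
      EE g t p + ENNReal.ofReal (g.R ^ 19 / 4) * wt g (1 / (8 * Λ)) Λ t p

/-- Comparison principle. -/
def CmpStmt : Prop :=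
  ∀ (Rk t₀ T C : ℝ) (src Z h y : ST), 0 < Rk → JM Z → JM h → JM y →
    (∀ t ∈ Icc t₀ T, ∀ p : Om, Z t p ≤ ENNReal.ofReal (C * Real.exp (-‖p.2‖)) ∧
      h t p ≤ ENNReal.ofReal (C * Real.exp (-‖p.2‖)) ∧
      y t p ≤ ENNReal.ofReal (C * Real.exp (-‖p.2‖))) →
    (∀ t ∈ Icc t₀ T, ∀ p, h t p ≤ src t p + duh t₀ (QZ (kT Rk) Z h) t p) →
    (∀ t ∈ Icc t₀ T, ∀ p, src t p + duh t₀ (QZ kF Z y) t p ≤ y t p) →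
    ∀ t ∈ Icc t₀ T, ∀ p, h t p ≤ y t p

/-- Supersolutions. -/
def BarStmt : Prop :=
  ∀ c κ : ℝ, 1 ≤ c → 0 < κ → κ ≤ 1 / 100 → ∀ᶠ Λ : ℕ in atTop, ∃ ε : ℝ, 0 < ε ∧ EvR c κ fun g =>
    (∀ t ∈ Icc (0 : ℝ) g.R, ∀ p,
      BB g t p + duh 0 (G2 kF (Z0 g Λ) (Z0 g Λ)) t p ≤ Z0 g Λ t p) ∧
    (∀ T ∈ Icc (0 : ℝ) g.R, ∀ N : ℝ, 0 ≤ N → N * g.te T ^ Λ ≤ ε → ∀ t ∈ Icc (0 : ℝ) T, ∀ p,
      duh 0 (QZ kF (Z0 g Λ) (fun t p => ENNReal.ofReal N * wt g 0 Λ t p)) t p ≤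
        ENNReal.ofReal (N / 2) * wt g 0 Λ t p)

/-- The inequality for the hot part and the crude growth bound. -/
def HEP (g : Geo) (Λ : ℕ) (ε : ℝ) : Prop :=
  ∀ (s Rk δ : ℝ) (F : ST), 0 ≤ s → 0 < Rk → Sub g s Rk δ F →
    (∀ t ∈ Icc (0 : ℝ) g.R, ∀ p : Om, HH g Λ F t p ≤
      ENNReal.ofReal (s * Mx p.2) + duh 0 (QZ (kT Rk) (Z0 g Λ) (HH g Λ F)) t p) ∧
    (∀ T ∈ Icc (0 : ℝ) g.R, 2 * s * (g.te T / g.te 0) ^ Λ ≤ ε → ∀ t ∈ Icc (0 : ℝ) T, ∀ p,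
      HH g Λ F t p ≤ ENNReal.ofReal (2 * s * (g.te t / g.te 0) ^ Λ) * psE g t p)

def HEStmt : Prop :=
  ∀ c κ : ℝ, 1 ≤ c → 0 < κ → κ ≤ 1 / 100 → ∀ᶠ Λ : ℕ in atTop, ∃ ε : ℝ, 0 < ε ∧
    EvR c κ fun g => HEP g Λ ε

/-- Solutions of the truncated problem satisfy Sub. -/
def IFStmt : Prop :=
  ∀ (g : Geo) (s Rk δ : ℝ) (F : ℝ → Om → ℝ), g.Ok → 0 ≤ s → 0 < Rk → 0 < δ →
    TS Rk δ (seed g s) F → Sub g s Rk δ (fun t p => ENNReal.ofReal (F t p))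

/-! ### Harnack inequality -/

def LYaStmt : Prop :=
  ∀ c κ ε : ℝ, 1 ≤ c → 0 < κ → κ ≤ 1 / 100 → 0 < ε → ∀ᶠ η in 𝓝[>] (0 : ℝ), EvR c κ fun g =>
    ∀ (h : ST) (N : ℝ), JM h → 0 ≤ N → ∀ T ∈ Icc (0 : ℝ) g.R,
      (∀ t ∈ Icc (0 : ℝ) T, ∀ p, h t p ≤ ENNReal.ofReal N * wt g 0 1 t p) →
      ∀ t ∈ Icc (0 : ℝ) T, ∀ p : Om,
        GB g h t p ≤ ENNReal.ofReal (ε * N) * wt g 0 1 t p + GB g (restr (VV η g.κ) h) t p ∧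
        (p.2 ∈ VV η g.κ → GB g h t p ≤ ENNReal.ofReal (ε * N) * wt g 0 1 t p + GK g η h t p)

def LYbStmt : Prop :=
  ∀ c κ η : ℝ, 1 ≤ c → 0 < κ → κ ≤ 1 / 100 → 0 < η → η ≤ 1 → ∃ C : ℝ, 0 ≤ C ∧ EvR c κ fun g =>
    ∀ (h : ST) (Φ : ℝ), JM h → 0 ≤ Φ → ∀ T ∈ Icc (0 : ℝ) g.R,
      (∀ s ∈ Icc (0 : ℝ) T, ∫⁻ p in KK g η s, h s p ≤ ENNReal.ofReal (Φ * g.te s ^ 18)) →
      ∀ t ∈ Icc (0 : ℝ) T, ∀ p : Om, ‖p.2‖ ≤ 1 / η →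
        GK g η (GK g η h) t p ≤ ENNReal.ofReal (C * Φ) * wt g 0 1 t p

def LYP (g : Geo) (η C : ℝ) : Prop :=
  ∀ (h : ST) (N A Φ : ℝ), JM h → 0 ≤ N → 0 ≤ A → 0 ≤ Φ → ∀ T ∈ Icc (0 : ℝ) g.R,
    (∀ t ∈ Icc (0 : ℝ) T, ∀ p, h t p ≤ ENNReal.ofReal N * wt g 0 1 t p) →
    (∀ t ∈ Icc (0 : ℝ) T, ∀ p, h t p ≤ ENNReal.ofReal A * wt g 0 1 t p + GB g h t p) →
    (∀ s ∈ Icc (0 : ℝ) T, ∫⁻ p in KK g η s, h s p ≤ ENNReal.ofReal (Φ * g.te s ^ 18)) →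
    ∀ t ∈ Icc (0 : ℝ) T, ∀ p, ENNReal.ofReal A * wt g 0 1 t p + GB g h t p ≤
      ENNReal.ofReal (N / 4 + C * (A + Φ)) * wt g 0 1 t p

def LYStmt : Prop :=
  ∀ c κ : ℝ, 1 ≤ c → 0 < κ → κ ≤ 1 / 100 → ∀ᶠ η in 𝓝[>] (0 : ℝ), ∃ C : ℝ, 1 ≤ C ∧
    EvR c κ fun g => LYP g η C

/-! ### Lower bound -/

/-- Uniformly small bad sets on the sphere. -/
def Sph0Stmt : Prop :=
  ∀ ε : ℝ, 0 < ε → ∃ d : ℝ, 0 < d ∧ d ≤ 1 ∧ ∀ z : E, ‖z‖ = 1 →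
    sph {ω : S2 | ‖hz (z - inner ℝ z (ω : E) • (ω : E))‖ < d ∨
      |inner ℝ z (ω : E)| * ‖hz (ω : E)‖ < d} ≤ ENNReal.ofReal ε

/-- Gain in one collision with a beam particle. -/
def Coll (p η D V₀ : ℝ) : Prop :=
  ∀ V, V₀ ≤ V → ∀ v u : E, ‖v‖ ≤ V → ‖u‖ ≤ 2 → ‖hz u‖ ≤ 2 * η → D ≤ ‖v - u‖ →
    ENNReal.ofReal (9 / 5 * min (2 * ‖v - u‖) 1 ^ p * (2 * Real.pi * ‖v - u‖)) ≤
      ∫⁻ ω, ENNReal.ofReal (kS D η |cf v u ω| ‖v - u‖) *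
        ENNReal.ofReal (om ⟨p, η, D, V⟩ (vp v u ω) + om ⟨p, η, D, V⟩ (wp v u ω)) ∂sph

def SphStmt : Prop :=
  ∃ p D V₀ : ℝ, 0 < p ∧ p ≤ 1 ∧ 1 ≤ D ∧ 2 ≤ V₀ ∧ ∀ η : ℝ, 0 < η → Coll p η (D * η) V₀

/-- Straight lines crossing the rings. -/
structure LineStmt : Prop where
  cross : ∀ (X w : ℂ) (κ t a b s₁ s₂ α β : ℝ), 0 < κ → s₁ ∈ Icc a b → s₂ ∈ Icc a b → α ≤ β →
    ‖X + ((s₁ - t : ℝ) : ℂ) * w‖ - κ * s₁ ≤ α → β ≤ ‖X + ((s₂ - t : ℝ) : ℂ) * w‖ - κ * s₂ →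
    ENNReal.ofReal ((β - α) / (‖w‖ + κ)) ≤
      volume {s ∈ Icc a b | ‖X + ((s - t : ℝ) : ℂ) * w‖ - κ * s ∈ Icc α β}
  ring : ∀ g : Geo, g.Ok → ∀ (l₁ l₂ : ℝ) (i : ℕ), g.r (g.K + 1) ≤ l₁ → l₂ ≤ g.R →
    l₂ / 1000 ≤ l₂ - l₁ → 0 < l₂ →
    ∃ j ≤ g.K, sg j = sg i ∧ l₁ ≤ g.r (j + 1) ∧ g.r j ≤ l₂ ∧ l₂ / 2 ≤ g.r j
  window : ∀ (X w : ℂ) (κ t m : ℝ), 0 < κ → X ≠ 0 → 1200 * κ ≤ ‖w‖ → m ≤ ‖X‖ - κ * t →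
    ∃ b, t ≤ b ∧ b ≤ t + 3 * ‖X‖ / ‖w‖ ∧
      (∀ s ∈ Icc t b, ‖X + ((s - t : ℝ) : ℂ) * w‖ ≤ 201 / 200 * ‖X‖ ∧
        (m ≤ ‖X + ((s - t : ℝ) : ℂ) * w‖ - κ * s → ‖X‖ / 2 ≤ ‖X + ((s - t : ℝ) : ℂ) * w‖)) ∧
      ∃ s₁ ∈ Icc t b, ∃ s₂ ∈ Icc t b, m ≤ ‖X + ((s₁ - t : ℝ) : ℂ) * w‖ - κ * s₁ ∧
        ‖X + ((s₁ - t : ℝ) : ℂ) * w‖ - κ * s₁ + ‖X‖ / 400 ≤ ‖X + ((s₂ - t : ℝ) : ℂ) * w‖ - κ * s₂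

/-- Pointwise bounds for the two frequencies at a point of a tube. -/
def FreqStmt : Prop :=
  ∀ (g : Geo) (q : Par) (V₀ : ℝ), g.Ok → g.κ ≤ q.η → 0 ≤ q.p → Coll q.p q.η q.D V₀ → V₀ ≤ q.V →
    ∀ t ∈ Icc (0 : ℝ) 1, ∀ p : Om,
    (¬ InT g t p.1 → Nu (BB g) t p = 0) ∧
    ∀ j ≤ g.K, p.1 ∈ Tube g j t → ∀ m M : ℝ,
      (‖p.2 - uu g.κ (sg j) p.1‖ + g.th j ≤ M →
        Nu (BB g) t p ≤ ENNReal.ofReal (16 * Real.pi * g.c * M / ‖pl p.1‖)) ∧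
      (m + g.th j ≤ ‖p.2 - uu g.κ (sg j) p.1‖ →
        (p.1 ∈ Core g j t →
          ENNReal.ofReal (Real.pi * g.c * m / (8 * ‖pl p.1‖)) ≤ Nu (BB g) t p) ∧
        (‖p.2‖ ≤ q.V → q.D ≤ m → 0 ≤ m →
          ENNReal.ofReal (81 / 50 * SS g q.V t p.1 * min (2 * m) 1 ^ q.p) * Nu (BB g) t p ≤
            nuS g q t p))

def W1P (g : Geo) (q : Par) : Prop :=
  ∀ t ∈ Icc (0 : ℝ) g.R, ∀ p : Om, g.r (g.K + 1) ≤ g.lab t p.1 → ‖pl p.1‖ ≤ g.R / 4 + q.V * t →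
    ‖pl p.1‖ ≤ g.R / 2 → ENNReal.ofReal (om q p.2 * ‖pl p.1‖⁻¹ ^ 18) ≤ WW g q t p

def W1Stmt : Prop :=
  ∃ p η D c κ V₀ : ℝ, 0 < p ∧ p ≤ 1 ∧ 0 < η ∧ η ≤ 1 / 4 ∧ 0 < D ∧ D ≤ 1 / 4 ∧ 1 ≤ c ∧ 0 < κ ∧
    κ ≤ 1 / 100 ∧ κ ≤ η ∧ 2 ≤ V₀ ∧ Coll p η D V₀ ∧
    ∀ V, V₀ ≤ V → EvR c κ fun g => W1P g ⟨p, η, D, V⟩

def W2P (g : Geo) (q : Par) (η c₂ : ℝ) : Prop :=
  ∀ t, 0 ≤ t → g.te t ≤ η * g.R / 4 → 2 / η ^ 4 * g.te 0 ≤ g.te t → ∀ p ∈ KK g η t,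
    ENNReal.ofReal (c₂ * (g.te t)⁻¹ ^ 18) ≤ WW g q t p

def W2Stmt : Prop :=
  ∀ (q : Par) (c κ V₀ η : ℝ), 0 ≤ q.p → q.D ≤ 1 / 4 → 1 ≤ c → 0 < κ → κ ≤ 1 / 100 → κ ≤ q.η →
    Coll q.p q.η q.D V₀ → V₀ ≤ q.V → 0 < η → η ≤ 1 → 1 / η ≤ q.V →
    ∃ c₂ : ℝ, 0 < c₂ ∧ EvR c κ fun g => W2P g q η c₂

/-- Upper bounds for the weight. -/
def WUStmt : Prop :=
  ∀ (g : Geo) (q : Par), g.Ok → 0 ≤ q.p →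
    (∀ t ∈ Icc (0 : ℝ) 1, ∀ p, WW g q t p ≤ ENNReal.ofReal (2 * (g.κ * g.te t)⁻¹ ^ 18)) ∧
    (∀ t (p : Om), q.V < ‖p.2‖ → WW g q t p = 0 ∧ nuS g q t p = 0) ∧
    (∃ C : ℝ, ∀ t ∈ Icc (0 : ℝ) 1, ∀ p, nuS g q t p ≤ ENNReal.ofReal C) ∧
    (2 * g.R ^ 6 < q.D → ∀ j, ∀ t ∈ Icc (0 : ℝ) 1, ∀ p ∈ Cold g j t, WW g q t p = 0)

/-- Duality along one flight. -/
def Mono1Stmt : Prop :=
  ∀ (s t : ℝ) (y q n b W : ℝ → ℝ≥0∞), s ≤ t → t ≤ 1 → Measurable y → Measurable q →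
    Measurable n → Measurable b →
    (∀ τ, W τ = ∫⁻ σ in Ioc τ 1, en (∫⁻ r in Ioc τ σ, b r) * n σ) →
    (∀ σ ∈ Icc s t, y s * en (∫⁻ r in Ioc s σ, (b r + 1)) +
      ∫⁻ τ in Ioc s σ, q τ * en (∫⁻ r in Ioc τ σ, (b r + 1)) ≤ y σ) →
    ENNReal.ofReal (Real.exp s) * (W s * y s) +
        ∫⁻ τ in Ioc s t, ENNReal.ofReal (Real.exp τ) * (W τ * q τ) ≤
      ENNReal.ofReal (Real.exp t) * (W t * y t) +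
        ∫⁻ σ in Ioc s t, ENNReal.ofReal (Real.exp σ) * (n σ * y σ)

/-- Collisions with the beams pay for the decay of the weight. -/
def Mono2Stmt : Prop :=
  ∀ (g : Geo) (q : Par) (Rk δ : ℝ) (F : ST), g.Ok → W1P g q → 0 < q.η → 2 * g.R ^ 6 < q.D →
    q.V + 2 ≤ Rk → 1 / q.η ≤ Rk → JM F → ∀ t ∈ Icc (0 : ℝ) g.R, q.V * t ≤ g.R / 4 → ∀ x : T3,
    (∀ u, ENNReal.ofReal (19 / 20) * BB g t (x, u) ≤ F t (x, u)) →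
    ENNReal.ofReal δ * ∫⁻ u, F t (x, u) ≤ ENNReal.ofReal (1 / 19) →
    ∫⁻ v, nuS g q t (x, v) * F t (x, v) ≤ ∫⁻ v, WW g q t (x, v) * gN Rk δ F t (x, v)

/-- The linear regime. -/
def Lin (g : Geo) (Λ : ℕ) (ε T : ℝ) (F : ST) : Prop :=
  ∀ t ∈ Icc (0 : ℝ) T, ∀ p, HH g Λ F t p ≤ ENNReal.ofReal ε * psE g t p

/-- In the linear regime the beams are not depleted. -/
def Mono3Stmt : Prop :=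
  ∃ C : ℝ, 1 ≤ C ∧ ∀ (c κ V : ℝ), 1 ≤ c → 0 < κ → κ ≤ 1 / 100 → 2 ≤ V → EvR c κ fun g =>
    ∃ D : ℝ, 0 < D ∧ ∀ (Λ : ℕ) (ε s Rk δ : ℝ) (F : ST), 1 ≤ Λ → 0 ≤ ε → C * V * ε ≤ 1 → 0 ≤ s →
      Sub g s Rk δ F → ∀ T ∈ Icc (0 : ℝ) g.R, Lin g Λ ε T F → ∀ t ∈ Icc (0 : ℝ) T, ∀ p : Om,
        (‖p.2‖ ≤ V → Nu F t p ≤ Nu (BB g) t p + 1) ∧
        ENNReal.ofReal (19 / 20) * BB g t p ≤ F t p ∧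
        ∫⁻ u, F t (p.1, u) ≤ ENNReal.ofReal D

def MonoP (g : Geo) (q : Par) (C : ℝ) : Prop :=
  ∃ R₁ δ₁ : ℝ, 0 < R₁ ∧ 0 < δ₁ ∧ ∀ (Λ : ℕ) (ε s Rk δ : ℝ) (F : ST), 1 ≤ Λ → 0 ≤ ε →
    C * q.V * ε ≤ 1 → 0 ≤ s → R₁ ≤ Rk → δ ≤ δ₁ → Sub g s Rk δ F → ∀ T ∈ Icc (0 : ℝ) g.R,
    q.V * T ≤ g.R / 4 → Lin g Λ ε T F → ∀ t ∈ Icc (0 : ℝ) T, Phi g q F t ≤ 3 * Phi g q F T

def MonoStmt : Prop :=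
  ∃ C : ℝ, 1 ≤ C ∧ ∀ (q : Par) (c κ : ℝ), 1 ≤ c → 0 < κ → κ ≤ 1 / 100 → 0 ≤ q.p → 0 < q.η →
    0 < q.D → 2 ≤ q.V → EvR c κ fun g => W1P g q → MonoP g q C

/-- The seed is seen by the weight. -/
def Phi0Stmt : Prop :=
  ∃ c₃ : ℝ, 0 < c₃ ∧ ∀ (g : Geo) (q : Par), g.Ok → 0 ≤ q.p → q.p ≤ 1 → q.η ≤ 1 / 2 → 2 ≤ q.V →
    W1P g q → 8 * g.r (g.K + 1) ≤ g.R →
    ENNReal.ofReal (c₃ * (g.r (g.K + 1))⁻¹ ^ 16) ≤ ∫⁻ p, WW g q 0 p * ENNReal.ofReal (Mx p.2)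

/-- The datum and its approximations. -/
def DatStmt : Prop :=
  (∀ g : Geo, g.Ok → IsDatum (F00 g) ∧ (∀ p, 0 ≤ B0 g p) ∧
    ∃ C : ℝ, ∀ s ∈ Icc (0 : ℝ) 1, TData C (seed g s)) ∧
  ∀ (c κ R : ℝ) (K : ℕ → ℕ) (s : ℕ → ℝ), (⟨c, κ, R, 0⟩ : Geo).Ok → Tendsto K atTop atTop →
    (∀ n, s n ∈ Icc (0 : ℝ) 1) → Tendsto s atTop (𝓝 0) →
    Tendsto (fun n => ∫ p : Om, |seed ⟨c, κ, R, K n⟩ (s n) p - F00 ⟨c, κ, R, 0⟩ p| *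
      (1 + ‖p.2‖ ^ 2)) atTop (𝓝 0) ∧
    ∀ ε : ℝ, 0 < ε → ∀ᶠ n in atTop,
      relEnt (seed ⟨c, κ, R, K n⟩ (s n)) ≤ relEnt (F00 ⟨c, κ, R, 0⟩) + ENNReal.ofReal ε

/-- Numerical conditions of the bootstrap. -/
structure BootH (g : Geo) (q : Par) (Λ : ℕ) (η C c₂ ε C₁ C₂ ε₀ ε₁ s T : ℝ) : Prop where
  ok : g.Ok
  ly : LYP g η C
  w2 : W2P g q η c₂
  he : HEP g Λ ε
  os : OSP g C₁
  pp : PPP g C₂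
  η0 : 0 < η
  η1 : η ≤ 1
  Λ1 : 1 ≤ Λ
  C1 : 1 ≤ C
  C₁1 : 1 ≤ C₁
  C₂1 : 1 ≤ C₂
  c₂0 : 0 < c₂
  ε₀0 : 0 < ε₀
  ε₀1 : ε₀ ≤ 1
  ε₁0 : 0 ≤ ε₁
  s0 : 0 ≤ s
  T0 : 0 ≤ T
  T1 : g.te T ≤ η * g.R / 4
  small : C * C₁ * (2 * g.c * g.R + 2 * g.R ^ 19 + ε₀) ≤ 1 / 4
  early : 2 * s * (2 / η ^ 4) ^ Λ ≤ ε
  final : 4 * C * (s / g.te 0 + 3 * ε₁ / c₂ +
    8 * C₂ * s * (2 / η ^ 4) ^ Λ / (η ^ 2 * g.te 0 ^ 16)) ≤ ε₀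

/-- Improvement of the bound in the linear regime. -/
def ImpStmt : Prop :=
  ∀ g q Λ η C c₂ ε C₁ C₂ ε₀ ε₁ s T, BootH g q Λ η C c₂ ε C₁ C₂ ε₀ ε₁ s T →
    ∀ (Rk δ : ℝ) (F : ST), 0 < Rk → Sub g s Rk δ F →
    (∀ t ∈ Icc (0 : ℝ) T, Phi g q F t ≤ ENNReal.ofReal (3 * ε₁)) →
    ∀ t₀ ∈ Icc (0 : ℝ) T, Lin g Λ ε₀ t₀ F → ∀ t ∈ Icc (0 : ℝ) t₀, ∀ p : Om,
      ENNReal.ofReal (s * Mx p.2) + duh 0 (QZ kF (Z0 g Λ) (HH g Λ F)) t p ≤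
        ENNReal.ofReal (ε₀ / 2) * psE g t p

/-- A small functional keeps the solution in the linear regime. -/
def BootStmt : Prop :=
  ∀ g q Λ η C c₂ ε C₁ C₂ ε₀ ε₁ s T, BootH g q Λ η C c₂ ε C₁ C₂ ε₀ ε₁ s T →
    ∀ (Rk δ : ℝ) (F : ST), 0 < Rk → Sub g s Rk δ F →
    (∀ t ∈ Icc (0 : ℝ) T, Phi g q F t ≤ ENNReal.ofReal (3 * ε₁)) → Lin g Λ ε₀ T F

/-- Quiet and ignited solutions of the truncated problems. -/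
def ShootStmt : Prop :=
  ∃ (c κ R T a b : ℝ) (A : Set Om), (⟨c, κ, R, 0⟩ : Geo).Ok ∧ 0 ≤ T ∧ a < b ∧ MeasurableSet A ∧
    ∀ᶠ K : ℕ in atTop, ∃ R₁ δ₁ : ℝ, 0 < R₁ ∧ 0 < δ₁ ∧ ∀ Rk δ, R₁ ≤ Rk → 0 < δ → δ ≤ δ₁ →
      ∃ (s₁ s₂ : ℝ) (F₁ F₂ : ℝ → Om → ℝ), 0 < s₁ ∧ s₁ ≤ (⟨c, κ, R, K⟩ : Geo).r K ∧ 0 < s₂ ∧
        s₂ ≤ (⟨c, κ, R, K⟩ : Geo).r K ∧ TS Rk δ (seed ⟨c, κ, R, K⟩ s₁) F₁ ∧
        TS Rk δ (seed ⟨c, κ, R, K⟩ s₂) F₂ ∧ ∫ p in A, F₁ T p ≤ a ∧ b ≤ ∫ p in A, F₂ T p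

end

end Vale.Agent.P140
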