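import Vale.Agent.P140.DLAll
import Vale.Agent.P140.StmC

/-! The proved statements of part A, bundled for part C. -/

namespace Vale.Agent.P140

theorem base : Base :=
  ⟨meas, weakP, symP, carlP, arch, torus, chain, expP, tOpP, tsExP, tsStabP, tsFlP, ineq⟩

end Vale.Agent.P140
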