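import Vale.Agent.P140.Defs

/-!
Internal definitions and elementary algebra of collisions and free flight.
-/

namespace Vale.Agent.P140

open MeasureTheory Set
open scoped ENNReal

noncomputable section

instance : IsFiniteMeasure sph := by unfold sph; infer_instance

lemma inner_self_S2 (ω : S2) : inner ℝ (ω : E) (ω : E) = 1 := by
  have h : ‖(ω : E)‖ = 1 := by simpa using ω.2
  rw [real_inner_self_eq_norm_sq, h]; norm_num

lemma norm_S2 (ω : S2) : ‖(ω : E)‖ = 1 := by simpa using ω.2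

lemma cf_swap (v w : E) (ω : S2) : cf w v ω = -cf v w ω := by
  unfold cf; rw [← inner_neg_left]; congr 1; abel

lemma vp_swap (v w : E) (ω : S2) : vp w v ω = wp v w ω := by
  unfold vp wp; rw [cf_swap v w]; simp

lemma wp_swap (v w : E) (ω : S2) : wp w v ω = vp v w ω := by
  unfold vp wp; rw [cf_swap v w]; simp [sub_eq_add_neg]

lemma vp_add_wp (v w : E) (ω : S2) : vp v w ω + wp v w ω = v + w := by
  unfold vp wp; abel

lemma cf_post (v w : E) (ω : S2) : cf (vp v w ω) (wp v w ω) ω = -cf v w ω := by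
  have h : vp v w ω - wp v w ω = (v - w) - (2 * cf v w ω) • (ω : E) := by
    unfold vp wp; rw [mul_smul, two_smul]; abel
  have : cf (vp v w ω) (wp v w ω) ω = cf v w ω - 2 * cf v w ω * 1 := by
    conv_lhs => unfold cf
    rw [h, inner_sub_left, real_inner_smul_left, inner_self_S2]; rfl
  rw [this]; ring

lemma vp_post (v w : E) (ω : S2) : vp (vp v w ω) (wp v w ω) ω = v := by
  conv_lhs => unfold vp
  have := cf_post v w ω
  unfold vp at this
  rw [this]; simp

lemma wp_post (v w : E) (ω : S2) : wp (vp v w ω) (wp v w ω) ω = w := by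
  conv_lhs => unfold wp
  have := cf_post v w ω
  unfold wp at this
  rw [this]; simp

lemma abs_cf_le (v w : E) (ω : S2) : |cf v w ω| ≤ ‖v - w‖ := by
  unfold cf
  have := abs_real_inner_le_norm (v - w) (ω : E)
  rwa [norm_S2, mul_one] at this

lemma norm_sq_sub_smul (z : E) (ω : S2) (c : ℝ) :
    ‖z - c • (ω : E)‖ ^ 2 = ‖z‖ ^ 2 - 2 * c * inner ℝ z (ω : E) + c ^ 2 := by
  rw [norm_sub_sq_real, real_inner_smul_right, norm_smul, norm_S2]
  simp [sq_abs]; ring

lemma norm_post (v w : E) (ω : S2) : ‖vp v w ω - wp v w ω‖ = ‖v - w‖ := by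
  have h : vp v w ω - wp v w ω = (v - w) - (2 * cf v w ω) • (ω : E) := by
    unfold vp wp; rw [mul_smul, two_smul]; abel
  have h2 : ‖vp v w ω - wp v w ω‖ ^ 2 = ‖v - w‖ ^ 2 := by
    rw [h, norm_sq_sub_smul]; unfold cf; ring
  exact (pow_left_inj₀ (norm_nonneg _) (norm_nonneg _) two_ne_zero).1 h2

/-- Energy relative to any fixed velocity u is conserved. -/
lemma energy_post (v w u : E) (ω : S2) :
    ‖vp v w ω - u‖ ^ 2 + ‖wp v w ω - u‖ ^ 2 = ‖v - u‖ ^ 2 + ‖w - u‖ ^ 2 := by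
  have h1 : vp v w ω - u = (v - u) - cf v w ω • (ω : E) := by unfold vp; abel
  have h2 : wp v w ω - u = (w - u) - (-cf v w ω) • (ω : E) := by unfold wp; simp; abel
  have h3 : cf v w ω = inner ℝ (v - u) (ω : E) - inner ℝ (w - u) (ω : E) := by
    unfold cf; rw [← inner_sub_left]; congr 1; abel
  rw [h1, h2, norm_sq_sub_smul, norm_sq_sub_smul]
  generalize inner ℝ (v - u) (ω : E) = A at *
  generalize inner ℝ (w - u) (ω : E) = B at *
  rw [h3]; ring

lemma continuous_cf : Continuous (fun z : E × E × S2 => cf z.1 z.2.1 z.2.2) := by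
  unfold cf; fun_prop

lemma continuous_vp : Continuous (fun z : E × E × S2 => vp z.1 z.2.1 z.2.2) := by
  unfold vp cf; fun_prop

lemma continuous_wp : Continuous (fun z : E × E × S2 => wp z.1 z.2.1 z.2.2) := by
  unfold wp cf; fun_prop

lemma pr_add (x y : E) : pr (x + y) = pr x + pr y := by
  funext i; simp [pr]

lemma pr_zero : pr 0 = 0 := by funext i; simp [pr]

lemma pr_neg (x : E) : pr (-x) = -pr x := by funext i; simp [pr]

lemma pr_sub (x y : E) : pr (x - y) = pr x - pr y := by funext i; simp [pr]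

lemma continuous_pr : Continuous pr := by
  unfold pr
  refine continuous_pi fun i => ?_
  exact (AddCircle.continuous_mk' (1 : ℝ)).comp (by fun_prop)

lemma fl_zero (p : Om) : fl 0 p = p := by simp [fl, pr_zero]

lemma fl_fl (s t : ℝ) (p : Om) : fl s (fl t p) = fl (s + t) p := by
  simp only [fl, add_smul, pr_add]
  refine Prod.ext ?_ rfl
  simp only; abel

lemma fl_snd (s : ℝ) (p : Om) : (fl s p).2 = p.2 := rfl

lemma continuous_fl : Continuous (fun y : ℝ × Om => fl y.1 y.2) := by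
  unfold fl
  refine Continuous.prodMk ?_ (by fun_prop)
  exact (by fun_prop : Continuous fun y : ℝ × Om => y.2.1).add
    (continuous_pr.comp (by fun_prop))

lemma Mx_pos (v : E) : 0 < Mx v := by
  unfold Mx; have := Real.pi_pos; positivity

lemma continuous_Mx : Continuous Mx := by unfold Mx; fun_prop

/-- Representative in [-1/2, 1/2)³ of a point of the torus. -/
def rep (x : T3) : E :=
  WithLp.toLp 2 (fun i => ((AddCircle.equivIco (1 : ℝ) (-1 / 2) (x i) : ℝ)))

/-- The plane. -/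
abbrev E2 : Type := EuclideanSpace ℝ (Fin 2)

/-- Gain operator with kernel k(|a|, |v - w|). -/
def gainK (k : ℝ → ℝ → ℝ) (f g : E → ℝ≥0∞) (v : E) : ℝ≥0∞ :=
  ∫⁻ q : E × S2, ENNReal.ofReal (k |cf v q.1 q.2| ‖v - q.1‖) *
    (f (vp v q.1 q.2) * g (wp v q.1 q.2)) ∂(volume.prod sph)

/-- Collision frequency with kernel k. -/
def freqK (k : ℝ → ℝ → ℝ) (g : E → ℝ≥0∞) (v : E) : ℝ≥0∞ :=
  ∫⁻ q : E × S2, ENNReal.ofReal (k |cf v q.1 q.2| ‖v - q.1‖) * g q.1 ∂(volume.prod sph)

/-- Full hard-sphere kernel. -/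
def kF (a _r : ℝ) : ℝ := a

/-- Truncated kernel of the approximating problem. -/
def kT (R a r : ℝ) : ℝ := if r ≤ R then min a (R * a ^ 2) else 0

/-- Hard-sphere kernel cut at relative speed R. -/
def kC (R a r : ℝ) : ℝ := if r ≤ R then a else 0

/-- Velocity slice. -/
def sl (f : Om → ℝ) (x : T3) : E → ℝ≥0∞ := fun v => ENNReal.ofReal (f (x, v))

/-- Density. -/
def rho (f : Om → ℝ) (x : T3) : ℝ := ∫ v, f (x, v)

/-- Normalized truncated gain. -/
def gT (R δ : ℝ) (f : Om → ℝ) (p : Om) : ℝ :=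
  (gainK (kT R) (sl f p.1) (sl f p.1) p.2).toReal / (1 + δ * rho f p.1)

/-- Normalized truncated collision frequency. -/
def nT (R δ : ℝ) (f : Om → ℝ) (p : Om) : ℝ :=
  (freqK (kT R) (sl f p.1) p.2).toReal / (1 + δ * rho f p.1)

/-- Full collision frequency. -/
def nu (f : Om → ℝ) (p : Om) : ℝ := (freqK kF (sl f p.1) p.2).toReal

/-- Normalized truncated dissipation density (without the factor 1/4). -/
def eT (R δ : ℝ) (f : Om → ℝ) (p : Om) : ℝ≥0∞ :=
  (∫⁻ q : E × S2, ENNReal.ofReal (kT R |cf p.2 q.1 q.2| ‖p.2 - q.1‖) *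
    jj (f (p.1, vp p.2 q.1 q.2) * f (p.1, wp p.2 q.1 q.2)) (f (p.1, p.2) * f (p.1, q.1))
      ∂(volume.prod sph)) / ENNReal.ofReal (1 + δ * rho f p.1)

/-- Solutions of the truncated problem, in mild form at every point. -/
structure TS (R δ : ℝ) (F₀ : Om → ℝ) (F : ℝ → Om → ℝ) : Prop where
  meas : Measurable (fun y : ℝ × Om => F y.1 y.2)
  nonneg : ∀ t p, 0 ≤ F t p
  bound : ∀ T : ℝ, ∃ C : ℝ, ∀ t ∈ Icc (0 : ℝ) T, ∀ p : Om, F t p ≤ C * Real.exp (-‖p.2‖)
  mild : ∀ t, 0 ≤ t → ∀ p, F t (fl t p) = F₀ p +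
    ∫ s in (0 : ℝ)..t, (gT R δ (F s) (fl s p) - nT R δ (F s) (fl s p) * F s (fl s p))

end

end Vale.Agent.P140
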