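import Vale.Agent.P140.StmB

/-!
Renormalization along flights and equicontinuity in time.
-/

namespace Vale.Agent.P140

open MeasureTheory Set Filter Topology
open scoped ENNReal

noncomputable section

namespace Beta

lemma den_pos {m z : ℝ} (hm : 0 < m) (hz : 0 ≤ z) : 0 < 1 + z / m := by positivity

lemma hasDer {m z : ℝ} (hm : 0 < m) (hz : 0 ≤ z) :
    HasDerivAt (fun x : ℝ => x / (1 + x / m)) (1 / (1 + z / m) ^ 2) z := by
  have hd := den_pos hm hz
  have h1 : HasDerivAt (fun x : ℝ => 1 + x / m) (1 / m) z :=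
    ((hasDerivAt_id' z).div_const m).const_add 1
  have h2 := (hasDerivAt_id' z).fun_div h1 hd.ne'
  refine h2.congr_deriv ?_
  field_simp
  ring

lemma Mx_le_one (v : E) : Mx v ≤ 1 := by
  unfold Mx
  have h1 : (2 * Real.pi) ^ (-(3 / 2 : ℝ)) ≤ 1 :=
    Real.rpow_le_one_of_one_le_of_nonpos (by linarith [Real.pi_gt_three]) (by norm_num)
  have h2 : Real.exp (-‖v‖ ^ 2 / 2) ≤ 1 := by
    rw [Real.exp_le_one_iff]; have := sq_nonneg ‖v‖; linarith
  have h3 : 0 ≤ Real.exp (-‖v‖ ^ 2 / 2) := (Real.exp_pos _).le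
  exact mul_le_one₀ h1 h3 h2

/-- The defect of the renormalization. -/
lemma defect_le {m K M x : ℝ} (hm : 0 < m) (hK : 0 < K) (hM0 : 0 ≤ M) (hM : M ≤ 1) (hx : 0 ≤ x) :
    x - x / (1 + x / m) ≤ 2 * max (x - K * M) 0 + 2 * K / m * x := by
  have hd := den_pos hm hx
  have hb : 0 ≤ x / (1 + x / m) := by positivity
  have hmax : 0 ≤ max (x - K * M) 0 := le_max_right _ _
  have hq : 0 ≤ 2 * K / m * x := by positivity
  by_cases h : x ≤ 2 * K * M
  · have h2 : x ≤ 2 * K := by nlinarith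
    have e : x - x / (1 + x / m) = x / m * (x / (1 + x / m)) := by field_simp; ring
    have h3 : x / (1 + x / m) ≤ x := div_le_self hx (by have : 0 ≤ x / m := by positivity
                                                        linarith)
    have h4 : x / m ≤ 2 * K / m := by gcongr
    have h5 : x / m * (x / (1 + x / m)) ≤ 2 * K / m * x :=
      mul_le_mul h4 h3 hb (by positivity)
    rw [e]; linarith
  · push Not at h
    have h2 : x - K * M ≤ max (x - K * M) 0 := le_max_left _ _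
    nlinarith

lemma beta_le {m x : ℝ} (hm : 0 < m) (hx : 0 ≤ x) :
    0 ≤ x / (1 + x / m) ∧ x / (1 + x / m) ≤ x := by
  have hd := den_pos hm hx
  refine ⟨by positivity, div_le_self hx ?_⟩
  have : 0 ≤ x / m := by positivity
  linarith

/-- The error function. -/
def er (m K r : ℝ) (f : Om → ℝ) (p : Om) : ℝ≥0∞ :=
  2 * ENNReal.ofReal (f p - K * Mx p.2) +
    ENNReal.ofReal ((2 * K / m + 1 / r ^ 2) * (f p * (1 + ‖p.2‖) ^ 2))

lemma er_meas (m K r : ℝ) {f : Om → ℝ} (hf : Measurable f) : Measurable (er m K r f) := by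
  unfold er
  have h1 : Measurable fun p : Om => Mx p.2 := continuous_Mx.measurable.comp measurable_snd
  have h2 : Measurable fun p : Om => f p - K * Mx p.2 := hf.sub (h1.const_mul K)
  have h3 : Measurable fun p : Om => (2 * K / m + 1 / r ^ 2) * (f p * (1 + ‖p.2‖) ^ 2) :=
    (hf.mul (by fun_prop)).const_mul _
  exact (h2.ennreal_ofReal.const_mul 2).add h3.ennreal_ofReal

lemma er_ge {m K r x : ℝ} (hm : 0 < m) (hK : 0 < K) (hr : 0 < r) (hx : 0 ≤ x) (p : Om) :
    ENNReal.ofReal (x - x / (1 + x / m) + (1 - cut r p) * x) ≤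
      2 * ENNReal.ofReal (x - K * Mx p.2) +
        ENNReal.ofReal ((2 * K / m + 1 / r ^ 2) * (x * (1 + ‖p.2‖) ^ 2)) := by
  have h1 := defect_le hm hK (Mx_pos p.2).le (Mx_le_one p.2) hx
  have hn : 0 ≤ ‖p.2‖ := norm_nonneg _
  have h2 : x ≤ x * (1 + ‖p.2‖) ^ 2 := le_mul_of_one_le_right hx (by nlinarith)
  have h3 : (1 - cut r p) * x ≤ 1 / r ^ 2 * (x * (1 + ‖p.2‖) ^ 2) := by
    unfold cut
    split_ifs with h
    · have : 0 ≤ 1 / r ^ 2 * (x * (1 + ‖p.2‖) ^ 2) := by positivity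
      simpa using this
    · push Not at h
      have h4 : r ^ 2 ≤ (1 + ‖p.2‖) ^ 2 := by gcongr; linarith
      have h5 : x * r ^ 2 ≤ x * (1 + ‖p.2‖) ^ 2 := by gcongr
      have h6 : 1 / r ^ 2 * (x * r ^ 2) = x := by field_simp
      have h7 : 1 / r ^ 2 * (x * r ^ 2) ≤ 1 / r ^ 2 * (x * (1 + ‖p.2‖) ^ 2) := by gcongr
      linarith
  have h4 : 2 * K / m * x ≤ 2 * K / m * (x * (1 + ‖p.2‖) ^ 2) := by gcongr
  have h5 : ENNReal.ofReal (2 * max (x - K * Mx p.2) 0) =
      2 * ENNReal.ofReal (x - K * Mx p.2) := by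
    rw [ENNReal.ofReal_mul (by norm_num), ENNReal.ofReal_max]
    simp
  rw [← h5, ← ENNReal.ofReal_add (by positivity) (by positivity)]
  refine ENNReal.ofReal_le_ofReal ?_
  nlinarith

lemma er_int {m K r C e : ℝ} (hm : 0 < m) (hK : 0 < K) {f : Om → ℝ} (hf : Measurable f)
    (h0 : ∀ p, 0 ≤ f p) (hi : Integrable (fun p : Om => f p * (1 + ‖p.2‖) ^ 2))
    (hC : ∫ p : Om, f p * (1 + ‖p.2‖) ^ 2 ≤ C) (he : 0 ≤ e)
    (ht : ∫⁻ p : Om, ENNReal.ofReal (f p - K * Mx p.2) ≤ ENNReal.ofReal e) :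
    ∫⁻ p, er m K r f p ≤ ENNReal.ofReal (2 * e + (2 * K / m + 1 / r ^ 2) * C) := by
  have hc : 0 ≤ 2 * K / m + 1 / r ^ 2 := by positivity
  have h1 : Measurable fun p : Om => Mx p.2 := continuous_Mx.measurable.comp measurable_snd
  have h2 : Measurable fun p : Om => ENNReal.ofReal (f p - K * Mx p.2) :=
    (hf.sub (h1.const_mul K)).ennreal_ofReal
  have hI : 0 ≤ ∫ p : Om, f p * (1 + ‖p.2‖) ^ 2 :=
    integral_nonneg fun p => by have := h0 p; positivity
  unfold er
  rw [lintegral_add_left (h2.const_mul 2), lintegral_const_mul _ h2,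
    ← ofReal_integral_eq_lintegral_ofReal (hi.const_mul _)
      (ae_of_all _ fun p => by have := h0 p; positivity), integral_const_mul,
    ENNReal.ofReal_add (by positivity) (mul_nonneg hc (hI.trans hC)),
    ENNReal.ofReal_mul (by norm_num : (0 : ℝ) ≤ 2)]
  gcongr
  · simp
  
/-- The velocity ball in phase space. -/
def bl (r : ℝ) : Set Om := univ ×ˢ Metric.closedBall (0 : E) r

lemma bl_meas (r : ℝ) : MeasurableSet (bl r) :=
  MeasurableSet.univ.prod Metric.isClosed_closedBall.measurableSet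

lemma bl_fin (r : ℝ) : (volume : Measure Om) (bl r) ≠ ⊤ := by
  unfold bl
  rw [Measure.volume_eq_prod, Measure.prod_prod]
  exact ENNReal.mul_ne_top (measure_ne_top _ _) measure_closedBall_lt_top.ne

lemma small_int (hT : TorusStmt) {T r s t e : ℝ} (hs : 0 ≤ s) (ht : t ≤ T) {u : ℝ × Om → ℝ}
    (hu : Measurable u) (hi : Integrable u (mY T)) (hz : ∀ y : ℝ × Om, r < ‖y.2.2‖ → u y = 0)
    (he : ∫ y in Ioc s t ×ˢ bl r, |u y| ∂(mY T) ≤ e) :
    ∫⁻ p : Om, ∫⁻ a in Ioc s t, ENNReal.ofReal |u (a, fl a p)| ≤ ENNReal.ofReal e := by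
  have hA : MeasurableSet (Ioc s t ×ˢ bl r) := measurableSet_Ioc.prod (bl_meas r)
  set Φ : ℝ × Om → ℝ≥0∞ := (Ioc s t ×ˢ bl r).indicator (fun y => ENNReal.ofReal |u y|) with hΦ
  have hΦm : Measurable Φ := (hu.abs.ennreal_ofReal).indicator hA
  have hmp : MeasurePreserving (fun y : ℝ × Om => (y.1, fl y.1 y.2)) (mY T) (mY T) := by
    have := hT.2.2.2.2.2.2.2.1 (mT T) 1 0
    simpa [mY] using this
  have h1 : ∀ p : Om, ∫⁻ a in Ioc s t, ENNReal.ofReal |u (a, fl a p)| =
      ∫⁻ a, Φ (a, fl a p) ∂(mT T) := by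
    intro p
    have e1 : ∀ a, Φ (a, fl a p) =
        (Ioc s t).indicator (fun a => ENNReal.ofReal |u (a, fl a p)|) a := by
      intro a
      by_cases ha : a ∈ Ioc s t
      · by_cases hv : ‖p.2‖ ≤ r
        · rw [hΦ, indicator_of_mem ha, indicator_of_mem]
          exact ⟨ha, mem_univ _, by simpa [fl_snd] using hv⟩
        · have hz' : u (a, fl a p) = 0 := hz _ (by simpa [fl_snd] using hv)
          rw [indicator_of_mem ha, hΦ, hz']
          simp [indicator, hz']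
      · rw [indicator_of_notMem ha, hΦ, indicator_of_notMem]
        exact fun h => ha h.1
    simp_rw [e1]
    rw [lintegral_indicator measurableSet_Ioc, mT, Measure.restrict_restrict measurableSet_Ioc,
      inter_eq_left.2 (Ioc_subset_Icc_self.trans (Icc_subset_Icc hs ht))]
  simp_rw [h1]
  have h2 : ∫⁻ p : Om, ∫⁻ a, Φ (a, fl a p) ∂(mT T) = ∫⁻ y, Φ (y.1, fl y.1 y.2) ∂(mY T) := by
    unfold mY
    exact (lintegral_prod_symm' (fun y : ℝ × Om => Φ (y.1, fl y.1 y.2))
      (hΦm.comp hmp.measurable)).symm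
  rw [h2, hmp.lintegral_comp hΦm, hΦ, lintegral_indicator hA,
    ← ofReal_integral_eq_lintegral_ofReal hi.abs.integrableOn
      (ae_of_all _ fun y => abs_nonneg _)]
  exact ENNReal.ofReal_le_ofReal he

lemma meas_small {T r s t η : ℝ} (hη : 0 < η) (hst : t - s ≤ η / ((volume (bl r)).toReal + 1)) :
    mY T (Ioc s t ×ˢ bl r) ≤ ENNReal.ofReal η := by
  set V := (volume (bl r)).toReal with hV
  have hV0 : 0 ≤ V := ENNReal.toReal_nonneg
  have h1 : mT T (Ioc s t) ≤ ENNReal.ofReal (η / (V + 1)) := by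
    refine (Measure.restrict_apply_le _ _).trans ?_
    rw [Real.volume_Ioc]
    exact ENNReal.ofReal_le_ofReal hst
  unfold mY
  rw [Measure.prod_prod, ← ENNReal.ofReal_toReal (bl_fin r), ← hV]
  refine (mul_le_mul_left h1 _).trans ?_
  rw [← ENNReal.ofReal_mul (by positivity)]
  refine ENNReal.ofReal_le_ofReal ?_
  rw [div_mul_eq_mul_div, div_le_iff₀ (by positivity)]
  nlinarith

lemma cut_nonneg (r : ℝ) (p : Om) : 0 ≤ cut r p := by unfold cut; split_ifs <;> norm_num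

lemma cut_le_one (r : ℝ) (p : Om) : cut r p ≤ 1 := by unfold cut; split_ifs <;> norm_num

lemma abs_pt {m c g q x : ℝ} (hm : 0 < m) (hx : 0 ≤ x) (hc : 0 ≤ c) :
    c * |g / (1 + x / m) ^ 2 - q / (1 + x / m) ^ 2| ≤
      |c * (g / (1 + x / m))| + |c * (q / (1 + x / m))| := by
  have hd := den_pos hm hx
  have h1 : 1 ≤ 1 + x / m := by
    have : 0 ≤ x / m := by positivity
    linarith
  have h2 : 1 + x / m ≤ (1 + x / m) ^ 2 := by nlinarith
  have h3 : ∀ z : ℝ, |z / (1 + x / m) ^ 2| ≤ |z / (1 + x / m)| := by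
    intro z
    rw [abs_div, abs_div, abs_of_pos hd, abs_of_pos (by positivity : 0 < (1 + x / m) ^ 2)]
    exact div_le_div_of_nonneg_left (abs_nonneg _) hd h2
  rw [abs_mul, abs_mul, abs_of_nonneg hc, ← mul_add]
  refine mul_le_mul_of_nonneg_left ?_ hc
  exact (abs_sub _ _).trans (add_le_add (h3 g) (h3 q))

lemma split_pt {m a b c : ℝ} (hm : 0 < m) (ha : 0 ≤ a) (hb : 0 ≤ b) (hc1 : c ≤ 1) :
    |a - b| ≤ (a - a / (1 + a / m) + (1 - c) * a) + (b - b / (1 + b / m) + (1 - c) * b) +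
      c * |a / (1 + a / m) - b / (1 + b / m)| := by
  obtain ⟨a0, a1⟩ := beta_le hm ha
  obtain ⟨b0, b1⟩ := beta_le hm hb
  set A := a / (1 + a / m)
  set B := b / (1 + b / m)
  have h1 : |a - b| ≤ (a - A) + (b - B) + |A - B| := by
    rw [abs_le]
    constructor
    · have := neg_abs_le (A - B); linarith
    · have := le_abs_self (A - B); linarith
  have h2 : |A - B| ≤ a + b := by rw [abs_le]; constructor <;> linarith
  have h3 : (1 - c) * |A - B| ≤ (1 - c) * (a + b) := mul_le_mul_of_nonneg_left h2 (by linarith)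
  nlinarith

lemma int_pt {m c s t : ℝ} (hm : 0 < m) (hc : 0 ≤ c) (hst : s ≤ t) {x g q : ℝ → ℝ}
    (hx : ∀ a, 0 ≤ x a)
    (i1 : IntervalIntegrable (fun a => g a / (1 + x a / m) ^ 2) volume s t)
    (i2 : IntervalIntegrable (fun a => q a / (1 + x a / m) ^ 2) volume s t)
    (i3 : x t / (1 + x t / m) = x s / (1 + x s / m) +
      ∫ a in s..t, (g a / (1 + x a / m) ^ 2 - q a / (1 + x a / m) ^ 2))
    (hg : Measurable fun a => ENNReal.ofReal |c * (g a / (1 + x a / m))|) :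
    ENNReal.ofReal (c * |x t / (1 + x t / m) - x s / (1 + x s / m)|) ≤
      (∫⁻ a in Ioc s t, ENNReal.ofReal |c * (g a / (1 + x a / m))|) +
        ∫⁻ a in Ioc s t, ENNReal.ofReal |c * (q a / (1 + x a / m))| := by
  rw [← lintegral_add_left hg, i3, add_sub_cancel_left, intervalIntegral.integral_of_le hst]
  have i4 := ((i1.sub i2).1).abs.const_mul c
  have j1 := abs_integral_le_integral_abs (μ := volume.restrict (Ioc s t))
    (f := fun a => g a / (1 + x a / m) ^ 2 - q a / (1 + x a / m) ^ 2)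
  refine (ENNReal.ofReal_le_ofReal (mul_le_mul_of_nonneg_left j1 hc)).trans ?_
  rw [← integral_const_mul, ofReal_integral_eq_lintegral_ofReal i4
    (ae_of_all _ fun a => mul_nonneg hc (abs_nonneg _))]
  refine lintegral_mono fun a => ?_
  rw [← ENNReal.ofReal_add (abs_nonneg _) (abs_nonneg _)]
  exact ENNReal.ofReal_le_ofReal (abs_pt hm (hx a) hc)

lemma meas_W {U : ℝ × Om → ℝ} (hU : Measurable U) :
    (∀ p : Om, Measurable fun a : ℝ => ENNReal.ofReal |U (a, fl a p)|) ∧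
      Measurable fun p : Om => fun s t : ℝ => ∫⁻ a in Ioc s t, ENNReal.ofReal |U (a, fl a p)| := by
  have hflm : Measurable fun y : Om × ℝ => (y.2, fl y.2 y.1) :=
    measurable_snd.prodMk (continuous_fl.measurable.comp (measurable_snd.prodMk measurable_fst))
  have hW : Measurable fun y : Om × ℝ => ENNReal.ofReal |U (y.2, fl y.2 y.1)| :=
    (hU.comp hflm).abs.ennreal_ofReal
  refine ⟨fun p => hW.comp (measurable_prodMk_left (x := p)), ?_⟩
  refine measurable_pi_lambda _ fun s => measurable_pi_lambda _ fun t => ?_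
  exact hW.lintegral_prod_right'

lemma four {ε : ℝ} (hε : 0 ≤ ε) {d : Om → ℝ} (hd : Measurable d) {A B C D : Om → ℝ≥0∞}
    (hA : Measurable A) (hB : Measurable B) (hC : Measurable C)
    (h : ∀ p, ENNReal.ofReal |d p| ≤ A p + B p + (C p + D p))
    (k1 : ∫⁻ p, A p ≤ ENNReal.ofReal (ε / 4)) (k2 : ∫⁻ p, B p ≤ ENNReal.ofReal (ε / 4))
    (k3 : ∫⁻ p, C p ≤ ENNReal.ofReal (ε / 4)) (k4 : ∫⁻ p, D p ≤ ENNReal.ofReal (ε / 4)) :
    ∫ p, |d p| ≤ ε := by
  rw [integral_eq_lintegral_of_nonneg_ae (ae_of_all _ fun p => abs_nonneg _)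
    hd.abs.aestronglyMeasurable]
  refine ENNReal.toReal_le_of_le_ofReal hε ((lintegral_mono h).trans ?_)
  have hAB : Measurable fun p => A p + B p := hA.add hB
  rw [lintegral_add_left hAB, lintegral_add_left hA, lintegral_add_left hC]
  have e4 : ENNReal.ofReal ε = ENNReal.ofReal (ε / 4) + ENNReal.ofReal (ε / 4) +
      (ENNReal.ofReal (ε / 4) + ENNReal.ofReal (ε / 4)) := by
    rw [← ENNReal.ofReal_add (by positivity) (by positivity),
      ← ENNReal.ofReal_add (by positivity) (by positivity)]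
    congr 1; ring
  rw [e4]
  exact add_le_add (add_le_add k1 k2) (add_le_add k3 k4)

lemma coef {K C ε : ℝ} (hK : 0 < K) (hC : 0 < C) (hε : 0 < ε) :
    ∃ m r : ℝ, 0 < m ∧ 0 < r ∧ 2 * (ε / 16) + (2 * K / m + 1 / r ^ 2) * C ≤ ε / 4 := by
  set m : ℝ := 32 * K * C / ε with hmd
  have hm : 0 < m := by positivity
  set r : ℝ := 16 * C / ε + 1 with hrd
  have hr1 : 1 ≤ r := by
    have : 0 ≤ 16 * C / ε := by positivity
    linarith
  have hr : 0 < r := by linarith
  refine ⟨m, r, hm, hr, ?_⟩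
  have e1 : 2 * K / m * C = ε / 16 := by rw [hmd]; field_simp; norm_num
  have e2 : 1 / r ^ 2 * C ≤ ε / 16 := by
    rw [div_mul_eq_mul_div, one_mul, div_le_iff₀ (by positivity)]
    have h1 : 16 * C / ε ≤ r ^ 2 := by nlinarith
    have h2 : ε / 16 * (16 * C / ε) = C := by field_simp
    have h3 : ε / 16 * (16 * C / ε) ≤ ε / 16 * r ^ 2 := by gcongr
    linarith
  rw [add_mul]; linarith

lemma one_pair (hT : TorusStmt) (hB : BetaStmt) {R δ T m K r s t ε : ℝ} {F : ℝ → Om → ℝ}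
    (hR : 0 < R) (hδ : 0 < δ) (hTS : TS R δ (F 0) F) (hm : 0 < m) (hK : 0 < K) (hr : 0 < r)
    (hε : 0 ≤ ε) (hs : 0 ≤ s) (hst : s ≤ t) (ht : t ≤ T)
    (her : ∀ t, 0 ≤ t → ∫⁻ p, er m K r (F t) p ≤ ENNReal.ofReal (ε / 4))
    {U₁ U₂ : ℝ × Om → ℝ}
    (hU₁ : U₁ = fun y => cut r y.2 * (gT R δ (F y.1) y.2 / (1 + F y.1 y.2 / m)))
    (hU₂ : U₂ = fun y => cut r y.2 * (nT R δ (F y.1) y.2 * F y.1 y.2 / (1 + F y.1 y.2 / m)))
    (hm1 : Measurable U₁) (hm2 : Measurable U₂) (hi1 : Integrable U₁ (mY T))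
    (hi2 : Integrable U₂ (mY T))
    (h1 : ∫ y in Ioc s t ×ˢ bl r, |U₁ y| ∂(mY T) ≤ ε / 4)
    (h2 : ∫ y in Ioc s t ×ˢ bl r, |U₂ y| ∂(mY T) ≤ ε / 4) :
    ∫ p, |F t (fl t p) - F s (fl s p)| ≤ ε := by
  have hmeas : ∀ t, Measurable (F t) := fun t =>
    hTS.meas.comp (measurable_prodMk_left (x := t))
  have hfl : ∀ t : ℝ, MeasurePreserving (fl t) (volume : Measure Om) volume :=
    hT.2.2.2.2.2.2.1
  have k1 := small_int hT hs ht hm1 hi1 (fun y hy => by simp [hU₁, cut, not_le.2 hy]) h1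
  have k2 := small_int hT hs ht hm2 hi2 (fun y hy => by simp [hU₂, cut, not_le.2 hy]) h2
  have q1 : ∀ t, Measurable fun p : Om => er m K r (F t) (fl t p) := fun t =>
    (er_meas m K r (hmeas t)).comp (hfl t).measurable
  have q2 : ∀ t, 0 ≤ t → ∫⁻ p, er m K r (F t) (fl t p) ≤ ENNReal.ofReal (ε / 4) := by
    intro t ht
    rw [(hfl t).lintegral_comp (er_meas m K r (hmeas t))]
    exact her t ht
  have q3 : Measurable fun p : Om => ∫⁻ a in Ioc s t, ENNReal.ofReal |U₁ (a, fl a p)| :=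
    (measurable_pi_apply t).comp ((measurable_pi_apply s).comp (meas_W hm1).2)
  refine four hε (((hmeas t).comp (hfl t).measurable).sub ((hmeas s).comp (hfl s).measurable))
    (q1 t) (q1 s) q3 ?_ (q2 t (hs.trans hst)) (q2 s hs) k1 k2
  intro p
  have ha := hTS.nonneg t (fl t p)
  have hb := hTS.nonneg s (fl s p)
  have hsp := split_pt hm ha hb (cut_le_one r p)
  obtain ⟨i1, i2, i3⟩ := hB R δ (F 0) F hR hδ hTS m hm p s t hs hst
  have e1 := er_ge hm hK hr ha p
  have e2 := er_ge hm hK hr hb p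
  have hg := (meas_W hm1).1 p
  subst hU₁ hU₂
  have e3 := int_pt (x := fun a => F a (fl a p)) (g := fun a => gT R δ (F a) (fl a p))
    (q := fun a => nT R δ (F a) (fl a p) * F a (fl a p)) hm (cut_nonneg r p) hst
    (fun a => hTS.nonneg a (fl a p)) i1 i2 i3 hg
  refine (ENNReal.ofReal_le_ofReal hsp).trans ?_
  refine ENNReal.ofReal_add_le.trans ?_
  exact add_le_add (ENNReal.ofReal_add_le.trans (add_le_add e1 e2)) e3

end Beta

open Beta

theorem beta (hM : MeasStmt) (hC : ChainStmt) (hF : TSFlStmt) : BetaStmt := by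
  intro R δ F₀ F hR hδ hTS m hm p s t hs hst
  obtain ⟨-, -, hI, hcont, hmild, -⟩ := hF R δ F₀ F hR hδ hTS
  have ht : 0 ≤ t := hs.trans hst
  obtain ⟨hg, -, hn⟩ := hI p s t hs ht
  have hnn : ∀ r, 0 ≤ F r (fl r p) := fun r => hTS.nonneg _ _
  have hc : ContinuousOn (fun r => 1 / (1 + F r (fl r p) / m) ^ 2) (uIcc s t) := by
    have h1 : ContinuousOn (fun r => F r (fl r p)) (uIcc s t) := by
      refine (hcont p).mono ?_
      rw [uIcc_of_le hst]
      exact fun r hr => hs.trans hr.1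
    refine continuousOn_const.div (((h1.div_const m).const_add 1).pow 2) fun r _ => ?_
    exact (pow_pos (den_pos hm (hnn r)) 2).ne'
  refine ⟨?_, ?_, ?_⟩
  · simpa only [mul_one_div] using hg.mul_continuousOn hc
  · simpa only [mul_one_div] using hn.mul_continuousOn hc
  · have key := hC ℝ s t (fun r => F r (fl r p))
      (fun r => gT R δ (F r) (fl r p) - nT R δ (F r) (fl r p) * F r (fl r p)) (Ici 0)
      (fun x => x / (1 + x / m))
      (fun z => (1 / (1 + z / m) ^ 2) • ContinuousLinearMap.id ℝ ℝ) hst (hg.sub hn)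
      (fun r hr => hmild p s r hs hr.1) (convex_Ici 0) (fun r _ => hnn r)
      (fun z hz => by
        have h1 := (hasDer hm hz).hasFDerivAt.hasFDerivWithinAt (s := Ici 0)
        refine h1.congr_fderiv ?_
        ext
        simp)
      (by
        have h1 : ContinuousOn (fun z : ℝ => 1 / (1 + z / m) ^ 2) (Ici 0) :=
          continuousOn_const.div (by fun_prop) fun z hz => (pow_pos (den_pos hm hz) 2).ne'
        exact h1.smul (continuousOn_const (c := ContinuousLinearMap.id ℝ ℝ)))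
    rw [key.2]
    congr 1
    refine intervalIntegral.integral_congr fun r _ => ?_
    simp only [ContinuousLinearMap.smul_apply, ContinuousLinearMap.id_apply, smul_eq_mul]
    ring

theorem equi (hU : UIStmt) (hT : TorusStmt) (hF : TSFlStmt) (hR : RenUIStmt) (hB : BetaStmt) :
    EquiStmt := by
  intro R δ Fn F₀ hA T ε hε
  obtain ⟨C₀, hC₀⟩ := hA.mom
  obtain ⟨K, hK, hKt⟩ := hA.tail (ε / 16) (by positivity)
  have hC : 0 < |C₀| + 1 := by positivity
  obtain ⟨m, r, hm, hr, hcoef⟩ := coef hK hC hε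
  obtain ⟨-, hu2, hu1⟩ := hR R δ Fn F₀ hA T r m hm
  obtain ⟨hint, -, hsm, -⟩ := hU.2.2 (ℝ × Om) (mY T)
  obtain ⟨η₁, hη₁, h1⟩ := hsm _ hu1 (ε / 4) (by positivity)
  obtain ⟨η₂, hη₂, h2⟩ := hsm _ hu2 (ε / 4) (by positivity)
  have hη : 0 < min η₁ η₂ := lt_min hη₁ hη₂
  have hV0 : 0 ≤ (volume (bl r)).toReal := ENNReal.toReal_nonneg
  refine ⟨min η₁ η₂ / ((volume (bl r)).toReal + 1), by positivity, ?_⟩
  intro n
  have hTS := hA.ts n
  have her : ∀ t, 0 ≤ t → ∫⁻ p, er m K r (Fn n t) p ≤ ENNReal.ofReal (ε / 4) := by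
    intro t ht
    refine (er_int (C := |C₀| + 1) hm hK (hTS.meas.comp (measurable_prodMk_left (x := t)))
      (hTS.nonneg t) (hC₀ n t ht).1
      ((hC₀ n t ht).2.trans ?_) (by positivity) (hKt n t ht)).trans
      (ENNReal.ofReal_le_ofReal hcoef)
    have := le_abs_self C₀
    linarith
  have main : ∀ s ∈ Icc (0 : ℝ) T, ∀ t ∈ Icc (0 : ℝ) T, s ≤ t →
      t - s ≤ min η₁ η₂ / ((volume (bl r)).toReal + 1) →
      ∫ p, |Fn n t (fl t p) - Fn n s (fl s p)| ≤ ε := by
    intro s hs t ht hst hd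
    have hms := meas_small (T := T) hη hd
    have hAm : MeasurableSet (Ioc s t ×ˢ bl r) := measurableSet_Ioc.prod (bl_meas r)
    exact one_pair hT hB (hA.Rpos n) (hA.δpos n) hTS hm hK hr hε.le hs.1 hst ht.2 her rfl rfl
      (hu1.1 n) (hu2.1 n) ((hint _ hu1).1 n) ((hint _ hu2).1 n)
      (h1 _ hAm (hms.trans (ENNReal.ofReal_le_ofReal (min_le_left _ _))) n)
      (h2 _ hAm (hms.trans (ENNReal.ofReal_le_ofReal (min_le_right _ _))) n)
  intro s hs t ht hd
  rcases le_total s t with hst | hst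
  · refine main s hs t ht hst ?_
    rwa [abs_sub_comm, abs_of_nonneg (sub_nonneg.2 hst)] at hd
  · have := main t ht s hs hst (by rwa [abs_of_nonneg (sub_nonneg.2 hst)] at hd)
    simpa only [abs_sub_comm] using this

end

end Vale.Agent.P140
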