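import Vale.Agent.P140.StmC

namespace Vale.Agent.P140

open MeasureTheory Set Filter Topology
open scoped ENNReal

noncomputable section

namespace BootAux

lemma QZ_kT_le (hc : BaseC) (Rk : ℝ) (Z h : ST) (t : ℝ) (p : Om) :
    QZ (kT Rk) Z h t p ≤ QZ kF Z h t p := by
  have key : ∀ f f' : ST, G2 (kT Rk) f f' t p ≤ G2 kF f f' t p := fun f f' =>
    hc.alg.gain_mono _ _ _ _ _ _ _ (fun a r ha => hc.alg.kT_le Rk a r ha) (fun _ => le_rfl)
      (fun _ => le_rfl)
  exact add_le_add (add_le_add (key _ _) (key _ _)) (key _ _)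

lemma G2_le (hc : BaseC) {f h ψ : ST} {a b : ℝ} (ha : 0 ≤ a) {t : ℝ} (p : Om)
    (hf : ∀ p, f t p ≤ ENNReal.ofReal a * ψ t p) (hh : ∀ p, h t p ≤ ENNReal.ofReal b * ψ t p) :
    G2 kF f h t p ≤ ENNReal.ofReal (a * b) * G2 kF ψ ψ t p := by
  rw [ENNReal.ofReal_mul ha]
  refine le_trans (hc.alg.gain_mono kF kF _ (fun u => ENNReal.ofReal a * ψ t (p.1, u)) _
    (fun u => ENNReal.ofReal b * ψ t (p.1, u)) p.2 (fun _ _ _ => le_rfl) (fun u => hf _)
    (fun u => hh _)) (le_of_eq ?_)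
  exact hc.alg.gain_mul kF _ _ _ _ _ ENNReal.ofReal_ne_top ENNReal.ofReal_ne_top

end BootAux

open BootAux

theorem boot (hb : Base) (hc : BaseC) (hC : CmpStmt) (hI : ImpStmt) : BootStmt := by
  intro g q Λ η C c₂ ε C₁ C₂ ε₀ ε₁ s T H Rk δ F hRk hF hQ
  have hG := hc.gb g H.ok
  have hR := H.ok.R0
  have hε₀ := H.ε₀0
  have hC₂ := H.C₂1
  have hTR : T ≤ g.R := by
    have h1 := H.T1
    have h2 := hG.te.1
    have h3 : η * g.R ≤ g.R := mul_le_of_le_one_left hR.le H.η1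
    rw [hG.te.2.2 T] at h1
    linarith
  have hT32 : T ≤ 1 / 32 := by linarith [hG.R_le]
  obtain ⟨Cg, hCg1, hCg⟩ := hG.crude
  obtain ⟨CF, hCF⟩ := hF.bd
  obtain ⟨m, hm, hm0⟩ : ∃ m : ℝ, m = 1 / (4 * ((2 * Cg + 1) * C₂)) ∧ 0 < m :=
    ⟨_, rfl, by positivity⟩
  have he := (H.he s Rk δ F H.s0 hRk hF).1
  have jZ := (hc.me.jm g).2.2.2.2.2.1 Λ
  have jH := (hc.me.jm g).2.2.2.2.2.2 Λ F hF.jm
  have jψ := (hc.me.jm g).2.2.2.1
  have step : ∀ t₀ ∈ Icc (0 : ℝ) T, Lin g Λ ε₀ t₀ F → ∀ t₁, t₁ ≤ T → t₁ ≤ t₀ + m ^ 2 →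
      Lin g Λ ε₀ t₁ F := by
    intro t₀ ht₀ hl t₁ h1 h2 t ht p
    by_cases htt : t ≤ t₀
    · exact hl t ⟨ht.1, htt⟩ p
    have hin : ∀ t ∈ Icc t₀ t₁, t ∈ Icc (0 : ℝ) (1 / 32) := fun t ht =>
      ⟨ht₀.1.trans ht.1, by linarith [ht.2]⟩
    have hZψ : ∀ t ∈ Icc (0 : ℝ) (1 / 32), ∀ p, Z0 g Λ t p ≤ ENNReal.ofReal Cg * psE g t p := by
      intro t ht p
      refine ((hCg t ht p).2.2 Λ H.Λ1).trans ?_
      rw [ENNReal.ofReal_mul (by linarith)]
      exact mul_le_mul' le_rfl (ENNReal.ofReal_le_ofReal (hG.ps_bd t ht p).2.1)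
    refine hC Rk t₀ t₁ (3 * Cg + |CF|) (fun t p => ENNReal.ofReal (ε₀ / 2) * psE g t p) (Z0 g Λ)
      (HH g Λ F) (fun t p => ENNReal.ofReal ε₀ * psE g t p) hRk jZ jH
      (Measurable.const_mul jψ _) ?_ ?_ ?_ t ⟨(not_le.1 htt).le, ht.2⟩ p
    · intro t ht p
      have h32 := hin t ht
      have e0 := Real.exp_pos (-‖p.2‖)
      have e1 := (hG.ps_bd t h32 p).2.2.2.2.1
      have e2 : Cg * ee t p.2 ≤ (3 * Cg + |CF|) * Real.exp (-‖p.2‖) := by
        have := abs_nonneg CF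
        nlinarith
      refine ⟨((hCg t h32 p).2.2 Λ H.Λ1).trans (ENNReal.ofReal_le_ofReal e2), ?_, ?_⟩
      · refine tsub_le_self.trans ((hCF t ⟨h32.1, by linarith [h32.2]⟩ p).trans
          (ENNReal.ofReal_le_ofReal ?_))
        have := le_abs_self CF
        nlinarith
      · calc ENNReal.ofReal ε₀ * psE g t p ≤ 1 * psE g t p := by
              gcongr; exact ENNReal.ofReal_le_one.2 H.ε₀1
          _ = psE g t p := one_mul _
          _ ≤ _ := ENNReal.ofReal_le_ofReal ((hCg t h32 p).1.trans e2)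
    · intro t ht p
      have h32 := hin t ht
      refine (he t ⟨h32.1, by linarith [ht.2]⟩ p).trans ?_
      rw [hc.alg.duh_split 0 t₀ t _ p ht₀.1 ht.1, ← add_assoc]
      refine add_le_add ?_ le_rfl
      have h3 := hI _ _ _ _ _ _ _ _ _ _ _ _ _ H Rk δ F hRk hF hQ t₀ ht₀ hl t₀ ⟨ht₀.1, le_rfl⟩
        (fl (t₀ - t) p)
      calc _ ≤ ENNReal.ofReal (s * Mx (fl (t₀ - t) p).2) +
            duh 0 (QZ kF (Z0 g Λ) (HH g Λ F)) t₀ (fl (t₀ - t) p) :=
            add_le_add le_rfl (hc.alg.duh_mono _ _ _ _ _ fun s _ p => QZ_kT_le hc Rk _ _ s p)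
        _ ≤ _ := h3
        _ ≤ _ := mul_le_mul' le_rfl
            (ENNReal.ofReal_le_ofReal (hG.ps_mono t₀ t ht₀.1 ht.1 h32.2 p))
    · intro t ht p
      have h32 := hin t ht
      have hA : 0 ≤ (2 * Cg + 1) * ε₀ * C₂ := by positivity
      have h4 : duh t₀ (QZ kF (Z0 g Λ) fun t p => ENNReal.ofReal ε₀ * psE g t p) t p ≤
          duh t₀ (fun s p => ENNReal.ofReal ((2 * Cg + 1) * ε₀ * C₂) *
            ENNReal.ofReal ((1 + ‖p.2‖) * ee s p.2)) t p := by
        refine hc.alg.duh_mono _ _ _ _ _ fun s hs p => ?_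
        have hs32 : s ∈ Icc (0 : ℝ) (1 / 32) := ⟨ht₀.1.trans hs.1.le, hs.2.trans h32.2⟩
        have a1 := G2_le hc (f := Z0 g Λ) (h := fun t p => ENNReal.ofReal ε₀ * psE g t p)
          (by linarith : (0 : ℝ) ≤ Cg) p (hZψ s hs32) (fun _ => le_rfl)
        have a2 := G2_le hc (h := Z0 g Λ) (f := fun t p => ENNReal.ofReal ε₀ * psE g t p)
          hε₀.le p (fun _ => le_rfl) (hZψ s hs32)
        have a3 := G2_le hc (t := s) (f := fun t p => ENNReal.ofReal ε₀ * psE g t p)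
          (h := fun t p => ENNReal.ofReal ε₀ * psE g t p) hε₀.le p (fun _ => le_rfl)
          (fun _ => le_rfl)
        have a4 := H.pp.gain s hs32 p
        have e0 : 0 ≤ (1 + ‖p.2‖) * ee s p.2 := by
          have := (hG.ps_bd s hs32 p).2.2.2.1; positivity
        calc _ ≤ _ := add_le_add (add_le_add a1 a2) a3
          _ = ENNReal.ofReal (Cg * ε₀ + ε₀ * Cg + ε₀ * ε₀) * G2 kF (psE g) (psE g) s p := by
              rw [ENNReal.ofReal_add (by positivity) (by positivity),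
                ENNReal.ofReal_add (by positivity) (by positivity), add_mul, add_mul]
          _ ≤ ENNReal.ofReal ((2 * Cg + 1) * ε₀) *
                ENNReal.ofReal (C₂ * (1 + ‖p.2‖) * ee s p.2) := by
              gcongr
              have := H.ε₀1
              nlinarith
          _ = _ := by
              rw [← ENNReal.ofReal_mul (by positivity), ← ENNReal.ofReal_mul hA]; ring_nf
      rw [hc.alg.duh_mul _ _ _ _ _ ENNReal.ofReal_ne_top] at h4
      have h5 : duh t₀ (fun s p => ENNReal.ofReal ((1 + ‖p.2‖) * ee s p.2)) t p ≤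
          ENNReal.ofReal (2 * √(t - t₀) * ee t p.2) := H.pp.time t₀ t ht₀.1 ht.1 h32.2 p.2
      have h6 : √(t - t₀) ≤ m := Real.sqrt_le_iff.2 ⟨hm0.le, by linarith [ht.2]⟩
      have e0 := (hG.ps_bd t h32 p).2.2.2.1
      have e1 := (hG.ps_bd t h32 p).2.1
      have h7 : (2 * Cg + 1) * ε₀ * C₂ * (2 * √(t - t₀) * ee t p.2) ≤ ε₀ / 2 * ps g t p := by
        calc _ ≤ (2 * Cg + 1) * ε₀ * C₂ * (2 * m * ps g t p) := by gcongr
          _ = _ := by rw [hm]; field_simp; ring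
      calc _ ≤ ENNReal.ofReal (ε₀ / 2) * psE g t p + ENNReal.ofReal (ε₀ / 2) * psE g t p := by
            refine add_le_add le_rfl (h4.trans ?_)
            calc _ ≤ ENNReal.ofReal ((2 * Cg + 1) * ε₀ * C₂) *
                  ENNReal.ofReal (2 * √(t - t₀) * ee t p.2) := by gcongr
              _ ≤ _ := by
                  unfold psE
                  rw [← ENNReal.ofReal_mul hA, ← ENNReal.ofReal_mul (by positivity)]
                  exact ENNReal.ofReal_le_ofReal h7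
        _ = _ := by
            rw [← add_mul, ← ENNReal.ofReal_add (by positivity) (by positivity), add_halves]
  have base : Lin g Λ ε₀ 0 F := by
    intro t ht p
    have ht0 : t = 0 := le_antisymm ht.2 ht.1
    subst ht0
    refine (he 0 ⟨le_rfl, hR.le⟩ p).trans ?_
    have h0 : duh 0 (QZ (kT Rk) (Z0 g Λ) (HH g Λ F)) 0 p = 0 := by simp [duh]
    rw [h0, add_zero]
    unfold psE
    rw [← ENNReal.ofReal_mul hε₀.le]
    refine ENNReal.ofReal_le_ofReal ?_
    have hb' := hG.ps_bd 0 ⟨le_rfl, by norm_num⟩ p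
    have hs : s ≤ ε₀ := by
      have f1 := H.final
      have f2 := hG.te.1
      have f3 : g.te 0 ≤ 1 := by linarith [hG.te.2.1, H.ok.κ1]
      have f4 : s ≤ s / g.te 0 := by rw [le_div_iff₀ f2]; nlinarith [H.s0]
      have f5 : 0 ≤ 3 * ε₁ / c₂ := by have := H.ε₁0; have := H.c₂0; positivity
      have f6 : 0 ≤ 8 * C₂ * s * (2 / η ^ 4) ^ Λ / (η ^ 2 * g.te 0 ^ 16) := by
        have := H.s0; have := H.η0; positivity
      have f7 := H.C1
      have f8 := H.s0
      nlinarith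
    exact mul_le_mul hs (hb'.1.trans hb'.2.1) (Mx_pos _).le hε₀.le
  have ind : ∀ n : ℕ, Lin g Λ ε₀ (min (n * m ^ 2) T) F := by
    intro n
    induction n with
    | zero => simpa [min_eq_left H.T0] using base
    | succ n ih =>
      refine step _ ⟨le_min (by positivity) H.T0, min_le_right _ _⟩ ih _ (min_le_right _ _) ?_
      rcases le_total (n * m ^ 2) T with h | h
      · rw [min_eq_left h]; push_cast; exact (min_le_left _ _).trans (by linarith)
      · rw [min_eq_right h]; exact (min_le_right _ _).trans (by nlinarith)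
  obtain ⟨n, hn⟩ := exists_nat_ge (T / m ^ 2)
  have := ind n
  rwa [min_eq_right (by rwa [div_le_iff₀ (by positivity)] at hn)] at this

end

end Vale.Agent.P140
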