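import Vale.Agent.P140.StmC

/-!
Cold-cold collisions.
-/

namespace Vale.Agent.P140

open MeasureTheory Set Filter Topology
open scoped ENNReal

noncomputable section

namespace CColAux

lemma ev (A B : ℝ) (hB : 0 < B) : ∀ᶠ R in 𝓝[>] (0 : ℝ), A * R ≤ B := by
  have h : Tendsto (fun R : ℝ => A * R) (𝓝 0) (𝓝 0) := by
    simpa using (tendsto_id (α := ℝ) (x := 𝓝 0)).const_mul A
  exact nhdsWithin_le_nhds (h.eventually (ge_mem_nhds hB))

lemma gauss {θ : ℝ} (hθ : 0 < θ) (u₀ : E) :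
    ∫⁻ u : E, ENNReal.ofReal (Real.exp (-(1 / (2 * θ ^ 2)) * ‖u - u₀‖ ^ 2)) ≤
      ENNReal.ofReal (27 * θ ^ 3) := by
  have hb : 0 < 1 / (2 * θ ^ 2) := by positivity
  have h1 := GaussianFourier.integral_rexp_neg_mul_sq_norm (V := E) hb
  have h2 : Integrable (fun v : E => Real.exp (-(1 / (2 * θ ^ 2)) * ‖v‖ ^ 2)) := by
    refine Integrable.of_integral_ne_zero ?_
    rw [h1]
    have := Real.pi_pos
    positivity
  rw [lintegral_sub_right_eq_self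
    (fun u : E => ENNReal.ofReal (Real.exp (-(1 / (2 * θ ^ 2)) * ‖u‖ ^ 2))) u₀,
    ← ofReal_integral_eq_lintegral_ofReal h2 (Eventually.of_forall fun _ => (Real.exp_pos _).le),
    h1]
  refine ENNReal.ofReal_le_ofReal ?_
  have h3 : Real.pi / (1 / (2 * θ ^ 2)) ≤ (3 * θ) ^ 2 := by
    rw [div_div_eq_mul_div, div_one]
    nlinarith [Real.pi_le_four, sq_nonneg θ]
  have h4 : ((Module.finrank ℝ E : ℝ) / 2) = 3 / 2 := by simp
  rw [h4]
  refine (Real.rpow_le_rpow (by have := Real.pi_pos; positivity) h3 (by norm_num)).trans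
    (le_of_eq ?_)
  rw [← Real.rpow_natCast, ← Real.rpow_mul (by positivity)]
  norm_num
  ring

/-- The Gaussian profile. -/
def Gm (θ : ℝ) (u₀ u : E) : ℝ := Real.exp (-(‖u - u₀‖ ^ 2) / θ ^ 2)

lemma Gm_pos (θ : ℝ) (u₀ u : E) : 0 < Gm θ u₀ u := Real.exp_pos _

lemma continuous_Gm (θ : ℝ) (u₀ : E) : Continuous (Gm θ u₀) := by
  unfold Gm
  fun_prop

lemma norm_Gm {θ : ℝ} (hθ : 0 < θ) (u₀ v u : E) :
    ‖v - u‖ * Gm θ u₀ u ≤
      (‖v - u₀‖ + θ) * Real.exp (-(1 / (2 * θ ^ 2)) * ‖u - u₀‖ ^ 2) := by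
  obtain ⟨y, hy⟩ : ∃ y, y = ‖u - u₀‖ / θ := ⟨_, rfl⟩
  have hy0 : 0 ≤ y := by rw [hy]; positivity
  have hy' : ‖u - u₀‖ = θ * y := by rw [hy]; field_simp
  have h1 : ‖v - u‖ ≤ ‖v - u₀‖ + θ * y := by
    rw [← hy', norm_sub_rev u u₀]
    exact norm_sub_le_norm_sub_add_norm_sub _ _ _
  have h2 : Gm θ u₀ u = Real.exp (-(y ^ 2 / 2)) * Real.exp (-(y ^ 2 / 2)) := by
    rw [Gm, ← Real.exp_add, hy']
    congr 1
    field_simp
    ring
  have h3 : -(1 / (2 * θ ^ 2)) * ‖u - u₀‖ ^ 2 = -(y ^ 2 / 2) := by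
    rw [hy']
    field_simp
  have h4 : Real.exp (-(y ^ 2 / 2)) ≤ 1 := Real.exp_le_one_iff.2 (by nlinarith)
  have h5 : y * Real.exp (-(y ^ 2 / 2)) ≤ 1 := by
    rw [Real.exp_neg, ← div_eq_mul_inv, div_le_one (Real.exp_pos _)]
    nlinarith [Real.add_one_le_exp (y ^ 2 / 2), sq_nonneg (y - 1)]
  rw [h2, h3, ← mul_assoc]
  refine mul_le_mul_of_nonneg_right ?_ (Real.exp_pos _).le
  have h6 := mul_le_mul_of_nonneg_right h1 (Real.exp_pos (-(y ^ 2 / 2))).le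
  have h7 := mul_le_mul_of_nonneg_left h4 (norm_nonneg (v - u₀))
  have h8 := mul_le_mul_of_nonneg_left h5 hθ.le
  nlinarith

lemma gain_Gm (alg : AlgStmt) {θ A : ℝ} (hθ : 0 < θ) (hA : 0 ≤ A) (u₀ v : E) :
    gainK kF (fun u => ENNReal.ofReal (A * Gm θ u₀ u)) (fun u => ENNReal.ofReal (A * Gm θ u₀ u)) v ≤
      ENNReal.ofReal (189 * A ^ 2 * θ ^ 3 * (‖v - u₀‖ + θ) * Gm θ u₀ v) := by
  have hG := Gm_pos θ u₀
  have hm : Measurable fun u => ENNReal.ofReal (Gm θ u₀ u) :=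
    (continuous_Gm θ u₀).measurable.ennreal_ofReal
  have h1 : gainK kF (fun u => ENNReal.ofReal (A * Gm θ u₀ u))
      (fun u => ENNReal.ofReal (A * Gm θ u₀ u)) v =
      ENNReal.ofReal (A ^ 2 * Gm θ u₀ v) * freqK kF (fun u => ENNReal.ofReal (Gm θ u₀ u)) v := by
    rw [gainK, freqK, ← lintegral_const_mul' _ _ ENNReal.ofReal_ne_top]
    refine lintegral_congr fun q => ?_
    have h2 : Gm θ u₀ (vp v q.1 q.2) * Gm θ u₀ (wp v q.1 q.2) = Gm θ u₀ v * Gm θ u₀ q.1 := by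
      simp only [Gm]
      rw [← Real.exp_add, ← Real.exp_add, ← add_div, ← add_div, ← neg_add, ← neg_add, energy_post]
    rw [← ENNReal.ofReal_mul (mul_nonneg hA (hG _).le),
      mul_left_comm (ENNReal.ofReal (A ^ 2 * Gm θ u₀ v)),
      ← ENNReal.ofReal_mul (mul_nonneg (sq_nonneg A) (hG _).le), mul_mul_mul_comm, h2]
    congr 2
    ring
  have h3 : freqK kF (fun u => ENNReal.ofReal (Gm θ u₀ u)) v ≤
      ENNReal.ofReal (7 * (‖v - u₀‖ + θ)) * ENNReal.ofReal (27 * θ ^ 3) := by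
    rw [alg.freq_eq _ v hm]
    refine le_trans ?_ (mul_le_mul' le_rfl (gauss hθ u₀))
    rw [← lintegral_const_mul' _ _ ENNReal.ofReal_ne_top]
    refine lintegral_mono fun u => ?_
    have := Real.pi_pos
    rw [← ENNReal.ofReal_mul (by positivity), ← ENNReal.ofReal_mul (by positivity)]
    refine ENNReal.ofReal_le_ofReal ?_
    rw [mul_assoc, mul_assoc 7]
    exact mul_le_mul (by linarith [Real.pi_lt_d2]) (norm_Gm hθ u₀ v u)
      (mul_nonneg (norm_nonneg _) (hG u).le) (by norm_num)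
  rw [h1]
  refine (mul_le_mul' le_rfl h3).trans (le_of_eq ?_)
  have := hG v
  rw [← ENNReal.ofReal_mul (by positivity), ← ENNReal.ofReal_mul (by positivity)]
  congr 1
  ring

lemma exp_small {r R : ℝ} (m : ℕ) (hr : 0 < r) (hR : r ≤ R) (h1 : r ≤ 1) :
    Real.exp (-(1 / (2 * r ^ 2))) ≤ 2 ^ (m + 1) * (m + 1).factorial * r ^ m * R := by
  have h2 := Real.pow_div_factorial_le_exp (1 / (2 * r ^ 2)) (by positivity) (m + 1)
  have h3 : (0 : ℝ) < (m + 1).factorial := by exact_mod_cast Nat.factorial_pos _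
  rw [Real.exp_neg]
  refine (inv_anti₀ (by positivity) h2).trans ?_
  have h4 : ((1 / (2 * r ^ 2)) ^ (m + 1) / (m + 1).factorial)⁻¹ =
      2 ^ (m + 1) * (m + 1).factorial * r ^ m * (r * r ^ (m + 1)) := by
    rw [one_div, inv_pow, mul_pow, ← pow_mul]
    field_simp
    ring
  rw [h4]
  refine mul_le_mul_of_nonneg_left ?_ (by positivity)
  have h5 : r ^ (m + 1) ≤ 1 := pow_le_one₀ hr.le h1
  nlinarith

lemma poly_exp {ρ nv : ℝ} (n : ℕ) (hρ : 0 ≤ ρ) (h0 : 0 ≤ nv) (hv : nv ≤ ρ + 2) :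
    (ρ + 3) ^ n * Real.exp (-(2 * ρ ^ 2)) ≤
      Real.exp (4 + (n : ℝ) ^ 2 + 2 * n) * Real.exp (-nv ^ 2 / 2) := by
  have h1 : (ρ + 3) ^ n ≤ Real.exp (ρ + 2) ^ n :=
    pow_le_pow_left₀ (by positivity) (by linarith [Real.add_one_le_exp (ρ + 2)]) n
  rw [← Real.exp_nat_mul] at h1
  refine (mul_le_mul_of_nonneg_right h1 (Real.exp_pos _).le).trans ?_
  rw [← Real.exp_add, ← Real.exp_add]
  refine Real.exp_le_exp.2 ?_
  have h2 : nv ^ 2 ≤ (ρ + 2) ^ 2 := pow_le_pow_left₀ h0 hv 2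
  nlinarith [sq_nonneg (ρ - 2), sq_nonneg (ρ - n), sq_nonneg (n : ℝ), sq_nonneg ρ]

/-- The constant of the far estimate. -/
def cst (c : ℝ) (Λ : ℕ) : ℝ :=
  6804 * c ^ 2 * (2 ^ (42 + Λ + 1) * (42 + Λ + 1).factorial) *
    Real.exp (4 + ((Λ + 1 : ℕ) : ℝ) ^ 2 + 2 * (Λ + 1 : ℕ))

lemma far {c r R ρ nv l τ P : ℝ} {Λ : ℕ} (hr : 0 < r) (hR : r ≤ R) (hR1 : R ≤ 1 / 2)
    (hρ : r ^ 6 ≤ ρ) (h0 : 0 ≤ nv) (hv : nv ≤ ρ + 2) (hl : 0 < l)
    (hτ : r * l / (2 * (ρ + 3)) ≤ τ) (hP : Real.exp (-nv ^ 2 / 2) ≤ P)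
    (hc : cst c Λ * R ≤ (l / 2) ^ Λ / 4) :
    189 * (6 * (c / ((r ^ 7) ^ 3 * r))) ^ 2 * (r ^ 7) ^ 3 * (ρ + r ^ 7) *
      Real.exp (-(ρ ^ 2) / (r ^ 7) ^ 2) ≤ R ^ 19 / 4 * (τ ^ Λ * P) := by
  have hr1 : r ≤ 1 := by linarith
  have hρ0 : 0 ≤ ρ := le_trans (by positivity) hρ
  have h1 : Real.exp (-(ρ ^ 2) / (r ^ 7) ^ 2) ≤
      Real.exp (-(1 / (2 * r ^ 2))) * Real.exp (-(2 * ρ ^ 2)) := by
    rw [← Real.exp_add]
    refine Real.exp_le_exp.2 ?_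
    have h2 : (r ^ 6) ^ 2 ≤ ρ ^ 2 := pow_le_pow_left₀ (by positivity) hρ 2
    have h3 : (r ^ 7) ^ 2 ≤ 1 / 4 := by
      have h4 : r ^ 7 ≤ r := pow_le_of_le_one hr.le hr1 (by norm_num)
      have h5 : 0 ≤ r ^ 7 := by positivity
      nlinarith
    rw [div_le_iff₀ (by positivity)]
    have h4 : 1 / (2 * r ^ 2) * (r ^ 7) ^ 2 = (r ^ 6) ^ 2 / 2 := by
      field_simp
    nlinarith [mul_le_mul_of_nonneg_left h3 (sq_nonneg ρ)]
  have h2 := exp_small (42 + Λ) hr hR hr1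
  have h3 := poly_exp (Λ + 1) hρ0 h0 hv
  have h4 : (r * l / (2 * (ρ + 3))) ^ Λ ≤ τ ^ Λ := pow_le_pow_left₀ (by positivity) hτ Λ
  have h5 : ρ + r ^ 7 ≤ ρ + 3 := by linarith [pow_le_one₀ (n := 7) hr.le hr1]
  have h6 : r ^ 19 ≤ R ^ 19 := pow_le_pow_left₀ hr.le hR 19
  have hR0 : 0 < R := by linarith
  obtain ⟨F, hF⟩ : ∃ F : ℝ, F = 2 ^ (42 + Λ + 1) * (42 + Λ + 1).factorial := ⟨_, rfl⟩
  obtain ⟨M, hM⟩ : ∃ M : ℝ, M = Real.exp (4 + ((Λ + 1 : ℕ) : ℝ) ^ 2 + 2 * (Λ + 1 : ℕ)) :=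
    ⟨_, rfl⟩
  have hF0 : 0 ≤ F := by rw [hF]; positivity
  rw [cst, ← hF, ← hM] at hc
  rw [← hF] at h2
  rw [← hM] at h3
  have hp : 0 < (ρ + 3) ^ Λ := by positivity
  calc 189 * (6 * (c / ((r ^ 7) ^ 3 * r))) ^ 2 * (r ^ 7) ^ 3 * (ρ + r ^ 7) *
        Real.exp (-(ρ ^ 2) / (r ^ 7) ^ 2)
      ≤ 189 * (6 * (c / ((r ^ 7) ^ 3 * r))) ^ 2 * (r ^ 7) ^ 3 * (ρ + 3) *
        (F * r ^ (42 + Λ) * R * Real.exp (-(2 * ρ ^ 2))) := by
        refine mul_le_mul (mul_le_mul_of_nonneg_left h5 (by positivity))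
          (h1.trans (mul_le_mul_of_nonneg_right h2 (Real.exp_pos _).le)) (Real.exp_pos _).le
          (by positivity)
    _ = 6804 * c ^ 2 * F * R * (r ^ 19 * r ^ Λ / (ρ + 3) ^ Λ) *
        ((ρ + 3) ^ (Λ + 1) * Real.exp (-(2 * ρ ^ 2))) := by
        rw [pow_succ (ρ + 3), pow_add r 42]
        field_simp
        ring
    _ ≤ 6804 * c ^ 2 * F * R * (r ^ 19 * r ^ Λ / (ρ + 3) ^ Λ) *
        (M * Real.exp (-nv ^ 2 / 2)) := mul_le_mul_of_nonneg_left h3 (by positivity)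
    _ = 6804 * c ^ 2 * F * M * R * ((r ^ 19 * r ^ Λ / (ρ + 3) ^ Λ) *
        Real.exp (-nv ^ 2 / 2)) := by ring
    _ ≤ (l / 2) ^ Λ / 4 * ((r ^ 19 * r ^ Λ / (ρ + 3) ^ Λ) * Real.exp (-nv ^ 2 / 2)) :=
        mul_le_mul_of_nonneg_right hc (by positivity)
    _ = r ^ 19 / 4 * ((r * l / (2 * (ρ + 3))) ^ Λ * Real.exp (-nv ^ 2 / 2)) := by
        rw [div_pow, div_pow, mul_pow, mul_pow]
        field_simp
    _ ≤ R ^ 19 / 4 * (τ ^ Λ * P) :=
        mul_le_mul (by linarith) (mul_le_mul h4 hP (Real.exp_pos _).le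
          (le_trans (by positivity) h4)) (by positivity) (by positivity)

lemma abs_sg (j : ℕ) : |sg j| = 1 := by
  simp [sg]

lemma cc_le (hc : BaseC) {g : Geo} (hg : g.Ok) {s : ℝ} (hs : s ∈ Icc (0 : ℝ) 1) {j : ℕ}
    (hj : j ≤ g.K) {x : T3} (hx : x ∈ Tube g j s) (u : E) :
    CC g s (x, u) ≤ ENNReal.ofReal (6 * g.a j * Gm (g.th j) (uu g.κ (sg j) x) u) := by
  have gb := hc.gb g hg
  obtain ⟨r0, rR, -, a0, th0, -⟩ := gb.r_pos j
  have hpl : pl x ≠ 0 := (gb.inT s hs x ⟨j, hj, hx⟩).2.2.1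
  have hq : gq g.κ (sg j) (x, u) = ‖u - uu g.κ (sg j) x‖ ^ 2 :=
    (hc.ga.gq_uu g.κ (sg j) (x, u)).2 hpl
  have hG := Gm_pos (g.th j) (uu g.κ (sg j) x) u
  have h1 : BB g s (x, u) ≤ ENNReal.ofReal (3 * g.a j * Gm (g.th j) (uu g.κ (sg j) x) u) := by
    rw [gb.bb_tube j s hs (x, u) hx, if_pos hj]
    by_cases h : fl (-s) (x, u) ∈ B0s g j
    · rw [indicator_of_mem h]
      refine ENNReal.ofReal_le_ofReal ?_
      have h2 := (gb.supp j s hs (x, u) h).2.1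
      rw [hq] at h2
      have h3 : Real.exp (-1) ≤ Gm (g.th j) (uu g.κ (sg j) x) u := by
        refine Real.exp_le_exp.2 ?_
        rw [le_div_iff₀ (by positivity)]
        linarith
      have h4 : 1 / 3 ≤ Real.exp (-1) := by linarith [Real.exp_neg_one_gt_d9]
      nlinarith
    · rw [indicator_of_notMem h]
      exact zero_le
  have h2 : EE g s (x, u) ≤ ENNReal.ofReal (3 * g.a j * Gm (g.th j) (uu g.κ (sg j) x) u) := by
    rw [gb.ee_tube j s hs (x, u) hx, if_pos hj]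
    refine (indicator_le_self _ _ _).trans (ENNReal.ofReal_le_ofReal ?_)
    rw [hq]
    refine mul_le_mul_of_nonneg_right ?_ hG.le
    have h3 : g.r j ^ 4 ≤ 1 := pow_le_one₀ r0.le (by linarith [gb.R_le])
    have h4 : s * g.r j ^ 4 ≤ 1 := mul_le_one₀ hs.2 (by positivity) h3
    nlinarith
  refine (add_le_add h1 h2).trans (le_of_eq ?_)
  rw [← ENNReal.ofReal_add (by positivity) (by positivity)]
  congr 1
  ring

/-- The rate of the cold envelope. -/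
def DD (g : Geo) (t : ℝ) (p : Om) : ℝ≥0∞ := ∑ j ∈ Finset.range (g.K + 1), (Cold g j t).indicator
  (fun p => ENNReal.ofReal
    (3 * g.r j ^ 4 * g.a j * Real.exp (-(gq g.κ (sg j) p) / g.th j ^ 2))) p

lemma mul_DD (g : Geo) {t : ℝ} (ht : 0 ≤ t) (p : Om) : ENNReal.ofReal t * DD g t p = EE g t p := by
  rw [DD, EE, Finset.mul_sum]
  refine Finset.sum_congr rfl fun j _ => ?_
  by_cases h : p ∈ Cold g j t
  · rw [indicator_of_mem h, indicator_of_mem h, ← ENNReal.ofReal_mul ht]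
    congr 1
    ring
  · rw [indicator_of_notMem h, indicator_of_notMem h, mul_zero]

lemma point (hc : BaseC) {g : Geo} (hg : g.Ok) {Λ : ℕ} {l : ℝ} (hl : 0 < l) (hl' : l ≤ 1 / 8)
    (h1 : 13608 * g.c * g.R ≤ 3) (h2 : cst g.c Λ * g.R ≤ (l / 2) ^ Λ / 4) {s t : ℝ}
    (hs : 0 ≤ s) (hst : s ≤ t) (ht : t ≤ g.R) (p : Om) :
    G2 kF (CC g) (CC g) s (fl (s - t) p) ≤
      DD g t p + ENNReal.ofReal (g.R ^ 19 / 4) * wt g l Λ t p := by
  have gb := hc.gb g hg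
  have hR := gb.R_le
  have hs1 : s ∈ Icc (0 : ℝ) 1 := ⟨hs, by linarith⟩
  have hs2 : s ∈ Icc (0 : ℝ) (1 / 32) := ⟨hs, by linarith⟩
  obtain ⟨q, hq⟩ : ∃ q, q = fl (s - t) p := ⟨_, rfl⟩
  have hp : fl (t - s) q = p := by
    rw [hq, fl_fl]
    simp [fl_zero]
  rw [← hq]
  by_cases hin : InT g s q.1
  swap
  · refine le_trans (le_of_eq ?_) zero_le
    refine hc.alg.gain_zero _ _ _ _ (Or.inl fun u => ?_)
    by_contra h
    obtain ⟨j, hj, hu⟩ := gb.cc_supp s hs1 (q.1, u) h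
    exact hin ⟨j, hj, hu.1⟩
  obtain ⟨j, hj, hx⟩ := hin
  obtain ⟨r0, rR, rw', a0, th0, thg, -⟩ := gb.r_pos j
  have hpl : pl q.1 ≠ 0 := (gb.inT s hs1 q.1 ⟨j, hj, hx⟩).2.2.1
  have hgq : gq g.κ (sg j) q = ‖q.2 - uu g.κ (sg j) q.1‖ ^ 2 :=
    (hc.ga.gq_uu g.κ (sg j) q).2 hpl
  have h3 : G2 kF (CC g) (CC g) s q ≤ _ :=
    (hc.alg.gain_mono kF kF _ _ _ _ q.2 (fun _ _ _ => le_rfl) (cc_le hc hg hs1 hj hx)
      (cc_le hc hg hs1 hj hx)).trans
      (gain_Gm hc.alg th0 (by positivity) (uu g.κ (sg j) q.1) q.2)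
  refine h3.trans ?_
  by_cases hco : q ∈ Cold g j s
  · refine le_trans ?_ le_self_add
    obtain ⟨h4, h5⟩ := gb.cold_fwd j s t hs hst (by linarith) q hco
    rw [hp] at h4 h5
    refine le_trans ?_ (Finset.single_le_sum (f := fun j => (Cold g j t).indicator
      (fun p => ENNReal.ofReal
        (3 * g.r j ^ 4 * g.a j * Real.exp (-(gq g.κ (sg j) p) / g.th j ^ 2))) p)
      (fun _ _ => zero_le) (Finset.mem_range.2 (Nat.lt_succ_of_le hj)))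
    rw [indicator_of_mem h4]
    refine ENNReal.ofReal_le_ofReal ?_
    have h6 := (gb.cold_v j s hs1 q hco).1
    refine mul_le_mul ?_ ?_ (Gm_pos _ _ _).le (by positivity)
    · have h7 : g.a j * g.th j ^ 3 * g.r j = g.c := by
        rw [Geo.a]
        field_simp
      have h8 : ‖q.2 - uu g.κ (sg j) q.1‖ + g.th j ≤ 2 * g.r j ^ 6 := by
        have : g.gg j = g.r j ^ 6 := rfl
        linarith
      have hc0 : 0 < g.c := by linarith [hg.c1]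
      have h9 : 13608 * g.c * g.r j ≤ 3 :=
        (mul_le_mul_of_nonneg_left rR (by positivity)).trans h1
      calc 189 * (6 * g.a j) ^ 2 * g.th j ^ 3 * (‖q.2 - uu g.κ (sg j) q.1‖ + g.th j)
          ≤ 189 * (6 * g.a j) ^ 2 * g.th j ^ 3 * (2 * g.r j ^ 6) :=
            mul_le_mul_of_nonneg_left h8 (by positivity)
        _ = 13608 * (g.a j * g.th j ^ 3 * g.r j) * g.r j * (g.r j ^ 4 * g.a j) := by ring
        _ ≤ 3 * (g.r j ^ 4 * g.a j) := by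
            rw [h7]
            exact mul_le_mul_of_nonneg_right h9 (by positivity)
        _ = 3 * g.r j ^ 4 * g.a j := by ring
    · refine Real.exp_le_exp.2 (div_le_div_of_nonneg_right ?_ (by positivity))
      linarith
  · refine le_trans ?_ le_add_self
    rw [wt, ← ENNReal.ofReal_mul (by have := hg.R0; positivity)]
    refine ENNReal.ofReal_le_ofReal ?_
    have h4 : g.gg j ^ 2 < ‖q.2 - uu g.κ (sg j) q.1‖ ^ 2 := by
      rw [← hgq]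
      by_contra h
      exact hco ⟨hx, not_lt.1 h⟩
    have h5 : g.r j ^ 6 ≤ ‖q.2 - uu g.κ (sg j) q.1‖ :=
      (lt_of_pow_lt_pow_left₀ 2 (norm_nonneg _) h4).le
    have h6 : ‖q.2‖ ≤ ‖q.2 - uu g.κ (sg j) q.1‖ + 2 := by
      have h7 := (hc.ga.uu_le g.κ (sg j) q.1 hg.κ0.le).2.2
      rw [abs_sg] at h7
      have h8 := norm_le_norm_sub_add q.2 (uu g.κ (sg j) q.1)
      linarith [hg.κ1]
    refine far r0 rR (by linarith) h5 (norm_nonneg q.2) h6 hl ?_ ?_ h2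
    · have h7 := gb.tau_mono l s t hl.le hst p
      rw [← hq] at h7
      have h8 := (gb.tube j s hs1 q.1 hx).1
      have h9 : g.r j / 2 ≤ ‖pl q.1‖ := by
        have e1 : g.w j = g.r j / 4000 := rfl
        have e2 : g.lab s q.1 = ‖pl q.1‖ - g.κ * s := rfl
        have e3 := mul_nonneg hg.κ0.le hs
        linarith
      have h10 : max 1 (2 * l * ‖q.2‖) ≤ ‖q.2 - uu g.κ (sg j) q.1‖ + 3 := by
        refine max_le (by linarith [norm_nonneg (q.2 - uu g.κ (sg j) q.1)]) ?_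
        nlinarith [norm_nonneg q.2]
      have h11 : l / (‖q.2 - uu g.κ (sg j) q.1‖ + 3) ≤ l / max 1 (2 * l * ‖q.2‖) :=
        div_le_div_of_nonneg_left hl.le (lt_max_of_lt_left one_pos) h10
      have h12 := mul_le_mul h9 h11 (by positivity) (norm_nonneg _)
      have h13 : 0 ≤ g.te s := by
        rw [gb.te.2.2]
        linarith [gb.te.1]
      have h14 : tau g l s q = g.te s + ‖pl q.1‖ * (l / max 1 (2 * l * ‖q.2‖)) := rfl
      have h15 : g.r j * l / (2 * (‖q.2 - uu g.κ (sg j) q.1‖ + 3)) =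
          g.r j / 2 * (l / (‖q.2 - uu g.κ (sg j) q.1‖ + 3)) := by
        field_simp
      linarith
    · have h7 := gb.ps_mono s t hs hst (by linarith) p
      rw [← hq] at h7
      obtain ⟨-, h8, -, -, -, h9⟩ := gb.ps_bd s hs2 q
      exact h9.trans (h8.trans h7)

lemma main (hc : BaseC) {g : Geo} (hg : g.Ok) {Λ : ℕ} {l : ℝ} (hl : 0 < l) (hl' : l ≤ 1 / 8)
    (h1 : 13608 * g.c * g.R ≤ 3) (h2 : cst g.c Λ * g.R ≤ (l / 2) ^ Λ / 4) {t : ℝ}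
    (ht : t ∈ Icc (0 : ℝ) g.R) (p : Om) :
    duh 0 (G2 kF (CC g) (CC g)) t p ≤
      EE g t p + ENNReal.ofReal (g.R ^ 19 / 4) * wt g l Λ t p := by
  have h6 : duh 0 (G2 kF (CC g) (CC g)) t p ≤ ∫⁻ _ in Ioc (0 : ℝ) t,
      (DD g t p + ENNReal.ofReal (g.R ^ 19 / 4) * wt g l Λ t p) :=
    setLIntegral_mono' measurableSet_Ioc fun s hs =>
      point hc hg hl hl' h1 h2 hs.1.le hs.2 ht.2 p
  refine h6.trans ?_
  rw [setLIntegral_const, Real.volume_Ioc, sub_zero, mul_comm, mul_add, mul_DD g ht.1]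
  refine add_le_add le_rfl (mul_le_of_le_one_left' ?_)
  exact ENNReal.ofReal_le_one.2 (by linarith [ht.2, (hc.gb g hg).R_le])

end CColAux

open CColAux in
theorem ccol (hb : Base) (hc : BaseC) : CCStmt := by
  have _ := hb
  intro c κ Λ hc1 hκ0 hκ1 hΛ
  have hΛ' : (1 : ℝ) ≤ Λ := by exact_mod_cast hΛ
  have hl : (0 : ℝ) < 1 / (8 * Λ) := by positivity
  have hl' : (1 : ℝ) / (8 * Λ) ≤ 1 / 8 :=
    one_div_le_one_div_of_le (by norm_num) (by linarith)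
  filter_upwards [self_mem_nhdsWithin, ev 1 (κ ^ 2) (by positivity),
    ev (13608 * c) 3 (by norm_num),
    ev (cst c Λ) ((1 / (8 * Λ) / 2) ^ Λ / 4) (by positivity)] with R h0 h1 h2 h3
  intro K t ht p
  exact main hc (g := ⟨c, κ, R, K⟩) ⟨hc1, hκ0, hκ1, h0, by simpa using h1⟩ hl hl' h2 h3 ht p

end

end Vale.Agent.P140
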