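import Vale.Agent.P140.StmC

/-!
Comparison principle for the truncated problem.
-/

namespace Vale.Agent.P140

open MeasureTheory Set Filter Topology
open scoped ENNReal

namespace CmpAux

theorem gain_le (hb : Base) (ha : AlgStmt) {R : ℝ} (hR : 0 < R) : ∃ L : ℝ, 0 < L ∧
    ∀ (C ε : ℝ) (f g : E → ℝ≥0∞) (v : E), 0 ≤ C → 0 ≤ ε →
      (∀ u, f u ≤ ENNReal.ofReal (C * Real.exp (-‖u‖))) →
      (∀ u, g u ≤ ENNReal.ofReal (ε * Real.exp (-‖u‖))) →
      gainK (kT R) f g v ≤ ENNReal.ofReal (L * C * ε * Real.exp (-‖v‖)) := by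
  obtain ⟨L, hL, -, -, h⟩ := hb.top R 1 hR one_pos
  refine ⟨L, hL, fun C ε f g v hC hε hf hg => ?_⟩
  have d : ∀ a : ℝ, 0 ≤ a → TData a fun p : Om => a * Real.exp (-‖p.2‖) := fun a h0 =>
    ⟨by fun_prop, fun p => ⟨by positivity, le_rfl⟩⟩
  exact (ha.gain_mono _ _ _ _ _ _ v (fun _ _ _ => le_rfl) hf hg).trans
    (h C ε _ _ (d C hC) (d ε hε) (0, v)).1

theorem int_exp {A l t₀ t : ℝ} (hA : 0 ≤ A) (hl : 0 < l) (ht : t₀ ≤ t) :
    ∫⁻ s in Ioc t₀ t, ENNReal.ofReal (l * A * Real.exp (l * (s - t₀))) ≤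
      ENNReal.ofReal (A * Real.exp (l * (t - t₀))) := by
  have hc : Continuous fun s => l * A * Real.exp (l * (s - t₀)) := by fun_prop
  rw [← ofReal_integral_eq_lintegral_ofReal (hc.integrableOn_Icc.mono_set Ioc_subset_Icc_self)
    (Eventually.of_forall fun s => by positivity), ← intervalIntegral.integral_of_le ht,
    intervalIntegral.integral_eq_sub_of_hasDerivAt
      (f := fun s => A * Real.exp (l * (s - t₀))) (fun s _ => ?_) (hc.intervalIntegrable _ _)]
  · exact ENNReal.ofReal_le_ofReal (sub_le_self _ (by positivity))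
  · refine (((((hasDerivAt_id' s).sub_const t₀).const_mul l).exp).const_mul A).congr_deriv ?_
    ring

end CmpAux

theorem cmpC (hb : Base) (hc : BaseC) : CmpStmt := by
  intro Rk t₀ T C₀ src Z h y hR jZ jh jy hbd hh hy
  have ha := hc.alg
  have hk : IsKer (kT Rk) := hb.meas.2.1 Rk
  obtain ⟨L, hL, hg⟩ := CmpAux.gain_le hb ha hR
  obtain ⟨C, hC, hC'⟩ : ∃ C : ℝ, 0 < C ∧ ∀ u : E, ENNReal.ofReal (C₀ * Real.exp (-‖u‖)) ≤
      ENNReal.ofReal (C * Real.exp (-‖u‖)) :=
    ⟨max C₀ 1, lt_max_of_lt_right one_pos, fun u => ENNReal.ofReal_le_ofReal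
      (mul_le_mul_of_nonneg_right (le_max_left _ _) (Real.exp_pos _).le)⟩
  obtain ⟨l, hl⟩ : ∃ l, l = 8 * L * C := ⟨_, rfl⟩
  have l0 : 0 < l := by rw [hl]; positivity
  have key : ∀ k : ℕ, ∀ t ∈ Icc t₀ T, ∀ p : Om, h t p ≤ y t p +
      ENNReal.ofReal (C * (1 / 2) ^ k * Real.exp (l * (t - t₀)) * Real.exp (-‖p.2‖)) := by
    intro k
    induction k with
    | zero =>
      intro t ht p
      refine (((hbd t ht p).2.1.trans (hC' _)).trans (ENNReal.ofReal_le_ofReal ?_)).trans
        le_add_self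
      have := Real.one_le_exp (mul_nonneg l0.le (sub_nonneg.2 ht.1))
      rw [pow_zero, mul_one]
      exact mul_le_mul_of_nonneg_right (le_mul_of_one_le_right hC.le this) (Real.exp_pos _).le
    | succ k ih =>
      intro t ht p
      have step : ∀ s ∈ Ioc t₀ t, ∀ p : Om, QZ (kT Rk) Z h s p ≤ QZ kF Z y s p +
          ENNReal.ofReal (l * (C * (1 / 2) ^ (k + 1) * Real.exp (-‖p.2‖)) *
            Real.exp (l * (s - t₀))) := by
        intro s hs p
        have hs' : s ∈ Icc t₀ T := ⟨hs.1.le, hs.2.trans ht.2⟩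
        obtain ⟨ε, hε⟩ : ∃ ε, ε = C * (1 / 2) ^ k * Real.exp (l * (s - t₀)) := ⟨_, rfl⟩
        have ε0 : 0 ≤ ε := by rw [hε]; positivity
        have mZ := ha.jm_slice Z jZ s p.1
        have mh := ha.jm_slice h jh s p.1
        have my := ha.jm_slice y jy s p.1
        have bZ : ∀ u, Z s (p.1, u) ≤ _ := fun u => (hbd s hs' (p.1, u)).1.trans (hC' u)
        have bh : ∀ u, h s (p.1, u) ≤ _ := fun u => (hbd s hs' (p.1, u)).2.1.trans (hC' u)
        have by' : ∀ u, y s (p.1, u) ≤ _ := fun u => (hbd s hs' (p.1, u)).2.2.trans (hC' u)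
        have bD : ∀ u, h s (p.1, u) ≤ y s (p.1, u) + ENNReal.ofReal (ε * Real.exp (-‖u‖)) :=
          fun u => hε ▸ ih s hs' (p.1, u)
        simp only [QZ, G2]
        obtain ⟨X, hX⟩ : ∃ X, X = ENNReal.ofReal (L * C * ε * Real.exp (-‖p.2‖)) := ⟨_, rfl⟩
        have mono : ∀ f g : E → ℝ≥0∞, gainK (kT Rk) f g p.2 ≤ gainK kF f g p.2 := fun f g =>
          ha.gain_mono _ _ _ _ _ _ _ (ha.kT_le Rk) (fun _ => le_rfl) fun _ => le_rfl
        have right : ∀ f : E → ℝ≥0∞, Measurable f →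
            (∀ u, f u ≤ ENNReal.ofReal (C * Real.exp (-‖u‖))) →
            gainK (kT Rk) f (fun u => h s (p.1, u)) p.2 ≤
              gainK kF f (fun u => y s (p.1, u)) p.2 + X := fun f mf bf => by
          refine (ha.gain_mono _ _ _ _ _ _ _ (fun _ _ _ => le_rfl) (fun _ => le_rfl) bD).trans ?_
          rw [ha.gain_add_right _ _ _ _ _ hk mf my, hX]
          exact add_le_add (mono _ _) (hg C ε _ _ _ hC.le ε0 bf fun _ => le_rfl)
        have left : ∀ f : E → ℝ≥0∞, Measurable f →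
            (∀ u, f u ≤ ENNReal.ofReal (C * Real.exp (-‖u‖))) →
            gainK (kT Rk) (fun u => h s (p.1, u)) f p.2 ≤
              gainK (kT Rk) (fun u => y s (p.1, u)) f p.2 + X := fun f mf bf => by
          refine (ha.gain_mono _ _ _ _ _ _ _ (fun _ _ _ => le_rfl) bD fun _ => le_rfl).trans ?_
          rw [ha.gain_add_left _ _ _ _ _ hk my mf, hX, mul_right_comm L]
          exact add_le_add le_rfl (hg ε C _ _ _ ε0 hC.le (fun _ => le_rfl) bf)
        have e4 : ENNReal.ofReal (l * (C * (1 / 2) ^ (k + 1) * Real.exp (-‖p.2‖)) *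
            Real.exp (l * (s - t₀))) = X + X + X + X := by
          have x0 : 0 ≤ L * C * ε * Real.exp (-‖p.2‖) := by positivity
          rw [hX, ← ENNReal.ofReal_add x0 x0, ← ENNReal.ofReal_add (by positivity) x0,
            ← ENNReal.ofReal_add (by positivity) x0, hε]
          congr 1
          generalize Real.exp (l * (s - t₀)) = e
          rw [hl]
          ring
        rw [e4]
        refine (add_le_add (add_le_add (right _ mZ bZ) ((left _ mZ bZ).trans
          (add_le_add (mono _ _) le_rfl))) ((left _ mh bh).trans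
            (add_le_add (right _ my by') le_rfl))).trans (le_of_eq ?_)
        ring
      refine (hh t ht p).trans ((add_le_add le_rfl (ha.duh_mono _ _ _ _ p step)).trans ?_)
      rw [ha.duh_add _ _ _ _ _ (ha.jm_QZ _ _ _ hb.meas.1 jZ jy), ← add_assoc,
        mul_right_comm _ (Real.exp (l * (t - t₀)))]
      exact add_le_add (hy t ht p) (CmpAux.int_exp (by positivity) l0 ht.1)
  intro t ht p
  have lim : Tendsto (fun k : ℕ => y t p + ENNReal.ofReal (C * (1 / 2) ^ k *
      Real.exp (l * (t - t₀)) * Real.exp (-‖p.2‖))) atTop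
      (𝓝 (y t p + ENNReal.ofReal (C * 0 * Real.exp (l * (t - t₀)) * Real.exp (-‖p.2‖)))) :=
    tendsto_const_nhds.add (ENNReal.tendsto_ofReal ((((tendsto_pow_atTop_nhds_zero_of_lt_one
      (by norm_num) (by norm_num)).const_mul C).mul_const _).mul_const _))
  simpa using ge_of_tendsto' lim fun k => key k t ht p

end Vale.Agent.P140
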