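import Vale.Agent.P140.StmC

/-! The datum and its approximations. -/

namespace Vale.Agent.P140

open MeasureTheory Set Filter Topology
open scoped ENNReal

noncomputable section

namespace DatAux

/-- The same geometry with another truncation level. -/
def wK (g : Geo) (K : ℕ) : Geo := ⟨g.c, g.κ, g.R, K⟩

lemma ok_wK {g : Geo} (h : g.Ok) (K : ℕ) : (wK g K).Ok := ⟨h.c1, h.κ0, h.κ1, h.R0, h.R1⟩

lemma z01 : (0 : ℝ) ∈ Icc (0 : ℝ) 1 := ⟨le_rfl, zero_le_one⟩

lemma mem_facts {g : Geo} (b : GeoB g) {j : ℕ} {p : Om} (hp : p ∈ B0s g j) :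
    p.1 ∈ Tube g j 0 ∧ ‖p.2 - uu g.κ (sg j) p.1‖ ≤ g.th j ∧ ‖p.2‖ ≤ 2 ∧ ‖pl p.1‖ ≤ g.r j := by
  have h := b.supp j 0 z01 p (by rw [neg_zero, fl_zero]; exact hp)
  refine ⟨h.1.1, h.2.2.1, (b.cold_v j 0 z01 p h.1).2.1, ?_⟩
  have := (b.tube j 0 z01 p.1 h.1.1).2
  simp only [Geo.lab, mul_zero, sub_zero] at this
  exact this.le

lemma disj {g : Geo} (b : GeoB g) {i j : ℕ} {p : Om} (hi : p ∈ B0s g i) (hj : p ∈ B0s g j) :
    i = j := b.tube_disj i j 0 z01 p.1 (mem_facts b hi).1 (mem_facts b hj).1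

lemma F00_mem {g : Geo} (b : GeoB g) {j : ℕ} {p : Om} (hp : p ∈ B0s g j) : F00 g p = g.a j := by
  unfold F00
  rw [tsum_eq_single j fun i hi => indicator_of_notMem (fun h => hi (disj b h hp)) _,
    indicator_of_mem hp]

lemma F00_not {g : Geo} {p : Om} (hp : ∀ j, p ∉ B0s g j) : F00 g p = 0 := by
  unfold F00
  simp [indicator_of_notMem (hp _)]

lemma B0_not {g : Geo} {p : Om} (hp : ∀ j, p ∉ B0s g j) : B0 g p = 0 := by
  unfold B0
  exact Finset.sum_eq_zero fun j _ => indicator_of_notMem (hp j) _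

lemma B0_mem {g : Geo} (b : GeoB g) {j : ℕ} {p : Om} (hp : p ∈ B0s g j) :
    B0 g p = if j ≤ g.K then g.a j else 0 := by
  unfold B0
  split_ifs with h
  · rw [Finset.sum_eq_single j (fun i _ hi => indicator_of_notMem (fun h => hi (disj b h hp)) _)
      (fun h' => absurd (Finset.mem_range.2 (Nat.lt_succ_of_le h)) h'), indicator_of_mem hp]
  · refine Finset.sum_eq_zero fun i hi => indicator_of_notMem (fun h' => h ?_) _
    rw [← disj b h' hp]
    exact Nat.lt_succ_iff.1 (Finset.mem_range.1 hi)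

lemma B0_bd {g : Geo} (b : GeoB g) (p : Om) : 0 ≤ B0 g p ∧ B0 g p ≤ F00 g p ∧
    B0 g p ≤ g.a g.K * Real.exp 2 * Real.exp (-‖p.2‖) := by
  have haK := (b.r_pos g.K).2.2.2.1
  by_cases h : ∃ j, p ∈ B0s g j
  · obtain ⟨j, hj⟩ := h
    have ha := (b.r_pos j).2.2.2.1
    rw [B0_mem b hj, F00_mem b hj]
    split_ifs with hK
    · refine ⟨ha.le, le_rfl, ?_⟩
      have h1 : 1 ≤ Real.exp 2 * Real.exp (-‖p.2‖) := by
        rw [← Real.exp_add]
        exact Real.one_le_exp (by linarith [(mem_facts b hj).2.2.1])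
      have h2 := (b.r_anti j g.K hK).2.2
      rw [mul_assoc]
      nlinarith
    · exact ⟨le_rfl, ha.le, by positivity⟩
  · push Not at h
    rw [B0_not h, F00_not h]
    exact ⟨le_rfl, le_rfl, by positivity⟩

lemma B0_ev (hc : BaseC) {g : Geo} (hg : g.Ok) (p : Om) :
    ∀ᶠ K in atTop, B0 (wK g K) p = F00 g p := by
  by_cases h : ∃ j, p ∈ B0s g j
  · obtain ⟨j, hj⟩ := h
    filter_upwards [eventually_ge_atTop j] with K hK
    rw [B0_mem (hc.gb _ (ok_wK hg K)) (j := j) hj, F00_mem (hc.gb _ hg) hj]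
    exact if_pos hK
  · push Not at h
    refine Eventually.of_forall fun K => ?_
    rw [F00_not h]
    exact B0_not (g := wK g K) h

lemma F00_meas (hc : BaseC) {g : Geo} (hg : g.Ok) : Measurable (F00 g) := by
  refine measurable_of_tendsto_metrizable (f := fun K => B0 (wK g K))
    (fun K => (hc.me.b0 _).1) (tendsto_pi_nhds.2 fun p => ?_)
  exact tendsto_const_nhds.congr' ((B0_ev hc hg p).mono fun K h => h.symm)

lemma vol_B0s (hc : BaseC) {g : Geo} (hg : g.Ok) (j : ℕ) :
    volume (B0s g j) ≤ ENNReal.ofReal (4 * g.r j ^ 2) *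
      (ENNReal.ofReal (g.th j ^ 3) * volume (Metric.ball (0 : E) 1)) := by
  have b := hc.gb g hg
  have hS : MeasurableSet {x : T3 | ‖pl x‖ ≤ g.r j} :=
    measurableSet_le hc.me.pl.norm measurable_const
  rw [Measure.volume_eq_prod, Measure.prod_apply (hc.me.b0s g j)]
  calc ∫⁻ x : T3, volume (Prod.mk x ⁻¹' B0s g j)
      ≤ ∫⁻ x : T3, {x : T3 | ‖pl x‖ ≤ g.r j}.indicator
          (fun _ => ENNReal.ofReal (g.th j ^ 3) * volume (Metric.ball (0 : E) 1)) x := by
        refine lintegral_mono fun x => ?_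
        by_cases hx : x ∈ {x : T3 | ‖pl x‖ ≤ g.r j}
        · rw [indicator_of_mem hx]
          have h1 : Prod.mk x ⁻¹' B0s g j ⊆ Metric.closedBall (uu g.κ (sg j) x) (g.th j) := by
            intro v hv
            rw [Metric.mem_closedBall, dist_eq_norm]
            exact (mem_facts b hv).2.1
          refine (measure_mono h1).trans (le_of_eq ?_)
          rw [Measure.addHaar_closedBall _ _ (b.r_pos j).2.2.2.2.1.le]
          simp
        · have h1 : Prod.mk x ⁻¹' B0s g j = ∅ := by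
            refine eq_empty_of_forall_notMem fun v hv => hx ?_
            exact (mem_facts b hv).2.2.2
          show volume (Prod.mk x ⁻¹' B0s g j) ≤ _
          rw [h1, measure_empty]
          exact zero_le
    _ ≤ _ := by
        rw [lintegral_indicator_const hS, mul_comm]
        exact mul_le_mul_left (hc.ga.vol_le _ (b.r_pos j).1.le) _

lemma log_a {g : Geo} (hg : g.Ok) (j : ℕ) : |Real.log (g.a j)| ≤
    |Real.log g.c| + 22 * |Real.log g.R| + 22 * |Real.log (3999 / 4000)| * j := by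
  have hc0 : 0 < g.c := by linarith [hg.c1]
  have hR := hg.R0
  have e : Real.log (g.a j) = Real.log g.c - 22 * Real.log g.R
      - 22 * (Real.log (3999 / 4000) * j) := by
    have e1 : g.a j = g.c / (g.R * (3999 / 4000) ^ j) ^ 22 := by
      simp only [Geo.a, Geo.th, Geo.r]
      ring
    rw [e1, Real.log_div hc0.ne' (by positivity), Real.log_pow,
      Real.log_mul hR.ne' (by positivity), Real.log_pow]
    push_cast
    ring
  have h1 := abs_le.1 (le_refl |Real.log g.c|)
  have h2 := abs_le.1 (le_refl |Real.log g.R|)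
  have h3 := abs_le.1 (le_of_eq (abs_mul (Real.log (3999 / 4000)) (j : ℝ)))
  rw [Nat.abs_cast] at h3
  rw [e, abs_le]
  constructor <;> linarith [h1.1, h1.2, h2.1, h2.2, h3.1, h3.2]

lemma summ {g : Geo} (hg : g.Ok) : Summable fun j => g.r j * (5 + |Real.log (g.a j)|) := by
  have hR := hg.R0
  have h1 : Summable fun j : ℕ => ((3999 : ℝ) / 4000) ^ j :=
    summable_geometric_of_lt_one (by norm_num) (by norm_num)
  have h2 : Summable fun j : ℕ => (j : ℝ) ^ 1 * ((3999 : ℝ) / 4000) ^ j :=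
    summable_pow_mul_geometric_of_norm_lt_one 1 (by rw [Real.norm_eq_abs, abs_of_pos] <;> norm_num)
  refine Summable.of_nonneg_of_le (fun j => ?_) (fun j => ?_)
    ((h1.mul_left (g.R * (5 + |Real.log g.c| + 22 * |Real.log g.R|))).add
      (h2.mul_left (g.R * (22 * |Real.log (3999 / 4000)|))))
  · unfold Geo.r
    positivity
  · have h3 := mul_le_mul_of_nonneg_left (log_a hg j)
      (by positivity : 0 ≤ g.R * (3999 / 4000) ^ j)
    unfold Geo.r
    linarith

lemma datum (hc : BaseC) {g : Geo} (hg : g.Ok) : IsDatum (F00 g) := by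
  have b := hc.gb g hg
  have hm := F00_meas hc hg
  have h0 : ∀ p, 0 ≤ F00 g p := fun p => (B0_bd b p).1.trans (B0_bd b p).2.1
  refine ⟨hm, h0, ?_, ?_⟩
  · exact (hm.mul ((measurable_const.add (measurable_snd.norm.pow_const 2)).add
      (continuous_abs.measurable.comp hm.log))).aestronglyMeasurable
  · rw [hasFiniteIntegral_iff_ofReal (Eventually.of_forall fun p => by
      have := h0 p
      show 0 ≤ F00 g p * (1 + ‖p.2‖ ^ 2 + |Real.log (F00 g p)|)
      positivity)]
    obtain ⟨V, hV0, hV⟩ : ∃ V : ℝ, 0 ≤ V ∧ volume (Metric.ball (0 : E) 1) = ENNReal.ofReal V :=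
      ⟨_, ENNReal.toReal_nonneg, (ENNReal.ofReal_toReal measure_ball_lt_top.ne).symm⟩
    calc ∫⁻ p : Om, ENNReal.ofReal (F00 g p * (1 + ‖p.2‖ ^ 2 + |Real.log (F00 g p)|))
        ≤ ∫⁻ p : Om, ∑' j, (B0s g j).indicator
          (fun _ => ENNReal.ofReal (g.a j * (5 + |Real.log (g.a j)|))) p := by
          refine lintegral_mono fun p => ?_
          by_cases h : ∃ j, p ∈ B0s g j
          · obtain ⟨j, hj⟩ := h
            refine le_trans ?_ (ENNReal.le_tsum j)
            rw [indicator_of_mem hj, F00_mem b hj]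
            refine ENNReal.ofReal_le_ofReal
              (mul_le_mul_of_nonneg_left ?_ (b.r_pos j).2.2.2.1.le)
            have h2 := (mem_facts b hj).2.2.1
            have h3 := norm_nonneg p.2
            nlinarith
          · push Not at h
            simp [F00_not h]
      _ = ∑' j, ENNReal.ofReal (g.a j * (5 + |Real.log (g.a j)|)) * volume (B0s g j) := by
          rw [lintegral_tsum fun j => (measurable_const.indicator (hc.me.b0s g j)).aemeasurable]
          exact tsum_congr fun j => lintegral_indicator_const (hc.me.b0s g j) _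
      _ ≤ ∑' j, ENNReal.ofReal (4 * g.c * V * (g.r j * (5 + |Real.log (g.a j)|))) := by
          refine ENNReal.tsum_le_tsum fun j => ?_
          refine (mul_le_mul_right (vol_B0s hc hg j) _).trans (le_of_eq ?_)
          have hr := (b.r_pos j).1
          have ha := (b.r_pos j).2.2.2.1
          have ht := (b.r_pos j).2.2.2.2.1
          rw [hV, ← ENNReal.ofReal_mul (by positivity), ← ENNReal.ofReal_mul (by positivity),
            ← ENNReal.ofReal_mul (by positivity)]
          congr 1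
          generalize 5 + |Real.log (g.a j)| = L
          unfold Geo.a
          field_simp
      _ < ⊤ := ((summ hg).mul_left _).tsum_ofReal_lt_top

lemma tdata (hb : Base) (hc : BaseC) {g : Geo} (hg : g.Ok) :
    ∀ s ∈ Icc (0 : ℝ) 1, TData (g.a g.K * Real.exp 2 + 1) (seed g s) := by
  intro s hs
  refine ⟨(hc.me.b0 g).2 s, fun p => ?_⟩
  have h1 := B0_bd (hc.gb g hg) p
  have h2 := Mx_pos p.2
  have h3 := hb.ineq.2.2.2.2.2.2.2.2.2.1 p.2
  have h4 : s * Mx p.2 ≤ 1 * Mx p.2 := mul_le_mul_of_nonneg_right hs.2 h2.le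
  have h5 : 0 ≤ s * Mx p.2 := mul_nonneg hs.1 h2.le
  unfold seed
  constructor <;> linarith [h1.1, h1.2.2]

lemma log_one_add {F : ℝ} (hF : 0 ≤ F) : Real.log (1 + F) ≤ 1 + |Real.log F| := by
  by_cases h : F ≤ 1
  · have := Real.log_le_sub_one_of_pos (by linarith : 0 < 1 + F)
    linarith [abs_nonneg (Real.log F)]
  · push Not at h
    have h1 : Real.log (1 + F) ≤ Real.log (2 * F) := Real.log_le_log (by linarith) (by linarith)
    rw [Real.log_mul (by norm_num) (by linarith)] at h1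
    have h2 := Real.log_le_sub_one_of_pos (by norm_num : (0 : ℝ) < 2)
    linarith [le_abs_self (Real.log F)]

lemma ent_le {y F m L : ℝ} (hy : 0 ≤ y) (hF : 0 ≤ F) (hm : 0 < m) (hm1 : m ≤ 1) (hyF : y ≤ F + m)
    (hL : -Real.log m ≤ L) :
    y * Real.log (y / m) - y + m ≤ m + F * (2 + L + |Real.log F|) := by
  have hq : 0 ≤ F / m := by positivity
  have hl0 : 0 ≤ Real.log (1 + F / m) := Real.log_nonneg (by linarith)
  have e : 1 + F / m = (F + m) / m := by field_simp; ring
  have h1 : y * Real.log (y / m) ≤ (F + m) * Real.log (1 + F / m) := by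
    rcases hy.eq_or_lt with h | h
    · rw [← h, zero_mul]
      positivity
    · have h2 : Real.log (y / m) ≤ Real.log (1 + F / m) := by
        refine Real.log_le_log (by positivity) ?_
        rw [e]
        exact div_le_div_of_nonneg_right hyF hm.le
      exact (mul_le_mul_of_nonneg_left h2 hy).trans (mul_le_mul_of_nonneg_right hyF hl0)
  have h3 : m * Real.log (1 + F / m) ≤ F := by
    have h4 := Real.log_le_sub_one_of_pos (by linarith : 0 < 1 + F / m)
    have h5 := mul_le_mul_of_nonneg_left h4 hm.le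
    have e2 : m * (1 + F / m - 1) = F := by field_simp; ring
    linarith
  have h6 : Real.log (1 + F / m) ≤ 1 + L + |Real.log F| := by
    rw [e, Real.log_div (by linarith) hm.ne']
    have h7 : Real.log (F + m) ≤ Real.log (1 + F) := Real.log_le_log (by linarith) (by linarith)
    linarith [log_one_add hF]
  have h8 := mul_le_mul_of_nonneg_left h6 hF
  linarith

lemma log_Mx (v : E) :
    -Real.log (Mx v) ≤ |Real.log ((2 * Real.pi) ^ (-(3 / 2 : ℝ)))| + ‖v‖ ^ 2 := by
  have := Real.pi_pos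
  unfold Mx
  rw [Real.log_mul (by positivity) (Real.exp_pos _).ne', Real.log_exp]
  linarith [neg_abs_le (Real.log ((2 * Real.pi) ^ (-(3 / 2 : ℝ)))), sq_nonneg ‖v‖]

lemma cont_ent {m : ℝ} (hm : 0 < m) : Continuous fun y : ℝ => y * Real.log (y / m) - y + m := by
  have e : (fun y : ℝ => y * Real.log (y / m) - y + m)
      = fun y : ℝ => m * (y / m * Real.log (y / m)) - y + m := by
    funext y
    field_simp
  rw [e]
  exact ((continuous_const.mul (Real.continuous_mul_log.comp (continuous_id.div_const m))).sub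
    continuous_id).add continuous_const

lemma seed_tendsto (hc : BaseC) {g : Geo} (hg : g.Ok) {K : ℕ → ℕ} {s : ℕ → ℝ}
    (hK : Tendsto K atTop atTop) (hs : Tendsto s atTop (𝓝 0)) (p : Om) :
    Tendsto (fun n => seed (wK g (K n)) (s n) p) atTop (𝓝 (F00 g p)) := by
  have h1 : Tendsto (fun n => B0 (wK g (K n)) p) atTop (𝓝 (F00 g p)) :=
    tendsto_const_nhds.congr' ((hK.eventually (B0_ev hc hg p)).mono fun n h => h.symm)
  have h2 := h1.add (hs.mul_const (Mx p.2))
  rw [zero_mul, add_zero] at h2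
  exact h2

lemma seed_bd (hc : BaseC) {g : Geo} (hg : g.Ok) (K : ℕ) {s : ℝ} (hs : s ∈ Icc (0 : ℝ) 1) (p : Om) :
    0 ≤ seed (wK g K) s p ∧ seed (wK g K) s p ≤ F00 g p + Mx p.2 := by
  have h1 := B0_bd (hc.gb _ (ok_wK hg K)) p
  have e : F00 (wK g K) p = F00 g p := rfl
  have h2 := Mx_pos p.2
  have h4 : s * Mx p.2 ≤ 1 * Mx p.2 := mul_le_mul_of_nonneg_right hs.2 h2.le
  have h5 : 0 ≤ s * Mx p.2 := mul_nonneg hs.1 h2.le
  unfold seed
  constructor <;> linarith [h1.1, h1.2.1]

lemma conv (hb : Base) (hc : BaseC) {g : Geo} (hg : g.Ok) {K : ℕ → ℕ} {s : ℕ → ℝ}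
    (hK : Tendsto K atTop atTop) (hs1 : ∀ n, s n ∈ Icc (0 : ℝ) 1) (hs : Tendsto s atTop (𝓝 0)) :
    Tendsto (fun n => ∫ p : Om, |seed (wK g (K n)) (s n) p - F00 g p| * (1 + ‖p.2‖ ^ 2))
      atTop (𝓝 0) := by
  obtain ⟨hm, h0, hi⟩ := datum hc hg
  have hM : Integrable (fun p : Om => Mx p.2 * (1 + ‖p.2‖ ^ 2)) :=
    hb.ineq.2.2.2.2.2.2.2.2.1.comp_snd (volume : Measure T3)
  have h := tendsto_integral_of_dominated_convergence (μ := (volume : Measure Om))
    (F := fun n p => |seed (wK g (K n)) (s n) p - F00 g p| * (1 + ‖p.2‖ ^ 2))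
    (f := fun _ => (0 : ℝ))
    (fun p => F00 g p * (1 + ‖p.2‖ ^ 2 + |Real.log (F00 g p)|) + Mx p.2 * (1 + ‖p.2‖ ^ 2))
    (fun n => ((continuous_abs.measurable.comp (((hc.me.b0 _).2 _).sub hm)).mul
      (measurable_const.add (measurable_snd.norm.pow_const 2))).aestronglyMeasurable)
    (hi.add hM) (fun n => Eventually.of_forall fun p => ?_) (Eventually.of_forall fun p => ?_)
  · simpa using h
  · have h1 := seed_bd hc hg (K n) (hs1 n) p
    have h2 := Mx_pos p.2
    have h3 := h0 p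
    have h4 : |seed (wK g (K n)) (s n) p - F00 g p| ≤ F00 g p + Mx p.2 := by
      rw [abs_le]
      constructor <;> linarith [h1.1, h1.2]
    have h5 := mul_le_mul_of_nonneg_right h4 (by positivity : 0 ≤ 1 + ‖p.2‖ ^ 2)
    have h6 : 0 ≤ F00 g p * |Real.log (F00 g p)| := by positivity
    rw [Real.norm_eq_abs, abs_of_nonneg (by positivity)]
    linarith
  · have h1 := ((seed_tendsto hc hg hK hs p).sub_const (F00 g p)).abs.mul_const (1 + ‖p.2‖ ^ 2)
    rw [sub_self, abs_zero, zero_mul] at h1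
    exact h1

lemma ent (hb : Base) (hc : BaseC) {g : Geo} (hg : g.Ok) {K : ℕ → ℕ} {s : ℕ → ℝ}
    (hK : Tendsto K atTop atTop) (hs1 : ∀ n, s n ∈ Icc (0 : ℝ) 1) (hs : Tendsto s atTop (𝓝 0)) :
    Tendsto (fun n => relEnt (seed (wK g (K n)) (s n))) atTop (𝓝 (relEnt (F00 g))) := by
  obtain ⟨hm, h0, hi⟩ := datum hc hg
  have hM : Integrable (fun p : Om => Mx p.2) :=
    hb.ineq.2.2.2.2.2.2.1.comp_snd (volume : Measure T3)
  have hMm : Measurable (fun p : Om => Mx p.2) := continuous_Mx.measurable.comp measurable_snd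
  obtain ⟨L, hL0, hL⟩ : ∃ L : ℝ, 0 ≤ L ∧ ∀ v : E, -Real.log (Mx v) ≤ L + ‖v‖ ^ 2 :=
    ⟨_, abs_nonneg _, log_Mx⟩
  refine tendsto_lintegral_of_dominated_convergence
    (fun p => ENNReal.ofReal (Mx p.2 +
      (2 + L) * (F00 g p * (1 + ‖p.2‖ ^ 2 + |Real.log (F00 g p)|)))) (fun n => ?_)
    (fun n => Eventually.of_forall fun p => ?_) ?_ (Eventually.of_forall fun p => ?_)
  · have h1 := (hc.me.b0 (wK g (K n))).2 (s n)
    exact (((h1.mul (h1.div hMm).log).sub h1).add hMm).ennreal_ofReal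
  · have h1 := seed_bd hc hg (K n) (hs1 n) p
    have hm1 : Mx p.2 ≤ 1 := (hb.ineq.2.2.2.2.2.2.2.2.2.1 p.2).trans
      (Real.exp_le_one_iff.2 (by linarith [norm_nonneg p.2]))
    refine ENNReal.ofReal_le_ofReal ((ent_le h1.1 (h0 p) (Mx_pos _) hm1 h1.2 (hL p.2)).trans ?_)
    have h2 := h0 p
    have h3 : 0 ≤ (1 + L) * (F00 g p * (‖p.2‖ ^ 2 + |Real.log (F00 g p)|)) := by positivity
    linarith
  · exact (hM.add (hi.const_mul (2 + L))).lintegral_lt_top.ne
  · exact ENNReal.tendsto_ofReal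
      (((cont_ent (Mx_pos p.2)).tendsto _).comp (seed_tendsto hc hg hK hs p))

end DatAux

theorem datC (hb : Base) (hc : BaseC) : DatStmt := by
  refine ⟨fun g hg => ⟨DatAux.datum hc hg, fun p => (DatAux.B0_bd (hc.gb g hg) p).1,
    _, DatAux.tdata hb hc hg⟩, fun c κ R K s hg hK hs1 hs => ⟨DatAux.conv hb hc hg hK hs1 hs, ?_⟩⟩
  intro ε hε
  have h1 := DatAux.ent hb hc hg hK hs1 hs
  have h2 := hb.ineq.2.2.2.2.2.2.2.2.2.2 _ (DatAux.datum hc hg)
  exact h1.eventually (eventually_le_nhds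
    (ENNReal.lt_add_right h2.ne (ENNReal.ofReal_pos.2 hε).ne'))

end

end Vale.Agent.P140
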