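import Vale.Agent.P140.DensU

/-!
Lower bound for the densities of the beams in the cores.
-/

namespace Vale.Agent.P140

open MeasureTheory Set Filter Topology
open scoped ENNReal

noncomputable section

namespace DensLAux

lemma le_sq {a b : ℝ} (hb : 0 ≤ b) (h : a ^ 2 ≤ b ^ 2) : a ≤ b :=
  (le_abs_self a).trans (abs_le_of_sq_le_sq h hb)

lemma real1 {N N0 κ t a b r th : ℝ} (hκ : 0 < κ) (ht0 : 0 ≤ t) (ht1 : t ≤ 1) (hr : 0 < r)
    (hth : 0 < th) (hthr : th ≤ r / 100) (hl : 99 / 100 * r ≤ N - κ * t) (ha : |a - κ| ≤ th / 8)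
    (hb : N * |b| ≤ th * r / 8) (hN0 : 0 ≤ N0) (e : N0 ^ 2 = (N - t * a) ^ 2 + (t * b) ^ 2) :
    |b| ≤ th / 7 ∧ |N0 - (N - κ * t)| ≤ th ∧ 0 < N0 ∧
      a ^ 2 + b ^ 2 + κ ^ 2 - 2 * κ * ((a * (N - t * a) - b * (t * b)) / N0) ≤ th ^ 2 / 2 := by
  have hκt : 0 ≤ κ * t := by positivity
  have hb0 := abs_nonneg b
  have b1 : |b| ≤ th / 7 := by
    have : 99 / 100 * r * |b| ≤ N * |b| := mul_le_mul_of_nonneg_right (by linarith) hb0
    by_contra h
    have := mul_lt_mul_of_pos_left (not_le.1 h) hr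
    nlinarith [mul_pos hth hr]
  have a1 : |t * (a - κ)| ≤ th / 8 := by
    rw [abs_mul, abs_of_nonneg ht0]
    nlinarith [abs_nonneg (a - κ)]
  have a2 := abs_le.1 a1
  have y1 : |t * b| = t * |b| := by rw [abs_mul, abs_of_nonneg ht0]
  have y2 : t * |b| ≤ th / 7 := by nlinarith
  have y3 : 0 ≤ t * |b| := by positivity
  have x1 : 7 / 8 * r ≤ N - t * a := by nlinarith
  have n1 : N - t * a ≤ N0 := by
    refine le_sq hN0 ?_
    nlinarith [sq_nonneg (t * b)]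
  have n2 : N0 ≤ N - t * a + t * |b| := by
    refine le_sq (by linarith) ?_
    rw [e, ← sq_abs (t * b), y1]
    nlinarith
  have n0 : 0 < N0 := by linarith
  refine ⟨b1, abs_le.2 ⟨by nlinarith, by nlinarith⟩, n0, ?_⟩
  have s1 : κ * (t * |b|) / N0 ≤ th / 7 := by
    rw [div_le_iff₀ n0]
    have : κ * t * |b| ≤ N * |b| := mul_le_mul_of_nonneg_right (by linarith) hb0
    nlinarith
  have s0 : 0 ≤ κ * (t * |b|) / N0 := by positivity
  have u1 : ((N - t * a) / N0) ^ 2 + (t * b / N0) ^ 2 = 1 := by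
    rw [div_pow, div_pow, ← add_div, ← e, div_self (by positivity)]
  have e1 : a ^ 2 + b ^ 2 + κ ^ 2 - 2 * κ * ((a * (N - t * a) - b * (t * b)) / N0) =
      (a - κ * ((N - t * a) / N0)) ^ 2 + (b + κ * (t * b / N0)) ^ 2 := by
    linear_combination (-κ ^ 2) * u1
  have p1 : |a - κ * ((N - t * a) / N0)| ≤ 2 / 7 * th := by
    have q1 : a - κ * ((N - t * a) / N0) = (a - κ) + κ * (N0 - (N - t * a)) / N0 := by
      field_simp; ring
    have q2 : κ * (N0 - (N - t * a)) / N0 ≤ κ * (t * |b|) / N0 := by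
      gcongr; linarith
    have q3 : 0 ≤ κ * (N0 - (N - t * a)) / N0 :=
      div_nonneg (mul_nonneg hκ.le (by linarith)) n0.le
    have := abs_le.1 ha
    rw [q1]
    exact abs_le.2 ⟨by linarith, by linarith⟩
  have p2 : |b + κ * (t * b / N0)| ≤ 2 / 7 * th := by
    refine (abs_add_le _ _).trans ?_
    rw [abs_mul, abs_div, y1, abs_of_pos hκ, abs_of_pos n0, ← mul_div_assoc]
    linarith
  have p3 := sq_le_sq' (abs_le.1 p1).1 (abs_le.1 p1).2
  have p4 := sq_le_sq' (abs_le.1 p2).1 (abs_le.1 p2).2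
  rw [e1]
  nlinarith

lemma cnorm_sq (z : ℂ) : ‖z‖ ^ 2 = z.re ^ 2 + z.im ^ 2 := by
  rw [Complex.sq_norm, Complex.normSq_apply]; ring

lemma mem (ga : GeoAStmt) {g : Geo} (hg : g.Ok) (gb : GeoB g) {t : ℝ} (ht : t ∈ Icc (0 : ℝ) 1)
    {x : T3} {j : ℕ} (hj : j ≤ g.K) (hx : x ∈ Core g j t) {u : E} {α β : ℝ}
    (hα : (pl x).re = ‖pl x‖ * α) (hβ : (pl x).im = ‖pl x‖ * β) (hαβ : α ^ 2 + β ^ 2 = 1)
    (h1 : |α * u 0 + β * u 1 - g.κ| ≤ g.th j / 8)
    (h2 : ‖pl x‖ * |α * u 1 - β * u 0| ≤ g.th j * g.r j / 8) (h3 : |u 2 - sg j| ≤ g.th j / 2) :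
    fl (-t) (x, u) ∈ B0s g j := by
  obtain ⟨hr, hrR, -, -, hth, hg1, hg2, -⟩ := gb.r_pos j
  have hw : g.w j = g.r j / 4000 := rfl
  have hmid : g.mid j = g.r j - g.w j / 2 := rfl
  have hc : |‖pl x‖ - g.κ * t - g.mid j| ≤ 1 / 5 * g.w j := hx
  have hc' := abs_le.1 hc
  have hR := gb.R_le
  have hκ0 := hg.κ0
  have hκ1 := hg.κ1
  have hN := (gb.inT t ht x ⟨j, hj, gb.core j t ht.1 hx⟩).2.1
  have e0 : (hz u).re = u 0 := rfl
  have e1 : (hz u).im = u 1 := rfl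
  have hww : ‖hz u‖ ^ 2 = (α * u 0 + β * u 1) ^ 2 + (α * u 1 - β * u 0) ^ 2 := by
    rw [cnorm_sq, e0, e1]
    linear_combination (-(u 0 ^ 2 + u 1 ^ 2)) * hαβ
  have re0 : (pl x + ((-t : ℝ) : ℂ) * hz u).re = ‖pl x‖ * α - t * u 0 := by
    simp [hα, e0]; ring
  have im0 : (pl x + ((-t : ℝ) : ℂ) * hz u).im = ‖pl x‖ * β - t * u 1 := by
    simp [hβ, e1]; ring
  obtain ⟨k1, k2, k3, k4⟩ := real1 (N := ‖pl x‖) (N0 := ‖pl x + ((-t : ℝ) : ℂ) * hz u‖) hκ0 ht.1 ht.2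
    hr hth (by linarith) (by linarith) h1 h2 (norm_nonneg _) (by
      rw [cnorm_sq, re0, im0]
      linear_combination (‖pl x‖ ^ 2 - t ^ 2 * (u 0 ^ 2 + u 1 ^ 2)) * hαβ)
  have hwn : ‖hz u‖ ≤ 1 / 10 := by
    refine le_sq (by norm_num) ?_
    have c1 : |α * u 0 + β * u 1| ≤ 1 / 20 := by
      have := abs_le.1 h1
      exact abs_le.2 ⟨by linarith, by linarith⟩
    have c2 : |α * u 1 - β * u 0| ≤ 1 / 20 := by linarith
    have c3 := sq_le_sq' (abs_le.1 c1).1 (abs_le.1 c1).2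
    have c4 := sq_le_sq' (abs_le.1 c2).1 (abs_le.1 c2).2
    linarith
  have hl : pl (fl (-t) (x, u)).1 = pl x + ((-t : ℝ) : ℂ) * hz u := by
    refine ga.lift (x, u) (-t) ?_
    rw [abs_neg, abs_of_nonneg ht.1]
    have d1 : t * ‖hz u‖ ≤ 1 * (1 / 10) := mul_le_mul ht.2 hwn (norm_nonneg _) zero_le_one
    have d2 : g.κ * t ≤ 1 / 100 * 1 := mul_le_mul hκ1 ht.2 ht.1 (by norm_num)
    show ‖pl x‖ + t * ‖hz u‖ < 1 / 2
    linarith
  refine ⟨?_, ?_⟩
  · rw [hl]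
    have := abs_le.1 k2
    exact abs_le.2 ⟨by linarith, by linarith⟩
  · have cr : (starRingEnd ℂ (hz u) * (pl x + ((-t : ℝ) : ℂ) * hz u)).re =
        (α * u 0 + β * u 1) * (‖pl x‖ - t * (α * u 0 + β * u 1))
          - (α * u 1 - β * u 0) * (t * (α * u 1 - β * u 0)) := by
      rw [Complex.mul_re, re0, im0, Complex.conj_re, Complex.conj_im, e0, e1]
      linear_combination (t * (u 0 ^ 2 + u 1 ^ 2)) * hαβ
    have c3 := sq_le_sq' (abs_le.1 h3).1 (abs_le.1 h3).2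
    unfold gq
    rw [hl, fl_snd]
    simp only
    rw [cr, hww]
    nlinarith [sq_nonneg (g.th j)]

end DensLAux

theorem densL (hb : Base) (hc : BaseC) : DensLStmt := by
  have _hb := hb
  intro g hg t ht x j hj hx
  have gb := hc.gb g hg
  have hT := gb.core j t ht.1 hx
  have hX : pl x ≠ 0 := (gb.inT t ht x ⟨j, hj, hT⟩).2.2.1
  have hn : 0 < ‖pl x‖ := norm_pos_iff.2 hX
  obtain ⟨hr, -, -, ha, hth, -⟩ := gb.r_pos j
  have hαβ : ((pl x).re / ‖pl x‖) ^ 2 + ((pl x).im / ‖pl x‖) ^ 2 = 1 := by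
    rw [div_pow, div_pow, ← add_div, ← DensLAux.cnorm_sq, div_self (by positivity)]
  set S := DensUAux.rotL ((pl x).re / ‖pl x‖) ((pl x).im / ‖pl x‖) ⁻¹'
    DensUAux.box ![g.κ, 0, sg j] ![g.th j / 8, g.th j * g.r j / 8 / ‖pl x‖, g.th j / 2] with hS
  have hSm : MeasurableSet S :=
    (LinearMap.continuous_of_finiteDimensional _).measurable (DensUAux.box_meas _ _)
  calc ENNReal.ofReal (g.c / (16 * ‖pl x‖)) = ENNReal.ofReal (g.a j) * volume S := by
        rw [hS, DensUAux.rot_vol _ _ hαβ, Fin.prod_univ_three]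
        simp only [Matrix.cons_val_zero, Matrix.cons_val_one, Matrix.cons_val]
        rw [← ENNReal.ofReal_mul (by positivity), ← ENNReal.ofReal_mul (by positivity),
          ← ENNReal.ofReal_mul ha.le]
        congr 1
        unfold Geo.a
        field_simp
        ring
    _ = ∫⁻ u, S.indicator (fun _ => ENNReal.ofReal (g.a j)) u :=
        (lintegral_indicator_const hSm _).symm
    _ ≤ _ := by
        refine lintegral_mono fun u => ?_
        by_cases hu : u ∈ S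
        · rw [indicator_of_mem hu, gb.bb_tube j t ht (x, u) hT, if_pos hj, indicator_of_mem]
          have h0 := hu 0
          have h1 := hu 1
          have h2 := hu 2
          refine DensLAux.mem hc.ga hg gb ht hj hx (α := (pl x).re / ‖pl x‖) (β := (pl x).im / ‖pl x‖)
            (by field_simp) (by field_simp) hαβ (by simpa [DensUAux.rotL] using h0) ?_
            (by simpa [DensUAux.rotL] using h2)
          have h3 : |(pl x).re / ‖pl x‖ * u 1 - (pl x).im / ‖pl x‖ * u 0| ≤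
              g.th j * g.r j / 8 / ‖pl x‖ := by simpa [DensUAux.rotL] using h1
          rwa [le_div_iff₀' hn] at h3
        · rw [indicator_of_notMem hu]; exact bot_le

end

end Vale.Agent.P140
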