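import Vale.Agent.P140.StmC

/-! Upper bounds for the densities of the beams. -/

namespace Vale.Agent.P140

open MeasureTheory Set Filter Topology
open scoped ENNReal

noncomputable section

namespace DensUAux

def box {n : ℕ} (c d : Fin n → ℝ) : Set (EuclideanSpace ℝ (Fin n)) := {v | ∀ i, |v i - c i| ≤ d i}

theorem box_eq {n : ℕ} (c d : Fin n → ℝ) :
    box c d = (WithLp.ofLp : EuclideanSpace ℝ (Fin n) → (Fin n → ℝ)) ⁻¹'
      Icc (fun i => c i - d i) (fun i => c i + d i) := by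
  ext v
  simp only [box, mem_ofPred_eq, mem_preimage, mem_Icc, Pi.le_def, abs_le, forall_and]
  constructor
  · rintro ⟨h1, h2⟩
    exact ⟨fun i => by linarith [h1 i], fun i => by linarith [h2 i]⟩
  · rintro ⟨h1, h2⟩
    exact ⟨fun i => by linarith [h1 i], fun i => by linarith [h2 i]⟩

theorem box_meas {n : ℕ} (c d : Fin n → ℝ) : MeasurableSet (box c d) := by
  rw [box_eq]
  exact (PiLp.volume_preserving_ofLp (Fin n)).measurable measurableSet_Icc

theorem box_vol {n : ℕ} (c d : Fin n → ℝ) :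
    volume (box c d) = ∏ i, ENNReal.ofReal (2 * d i) := by
  rw [box_eq, (PiLp.volume_preserving_ofLp (Fin n)).measure_preimage
    measurableSet_Icc.nullMeasurableSet, Real.volume_Icc_pi]
  refine Finset.prod_congr rfl fun i _ => ?_
  congr 1
  ring

theorem int_le {α : Type} [MeasurableSpace α] (μ : Measure α) (f : α → ℝ≥0∞) (S : Set α)
    (a : ℝ≥0∞) (h1 : ∀ u, f u ≤ a) (h2 : ∀ u, f u ≠ 0 → u ∈ S) : ∫⁻ u, f u ∂μ ≤ a * μ S := by
  refine le_trans (lintegral_mono (g := S.indicator fun _ => a) fun u => ?_)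
    (lintegral_indicator_const_le S a)
  by_cases h : f u = 0
  · rw [h]; exact bot_le
  · rw [indicator_of_mem (h2 u h)]; exact h1 u

/-- rotation of the horizontal plane -/
def rotL (α β : ℝ) : E →ₗ[ℝ] E where
  toFun u := !₂[α * u 0 + β * u 1, α * u 1 - β * u 0, u 2]
  map_add' u v := by
    ext i
    fin_cases i <;> simp <;> ring
  map_smul' c u := by
    ext i
    fin_cases i <;> simp <;> ring

def rotI (α β : ℝ) (h : α ^ 2 + β ^ 2 = 1) : E →ₗᵢ[ℝ] E where
  toLinearMap := rotL α β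
  norm_map' u := by
    rw [EuclideanSpace.norm_eq, EuclideanSpace.norm_eq]
    congr 1
    simp only [rotL, LinearMap.coe_mk, AddHom.coe_mk, Fin.sum_univ_three, Real.norm_eq_abs, sq_abs]
    simp
    linear_combination (u 0 ^ 2 + u 1 ^ 2) * h

theorem rot_vol (α β : ℝ) (h : α ^ 2 + β ^ 2 = 1) (c d : Fin 3 → ℝ) :
    volume (rotL α β ⁻¹' box c d) = ∏ i, ENNReal.ofReal (2 * d i) := by
  have := ((rotI α β h).toLinearIsometryEquiv rfl).measurePreserving
  rw [← box_vol c d, ← this.measure_preimage (box_meas c d).nullMeasurableSet]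
  rfl

theorem abs_le_of_sq {a b c d : ℝ} (hd : 0 ≤ d) (h : a ^ 2 + b ^ 2 + c ^ 2 ≤ d ^ 2) :
    |a| ≤ d ∧ |c| ≤ d :=
  ⟨abs_le_of_sq_le_sq' (by nlinarith [sq_nonneg b, sq_nonneg c]) hd |> abs_le.2,
    abs_le_of_sq_le_sq' (by nlinarith [sq_nonneg a, sq_nonneg b]) hd |> abs_le.2⟩

theorem off_zero {g : Geo} (gb : GeoB g) {t : ℝ} (ht : t ∈ Icc (0 : ℝ) 1) {x : T3}
    (hx : ¬ InT g t x) (u : E) : BB g t (x, u) = 0 ∧ EE g t (x, u) = 0 := by
  have : CC g t (x, u) = 0 := by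
    by_contra h
    obtain ⟨j, hj, hp⟩ := gb.cc_supp t ht _ h
    exact hx ⟨j, hj, hp.1⟩
  exact add_eq_zero.1 this

theorem bb_le {g : Geo} (gb : GeoB g) {t : ℝ} (ht : t ∈ Icc (0 : ℝ) 1) {x : T3} {j : ℕ}
    (hx : x ∈ Tube g j t) (u : E) : BB g t (x, u) ≤ ENNReal.ofReal (g.a j) ∧
      (BB g t (x, u) ≠ 0 → fl (-t) (x, u) ∈ B0s g j) := by
  rw [gb.bb_tube j t ht (x, u) hx]
  split_ifs with h
  · by_cases h' : fl (-t) (x, u) ∈ B0s g j
    · rw [indicator_of_mem h']
      exact ⟨le_rfl, fun _ => h'⟩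
    · rw [indicator_of_notMem h']
      exact ⟨bot_le, fun h => absurd rfl h⟩
  · exact ⟨bot_le, fun h => absurd rfl h⟩

theorem ee_le (ga : GeoAStmt) {g : Geo} (gb : GeoB g) {t : ℝ} (ht : t ∈ Icc (0 : ℝ) 1) {x : T3} {j : ℕ}
    (hx : x ∈ Tube g j t) (u : E) : EE g t (x, u) ≤ ENNReal.ofReal (3 * t * g.r j ^ 4 * g.a j) ∧
      (EE g t (x, u) ≠ 0 → (x, u) ∈ Cold g j t) := by
  rw [gb.ee_tube j t ht (x, u) hx]
  split_ifs with h
  · by_cases h' : (x, u) ∈ Cold g j t
    · rw [indicator_of_mem h']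
      refine ⟨ENNReal.ofReal_le_ofReal ?_, fun _ => h'⟩
      obtain ⟨hr, -, -, ha, hth, -⟩ := gb.r_pos j
      have h0 : 0 ≤ 3 * t * g.r j ^ 4 * g.a j := by have := ht.1; positivity
      refine mul_le_of_le_one_right h0 ?_
      rw [Real.exp_le_one_iff]
      have hq : 0 ≤ gq g.κ (sg j) (x, u) := (sq_nonneg _).trans (ga.gq_uu _ _ _).1
      exact div_nonpos_of_nonpos_of_nonneg (by linarith) (sq_nonneg _)
    · rw [indicator_of_notMem h']
      exact ⟨bot_le, fun h => absurd rfl h⟩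
  · exact ⟨bot_le, fun h => absurd rfl h⟩

theorem part1 (ga : GeoAStmt) {g : Geo} (gb : GeoB g) {t : ℝ} (ht : t ∈ Icc (0 : ℝ) 1) (x : T3) :
    ∫⁻ u, BB g t (x, u) ≤ ENNReal.ofReal (8 * g.c / ‖pl x‖) := by
  by_cases hx : InT g t x
  · have hX : pl x ≠ 0 := (gb.inT t ht x hx).2.2.1
    obtain ⟨j, -, hj⟩ := hx
    have hn : 0 < ‖pl x‖ := norm_pos_iff.2 hX
    obtain ⟨hr, -, -, ha, hth, -⟩ := gb.r_pos j
    have hαβ : ((pl x).re / ‖pl x‖) ^ 2 + ((pl x).im / ‖pl x‖) ^ 2 = 1 := by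
      rw [div_pow, div_pow, ← add_div, div_eq_one_iff_eq (by positivity), Complex.sq_norm,
        Complex.normSq_apply]
      ring
    refine le_trans (int_le volume _ (rotL ((pl x).re / ‖pl x‖) ((pl x).im / ‖pl x‖) ⁻¹'
      box ![g.κ, 0, sg j] ![g.th j, g.th j * g.r j / ‖pl x‖, g.th j]) (ENNReal.ofReal (g.a j))
      (fun u => (bb_le gb ht hj u).1) fun u hu => ?_) ?_
    · obtain ⟨-, h1, -, h2⟩ := gb.supp j t ht (x, u) ((bb_le gb ht hj u).2 hu)
      rw [ga.gq_polar _ _ _ hX] at h1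
      obtain ⟨h3, h4⟩ := abs_le_of_sq hth.le h1
      have e1 : (starRingEnd ℂ (pl x) * hz u).re = (pl x).re * u 0 + (pl x).im * u 1 := by
        simp [hz]
      have e2 : (starRingEnd ℂ (pl x) * hz u).im = (pl x).re * u 1 - (pl x).im * u 0 := by
        simp [hz]
        ring
      simp only [e1, e2] at h2 h3 h4
      intro i
      fin_cases i
      · have : (pl x).re / ‖pl x‖ * u 0 + (pl x).im / ‖pl x‖ * u 1 =
            ((pl x).re * u 0 + (pl x).im * u 1) / ‖pl x‖ := by ring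
        simpa [rotL, this] using h3
      · have : (pl x).re / ‖pl x‖ * u 1 - (pl x).im / ‖pl x‖ * u 0 =
            ((pl x).re * u 1 - (pl x).im * u 0) / ‖pl x‖ := by ring
        have h5 : |((pl x).re * u 1 - (pl x).im * u 0) / ‖pl x‖| ≤ g.th j * g.r j / ‖pl x‖ := by
          rw [abs_div, abs_of_pos hn]
          exact div_le_div_of_nonneg_right h2 hn.le
        simpa [rotL, this] using h5
      · simpa [rotL] using h4
    · rw [rot_vol _ _ hαβ, Fin.prod_univ_three]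
      simp only [Matrix.cons_val_zero, Matrix.cons_val_one, Matrix.cons_val]
      rw [← ENNReal.ofReal_mul (by positivity), ← ENNReal.ofReal_mul (by positivity),
        ← ENNReal.ofReal_mul ha.le]
      refine ENNReal.ofReal_le_ofReal (le_of_eq ?_)
      unfold Geo.a
      field_simp
      ring
  · simp [fun u => (off_zero gb ht hx u).1]

theorem part2 (ga : GeoAStmt) {g : Geo} (gb : GeoB g) {t : ℝ} (ht : t ∈ Icc (0 : ℝ) 1) (x : T3) :
    ∫⁻ u, EE g t (x, u) ≤ ENNReal.ofReal (24 * g.c * t) := by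
  by_cases hx : InT g t x
  · obtain ⟨j, -, hj⟩ := hx
    obtain ⟨hr, -, -, ha, hth, hg, -⟩ := gb.r_pos j
    have hg0 : 0 < g.gg j := hth.trans_le hg
    refine le_trans (int_le volume _ (box (fun i => uu g.κ (sg j) x i) fun _ => g.gg j)
      (ENNReal.ofReal (3 * t * g.r j ^ 4 * g.a j))
      (fun u => (ee_le ga gb ht hj u).1) fun u hu => ?_) ?_
    · have h1 := (gb.cold_v j t ht (x, u) ((ee_le ga gb ht hj u).2 hu)).1
      intro i
      have := PiLp.norm_apply_le (u - uu g.κ (sg j) x) i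
      exact le_trans (by simpa using this) h1
    · have h0 := ht.1
      rw [box_vol, Fin.prod_univ_three,
        ← ENNReal.ofReal_mul (by positivity), ← ENNReal.ofReal_mul (by positivity),
        ← ENNReal.ofReal_mul (by positivity)]
      refine ENNReal.ofReal_le_ofReal (le_of_eq ?_)
      unfold Geo.a Geo.gg Geo.th
      field_simp
      ring
  · simp [fun u => (off_zero gb ht hx u).2]

theorem part3 {g : Geo} (gb : GeoB g) {t : ℝ} (ht : t ∈ Icc (0 : ℝ) 1) (x : T3) (j : ℕ)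
    (hj : x ∈ Tube g j t) (v : E) (ι : E2 →ₗᵢ[ℝ] E) :
    ∫⁻ y, BB g t (x, v - ι y) ≤ ENNReal.ofReal (4 * g.c / g.r j ^ 8) := by
  obtain ⟨hr, -, -, ha, hth, -⟩ := gb.r_pos j
  refine le_trans (int_le volume _
    (box (fun i => inner ℝ (ι (EuclideanSpace.single i 1)) (v - uu g.κ (sg j) x)) fun _ => g.th j)
    (ENNReal.ofReal (g.a j)) (fun y => (bb_le gb ht hj _).1) fun y hy => ?_) ?_
  · obtain ⟨-, -, h1, -⟩ := gb.supp j t ht (x, v - ι y) ((bb_le gb ht hj _).2 hy)
    intro i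
    have e1 : y i = inner ℝ (ι (EuclideanSpace.single i 1)) (ι y) := by
      rw [ι.inner_map_map, EuclideanSpace.inner_single_left]
      simp
    have e2 : v - ι y - uu g.κ (sg j) x = -(ι y - (v - uu g.κ (sg j) x)) := by abel
    change |y i - inner ℝ (ι (EuclideanSpace.single i 1)) (v - uu g.κ (sg j) x)| ≤ g.th j
    rw [e1, ← inner_sub_right]
    refine (abs_real_inner_le_norm _ _).trans ?_
    change ‖v - ι y - uu g.κ (sg j) x‖ ≤ g.th j at h1
    rw [e2, norm_neg] at h1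
    simpa using h1
  · rw [box_vol, Fin.prod_univ_two, ← ENNReal.ofReal_mul (by positivity),
      ← ENNReal.ofReal_mul ha.le]
    refine ENNReal.ofReal_le_ofReal (le_of_eq ?_)
    unfold Geo.a Geo.th
    field_simp
    ring

end DensUAux

theorem densU (hb : Base) (hc : BaseC) : DensUStmt := fun g hg _ ht x =>
  ⟨DensUAux.part1 hc.ga (hc.gb g hg) ht x, DensUAux.part2 hc.ga (hc.gb g hg) ht x,
    fun j hj v ι => DensUAux.part3 (hc.gb g hg) ht x j hj v ι⟩

end

end Vale.Agent.P140
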