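import Vale.Agent.P140.StmC

/-!
The function en and a quadratic sublevel bound.
-/

namespace Vale.Agent.P140

open MeasureTheory Set Filter Topology
open scoped ENNReal

noncomputable section

namespace EnCAux

lemma en_of_ne {x : ℝ≥0∞} (h : x ≠ ⊤) : en x = ENNReal.ofReal (Real.exp (-x.toReal)) := if_neg h

lemma en_top : en ⊤ = 0 := if_pos rfl

lemma anti (x y : ℝ≥0∞) (h : x ≤ y) : en y ≤ en x := by
  by_cases hy : y = ⊤
  · rw [hy, en_top]; exact zero_le
  · rw [en_of_ne hy, en_of_ne (ne_top_of_le_ne_top hy h)]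
    exact ENNReal.ofReal_le_ofReal (Real.exp_le_exp.2 (neg_le_neg (ENNReal.toReal_mono hy h)))

lemma zero : en 0 = 1 := by simp [en]

lemma meas2 {n : ℝ → ℝ≥0∞} (hn : Measurable n) :
    Measurable fun z : ℝ × ℝ => ∫⁻ r in Ioc z.1 z.2, n r := by
  have hS : MeasurableSet {z : (ℝ × ℝ) × ℝ | z.1.1 < z.2 ∧ z.2 ≤ z.1.2} :=
    (measurableSet_lt (by fun_prop) measurable_snd).inter
      (measurableSet_le measurable_snd (by fun_prop))
  have h2 := ((hn.comp measurable_snd).indicator hS).lintegral_prod_right'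
    (ν := (volume : Measure ℝ))
  refine (congrArg Measurable (funext fun y => ?_)).mp h2
  rw [← lintegral_indicator measurableSet_Ioc]
  rfl

lemma expo (hb : Base) (a b : ℝ) (n : ℝ → ℝ≥0∞) (hab : a ≤ b) (hn : Measurable n)
    (hf : ∫⁻ r in Ioc a b, n r ≠ ⊤) :
    (∫⁻ s in Ioc a b, en (∫⁻ r in Ioc a s, n r) * n s) + en (∫⁻ r in Ioc a b, n r) = 1 := by
  have hi : IntervalIntegrable (fun r => (n r).toReal) volume a b :=
    (intervalIntegrable_iff_integrableOn_Ioc_of_le hab).2
      (integrable_toReal_of_lintegral_ne_top hn.aemeasurable hf)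
  set y : ℝ → ℝ := fun t => Real.exp (-∫ s in a..t, (n s).toReal) with hy
  obtain ⟨hc, he⟩ := hb.exp.2 a b 1 y (fun _ => 0) (fun r => (n r).toReal) hab
    intervalIntegrable_const hi (fun t _ => by simp [hy])
  have h1 : ∀ s ∈ Icc a b, en (∫⁻ r in Ioc a s, n r) = ENNReal.ofReal (y s) := by
    intro s hs
    have h2 : ∫⁻ r in Ioc a s, n r ≠ ⊤ :=
      ne_top_of_le_ne_top hf (lintegral_mono_set (Ioc_subset_Ioc_right hs.2))
    rw [en_of_ne h2, hy]
    simp only
    rw [intervalIntegral.integral_of_le hs.1,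
      integral_toReal hn.aemeasurable (ae_lt_top hn h2)]
  have hi2 : IntervalIntegrable (fun s => (n s).toReal * y s) volume a b :=
    hi.mul_continuousOn (by rwa [uIcc_of_le hab])
  have h3 : ∫⁻ s in Ioc a b, en (∫⁻ r in Ioc a s, n r) * n s =
      ENNReal.ofReal (∫ s in a..b, (n s).toReal * y s) := by
    rw [intervalIntegral.integral_of_le hab, ofReal_integral_eq_lintegral_ofReal
      ((intervalIntegrable_iff_integrableOn_Ioc_of_le hab).1 hi2)
      (Eventually.of_forall fun s => mul_nonneg ENNReal.toReal_nonneg (Real.exp_pos _).le)]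
    refine lintegral_congr_ae ?_
    filter_upwards [ae_restrict_mem measurableSet_Ioc, ae_lt_top hn hf] with s hs h4
    rw [h1 s (Ioc_subset_Icc_self hs), ENNReal.ofReal_mul ENNReal.toReal_nonneg,
      ENNReal.ofReal_toReal h4.ne, mul_comm]
  have h5 := he b ⟨hab, le_rfl⟩
  simp only [zero_sub, intervalIntegral.integral_neg] at h5
  rw [h3, h1 b ⟨hab, le_rfl⟩, ← ENNReal.ofReal_add (intervalIntegral.integral_nonneg hab
    fun s _ => mul_nonneg ENNReal.toReal_nonneg (Real.exp_pos _).le) (Real.exp_pos _).le,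
    ← ENNReal.ofReal_one]
  congr 1
  change _ + y b = 1
  linarith

lemma qsl (A b c ε : ℝ) (hA : A ≠ 0) (hε : 0 ≤ ε) :
    volume {s : ℝ | |A * s ^ 2 + b * s + c| ≤ ε} ≤ ENNReal.ofReal (4 * √(ε / |A|)) := by
  have hA' : 0 < |A| := abs_pos.2 hA
  set e := ε / |A| with he
  have he0 : 0 ≤ e := div_nonneg hε hA'.le
  set s₀ := -b / (2 * A) with hs₀
  set d := (b ^ 2 - 4 * A * c) / (4 * A ^ 2) with hd
  set m := √(d - e) with hm
  have hm0 : 0 ≤ m := Real.sqrt_nonneg _
  have hq : 0 ≤ √e := Real.sqrt_nonneg _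
  have hm2 : d - e ≤ m ^ 2 := by
    rw [hm, Real.sq_sqrt']; exact le_max_left _ _
  have hsub : {s : ℝ | |A * s ^ 2 + b * s + c| ≤ ε} ⊆
      Icc (s₀ + m) (s₀ + m + 2 * √e) ∪ Icc (s₀ - m - 2 * √e) (s₀ - m) := by
    intro s hs
    have h1 : A * s ^ 2 + b * s + c = A * ((s - s₀) ^ 2 - d) := by
      rw [hs₀, hd]; field_simp; ring
    have h2 : |(s - s₀) ^ 2 - d| ≤ e := by
      rw [he, le_div_iff₀ hA', mul_comm, ← abs_mul, ← h1]; exact hs
    rw [abs_le] at h2
    have h3 : m ≤ |s - s₀| := by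
      rw [hm, ← Real.sqrt_sq_eq_abs]
      exact Real.sqrt_le_sqrt (by linarith [h2.1])
    have h4 : |s - s₀| ≤ m + 2 * √e := by
      refine abs_le_of_sq_le_sq ?_ (by positivity)
      have := Real.sq_sqrt he0
      nlinarith [mul_nonneg hm0 hq, h2.2]
    rcases le_total 0 (s - s₀) with h | h
    · rw [abs_of_nonneg h] at h3 h4
      exact Or.inl ⟨by linarith, by linarith⟩
    · rw [abs_of_nonpos h] at h3 h4
      exact Or.inr ⟨by linarith, by linarith⟩
  refine (measure_mono hsub).trans ((measure_union_le _ _).trans (le_of_eq ?_))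
  rw [Real.volume_Icc, Real.volume_Icc, ← ENNReal.ofReal_add (by linarith) (by linarith)]
  congr 1
  ring

end EnCAux

open EnCAux in
theorem enC (hb : Base) : EnStmt where
  zero := zero
  anti := anti
  add x y := by
    by_cases hx : x = ⊤
    · simp [hx, en_top]
    by_cases hy : y = ⊤
    · simp [hy, en_top]
    rw [en_of_ne hx, en_of_ne hy, en_of_ne (ENNReal.add_ne_top.2 ⟨hx, hy⟩),
      ENNReal.toReal_add hx hy, neg_add, Real.exp_add, ENNReal.ofReal_mul (Real.exp_pos _).le]
  le_one x := (anti 0 x zero_le).trans zero.le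
  meas := Measurable.ite (measurableSet_singleton ⊤) measurable_const (by fun_prop)
  ofReal x hx := by rw [en_of_ne ENNReal.ofReal_ne_top, ENNReal.toReal_ofReal hx]
  expo := expo hb
  meas_int n a hn :=
    ⟨(meas2 hn).comp (f := fun s : ℝ => (a, s)) measurable_prodMk_left,
      (meas2 hn).comp (f := fun s : ℝ => (s, a)) measurable_prodMk_right, meas2 hn⟩
  qsl := qsl

end

end Vale.Agent.P140
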