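import Vale.Agent.P140.StmC

/-!
Pointwise bounds for the two frequencies at a point of a tube.
-/

namespace Vale.Agent.P140

open MeasureTheory Set Filter Topology
open scoped ENNReal

noncomputable section

namespace FreqAux

lemma bb_zero (hc : BaseC) {g : Geo} (hg : g.Ok) {s : ℝ} (hs : s ∈ Icc (0 : ℝ) 1) {x : T3}
    (hx : ¬ InT g s x) (u : E) : BB g s (x, u) = 0 := by
  by_contra h
  have h1 : CC g s (x, u) ≠ 0 := by
    unfold CC
    intro h0
    exact h (add_eq_zero.1 h0).1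
  obtain ⟨j, hj, hp⟩ := (hc.gb g hg).cc_supp s hs (x, u) h1
  exact hx ⟨j, hj, hp.1⟩

lemma bb_supp (hc : BaseC) {g : Geo} (hg : g.Ok) {s : ℝ} (hs : s ∈ Icc (0 : ℝ) 1) {x : T3} {j : ℕ}
    (hx : x ∈ Tube g j s) {u : E} (h0 : BB g s (x, u) ≠ 0) :
    ‖u - uu g.κ (sg j) x‖ ≤ g.th j ∧ ‖u‖ ≤ 2 ∧ ‖hz u‖ ≤ 2 * g.κ := by
  have hgb := hc.gb g hg
  have h1 := hgb.bb_tube j s hs (x, u) hx
  have h2 : fl (-s) (x, u) ∈ B0s g j := by
    by_contra hn
    apply h0
    rw [h1, indicator_of_notMem hn]; simp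
  have h3 := hgb.supp j s hs _ h2
  exact ⟨h3.2.2.1, (hgb.cold_v j s hs _ h3.1).2⟩

lemma tri_up (v u a : E) : ‖v - u‖ ≤ ‖v - a‖ + ‖u - a‖ := by
  have := norm_sub_le (v - a) (u - a)
  rwa [sub_sub_sub_cancel_right] at this

lemma tri_low (v u a : E) : ‖v - a‖ ≤ ‖v - u‖ + ‖u - a‖ := by
  have := norm_add_le (v - u) (u - a)
  rwa [sub_add_sub_cancel] at this

lemma meas_int (hc : BaseC) (q : Par) (v : E) {B : E → ℝ≥0∞} (hB : Measurable B) :
    Measurable (fun z : E × S2 => ENNReal.ofReal (kS q.D q.η |cf v z.1 z.2| ‖v - z.1‖) *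
      (B z.1 * ENNReal.ofReal (om q (vp v z.1 z.2) + om q (wp v z.1 z.2)))) := by
  have hp : Continuous (fun z : E × S2 => (v, z.1, z.2)) := by fun_prop
  have h1 : Measurable (fun z : E × S2 => cf v z.1 z.2) := (continuous_cf.comp hp).measurable
  have h2 : Measurable (fun z : E × S2 => vp v z.1 z.2) := (continuous_vp.comp hp).measurable
  have h3 : Measurable (fun z : E × S2 => wp v z.1 z.2) := (continuous_wp.comp hp).measurable
  have h4 : Measurable (fun z : E × S2 => ‖v - z.1‖) := by fun_prop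
  have h5 : Measurable (fun z : E × S2 => kS q.D q.η |cf v z.1 z.2| ‖v - z.1‖) :=
    (hc.me.kS q.D q.η).comp (h1.abs.prodMk h4)
  have h6 : Measurable (fun z : E × S2 => om q (vp v z.1 z.2) + om q (wp v z.1 z.2)) :=
    ((hc.me.om q).comp h2).add ((hc.me.om q).comp h3)
  exact h5.ennreal_ofReal.mul ((hB.comp measurable_fst).mul h6.ennreal_ofReal)

lemma SS_nonneg (g : Geo) (V t : ℝ) (x : T3) : 0 ≤ SS g V t x := by
  unfold SS; split_ifs
  · positivity
  · exact le_rfl

end FreqAux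

open FreqAux in
theorem freqC (hb : Base) (hc : BaseC) (hU : DensUStmt) (hL : DensLStmt) : FreqStmt := by
  have _ := hb
  intro g q V₀ hg hκη hp hcoll hV t ht p
  have hm : Measurable (fun u => BB g t (p.1, u)) := hc.alg.jm_slice _ (hc.me.jm g).1 t p.1
  have hNu : Nu (BB g) t p = ∫⁻ u, ENNReal.ofReal (2 * Real.pi * ‖p.2 - u‖) * BB g t (p.1, u) :=
    hc.alg.freq_eq _ _ hm
  have hpi := Real.pi_pos
  have hc1 := hg.c1
  refine ⟨fun hx => ?_, fun j hj hx m M => ⟨fun hM => ?_, fun hmm => ⟨fun hcore => ?_,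
    fun hv hD hm0 => ?_⟩⟩⟩
  · rw [hNu]; simp [bb_zero hc hg ht hx]
  · have hM0 : 0 ≤ M := by
      have := ((hc.gb g hg).r_pos j).2.2.2.2.1
      linarith [norm_nonneg (p.2 - uu g.κ (sg j) p.1)]
    rw [hNu]
    calc _ ≤ ∫⁻ u, ENNReal.ofReal (2 * Real.pi * M) * BB g t (p.1, u) := by
          refine lintegral_mono fun u => ?_
          by_cases h0 : BB g t (p.1, u) = 0
          · simp [h0]
          refine mul_le_mul_left (ENNReal.ofReal_le_ofReal ?_) _
          have e1 := (bb_supp hc hg ht hx h0).1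
          have e2 := tri_up p.2 u (uu g.κ (sg j) p.1)
          gcongr
          linarith
      _ = ENNReal.ofReal (2 * Real.pi * M) * ∫⁻ u, BB g t (p.1, u) := lintegral_const_mul _ hm
      _ ≤ ENNReal.ofReal (2 * Real.pi * M) * ENNReal.ofReal (8 * g.c / ‖pl p.1‖) :=
          mul_le_mul_right (hU g hg t ht p.1).1 _
      _ = _ := by
          rw [← ENNReal.ofReal_mul (by positivity)]
          congr 1; ring
  · rw [hNu]
    calc ENNReal.ofReal (Real.pi * g.c * m / (8 * ‖pl p.1‖))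
        = ENNReal.ofReal (2 * Real.pi * m) * ENNReal.ofReal (g.c / (16 * ‖pl p.1‖)) := by
          rw [← ENNReal.ofReal_mul' (by positivity)]
          congr 1; ring
      _ ≤ ENNReal.ofReal (2 * Real.pi * m) * ∫⁻ u, BB g t (p.1, u) :=
          mul_le_mul_right (hL g hg t ht p.1 j hj hcore) _
      _ = ∫⁻ u, ENNReal.ofReal (2 * Real.pi * m) * BB g t (p.1, u) :=
          (lintegral_const_mul _ hm).symm
      _ ≤ _ := by
          refine lintegral_mono fun u => ?_
          by_cases h0 : BB g t (p.1, u) = 0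
          · simp [h0]
          refine mul_le_mul_left (ENNReal.ofReal_le_ofReal ?_) _
          have e1 := (bb_supp hc hg ht hx h0).1
          have e2 := tri_low p.2 u (uu g.κ (sg j) p.1)
          gcongr
          linarith
  · have hmeas := meas_int hc q p.2 hm
    have hS := SS_nonneg g q.V t p.1
    have hmin : 0 ≤ min (2 * m) 1 := le_min (by linarith) zero_le_one
    have hpow : 0 ≤ min (2 * m) 1 ^ q.p := Real.rpow_nonneg hmin _
    unfold nuS
    rw [if_pos hv, lintegral_prod _ hmeas.aemeasurable, hNu]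
    have e0 : ENNReal.ofReal (81 / 50 * SS g q.V t p.1 * min (2 * m) 1 ^ q.p) =
        ENNReal.ofReal (9 / 10 * SS g q.V t p.1) * ENNReal.ofReal (9 / 5 * min (2 * m) 1 ^ q.p) := by
      rw [← ENNReal.ofReal_mul (by positivity)]
      congr 1; ring
    rw [e0, mul_assoc]
    refine mul_le_mul_right ?_ _
    rw [← lintegral_const_mul' _ _ ENNReal.ofReal_ne_top]
    refine lintegral_mono fun u => ?_
    by_cases h0 : BB g t (p.1, u) = 0
    · simp [h0]
    obtain ⟨e1, e2, e3⟩ := bb_supp hc hg ht hx h0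
    have e4 := tri_low p.2 u (uu g.κ (sg j) p.1)
    have e5 : m ≤ ‖p.2 - u‖ := by linarith
    have hco := hcoll q.V hV p.2 u hv e2 (by linarith) (hD.trans e5)
    have hfin : BB g t (p.1, u) ≠ ⊤ := ENNReal.ofReal_ne_top
    calc ENNReal.ofReal (9 / 5 * min (2 * m) 1 ^ q.p) *
          (ENNReal.ofReal (2 * Real.pi * ‖p.2 - u‖) * BB g t (p.1, u))
        = BB g t (p.1, u) *
          ENNReal.ofReal (9 / 5 * min (2 * m) 1 ^ q.p * (2 * Real.pi * ‖p.2 - u‖)) := by
          rw [ENNReal.ofReal_mul (p := 9 / 5 * min (2 * m) 1 ^ q.p) (by positivity)]; ring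
      _ ≤ BB g t (p.1, u) *
          ENNReal.ofReal (9 / 5 * min (2 * ‖p.2 - u‖) 1 ^ q.p * (2 * Real.pi * ‖p.2 - u‖)) := by
          refine mul_le_mul_right (ENNReal.ofReal_le_ofReal ?_) _
          have : min (2 * m) 1 ^ q.p ≤ min (2 * ‖p.2 - u‖) 1 ^ q.p :=
            Real.rpow_le_rpow hmin (min_le_min (by linarith) le_rfl) hp
          gcongr
      _ ≤ BB g t (p.1, u) * ∫⁻ ω, ENNReal.ofReal (kS q.D q.η |cf p.2 u ω| ‖p.2 - u‖) *
          ENNReal.ofReal (om q (vp p.2 u ω) + om q (wp p.2 u ω)) ∂sph := mul_le_mul_right hco _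
      _ = _ := by
          rw [← lintegral_const_mul' _ _ hfin]
          refine lintegral_congr fun ω => ?_
          ring

end

end Vale.Agent.P140
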