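import Vale.Agent.P140.StmC

/-!
Flat geometry of the torus and of the function gq.
-/

namespace Vale.Agent.P140

open MeasureTheory Set Filter Topology
open scoped ENNReal

noncomputable section

namespace GeoAAux

lemma rep_mem (x : T3) (i : Fin 3) : rep x i ∈ Ico (-1 / 2 : ℝ) (1 / 2) := by
  have h := (AddCircle.equivIco (1 : ℝ) (-1 / 2) (x i)).2
  exact ⟨h.1, h.2.trans_eq (by norm_num)⟩

lemma coe_rep (x : T3) (i : Fin 3) : ((rep x i : ℝ) : UnitAddCircle) = x i :=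
  AddCircle.coe_equivIco

lemma coe_rep_add (x : T3) (y : E) (i : Fin 3) :
    ((rep (x + pr y) i : ℝ) : UnitAddCircle) = ((rep x i + y i : ℝ) : UnitAddCircle) := by
  rw [coe_rep, AddCircle.coe_add, coe_rep]; rfl

lemma rep_add_int (x : T3) (y : E) (i : Fin 3) :
    ∃ n : ℤ, rep (x + pr y) i = rep x i + y i + n := by
  have h := coe_rep_add x y i
  rw [← sub_eq_zero, ← AddCircle.coe_sub, AddCircle.coe_eq_zero_iff] at h
  obtain ⟨n, hn⟩ := h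
  refine ⟨n, ?_⟩
  rw [zsmul_eq_mul, mul_one] at hn
  linarith

lemma rep_add_le (x : T3) (y : E) (i : Fin 3) : |rep (x + pr y) i| ≤ |rep x i + y i| := by
  obtain ⟨n, hn⟩ := rep_add_int x y i
  have h := rep_mem (x + pr y) i
  have h1 : |rep (x + pr y) i| ≤ 1 / 2 := abs_le.2 ⟨by linarith [h.1], h.2.le⟩
  rcases lt_trichotomy n 0 with h0 | h0 | h0
  · have : (n : ℝ) ≤ -1 := by exact_mod_cast (show n ≤ -1 by omega)
    exact h1.trans (le_trans (by linarith [h.1]) (le_abs_self _))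
  · rw [hn, h0]; simp
  · have : (1 : ℝ) ≤ n := by exact_mod_cast (show 1 ≤ n by omega)
    exact h1.trans (le_trans (by linarith [h.2]) (neg_le_abs _))

lemma rep_add_eq (x : T3) (y : E) (i : Fin 3) (h : |rep x i + y i| < 1 / 2) :
    rep (x + pr y) i = rep x i + y i := by
  obtain ⟨n, hn⟩ := rep_add_int x y i
  have h1 := rep_mem (x + pr y) i
  have h2 := abs_lt.1 h
  have h3 : (n : ℝ) < 1 := by linarith [h1.2]
  have h4 : (-1 : ℝ) < n := by linarith [h1.1]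
  have h5 : n < 1 := by exact_mod_cast h3
  have h6 : -1 < n := by exact_mod_cast h4
  have : n = 0 := by omega
  rw [hn, this]; simp

lemma hz_add (u v : E) (a : ℝ) : hz (u + v) = hz u + hz v ∧ hz (u - v) = hz u - hz v ∧
    hz (a • v) = (a : ℂ) * hz v := by
  refine ⟨?_, ?_, ?_⟩ <;> apply Complex.ext <;> simp [hz]

lemma cnorm_sq (z : ℂ) : ‖z‖ ^ 2 = z.re ^ 2 + z.im ^ 2 := by
  rw [Complex.sq_norm, Complex.normSq_apply]; ring

lemma hz_sq (v : E) : ‖hz v‖ ^ 2 = v 0 ^ 2 + v 1 ^ 2 := cnorm_sq _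

lemma enorm_sq (v : E) : ‖v‖ ^ 2 = v 0 ^ 2 + v 1 ^ 2 + v 2 ^ 2 := by
  rw [EuclideanSpace.real_norm_sq_eq, Fin.sum_univ_three]

lemma norm_sq (v : E) : ‖v‖ ^ 2 = ‖hz v‖ ^ 2 + v 2 ^ 2 ∧ ‖hz v‖ ≤ ‖v‖ ∧ |v 2| ≤ ‖v‖ := by
  have h : ‖v‖ ^ 2 = ‖hz v‖ ^ 2 + v 2 ^ 2 := by rw [enorm_sq, hz_sq]
  refine ⟨h, ?_, ?_⟩
  · exact (sq_le_sq₀ (norm_nonneg _) (norm_nonneg _)).1 (by nlinarith [sq_nonneg (v 2)])
  · exact abs_le_of_sq_le_sq (by nlinarith [sq_nonneg ‖hz v‖]) (norm_nonneg _)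

lemma fl_fst (p : Om) (Δ : ℝ) : (fl Δ p).1 = p.1 + pr (Δ • p.2) := rfl

lemma norm_lift_le (p : Om) (Δ : ℝ) : ‖pl p.1 + (Δ : ℂ) * hz p.2‖ ≤ ‖pl p.1‖ + |Δ| * ‖hz p.2‖ := by
  refine (norm_add_le _ _).trans ?_
  rw [norm_mul, Complex.norm_real, Real.norm_eq_abs]

lemma lift_re (p : Om) (Δ : ℝ) : (pl p.1 + (Δ : ℂ) * hz p.2).re = rep p.1 0 + (Δ • p.2) 0 := by
  simp [pl, hz]

lemma lift_im (p : Om) (Δ : ℝ) : (pl p.1 + (Δ : ℂ) * hz p.2).im = rep p.1 1 + (Δ • p.2) 1 := by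
  simp [pl, hz]

lemma lift (p : Om) (Δ : ℝ) (h : ‖pl p.1‖ + |Δ| * ‖hz p.2‖ < 1 / 2) :
    pl (fl Δ p).1 = pl p.1 + (Δ : ℂ) * hz p.2 := by
  have h0 := (norm_lift_le p Δ).trans_lt h
  have h1 := (Complex.abs_re_le_norm _).trans_lt h0
  have h2 := (Complex.abs_im_le_norm _).trans_lt h0
  rw [lift_re] at h1
  rw [lift_im] at h2
  apply Complex.ext
  · rw [lift_re, fl_fst]; exact rep_add_eq _ _ 0 h1
  · rw [lift_im, fl_fst]; exact rep_add_eq _ _ 1 h2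

lemma lip (p : Om) (Δ : ℝ) : ‖pl (fl Δ p).1‖ ≤ ‖pl p.1‖ + |Δ| * ‖hz p.2‖ := by
  refine le_trans ?_ (norm_lift_le p Δ)
  refine (sq_le_sq₀ (norm_nonneg _) (norm_nonneg _)).1 ?_
  rw [cnorm_sq, cnorm_sq, lift_re, lift_im, fl_fst]
  exact add_le_add (sq_le_sq.2 (rep_add_le _ _ 0)) (sq_le_sq.2 (rep_add_le _ _ 1))

lemma pl_le (x : T3) : ‖pl x‖ ≤ 1 := by
  have h0 := rep_mem x 0
  have h1 := rep_mem x 1
  have a0 : |rep x 0| ≤ 1 / 2 := abs_le.2 ⟨by linarith [h0.1], h0.2.le⟩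
  have a1 : |rep x 1| ≤ 1 / 2 := abs_le.2 ⟨by linarith [h1.1], h1.2.le⟩
  have := Complex.norm_le_abs_re_add_abs_im (pl x)
  have e0 : (pl x).re = rep x 0 := rfl
  have e1 : (pl x).im = rep x 1 := rfl
  rw [e0, e1] at this
  linarith

lemma hat_sq (X : ℂ) (h : X ≠ 0) : (X.re / ‖X‖) ^ 2 + (X.im / ‖X‖) ^ 2 = 1 := by
  have : ‖X‖ ≠ 0 := norm_ne_zero_iff.2 h
  rw [div_pow, div_pow, ← add_div, ← cnorm_sq, div_self (pow_ne_zero _ this)]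

lemma hat_le (X : ℂ) : (X.re / ‖X‖) ^ 2 + (X.im / ‖X‖) ^ 2 ≤ 1 := by
  by_cases h : X = 0
  · simp [h]
  · exact (hat_sq X h).le

lemma conj_re (w X : ℂ) : (starRingEnd ℂ w * X).re = w.re * X.re + w.im * X.im := by simp

lemma conj_im (w X : ℂ) : (starRingEnd ℂ w * X).im = w.re * X.im - w.im * X.re := by
  simp; ring

lemma gq_eq (κ σ : ℝ) (p : Om) : gq κ σ p = ‖p.2 - uu κ σ p.1‖ ^ 2 +
    κ ^ 2 * (1 - (((pl p.1).re / ‖pl p.1‖) ^ 2 + ((pl p.1).im / ‖pl p.1‖) ^ 2)) := by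
  have e0 : (hz p.2).re = p.2 0 := rfl
  have e1 : (hz p.2).im = p.2 1 := rfl
  rw [gq, enorm_sq, hz_sq, conj_re, e0, e1]
  simp only [uu, PiLp.sub_apply, Matrix.cons_val_zero, Matrix.cons_val_one, Matrix.cons_val]
  ring

lemma gq_uu (κ σ : ℝ) (p : Om) : ‖p.2 - uu κ σ p.1‖ ^ 2 ≤ gq κ σ p ∧
    (pl p.1 ≠ 0 → gq κ σ p = ‖p.2 - uu κ σ p.1‖ ^ 2) := by
  rw [gq_eq]
  refine ⟨?_, fun h => ?_⟩
  · have := hat_le (pl p.1)
    have : 0 ≤ κ ^ 2 * (1 - (((pl p.1).re / ‖pl p.1‖) ^ 2 + ((pl p.1).im / ‖pl p.1‖) ^ 2)) :=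
      mul_nonneg (sq_nonneg _) (by linarith)
    linarith
  · rw [hat_sq _ h]; ring

lemma uu_le (κ σ : ℝ) (x : T3) (hκ : 0 ≤ κ) : ‖hz (uu κ σ x)‖ ≤ κ ∧ uu κ σ x 2 = σ ∧
    ‖uu κ σ x‖ ≤ κ + |σ| := by
  have h1 : ‖hz (uu κ σ x)‖ ≤ κ := by
    refine (sq_le_sq₀ (norm_nonneg _) hκ).1 ?_
    rw [hz_sq]
    simp only [uu, Matrix.cons_val_zero, Matrix.cons_val_one]
    have := hat_le (pl x)
    nlinarith [sq_nonneg κ]
  have h2 : uu κ σ x 2 = σ := by simp [uu]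
  refine ⟨h1, h2, ?_⟩
  refine (sq_le_sq₀ (norm_nonneg _) (by positivity)).1 ?_
  rw [(norm_sq _).1, h2, ← sq_abs σ]
  nlinarith [norm_nonneg (hz (uu κ σ x)), abs_nonneg σ]

lemma re_div_le (w X : ℂ) : (starRingEnd ℂ w * X).re / ‖X‖ ≤ ‖w‖ := by
  refine div_le_of_le_mul₀ (norm_nonneg _) (norm_nonneg _) ?_
  refine (Complex.re_le_norm _).trans ?_
  rw [norm_mul, Complex.norm_conj]

lemma gq_ge (κ σ : ℝ) (p : Om) (hκ : 0 ≤ κ) :
    (‖hz p.2‖ - κ) ^ 2 + (p.2 2 - σ) ^ 2 ≤ gq κ σ p := by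
  have := mul_le_mul_of_nonneg_left (re_div_le (hz p.2) (pl p.1)) hκ
  unfold gq
  nlinarith

lemma gq_polar (κ σ : ℝ) (p : Om) (h : pl p.1 ≠ 0) : gq κ σ p =
    ((starRingEnd ℂ (pl p.1) * hz p.2).re / ‖pl p.1‖ - κ) ^ 2 +
    ((starRingEnd ℂ (pl p.1) * hz p.2).im / ‖pl p.1‖) ^ 2 + (p.2 2 - σ) ^ 2 := by
  have h1 := hat_sq _ h
  rw [gq, conj_re, conj_re, conj_im, cnorm_sq (hz p.2)]
  linear_combination (-((hz p.2).re ^ 2 + (hz p.2).im ^ 2)) * h1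

lemma re_div_self (X : ℂ) : (starRingEnd ℂ X * X).re / ‖X‖ = ‖X‖ := by
  by_cases h : X = 0
  · simp [h]
  · have : ‖X‖ ≠ 0 := norm_ne_zero_iff.2 h
    rw [conj_re, div_eq_iff this, ← sq, ← sq, ← sq, cnorm_sq]

lemma hat_mono (X w : ℂ) (Δ : ℝ) (h : 0 ≤ Δ) :
    (starRingEnd ℂ w * X).re / ‖X‖ ≤ (starRingEnd ℂ w * (X + Δ * w)).re / ‖X + Δ * w‖ := by
  rcases h.eq_or_lt with h0 | h0
  · subst h0; simp
  · set Y := X + Δ * w with hY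
    have e1 : ∀ Z : ℂ, Δ * ((starRingEnd ℂ w * Z).re / ‖Z‖) =
        (starRingEnd ℂ Y * Z).re / ‖Z‖ - (starRingEnd ℂ X * Z).re / ‖Z‖ := by
      intro Z
      rw [conj_re, conj_re, conj_re, hY]
      simp only [Complex.add_re, Complex.add_im, Complex.mul_re, Complex.mul_im, Complex.ofReal_re,
        Complex.ofReal_im]
      ring
    refine le_of_mul_le_mul_left ?_ h0
    rw [e1, e1, re_div_self, re_div_self]
    have := re_div_le Y X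
    have := re_div_le X Y
    linarith

lemma gq_mono (κ σ Δ : ℝ) (p : Om) (hκ : 0 ≤ κ) (hΔ : 0 ≤ Δ)
    (h : ‖pl p.1‖ + Δ * ‖hz p.2‖ < 1 / 2) : gq κ σ (fl Δ p) ≤ gq κ σ p := by
  have h1 := lift p Δ (by rwa [abs_of_nonneg hΔ])
  have h2 := mul_le_mul_of_nonneg_left (hat_mono (pl p.1) (hz p.2) Δ hΔ) hκ
  unfold gq
  rw [h1, fl_snd]
  linarith

lemma box_meas (S : Fin 3 → Set ℝ) (hS : ∀ i, MeasurableSet (S i)) :
    MeasurableSet {X : E | ∀ i, X i ∈ S i} := by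
  have : {X : E | ∀ i, X i ∈ S i} = WithLp.ofLp ⁻¹' (univ.pi S) := by ext X; simp
  rw [this]
  exact (PiLp.volume_preserving_ofLp (Fin 3)).measurable (MeasurableSet.univ_pi hS)

lemma box_vol (S : Fin 3 → Set ℝ) (hS : ∀ i, MeasurableSet (S i)) :
    volume {X : E | ∀ i, X i ∈ S i} = volume (S 0) * volume (S 1) * volume (S 2) := by
  have : {X : E | ∀ i, X i ∈ S i} = WithLp.ofLp ⁻¹' (univ.pi S) := by ext X; simp
  rw [this, (PiLp.volume_preserving_ofLp (Fin 3)).measure_preimage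
    (MeasurableSet.univ_pi hS).nullMeasurableSet, volume_pi_pi, Fin.prod_univ_three]

lemma rep_vol (ht : TorusStmt) (S : Fin 3 → Set ℝ) (hS : ∀ i, MeasurableSet (S i)) :
    volume {x : T3 | ∀ i, rep x i ∈ S i} = volume (S 0 ∩ Ico (-1 / 2 : ℝ) (1 / 2)) *
      volume (S 1 ∩ Ico (-1 / 2 : ℝ) (1 / 2)) * volume (S 2 ∩ Ico (-1 / 2 : ℝ) (1 / 2)) := by
  have h := ht.2.2.2.2.1.measure_preimage (box_meas S hS).nullMeasurableSet
  have e : {x : T3 | ∀ i, rep x i ∈ S i} = rep ⁻¹' {X : E | ∀ i, X i ∈ S i} := rfl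
  rw [e, h, Measure.restrict_apply (box_meas S hS),
    ← box_vol (fun i => S i ∩ Ico (-1 / 2 : ℝ) (1 / 2)) fun i => (hS i).inter measurableSet_Ico]
  congr 1
  ext X
  simp only [mem_inter_iff, mem_ofPred_eq, forall_and]

lemma vol_le (ht : TorusStmt) (ρ : ℝ) (hρ : 0 ≤ ρ) :
    volume {x : T3 | ‖pl x‖ ≤ ρ} ≤ ENNReal.ofReal (4 * ρ ^ 2) := by
  have h := rep_vol ht ![Icc (-ρ) ρ, Icc (-ρ) ρ, univ] (fun i => by
    fin_cases i <;> simp)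
  have hs : {x : T3 | ‖pl x‖ ≤ ρ} ⊆
      {x : T3 | ∀ i, rep x i ∈ (![Icc (-ρ) ρ, Icc (-ρ) ρ, univ] : Fin 3 → Set ℝ) i} := by
    intro x hx i
    have h0 : |rep x 0| ≤ ρ := (Complex.abs_re_le_norm (pl x)).trans hx
    have h1 : |rep x 1| ≤ ρ := (Complex.abs_im_le_norm (pl x)).trans hx
    fin_cases i
    · exact abs_le.1 h0
    · exact abs_le.1 h1
    · trivial
  refine (measure_mono hs).trans ?_
  rw [h]
  have e1 : volume (Icc (-ρ) ρ ∩ Ico (-1 / 2 : ℝ) (1 / 2)) ≤ ENNReal.ofReal (2 * ρ) := by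
    refine (measure_mono inter_subset_left).trans ?_
    rw [Real.volume_Icc]; exact le_of_eq (by congr 1; ring)
  have e2 : volume (univ ∩ Ico (-1 / 2 : ℝ) (1 / 2)) = 1 := by
    rw [univ_inter, Real.volume_Ico]; norm_num
  simp only [Matrix.cons_val_zero, Matrix.cons_val_one, Matrix.cons_val]
  rw [e2, mul_one]
  refine (mul_le_mul' e1 e1).trans ?_
  rw [← ENNReal.ofReal_mul (by positivity)]
  exact le_of_eq (by congr 1; ring)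

lemma vol_ge (ht : TorusStmt) (ρ : ℝ) (hρ : 0 < ρ) (hρ1 : ρ ≤ 1 / 8) :
    ENNReal.ofReal (ρ ^ 2 / 4) ≤ volume {x : T3 | ρ ≤ ‖pl x‖ ∧ ‖pl x‖ ≤ 2 * ρ} := by
  have h := rep_vol ht ![Icc ρ (3 / 2 * ρ), Icc 0 (ρ / 2), univ] (fun i => by
    fin_cases i <;> simp)
  have hs : {x : T3 | ∀ i, rep x i ∈
      (![Icc ρ (3 / 2 * ρ), Icc 0 (ρ / 2), univ] : Fin 3 → Set ℝ) i} ⊆
      {x : T3 | ρ ≤ ‖pl x‖ ∧ ‖pl x‖ ≤ 2 * ρ} := by
    intro x hx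
    have h0 : rep x 0 ∈ Icc ρ (3 / 2 * ρ) := hx 0
    have h1 : rep x 1 ∈ Icc 0 (ρ / 2) := hx 1
    have e0 : (pl x).re = rep x 0 := rfl
    have e1 : (pl x).im = rep x 1 := rfl
    refine ⟨h0.1.trans (Complex.re_le_norm (pl x)), ?_⟩
    have := Complex.norm_le_abs_re_add_abs_im (pl x)
    rw [e0, e1, abs_of_nonneg (by linarith [h0.1]), abs_of_nonneg h1.1] at this
    linarith [h0.2, h1.2]
  refine le_trans ?_ (measure_mono hs)
  rw [h]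
  have e0 : volume (Icc ρ (3 / 2 * ρ) ∩ Ico (-1 / 2 : ℝ) (1 / 2)) = ENNReal.ofReal (ρ / 2) := by
    rw [inter_eq_left.2 (Icc_subset_Ico_iff (by linarith) |>.2 ⟨by linarith, by linarith⟩),
      Real.volume_Icc]
    congr 1; ring
  have e1 : volume (Icc 0 (ρ / 2) ∩ Ico (-1 / 2 : ℝ) (1 / 2)) = ENNReal.ofReal (ρ / 2) := by
    rw [inter_eq_left.2 (Icc_subset_Ico_iff (by linarith) |>.2 ⟨by linarith, by linarith⟩),
      Real.volume_Icc]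
    congr 1; ring
  have e2 : volume (univ ∩ Ico (-1 / 2 : ℝ) (1 / 2)) = 1 := by
    rw [univ_inter, Real.volume_Ico]; norm_num
  simp only [Matrix.cons_val_zero, Matrix.cons_val_one, Matrix.cons_val]
  rw [e0, e1, e2, mul_one, ← ENNReal.ofReal_mul (by positivity)]
  exact le_of_eq (by congr 1; ring)

end GeoAAux

theorem geoA (hb : Base) : GeoAStmt where
  hz_add := GeoAAux.hz_add
  norm_sq := GeoAAux.norm_sq
  lift := GeoAAux.lift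
  lip := GeoAAux.lip
  pl_le := GeoAAux.pl_le
  gq_uu := GeoAAux.gq_uu
  uu_le := GeoAAux.uu_le
  gq_ge := GeoAAux.gq_ge
  gq_polar := GeoAAux.gq_polar
  gq_mono := GeoAAux.gq_mono
  vol_le := GeoAAux.vol_le hb.torus
  vol_ge := GeoAAux.vol_ge hb.torus

end

end Vale.Agent.P140
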