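import Vale.Agent.P140.StmC

/-!
Rings, tubes, cold sets, weights.
-/

namespace Vale.Agent.P140

open MeasureTheory Set Filter Topology
open scoped ENNReal

noncomputable section

namespace GeoBAux

variable {g : Geo}

lemma R_le (h : g.Ok) : g.R ≤ 1 / 10000 := by
  have h1 := h.R1; have h2 := h.κ0; have h3 := h.κ1
  nlinarith

lemma r_pos (h : g.Ok) (j : ℕ) : 0 < g.r j := by
  unfold Geo.r; have := h.R0; positivity

lemma r_anti (h : g.Ok) {i j : ℕ} (hij : i ≤ j) : g.r j ≤ g.r i := by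
  unfold Geo.r
  exact mul_le_mul_of_nonneg_left (pow_le_pow_of_le_one (by norm_num) (by norm_num) hij) h.R0.le

lemma r_le (h : g.Ok) (j : ℕ) : g.r j ≤ g.R := by
  have := r_anti h (Nat.zero_le j)
  simpa [Geo.r] using this

lemma r_succ (g : Geo) (j : ℕ) : g.r (j + 1) = g.r j - g.w j := by
  unfold Geo.w Geo.r; ring

lemma r_small (h : g.Ok) (j : ℕ) : g.r j ≤ 1 / 10000 := (r_le h j).trans (R_le h)

lemma th_pos (h : g.Ok) (j : ℕ) : 0 < g.th j := by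
  unfold Geo.th; exact pow_pos (r_pos h j) _

lemma gg_pos (h : g.Ok) (j : ℕ) : 0 < g.gg j := by
  unfold Geo.gg; exact pow_pos (r_pos h j) _

lemma w_pos (h : g.Ok) (j : ℕ) : 0 < g.w j := by
  unfold Geo.w; have := r_pos h j; positivity

lemma a_pos (h : g.Ok) (j : ℕ) : 0 < g.a j := by
  unfold Geo.a
  have := r_pos h j; have := th_pos h j; have := h.c1
  positivity

lemma th_le_gg (h : g.Ok) (j : ℕ) : g.th j ≤ g.gg j := by
  unfold Geo.th Geo.gg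
  exact pow_le_pow_of_le_one (r_pos h j).le ((r_small h j).trans (by norm_num)) (by norm_num)

lemma gg_le_w (h : g.Ok) (j : ℕ) : g.gg j ≤ g.w j / 10 := by
  unfold Geo.gg Geo.w
  have h0 := r_pos h j
  have h1 := r_small h j
  have h2 : g.r j ^ 6 ≤ g.r j ^ 3 :=
    pow_le_pow_of_le_one h0.le (h1.trans (by norm_num)) (by norm_num)
  have h3 : g.r j ^ 2 ≤ 1 / 40000 := by nlinarith
  have h4 : g.r j ^ 3 = g.r j * g.r j ^ 2 := by ring
  nlinarith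

lemma gg_le_R (h : g.Ok) (j : ℕ) : g.gg j ≤ g.R ^ 6 := by
  unfold Geo.gg
  exact pow_le_pow_left₀ (r_pos h j).le (r_le h j) _

lemma gg_le_κ (h : g.Ok) (j : ℕ) : g.gg j ≤ g.κ := by
  have h1 := gg_le_w h j
  have h2 : g.w j = g.r j / 4000 := rfl
  have h3 := r_le h j
  have h4 := h.R1; have h5 := h.κ0; have h6 := h.κ1
  have h7 := r_pos h j
  nlinarith

lemma th_anti (h : g.Ok) {i j : ℕ} (hij : i ≤ j) : g.th j ≤ g.th i := by
  unfold Geo.th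
  exact pow_le_pow_left₀ (r_pos h j).le (r_anti h hij) _

lemma a_mono (h : g.Ok) {i j : ℕ} (hij : i ≤ j) : g.a i ≤ g.a j := by
  unfold Geo.a
  have h1 := r_pos h j; have h2 := th_pos h j; have h3 := h.c1
  refine div_le_div_of_nonneg_left (by linarith) (by positivity) ?_
  exact mul_le_mul (pow_le_pow_left₀ h2.le (th_anti h hij) _) (r_anti h hij) h1.le
    (pow_nonneg (th_pos h i).le _)

lemma te_eq (g : Geo) (t : ℝ) : g.te t = t + g.te 0 := by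
  unfold Geo.te; ring

lemma te0_pos (h : g.Ok) : 0 < g.te 0 := by
  unfold Geo.te
  have := r_pos h (g.K + 1); have := h.κ0
  positivity

lemma te0_le (h : g.Ok) : g.te 0 ≤ g.κ := by
  unfold Geo.te
  have h1 := r_le h (g.K + 1); have h2 := h.κ0; have h3 := h.R1
  rw [zero_add, div_le_iff₀ h2]; nlinarith

lemma κ_te (h : g.Ok) (t : ℝ) : g.κ * g.te t = g.κ * t + g.r (g.K + 1) := by
  unfold Geo.te
  have h2 := h.κ0
  field_simp

lemma tube (h : g.Ok) (j : ℕ) {t : ℝ} (ht : t ∈ Icc (0 : ℝ) 1) {x : T3} (hx : x ∈ Tube g j t) :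
    g.r (j + 1) < g.lab t x ∧ g.lab t x < g.r j := by
  have h1 : |g.lab t x - g.mid j| ≤ 7 / 20 * g.w j + g.gg j * t := hx
  have h2 := gg_le_w h j
  have h3 := gg_pos h j
  have h4 := w_pos h j
  have h5 : g.gg j * t ≤ g.gg j := by nlinarith [ht.2]
  have h6 : g.mid j = g.r j - g.w j / 2 := rfl
  rw [r_succ]
  rw [abs_le] at h1
  constructor <;> linarith [h1.1, h1.2]

lemma tube_disj (h : g.Ok) (i j : ℕ) {t : ℝ} (ht : t ∈ Icc (0 : ℝ) 1) {x : T3}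
    (hi : x ∈ Tube g i t) (hj : x ∈ Tube g j t) : i = j := by
  have h1 := tube h i ht hi
  have h2 := tube h j ht hj
  rcases lt_trichotomy i j with hlt | heq | hlt
  · have := r_anti h (show i + 1 ≤ j from hlt); linarith [h1.1, h2.2]
  · exact heq
  · have := r_anti h (show j + 1 ≤ i from hlt); linarith [h1.2, h2.1]

lemma tube_norm (h : g.Ok) (j : ℕ) {t : ℝ} (ht : t ∈ Icc (0 : ℝ) 1) {x : T3}
    (hx : x ∈ Tube g j t) : 0 < ‖pl x‖ ∧ ‖pl x‖ ≤ g.r j + g.κ * t := by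
  have h1 := tube h j ht hx
  have h2 : g.lab t x = ‖pl x‖ - g.κ * t := rfl
  have h3 := r_pos h (j + 1)
  have h4 : 0 ≤ g.κ * t := mul_nonneg h.κ0.le ht.1
  constructor <;> linarith [h1.1, h1.2]

lemma abs_le_of_sq {a b : ℝ} (hb : 0 ≤ b) (h : a ^ 2 ≤ b ^ 2) : |a| ≤ b :=
  abs_le_of_sq_le_sq' h hb |> abs_le.2

lemma gq_nonneg (hG : GeoAStmt) (κ σ : ℝ) (p : Om) : 0 ≤ gq κ σ p :=
  (sq_nonneg _).trans (hG.gq_uu κ σ p).1

lemma hz_le (hG : GeoAStmt) {κ σ e : ℝ} (hκ : 0 ≤ κ) (he : 0 ≤ e) {p : Om}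
    (hp : gq κ σ p ≤ e ^ 2) : ‖hz p.2‖ ≤ κ + e := by
  have h1 := hG.gq_ge κ σ p hκ
  have h2 : (‖hz p.2‖ - κ) ^ 2 ≤ e ^ 2 := by nlinarith [sq_nonneg (p.2 2 - σ)]
  have := abs_le.1 (abs_le_of_sq he h2)
  linarith [this.2]

lemma abs_sg (j : ℕ) : |sg j| = 1 := by
  unfold sg; rw [abs_pow]; simp

lemma re_le_norm (X Y : ℂ) : (starRingEnd ℂ X * Y).re ≤ ‖X‖ * ‖Y‖ := by
  have := Complex.re_le_norm (starRingEnd ℂ X * Y)
  rwa [norm_mul, Complex.norm_conj] at this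

lemma cold_fwd (hG : GeoAStmt) (h : g.Ok) (j : ℕ) {s t : ℝ} (hs : 0 ≤ s) (hst : s ≤ t)
    (ht : t ≤ 1) {p : Om} (hp : p ∈ Cold g j s) :
    fl (t - s) p ∈ Cold g j t ∧ gq g.κ (sg j) (fl (t - s) p) ≤ gq g.κ (sg j) p ∧
      pl (fl (t - s) p).1 = pl p.1 + ((t - s : ℝ) : ℂ) * hz p.2 := by
  obtain ⟨hT, hq⟩ := hp
  have hsI : s ∈ Icc (0 : ℝ) 1 := ⟨hs, hst.trans ht⟩
  obtain ⟨hX0, hX1⟩ := tube_norm h j hsI hT
  have hgg := gg_pos h j
  have hggκ := gg_le_κ h j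
  have hκ0 := h.κ0; have hκ1 := h.κ1
  have hw := hz_le hG hκ0.le hgg.le hq
  have hΔ : 0 ≤ t - s := by linarith
  have hr := r_small h j
  have hnw : ‖pl p.1‖ + (t - s) * ‖hz p.2‖ < 1 / 2 := by
    have e1 : (t - s) * ‖hz p.2‖ ≤ 1 * (g.κ + g.gg j) :=
      mul_le_mul (by linarith) hw (norm_nonneg _) (by norm_num)
    have e2 : g.κ * s ≤ g.κ * 1 := mul_le_mul_of_nonneg_left hsI.2 hκ0.le
    linarith
  have hmono := hG.gq_mono g.κ (sg j) (t - s) p hκ0.le hΔ hnw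
  have hlift := hG.lift p (t - s) (by rwa [abs_of_nonneg hΔ])
  refine ⟨⟨?_, hmono.trans hq⟩, hmono, hlift⟩
  have hT' : |g.lab s p.1 - g.mid j| ≤ 7 / 20 * g.w j + g.gg j * s := hT
  show |g.lab t (fl (t - s) p).1 - g.mid j| ≤ 7 / 20 * g.w j + g.gg j * t
  unfold Geo.lab at hT' ⊢
  have hup : ‖pl (fl (t - s) p).1‖ ≤ ‖pl p.1‖ + (t - s) * (g.κ + g.gg j) := by
    have := hG.lip p (t - s)
    rw [abs_of_nonneg hΔ] at this
    have e1 : (t - s) * ‖hz p.2‖ ≤ (t - s) * (g.κ + g.gg j) := mul_le_mul_of_nonneg_left hw hΔ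
    linarith
  have hne : pl p.1 ≠ 0 := norm_pos_iff.1 hX0
  have hpol := hG.gq_polar g.κ (sg j) p hne
  have hre : g.κ - g.gg j ≤ (starRingEnd ℂ (pl p.1) * hz p.2).re / ‖pl p.1‖ := by
    have h2 : ((starRingEnd ℂ (pl p.1) * hz p.2).re / ‖pl p.1‖ - g.κ) ^ 2 ≤ g.gg j ^ 2 := by
      nlinarith [sq_nonneg ((starRingEnd ℂ (pl p.1) * hz p.2).im / ‖pl p.1‖),
        sq_nonneg (p.2 2 - sg j)]
    have := abs_le.1 (abs_le_of_sq hgg.le h2)
    linarith [this.1]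
  have hlow : ‖pl p.1‖ + (t - s) * (g.κ - g.gg j) ≤ ‖pl (fl (t - s) p).1‖ := by
    have e1 := re_le_norm (pl p.1) (pl (fl (t - s) p).1)
    have e2 : (starRingEnd ℂ (pl p.1) * pl (fl (t - s) p).1).re =
        ‖pl p.1‖ ^ 2 + (t - s) * (starRingEnd ℂ (pl p.1) * hz p.2).re := by
      rw [hlift, Complex.sq_norm, Complex.normSq_apply]
      simp only [Complex.mul_re, Complex.add_re, Complex.add_im, Complex.mul_im, Complex.conj_re,
        Complex.conj_im, Complex.ofReal_re, Complex.ofReal_im]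
      ring
    rw [le_div_iff₀ hX0] at hre
    have e3 : (t - s) * ((g.κ - g.gg j) * ‖pl p.1‖) ≤
        (t - s) * (starRingEnd ℂ (pl p.1) * hz p.2).re := mul_le_mul_of_nonneg_left hre hΔ
    have e4 : ‖pl p.1‖ * (‖pl p.1‖ + (t - s) * (g.κ - g.gg j)) ≤
        ‖pl p.1‖ * ‖pl (fl (t - s) p).1‖ := by nlinarith
    exact le_of_mul_le_mul_left e4 hX0
  rw [abs_le] at hT' ⊢
  constructor <;> nlinarith [hT'.1, hT'.2]

lemma vel_le (hG : GeoAStmt) {κ σ e : ℝ} (he : 0 ≤ e) {p : Om}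
    (hp : gq κ σ p ≤ e ^ 2) : ‖p.2 - uu κ σ p.1‖ ≤ e := by
  have h1 := (hG.gq_uu κ σ p).1
  have := abs_le_of_sq he (h1.trans hp)
  rwa [abs_norm] at this

lemma cold_v (hG : GeoAStmt) (h : g.Ok) (j : ℕ) {t : ℝ} {p : Om} (hp : p ∈ Cold g j t) :
    ‖p.2 - uu g.κ (sg j) p.1‖ ≤ g.gg j ∧ ‖p.2‖ ≤ 2 ∧ ‖hz p.2‖ ≤ 2 * g.κ := by
  have hgg := gg_pos h j
  have hggκ := gg_le_κ h j
  have hκ0 := h.κ0; have hκ1 := h.κ1
  have h1 := vel_le hG hgg.le hp.2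
  have h2 := hz_le hG hκ0.le hgg.le hp.2
  have h3 := (hG.uu_le g.κ (sg j) p.1 hκ0.le).2.2
  rw [abs_sg] at h3
  refine ⟨h1, ?_, by linarith⟩
  have h4 : ‖p.2‖ ≤ ‖p.2 - uu g.κ (sg j) p.1‖ + ‖uu g.κ (sg j) p.1‖ := by
    have := norm_add_le (p.2 - uu g.κ (sg j) p.1) (uu g.κ (sg j) p.1)
    rwa [sub_add_cancel] at this
  linarith

lemma b0_cold (h : g.Ok) (j : ℕ) {p : Om} (hp : p ∈ B0s g j) : p ∈ Cold g j 0 := by
  obtain ⟨h1, h2⟩ := hp
  refine ⟨?_, h2.trans (pow_le_pow_left₀ (th_pos h j).le (th_le_gg h j) 2)⟩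
  show |g.lab 0 p.1 - g.mid j| ≤ 7 / 20 * g.w j + g.gg j * 0
  unfold Geo.lab
  have := w_pos h j
  rw [mul_zero, sub_zero, mul_zero]; linarith

lemma supp (hG : GeoAStmt) (h : g.Ok) (j : ℕ) {t : ℝ} (ht : t ∈ Icc (0 : ℝ) 1) {p : Om}
    (hp : fl (-t) p ∈ B0s g j) :
    p ∈ Cold g j t ∧ gq g.κ (sg j) p ≤ g.th j ^ 2 ∧ ‖p.2 - uu g.κ (sg j) p.1‖ ≤ g.th j ∧
      |(starRingEnd ℂ (pl p.1) * hz p.2).im| ≤ g.th j * g.r j := by
  have hc := b0_cold h j hp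
  obtain ⟨h1, h2, h3⟩ := cold_fwd hG h j le_rfl ht.1 ht.2 hc
  have he : fl (t - 0) (fl (-t) p) = p := by rw [fl_fl]; simp [fl_zero]
  rw [he] at h1 h2 h3
  have hth := th_pos h j
  have h4 : gq g.κ (sg j) p ≤ g.th j ^ 2 := h2.trans hp.2
  refine ⟨h1, h4, vel_le hG hth.le h4, ?_⟩
  obtain ⟨hX0, hX1⟩ := tube_norm h j ⟨le_rfl, zero_le_one⟩ hc.1
  have hpol := hG.gq_polar g.κ (sg j) (fl (-t) p) (norm_pos_iff.1 hX0)
  have h5 : ((starRingEnd ℂ (pl (fl (-t) p).1) * hz (fl (-t) p).2).im / ‖pl (fl (-t) p).1‖) ^ 2 ≤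
      g.th j ^ 2 := by
    have := hp.2
    nlinarith [sq_nonneg ((starRingEnd ℂ (pl (fl (-t) p).1) * hz (fl (-t) p).2).re /
      ‖pl (fl (-t) p).1‖ - g.κ), sq_nonneg ((fl (-t) p).2 2 - sg j)]
  have h6 := abs_le_of_sq hth.le h5
  rw [abs_div, abs_norm, div_le_iff₀ hX0] at h6
  have h7 : (starRingEnd ℂ (pl p.1) * hz p.2).im =
      (starRingEnd ℂ (pl (fl (-t) p).1) * hz (fl (-t) p).2).im := by
    rw [h3, fl_snd]
    simp only [Complex.mul_re, Complex.add_re, Complex.add_im, Complex.mul_im, Complex.conj_re,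
      Complex.conj_im, Complex.ofReal_re, Complex.ofReal_im]
    ring
  rw [h7]
  refine h6.trans (mul_le_mul_of_nonneg_left ?_ hth.le)
  simpa using hX1

lemma bb_tube (hG : GeoAStmt) (h : g.Ok) (j : ℕ) {t : ℝ} (ht : t ∈ Icc (0 : ℝ) 1) {p : Om}
    (hp : p.1 ∈ Tube g j t) :
    BB g t p = if j ≤ g.K then (B0s g j).indicator (fun _ => ENNReal.ofReal (g.a j)) (fl (-t) p)
      else 0 := by
  have key : ∀ i, i ≠ j → (B0s g i).indicator (fun _ => g.a i) (fl (-t) p) = 0 := by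
    intro i hi
    refine indicator_of_notMem (fun hm => hi ?_) _
    exact tube_disj h i j ht (supp hG h i ht hm).1.1 hp
  unfold BB B0
  split_ifs with hj
  · rw [Finset.sum_eq_single j (fun i _ hi => key i hi)
      (fun hn => absurd (Finset.mem_range.2 (Nat.lt_succ_of_le hj)) hn)]
    by_cases hm : fl (-t) p ∈ B0s g j
    · rw [indicator_of_mem hm, indicator_of_mem hm]
    · rw [indicator_of_notMem hm, indicator_of_notMem hm, ENNReal.ofReal_zero]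
  · rw [Finset.sum_eq_zero, ENNReal.ofReal_zero]
    intro i hi
    refine key i ?_
    rintro rfl
    exact hj (Nat.lt_succ_iff.1 (Finset.mem_range.1 hi))

lemma ee_tube (h : g.Ok) (j : ℕ) {t : ℝ} (ht : t ∈ Icc (0 : ℝ) 1) {p : Om}
    (hp : p.1 ∈ Tube g j t) :
    EE g t p = if j ≤ g.K then (Cold g j t).indicator (fun p => ENNReal.ofReal
      (3 * t * g.r j ^ 4 * g.a j * Real.exp (-(gq g.κ (sg j) p) / g.th j ^ 2))) p else 0 := by
  have key : ∀ i, i ≠ j → (Cold g i t).indicator (fun p => ENNReal.ofReal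
      (3 * t * g.r i ^ 4 * g.a i * Real.exp (-(gq g.κ (sg i) p) / g.th i ^ 2))) p = 0 := by
    intro i hi
    refine indicator_of_notMem (fun hm => hi ?_) _
    exact tube_disj h i j ht hm.1 hp
  unfold EE
  split_ifs with hj
  · rw [Finset.sum_eq_single j (fun i _ hi => key i hi)
      (fun hn => absurd (Finset.mem_range.2 (Nat.lt_succ_of_le hj)) hn)]
  · rw [Finset.sum_eq_zero]
    intro i hi
    refine key i ?_
    rintro rfl
    exact hj (Nat.lt_succ_iff.1 (Finset.mem_range.1 hi))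

lemma cc_supp (hG : GeoAStmt) (h : g.Ok) {t : ℝ} (ht : t ∈ Icc (0 : ℝ) 1) {p : Om}
    (hp : CC g t p ≠ 0) : ∃ j ≤ g.K, p ∈ Cold g j t := by
  by_contra hn
  push Not at hn
  apply hp
  unfold CC
  have h1 : BB g t p = 0 := by
    unfold BB B0
    rw [Finset.sum_eq_zero, ENNReal.ofReal_zero]
    intro i hi
    refine indicator_of_notMem (fun hm => ?_) _
    exact hn i (Nat.lt_succ_iff.1 (Finset.mem_range.1 hi)) (supp hG h i ht hm).1
  have h2 : EE g t p = 0 := by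
    unfold EE
    rw [Finset.sum_eq_zero]
    intro i hi
    exact indicator_of_notMem (hn i (Nat.lt_succ_iff.1 (Finset.mem_range.1 hi))) _
  rw [h1, h2, add_zero]

lemma ee_pos (t : ℝ) (v : E) : 0 < ee t v := Real.exp_pos _

lemma ee_mono {s t : ℝ} (hst : s ≤ t) (v : E) : ee s v ≤ ee t v := by
  unfold ee
  apply Real.exp_le_exp.2
  nlinarith [sq_nonneg ‖v‖]

lemma sw_nonneg (g : Geo) (t : ℝ) (p : Om) : 0 ≤ sw g t p := by
  unfold sw; split_ifs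
  · positivity
  · exact le_rfl

lemma inv_sqrt_le {a b : ℝ} (ha : 0 < a) (hab : a ≤ b) : (√b)⁻¹ ≤ (√a)⁻¹ :=
  inv_anti₀ (Real.sqrt_pos.2 ha) (Real.sqrt_le_sqrt hab)

lemma ps_mono (hG : GeoAStmt) (h : g.Ok) {s t : ℝ} (hst : s ≤ t) (ht : t ≤ 1 / 32) (p : Om) :
    ps g s (fl (s - t) p) ≤ ps g t p := by
  unfold ps
  rw [fl_snd]
  refine mul_le_mul (ee_mono hst _) ?_ (by linarith [sw_nonneg g s (fl (s - t) p)])
    (ee_pos _ _).le
  suffices hs : sw g s (fl (s - t) p) ≤ sw g t p by linarith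
  set p0 := fl (s - t) p with hp0
  have he : fl (t - s) p0 = p := by rw [hp0, fl_fl]; simp [fl_zero]
  have hv : p0.2 = p.2 := rfl
  by_cases hc : ‖p0.2‖ ≤ 4 ∧ ‖pl p0.1‖ ≤ 1 / 8 + 4 * s
  · have hΔ : 0 ≤ t - s := by linarith
    have hw : ‖hz p0.2‖ ≤ 4 := (hG.norm_sq p0.2).2.1.trans hc.1
    have e1 : (t - s) * ‖hz p0.2‖ ≤ (t - s) * 4 := mul_le_mul_of_nonneg_left hw hΔ
    have hl := hG.lip p0 (t - s)
    rw [he, abs_of_nonneg hΔ] at hl
    have hc' : ‖p.2‖ ≤ 4 ∧ ‖pl p.1‖ ≤ 1 / 8 + 4 * t := ⟨hc.1, by linarith [hc.2]⟩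
    have hm : ∀ σ, gq g.κ σ p ≤ gq g.κ σ p0 := by
      intro σ
      have := hG.gq_mono g.κ σ (t - s) p0 h.κ0.le hΔ (by linarith [hc.2])
      rwa [he] at this
    have hth : 0 < g.th g.K ^ 2 := pow_pos (th_pos h _) 2
    unfold sw
    rw [if_pos hc, if_pos hc']
    exact add_le_add
      (inv_sqrt_le (by linarith [gq_nonneg hG g.κ 1 p]) (by linarith [hm 1]))
      (inv_sqrt_le (by linarith [gq_nonneg hG g.κ (-1) p]) (by linarith [hm (-1)]))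
  · have : sw g s p0 = 0 := by unfold sw; rw [if_neg hc]
    rw [this]; exact sw_nonneg _ _ _

lemma L_nonneg {l : ℝ} (hl : 0 ≤ l) (x : ℝ) : 0 ≤ l / max 1 (2 * l * x) :=
  div_nonneg hl (zero_le_one.trans (le_max_left _ _))

lemma L_le {l : ℝ} (hl : 0 ≤ l) (x : ℝ) : l / max 1 (2 * l * x) ≤ l :=
  div_le_self hl (le_max_left _ _)

lemma L_mul {l : ℝ} (x : ℝ) : l / max 1 (2 * l * x) * x ≤ 1 / 2 := by
  have h1 : 0 < max 1 (2 * l * x) := zero_lt_one.trans_le (le_max_left _ _)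
  rw [div_mul_eq_mul_div, div_le_iff₀ h1]
  have := le_max_right 1 (2 * l * x)
  linarith

lemma tau_mono (hG : GeoAStmt) (g : Geo) {l s t : ℝ} (hl : 0 ≤ l) (hst : s ≤ t) (p : Om) :
    tau g l s (fl (s - t) p) + (t - s) / 2 ≤ tau g l t p := by
  unfold tau
  rw [fl_snd, te_eq g s, te_eq g t]
  have h1 := hG.lip p (s - t)
  rw [abs_sub_comm, abs_of_nonneg (by linarith : 0 ≤ t - s)] at h1
  have h2 := L_nonneg hl ‖p.2‖
  have h3 := L_mul (l := l) ‖p.2‖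
  have h4 := (hG.norm_sq p.2).2.1
  set L := l / max 1 (2 * l * ‖p.2‖)
  have h5 : L * ‖hz p.2‖ ≤ 1 / 2 := (mul_le_mul_of_nonneg_left h4 h2).trans h3
  have h6 : ‖pl (fl (s - t) p).1‖ * L ≤ (‖pl p.1‖ + (t - s) * ‖hz p.2‖) * L :=
    mul_le_mul_of_nonneg_right h1 h2
  have h7 : (t - s) * (L * ‖hz p.2‖) ≤ (t - s) * (1 / 2) :=
    mul_le_mul_of_nonneg_left h5 (by linarith)
  nlinarith

lemma inT (h : g.Ok) {t : ℝ} (ht : t ∈ Icc (0 : ℝ) 1) {x : T3} (hx : InT g t x) :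
    g.κ * g.te t ≤ ‖pl x‖ ∧ ‖pl x‖ ≤ g.R + g.κ * t ∧ pl x ≠ 0 ∧ g.r (g.K + 1) ≤ g.lab t x := by
  obtain ⟨j, hj, hx⟩ := hx
  have h1 := tube h j ht hx
  have h2 := tube_norm h j ht hx
  have h3 := r_anti h (show j + 1 ≤ g.K + 1 by omega)
  have h4 := r_le h j
  have h5 : g.lab t x = ‖pl x‖ - g.κ * t := rfl
  refine ⟨?_, by linarith [h2.2], norm_pos_iff.1 h2.1, by linarith [h1.1]⟩
  rw [κ_te h]; linarith [h1.1]

lemma tau_bd (hG : GeoAStmt) (h : g.Ok) {l : ℝ} (hl : 0 ≤ l) (hl' : l ≤ 1 / 8) {t : ℝ}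
    (ht : t ∈ Icc (0 : ℝ) (1 / 32)) (p : Om) :
    g.te t ≤ tau g l t p ∧ tau g l t p ≤ 1 ∧ tau g 0 t p = g.te t ∧
      (InT g t p.1 → g.κ * tau g l t p ≤ 2 * ‖pl p.1‖) := by
  have h2 := L_nonneg hl ‖p.2‖
  have h3 := L_le hl ‖p.2‖
  have h4 := hG.pl_le p.1
  have h5 := norm_nonneg (pl p.1)
  have h6 := te0_le h
  have h7 := h.κ0; have h8 := h.κ1
  have h9 := te_eq g t
  refine ⟨?_, ?_, ?_, fun hx => ?_⟩
  · unfold tau; nlinarith
  · unfold tau; nlinarith [ht.2]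
  · unfold tau; simp
  · have := (inT h ⟨ht.1, ht.2.trans (by norm_num)⟩ hx).1
    unfold tau
    set L := l / max 1 (2 * l * ‖p.2‖)
    have e1 : g.κ * L ≤ 1 := by nlinarith
    have e2 : ‖pl p.1‖ * (g.κ * L) ≤ ‖pl p.1‖ * 1 := mul_le_mul_of_nonneg_left e1 h5
    nlinarith

lemma gauss_le_ee {t : ℝ} (ht : 0 ≤ t) (v : E) : Real.exp (-‖v‖ ^ 2 / 2) ≤ ee t v := by
  unfold ee
  apply Real.exp_le_exp.2
  nlinarith [sq_nonneg ‖v‖]

lemma Mx_le (v : E) : Mx v ≤ Real.exp (-‖v‖ ^ 2 / 2) := by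
  unfold Mx
  have h1 : (2 * Real.pi) ^ (-(3 / 2 : ℝ)) ≤ 1 :=
    Real.rpow_le_one_of_one_le_of_nonpos (by linarith [Real.pi_gt_three]) (by norm_num)
  have h2 := Real.exp_pos (-‖v‖ ^ 2 / 2)
  nlinarith

lemma ee_le {t : ℝ} (ht : t ≤ 1 / 32) (v : E) : ee t v ≤ 3 * Real.exp (-‖v‖) := by
  have h1 : ee t v ≤ Real.exp (1 + -‖v‖) := by
    unfold ee
    apply Real.exp_le_exp.2
    nlinarith [sq_nonneg ‖v‖, sq_nonneg (‖v‖ - 2)]
  rw [Real.exp_add] at h1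
  have h2 : Real.exp 1 ≤ 3 := by linarith [Real.exp_one_lt_d9]
  exact h1.trans (mul_le_mul_of_nonneg_right h2 (Real.exp_pos _).le)

lemma ee_le_ps (g : Geo) (t : ℝ) (p : Om) : ee t p.2 ≤ ps g t p := by
  unfold ps
  have := sw_nonneg g t p
  have := ee_pos t p.2
  nlinarith

lemma sw_le (hG : GeoAStmt) (h : g.Ok) (t : ℝ) (p : Om) : sw g t p ≤ 2 / g.th g.K := by
  have hth := th_pos h g.K
  have key : ∀ σ, (√(gq g.κ σ p + g.th g.K ^ 2))⁻¹ ≤ (g.th g.K)⁻¹ := by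
    intro σ
    have := inv_sqrt_le (pow_pos hth 2)
      (show g.th g.K ^ 2 ≤ gq g.κ σ p + g.th g.K ^ 2 by linarith [gq_nonneg hG g.κ σ p])
    rwa [Real.sqrt_sq hth.le] at this
  unfold sw; split_ifs
  · have := key 1; have := key (-1)
    rw [div_eq_mul_inv]; linarith
  · positivity

lemma cc_le (hG : GeoAStmt) (h : g.Ok) {t : ℝ} (ht : t ∈ Icc (0 : ℝ) (1 / 32)) (p : Om) :
    CC g t p ≤ ENNReal.ofReal (2 * g.a g.K * Real.exp 2 * ee t p.2) := by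
  by_cases h0 : CC g t p = 0
  · rw [h0]; exact zero_le
  have ht1 : t ∈ Icc (0 : ℝ) 1 := ⟨ht.1, ht.2.trans (by norm_num)⟩
  obtain ⟨j, hj, hp⟩ := cc_supp hG h ht1 h0
  have haj := a_pos h j
  have haK := a_mono h hj
  have h1 : BB g t p ≤ ENNReal.ofReal (g.a g.K) := by
    rw [bb_tube hG h j ht1 hp.1, if_pos hj]
    exact (indicator_le_self' (fun _ _ => zero_le) _).trans (ENNReal.ofReal_le_ofReal haK)
  have h2 : EE g t p ≤ ENNReal.ofReal (g.a g.K) := by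
    rw [ee_tube h j ht1 hp.1, if_pos hj, indicator_of_mem hp]
    apply ENNReal.ofReal_le_ofReal
    have e1 : Real.exp (-(gq g.κ (sg j) p) / g.th j ^ 2) ≤ 1 := by
      rw [Real.exp_le_one_iff]
      exact div_nonpos_of_nonpos_of_nonneg (by linarith [gq_nonneg hG g.κ (sg j) p])
        (sq_nonneg _)
    have e2 : g.r j ^ 4 ≤ 1 := pow_le_one₀ (r_pos h j).le ((r_small h j).trans (by norm_num))
    have e3 : 0 ≤ g.r j ^ 4 := pow_nonneg (r_pos h j).le _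
    have e4 : 3 * t * g.r j ^ 4 ≤ 1 := by nlinarith [ht.1, ht.2]
    have e5 : 0 ≤ 3 * t * g.r j ^ 4 := by have := ht.1; positivity
    calc 3 * t * g.r j ^ 4 * g.a j * Real.exp (-(gq g.κ (sg j) p) / g.th j ^ 2)
        ≤ 1 * g.a j * 1 := by gcongr
      _ ≤ g.a g.K := by linarith
  have h3 : 1 ≤ Real.exp 2 * ee t p.2 := by
    have e1 := (cold_v hG h j hp).2.1
    have e2 : Real.exp (-2) ≤ ee t p.2 := by
      refine le_trans (Real.exp_le_exp.2 ?_) (gauss_le_ee ht.1 p.2)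
      nlinarith [norm_nonneg p.2]
    have e3 : Real.exp 2 * Real.exp (-2) = 1 := by rw [← Real.exp_add]; simp
    nlinarith [Real.exp_pos 2]
  have haK0 := a_pos h g.K
  unfold CC
  refine (add_le_add h1 h2).trans ?_
  rw [← ENNReal.ofReal_add haK0.le haK0.le]
  apply ENNReal.ofReal_le_ofReal
  nlinarith

lemma crude (hG : GeoAStmt) (h : g.Ok) :
    ∃ C : ℝ, 1 ≤ C ∧ ∀ t ∈ Icc (0 : ℝ) (1 / 32), ∀ p : Om, ps g t p ≤ C * ee t p.2 ∧
    CC g t p ≤ ENNReal.ofReal (C * ee t p.2) ∧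
    ∀ Λ : ℕ, 1 ≤ Λ → Z0 g Λ t p ≤ ENNReal.ofReal (C * ee t p.2) := by
  have hth := th_pos h g.K
  have haK := a_pos h g.K
  have hA : 0 < 2 * g.a g.K * Real.exp 2 := by positivity
  have hB : 0 < 2 / g.th g.K := by positivity
  refine ⟨2 * g.a g.K * Real.exp 2 + (1 + 2 / g.th g.K), by linarith, fun t ht p => ?_⟩
  have he := ee_pos t p.2
  have h1 : ps g t p ≤ (1 + 2 / g.th g.K) * ee t p.2 := by
    unfold ps
    have := sw_le hG h t p
    nlinarith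
  have h2 := cc_le hG h ht p
  refine ⟨by nlinarith, h2.trans (ENNReal.ofReal_le_ofReal (by nlinarith)), fun Λ hΛ => ?_⟩
  have hΛ' : (1 : ℝ) ≤ Λ := by exact_mod_cast hΛ
  have hl0 : (0 : ℝ) ≤ 1 / (8 * Λ) := by positivity
  have hl1 : (1 : ℝ) / (8 * Λ) ≤ 1 / 8 :=
    div_le_div_of_nonneg_left zero_le_one (by norm_num) (by linarith)
  obtain ⟨t1, t2, -, -⟩ := tau_bd hG h hl0 hl1 ht p
  have t0 : 0 ≤ tau g (1 / (8 * Λ)) t p := by
    have := te0_pos h; have := te_eq g t; linarith [ht.1]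
  have t3 : tau g (1 / (8 * Λ)) t p ^ Λ ≤ 1 := pow_le_one₀ t0 t2
  have hps : 0 ≤ ps g t p := he.le.trans (ee_le_ps g t p)
  have hR : g.R ^ 19 ≤ 1 := pow_le_one₀ h.R0.le ((R_le h).trans (by norm_num))
  have h3 : ENNReal.ofReal (g.R ^ 19) * wt g (1 / (8 * Λ)) Λ t p ≤
      ENNReal.ofReal ((1 + 2 / g.th g.K) * ee t p.2) := by
    unfold wt
    rw [← ENNReal.ofReal_mul (pow_nonneg h.R0.le _)]
    apply ENNReal.ofReal_le_ofReal
    calc g.R ^ 19 * (tau g (1 / (8 * Λ)) t p ^ Λ * ps g t p) ≤ 1 * (1 * ps g t p) := by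
          have := pow_nonneg t0 Λ
          gcongr
      _ ≤ _ := by linarith
  unfold Z0
  refine (add_le_add h2 h3).trans ?_
  rw [← ENNReal.ofReal_add (by positivity) (by positivity)]
  apply ENNReal.ofReal_le_ofReal
  nlinarith

end GeoBAux

open GeoBAux in
theorem geoB (hG : GeoAStmt) : GeoBStmt := by
  intro g h
  exact
  { r_pos := fun j => ⟨r_pos h j, r_le h j, r_succ g j, a_pos h j, th_pos h j, th_le_gg h j,
      gg_le_w h j, gg_le_R h j⟩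
    r_anti := fun _ _ hij => ⟨r_anti h hij, th_anti h hij, a_mono h hij⟩
    R_le := R_le h
    te := ⟨te0_pos h, te0_le h, te_eq g⟩
    tube := fun j _ ht _ hx => tube h j ht hx
    tube_disj := fun i j _ ht _ hi hj => tube_disj h i j ht hi hj
    core := fun j t ht x hx => by
      have h1 : |g.lab t x - g.mid j| ≤ 1 / 5 * g.w j := hx
      show |g.lab t x - g.mid j| ≤ 7 / 20 * g.w j + g.gg j * t
      have h2 := w_pos h j
      have h3 := mul_nonneg (gg_pos h j).le ht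
      linarith
    inT := fun _ ht _ hx => inT h ht hx
    cold_fwd := fun j _ _ hs hst ht _ hp =>
      ⟨(cold_fwd hG h j hs hst ht hp).1, (cold_fwd hG h j hs hst ht hp).2.1⟩
    cold_v := fun j _ _ _ hp => cold_v hG h j hp
    supp := fun j _ ht _ hp => supp hG h j ht hp
    bb_tube := fun j _ ht _ hp => bb_tube hG h j ht hp
    ee_tube := fun j _ ht _ hp => ee_tube h j ht hp
    cc_supp := fun _ ht _ hp => cc_supp hG h ht hp
    bb_fl := fun s t p => by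
      unfold BB
      rw [fl_fl]
      congr 3; ring
    ps_mono := fun _ _ _ hst ht p => ps_mono hG h hst ht p
    tau_mono := fun _ _ _ hl hst p => tau_mono hG g hl hst p
    tau_bd := fun _ hl hl' _ ht p => tau_bd hG h hl hl' ht p
    ps_bd := fun t ht p => ⟨(Mx_le p.2).trans (gauss_le_ee ht.1 p.2), ee_le_ps g t p,
      sw_nonneg g t p, ee_pos t p.2, ee_le ht.2 p.2, gauss_le_ee ht.1 p.2⟩
    crude := crude hG h }

end

end Vale.Agent.P140
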