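import Vale.Agent.P140.StmC

/-!
The inequality for the hot part and the crude growth bound.
-/

namespace Vale.Agent.P140

open MeasureTheory Set Filter Topology
open scoped ENNReal

namespace HEAux

theorem ok_ev (c κ : ℝ) (h1 : 1 ≤ c) (h2 : 0 < κ) (h3 : κ ≤ 1 / 100) :
    ∀ᶠ R in 𝓝[>] (0 : ℝ), ∀ K : ℕ, (⟨c, κ, R, K⟩ : Geo).Ok := by
  have hk : (0 : ℝ) < κ ^ 2 := by positivity
  filter_upwards [Ioc_mem_nhdsGT hk] with R hR K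
  exact ⟨h1, h2, h3, hR.1, hR.2⟩

theorem G2_split (hb : Base) (hc : BaseC) (Rk : ℝ) (F Z H : ST) (hZ : JM Z) (hH : JM H)
    (hF : ∀ t p, F t p ≤ Z t p + H t p) (t : ℝ) (p : Om) :
    G2 (kT Rk) F F t p ≤ G2 kF Z Z t p + QZ (kT Rk) Z H t p := by
  have hk : IsKer (kT Rk) := hb.meas.2.1 Rk
  have mZ := hc.alg.jm_slice Z hZ t p.1
  have mH := hc.alg.jm_slice H hH t p.1
  have h1 : G2 (kT Rk) F F t p ≤ gainK (kT Rk) (fun u => Z t (p.1, u) + H t (p.1, u))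
      (fun u => Z t (p.1, u) + H t (p.1, u)) p.2 :=
    hc.alg.gain_mono _ _ _ _ _ _ _ (fun _ _ _ => le_rfl) (fun u => hF t _) (fun u => hF t _)
  have h2 := hc.alg.gain_add_left (kT Rk) (fun u => Z t (p.1, u)) (fun u => H t (p.1, u))
    (fun u => Z t (p.1, u) + H t (p.1, u)) p.2 hk mZ (mZ.add mH)
  have h3 := hc.alg.gain_add_right (kT Rk) (fun u => Z t (p.1, u)) (fun u => Z t (p.1, u))
    (fun u => H t (p.1, u)) p.2 hk mZ mZ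
  have h4 := hc.alg.gain_add_right (kT Rk) (fun u => H t (p.1, u)) (fun u => Z t (p.1, u))
    (fun u => H t (p.1, u)) p.2 hk mH mZ
  have h5 : G2 (kT Rk) Z Z t p ≤ G2 kF Z Z t p :=
    hc.alg.gain_mono _ _ _ _ _ _ _ (fun a r ha => hc.alg.kT_le Rk a r ha) (fun _ => le_rfl)
      (fun _ => le_rfl)
  refine h1.trans ?_
  rw [h2, h3, h4]
  have h6 : QZ (kT Rk) Z H t p = G2 (kT Rk) Z H t p + G2 (kT Rk) H Z t p + G2 (kT Rk) H H t p :=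
    rfl
  rw [h6]
  calc G2 (kT Rk) Z Z t p + G2 (kT Rk) Z H t p + (G2 (kT Rk) H Z t p + G2 (kT Rk) H H t p)
      ≤ G2 kF Z Z t p + G2 (kT Rk) Z H t p + (G2 (kT Rk) H Z t p + G2 (kT Rk) H H t p) := by
        gcongr
    _ = _ := by ring

theorem hot_ineq (hb : Base) (hc : BaseC) (g : Geo) (Λ : ℕ) (s Rk δ : ℝ) (F : ST)
    (hS : Sub g s Rk δ F)
    (hZ : ∀ t ∈ Icc (0 : ℝ) g.R, ∀ p,
      BB g t p + duh 0 (G2 kF (Z0 g Λ) (Z0 g Λ)) t p ≤ Z0 g Λ t p) :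
    ∀ t ∈ Icc (0 : ℝ) g.R, ∀ p : Om, HH g Λ F t p ≤
      ENNReal.ofReal (s * Mx p.2) + duh 0 (QZ (kT Rk) (Z0 g Λ) (HH g Λ F)) t p := by
  intro t ht p
  have jZ : JM (Z0 g Λ) := (hc.me.jm g).2.2.2.2.2.1 Λ
  have jH : JM (HH g Λ F) := (hc.me.jm g).2.2.2.2.2.2 Λ F hS.jm
  have hF : ∀ t p, F t p ≤ Z0 g Λ t p + HH g Λ F t p := fun t p => le_add_tsub
  have h1 : duh 0 (G2 (kT Rk) F F) t p ≤
      duh 0 (fun s p => G2 kF (Z0 g Λ) (Z0 g Λ) s p + QZ (kT Rk) (Z0 g Λ) (HH g Λ F) s p) t p :=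
    hc.alg.duh_mono 0 t _ _ p fun s _ p => G2_split hb hc Rk F _ _ jZ jH hF s p
  rw [hc.alg.duh_add 0 t _ _ p (hc.alg.jm_G2 kF _ _ hb.meas.1 jZ jZ)] at h1
  have h2 := hS.up t ht.1 p
  have h3 := hZ t ht p
  show F t p - Z0 g Λ t p ≤ _
  rw [tsub_le_iff_right]
  calc F t p ≤ BB g t p + ENNReal.ofReal (s * Mx p.2) + duh 0 (G2 (kT Rk) F F) t p := h2
    _ ≤ BB g t p + ENNReal.ofReal (s * Mx p.2) + (duh 0 (G2 kF (Z0 g Λ) (Z0 g Λ)) t p +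
          duh 0 (QZ (kT Rk) (Z0 g Λ) (HH g Λ F)) t p) := by gcongr
    _ = ENNReal.ofReal (s * Mx p.2) + duh 0 (QZ (kT Rk) (Z0 g Λ) (HH g Λ F)) t p +
          (BB g t p + duh 0 (G2 kF (Z0 g Λ) (Z0 g Λ)) t p) := by ring
    _ ≤ _ := by gcongr

theorem growth (hb : Base) (hc : BaseC) (hC : CmpStmt) (g : Geo) (hg : g.Ok) (Λ : ℕ)
    (hΛ : 1 ≤ Λ) (ε s Rk δ : ℝ) (F : ST) (hs : 0 ≤ s) (hR : 0 < Rk) (hS : Sub g s Rk δ F)
    (hH : ∀ t ∈ Icc (0 : ℝ) g.R, ∀ p : Om, HH g Λ F t p ≤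
      ENNReal.ofReal (s * Mx p.2) + duh 0 (QZ (kT Rk) (Z0 g Λ) (HH g Λ F)) t p)
    (hY : ∀ T ∈ Icc (0 : ℝ) g.R, ∀ N : ℝ, 0 ≤ N → N * g.te T ^ Λ ≤ ε → ∀ t ∈ Icc (0 : ℝ) T, ∀ p,
      duh 0 (QZ kF (Z0 g Λ) (fun t p => ENNReal.ofReal N * wt g 0 Λ t p)) t p ≤
        ENNReal.ofReal (N / 2) * wt g 0 Λ t p) :
    ∀ T ∈ Icc (0 : ℝ) g.R, 2 * s * (g.te T / g.te 0) ^ Λ ≤ ε → ∀ t ∈ Icc (0 : ℝ) T, ∀ p,
      HH g Λ F t p ≤ ENNReal.ofReal (2 * s * (g.te t / g.te 0) ^ Λ) * psE g t p := by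
  intro T hT hε
  have gb := hc.gb g hg
  have te0 : 0 < g.te 0 := gb.te.1
  have hRle := gb.R_le
  have h32 : ∀ t ∈ Icc (0 : ℝ) T, t ∈ Icc (0 : ℝ) (1 / 32) := fun t ht =>
    ⟨ht.1, by linarith [ht.2, hT.2]⟩
  have hRR : ∀ t ∈ Icc (0 : ℝ) T, t ∈ Icc (0 : ℝ) g.R := fun t ht => ⟨ht.1, ht.2.trans hT.2⟩
  set N : ℝ := 2 * s / g.te 0 ^ Λ with hN
  have hN0 : 0 ≤ N := by positivity
  have hNe : ∀ t, N * g.te t ^ Λ = 2 * s * (g.te t / g.te 0) ^ Λ := by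
    intro t
    rw [hN, div_pow]
    ring
  have jZ : JM (Z0 g Λ) := (hc.me.jm g).2.2.2.2.2.1 Λ
  have jH : JM (HH g Λ F) := (hc.me.jm g).2.2.2.2.2.2 Λ F hS.jm
  have jW : JM (wt g 0 Λ) := (hc.me.jm g).2.2.2.2.1 0 Λ
  have jY : JM (fun t p => ENNReal.ofReal N * wt g 0 Λ t p) := Measurable.const_mul jW _
  have hwt : ∀ t ∈ Icc (0 : ℝ) T, ∀ p, wt g 0 Λ t p = ENNReal.ofReal (g.te t ^ Λ * ps g t p) := by
    intro t ht p
    have h := (gb.tau_bd 0 le_rfl (by norm_num) t (h32 t ht) p).2.2.1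
    show ENNReal.ofReal (tau g 0 t p ^ Λ * ps g t p) = _
    rw [h]
  have hte : ∀ t ∈ Icc (0 : ℝ) T, g.te 0 ≤ g.te t ∧ g.te t ≤ 1 := by
    intro t ht
    have h1 := gb.te.2.2 t
    have h2 := gb.te.2.1
    have h3 := hg.κ1
    have h4 := (h32 t ht).2
    exact ⟨by linarith [ht.1], by linarith⟩
  obtain ⟨C₀, hC₀, hcr⟩ := gb.crude
  obtain ⟨C₁, hC₁⟩ := hS.bd
  have main := hC Rk 0 T (3 * C₀ + |C₁| + 3 * N * C₀) (fun _ p => ENNReal.ofReal (s * Mx p.2))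
    (Z0 g Λ) (HH g Λ F) (fun t p => ENNReal.ofReal N * wt g 0 Λ t p) hR jZ jH jY ?_ ?_ ?_
  · intro t ht p
    refine (main t ht p).trans (le_of_eq ?_)
    have h1 := hte t ht
    have h2 : 0 ≤ g.te t ^ Λ := pow_nonneg (te0.le.trans h1.1) Λ
    show ENNReal.ofReal N * wt g 0 Λ t p = _ * ENNReal.ofReal (ps g t p)
    rw [hwt t ht p, ← hNe t, ENNReal.ofReal_mul h2, ENNReal.ofReal_mul hN0, mul_assoc]
  · intro t ht p
    have hp := gb.ps_bd t (h32 t ht) p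
    have hq := hcr t (h32 t ht) p
    have he : 0 < Real.exp (-‖p.2‖) := Real.exp_pos _
    have ha := abs_nonneg C₁
    have hb1 : C₀ * ee t p.2 ≤ 3 * C₀ * Real.exp (-‖p.2‖) := by
      have := mul_le_mul_of_nonneg_left hp.2.2.2.2.1 (by linarith : (0 : ℝ) ≤ C₀)
      linarith
    have hA : 0 ≤ 3 * C₀ * Real.exp (-‖p.2‖) := by positivity
    have hB : 0 ≤ |C₁| * Real.exp (-‖p.2‖) := by positivity
    have hD : 0 ≤ 3 * N * C₀ * Real.exp (-‖p.2‖) := by positivity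
    refine ⟨?_, ?_, ?_⟩
    · refine (hq.2.2 Λ hΛ).trans (ENNReal.ofReal_le_ofReal ?_)
      nlinarith
    · have h1 : HH g Λ F t p ≤ F t p := tsub_le_self
      refine h1.trans ((hC₁ t ⟨ht.1, by linarith [(h32 t ht).2]⟩ p).trans
        (ENNReal.ofReal_le_ofReal ?_))
      have h2 : C₁ * Real.exp (-‖p.2‖) ≤ |C₁| * Real.exp (-‖p.2‖) :=
        mul_le_mul_of_nonneg_right (le_abs_self C₁) he.le
      nlinarith
    · show ENNReal.ofReal N * wt g 0 Λ t p ≤ _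
      rw [hwt t ht p, ← ENNReal.ofReal_mul hN0]
      refine ENNReal.ofReal_le_ofReal ?_
      have h1 := hte t ht
      have h2 : g.te t ^ Λ ≤ 1 := pow_le_one₀ (te0.le.trans h1.1) h1.2
      have h3 : 0 ≤ ps g t p := hp.2.2.2.1.le.trans hp.2.1
      have h4 : g.te t ^ Λ * ps g t p ≤ 3 * C₀ * Real.exp (-‖p.2‖) := by
        have := mul_le_mul_of_nonneg_right h2 h3
        linarith [hq.1]
      have h5 := mul_le_mul_of_nonneg_left h4 hN0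
      nlinarith
  · intro t ht p
    exact hH t (hRR t ht) p
  · intro t ht p
    have h0 := hY T hT N hN0 (by rw [hNe]; exact hε) t ht p
    have hp := gb.ps_bd t (h32 t ht) p
    have h1 := hte t ht
    have h3 : 0 ≤ ps g t p := hp.2.2.2.1.le.trans hp.2.1
    have hN2 : 0 ≤ N / 2 := by positivity
    have h2 : ENNReal.ofReal (s * Mx p.2) ≤ ENNReal.ofReal (N / 2) * wt g 0 Λ t p := by
      rw [hwt t ht p, ← ENNReal.ofReal_mul hN2]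
      refine ENNReal.ofReal_le_ofReal ?_
      have h4 : g.te 0 ^ Λ ≤ g.te t ^ Λ := pow_le_pow_left₀ te0.le h1.1 Λ
      have h5 : s = N / 2 * g.te 0 ^ Λ := by
        rw [hN]
        field_simp
      have h6 : s * Mx p.2 ≤ s * ps g t p := mul_le_mul_of_nonneg_left (hp.1.trans hp.2.1) hs
      have h7 : N / 2 * g.te 0 ^ Λ * ps g t p ≤ N / 2 * g.te t ^ Λ * ps g t p := by gcongr
      rw [← h5] at h7
      linarith [mul_assoc (N / 2) (g.te t ^ Λ) (ps g t p)]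
    calc ENNReal.ofReal (s * Mx p.2) +
          duh 0 (QZ kF (Z0 g Λ) (fun t p => ENNReal.ofReal N * wt g 0 Λ t p)) t p
        ≤ ENNReal.ofReal (N / 2) * wt g 0 Λ t p + ENNReal.ofReal (N / 2) * wt g 0 Λ t p :=
          add_le_add h2 h0
      _ = ENNReal.ofReal N * wt g 0 Λ t p := by
          rw [← add_mul, ← ENNReal.ofReal_add hN2 hN2, add_halves]

end HEAux

theorem heC (hb : Base) (hc : BaseC) (hC : CmpStmt) (hB : BarStmt) : HEStmt := by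
  intro c κ h1 h2 h3
  filter_upwards [hB c κ h1 h2 h3, eventually_ge_atTop 1] with Λ hΛ hΛ1
  obtain ⟨ε, hε, hE⟩ := hΛ
  refine ⟨ε, hε, ?_⟩
  unfold EvR at hE ⊢
  filter_upwards [hE, HEAux.ok_ev c κ h1 h2 h3] with R hR hok K
  intro s Rk δ F hs hRk hS
  have hH := HEAux.hot_ineq hb hc _ Λ s Rk δ F hS (hR K).1
  exact ⟨hH, HEAux.growth hb hc hC _ (hok K) Λ hΛ1 ε s Rk δ F hs hRk hS hH (hR K).2⟩

end Vale.Agent.P140
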