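import Vale.Agent.P140.StmC

/-!
Solutions of the truncated problem satisfy the inequalities used in part C.
-/

namespace Vale.Agent.P140

open MeasureTheory Set Filter Topology
open scoped ENNReal

noncomputable section

namespace IFcAux

lemma gT_le (hb : Base) {R δ C : ℝ} (hR : 0 < R) (hδ : 0 < δ) {F : ℝ → Om → ℝ} {t : ℝ}
    (hF : TData C (F t)) (p : Om) :
    0 ≤ gT R δ (F t) p ∧ 0 ≤ nT R δ (F t) p ∧
    ENNReal.ofReal (gT R δ (F t) p) = gN R δ (fun t p => ENNReal.ofReal (F t p)) t p ∧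
    ENNReal.ofReal (gT R δ (F t) p) ≤
      G2 (kT R) (fun t p => ENNReal.ofReal (F t p)) (fun t p => ENNReal.ofReal (F t p)) t p ∧
    (nT R δ (F t) p ≤ (freqK (kT R) (sl (F t) p.1) p.2).toReal) := by
  obtain ⟨L, -, h1, -⟩ := hb.top R δ hR hδ
  obtain ⟨a1, -, a3, a4, a5, -, a7, -⟩ := h1 C (F t) hF p
  have hd : 1 ≤ 1 + δ * rho (F t) p.1 := by nlinarith
  have e1 : ∫⁻ u, ENNReal.ofReal (F t (p.1, u)) = ENNReal.ofReal (rho (F t) p.1) :=
    (ofReal_integral_eq_lintegral_ofReal a3 (Eventually.of_forall fun u => (hF.2 _).1)).symm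
  have e2 : ENNReal.ofReal (gT R δ (F t) p) = gN R δ (fun t p => ENNReal.ofReal (F t p)) t p := by
    unfold gT gN
    rw [ENNReal.ofReal_div_of_pos (by linarith), ENNReal.ofReal_toReal a1, e1,
      ENNReal.ofReal_add zero_le_one (mul_nonneg hδ.le a4), ENNReal.ofReal_one,
      ENNReal.ofReal_mul hδ.le]
    rfl
  refine ⟨a5, a7, e2, ?_, ?_⟩
  · refine le_trans (ENNReal.ofReal_le_ofReal ?_) (ENNReal.ofReal_toReal_le
      (a := gainK (kT R) (sl (F t) p.1) (sl (F t) p.1) p.2))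
    unfold gT
    exact div_le_self ENNReal.toReal_nonneg hd
  · unfold nT
    exact div_le_self ENNReal.toReal_nonneg hd

lemma nT_le (hb : Base) (hc : BaseC) {R δ C : ℝ} (hR : 0 < R) (hδ : 0 < δ) {F : ℝ → Om → ℝ} {t : ℝ}
    (hF : TData C (F t)) (p : Om) :
    ENNReal.ofReal (nT R δ (F t) p) ≤ Nu (fun t p => ENNReal.ofReal (F t p)) t p := by
  refine ((ENNReal.ofReal_le_ofReal (gT_le hb hR hδ hF p).2.2.2.2).trans
    ENNReal.ofReal_toReal_le).trans ?_
  unfold Nu freqK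
  refine lintegral_mono fun q => ?_
  exact mul_le_mul_left (ENNReal.ofReal_le_ofReal (hc.alg.kT_le _ _ _ (abs_nonneg _))) _

lemma ofReal_int {f : ℝ → ℝ} {a b : ℝ} (hab : a ≤ b) (hf : IntervalIntegrable f volume a b)
    (h0 : ∀ r ∈ Ioc a b, 0 ≤ f r) :
    0 ≤ ∫ r in a..b, f r ∧
      ENNReal.ofReal (∫ r in a..b, f r) = ∫⁻ r in Ioc a b, ENNReal.ofReal (f r) := by
  have h1 : 0 ≤ᵐ[volume.restrict (Ioc a b)] f :=
    (ae_restrict_iff' measurableSet_Ioc).2 (Eventually.of_forall h0)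
  rw [intervalIntegral.integral_of_le hab]
  exact ⟨integral_nonneg_of_ae h1, ofReal_integral_eq_lintegral_ofReal hf.1 h1⟩

lemma en_le (hc : BaseC) {n : ℝ → ℝ} {N : ℝ → ℝ≥0∞} {a b : ℝ} (hab : a ≤ b)
    (hf : IntervalIntegrable n volume a b) (h0 : ∀ r ∈ Ioc a b, 0 ≤ n r)
    (h1 : ∀ r ∈ Ioc a b, ENNReal.ofReal (n r) ≤ N r) :
    en (∫⁻ r in Ioc a b, N r) ≤ ENNReal.ofReal (Real.exp (-∫ r in a..b, n r)) := by
  obtain ⟨e1, e2⟩ := ofReal_int hab hf h0
  rw [← hc.en.ofReal _ e1, e2]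
  exact hc.en.anti _ _ (setLIntegral_mono' measurableSet_Ioc h1)

end IFcAux

open IFcAux in
theorem ifC (hb : Base) (hc : BaseC) : IFStmt := by
  intro g s Rk δ F _ hs hR hδ hF
  obtain ⟨f0, fT, fI, -, fM, fE⟩ := hb.tsFl Rk δ _ F hR hδ hF
  refine ⟨hF.meas.ennreal_ofReal, ?_, fun p => by rw [f0], ?_, ?_⟩
  · obtain ⟨C, hC⟩ := hF.bound 1
    exact ⟨C, fun t ht p => ENNReal.ofReal_le_ofReal (hC t ht p)⟩
  · intro t ht p
    obtain ⟨C, hC⟩ := fT t
    set p₀ := fl (-t) p with hp₀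
    have e0 : fl t p₀ = p := by rw [hp₀, fl_fl]; simp [fl_zero]
    have e1 : ∀ r, fl r p₀ = fl (r - t) p := fun r => by rw [hp₀, fl_fl]; rfl
    have h1 := hF.mild t ht p₀
    rw [e0] at h1
    obtain ⟨i1, -, i3⟩ := fI p₀ 0 t le_rfl ht
    have hd : ∀ r ∈ Ioc 0 t, TData C (F r) := fun r hr => hC r ⟨hr.1.le, hr.2⟩
    obtain ⟨a1, a2⟩ := ofReal_int ht i1 (fun r hr => (gT_le hb hR hδ (hd r hr) _).1)
    obtain ⟨a3, -⟩ := ofReal_int ht i3
      (fun r hr => mul_nonneg (gT_le hb hR hδ (hd r hr) _).2.1 (hF.nonneg _ _))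
    rw [intervalIntegral.integral_sub i1 i3] at h1
    have h2 : F t p ≤ B0 g p₀ + s * Mx p.2 + ∫ r in (0 : ℝ)..t, gT Rk δ (F r) (fl r p₀) := by
      have : seed g s p₀ = B0 g p₀ + s * Mx p.2 := rfl
      linarith
    refine (ENNReal.ofReal_le_ofReal h2).trans (ENNReal.ofReal_add_le.trans ?_)
    refine add_le_add ENNReal.ofReal_add_le ?_
    rw [a2]
    unfold duh
    refine setLIntegral_mono' measurableSet_Ioc fun r hr => ?_
    rw [e1]
    exact (gT_le hb hR hδ (hd r hr) _).2.2.2.1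
  · intro a b ha hab p
    obtain ⟨C, hC⟩ := fT b
    have hd : ∀ r ∈ Ioc a b, TData C (F r) := fun r hr => hC r ⟨ha.trans hr.1.le, hr.2⟩
    have h1 := fE p a b ha hab
    obtain ⟨i1, i2, -⟩ := fI p a b ha (ha.trans hab)
    have hcont : ContinuousOn (fun r => Real.exp (-∫ r' in r..b, nT Rk δ (F r') (fl r' p)))
        (uIcc a b) := by
      refine Real.continuous_exp.comp_continuousOn (ContinuousOn.neg ?_)
      refine intervalIntegral.continuousOn_primitive_interval_left ?_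
      exact (intervalIntegrable_iff' (by simp)).1 i2
    have i4 := i1.mul_continuousOn hcont
    obtain ⟨a1, a2⟩ := ofReal_int hab i4
      (fun r hr => mul_nonneg (gT_le hb hR hδ (hd r hr) _).1 (Real.exp_pos _).le)
    show _ ≤ ENNReal.ofReal (F b (fl b p))
    rw [h1, ENNReal.ofReal_add (mul_nonneg (hF.nonneg _ _) (Real.exp_pos _).le) a1, a2,
      ENNReal.ofReal_mul (hF.nonneg _ _)]
    refine add_le_add (mul_le_mul_right ?_ _) ?_
    · exact en_le hc hab i2 (fun r hr => (gT_le hb hR hδ (hd r hr) _).2.1)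
        (fun r hr => nT_le hb hc hR hδ (hd r hr) _)
    · refine setLIntegral_mono' measurableSet_Ioc fun τ hτ => ?_
      rw [ENNReal.ofReal_mul (gT_le hb hR hδ (hd τ hτ) _).1, (gT_le hb hR hδ (hd τ hτ) _).2.2.1]
      refine mul_le_mul_right ?_ _
      have hsub : ∀ r ∈ Ioc τ b, r ∈ Ioc a b := fun r hr => ⟨hτ.1.trans hr.1, hr.2⟩
      exact en_le hc hτ.2 (fI p τ b (ha.trans hτ.1.le) (ha.trans hab)).2.1
        (fun r hr => (gT_le hb hR hδ (hd r (hsub r hr)) _).2.1)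
        (fun r hr => nT_le hb hc hR hδ (hd r (hsub r hr)) _)

end

end Vale.Agent.P140
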