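import Vale.Agent.P140.StmC

namespace Vale.Agent.P140

open MeasureTheory Set Filter Topology
open scoped ENNReal

noncomputable section

namespace ImpAux

lemma wt01 {g : Geo} (gb : GeoB g) {t : ℝ} (ht : t ∈ Icc (0 : ℝ) (1 / 32)) (p : Om) :
    wt g 0 1 t p = ENNReal.ofReal (g.te t * ps g t p) := by
  unfold wt
  rw [pow_one, (gb.tau_bd 0 le_rfl (by norm_num) t ht p).2.2.1]

lemma ps_pos {g : Geo} (gb : GeoB g) {t : ℝ} (ht : t ∈ Icc (0 : ℝ) (1 / 32)) (p : Om) :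
    0 < ps g t p :=
  (gb.ps_bd t ht p).2.2.2.1.trans_le (gb.ps_bd t ht p).2.1

lemma te_le {g : Geo} (gb : GeoB g) {s t : ℝ} (h : s ≤ t) : g.te s ≤ g.te t := by
  rw [gb.te.2.2 s, gb.te.2.2 t]; linarith

lemma te_one {g : Geo} (gb : GeoB g) {t : ℝ} (ht : t ∈ Icc (0 : ℝ) (1 / 32)) : g.te t ≤ 1 :=
  (gb.tau_bd 0 le_rfl (by norm_num) t ht (0, 0)).1.trans
    (gb.tau_bd 0 le_rfl (by norm_num) t ht (0, 0)).2.1

/-- A multiple of the profile is below a multiple of the weight. -/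
lemma psE_le {g : Geo} (gb : GeoB g) {t a : ℝ} (ht : t ∈ Icc (0 : ℝ) (1 / 32)) (ha : 0 ≤ a)
    (p : Om) : ENNReal.ofReal a * psE g t p ≤ ENNReal.ofReal (a / g.te 0) * wt g 0 1 t p := by
  have h0 := gb.te.1
  have h1 := te_le gb ht.1
  have h2 := ps_pos gb ht p
  rw [wt01 gb ht, psE, ← ENNReal.ofReal_mul ha, ← ENNReal.ofReal_mul (by positivity)]
  refine ENNReal.ofReal_le_ofReal ?_
  rw [← mul_assoc]
  refine mul_le_mul_of_nonneg_right ?_ h2.le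
  rw [div_mul_eq_mul_div, le_div_iff₀ h0]
  exact mul_le_mul_of_nonneg_left h1 ha

/-- The quiet supersolution is below beams, envelope and a small multiple of the profile. -/
lemma Z0_le {g : Geo} (gb : GeoB g) {Λ : ℕ} (hΛ : 1 ≤ Λ) {t : ℝ}
    (ht : t ∈ Icc (0 : ℝ) (1 / 32)) (p : Om) :
    Z0 g Λ t p ≤ BB g t p + (EE g t p + ENNReal.ofReal (g.R ^ 19) * psE g t p) := by
  have hΛ' : (1 : ℝ) ≤ Λ := by exact_mod_cast hΛ
  have hl : 1 / (8 * (Λ : ℝ)) ≤ 1 / 8 := by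
    apply one_div_le_one_div_of_le <;> linarith
  have h := gb.tau_bd (1 / (8 * (Λ : ℝ))) (by positivity) hl t ht p
  have h0 : 0 ≤ tau g (1 / (8 * (Λ : ℝ))) t p :=
    (gb.te.1.le.trans (te_le gb ht.1)).trans h.1
  have h2 := ps_pos gb ht p
  unfold Z0 CC
  rw [add_assoc]
  refine add_le_add le_rfl (add_le_add le_rfl (mul_le_mul' le_rfl ?_))
  unfold wt psE
  refine ENNReal.ofReal_le_ofReal ?_
  have := pow_le_one₀ (n := Λ) h0 h.2.1
  nlinarith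

/-- Pointwise bound of the linearized gain. -/
lemma QZ_le (hb : Base) (hc : BaseC) {g : Geo} (hg : g.Ok) {Λ : ℕ} (hΛ : 1 ≤ Λ) {h : ST}
    (hh : JM h) {t N ε : ℝ} (ht : t ∈ Icc (0 : ℝ) (1 / 32)) (hN : 0 ≤ N) (hε : 0 ≤ ε)
    (h1 : ∀ p, h t p ≤ ENNReal.ofReal N * wt g 0 1 t p)
    (h2 : ∀ p, h t p ≤ ENNReal.ofReal ε * psE g t p) (p : Om) :
    QZ kF (Z0 g Λ) h t p ≤ 2 * G2 kF (BB g) h t p +
      (ENNReal.ofReal (2 * N) * G2 kF (EE g) (wt g 0 1) t p +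
        ENNReal.ofReal ((2 * g.R ^ 19 + ε) * N) * G2 kF (psE g) (wt g 0 1) t p) := by
  have gb := hc.gb g hg
  have al := hc.alg
  have hm := hc.me.jm g
  have hk : IsKer kF := hb.meas.1
  have hR := hg.R0
  have mh := al.jm_slice _ hh t p.1
  rw [al.QZ_kF _ _ (hm.2.2.2.2.2.1 Λ) hh]
  have a1 : G2 kF (Z0 g Λ) h t p ≤ G2 kF (BB g) h t p +
      (ENNReal.ofReal N * G2 kF (EE g) (wt g 0 1) t p +
        ENNReal.ofReal (g.R ^ 19) * ENNReal.ofReal N * G2 kF (psE g) (wt g 0 1) t p) := by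
    unfold G2
    refine (al.gain_mono kF kF _ (fun u => BB g t (p.1, u) +
      (EE g t (p.1, u) + ENNReal.ofReal (g.R ^ 19) * psE g t (p.1, u))) _ _ _
      (fun _ _ _ => le_rfl) (fun u => Z0_le gb hΛ ht _) (fun u => le_rfl)).trans ?_
    rw [al.gain_add_left kF _ _ _ _ hk (al.jm_slice _ hm.1 t p.1) mh,
      al.gain_add_left kF _ _ _ _ hk (al.jm_slice _ hm.2.1 t p.1) mh]
    refine add_le_add le_rfl (add_le_add ?_ ?_)
    · have := al.gain_mul kF (fun u => EE g t (p.1, u)) (fun u => wt g 0 1 t (p.1, u)) p.2 1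
        (ENNReal.ofReal N) ENNReal.one_ne_top ENNReal.ofReal_ne_top
      rw [one_mul] at this
      rw [← this]
      exact al.gain_mono kF kF _ _ _ _ _ (fun _ _ _ => le_rfl) (fun u => by rw [one_mul])
        (fun u => h1 _)
    · rw [← al.gain_mul kF _ _ _ _ _ ENNReal.ofReal_ne_top ENNReal.ofReal_ne_top]
      exact al.gain_mono kF kF _ _ _ _ _ (fun _ _ _ => le_rfl) (fun u => le_rfl) (fun u => h1 _)
  have a2 : G2 kF h h t p ≤
      ENNReal.ofReal ε * ENNReal.ofReal N * G2 kF (psE g) (wt g 0 1) t p := by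
    unfold G2
    rw [← al.gain_mul kF _ _ _ _ _ ENNReal.ofReal_ne_top ENNReal.ofReal_ne_top]
    exact al.gain_mono kF kF _ _ _ _ _ (fun _ _ _ => le_rfl) (fun u => h2 _) (fun u => h1 _)
  refine (add_le_add (mul_le_mul' le_rfl a1) a2).trans (le_of_eq ?_)
  rw [ENNReal.ofReal_mul zero_le_two, ENNReal.ofReal_mul (by positivity),
    ENNReal.ofReal_add (by positivity) hε, ENNReal.ofReal_mul zero_le_two, ENNReal.ofReal_ofNat]
  ring

/-- The majorant in terms of the main linear operator. -/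
lemma maj_le (hb : Base) (hc : BaseC) {g : Geo} (hg : g.Ok) {Λ : ℕ} (hΛ : 1 ≤ Λ) {h : ST}
    (hh : JM h) {C₁ s T N ε : ℝ} (os : OSP g C₁) (hC : 1 ≤ C₁) (hs : 0 ≤ s) (hT : T ≤ g.R)
    (hN : 0 ≤ N) (hε : 0 ≤ ε)
    (h1 : ∀ t ∈ Icc (0 : ℝ) T, ∀ p, h t p ≤ ENNReal.ofReal N * wt g 0 1 t p)
    (h2 : ∀ t ∈ Icc (0 : ℝ) T, ∀ p, h t p ≤ ENNReal.ofReal ε * psE g t p) {t : ℝ}
    (ht : t ∈ Icc (0 : ℝ) T) (p : Om) :
    ENNReal.ofReal (s * Mx p.2) + duh 0 (QZ kF (Z0 g Λ) h) t p ≤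
      ENNReal.ofReal (s / g.te 0 + C₁ * (2 * g.c * g.R + 2 * g.R ^ 19 + ε) * N) * wt g 0 1 t p +
        GB g h t p := by
  have gb := hc.gb g hg
  have al := hc.alg
  have hm := hc.me.jm g
  have hk : IsKer kF := hb.meas.1
  have hR := hg.R0
  have hc0 : 0 < g.c := by linarith [hg.c1]
  have hR1 := gb.R_le
  have h0 := gb.te.1
  have htR : t ∈ Icc (0 : ℝ) g.R := ⟨ht.1, ht.2.trans hT⟩
  have ht' : t ∈ Icc (0 : ℝ) (1 / 32) := ⟨ht.1, by linarith [htR.2]⟩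
  have b1 : ENNReal.ofReal (s * Mx p.2) ≤ ENNReal.ofReal (s / g.te 0) * wt g 0 1 t p := by
    refine le_trans ?_ (psE_le gb ht' hs p)
    rw [psE, ← ENNReal.ofReal_mul hs]
    exact ENNReal.ofReal_le_ofReal (mul_le_mul_of_nonneg_left
      ((gb.ps_bd t ht' p).1.trans (gb.ps_bd t ht' p).2.1) hs)
  have j1 : JM (fun s p => 2 * G2 kF (BB g) h s p) :=
    Measurable.const_mul (al.jm_G2 kF _ _ hk hm.1 hh) 2
  have j2 : JM (fun s p => ENNReal.ofReal (2 * N) * G2 kF (EE g) (wt g 0 1) s p) :=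
    Measurable.const_mul (al.jm_G2 kF _ _ hk hm.2.1 (hm.2.2.2.2.1 0 1)) _
  have b2 : duh 0 (QZ kF (Z0 g Λ) h) t p ≤ GB g h t p +
      (ENNReal.ofReal (2 * N) * (ENNReal.ofReal (C₁ * g.c * g.R) * wt g 0 1 t p) +
        ENNReal.ofReal ((2 * g.R ^ 19 + ε) * N) * (ENNReal.ofReal C₁ * wt g 0 1 t p)) := by
    refine (al.duh_mono 0 t _ (fun s p => 2 * G2 kF (BB g) h s p +
      (ENNReal.ofReal (2 * N) * G2 kF (EE g) (wt g 0 1) s p +
        ENNReal.ofReal ((2 * g.R ^ 19 + ε) * N) * G2 kF (psE g) (wt g 0 1) s p)) p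
      fun σ hσ p => ?_).trans ?_
    · have hσ' : σ ∈ Icc (0 : ℝ) T := ⟨hσ.1.le, hσ.2.trans ht.2⟩
      exact QZ_le hb hc hg hΛ hh ⟨hσ.1.le, hσ.2.trans ht'.2⟩ hN hε (h1 σ hσ') (h2 σ hσ') p
    · rw [al.duh_add 0 t _ _ p j1, al.duh_add 0 t _ _ p j2,
        al.duh_mul 0 t _ p _ ENNReal.ofReal_ne_top, al.duh_mul 0 t _ p _ ENNReal.ofReal_ne_top]
      exact add_le_add le_rfl (add_le_add (mul_le_mul' le_rfl (os.warm t htR p))
        (mul_le_mul' le_rfl (os.hot 1 t htR p)))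
  refine (add_le_add b1 b2).trans (le_of_eq ?_)
  rw [show C₁ * (2 * g.c * g.R + 2 * g.R ^ 19 + ε) * N =
      2 * N * (C₁ * g.c * g.R) + (2 * g.R ^ 19 + ε) * N * C₁ by ring,
    ENNReal.ofReal_add (by positivity) (by positivity),
    ENNReal.ofReal_add (by positivity) (by positivity),
    ENNReal.ofReal_mul (p := 2 * N) (by positivity),
    ENNReal.ofReal_mul (p := (2 * g.R ^ 19 + ε) * N) (by positivity)]
  ring

/-- Mass of the profile over the Harnack set. -/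
lemma mass_ps (hc : BaseC) {g : Geo} {C₂ η t : ℝ} (pp : PPP g C₂) (hC : 0 ≤ C₂) (hη : 0 < η)
    (ht : t ∈ Icc (0 : ℝ) (1 / 32)) (h0 : 0 ≤ g.te t) :
    ∫⁻ p in KK g η t, psE g t p ≤ ENNReal.ofReal (4 * C₂ * (g.te t / η) ^ 2) := by
  have hm : Measurable (psE g t) := hc.alg.jm_time _ (hc.me.jm g).2.2.2.1 t
  have hS : MeasurableSet {x : T3 | ‖pl x‖ ≤ g.te t / η} :=
    measurableSet_le hc.me.pl.norm measurable_const
  have h1 : KK g η t ⊆ {x : T3 | ‖pl x‖ ≤ g.te t / η} ×ˢ (univ : Set E) :=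
    fun p hp => ⟨hp.2.2, mem_univ _⟩
  refine (lintegral_mono_set h1).trans ?_
  rw [Measure.volume_eq_prod, ← Measure.prod_restrict, Measure.restrict_univ,
    lintegral_prod _ hm.aemeasurable]
  refine (lintegral_mono fun x => pp.dens t ht x).trans ?_
  rw [lintegral_const, Measure.restrict_apply MeasurableSet.univ, univ_inter]
  refine (mul_le_mul' le_rfl (hc.ga.vol_le _ (by positivity))).trans (le_of_eq ?_)
  rw [← ENNReal.ofReal_mul hC]
  congr 1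
  ring

/-- Mass of the hot part over the Harnack set. -/
lemma mass_le (hc : BaseC) {g : Geo} {q : Par} {Λ : ℕ} {η C c₂ ε C₁ C₂ ε₀ ε₁ s T Rk δ : ℝ}
    (B : BootH g q Λ η C c₂ ε C₁ C₂ ε₀ ε₁ s T) {F : ST} (hRk : 0 < Rk) (hF : Sub g s Rk δ F)
    (hΦ : ∀ t ∈ Icc (0 : ℝ) T, Phi g q F t ≤ ENNReal.ofReal (3 * ε₁)) (hT : T ≤ g.R) {t : ℝ}
    (ht : t ∈ Icc (0 : ℝ) T) :
    ∫⁻ p in KK g η t, HH g Λ F t p ≤ ENNReal.ofReal ((3 * ε₁ / c₂ +
      8 * C₂ * s * (2 / η ^ 4) ^ Λ / (η ^ 2 * g.te 0 ^ 16)) * g.te t ^ 18) := by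
  have gb := hc.gb g B.ok
  have h0 := gb.te.1
  have h1 := te_le gb ht.1
  have hte : 0 < g.te t := h0.trans_le h1
  have hη := B.η0
  have hc2 := B.c₂0
  have he1 := B.ε₁0
  have hs := B.s0
  have hC2 : 0 ≤ C₂ := zero_le_one.trans B.C₂1
  have hK := (hc.me.kk g η).2.1 t
  rcases le_total (2 / η ^ 4 * g.te 0) (g.te t) with hl | hl
  · have hw := B.w2 t ht.1 ((te_le gb ht.2).trans B.T1) hl
    have a1 : ∫⁻ p in KK g η t, HH g Λ F t p ≤
        ∫⁻ p in KK g η t, ENNReal.ofReal (g.te t ^ 18 / c₂) * (WW g q t p * F t p) := by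
      refine setLIntegral_mono' hK fun p hp => ?_
      refine le_trans (b := F t p) tsub_le_self ?_
      rw [← mul_assoc]
      refine le_trans (le_of_eq ?_) (mul_le_mul' (mul_le_mul' le_rfl (hw p hp)) le_rfl)
      rw [← ENNReal.ofReal_mul (by positivity),
        show g.te t ^ 18 / c₂ * (c₂ * (g.te t)⁻¹ ^ 18) = 1 by field_simp, ENNReal.ofReal_one,
        one_mul]
    refine a1.trans ((setLIntegral_le_lintegral _ _).trans ?_)
    rw [lintegral_const_mul' _ _ ENNReal.ofReal_ne_top]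
    refine (mul_le_mul' le_rfl (hΦ t ht)).trans ?_
    rw [← ENNReal.ofReal_mul (by positivity)]
    refine ENNReal.ofReal_le_ofReal ?_
    rw [add_mul]
    refine le_trans (le_of_eq (by ring)) (le_add_of_nonneg_right (by positivity))
  · have hq : (g.te t / g.te 0) ^ Λ ≤ (2 / η ^ 4) ^ Λ :=
      pow_le_pow_left₀ (by positivity) ((div_le_iff₀ h0).2 hl) Λ
    have hq' : 2 * s * (g.te t / g.te 0) ^ Λ ≤ 2 * s * (2 / η ^ 4) ^ Λ :=
      mul_le_mul_of_nonneg_left hq (by positivity)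
    have htR : t ∈ Icc (0 : ℝ) g.R := ⟨ht.1, ht.2.trans hT⟩
    have ht' : t ∈ Icc (0 : ℝ) (1 / 32) := ⟨ht.1, by linarith [htR.2, gb.R_le]⟩
    have he := (B.he s Rk δ F hs hRk hF).2 t htR (hq'.trans B.early) t ⟨ht.1, le_rfl⟩
    have a1 : ∫⁻ p in KK g η t, HH g Λ F t p ≤
        ∫⁻ p in KK g η t, ENNReal.ofReal (2 * s * (2 / η ^ 4) ^ Λ) * psE g t p :=
      lintegral_mono fun p => (he p).trans (mul_le_mul' (ENNReal.ofReal_le_ofReal hq') le_rfl)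
    refine a1.trans ?_
    rw [lintegral_const_mul' _ _ ENNReal.ofReal_ne_top]
    refine (mul_le_mul' le_rfl (mass_ps hc B.pp hC2 hη ht' hte.le)).trans ?_
    rw [← ENNReal.ofReal_mul (by positivity)]
    refine ENNReal.ofReal_le_ofReal ?_
    rw [add_mul]
    refine le_trans ?_ (le_add_of_nonneg_left (by positivity))
    have h16 : 1 ≤ (g.te t / g.te 0) ^ 16 := one_le_pow₀ ((one_le_div h0).2 h1)
    have e : 8 * C₂ * s * (2 / η ^ 4) ^ Λ / (η ^ 2 * g.te 0 ^ 16) * g.te t ^ 18 =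
        2 * s * (2 / η ^ 4) ^ Λ * (4 * C₂ * (g.te t / η) ^ 2) * (g.te t / g.te 0) ^ 16 := by
      field_simp
      ring
    rw [e]
    exact le_mul_of_one_le_right (by positivity) h16

end ImpAux

open ImpAux in
theorem impC (hb : Base) (hc : BaseC) : ImpStmt := by
  intro g q Λ η C c₂ ε C₁ C₂ ε₀ ε₁ s T B Rk δ F hRk hF hΦ t₀ ht₀ hL
  have gb := hc.gb g B.ok
  have al := hc.alg
  have h0 := gb.te.1
  have hR := B.ok.R0
  have hc0 : 0 < g.c := by linarith [B.ok.c1]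
  have hη := B.η0
  have hc2 := B.c₂0
  have he0 := B.ε₀0
  have he1 := B.ε₁0
  have hs := B.s0
  have hC : 0 ≤ C := zero_le_one.trans B.C1
  have hC1 : 0 ≤ C₁ := zero_le_one.trans B.C₁1
  have hC2 : 0 ≤ C₂ := zero_le_one.trans B.C₂1
  have hT : T ≤ g.R := by
    have a1 := B.T1
    have a2 := gb.te.2.2 T
    have a3 : η * g.R ≤ g.R := mul_le_of_le_one_left hR.le B.η1
    linarith
  have ht0R : t₀ ≤ g.R := ht₀.2.trans hT
  have h32 : ∀ t ∈ Icc (0 : ℝ) t₀, t ∈ Icc (0 : ℝ) (1 / 32) := fun t ht =>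
    ⟨ht.1, by linarith [ht.2, gb.R_le]⟩
  have hh : JM (HH g Λ F) := (hc.me.jm g).2.2.2.2.2.2 Λ F hF.jm
  obtain ⟨Φ, hΦe⟩ : ∃ Φ : ℝ, Φ = 3 * ε₁ / c₂ +
    8 * C₂ * s * (2 / η ^ 4) ^ Λ / (η ^ 2 * g.te 0 ^ 16) := ⟨_, rfl⟩
  have hΦ0 : 0 ≤ Φ := by rw [hΦe]; positivity
  have hmass : ∀ t ∈ Icc (0 : ℝ) t₀,
      ∫⁻ p in KK g η t, HH g Λ F t p ≤ ENNReal.ofReal (Φ * g.te t ^ 18) := fun t ht => by
    rw [hΦe]
    exact mass_le hc B hRk hF hΦ hT ⟨ht.1, ht.2.trans ht₀.2⟩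
  have hmaj : ∀ t ∈ Icc (0 : ℝ) t₀, ∀ p : Om, HH g Λ F t p ≤
      ENNReal.ofReal (s * Mx p.2) + duh 0 (QZ kF (Z0 g Λ) (HH g Λ F)) t p := fun t ht p => by
    refine ((B.he s Rk δ F hs hRk hF).1 t ⟨ht.1, ht.2.trans ht0R⟩ p).trans
      (add_le_add le_rfl (al.duh_mono 0 t _ _ p fun σ _ p => ?_))
    have hk : ∀ f f' : ST, G2 (kT Rk) f f' σ p ≤ G2 kF f f' σ p := fun f f' =>
      al.gain_mono _ _ _ _ _ _ _ (fun a r ha => al.kT_le Rk a r ha) (fun _ => le_rfl)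
        (fun _ => le_rfl)
    exact add_le_add (add_le_add (hk _ _) (hk _ _)) (hk _ _)
  obtain ⟨C', hC'⟩ : ∃ C' : ℝ, C' = C * (s / g.te 0 + Φ) := ⟨_, rfl⟩
  have hC'0 : 0 ≤ C' := by rw [hC']; positivity
  have hfin : 4 * C' ≤ ε₀ := by
    have := B.final
    rw [hC', hΦe]
    linarith
  have step : ∀ N : ℝ, 0 ≤ N →
      (∀ t ∈ Icc (0 : ℝ) t₀, ∀ p, HH g Λ F t p ≤ ENNReal.ofReal N * wt g 0 1 t p) →
      ∀ t ∈ Icc (0 : ℝ) t₀, ∀ p : Om,
        ENNReal.ofReal (s * Mx p.2) + duh 0 (QZ kF (Z0 g Λ) (HH g Λ F)) t p ≤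
          ENNReal.ofReal (N / 2 + C') * wt g 0 1 t p := by
    intro N hN h1 t ht p
    have m := fun t ht p => maj_le hb hc B.ok B.Λ1 hh B.os B.C₁1 hs ht0R hN he0.le h1 hL
      (t := t) ht p
    refine (m t ht p).trans ((B.ly _ N _ Φ hh hN (by positivity) hΦ0 t₀ ⟨ht₀.1, ht0R⟩ h1
      (fun t ht p => (hmaj t ht p).trans (m t ht p)) hmass t ht p).trans
      (mul_le_mul' (ENNReal.ofReal_le_ofReal ?_) le_rfl))
    have := mul_le_mul_of_nonneg_right B.small hN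
    rw [hC']
    nlinarith
  have iter : ∀ k : ℕ, ∀ t ∈ Icc (0 : ℝ) t₀, ∀ p,
      HH g Λ F t p ≤ ENNReal.ofReal (2 * C' + ε₀ / g.te 0 * (1 / 2) ^ k) * wt g 0 1 t p := by
    intro k
    induction k with
    | zero =>
      intro t ht p
      refine (hL t ht p).trans ((psE_le gb (h32 t ht) he0.le p).trans
        (mul_le_mul' (ENNReal.ofReal_le_ofReal ?_) le_rfl))
      rw [pow_zero, mul_one]
      linarith
    | succ k ih =>
      intro t ht p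
      refine (hmaj t ht p).trans ((step _ (by positivity) ih t ht p).trans (le_of_eq ?_))
      congr 2
      ring
  intro t ht p
  have ht' := h32 t ht
  have hps := ps_pos gb ht' p
  have hte : 0 < g.te t := h0.trans_le (te_le gb ht.1)
  have hlim : Tendsto (fun k : ℕ => ENNReal.ofReal
      (((2 * C' + ε₀ / g.te 0 * (1 / 2) ^ k) / 2 + C') * (g.te t * ps g t p))) atTop
      (𝓝 (ENNReal.ofReal (((2 * C' + ε₀ / g.te 0 * 0) / 2 + C') * (g.te t * ps g t p)))) := by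
    refine ENNReal.tendsto_ofReal (Tendsto.mul_const _ (Tendsto.add_const _
      (Tendsto.div_const (Tendsto.const_add _ (Tendsto.const_mul _ ?_)) _)))
    exact tendsto_pow_atTop_nhds_zero_of_lt_one (by norm_num) (by norm_num)
  refine (ge_of_tendsto' hlim fun k => ?_).trans ?_
  · refine (step _ (by positivity) (iter k) t ht p).trans (le_of_eq ?_)
    rw [wt01 gb ht', ← ENNReal.ofReal_mul (by positivity)]
  · rw [psE, ← ENNReal.ofReal_mul (by positivity)]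
    refine ENNReal.ofReal_le_ofReal ?_
    rw [← mul_assoc]
    refine mul_le_mul_of_nonneg_right ?_ hps.le
    have := te_one gb ht'
    nlinarith

end

end Vale.Agent.P140
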