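import Vale.Agent.P140.StmC

/-!
The instability statement from the shooting statement.
-/

namespace Vale.Agent.P140

open MeasureTheory Set Filter Topology
open scoped ENNReal

namespace InstAux

theorem seq (hb : Base) (hD : DatStmt) {c κ R : ℝ} (ok : (⟨c, κ, R, 0⟩ : Geo).Ok) {K : ℕ → ℕ}
    (hK : Tendsto K atTop atTop) {Rn δn s : ℕ → ℝ} {F : ℕ → ℝ → Om → ℝ} (R0 : ∀ n, 0 < Rn n)
    (δ0 : ∀ n, 0 < δn n) (Rl : Tendsto Rn atTop atTop) (δl : Tendsto δn atTop (𝓝 0))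
    (s0 : ∀ n, 0 < s n) (s1 : ∀ n, s n ≤ (⟨c, κ, R, K n⟩ : Geo).r (K n))
    (ts : ∀ n, TS (Rn n) (δn n) (seed ⟨c, κ, R, K n⟩ (s n)) (F n)) :
    Seq Rn δn F (F00 ⟨c, κ, R, 0⟩) := by
  have okn : ∀ n, (⟨c, κ, R, K n⟩ : Geo).Ok := fun n => ⟨ok.c1, ok.κ0, ok.κ1, ok.R0, ok.R1⟩
  have e : ∀ n, F n 0 = seed ⟨c, κ, R, K n⟩ (s n) := fun n =>
    (hb.tsFl _ _ _ _ (R0 n) (δ0 n) (ts n)).1
  have hR0 : 0 < R := ok.R0
  have hR1 : R ≤ 1 := by
    have h1 : R ≤ κ ^ 2 := ok.R1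
    have h2 : 0 < κ := ok.κ0
    have h3 : κ ≤ 1 / 100 := ok.κ1
    nlinarith
  have s2 : ∀ n, s n ≤ R * (3999 / 4000) ^ K n := s1
  have sI : ∀ n, s n ∈ Icc (0 : ℝ) 1 := fun n => ⟨(s0 n).le, (s2 n).trans
    (mul_le_one₀ hR1 (by positivity) (pow_le_one₀ (by norm_num) (by norm_num)))⟩
  have sl : Tendsto s atTop (𝓝 0) := by
    refine squeeze_zero (fun n => (s0 n).le) s2 ?_
    have h := ((tendsto_pow_atTop_nhds_zero_of_lt_one (r := (3999 / 4000 : ℝ)) (by norm_num)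
      (by norm_num)).comp hK).const_mul R
    rwa [mul_zero] at h
  obtain ⟨h1, h2⟩ := hD.2 c κ R K s ok hK sI sl
  refine ⟨R0, δ0, Rl, δl, fun n => by rw [e]; exact ts n, fun n => ⟨s n, s0 n, fun p => ?_⟩,
    (hD.1 _ ok).1, by simpa only [e] using h1, by simpa only [e] using h2⟩
  rw [e]
  exact le_add_of_nonneg_left ((hD.1 _ (okn n)).2.1 p)

theorem ind {A : Set Om} (hA : MeasurableSet A) (f : Om → ℝ) :
    ∫ p, f p * A.indicator (fun _ => (1 : ℝ)) p = ∫ p in A, f p := by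
  rw [← integral_indicator hA]
  congr 1
  funext p
  by_cases h : p ∈ A <;> simp [h]

end InstAux

set_option linter.unusedVariables false in
theorem instC (hb : Base) (hc : BaseC) (hD : DatStmt) (hS : ShootStmt) : InstStmt := by
  obtain ⟨c, κ, R, T, a, b, A, ok, T0, ab, hA, h⟩ := hS
  obtain ⟨K₀, h⟩ := eventually_atTop.1 h
  choose R₁ δ₁ hR₁ hδ₁ h using fun n : ℕ => h (n + K₀) (Nat.le_add_left _ _)
  have δ0 : ∀ n : ℕ, 0 < min (δ₁ n) (1 / ((n : ℝ) + 1)) := fun n =>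
    lt_min (hδ₁ n) (by positivity)
  choose s₁ s₂ F₁ F₂ h1 h2 h3 h4 h5 h6 h7 h8 using fun n : ℕ =>
    h n (max (R₁ n) n) (min (δ₁ n) (1 / ((n : ℝ) + 1))) (le_max_left _ _) (δ0 n) (min_le_left _ _)
  have R0 : ∀ n : ℕ, 0 < max (R₁ n) n := fun n => lt_max_of_lt_left (hR₁ n)
  have Rl : Tendsto (fun n : ℕ => max (R₁ n) n) atTop atTop :=
    tendsto_atTop_mono (fun n => le_max_right _ _) tendsto_natCast_atTop_atTop
  have δl : Tendsto (fun n : ℕ => min (δ₁ n) (1 / ((n : ℝ) + 1))) atTop (𝓝 0) :=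
    squeeze_zero (fun n => (δ0 n).le) (fun n => min_le_right _ _)
      tendsto_one_div_add_atTop_nhds_zero_nat
  have hK : Tendsto (fun n : ℕ => n + K₀) atTop atTop := tendsto_add_atTop_nat K₀
  refine ⟨_, _, _, F₁, F₂, T, a, b, A.indicator fun _ => 1,
    InstAux.seq hb hD ok hK R0 δ0 Rl δl h1 h2 h5, InstAux.seq hb hD ok hK R0 δ0 Rl δl h3 h4 h6,
    T0, measurable_const.indicator hA, ⟨1, fun p => ?_⟩, ab, fun n => ?_⟩
  · by_cases h : p ∈ A <;> simp [h]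
  · rw [InstAux.ind hA, InstAux.ind hA]
    exact ⟨h7 n, h8 n⟩

end Vale.Agent.P140
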