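import Vale.Agent.P140.StmC

/-!
Removal of the bad velocities and the bad times from the main linear operator.
-/

namespace Vale.Agent.P140

open MeasureTheory Set Filter Topology
open scoped ENNReal

noncomputable section

namespace LYaAux

lemma bb_supp (hc : BaseC) {g : Geo} (hg : g.Ok) {s : ℝ} (hs : s ∈ Icc (0 : ℝ) 1) {x : T3} {u : E}
    (h : BB g s (x, u) ≠ 0) : InT g s x ∧ ‖u‖ ≤ 4 := by
  have h1 : CC g s (x, u) ≠ 0 := by
    unfold CC
    intro h0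
    exact h (add_eq_zero.1 h0).1
  obtain ⟨j, hj, hp⟩ := (hc.gb g hg).cc_supp s hs (x, u) h1
  refine ⟨⟨j, hj, hp.1⟩, ?_⟩
  have := ((hc.gb g hg).cold_v j s hs (x, u) hp).2.1
  linarith

/-- The bound of the singular integral, for one constant. -/
def SingC (C : ℝ) (g : Geo) : Prop :=
  ∀ t ∈ Icc (0 : ℝ) (1 / 32), ∀ p : Om,
    ∫⁻ u, BB g t (p.1, u) * (ENNReal.ofReal ‖p.2 - u‖)⁻¹ ≤
      ENNReal.ofReal (C * g.c / ‖pl p.1‖ * ((1 + sw g t p) / (1 + ‖p.2‖)))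

lemma gain_zero (hc : BaseC) {g : Geo} (hg : g.Ok) {s : ℝ} (hs : s ∈ Icc (0 : ℝ) 1) {x : T3}
    (hx : ¬ InT g s x) (φ : E → ℝ≥0∞) (v : E) : gainK kF (fun u => BB g s (x, u)) φ v = 0 := by
  refine hc.alg.gain_zero _ _ _ _ (Or.inl fun u => ?_)
  by_contra hne
  exact hx (bb_supp hc hg hs hne).1

lemma gain_le (hc : BaseC) {C : ℝ} (hC : 0 ≤ C) {g : Geo} (hg : g.Ok) (hS : SingC C g) {s : ℝ}
    (hs : s ∈ Icc (0 : ℝ) (1 / 32)) (q : Om) (χ : E → ℝ≥0∞) (hχ : Measurable χ) {δ N B : ℝ}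
    (hδ : 0 ≤ δ) (hN : 0 ≤ N)
    (hpl : ∀ (u : E) (ι : E2 →ₗᵢ[ℝ] E), ‖u‖ ≤ 4 → (∀ y, inner ℝ (ι y) (q.2 - u) = 0) →
      ∫⁻ y, χ (q.2 - ι y) ≤ ENNReal.ofReal (δ * (1 + ‖q.2‖) * ee s q.2))
    (hB : InT g s q.1 → g.te s / ‖pl q.1‖ ≤ B) :
    2 * gainK kF (fun u => BB g s (q.1, u)) (fun u => ENNReal.ofReal (N * g.te s) * χ u) q.2 ≤
      ENNReal.ofReal (4 * C * g.c * δ * N * B * ps g s q) := by
  have hs1 : s ∈ Icc (0 : ℝ) 1 := ⟨hs.1, hs.2.trans (by norm_num)⟩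
  by_cases hx : InT g s q.1
  swap
  · rw [gain_zero hc hg hs1 hx, mul_zero]; exact zero_le
  have hB' := hB hx
  have hgb := hc.gb g hg
  have hte : 0 ≤ g.te s := by
    have := hgb.te.1; have := hgb.te.2.2 s; linarith [hs.1]
  have hmB : Measurable (fun u => BB g s (q.1, u)) := hc.alg.jm_slice _ (hc.me.jm g).1 s q.1
  have hcarl := hc.alg.carl (fun u => BB g s (q.1, u))
    (fun u => ENNReal.ofReal (N * g.te s) * χ u) q.2
    (ENNReal.ofReal (N * g.te s) * ENNReal.ofReal (δ * (1 + ‖q.2‖) * ee s q.2)) hmB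
    (hχ.const_mul _) (by
      intro u hu ι hι
      rw [lintegral_const_mul' _ _ ENNReal.ofReal_ne_top]
      exact mul_le_mul_right (hpl u ι (bb_supp hc hg hs1 hu).2 hι) _)
  have hsing := hS s hs q
  obtain ⟨-, -, hsw, hee, -, -⟩ := hgb.ps_bd s hs q
  have hc1 := hg.c1
  have hn := norm_nonneg (pl q.1)
  have hv := norm_nonneg q.2
  have hA : 0 ≤ C * g.c / ‖pl q.1‖ * ((1 + sw g s q) / (1 + ‖q.2‖)) := by positivity
  have hN' : 0 ≤ N * g.te s := mul_nonneg hN hte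
  calc 2 * gainK kF (fun u => BB g s (q.1, u)) (fun u => ENNReal.ofReal (N * g.te s) * χ u) q.2
      ≤ 2 * (2 * ENNReal.ofReal (C * g.c / ‖pl q.1‖ * ((1 + sw g s q) / (1 + ‖q.2‖))) *
          (ENNReal.ofReal (N * g.te s) * ENNReal.ofReal (δ * (1 + ‖q.2‖) * ee s q.2))) := by
        refine mul_le_mul_right (hcarl.trans ?_) _
        gcongr
    _ = ENNReal.ofReal (2 * (2 * (C * g.c / ‖pl q.1‖ * ((1 + sw g s q) / (1 + ‖q.2‖))) *
          (N * g.te s * (δ * (1 + ‖q.2‖) * ee s q.2)))) := by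
        rw [ENNReal.ofReal_mul (by norm_num : (0 : ℝ) ≤ 2),
          ENNReal.ofReal_mul (mul_nonneg (by norm_num : (0 : ℝ) ≤ 2) hA),
          ENNReal.ofReal_mul (by norm_num : (0 : ℝ) ≤ 2), ENNReal.ofReal_mul hN',
          ENNReal.ofReal_ofNat]
    _ ≤ _ := by
        apply ENNReal.ofReal_le_ofReal
        have e1 : 2 * (2 * (C * g.c / ‖pl q.1‖ * ((1 + sw g s q) / (1 + ‖q.2‖))) *
            (N * g.te s * (δ * (1 + ‖q.2‖) * ee s q.2))) =
            4 * C * g.c * δ * N * (g.te s / ‖pl q.1‖) * ps g s q := by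
          unfold ps
          field_simp
          ring
        rw [e1]
        have hps : 0 ≤ ps g s q := by unfold ps; positivity
        have : 0 ≤ 4 * C * g.c * δ * N := by positivity
        gcongr

lemma wt_eq (hc : BaseC) {g : Geo} (hg : g.Ok) {s : ℝ} (hs : s ∈ Icc (0 : ℝ) (1 / 32)) (q : Om) :
    wt g 0 1 s q = ENNReal.ofReal (g.te s * ps g s q) := by
  unfold wt
  rw [((hc.gb g hg).tau_bd 0 le_rfl (by norm_num) s hs q).2.2.1, pow_one]

lemma te_nonneg (hc : BaseC) {g : Geo} (hg : g.Ok) {s : ℝ} (hs : 0 ≤ s) : 0 < g.te s := by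
  have := (hc.gb g hg).te.1; have := (hc.gb g hg).te.2.2 s; linarith

lemma h_le (hc : BaseC) {g : Geo} (hg : g.Ok) {s N : ℝ} (hs : s ∈ Icc (0 : ℝ) (1 / 32))
    (hN : 0 ≤ N) {h : ST} (hh : ∀ p, h s p ≤ ENNReal.ofReal N * wt g 0 1 s p) (q : Om) :
    h s q ≤ ENNReal.ofReal (N * g.te s) * psE g s q := by
  refine (hh q).trans (le_of_eq ?_)
  rw [wt_eq hc hg hs, ENNReal.ofReal_mul (te_nonneg hc hg hs.1).le, ENNReal.ofReal_mul hN,
    mul_assoc]
  rfl

/-- Plane bound for the profile. -/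
def PB1C (C : ℝ) (g : Geo) : Prop :=
  ∀ t ∈ Icc (0 : ℝ) (1 / 32), ∀ (x : T3) (v u : E)
    (ι : E2 →ₗᵢ[ℝ] E), ‖u‖ ≤ 4 → (∀ y, inner ℝ (ι y) (v - u) = 0) →
    ∫⁻ y, psE g t (x, v - ι y) ≤ ENNReal.ofReal (C * ee t v)

/-- Plane bound over the bad velocities. -/
def PB2C (ε η : ℝ) (g : Geo) : Prop :=
  ∀ t ∈ Icc (0 : ℝ) (1 / 32),
    ∀ (x : T3) (v u : E) (ι : E2 →ₗᵢ[ℝ] E), ‖u‖ ≤ 4 → (∀ y, inner ℝ (ι y) (v - u) = 0) →
    ∫⁻ y, (good η g.κ v)ᶜ.indicator (fun u => psE g t (x, u)) (v - ι y) ≤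
      ENNReal.ofReal (ε * (1 + ‖v‖) * ee t v)

lemma full_le (hc : BaseC) {C C₁ : ℝ} (hC : 0 ≤ C) (hC₁ : 0 ≤ C₁) {g : Geo} (hg : g.Ok)
    (hS : SingC C g) (h1 : PB1C C₁ g) {s N B : ℝ} (hs : s ∈ Icc (0 : ℝ) (1 / 32))
    (hN : 0 ≤ N) {h : ST} (hh : ∀ p, h s p ≤ ENNReal.ofReal N * wt g 0 1 s p) (q : Om)
    (hB : InT g s q.1 → g.te s / ‖pl q.1‖ ≤ B) :
    2 * G2 kF (BB g) h s q ≤ ENNReal.ofReal (4 * C * g.c * C₁ * N * B * ps g s q) := by
  have hm : Measurable (fun u => psE g s (q.1, u)) :=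
    hc.alg.jm_slice _ (hc.me.jm g).2.2.2.1 s q.1
  refine le_trans ?_ (gain_le hc hC hg hS hs q (fun u => psE g s (q.1, u)) hm hC₁ hN ?_ hB)
  · refine mul_le_mul_right ?_ _
    exact hc.alg.gain_mono _ _ _ _ _ _ _ (fun _ _ _ => le_rfl) (fun _ => le_rfl)
      (fun u => h_le hc hg hs hN hh (q.1, u))
  · intro u ι hu hι
    refine (h1 s hs q.1 q.2 u ι hu hι).trans (ENNReal.ofReal_le_ofReal ?_)
    have hee := ((hc.gb g hg).ps_bd s hs q).2.2.2.1
    have hv := norm_nonneg q.2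
    have : 0 ≤ C₁ * ‖q.2‖ * ee s q.2 := by positivity
    nlinarith

lemma te_div (hc : BaseC) {g : Geo} (hg : g.Ok) {s : ℝ} (hs : s ∈ Icc (0 : ℝ) (1 / 32)) {x : T3}
    (hx : InT g s x) : g.te s / ‖pl x‖ ≤ 1 / g.κ := by
  obtain ⟨h1, -, h3, -⟩ := (hc.gb g hg).inT s ⟨hs.1, hs.2.trans (by norm_num)⟩ x hx
  rw [div_le_div_iff₀ (norm_pos_iff.2 h3) hg.κ0]
  linarith

lemma cut_le (hb : Base) (hc : BaseC) {C ε η : ℝ} (hC : 0 ≤ C) (hε : 0 ≤ ε) {g : Geo} (hg : g.Ok)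
    (hS : SingC C g) (h2 : PB2C ε η g) {s N : ℝ} (hs : s ∈ Icc (0 : ℝ) (1 / 32))
    (hN : 0 ≤ N) {h : ST} (hm : JM h) (hh : ∀ p, h s p ≤ ENNReal.ofReal N * wt g 0 1 s p)
    (q : Om) :
    2 * G2 kF (BB g) h s q ≤ 2 * G2 kF (BB g) (restr (good η g.κ q.2) h) s q +
      ENNReal.ofReal (4 * C * g.c * ε * N * (1 / g.κ) * ps g s q) := by
  have hgood : MeasurableSet (good η g.κ q.2) := (hc.me.vv η g.κ).2.1 q.2
  have hmp : Measurable (fun u => psE g s (q.1, u)) :=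
    hc.alg.jm_slice _ (hc.me.jm g).2.2.2.1 s q.1
  have hmB : Measurable (fun u => BB g s (q.1, u)) := hc.alg.jm_slice _ (hc.me.jm g).1 s q.1
  have hmr : Measurable (fun u => restr (good η g.κ q.2) h s (q.1, u)) :=
    hc.alg.jm_slice _ (hc.alg.jm_restr _ h hgood hm) s q.1
  have hle := gain_le hc hC hg hS hs q
    ((good η g.κ q.2)ᶜ.indicator (fun u => psE g s (q.1, u))) (hmp.indicator hgood.compl) hε hN
    (fun u ι hu hι => h2 s hs q.1 q.2 u ι hu hι) (te_div hc hg hs)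
  refine le_trans ?_ (add_le_add_right hle _)
  rw [← mul_add]
  refine mul_le_mul_right ?_ _
  unfold G2
  rw [← hc.alg.gain_add_right _ _ _ _ _ hb.meas.1 hmB hmr]
  refine hc.alg.gain_mono _ _ _ _ _ _ _ (fun _ _ _ => le_rfl) (fun _ => le_rfl) (fun u => ?_)
  by_cases hu : u ∈ good η g.κ q.2
  · have : restr (good η g.κ q.2) h s (q.1, u) = h s (q.1, u) := by
      unfold restr; exact indicator_of_mem hu _
    rw [this]; exact le_self_add
  · rw [indicator_of_mem (show u ∈ (good η g.κ q.2)ᶜ from hu)]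
    exact (h_le hc hg hs hN hh (q.1, u)).trans le_add_self

/-- The times spent in the thin shell. -/
lemma shell (hc : BaseC) {g : Geo} (hg : g.Ok) {η t : ℝ} (hη : 0 < η) (hη1 : η ≤ 1)
    (hR : g.R ≤ η / 8) (ht : t ∈ Icc (0 : ℝ) g.R) {p : Om} (hp : p.2 ∈ VV η g.κ) :
    volume {s : ℝ | s ∈ Ioc 0 t ∧ InT g s (fl (s - t) p).1 ∧
      g.lab s (fl (s - t) p).1 ≤ η ^ 4 * g.te s} ≤ ENNReal.ofReal (8 * η * g.te t) := by
  have hgb := hc.gb g hg
  have hR1 := hgb.R_le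
  have hR0 := hg.R0
  have hκ0 := hg.κ0
  have hκ1 := hg.κ1
  rcases Set.eq_empty_or_nonempty {s : ℝ | s ∈ Ioc 0 t ∧ InT g s (fl (s - t) p).1 ∧
      g.lab s (fl (s - t) p).1 ≤ η ^ 4 * g.te s} with he | ⟨s₀, hs₀, hT₀, -⟩
  · rw [he, measure_empty]; exact zero_le
  set p₀ := fl (s₀ - t) p with hp₀
  set X := pl p₀.1 with hX
  set w := hz p.2 with hw
  have hs₀1 : s₀ ∈ Icc (0 : ℝ) 1 := ⟨hs₀.1.le, by linarith [hs₀.2, ht.2]⟩
  have hXle : ‖X‖ ≤ 2 * g.R := by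
    have := (hgb.inT s₀ hs₀1 _ hT₀).2.1
    have e1 : g.κ * s₀ ≤ 1 * g.R :=
      mul_le_mul (by linarith) (hs₀.2.trans ht.2) hs₀.1.le zero_le_one
    linarith
  have hwle : ‖w‖ ≤ 1 / η := (hc.ga.norm_sq p.2).2.1.trans hp.1
  have hlift : ∀ s ∈ Ioc 0 t, pl (fl (s - t) p).1 = X + ((s - s₀ : ℝ) : ℂ) * w := by
    intro s hs
    have e1 : fl (s - t) p = fl (s - s₀) p₀ := by rw [hp₀, fl_fl]; congr 1; ring
    rw [e1]
    refine hc.ga.lift p₀ (s - s₀) ?_
    have e2 : |s - s₀| ≤ g.R := by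
      rw [abs_le]; constructor <;> linarith [hs.1, hs.2, hs₀.1, hs₀.2, ht.2]
    have e3 : |s - s₀| * ‖w‖ ≤ g.R * (1 / η) := mul_le_mul e2 hwle (norm_nonneg _) hR0.le
    have e4 : g.R * (1 / η) ≤ 1 / 8 := by
      rw [mul_one_div, div_le_iff₀ hη]; linarith
    have e5 : hz p₀.2 = w := rfl
    rw [e5]; linarith
  have hA : η ^ 2 ≤ |‖w‖ ^ 2 - g.κ ^ 2| := by
    have e1 : η ≤ |‖w‖ - g.κ| := hp.2
    have e2 : |‖w‖ - g.κ| ≤ ‖w‖ + g.κ := by
      rw [abs_le]; constructor <;> linarith [norm_nonneg w]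
    have e3 : |‖w‖ ^ 2 - g.κ ^ 2| = |‖w‖ - g.κ| * (‖w‖ + g.κ) := by
      rw [show ‖w‖ ^ 2 - g.κ ^ 2 = (‖w‖ - g.κ) * (‖w‖ + g.κ) by ring, abs_mul,
        abs_of_nonneg (by linarith [norm_nonneg w] : 0 ≤ ‖w‖ + g.κ)]
    rw [e3]; nlinarith
  have hA0 : 0 < |‖w‖ ^ 2 - g.κ ^ 2| := (pow_pos hη 2).trans_le hA
  have hte := te_nonneg hc hg ht.1
  have hq := hc.en.qsl (‖w‖ ^ 2 - g.κ ^ 2) (2 * (starRingEnd ℂ X * w).re - 2 * s₀ * ‖w‖ ^ 2)
    (‖X‖ ^ 2 - 2 * s₀ * (starRingEnd ℂ X * w).re + s₀ ^ 2 * ‖w‖ ^ 2) (4 * η ^ 4 * g.te t ^ 2)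
    (abs_pos.1 hA0) (by positivity)
  refine le_trans (measure_mono ?_) (hq.trans (ENNReal.ofReal_le_ofReal ?_))
  · rintro s ⟨hs, hT, hl⟩
    have hs1 : s ∈ Icc (0 : ℝ) 1 := ⟨hs.1.le, by linarith [hs.2, ht.2]⟩
    have e0 := (hgb.inT s hs1 _ hT).2.2.2
    have e1 := (hgb.r_pos (g.K + 1)).1
    unfold Geo.lab at e0 hl
    rw [hlift s hs] at e0 hl
    set Y := X + ((s - s₀ : ℝ) : ℂ) * w with hY
    have e2 : (‖w‖ ^ 2 - g.κ ^ 2) * s ^ 2 + (2 * (starRingEnd ℂ X * w).re - 2 * s₀ * ‖w‖ ^ 2) * s +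
        (‖X‖ ^ 2 - 2 * s₀ * (starRingEnd ℂ X * w).re + s₀ ^ 2 * ‖w‖ ^ 2) =
        (‖Y‖ - g.κ * s) * (‖Y‖ + g.κ * s) := by
      have : ‖Y‖ ^ 2 = ‖X‖ ^ 2 + 2 * (s - s₀) * (starRingEnd ℂ X * w).re +
          (s - s₀) ^ 2 * ‖w‖ ^ 2 := by
        rw [hY, Complex.sq_norm, Complex.sq_norm, Complex.sq_norm, Complex.normSq_apply,
          Complex.normSq_apply, Complex.normSq_apply]
        simp only [Complex.mul_re, Complex.add_re, Complex.add_im, Complex.mul_im, Complex.conj_re,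
          Complex.conj_im, Complex.ofReal_re, Complex.ofReal_im]
        ring
      nlinarith
    show |(‖w‖ ^ 2 - g.κ ^ 2) * s ^ 2 + (2 * (starRingEnd ℂ X * w).re - 2 * s₀ * ‖w‖ ^ 2) * s +
        (‖X‖ ^ 2 - 2 * s₀ * (starRingEnd ℂ X * w).re + s₀ ^ 2 * ‖w‖ ^ 2)| ≤
        4 * η ^ 4 * g.te t ^ 2
    rw [e2]
    have e3 : g.te s ≤ g.te t := by
      have := hgb.te.2.2 s; have := hgb.te.2.2 t; linarith [hs.2]
    have e4 : s ≤ g.te t := by
      have := hgb.te.2.2 t; have := hgb.te.1; linarith [hs.2]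
    have e5 : η ^ 4 ≤ 1 := pow_le_one₀ hη.le hη1
    have e6 : 0 < η ^ 4 := pow_pos hη 4
    have e7 : ‖Y‖ - g.κ * s ≤ η ^ 4 * g.te t := hl.trans (mul_le_mul_of_nonneg_left e3 e6.le)
    have e8 : η ^ 4 * g.te t ≤ g.te t := by nlinarith
    have e9 : g.κ * s ≤ 1 * g.te t := mul_le_mul (by linarith) e4 hs.1.le zero_le_one
    have e10 : 0 ≤ g.κ * s := mul_nonneg hκ0.le hs.1.le
    have e11 : 0 ≤ ‖Y‖ - g.κ * s := by linarith
    have e12 : 0 ≤ ‖Y‖ + g.κ * s := by linarith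
    rw [abs_of_nonneg (mul_nonneg e11 e12)]
    calc (‖Y‖ - g.κ * s) * (‖Y‖ + g.κ * s) ≤ (η ^ 4 * g.te t) * (4 * g.te t) :=
          mul_le_mul e7 (by linarith) e12 (by positivity)
      _ = _ := by ring
  · have e1 : 4 * η ^ 4 * g.te t ^ 2 / |‖w‖ ^ 2 - g.κ ^ 2| ≤ (2 * η * g.te t) ^ 2 := by
      rw [div_le_iff₀ hA0]
      have : (2 * η * g.te t) ^ 2 * η ^ 2 ≤ (2 * η * g.te t) ^ 2 * |‖w‖ ^ 2 - g.κ ^ 2| :=
        mul_le_mul_of_nonneg_left hA (sq_nonneg _)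
      nlinarith
    have e2 := Real.sqrt_le_sqrt e1
    rw [Real.sqrt_sq (by positivity)] at e2
    linarith

lemma ps_nonneg (hc : BaseC) {g : Geo} (hg : g.Ok) {t : ℝ} (ht : t ∈ Icc (0 : ℝ) (1 / 32))
    (p : Om) : 0 ≤ ps g t p := by
  obtain ⟨-, h2, -, h4, -⟩ := (hc.gb g hg).ps_bd t ht p
  linarith

lemma part1 (hb : Base) (hc : BaseC) {C ε ε' η : ℝ} (hC : 0 ≤ C) (hε : 0 ≤ ε') {g : Geo}
    (hg : g.Ok) (hS : SingC C g) (h2 : PB2C ε' η g) (hεε : 4 * C * g.c * ε' * (1 / g.κ) ≤ ε)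
    {t N : ℝ} (ht : t ∈ Icc (0 : ℝ) (1 / 32))
    (hN : 0 ≤ N) {h : ST} (hm : JM h)
    (hh : ∀ s ∈ Icc (0 : ℝ) t, ∀ p, h s p ≤ ENNReal.ofReal N * wt g 0 1 s p) (p : Om) :
    GB g h t p ≤ ENNReal.ofReal (ε * N) * wt g 0 1 t p + GB g (restr (VV η g.κ) h) t p := by
  have hps := ps_nonneg hc hg ht p
  have hc1 := hg.c1
  have hκ := hg.κ0
  have hε0 : 0 ≤ ε := le_trans (by positivity) hεε
  have hte := te_nonneg hc hg ht.1
  unfold GB duh
  calc ∫⁻ s in Ioc 0 t, 2 * G2 kF (BB g) h s (fl (s - t) p)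
      ≤ ∫⁻ s in Ioc 0 t, (ENNReal.ofReal (ε * N * ps g t p) +
          2 * G2 kF (BB g) (restr (VV η g.κ) h) s (fl (s - t) p)) := by
        refine setLIntegral_mono' measurableSet_Ioc fun s hs => ?_
        have hs' : s ∈ Icc (0 : ℝ) (1 / 32) := ⟨hs.1.le, hs.2.trans ht.2⟩
        refine (cut_le hb hc hC hε hg hS h2 hs' hN hm (hh s ⟨hs.1.le, hs.2⟩) _).trans ?_
        rw [add_comm]
        refine add_le_add (ENNReal.ofReal_le_ofReal ?_) (mul_le_mul_right ?_ _)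
        · have e1 := (hc.gb g hg).ps_mono s t hs.1.le hs.2 ht.2 p
          have e2 := ps_nonneg hc hg hs' (fl (s - t) p)
          calc 4 * C * g.c * ε' * N * (1 / g.κ) * ps g s (fl (s - t) p)
              = 4 * C * g.c * ε' * (1 / g.κ) * N * ps g s (fl (s - t) p) := by ring
            _ ≤ ε * N * ps g t p := by gcongr
        · refine hc.alg.gain_mono _ _ _ _ _ _ _ (fun _ _ _ => le_rfl) (fun _ => le_rfl)
            (fun u => ?_)
          unfold restr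
          exact indicator_le_indicator_of_subset (fun u hu => hu.1) (fun _ => zero_le) _
    _ = ENNReal.ofReal (ε * N * ps g t p) * ENNReal.ofReal t +
          ∫⁻ s in Ioc 0 t, 2 * G2 kF (BB g) (restr (VV η g.κ) h) s (fl (s - t) p) := by
        rw [lintegral_add_left measurable_const, setLIntegral_const, Real.volume_Ioc, sub_zero]
    _ ≤ _ := by
        refine add_le_add_left ?_ _
        rw [wt_eq hc hg ht, ← ENNReal.ofReal_mul (by positivity),
          ← ENNReal.ofReal_mul (by positivity)]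
        apply ENNReal.ofReal_le_ofReal
        have e1 : t ≤ g.te t := by
          have := (hc.gb g hg).te.2.2 t; have := (hc.gb g hg).te.1; linarith
        calc ε * N * ps g t p * t ≤ ε * N * ps g t p * g.te t := by gcongr
          _ = _ := by ring

lemma part2 (hb : Base) (hc : BaseC) {C C₁ ε ε' η : ℝ} (hC : 0 ≤ C) (hC₁ : 0 ≤ C₁) (hε : 0 ≤ ε')
    {g : Geo} (hg : g.Ok) (hS : SingC C g) (h1 : PB1C C₁ g) (h2 : PB2C ε' η g) (hη : 0 < η)
    (hη1 : η ≤ 1) (hR : g.R ≤ η / 8)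
    (hεε : 4 * C * g.c * ε' * (1 / g.κ) + 44 * C * g.c * C₁ * (1 / g.κ) * η ≤ ε)
    {t N : ℝ} (htR : t ∈ Icc (0 : ℝ) g.R) (hN : 0 ≤ N) {h : ST} (hm : JM h)
    (hh : ∀ s ∈ Icc (0 : ℝ) t, ∀ p, h s p ≤ ENNReal.ofReal N * wt g 0 1 s p) (p : Om)
    (hp : p.2 ∈ VV η g.κ) :
    GB g h t p ≤ ENNReal.ofReal (ε * N) * wt g 0 1 t p + GK g η h t p := by
  have hgb := hc.gb g hg
  have ht : t ∈ Icc (0 : ℝ) (1 / 32) := ⟨htR.1, by linarith [htR.2, hgb.R_le]⟩
  have hps := ps_nonneg hc hg ht p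
  have hc1 := hg.c1
  have hκ := hg.κ0
  have hκ1 := hg.κ1
  have hε0 : 0 ≤ ε := le_trans (by positivity) hεε
  have hte := te_nonneg hc hg ht.1
  set Sh := {s : ℝ | s ∈ Ioc 0 t ∧ InT g s (fl (s - t) p).1 ∧
      g.lab s (fl (s - t) p).1 ≤ η ^ 4 * g.te s} with hSh
  set Bad := toMeasurable volume (Ioc 0 (η * g.te t) ∪ Ioc (t - η * g.te t) t ∪ Sh) with hBad
  have hBm : MeasurableSet Bad := measurableSet_toMeasurable _ _
  have hBv : volume Bad ≤ ENNReal.ofReal (10 * η * g.te t) := by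
    rw [hBad, measure_toMeasurable]
    refine (measure_union_le _ _).trans ?_
    refine (add_le_add (measure_union_le _ _) (shell hc hg hη hη1 hR htR hp)).trans ?_
    have e1 : 0 ≤ η * g.te t := by positivity
    rw [Real.volume_Ioc, Real.volume_Ioc, ← ENNReal.ofReal_add (by linarith) (by linarith),
      ← ENNReal.ofReal_add (by linarith) (by positivity)]
    apply ENNReal.ofReal_le_ofReal
    linarith
  set K₁ := (4 * C * g.c * ε' * (1 / g.κ) + 4 * C * g.c * C₁ * η) * N * ps g t p with hK₁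
  set K₂ := 4 * C * g.c * C₁ * N * (1 / g.κ) * ps g t p with hK₂
  have hK₁0 : 0 ≤ K₁ := by positivity
  have hK₂0 : 0 ≤ K₂ := by positivity
  have hcut : MeasurableSet (cutS g η t p) := (hc.me.kk g η).2.2 t p
  unfold GB duh GK
  calc ∫⁻ s in Ioc 0 t, 2 * G2 kF (BB g) h s (fl (s - t) p)
      ≤ ∫⁻ s in Ioc 0 t, ((ENNReal.ofReal K₁ + Bad.indicator (fun _ => ENNReal.ofReal K₂) s) +
          (cutS g η t p).indicator
            (fun s => 2 * G2 kF (BB g) (restr (good η g.κ p.2) h) s (fl (s - t) p)) s) := by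
        refine setLIntegral_mono' measurableSet_Ioc fun s hs => ?_
        have hs' : s ∈ Icc (0 : ℝ) (1 / 32) := ⟨hs.1.le, hs.2.trans ht.2⟩
        have e1 := hgb.ps_mono s t hs.1.le hs.2 ht.2 p
        have e2 := ps_nonneg hc hg hs' (fl (s - t) p)
        have hhs := hh s ⟨hs.1.le, hs.2⟩
        by_cases hsc : s ∈ cutS g η t p
        · rw [indicator_of_mem hsc, add_comm]
          refine (cut_le hb hc hC hε hg hS h2 hs' hN hm hhs _).trans ?_
          refine add_le_add_right (le_trans (ENNReal.ofReal_le_ofReal ?_) le_self_add) _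
          have e3 : 0 ≤ 4 * C * g.c * C₁ * η * N * ps g t p := by positivity
          calc 4 * C * g.c * ε' * N * (1 / g.κ) * ps g s (fl (s - t) p)
              ≤ 4 * C * g.c * ε' * N * (1 / g.κ) * ps g t p := by gcongr
            _ ≤ K₁ := by rw [hK₁]; nlinarith
        refine le_trans ?_ le_self_add
        by_cases hT : InT g s (fl (s - t) p).1
        swap
        · unfold G2
          rw [gain_zero hc hg ⟨hs'.1, hs'.2.trans (by norm_num)⟩ hT, mul_zero]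
          exact zero_le
        by_cases hsB : s ∈ Bad
        · rw [indicator_of_mem hsB]
          refine le_trans ?_ le_add_self
          refine (full_le hc hC hC₁ hg hS h1 hs' hN hhs _ (te_div hc hg hs')).trans
            (ENNReal.ofReal_le_ofReal ?_)
          rw [hK₂]; gcongr
        refine le_trans ?_ le_self_add
        have hn : s ∉ Ioc 0 (η * g.te t) ∪ Ioc (t - η * g.te t) t ∪ Sh :=
          fun hx => hsB (subset_toMeasurable _ _ hx)
        have n1 : η * g.te t ≤ g.te s := by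
          by_contra hlt
          push Not at hlt
          refine hn (Or.inl (Or.inl ⟨hs.1, ?_⟩))
          have := hgb.te.2.2 s; have := hgb.te.1; linarith
        have n2 : s ≤ t - η * g.te t := by
          by_contra hlt
          push Not at hlt
          exact hn (Or.inl (Or.inr ⟨hlt, hs.2⟩))
        have n3 : η ^ 4 * g.te s < g.lab s (fl (s - t) p).1 := by
          by_contra hlt
          push Not at hlt
          exact hn (Or.inr ⟨hs, hT, hlt⟩)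
        have n4 : g.te s / η < ‖pl (fl (s - t) p).1‖ := by
          by_contra hlt
          push Not at hlt
          exact hsc ⟨n1, n2, n3, hlt⟩
        have n5 : g.te s / ‖pl (fl (s - t) p).1‖ ≤ η := by
          have e3 := te_nonneg hc hg hs.1.le
          have e4 : 0 < ‖pl (fl (s - t) p).1‖ := lt_trans (by positivity) n4
          rw [div_lt_iff₀ hη] at n4
          rw [div_le_iff₀ e4]; linarith
        refine (full_le hc hC hC₁ hg hS h1 hs' hN hhs _ (fun _ => n5)).trans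
          (ENNReal.ofReal_le_ofReal ?_)
        have e3 : 0 ≤ 4 * C * g.c * ε' * (1 / g.κ) * N * ps g t p := by positivity
        calc 4 * C * g.c * C₁ * N * η * ps g s (fl (s - t) p)
            ≤ 4 * C * g.c * C₁ * N * η * ps g t p := by gcongr
          _ ≤ K₁ := by rw [hK₁]; nlinarith
    _ ≤ (ENNReal.ofReal K₁ * ENNReal.ofReal t +
          ENNReal.ofReal K₂ * ENNReal.ofReal (10 * η * g.te t)) +
          ∫⁻ s in Ioc 0 t ∩ cutS g η t p,
            2 * G2 kF (BB g) (restr (good η g.κ p.2) h) s (fl (s - t) p) := by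
        have hmm : Measurable (fun s : ℝ =>
            ENNReal.ofReal K₁ + Bad.indicator (fun _ => ENNReal.ofReal K₂) s) :=
          (measurable_const.indicator hBm).const_add _
        rw [lintegral_add_left hmm,
          lintegral_add_left measurable_const, setLIntegral_const, Real.volume_Ioc, sub_zero,
          lintegral_indicator hcut, Measure.restrict_restrict hcut, inter_comm,
          lintegral_indicator_const hBm]
        gcongr
        exact (Measure.restrict_apply_le _ _).trans hBv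
    _ ≤ _ := by
        refine add_le_add_left ?_ _
        rw [wt_eq hc hg ht, ← ENNReal.ofReal_mul hK₁0, ← ENNReal.ofReal_mul hK₂0,
          ← ENNReal.ofReal_mul (by positivity),
          ← ENNReal.ofReal_add (mul_nonneg hK₁0 ht.1) (by positivity)]
        apply ENNReal.ofReal_le_ofReal
        have e1 : t ≤ g.te t := by
          have := hgb.te.2.2 t; have := hgb.te.1; linarith
        have e2 : 1 ≤ 1 / g.κ := by rw [le_div_iff₀ hκ]; linarith
        have e3 : 4 * C * g.c * C₁ * η ≤ 4 * C * g.c * C₁ * (1 / g.κ) * η := by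
          have : 0 ≤ 4 * C * g.c * C₁ * η := by positivity
          nlinarith
        calc K₁ * t + K₂ * (10 * η * g.te t) ≤ K₁ * g.te t + K₂ * (10 * η * g.te t) := by gcongr
          _ = (4 * C * g.c * ε' * (1 / g.κ) + 4 * C * g.c * C₁ * η +
              40 * C * g.c * C₁ * (1 / g.κ) * η) * (N * (g.te t * ps g t p)) := by
            rw [hK₁, hK₂]; ring
          _ ≤ ε * (N * (g.te t * ps g t p)) := by
            refine mul_le_mul_of_nonneg_right (by linarith) (by positivity)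
          _ = _ := by ring

end LYaAux

open LYaAux in
theorem lya (hb : Base) (hc : BaseC) (hS : SingStmt) (h1 : PB1Stmt) (h2 : PB2Stmt) : LYaStmt := by
  intro c κ ε hc1 hκ0 hκ1 hε
  obtain ⟨C, hC, hS⟩ := hS
  obtain ⟨C₁, hC₁, h1⟩ := h1
  have hε' : 0 < ε * κ / (8 * C * c) := by positivity
  have hη₀ : 0 < min 1 (ε * κ / (88 * C * c * C₁)) := lt_min one_pos (by positivity)
  filter_upwards [h2 _ hε', Ioc_mem_nhdsGT hη₀] with η hη2 hη
  have hη0 := hη.1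
  have hη1 : η ≤ 1 := hη.2.trans (min_le_left _ _)
  have hη3 : η ≤ ε * κ / (88 * C * c * C₁) := hη.2.trans (min_le_right _ _)
  have hR₀ : 0 < min (κ ^ 2) (η / 8) := lt_min (by positivity) (by positivity)
  unfold EvR
  filter_upwards [Ioc_mem_nhdsGT hR₀] with R hR K
  have hg : (⟨c, κ, R, K⟩ : Geo).Ok := ⟨hc1, hκ0, hκ1, hR.1, hR.2.trans (min_le_left _ _)⟩
  intro h N hm hN T hT hh t ht p
  have e1 : 4 * C * c * (ε * κ / (8 * C * c)) * (1 / κ) = ε / 2 := by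
    field_simp; ring
  have e2 : 44 * C * c * C₁ * (1 / κ) * η ≤ ε / 2 := by
    have : 44 * C * c * C₁ * (1 / κ) * (ε * κ / (88 * C * c * C₁)) = ε / 2 := by
      field_simp; ring
    rw [← this]; gcongr
  have hh' : ∀ s ∈ Icc (0 : ℝ) t, ∀ p, h s p ≤ ENNReal.ofReal N * wt ⟨c, κ, R, K⟩ 0 1 s p :=
    fun s hs => hh s ⟨hs.1, hs.2.trans ht.2⟩
  have htR : t ∈ Icc (0 : ℝ) R := ⟨ht.1, ht.2.trans hT.2⟩
  have hRle : R ≤ 1 / 10000 := (hc.gb _ hg).R_le
  refine ⟨part1 hb hc (C := C) (by linarith) hε'.le hg (fun t ht p => (hS _ hg t ht p).1)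
    (hη2 _ hg) (by show 4 * C * c * _ * (1 / κ) ≤ ε; linarith) ⟨ht.1, by linarith [htR.2]⟩
    hN hm hh' p, fun hp => ?_⟩
  exact part2 hb hc (C := C) (C₁ := C₁) (by linarith) (by linarith) hε'.le hg
    (fun t ht p => (hS _ hg t ht p).1) (h1 _ hg) (hη2 _ hg) hη0 hη1
    (hR.2.trans (min_le_right _ _))
    (by show 4 * C * c * _ * (1 / κ) + 44 * C * c * C₁ * (1 / κ) * η ≤ ε; linarith) htR hN hm hh'
    p hp

end

end Vale.Agent.P140
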