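import Vale.Agent.P140.StmC

namespace Vale.Agent.P140

open MeasureTheory Set Filter Topology
open scoped ENNReal

noncomputable section

namespace LYbAux

lemma ker (hb : Base) (hc : BaseC) (hD : DensUStmt) {g : Geo} (hg : g.Ok) {η s m : ℝ}
    (hη : 0 < η) (hs : s ∈ Icc (0 : ℝ) 1) {x : T3} (hm : 0 < m) (hx : m ≤ g.lab s x) (v : E)
    {f : E → ℝ≥0∞} (hf : Measurable f) :
    gainK kF (fun u => BB g s (x, u)) ((good η g.κ v).indicator f) v ≤
      ENNReal.ofReal (8 * g.c / (η * m ^ 8)) * ∫⁻ u in VV η g.κ, f u := by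
  have gb := hc.gb g hg
  have hB : Measurable fun u => BB g s (x, u) := hc.alg.jm_slice _ (hc.me.jm g).1 s x
  have hG := (hc.me.vv η g.κ).2.1 v
  have hF : Measurable ((good η g.κ v).indicator f) := hf.indicator hG
  by_cases hT : InT g s x
  swap
  · rw [hc.alg.gain_zero _ _ _ _ (Or.inl fun u => ?_)]
    · exact zero_le
    · by_contra h
      obtain ⟨j, hj, h1⟩ := gb.cc_supp s hs (x, u) fun h2 => h (add_eq_zero.1 h2).1
      exact hT ⟨j, hj, h1.1⟩
  obtain ⟨j, -, hj⟩ := hT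
  have hr : m < g.r j := hx.trans_lt (gb.tube j s hs x hj).2
  have hc0 : 0 < g.c := by linarith [hg.c1]
  rw [(hb.sym.2 _ _ hB hF v).1]
  refine (hc.alg.carl _ _ v (ENNReal.ofReal (4 * g.c / m ^ 8)) hF hB fun u _ ι _ =>
    ((hD g hg s hs x).2.2 j hj v ι).trans (ENNReal.ofReal_le_ofReal (by gcongr))).trans ?_
  have h1 : ∫⁻ u, (good η g.κ v).indicator f u * (ENNReal.ofReal ‖v - u‖)⁻¹ ≤
      ENNReal.ofReal η⁻¹ * ∫⁻ u in VV η g.κ, f u := by
    rw [← lintegral_const_mul' _ _ ENNReal.ofReal_ne_top,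
      ← lintegral_indicator (hc.me.vv η g.κ).1]
    refine lintegral_mono fun u => ?_
    by_cases hu : u ∈ good η g.κ v
    · rw [indicator_of_mem hu, indicator_of_mem hu.1, mul_comm, ENNReal.ofReal_inv_of_pos hη]
      refine mul_le_mul' (ENNReal.inv_le_inv.2 (ENNReal.ofReal_le_ofReal ?_)) le_rfl
      rw [norm_sub_rev]
      exact hu.2
    · rw [indicator_of_notMem hu, zero_mul]
      exact zero_le
  refine (mul_le_mul' (mul_le_mul' le_rfl h1) le_rfl).trans (le_of_eq ?_)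
  rw [show 8 * g.c / (η * m ^ 8) = 2 * (η⁻¹ * (4 * g.c / m ^ 8)) by field_simp; norm_num,
    ENNReal.ofReal_mul zero_le_two, ENNReal.ofReal_mul (by positivity), ENNReal.ofReal_ofNat]
  ring

/-- Density of the part in the Harnack set. -/
def th (g : Geo) (η : ℝ) (h : ST) (s : ℝ) (x : T3) : ℝ≥0∞ :=
  ∫⁻ u, (KK g η s).indicator (h s) (x, u)

lemma th_meas (hc : BaseC) (g : Geo) (η : ℝ) {h : ST} (hh : JM h) :
    Measurable fun y : ℝ × T3 => th g η h y.1 y.2 := by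
  have h1 : Measurable fun y : ℝ × Om => (KK g η y.1).indicator (h y.1) y.2 :=
    Measurable.indicator (s := {y : ℝ × Om | y.2 ∈ KK g η y.1}) hh (hc.me.kk g η).1
  have h2 : Measurable fun z : (ℝ × T3) × E => (KK g η z.1.1).indicator (h z.1.1) (z.1.2, z.2) :=
    h1.comp (f := fun z : (ℝ × T3) × E => (z.1.1, (z.1.2, z.2))) (by fun_prop)
  exact h2.lintegral_prod_right'

lemma th_int (hc : BaseC) (g : Geo) (η : ℝ) {h : ST} (hh : JM h) (s : ℝ) :
    ∫⁻ x, th g η h s x = ∫⁻ p in KK g η s, h s p := by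
  rw [← lintegral_indicator ((hc.me.kk g η).2.1 s), Measure.volume_eq_prod,
    lintegral_prod _ ((hc.alg.jm_time h hh s).indicator ((hc.me.kk g η).2.1 s)).aemeasurable]
  rfl

/-- Admissible earlier times. -/
def SA (g : Geo) (η t : ℝ) : Set ℝ := Ioc 0 t ∩ Iic (t - η * g.te t)

def II (g : Geo) (η : ℝ) (h : ST) (t : ℝ) (x : T3) (u : E) : ℝ≥0∞ :=
  ∫⁻ s in SA g η t, th g η h s (x - pr ((t - s) • u))

lemma II_aux (hc : BaseC) (g : Geo) (η : ℝ) {h : ST} (hh : JM h) (t : ℝ) (x : T3) :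
    Measurable fun z : E × ℝ => th g η h z.2 (x - pr ((t - z.2) • z.1)) :=
  (th_meas hc g η hh).comp (f := fun z : E × ℝ => (z.2, x - pr ((t - z.2) • z.1)))
    (measurable_snd.prodMk (continuous_const.sub (continuous_pr.comp (by fun_prop))).measurable)

lemma inner_bd (hb : Base) (hc : BaseC) (hD : DensUStmt) {g : Geo} (hg : g.Ok) {η t : ℝ}
    (hη : 0 < η) (ht : t ∈ Icc (0 : ℝ) 1) {h : ST} (hh : JM h) (x : T3) (u : E) :
    GK g η h t (x, u) ≤
      ENNReal.ofReal (16 * g.c / (η * (η ^ 5 * g.te t) ^ 8)) * II g η h t x u := by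
  have gb := hc.gb g hg
  have hte : 0 < g.te t := by rw [gb.te.2.2]; linarith [gb.te.1, ht.1]
  have hc0 : 0 < g.c := by linarith [hg.c1]
  rw [II, ← lintegral_const_mul' _ _ ENNReal.ofReal_ne_top]
  refine le_trans (setLIntegral_mono' (measurableSet_Ioc.inter ((hc.me.kk g η).2.2 t (x, u)))
    fun s hs => ?_) (lintegral_mono_set fun s hs => ⟨hs.1, hs.2.2.1⟩)
  obtain ⟨hs1, h1, -, h3, h4⟩ := hs
  have e : (fl (s - t) (x, u)).1 = x - pr ((t - s) • u) := by
    rw [sub_eq_add_neg x, ← pr_neg, ← neg_smul, neg_sub]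
    rfl
  have hm : η ^ 5 * g.te t ≤ g.lab s (fl (s - t) (x, u)).1 := by
    have : η ^ 4 * (η * g.te t) ≤ η ^ 4 * g.te s := by gcongr
    nlinarith
  have hk := ker hb hc hD hg hη ⟨hs1.1.le, hs1.2.trans ht.2⟩ (by positivity) hm u
    (hc.alg.jm_slice h hh s (fl (s - t) (x, u)).1)
  refine (mul_le_mul' le_rfl hk).trans ?_
  rw [← mul_assoc, ← e]
  refine mul_le_mul' (le_of_eq (by
    rw [← ENNReal.ofReal_ofNat 2, ← ENNReal.ofReal_mul zero_le_two]; congr 1; ring)) ?_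
  rw [← lintegral_indicator (hc.me.vv η g.κ).1]
  refine lintegral_mono fun w => ?_
  by_cases hw : w ∈ VV η g.κ
  · rw [indicator_of_mem hw, indicator_of_mem (show (_, w) ∈ KK g η s from ⟨hw, h3, h4⟩)]
  · rw [indicator_of_notMem hw]
    exact zero_le

lemma II_int (hb : Base) (hc : BaseC) {g : Geo} (hg : g.Ok) {η t Φ : ℝ} (hη : 0 < η)
    (ht : 0 ≤ t) (ht' : t ≤ η / 4) (hΦ : 0 ≤ Φ) {h : ST} (hh : JM h)
    (hK : ∀ s ∈ Icc (0 : ℝ) t, ∫⁻ p in KK g η s, h s p ≤ ENNReal.ofReal (Φ * g.te s ^ 18))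
    (x : T3) :
    ∫⁻ u in VV η g.κ, II g η h t x u ≤ ENNReal.ofReal (Φ * g.te t ^ 16 / η ^ 3) := by
  have gb := hc.gb g hg
  have hte : 0 < g.te t := by rw [gb.te.2.2]; linarith [gb.te.1]
  have hsub : VV η g.κ ⊆ Metric.ball (0 : E) (2 / η) := fun u hu => by
    rw [mem_ball_zero_iff]
    exact hu.1.trans_lt (by gcongr; norm_num)
  refine (lintegral_mono_set hsub).trans ?_
  unfold II
  rw [lintegral_lintegral_swap (II_aux hc g η hh t x).aemeasurable]
  have hb1 : ∀ s ∈ SA g η t, ∫⁻ u in Metric.ball (0 : E) (2 / η), th g η h s (x - pr ((t - s) • u))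
      ≤ ENNReal.ofReal (Φ * g.te t ^ 15 / η ^ 3) := fun s hs => by
    have h0 : η * g.te t ≤ t - s := by linarith [mem_Iic.1 hs.2]
    have h1 : 0 < t - s := lt_of_lt_of_le (by positivity) h0
    have h2 : (t - s) * (2 / η) ≤ 1 / 2 := by
      rw [mul_div_assoc', div_le_iff₀ hη]
      linarith [hs.1.1]
    have h3 := hb.torus.2.2.2.2.2.2.2.2 x (t - s) (2 / η) (th g η h s)
      ((th_meas hc g η hh).comp measurable_prodMk_left) h1 h2
    rw [th_int hc g η hh] at h3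
    refine h3.trans ((mul_le_mul' le_rfl (hK s ⟨hs.1.1.le, hs.1.2⟩)).trans ?_)
    rw [← ENNReal.ofReal_mul (by positivity)]
    refine ENNReal.ofReal_le_ofReal ?_
    have h4 : 0 < g.te s := by rw [gb.te.2.2]; linarith [gb.te.1, hs.1.1]
    have h5 : g.te s ≤ g.te t := by rw [gb.te.2.2, gb.te.2.2 t]; linarith [hs.1.2]
    calc (t - s)⁻¹ ^ 3 * (Φ * g.te s ^ 18) ≤ (η * g.te t)⁻¹ ^ 3 * (Φ * g.te t ^ 18) := by gcongr
      _ = _ := by field_simp
  refine (setLIntegral_mono' (measurableSet_Ioc.inter measurableSet_Iic) hb1).trans ?_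
  rw [setLIntegral_const]
  refine (mul_le_mul' le_rfl (measure_mono inter_subset_left)).trans ?_
  rw [Real.volume_Ioc, ← ENNReal.ofReal_mul (by positivity)]
  refine ENNReal.ofReal_le_ofReal ?_
  have h5 : t - 0 ≤ g.te t := by rw [gb.te.2.2]; linarith [gb.te.1]
  calc Φ * g.te t ^ 15 / η ^ 3 * (t - 0) ≤ Φ * g.te t ^ 15 / η ^ 3 * g.te t := by gcongr
    _ = _ := by ring

end LYbAux

open LYbAux in
theorem lyb (hb : Base) (hc : BaseC) (hD : DensUStmt) : LYbStmt := by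
  intro c κ η hc1 hκ0 hκ1 hη _
  refine ⟨256 * c ^ 2 / η ^ 77 * Real.exp ((1 / η) ^ 2 / 2), by positivity, ?_⟩
  filter_upwards [Ioc_mem_nhdsGT (show (0 : ℝ) < min (κ ^ 2) (η / 4) by positivity)] with R hR K
  set g : Geo := ⟨c, κ, R, K⟩ with hg'
  have hg : g.Ok := ⟨hc1, hκ0, hκ1, hR.1, hR.2.trans (min_le_left _ _)⟩
  have gb := hc.gb g hg
  have hR1 : g.R ≤ η / 4 := hR.2.trans (min_le_right _ _)
  have hR2 := gb.R_le
  have hc0 : 0 < g.c := by linarith [hg.c1]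
  intro h Φ hh hΦ T hT hK t ht p hp
  have hb1 : ∀ s ∈ Ioc 0 t ∩ cutS g η t p,
      2 * G2 kF (BB g) (restr (good η g.κ p.2) (GK g η h)) s (fl (s - t) p)
        ≤ ENNReal.ofReal (256 * c ^ 2 / η ^ 77 * Φ) := fun s hs => by
    have hsT : s ≤ T := hs.1.2.trans ht.2
    have hs1 : s ∈ Icc (0 : ℝ) 1 := ⟨hs.1.1.le, by linarith [hT.2]⟩
    have hte : 0 < g.te s := by rw [gb.te.2.2]; linarith [gb.te.1, hs1.1]
    set x := (fl (s - t) p).1 with hx
    have hm : Measurable (II g η h s x) := (II_aux hc g η hh s x).lintegral_prod_right'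
    have h1 := ker hb hc hD hg hη hs1 (m := η ^ 4 * g.te s) (by positivity) hs.2.2.2.1.le p.2
      (hm.const_mul (ENNReal.ofReal (16 * g.c / (η * (η ^ 5 * g.te s) ^ 8))))
    have h2 := II_int hb hc hg hη hs1.1 (by linarith [hT.2]) hΦ hh
      (fun r hr => hK r ⟨hr.1, hr.2.trans hsT⟩) x
    rw [lintegral_const_mul' _ _ ENNReal.ofReal_ne_top] at h1
    have h3 : G2 kF (BB g) (restr (good η g.κ p.2) (GK g η h)) s (fl (s - t) p) ≤ _ :=
      (hc.alg.gain_mono kF kF _ _ _ _ p.2 (fun _ _ _ => le_rfl) (fun _ => le_rfl) fun u =>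
        indicator_le_indicator (inner_bd hb hc hD hg hη hs1 hh x u)).trans h1
    refine (mul_le_mul' le_rfl (h3.trans (mul_le_mul' le_rfl (mul_le_mul' le_rfl h2)))).trans ?_
    rw [← ENNReal.ofReal_ofNat 2, ← ENNReal.ofReal_mul (by positivity),
      ← ENNReal.ofReal_mul (by positivity), ← ENNReal.ofReal_mul zero_le_two]
    refine ENNReal.ofReal_le_ofReal (le_of_eq ?_)
    change 2 * (8 * c / _ * (16 * c / _ * _)) = _
    field_simp
    ring
  refine (setLIntegral_mono' (measurableSet_Ioc.inter ((hc.me.kk g η).2.2 t p)) hb1).trans ?_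
  rw [setLIntegral_const]
  refine (mul_le_mul' le_rfl (measure_mono inter_subset_left)).trans ?_
  have ht1 : t ∈ Icc (0 : ℝ) (1 / 32) := ⟨ht.1, by linarith [ht.2, hT.2]⟩
  rw [Real.volume_Ioc, ← ENNReal.ofReal_mul (by positivity), wt,
    ← ENNReal.ofReal_mul (by positivity), (gb.tau_bd 0 le_rfl (by norm_num) t ht1 p).2.2.1, pow_one]
  refine ENNReal.ofReal_le_ofReal ?_
  obtain ⟨-, b2, -, -, -, b6⟩ := gb.ps_bd t ht1 p
  have h5 : t - 0 ≤ g.te t := by rw [gb.te.2.2]; linarith [gb.te.1]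
  have h6 : 1 ≤ Real.exp ((1 / η) ^ 2 / 2) * ps g t p := by
    refine le_trans ?_ (mul_le_mul_of_nonneg_left (b6.trans b2) (Real.exp_pos _).le)
    rw [← Real.exp_add]
    refine Real.one_le_exp ?_
    have : ‖p.2‖ ^ 2 ≤ (1 / η) ^ 2 := by gcongr
    linarith
  have h7 : 0 ≤ g.te t := by linarith [ht.1]
  calc 256 * c ^ 2 / η ^ 77 * Φ * (t - 0) ≤ 256 * c ^ 2 / η ^ 77 * Φ * (g.te t * 1) := by
        rw [mul_one]; gcongr
    _ ≤ 256 * c ^ 2 / η ^ 77 * Φ * (g.te t * (Real.exp ((1 / η) ^ 2 / 2) * ps g t p)) := by gcongr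
    _ = _ := by ring

end

end Vale.Agent.P140
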