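import Vale.Agent.P140.StmC

/-!
Straight lines crossing the rings.
-/

namespace Vale.Agent.P140

open MeasureTheory Set Filter Topology
open scoped ENNReal NNReal

noncomputable section

namespace LineAux

lemma cross_gen (f : ℝ → ℝ) (L a b s₁ s₂ α β : ℝ) (hL : 0 < L)
    (hf : ∀ x y, |f x - f y| ≤ L * |x - y|) (h₁ : s₁ ∈ Icc a b) (h₂ : s₂ ∈ Icc a b)
    (e₁ : f s₁ ≤ α) (e₂ : β ≤ f s₂) :
    ENNReal.ofReal ((β - α) / L) ≤ volume {s ∈ Icc a b | f s ∈ Icc α β} := by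
  have hl : LipschitzWith L.toNNReal f := LipschitzWith.of_dist_le' fun x y => by
    simpa [Real.dist_eq] using hf x y
  have hs : Icc α β ⊆ f '' {s ∈ Icc a b | f s ∈ Icc α β} := by
    intro y hy
    have h1 : y ∈ uIcc (f s₁) (f s₂) :=
      Icc_subset_uIcc ⟨e₁.trans hy.1, hy.2.trans e₂⟩
    obtain ⟨s, hs, rfl⟩ := intermediate_value_uIcc hl.continuous.continuousOn h1
    exact ⟨s, ⟨uIcc_subset_Icc h₁ h₂ hs, hy⟩, rfl⟩
  have h3 := hl.hausdorffMeasure_image_le (d := 1) zero_le_one {s ∈ Icc a b | f s ∈ Icc α β}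
  rw [hausdorffMeasure_real, ENNReal.rpow_one] at h3
  have h4 : ENNReal.ofReal (β - α) ≤ ENNReal.ofReal L * volume {s ∈ Icc a b | f s ∈ Icc α β} := by
    rw [← Real.volume_Icc]
    exact (measure_mono hs).trans h3
  rw [ENNReal.ofReal_div_of_pos hL]
  exact ENNReal.div_le_of_le_mul' h4

lemma cross (X w : ℂ) (κ t a b s₁ s₂ α β : ℝ) (hκ : 0 < κ) (h₁ : s₁ ∈ Icc a b) (h₂ : s₂ ∈ Icc a b)
    (_h : α ≤ β) (e₁ : ‖X + ((s₁ - t : ℝ) : ℂ) * w‖ - κ * s₁ ≤ α)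
    (e₂ : β ≤ ‖X + ((s₂ - t : ℝ) : ℂ) * w‖ - κ * s₂) :
    ENNReal.ofReal ((β - α) / (‖w‖ + κ)) ≤
      volume {s ∈ Icc a b | ‖X + ((s - t : ℝ) : ℂ) * w‖ - κ * s ∈ Icc α β} := by
  refine cross_gen (fun s => ‖X + ((s - t : ℝ) : ℂ) * w‖ - κ * s) (‖w‖ + κ) a b s₁ s₂ α β
    (by positivity) (fun x y => ?_) h₁ h₂ e₁ e₂
  have h1 : |‖X + ((x - t : ℝ) : ℂ) * w‖ - ‖X + ((y - t : ℝ) : ℂ) * w‖| ≤ ‖w‖ * |x - y| := by
    refine (abs_norm_sub_norm_le _ _).trans ?_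
    have : X + ((x - t : ℝ) : ℂ) * w - (X + ((y - t : ℝ) : ℂ) * w) = ((x - y : ℝ) : ℂ) * w := by
      push_cast; ring
    rw [this, norm_mul, Complex.norm_real, Real.norm_eq_abs, mul_comm]
  have h2 : |κ * x - κ * y| = κ * |x - y| := by rw [← mul_sub, abs_mul, abs_of_pos hκ]
  have h3 : ‖X + ((x - t : ℝ) : ℂ) * w‖ - κ * x - (‖X + ((y - t : ℝ) : ℂ) * w‖ - κ * y) =
      (‖X + ((x - t : ℝ) : ℂ) * w‖ - ‖X + ((y - t : ℝ) : ℂ) * w‖) - (κ * x - κ * y) := by ring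
  rw [h3]
  refine (abs_sub _ _).trans ?_
  rw [h2]; linarith

lemma r_succ (g : Geo) (j : ℕ) : g.r (j + 1) = 3999 / 4000 * g.r j := by
  unfold Geo.r; ring

lemma ring (hc : BaseC) (g : Geo) (hg : g.Ok) (l₁ l₂ : ℝ) (i : ℕ) (h1 : g.r (g.K + 1) ≤ l₁)
    (h2 : l₂ ≤ g.R) (h3 : l₂ / 1000 ≤ l₂ - l₁) (h4 : 0 < l₂) :
    ∃ j ≤ g.K, sg j = sg i ∧ l₁ ≤ g.r (j + 1) ∧ g.r j ≤ l₂ ∧ l₂ / 2 ≤ g.r j := by
  classical
  have hb := hc.gb g hg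
  have hex : ∃ j, g.r j ≤ l₂ := ⟨g.K + 1, by linarith⟩
  have k1 : g.r (Nat.find hex) ≤ l₂ := Nat.find_spec hex
  have k2 : 3999 / 4000 * l₂ ≤ g.r (Nat.find hex) := by
    rcases Nat.eq_zero_or_pos (Nat.find hex) with h | h
    · rw [h]
      have : g.r 0 = g.R := by simp [Geo.r]
      linarith
    · have h5 := Nat.find_min hex (show Nat.find hex - 1 < Nat.find hex by omega)
      have h6 := r_succ g (Nat.find hex - 1)
      rw [show Nat.find hex - 1 + 1 = Nat.find hex by omega] at h6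
      linarith [not_le.1 h5]
  generalize Nat.find hex = j0 at k1 k2
  have key : ∀ j, j0 ≤ j → j ≤ j0 + 1 → j ≤ g.K ∧ l₁ ≤ g.r (j + 1) ∧ g.r j ≤ l₂ ∧ l₂ / 2 ≤ g.r j := by
    intro j a1 a2
    have b1 := (hb.r_anti j0 j a1).1
    have b2 := (hb.r_anti (j + 1) (j0 + 1 + 1) (by omega)).1
    have b3 := (hb.r_anti j (j + 1) (by omega)).1
    rw [r_succ, r_succ] at b2
    refine ⟨?_, by linarith, by linarith, by linarith⟩
    by_contra hj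
    have b4 := (hb.r_anti (g.K + 1) (j + 1) (by omega)).1
    linarith
  have hs : sg j0 = sg i ∨ sg (j0 + 1) = sg i := by
    unfold sg
    rcases neg_one_pow_eq_or ℝ j0 with a | a <;> rcases neg_one_pow_eq_or ℝ i with b | b <;>
      simp [pow_succ, a, b]
  rcases hs with hs | hs
  · obtain ⟨c1, c2⟩ := key j0 le_rfl (by omega)
    exact ⟨j0, c1, hs, c2⟩
  · obtain ⟨c1, c2⟩ := key (j0 + 1) (by omega) le_rfl
    exact ⟨j0 + 1, c1, hs, c2⟩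

lemma conv (X w : ℂ) (t a s c : ℝ) (h1 : a ≤ s) (h2 : s ≤ c) :
    ‖X + ((s - t : ℝ) : ℂ) * w‖ ≤ max ‖X + ((a - t : ℝ) : ℂ) * w‖ ‖X + ((c - t : ℝ) : ℂ) * w‖ := by
  rcases (h1.trans h2).eq_or_lt with h | h
  · have : s = a := le_antisymm (h ▸ h2) h1
    rw [this]; exact le_max_left _ _
  · have hd : 0 < c - a := by linarith
    have e : X + ((s - t : ℝ) : ℂ) * w = (((c - s) / (c - a) : ℝ) : ℂ) * (X + ((a - t : ℝ) : ℂ) * w)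
        + (((s - a) / (c - a) : ℝ) : ℂ) * (X + ((c - t : ℝ) : ℂ) * w) := by
      have : ((c : ℂ) - a) ≠ 0 := by exact_mod_cast hd.ne'
      push_cast; field_simp; ring
    have p1 : 0 ≤ (c - s) / (c - a) := div_nonneg (by linarith) hd.le
    have p2 : 0 ≤ (s - a) / (c - a) := div_nonneg (by linarith) hd.le
    have p3 : (c - s) / (c - a) + (s - a) / (c - a) = 1 := by field_simp; ring
    rw [e]
    refine (norm_add_le _ _).trans ?_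
    rw [norm_mul, norm_mul, Complex.norm_real, Complex.norm_real, Real.norm_of_nonneg p1,
      Real.norm_of_nonneg p2]
    have q1 := mul_le_mul_of_nonneg_left
      (le_max_left ‖X + ((a - t : ℝ) : ℂ) * w‖ ‖X + ((c - t : ℝ) : ℂ) * w‖) p1
    have q2 := mul_le_mul_of_nonneg_left
      (le_max_right ‖X + ((a - t : ℝ) : ℂ) * w‖ ‖X + ((c - t : ℝ) : ℂ) * w‖) p2
    refine (add_le_add q1 q2).trans (le_of_eq ?_)
    rw [← add_mul, p3, one_mul]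

lemma window (X w : ℂ) (κ t m : ℝ) (hκ : 0 < κ) (hX : X ≠ 0) (hw : 1200 * κ ≤ ‖w‖)
    (hm : m ≤ ‖X‖ - κ * t) :
    ∃ b, t ≤ b ∧ b ≤ t + 3 * ‖X‖ / ‖w‖ ∧
      (∀ s ∈ Icc t b, ‖X + ((s - t : ℝ) : ℂ) * w‖ ≤ 201 / 200 * ‖X‖ ∧
        (m ≤ ‖X + ((s - t : ℝ) : ℂ) * w‖ - κ * s → ‖X‖ / 2 ≤ ‖X + ((s - t : ℝ) : ℂ) * w‖)) ∧
      ∃ s₁ ∈ Icc t b, ∃ s₂ ∈ Icc t b, m ≤ ‖X + ((s₁ - t : ℝ) : ℂ) * w‖ - κ * s₁ ∧
        ‖X + ((s₁ - t : ℝ) : ℂ) * w‖ - κ * s₁ + ‖X‖ / 400 ≤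
          ‖X + ((s₂ - t : ℝ) : ℂ) * w‖ - κ * s₂ := by
  have hX0 : 0 < ‖X‖ := norm_pos_iff.2 hX
  have hw0 : 0 < ‖w‖ := by linarith
  have hc : Continuous fun s : ℝ => ‖X + ((s - t : ℝ) : ℂ) * w‖ := by fun_prop
  have h0 : ‖X + ((t - t : ℝ) : ℂ) * w‖ = ‖X‖ := by simp
  have hτ : 0 ≤ 3 * ‖X‖ / ‖w‖ := by positivity
  have h1 : 2 * ‖X‖ ≤ ‖X + ((t + 3 * ‖X‖ / ‖w‖ - t : ℝ) : ℂ) * w‖ := by
    have a1 : ‖((t + 3 * ‖X‖ / ‖w‖ - t : ℝ) : ℂ) * w‖ = 3 * ‖X‖ := by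
      rw [norm_mul, Complex.norm_real, add_sub_cancel_left, Real.norm_of_nonneg hτ]
      field_simp
    have a2 := norm_sub_le (X + ((t + 3 * ‖X‖ / ‖w‖ - t : ℝ) : ℂ) * w) X
    rw [add_sub_cancel_left, a1] at a2
    linarith
  obtain ⟨b0, hb0, e0⟩ : 201 / 200 * ‖X‖ ∈ (fun s : ℝ => ‖X + ((s - t : ℝ) : ℂ) * w‖) ''
      Icc t (t + 3 * ‖X‖ / ‖w‖) :=
    intermediate_value_Icc (by linarith) hc.continuousOn ⟨by rw [h0]; linarith, by linarith⟩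
  have e0 : ‖X + ((b0 - t : ℝ) : ℂ) * w‖ = 201 / 200 * ‖X‖ := e0
  have hup : ∀ s ∈ Icc t b0, ‖X + ((s - t : ℝ) : ℂ) * w‖ ≤ 201 / 200 * ‖X‖ := fun s hs => by
    refine (conv X w t t s b0 hs.1 hs.2).trans (max_le ?_ e0.le)
    rw [h0]; linarith
  by_cases hA : ∀ s ∈ Icc t b0,
      m ≤ ‖X + ((s - t : ℝ) : ℂ) * w‖ - κ * s → ‖X‖ / 2 ≤ ‖X + ((s - t : ℝ) : ℂ) * w‖
  · refine ⟨b0, hb0.1, hb0.2, fun s hs => ⟨hup s hs, hA s hs⟩, t, ⟨le_rfl, hb0.1⟩, b0,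
      ⟨hb0.1, le_rfl⟩, by rw [h0]; exact hm, ?_⟩
    rw [h0, e0]
    have a1 : κ * (b0 - t) ≤ κ * (3 * ‖X‖ / ‖w‖) :=
      mul_le_mul_of_nonneg_left (by linarith [hb0.2]) hκ.le
    have a2 : κ * (3 * ‖X‖ / ‖w‖) ≤ ‖X‖ / 400 := by
      rw [← mul_div_assoc, div_le_iff₀ hw0]
      nlinarith
    linarith
  · push Not at hA
    obtain ⟨s0, hs0, a1, a2⟩ := hA
    obtain ⟨b, hb, e⟩ : ‖X‖ / 2 ∈ (fun s : ℝ => ‖X + ((s - t : ℝ) : ℂ) * w‖) '' Icc t s0 :=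
      intermediate_value_Icc' hs0.1 hc.continuousOn ⟨a2.le, by rw [h0]; linarith⟩
    have e : ‖X + ((b - t : ℝ) : ℂ) * w‖ = ‖X‖ / 2 := e
    refine ⟨b, hb.1, (hb.2.trans hs0.2).trans hb0.2,
      fun s hs => ⟨hup s ⟨hs.1, (hs.2.trans hb.2).trans hs0.2⟩, fun _ => ?_⟩, b, ⟨hb.1, le_rfl⟩, t,
      ⟨le_rfl, hb.1⟩, ?_, ?_⟩
    · by_contra hlt
      have := conv X w t s b s0 hs.2 hb.2
      rw [e] at this
      exact absurd this (not_le.2 (max_lt (not_le.1 hlt) a2))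
    · rw [e]
      have := mul_le_mul_of_nonneg_left hb.2 hκ.le
      linarith
    · rw [e, h0]
      have := mul_le_mul_of_nonneg_left hb.1 hκ.le
      linarith

end LineAux

theorem lineC (hc : BaseC) : LineStmt where
  cross := LineAux.cross
  ring := LineAux.ring hc
  window := LineAux.window

end

end Vale.Agent.P140
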