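import Vale.Agent.P140.StmC

/-!
Measurability of the objects of the ring construction.
-/

namespace Vale.Agent.P140

open MeasureTheory Set Filter Topology
open scoped ENNReal

noncomputable section

namespace MeCAux

variable {α : Type} [MeasurableSpace α]

lemma c_hz : Continuous hz := by
  have : hz = fun v : E => ((v 0 : ℝ) : ℂ) + ((v 1 : ℝ) : ℂ) * Complex.I := by
    funext v
    apply Complex.ext <;> simp [hz]
  rw [this]; fun_prop

@[fun_prop] lemma m_hz {f : α → E} (hf : Measurable f) : Measurable fun a => hz (f a) :=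
  c_hz.measurable.comp hf

lemma m_rep : Measurable rep := by
  unfold rep
  refine (PiLp.continuous_toLp 2 _).measurable.comp (measurable_pi_lambda _ fun i => ?_)
  exact measurable_subtype_coe.comp
    ((AddCircle.measurableEquivIco (1 : ℝ) (-1 / 2)).measurable.comp (measurable_pi_apply i))

@[fun_prop] lemma m_pl {f : α → T3} (hf : Measurable f) : Measurable fun a => pl (f a) :=
  m_hz (m_rep.comp hf)

@[fun_prop] lemma m_fl {s : α → ℝ} {f : α → Om} (hs : Measurable s) (hf : Measurable f) :
    Measurable fun a => fl (s a) (f a) :=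
  continuous_fl.measurable.comp (hs.prodMk hf)

@[fun_prop] lemma m_Mx {f : α → E} (hf : Measurable f) : Measurable fun a => Mx (f a) :=
  continuous_Mx.measurable.comp hf

lemma m_gq0 (κ σ : ℝ) : Measurable (gq κ σ) := by
  have h1 : Measurable fun p : Om => hz p.2 := m_hz measurable_snd
  have h2 : Measurable fun p : Om => pl p.1 := m_pl measurable_fst
  have h3 : Measurable fun p : Om => (starRingEnd ℂ (hz p.2) * pl p.1).re :=
    Complex.measurable_re.comp ((Complex.continuous_conj.measurable.comp h1).mul h2)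
  have h4 : Measurable fun p : Om => (p.2 2 - σ) ^ 2 := by fun_prop
  exact (((h1.norm.pow_const 2).add_const _).sub ((h3.div h2.norm).const_mul _)).add h4

@[fun_prop] lemma m_gq (κ σ : ℝ) {f : α → Om} (hf : Measurable f) :
    Measurable fun a => gq κ σ (f a) :=
  (m_gq0 κ σ).comp hf

attribute [local irreducible] hz pl gq fl cf vp wp

@[fun_prop] lemma m_te (g : Geo) {s : α → ℝ} (hs : Measurable s) :
    Measurable fun a => g.te (s a) := by
  unfold Geo.te; fun_prop

@[fun_prop] lemma m_lab (g : Geo) {s : α → ℝ} {f : α → T3} (hs : Measurable s)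
    (hf : Measurable f) : Measurable fun a => g.lab (s a) (f a) := by
  unfold Geo.lab; fun_prop

lemma s_b0s (g : Geo) (j : ℕ) : MeasurableSet (B0s g j) :=
  (measurableSet_le (f := fun p : Om => |‖pl p.1‖ - g.mid j|) (by fun_prop) measurable_const).inter
    (measurableSet_le (m_gq0 g.κ (sg j)) measurable_const)

lemma m_B0 (g : Geo) : Measurable (B0 g) :=
  Finset.measurable_sum _ fun j _ => measurable_const.indicator (s_b0s g j)

lemma s_tube (g : Geo) (j : ℕ) {s : α → ℝ} {f : α → T3} (hs : Measurable s) (hf : Measurable f) :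
    MeasurableSet {a | f a ∈ Tube g j (s a)} :=
  measurableSet_le (f := fun a => |g.lab (s a) (f a) - g.mid j|)
    (g := fun a => 7 / 20 * g.w j + g.gg j * s a) (by fun_prop) (by fun_prop)

lemma s_core (g : Geo) (j : ℕ) : MeasurableSet {y : ℝ × T3 | y.2 ∈ Core g j y.1} :=
  measurableSet_le (f := fun y : ℝ × T3 => |g.lab y.1 y.2 - g.mid j|) (by fun_prop) measurable_const

lemma s_cold (g : Geo) (j : ℕ) {s : α → ℝ} {f : α → Om} (hs : Measurable s) (hf : Measurable f) :
    MeasurableSet {a | f a ∈ Cold g j (s a)} :=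
  (s_tube g j hs hf.fst).inter
    (measurableSet_le (f := fun a => gq g.κ (sg j) (f a)) (by fun_prop) measurable_const)

lemma j_BB (g : Geo) : JM (BB g) :=
  ENNReal.measurable_ofReal.comp ((m_B0 g).comp (m_fl measurable_fst.neg measurable_snd))

lemma j_EE (g : Geo) : JM (EE g) := by
  refine Finset.measurable_sum _ fun j _ => ?_
  exact Measurable.indicator (f := fun y : ℝ × Om => ENNReal.ofReal
    (3 * y.1 * g.r j ^ 4 * g.a j * Real.exp (-(gq g.κ (sg j) y.2) / g.th j ^ 2)))
    (by fun_prop) (s_cold g j measurable_fst measurable_snd)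

lemma j_CC (g : Geo) : JM (CC g) := (j_BB g).add (j_EE g)

lemma m_sw (g : Geo) : Measurable fun y : ℝ × Om => sw g y.1 y.2 := by
  unfold sw
  refine Measurable.ite ?_ (by fun_prop) measurable_const
  exact (measurableSet_le (f := fun y : ℝ × Om => ‖y.2.2‖) (by fun_prop) measurable_const).inter
    (measurableSet_le (f := fun y : ℝ × Om => ‖pl y.2.1‖) (g := fun y => 1 / 8 + 4 * y.1)
      (by fun_prop) (by fun_prop))

lemma m_ps (g : Geo) : Measurable fun y : ℝ × Om => ps g y.1 y.2 := by
  refine Measurable.mul ?_ (measurable_const.add (m_sw g))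
  unfold ee; fun_prop

lemma m_tau (g : Geo) (l : ℝ) : Measurable fun y : ℝ × Om => tau g l y.1 y.2 := by
  unfold tau; fun_prop

lemma j_wt (g : Geo) (l : ℝ) (a : ℕ) : JM (wt g l a) :=
  ENNReal.measurable_ofReal.comp (((m_tau g l).pow_const a).mul (m_ps g))

lemma j_Z0 (g : Geo) (Λ : ℕ) : JM (Z0 g Λ) := (j_CC g).add (measurable_const.mul (j_wt g _ _))

lemma s_VV (η κ : ℝ) {f : α → E} (hf : Measurable f) : MeasurableSet {a | f a ∈ VV η κ} :=
  (measurableSet_le (f := fun a => ‖f a‖) (by fun_prop) measurable_const).inter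
    (measurableSet_le (g := fun a => |‖hz (f a)‖ - κ|) measurable_const (by fun_prop))

lemma s_good (η κ : ℝ) {f v : α → E} (hf : Measurable f) (hv : Measurable v) :
    MeasurableSet {a | f a ∈ good η κ (v a)} :=
  (s_VV η κ hf).inter (measurableSet_le (g := fun a => ‖f a - v a‖) measurable_const (by fun_prop))

lemma s_KK (g : Geo) (η : ℝ) {s : α → ℝ} {f : α → Om} (hs : Measurable s) (hf : Measurable f) :
    MeasurableSet {a | f a ∈ KK g η (s a)} :=
  (s_VV η g.κ hf.snd).inter
    ((measurableSet_lt (f := fun a => η ^ 4 * g.te (s a)) (g := fun a => g.lab (s a) (f a).1)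
      (by fun_prop) (by fun_prop)).inter
    (measurableSet_le (f := fun a => ‖pl (f a).1‖) (g := fun a => g.te (s a) / η)
      (by fun_prop) (by fun_prop)))

lemma s_cut (g : Geo) (η t : ℝ) (p : Om) : MeasurableSet (cutS g η t p) :=
  (measurableSet_le (g := fun s => g.te s) measurable_const (by fun_prop)).inter
    ((measurableSet_le measurable_id measurable_const).inter
    ((measurableSet_lt (f := fun s => η ^ 4 * g.te s) (g := fun s => g.lab s (fl (s - t) p).1)
      (by fun_prop) (by fun_prop)).inter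
    (measurableSet_le (f := fun s => ‖pl (fl (s - t) p).1‖) (g := fun s => g.te s / η)
      (by fun_prop) (by fun_prop))))

lemma m_om (q : Par) : Measurable (om q) := by
  unfold om
  refine Measurable.ite ?_ (by fun_prop) measurable_const
  exact (measurableSet_le (g := fun v : E => ‖hz v‖) measurable_const (by fun_prop)).inter
    (measurableSet_le (f := fun v : E => ‖v‖) (by fun_prop) measurable_const)

lemma k_kS (D a₀ : ℝ) : IsKer (kS D a₀) := by
  unfold IsKer kS
  refine Measurable.ite ?_ measurable_fst measurable_const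
  exact (measurableSet_le measurable_const measurable_snd).inter
    (measurableSet_le measurable_const measurable_fst)

lemma m_SS (g : Geo) (V : ℝ) : Measurable fun y : ℝ × Om => SS g V y.1 y.2.1 := by
  unfold SS
  refine Measurable.ite ?_ (by fun_prop) measurable_const
  exact measurableSet_le (f := fun y : ℝ × Om => ‖pl y.2.1‖) (g := fun y => g.R / 4 + V * y.1)
    (by fun_prop) (by fun_prop)

lemma m_inner (g : Geo) (q : Par) : Measurable fun w : (ℝ × Om) × (E × S2) =>
    ENNReal.ofReal (kS q.D q.η |cf w.1.2.2 w.2.1 w.2.2| ‖w.1.2.2 - w.2.1‖) *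
      (BB g w.1.1 (w.1.2.1, w.2.1) *
        ENNReal.ofReal (om q (vp w.1.2.2 w.2.1 w.2.2) + om q (wp w.1.2.2 w.2.1 w.2.2))) := by
  have hτ : Measurable fun w : (ℝ × Om) × (E × S2) => ((w.1.2.2, w.2.1, w.2.2) : E × E × S2) := by
    fun_prop
  have h1 : Measurable fun w : (ℝ × Om) × (E × S2) => cf w.1.2.2 w.2.1 w.2.2 :=
    continuous_cf.measurable.comp hτ
  have h2 : Measurable fun w : (ℝ × Om) × (E × S2) => vp w.1.2.2 w.2.1 w.2.2 :=
    continuous_vp.measurable.comp hτ
  have h3 : Measurable fun w : (ℝ × Om) × (E × S2) => wp w.1.2.2 w.2.1 w.2.2 :=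
    continuous_wp.measurable.comp hτ
  have h0 : Measurable fun w : (ℝ × Om) × (E × S2) => ‖w.1.2.2 - w.2.1‖ := by fun_prop
  have h4 : Measurable fun w : (ℝ × Om) × (E × S2) =>
      kS q.D q.η |cf w.1.2.2 w.2.1 w.2.2| ‖w.1.2.2 - w.2.1‖ :=
    Measurable.comp (g := fun z : ℝ × ℝ => kS q.D q.η z.1 z.2)
      (f := fun w : (ℝ × Om) × (E × S2) => (|cf w.1.2.2 w.2.1 w.2.2|, ‖w.1.2.2 - w.2.1‖))
      (k_kS q.D q.η) (h1.abs.prodMk h0)
  have h5 : Measurable fun w : (ℝ × Om) × (E × S2) => BB g w.1.1 (w.1.2.1, w.2.1) :=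
    Measurable.comp (g := fun y : ℝ × Om => BB g y.1 y.2)
      (f := fun w : (ℝ × Om) × (E × S2) => (w.1.1, (w.1.2.1, w.2.1))) (j_BB g) (by fun_prop)
  have h6 : Measurable fun w : (ℝ × Om) × (E × S2) =>
      om q (vp w.1.2.2 w.2.1 w.2.2) + om q (wp w.1.2.2 w.2.1 w.2.2) :=
    ((m_om q).comp h2).add ((m_om q).comp h3)
  exact h4.ennreal_ofReal.mul (h5.mul h6.ennreal_ofReal)

lemma j_nuS (g : Geo) (q : Par) : JM (nuS g q) := by
  unfold JM nuS
  refine Measurable.ite
    (measurableSet_le (f := fun y : ℝ × Om => ‖y.2.2‖) (by fun_prop) measurable_const) ?_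
    measurable_const
  exact Measurable.mul (measurable_const.mul (m_SS g q.V)).ennreal_ofReal
    (m_inner g q).lintegral_prod_right'

lemma m_int {a b : α → ℝ} (ha : Measurable a) (hb : Measurable b) {f : α × ℝ → ℝ≥0∞}
    (hf : Measurable f) : Measurable fun x => ∫⁻ r in Ioc (a x) (b x), f (x, r) := by
  have hs : MeasurableSet {w : α × ℝ | w.2 ∈ Ioc (a w.1) (b w.1)} :=
    (measurableSet_lt (ha.comp measurable_fst) measurable_snd).inter
      (measurableSet_le measurable_snd (hb.comp measurable_fst))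
  have h1 := (hf.indicator hs).lintegral_prod_right' (ν := (volume : Measure ℝ))
  have e : (fun x => ∫⁻ r in Ioc (a x) (b x), f (x, r)) =
      fun x => ∫⁻ r, {w : α × ℝ | w.2 ∈ Ioc (a w.1) (b w.1)}.indicator f (x, r) := by
    funext x
    rw [← lintegral_indicator measurableSet_Ioc]
    rfl
  rw [e]; exact h1

lemma j_WW (hA : AlgStmt) (hE : EnStmt) (g : Geo) (q : Par) : JM (WW g q) := by
  have h1 : Measurable fun w : ((ℝ × Om) × ℝ) × ℝ => Nu (BB g) w.2 (fl (w.2 - w.1.1.1) w.1.1.2) :=
    (hA.jm_Nu _ (j_BB g)).comp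
      (f := fun w : ((ℝ × Om) × ℝ) × ℝ => (w.2, fl (w.2 - w.1.1.1) w.1.1.2)) (by fun_prop)
  have h2 := m_int (a := fun w : (ℝ × Om) × ℝ => w.1.1) (b := fun w => w.2) (by fun_prop)
    (by fun_prop) h1
  have h3 : Measurable fun w : (ℝ × Om) × ℝ => nuS g q w.2 (fl (w.2 - w.1.1) w.1.2) :=
    (j_nuS g q).comp (f := fun w : (ℝ × Om) × ℝ => (w.2, fl (w.2 - w.1.1) w.1.2)) (by fun_prop)
  exact m_int (a := fun y : ℝ × Om => y.1) (b := fun _ => 1) measurable_fst measurable_const
    ((hE.meas.comp h2).mul h3)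

end MeCAux

set_option linter.unusedVariables false in
open MeCAux in
theorem meC (hb : Base) (hA : AlgStmt) (hE : EnStmt) : MeCStmt where
  hz := c_hz
  pl := m_pl measurable_id
  gq κ σ := m_gq κ σ measurable_id
  b0s := s_b0s
  b0 g := ⟨m_B0 g, fun _ => (m_B0 g).add (measurable_const.mul (m_Mx measurable_snd))⟩
  tube g j := ⟨s_tube g j measurable_fst measurable_snd, s_core g j,
    s_cold g j measurable_fst measurable_snd, fun _ => s_cold g j measurable_const measurable_id⟩
  jm g := ⟨j_BB g, j_EE g, j_CC g, ENNReal.measurable_ofReal.comp (m_ps g), j_wt g, j_Z0 g,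
    fun Λ _ hF => hF.sub (j_Z0 g Λ)⟩
  vv η κ := ⟨s_VV η κ measurable_id, fun _ => s_good η κ measurable_id measurable_const,
    s_good η κ measurable_snd measurable_fst⟩
  kk g η := ⟨s_KK g η measurable_fst measurable_snd,
    fun _ => s_KK g η measurable_const measurable_id, s_cut g η⟩
  om := m_om
  kS := k_kS
  ww g q := ⟨j_nuS g q, j_WW hA hE g q⟩

end

end Vale.Agent.P140
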