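import Vale.Agent.P140.StmC

/-! Almost monotonicity of the adjoint functional. -/

namespace Vale.Agent.P140

open MeasureTheory Set Filter Topology
open scoped ENNReal

noncomputable section

namespace MonoAux

lemma jm_fl {G : ST} (hG : JM G) : Measurable (fun y : ℝ × Om => G y.1 (fl y.1 y.2)) :=
  Measurable.comp (g := fun y : ℝ × Om => G y.1 y.2) (f := fun y : ℝ × Om => (y.1, fl y.1 y.2)) hG
    (measurable_fst.prodMk continuous_fl.measurable)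

lemma jm_t {G : ST} (hG : JM G) (t : ℝ) : Measurable (G t) :=
  Measurable.comp (g := fun y : ℝ × Om => G y.1 y.2) (f := fun p : Om => (t, p)) hG
    measurable_prodMk_left

lemma int_fl (hb : Base) {f : Om → ℝ≥0∞} (hf : Measurable f) (t : ℝ) :
    ∫⁻ p, f (fl t p) = ∫⁻ p, f p := (hb.torus.2.2.2.2.2.2.1 t).lintegral_comp hf

lemma swap (hb : Base) {G : ST} (hG : JM G) (a b : ℝ) :
    ∫⁻ p, ∫⁻ τ in Ioc a b, G τ (fl τ p) = ∫⁻ τ in Ioc a b, ∫⁻ p, G τ p := by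
  rw [← lintegral_lintegral_swap (f := fun τ p => G τ (fl τ p)) (jm_fl hG).aemeasurable]
  exact lintegral_congr fun τ => int_fl hb (jm_t hG τ) τ

lemma jm_w {A B : ST} (hA : JM A) (hB : JM B) :
    JM (fun τ p => ENNReal.ofReal (Real.exp τ) * (A τ p * B τ p)) :=
  (measurable_fst.exp.ennreal_ofReal).mul (Measurable.mul hA hB)

lemma WW_fl (g : Geo) (q : Par) (p : Om) (τ : ℝ) : WW g q τ (fl τ p) =
    ∫⁻ σ in Ioc τ 1, en (∫⁻ r in Ioc τ σ, Nu (BB g) r (fl r p)) * nuS g q σ (fl σ p) := by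
  simp only [WW, fl_fl, sub_add_cancel]

/-- the inequality along one flight -/
lemma flight (hc : BaseC) (hW : WUStmt) (h1 : Mono1Stmt) {g : Geo} {q : Par} (hg : g.Ok)
    (hp : 0 ≤ q.p) {s Rk δ t T : ℝ} {F : ST} (hF : Sub g s Rk δ F) (ht : 0 ≤ t) (htT : t ≤ T)
    (hT : T ≤ 1)
    (hN : ∀ r ∈ Icc (0 : ℝ) T, ∀ p : Om, ‖p.2‖ ≤ q.V → Nu F r p ≤ Nu (BB g) r p + 1) (p : Om) :
    ENNReal.ofReal (Real.exp t) * (WW g q t (fl t p) * F t (fl t p)) +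
        ∫⁻ τ in Ioc t T, ENNReal.ofReal (Real.exp τ) * (WW g q τ (fl τ p) * gN Rk δ F τ (fl τ p)) ≤
      ENNReal.ofReal (Real.exp T) * (WW g q T (fl T p) * F T (fl T p)) +
        ∫⁻ σ in Ioc t T, ENNReal.ofReal (Real.exp σ) * (nuS g q σ (fl σ p) * F σ (fl σ p)) := by
  by_cases hv : ‖p.2‖ ≤ q.V
  · refine h1 t T (fun τ => F τ (fl τ p)) (fun τ => gN Rk δ F τ (fl τ p))
      (fun τ => nuS g q τ (fl τ p)) (fun τ => Nu (BB g) τ (fl τ p)) (fun τ => WW g q τ (fl τ p))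
      htT hT (hc.alg.jm_flight F hF.jm 0 p).2
      (hc.alg.jm_flight _ (hc.alg.jm_gN Rk δ F hF.jm) 0 p).2
      (hc.alg.jm_flight _ (hc.me.ww g q).1 0 p).2
      (hc.alg.jm_flight _ (hc.alg.jm_Nu _ (hc.me.jm g).1) 0 p).2 (WW_fl g q p) ?_
    intro σ hσ
    have key : ∀ τ, t ≤ τ → en (∫⁻ r in Ioc τ σ, (Nu (BB g) r (fl r p) + 1)) ≤
        en (∫⁻ r in Ioc τ σ, Nu F r (fl r p)) := by
      intro τ hτ
      refine hc.en.anti _ _ (setLIntegral_mono' measurableSet_Ioc fun r hr => ?_)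
      exact hN r ⟨by linarith [hr.1], hr.2.trans hσ.2⟩ (fl r p) hv
    refine le_trans (add_le_add (mul_le_mul_right (key t le_rfl) _)
      (setLIntegral_mono' measurableSet_Ioc fun τ hτ => mul_le_mul_right (key τ hτ.1.le) _)) ?_
    exact hF.low t σ ht hσ.1 p
  · push Not at hv
    have h0 : ∀ τ, WW g q τ (fl τ p) = 0 := fun τ => ((hW g q hg hp).2.1 τ (fl τ p) hv).1
    simp only [h0, zero_mul, mul_zero, lintegral_const, add_zero]
    exact zero_le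

lemma core (hb : Base) (hc : BaseC) (hW : WUStmt) (h1 : Mono1Stmt) {g : Geo} {q : Par} (hg : g.Ok)
    (hp : 0 ≤ q.p) {s Rk δ t T D : ℝ} {F : ST} (hF : Sub g s Rk δ F) (ht : 0 ≤ t) (htT : t ≤ T)
    (hT : T ≤ 1)
    (hN : ∀ r ∈ Icc (0 : ℝ) T, ∀ p : Om, ‖p.2‖ ≤ q.V → Nu F r p ≤ Nu (BB g) r p + 1)
    (hD : ∀ r ∈ Icc (0 : ℝ) T, ∀ x : T3, ∫⁻ u, F r (x, u) ≤ ENNReal.ofReal D)
    (h2 : ∀ r ∈ Icc (0 : ℝ) T, ∀ x : T3, ∫⁻ v, nuS g q r (x, v) * F r (x, v) ≤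
      ∫⁻ v, WW g q r (x, v) * gN Rk δ F r (x, v)) :
    Phi g q F t ≤ 3 * Phi g q F T := by
  have jW := (hc.me.ww g q).2
  have jn := (hc.me.ww g q).1
  have jg := hc.alg.jm_gN Rk δ F hF.jm
  have hI := lintegral_mono (μ := (volume : Measure Om)) (flight hc hW h1 hg hp hF ht htT hT hN)
  have m1 : ∀ τ, Measurable (fun p : Om =>
      ENNReal.ofReal (Real.exp τ) * (WW g q τ (fl τ p) * F τ (fl τ p))) := fun τ =>
    (jm_fl (jm_w jW hF.jm)).comp (f := fun p : Om => (τ, p)) measurable_prodMk_left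
  have e1 : ∀ τ, ∫⁻ p, ENNReal.ofReal (Real.exp τ) * (WW g q τ (fl τ p) * F τ (fl τ p)) =
      ENNReal.ofReal (Real.exp τ) * Phi g q F τ := fun τ => by
    rw [int_fl hb (jm_t (jm_w jW hF.jm) τ) τ,
      lintegral_const_mul _ ((jm_t jW τ).fun_mul (jm_t hF.jm τ))]
    rfl
  rw [lintegral_add_left (m1 t), lintegral_add_left (m1 T), e1, e1, swap hb (jm_w jW jg),
    swap hb (jm_w jn hF.jm)] at hI
  have hle : ∫⁻ τ in Ioc t T, ∫⁻ p, ENNReal.ofReal (Real.exp τ) * (nuS g q τ p * F τ p) ≤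
      ∫⁻ τ in Ioc t T, ∫⁻ p, ENNReal.ofReal (Real.exp τ) * (WW g q τ p * gN Rk δ F τ p) := by
    refine setLIntegral_mono' measurableSet_Ioc fun τ hτ => ?_
    rw [lintegral_const_mul _ ((jm_t jn τ).fun_mul (jm_t hF.jm τ)),
      lintegral_const_mul _ ((jm_t jW τ).fun_mul (jm_t jg τ))]
    refine mul_le_mul_right ?_ _
    rw [Measure.volume_eq_prod, lintegral_prod _ ((jm_t jn τ).fun_mul (jm_t hF.jm τ)).aemeasurable,
      lintegral_prod _ ((jm_t jW τ).fun_mul (jm_t jg τ)).aemeasurable]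
    exact lintegral_mono fun x => h2 τ ⟨ht.trans hτ.1.le, hτ.2⟩ x
  obtain ⟨C, hC⟩ := (hW g q hg hp).2.2.1
  have hfin : ∫⁻ τ in Ioc t T, ∫⁻ p, ENNReal.ofReal (Real.exp τ) * (nuS g q τ p * F τ p) ≠ ⊤ := by
    have hb1 : ∀ τ ∈ Ioc t T, ∫⁻ p, ENNReal.ofReal (Real.exp τ) * (nuS g q τ p * F τ p) ≤
        ENNReal.ofReal (Real.exp 1) * (ENNReal.ofReal C * ENNReal.ofReal D) := by
      intro τ hτ
      have hτ0 : 0 ≤ τ := ht.trans hτ.1.le
      rw [lintegral_const_mul _ ((jm_t jn τ).fun_mul (jm_t hF.jm τ))]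
      refine mul_le_mul' (ENNReal.ofReal_le_ofReal (Real.exp_le_exp.2 (hτ.2.trans hT))) ?_
      calc ∫⁻ p, nuS g q τ p * F τ p ≤ ∫⁻ p, ENNReal.ofReal C * F τ p :=
            lintegral_mono fun p => mul_le_mul_left (hC τ ⟨hτ0, hτ.2.trans hT⟩ p) _
        _ = ENNReal.ofReal C * ∫⁻ x : T3, ∫⁻ u, F τ (x, u) := by
            rw [lintegral_const_mul _ (jm_t hF.jm τ), Measure.volume_eq_prod,
              lintegral_prod _ (jm_t hF.jm τ).aemeasurable]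
        _ ≤ ENNReal.ofReal C * ∫⁻ _x : T3, ENNReal.ofReal D :=
            mul_le_mul_right (lintegral_mono fun x => hD τ ⟨hτ0, hτ.2⟩ x) _
        _ = _ := by rw [lintegral_const, hb.torus.2.2.2.2.2.1, mul_one]
    refine ne_top_of_le_ne_top ?_ (setLIntegral_mono' measurableSet_Ioc hb1)
    rw [setLIntegral_const, Real.volume_Ioc]
    exact ENNReal.mul_ne_top (ENNReal.mul_ne_top ENNReal.ofReal_ne_top
      (ENNReal.mul_ne_top ENNReal.ofReal_ne_top ENNReal.ofReal_ne_top)) ENNReal.ofReal_ne_top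
  have h3 := (ENNReal.add_le_add_iff_right hfin).1 ((add_le_add_right hle _).trans hI)
  have h4 : (1 : ℝ≥0∞) ≤ ENNReal.ofReal (Real.exp t) :=
    ENNReal.one_le_ofReal.2 (Real.one_le_exp ht)
  have h5 : ENNReal.ofReal (Real.exp T) ≤ 3 := by
    have : Real.exp T ≤ 3 :=
      (Real.exp_le_exp.2 hT).trans (Real.exp_one_lt_d9.le.trans (by norm_num))
    refine (ENNReal.ofReal_le_ofReal this).trans (le_of_eq ?_)
    simp
  calc Phi g q F t = 1 * Phi g q F t := (one_mul _).symm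
    _ ≤ _ := mul_le_mul_left h4 _
    _ ≤ _ := h3
    _ ≤ _ := mul_le_mul_left h5 _

end MonoAux

theorem monoC (hb : Base) (hc : BaseC) (hW : WUStmt) (h1 : Mono1Stmt) (h2 : Mono2Stmt)
    (h3 : Mono3Stmt) : MonoStmt := by
  obtain ⟨C, hC, h3⟩ := h3
  refine ⟨C, hC, fun q c κ hc1 hκ0 hκ1 hp hη hD hV => ?_⟩
  have ev1 : ∀ᶠ R in 𝓝[>] (0 : ℝ), R ∈ Ioc (0 : ℝ) (κ ^ 2) := Ioc_mem_nhdsGT (by positivity)
  have ev2 : ∀ᶠ R in 𝓝[>] (0 : ℝ), 2 * R ^ 6 < q.D := by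
    have : Tendsto (fun R : ℝ => 2 * R ^ 6) (𝓝 0) (𝓝 (2 * 0 ^ 6)) :=
      (by fun_prop : Continuous fun R : ℝ => 2 * R ^ 6).tendsto 0
    exact nhdsWithin_le_nhds (this.eventually (eventually_lt_nhds (by simpa using hD)))
  filter_upwards [ev1, ev2, h3 c κ q.V hc1 hκ0 hκ1 hV] with R hR1 hR2 hR3 K hW1
  have hg : (⟨c, κ, R, K⟩ : Geo).Ok := ⟨hc1, hκ0, hκ1, hR1.1, hR1.2⟩
  obtain ⟨D, hD0, hM⟩ := hR3 K
  refine ⟨max (q.V + 2) (1 / q.η), 1 / (19 * D), lt_max_of_lt_left (by linarith), by positivity,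
    fun Λ ε s Rk δ F hΛ hε hCε hs hRk hδ hF T hT hVT hL t ht => ?_⟩
  have hM' := hM Λ ε s Rk δ F hΛ hε hCε hs hF T hT hL
  have hT1 : T ≤ 1 := hT.2.trans ((hc.gb _ hg).R_le.trans (by norm_num))
  refine MonoAux.core hb hc hW h1 hg hp hF ht.1 ht.2 hT1 (fun r hr p => (hM' r hr p).1)
    (D := D) (fun r hr x => (hM' r hr (x, 0)).2.2) fun r hr x => ?_
  refine h2 _ q Rk δ F hg hW1 hη hR2 ((le_max_left _ _).trans hRk) ((le_max_right _ _).trans hRk)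
    hF.jm r ⟨hr.1, hr.2.trans hT.2⟩ ?_ x (fun u => (hM' r hr (x, u)).2.1) ?_
  · exact (mul_le_mul_of_nonneg_left hr.2 (by linarith)).trans hVT
  · refine (mul_le_mul' (ENNReal.ofReal_le_ofReal hδ) (hM' r hr (x, 0)).2.2).trans (le_of_eq ?_)
    rw [← ENNReal.ofReal_mul (by positivity)]
    congr 1
    field_simp

end

end Vale.Agent.P140
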