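import Vale.Agent.P140.StmC

/-!
Duality along one flight.
-/

namespace Vale.Agent.P140

open MeasureTheory Set Filter Topology
open scoped ENNReal

noncomputable section

namespace Mono1Aux

lemma tri (s t : ℝ) (F : ℝ → ℝ → ℝ≥0∞) (hF : Measurable (fun z : ℝ × ℝ => F z.1 z.2)) :
    ∫⁻ τ in Ioc s t, ∫⁻ σ in Ioc τ t, F τ σ ≤ ∫⁻ σ in Ioc s t, ∫⁻ τ in Ioc s σ, F τ σ := by
  have hm : Measurable (fun z : ℝ × ℝ => {z : ℝ × ℝ | z.1 < z.2}.indicator
      (fun z : ℝ × ℝ => F z.1 z.2) z) :=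
    hF.indicator (measurableSet_lt measurable_fst measurable_snd)
  calc ∫⁻ τ in Ioc s t, ∫⁻ σ in Ioc τ t, F τ σ
      ≤ ∫⁻ τ in Ioc s t, ∫⁻ σ in Ioc s t, {z : ℝ × ℝ | z.1 < z.2}.indicator
          (fun z : ℝ × ℝ => F z.1 z.2) (τ, σ) := by
        refine setLIntegral_mono' measurableSet_Ioc fun τ hτ => ?_
        refine le_trans ?_ (lintegral_mono_set (Ioc_subset_Ioc_left hτ.1.le))
        refine setLIntegral_mono' measurableSet_Ioc fun σ hσ => ?_
        rw [indicator_of_mem (show (τ, σ) ∈ {z : ℝ × ℝ | z.1 < z.2} from hσ.1)]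
    _ = ∫⁻ σ in Ioc s t, ∫⁻ τ in Ioc s t, {z : ℝ × ℝ | z.1 < z.2}.indicator
          (fun z : ℝ × ℝ => F z.1 z.2) (τ, σ) :=
        lintegral_lintegral_swap hm.aemeasurable
    _ ≤ _ := by
        refine setLIntegral_mono' measurableSet_Ioc fun σ _ => ?_
        rw [← lintegral_indicator measurableSet_Ioc, ← lintegral_indicator measurableSet_Ioc]
        refine lintegral_mono fun τ => ?_
        by_cases h1 : τ ∈ Ioc s t
        · rw [indicator_of_mem h1]
          by_cases h2 : τ < σ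
          · rw [indicator_of_mem (show (τ, σ) ∈ {z : ℝ × ℝ | z.1 < z.2} from h2),
              indicator_of_mem (show τ ∈ Ioc s σ from ⟨h1.1, h2.le⟩)]
          · rw [indicator_of_notMem (show (τ, σ) ∉ {z : ℝ × ℝ | z.1 < z.2} from h2)]
            exact zero_le
        · rw [indicator_of_notMem h1]; exact zero_le

lemma split (f : ℝ → ℝ≥0∞) {a b c : ℝ} (hab : a ≤ b) (hbc : b ≤ c) :
    ∫⁻ r in Ioc a c, f r = (∫⁻ r in Ioc a b, f r) + ∫⁻ r in Ioc b c, f r := by
  rw [← Ioc_union_Ioc_eq_Ioc hab hbc,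
    lintegral_union measurableSet_Ioc (Ioc_disjoint_Ioc_of_le le_rfl)]

lemma en_one (he : EnStmt) (b : ℝ → ℝ≥0∞) {τ σ : ℝ} (h : τ ≤ σ) :
    ENNReal.ofReal (Real.exp σ) * en (∫⁻ r in Ioc τ σ, (b r + 1)) =
      ENNReal.ofReal (Real.exp τ) * en (∫⁻ r in Ioc τ σ, b r) := by
  rw [lintegral_add_right _ measurable_const, setLIntegral_const, Real.volume_Ioc, one_mul, he.add,
    he.ofReal _ (by linarith), mul_comm (en _), ← mul_assoc,
    ← ENNReal.ofReal_mul (Real.exp_pos _).le, ← Real.exp_add]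
  congr 3; ring

end Mono1Aux

open Mono1Aux in
theorem mono1 (hc : BaseC) : Mono1Stmt := by
  intro s t y q n b W hst ht1 hy hq hn hb hW hyp
  have he := hc.en
  set A : ℝ → ℝ → ℝ≥0∞ := fun τ σ => en (∫⁻ r in Ioc τ σ, b r) with hA
  have hAm : Measurable (fun z : ℝ × ℝ => A z.1 z.2) := he.meas.comp (he.meas_int b 0 hb).2.2
  have hA1 : ∀ τ, Measurable (fun σ => A τ σ) := fun τ => he.meas.comp (he.meas_int b τ hb).1
  have hA2 : ∀ σ, Measurable (fun τ => A τ σ) := fun σ => he.meas.comp (he.meas_int b σ hb).2.1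
  have hAn : ∀ τ, Measurable (fun σ => A τ σ * n σ) := fun τ => (hA1 τ).mul hn
  set e : ℝ → ℝ≥0∞ := fun τ => ENNReal.ofReal (Real.exp τ) with hee
  have hem : Measurable e := Real.measurable_exp.ennreal_ofReal
  have H : ∀ σ ∈ Icc s t, e s * y s * A s σ + ∫⁻ τ in Ioc s σ, e τ * q τ * A τ σ ≤ e σ * y σ := by
    intro σ hσ
    refine le_trans (le_of_eq ?_) (mul_le_mul_right (hyp σ hσ) (e σ))
    rw [mul_add, ← lintegral_const_mul' _ _ ENNReal.ofReal_ne_top]
    congr 1
    · have := en_one he b hσ.1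
      calc e s * y s * A s σ = y s * (e s * A s σ) := by ring
        _ = y s * (e σ * en (∫⁻ r in Ioc s σ, (b r + 1))) := by rw [this]
        _ = _ := by ring
    · refine setLIntegral_congr_fun measurableSet_Ioc fun τ hτ => ?_
      have := en_one he b hτ.2
      calc e τ * q τ * A τ σ = q τ * (e τ * A τ σ) := by ring
        _ = q τ * (e σ * en (∫⁻ r in Ioc τ σ, (b r + 1))) := by rw [this]
        _ = _ := by ring
  have hWs : ∀ τ, τ ≤ t → W τ = (∫⁻ σ in Ioc τ t, A τ σ * n σ) + A τ t * W t := by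
    intro τ hτ
    have hWt : W t = ∫⁻ σ in Ioc t 1, A t σ * n σ := hW t
    rw [hW τ, split _ hτ ht1, hWt, ← lintegral_const_mul _ (hAn t)]
    congr 1
    refine setLIntegral_congr_fun measurableSet_Ioc fun σ hσ => ?_
    simp only [hA]
    rw [split b hτ hσ.1.le, he.add, mul_assoc]
  have hF : Measurable (fun z : ℝ × ℝ => n z.2 * (e z.1 * q z.1 * A z.1 z.2)) :=
    (hn.comp measurable_snd).mul
      (((hem.comp measurable_fst).mul (hq.comp measurable_fst)).mul hAm)
  have h1 : e s * (W s * y s) = W t * (e s * y s * A s t) +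
      ∫⁻ σ in Ioc s t, n σ * (e s * y s * A s σ) := by
    have : ∫⁻ σ in Ioc s t, n σ * (e s * y s * A s σ) =
        e s * y s * ∫⁻ σ in Ioc s t, A s σ * n σ := by
      rw [← lintegral_const_mul _ (hAn s)]
      refine lintegral_congr fun σ => ?_
      ring
    rw [this, hWs s hst]; ring
  have h2 : ∫⁻ τ in Ioc s t, e τ * (W τ * q τ) ≤ W t * (∫⁻ τ in Ioc s t, e τ * q τ * A τ t) +
      ∫⁻ σ in Ioc s t, n σ * ∫⁻ τ in Ioc s σ, e τ * q τ * A τ σ := by
    have hm : Measurable (fun τ => e τ * q τ * A τ t) := (hem.mul hq).mul (hA2 t)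
    calc ∫⁻ τ in Ioc s t, e τ * (W τ * q τ)
        = ∫⁻ τ in Ioc s t, (W t * (e τ * q τ * A τ t) +
            ∫⁻ σ in Ioc τ t, n σ * (e τ * q τ * A τ σ)) := by
          refine setLIntegral_congr_fun measurableSet_Ioc fun τ hτ => ?_
          have : ∫⁻ σ in Ioc τ t, n σ * (e τ * q τ * A τ σ) =
              e τ * q τ * ∫⁻ σ in Ioc τ t, A τ σ * n σ := by
            rw [← lintegral_const_mul _ (hAn τ)]
            refine lintegral_congr fun σ => ?_
            ring
          rw [this, hWs τ hτ.2]; ring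
      _ = W t * (∫⁻ τ in Ioc s t, e τ * q τ * A τ t) +
            ∫⁻ τ in Ioc s t, ∫⁻ σ in Ioc τ t, n σ * (e τ * q τ * A τ σ) := by
          rw [lintegral_add_left (hm.const_mul _), lintegral_const_mul _ hm]
      _ ≤ _ := by
          refine add_le_add_right ((tri s t (fun τ σ => n σ * (e τ * q τ * A τ σ)) hF).trans
            (le_of_eq ?_)) _
          refine lintegral_congr fun σ => ?_
          exact lintegral_const_mul _ ((hem.mul hq).mul (hA2 σ))
  have hm3 : Measurable (fun σ => n σ * (e s * y s * A s σ)) := hn.mul ((hA1 s).const_mul _)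
  calc e s * (W s * y s) + ∫⁻ τ in Ioc s t, e τ * (W τ * q τ)
      ≤ (W t * (e s * y s * A s t) + ∫⁻ σ in Ioc s t, n σ * (e s * y s * A s σ)) +
        (W t * (∫⁻ τ in Ioc s t, e τ * q τ * A τ t) +
          ∫⁻ σ in Ioc s t, n σ * ∫⁻ τ in Ioc s σ, e τ * q τ * A τ σ) := add_le_add h1.le h2
    _ = W t * (e s * y s * A s t + ∫⁻ τ in Ioc s t, e τ * q τ * A τ t) +
        ∫⁻ σ in Ioc s t, (n σ * (e s * y s * A s σ) +
          n σ * ∫⁻ τ in Ioc s σ, e τ * q τ * A τ σ) := by
        rw [lintegral_add_left hm3]; ring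
    _ ≤ W t * (e t * y t) + ∫⁻ σ in Ioc s t, e σ * (n σ * y σ) := by
        refine add_le_add (mul_le_mul_right (H t ⟨hst, le_rfl⟩) _) ?_
        refine setLIntegral_mono' measurableSet_Ioc fun σ hσ => ?_
        rw [← mul_add]
        refine (mul_le_mul_right (H σ ⟨hσ.1.le, hσ.2⟩) _).trans (le_of_eq ?_)
        ring
    _ = _ := by
        congr 1; ring

end

end Vale.Agent.P140
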