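import Vale.Agent.P140.StmC

namespace Vale.Agent.P140

open MeasureTheory Set Filter Topology
open scoped ENNReal

noncomputable section

namespace Mono2Aux

lemma kS_le {D η Rk a r : ℝ} (hη : 0 < η) (h : 1 / η ≤ Rk) (hr : r ≤ Rk) (ha : 0 ≤ a) :
    kS D η a r ≤ kT Rk a r := by
  have hR : 0 < Rk := lt_of_lt_of_le (by positivity) h
  unfold kS kT
  rw [if_pos hr]
  split_ifs with h1
  · refine le_min le_rfl ?_
    rw [div_le_iff₀ hη] at h
    have h2 : 1 ≤ Rk * a := h.trans (by gcongr; exact h1.2)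
    nlinarith
  · exact le_min ha (by positivity)

lemma om_nonneg (q : Par) (v : E) : 0 ≤ om q v := by
  unfold om
  split_ifs
  · exact Real.rpow_nonneg (le_min (norm_nonneg _) zero_le_one) _
  · exact le_rfl

/-- The abstract symmetrization. -/
lemma symm (hb : Base) (k : ℝ → ℝ → ℝ) (hk : IsKer k) (f W : E → ℝ≥0∞) (hf : Measurable f)
    (hW : Measurable W) (A : Set (E × E)) (hA : MeasurableSet A)
    (hd : ∀ v u, (v, u) ∈ A → (u, v) ∉ A) :
    ∫⁻ v, ∫⁻ z : E × S2, A.indicator (fun _ => (1 : ℝ≥0∞)) (v, z.1) *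
        (ENNReal.ofReal (k |cf v z.1 z.2| ‖v - z.1‖) *
          (f v * f z.1 * (W (vp v z.1 z.2) + W (wp v z.1 z.2)))) ∂(volume.prod sph) ≤
      ∫⁻ v, W v * gainK k f f v := by
  set Φ : E × E × S2 → ℝ≥0∞ := fun y => ENNReal.ofReal (k |cf y.1 y.2.1 y.2.2| ‖y.1 - y.2.1‖) *
    (f y.1 * f y.2.1 * W (vp y.1 y.2.1 y.2.2)) with hΦ
  have mk : Measurable fun y : E × E × S2 => k |cf y.1 y.2.1 y.2.2| ‖y.1 - y.2.1‖ :=
    hk.comp ((continuous_cf.measurable.abs).prodMk (by fun_prop))
  have mΦ : Measurable Φ :=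
    mk.ennreal_ofReal.mul (((hf.comp measurable_fst).mul (hf.comp (by fun_prop))).mul
      (hW.comp continuous_vp.measurable))
  have mI : Measurable (A.indicator fun _ => (1 : ℝ≥0∞)) := measurable_const.indicator hA
  set Ψ₁ : E × E × S2 → ℝ≥0∞ := fun y => A.indicator (fun _ => (1 : ℝ≥0∞)) (y.1, y.2.1) * Φ y
  set Ψ₂ : E × E × S2 → ℝ≥0∞ := fun y => A.indicator (fun _ => (1 : ℝ≥0∞)) (y.2.1, y.1) * Φ y
  have m1 : Measurable Ψ₁ := (mI.comp (by fun_prop)).mul mΦ
  have m2 : Measurable Ψ₂ := (mI.comp (by fun_prop)).mul mΦ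
  have m1' : Measurable fun v => ∫⁻ z : E × S2, Ψ₁ (v, z.1, z.2) ∂(volume.prod sph) :=
    Measurable.lintegral_prod_right' (f := fun y : E × E × S2 => Ψ₁ y) m1
  have add1 : ∀ G : E → E × S2 → ℝ≥0∞,
      ∫⁻ v, ∫⁻ z : E × S2, (Ψ₁ (v, z.1, z.2) + G v z) ∂(volume.prod sph) =
      (∫⁻ v, ∫⁻ z : E × S2, Ψ₁ (v, z.1, z.2) ∂(volume.prod sph)) +
        ∫⁻ v, ∫⁻ z : E × S2, G v z ∂(volume.prod sph) := by
    intro G
    rw [← lintegral_add_left m1']
    refine lintegral_congr fun v => ?_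
    exact lintegral_add_left (m1.comp (by fun_prop : Measurable fun z : E × S2 => (v, z.1, z.2))) _
  calc _ = ∫⁻ v, ∫⁻ z : E × S2, (Ψ₁ (v, z.1, z.2) + Ψ₂ (z.1, v, z.2)) ∂(volume.prod sph) := by
        refine lintegral_congr fun v => lintegral_congr fun z => ?_
        simp only [Ψ₁, Ψ₂, hΦ, vp_swap v z.1, cf_swap v z.1, abs_neg, norm_sub_rev z.1 v]
        ring
    _ = (∫⁻ v, ∫⁻ z : E × S2, Ψ₁ (v, z.1, z.2) ∂(volume.prod sph)) +
        ∫⁻ v, ∫⁻ z : E × S2, Ψ₂ (v, z.1, z.2) ∂(volume.prod sph) := by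
        rw [add1 (fun v z => Ψ₂ (z.1, v, z.2)), hb.weak.2.2.1 Ψ₂ m2]
    _ = ∫⁻ v, ∫⁻ z : E × S2, (Ψ₁ (v, z.1, z.2) + Ψ₂ (v, z.1, z.2)) ∂(volume.prod sph) :=
        (add1 fun v z => Ψ₂ (v, z.1, z.2)).symm
    _ ≤ ∫⁻ v, ∫⁻ z : E × S2, Φ (v, z.1, z.2) ∂(volume.prod sph) := by
        refine lintegral_mono fun v => lintegral_mono fun z => ?_
        simp only [Ψ₁, Ψ₂]
        by_cases h : (v, z.1) ∈ A
        · rw [indicator_of_mem h, indicator_of_notMem (hd _ _ h)]; simp
        · rw [indicator_of_notMem h, zero_mul, zero_add]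
          by_cases h' : (z.1, v) ∈ A
          · rw [indicator_of_mem h', one_mul]
          · rw [indicator_of_notMem h', zero_mul]; exact zero_le
    _ = _ := by
        rw [hb.weak.1 k f f W hk hf hf hW]
        refine lintegral_congr fun v => ?_
        rw [← lintegral_const_mul]
        · refine lintegral_congr fun z => ?_
          simp only [hΦ]; ring
        · exact (mk.comp (by fun_prop : Measurable fun z : E × S2 => (v, z.1, z.2))).ennreal_ofReal.mul
            ((hf.comp measurable_fst).mul (hW.comp (continuous_vp.measurable.comp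
              (by fun_prop : Measurable fun z : E × S2 => (v, z.1, z.2)))))

end Mono2Aux

open Mono2Aux

theorem mono2 (hb : Base) (hc : BaseC) : Mono2Stmt := by
  intro g q Rk δ F hg hW1 hη hD hV hRk hF t ht hVt x hB hδ
  have hG := hc.gb g hg
  have ht1 : t ∈ Icc (0 : ℝ) 1 := ⟨ht.1, by linarith [ht.2, hG.R_le]⟩
  have hcold : ∀ u, BB g t (x, u) ≠ 0 → ∃ j ≤ g.K, (x, u) ∈ Cold g j t := fun u hu =>
    hG.cc_supp t ht1 (x, u) fun h => hu (add_eq_zero.1 h).1
  by_cases hS : InT g t x ∧ ‖pl x‖ ≤ g.R / 4 + q.V * t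
  swap
  · have : ∀ v, nuS g q t (x, v) = 0 := by
      intro v
      unfold nuS
      split_ifs with h1
      · by_cases h2 : InT g t x
        · have h3 : SS g q.V t x = 0 := if_neg fun h => hS ⟨h2, h⟩
          simp [h3]
        · have h3 : ∀ u, BB g t (x, u) = 0 := fun u => by
            by_contra hu
            obtain ⟨j, hj, hj'⟩ := hcold u hu
            exact h2 ⟨j, hj, hj'.1⟩
          simp [h3]
      · rfl
    simp [this]
  set S : ℝ := ‖pl x‖⁻¹ ^ 18 with hSdef
  have hS0 : 0 ≤ S := by positivity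
  have hSS : SS g q.V t x = S := if_pos hS.2
  have hW : ∀ u, ENNReal.ofReal (om q u * S) ≤ WW g q t (x, u) := fun u =>
    hW1 t ht (x, u) (hG.inT t ht1 x hS.1).2.2.2 hS.2 (by show ‖pl x‖ ≤ _; linarith [hS.2])
  have mf := hc.alg.jm_slice F hF t x
  have mb := hc.alg.jm_slice _ (hc.me.jm g).1 t x
  have mW := hc.alg.jm_slice _ (hc.me.ww g q).2 t x
  set A : Set (E × E) := {y | BB g t (x, y.2) ≠ 0 ∧ q.D ≤ ‖y.1 - y.2‖} with hA
  have mA : MeasurableSet A :=
    ((mb.comp measurable_snd) (measurableSet_singleton 0).compl).inter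
      (measurableSet_le measurable_const (by fun_prop : Measurable fun y : E × E => ‖y.1 - y.2‖))
  have hd : ∀ v u, (v, u) ∈ A → (u, v) ∉ A := by
    intro v u h1 h2
    obtain ⟨i, -, hi⟩ := hcold u h1.1
    obtain ⟨j, -, hj⟩ := hcold v h2.1
    have hij := hG.tube_disj i j t ht1 x hi.1 hj.1
    subst hij
    have a1 := (hG.cold_v i t ht1 _ hi).1
    have a2 := (hG.cold_v i t ht1 _ hj).1
    have a3 := (hG.r_pos i).2.2.2.2.2.2.2
    have a4 : ‖v - u‖ ≤ ‖v - uu g.κ (sg i) x‖ + ‖u - uu g.κ (sg i) x‖ := by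
      have := norm_sub_le (v - uu g.κ (sg i) x) (u - uu g.κ (sg i) x)
      rwa [sub_sub_sub_cancel_right] at this
    have a5 : q.D ≤ ‖v - u‖ := h1.2
    simp only at a1 a2
    linarith
  have key := symm hb (kT Rk) (hb.meas.2.1 Rk) _ _ mf mW A mA hd
  have h19 : ENNReal.ofReal (19 / 20) ≠ ⊤ := ENNReal.ofReal_ne_top
  calc ∫⁻ v, nuS g q t (x, v) * F t (x, v)
      ≤ ∫⁻ v, ENNReal.ofReal (19 / 20) * ∫⁻ z : E × S2,
        A.indicator (fun _ => (1 : ℝ≥0∞)) (v, z.1) *
        (ENNReal.ofReal (kT Rk |cf v z.1 z.2| ‖v - z.1‖) *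
          (F t (x, v) * F t (x, z.1) * (WW g q t (x, vp v z.1 z.2) + WW g q t (x, wp v z.1 z.2))))
          ∂(volume.prod sph) := by
        refine lintegral_mono fun v => ?_
        unfold nuS
        split_ifs with h1
        swap
        · simp
        simp only at h1 ⊢
        have mz : Measurable fun z : E × S2 => (v, z.1, z.2) := by fun_prop
        have m1 : Measurable fun z : E × S2 =>
            ENNReal.ofReal (kS q.D q.η |cf v z.1 z.2| ‖v - z.1‖) * (BB g t (x, z.1) *
              ENNReal.ofReal (om q (vp v z.1 z.2) + om q (wp v z.1 z.2))) :=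
          ((hc.me.kS q.D q.η).comp (((continuous_cf.measurable.comp mz).abs).prodMk
            (by fun_prop : Measurable fun z : E × S2 => ‖v - z.1‖))).ennreal_ofReal.mul
            ((mb.comp measurable_fst).mul
              (((hc.me.om q).comp (continuous_vp.measurable.comp mz)).add
                ((hc.me.om q).comp (continuous_wp.measurable.comp mz))).ennreal_ofReal)
        rw [← lintegral_const_mul' _ _ ENNReal.ofReal_ne_top, ← lintegral_mul_const _
          (m1.const_mul _), ← lintegral_const_mul' _ _ h19]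
        refine lintegral_mono fun z => ?_
        by_cases hz : (v, z.1) ∈ A
        swap
        · by_cases h2 : BB g t (x, z.1) = 0
          · simp [h2]
          · have h3 : kS q.D q.η |cf v z.1 z.2| ‖v - z.1‖ = 0 := if_neg fun h => hz ⟨h2, h.1⟩
            simp [h3]
        rw [indicator_of_mem hz, one_mul, hSS]
        obtain ⟨j, -, hj⟩ := hcold z.1 hz.1
        have a1 : ‖z.1‖ ≤ 2 := (hG.cold_v j t ht1 _ hj).2.1
        have a2 : ‖v - z.1‖ ≤ Rk := (norm_sub_le _ _).trans (by linarith)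
        have a3 := ENNReal.ofReal_le_ofReal (kS_le (D := q.D) hη hRk a2 (abs_nonneg (cf v z.1 z.2)))
        have o1 := om_nonneg q (vp v z.1 z.2)
        have o2 := om_nonneg q (wp v z.1 z.2)
        have a4 : ENNReal.ofReal S * ENNReal.ofReal (om q (vp v z.1 z.2) + om q (wp v z.1 z.2)) ≤
            WW g q t (x, vp v z.1 z.2) + WW g q t (x, wp v z.1 z.2) := by
          rw [← ENNReal.ofReal_mul hS0, mul_add, mul_comm S, mul_comm S]
          exact ENNReal.ofReal_add_le.trans (add_le_add (hW _) (hW _))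
        have a5 : ENNReal.ofReal (9 / 10 * S) ≤
            ENNReal.ofReal (19 / 20) * ENNReal.ofReal (19 / 20) * ENNReal.ofReal S := by
          rw [← ENNReal.ofReal_mul (by norm_num), ← ENNReal.ofReal_mul (by norm_num)]
          exact ENNReal.ofReal_le_ofReal (by nlinarith)
        calc _ ≤ ENNReal.ofReal (19 / 20) * ENNReal.ofReal (19 / 20) * ENNReal.ofReal S *
              (ENNReal.ofReal (kT Rk |cf v z.1 z.2| ‖v - z.1‖) * (BB g t (x, z.1) *
                ENNReal.ofReal (om q (vp v z.1 z.2) + om q (wp v z.1 z.2)))) * F t (x, v) := by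
              gcongr
          _ = ENNReal.ofReal (19 / 20) * (ENNReal.ofReal (kT Rk |cf v z.1 z.2| ‖v - z.1‖) *
              (F t (x, v) * (ENNReal.ofReal (19 / 20) * BB g t (x, z.1)) * (ENNReal.ofReal S *
                ENNReal.ofReal (om q (vp v z.1 z.2) + om q (wp v z.1 z.2))))) := by ring
          _ ≤ _ := by gcongr; exact hB z.1
    _ ≤ ENNReal.ofReal (19 / 20) * ∫⁻ v, WW g q t (x, v) *
          gainK (kT Rk) (fun u => F t (x, u)) (fun u => F t (x, u)) v := by
        rw [lintegral_const_mul' _ _ h19]; gcongr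
    _ ≤ _ := by
        rw [← lintegral_const_mul' _ _ h19]
        refine lintegral_mono fun v => ?_
        rw [mul_left_comm]
        refine mul_le_mul' le_rfl ?_
        have a1 : 1 + ENNReal.ofReal δ * ∫⁻ u, F t (x, u) ≤ ENNReal.ofReal (20 / 19) := by
          calc _ ≤ ENNReal.ofReal 1 + ENNReal.ofReal (1 / 19) := by
                rw [ENNReal.ofReal_one]; gcongr
            _ = _ := by rw [← ENNReal.ofReal_add (by norm_num) (by norm_num)]; norm_num
        calc _ = G2 (kT Rk) F F t (x, v) / ENNReal.ofReal (20 / 19) := by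
              rw [ENNReal.div_eq_inv_mul, ← ENNReal.ofReal_inv_of_pos (by norm_num), inv_div]
              rfl
          _ ≤ _ := ENNReal.div_le_div_left a1 _

end

end Vale.Agent.P140
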