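import Vale.Agent.P140.StmC

namespace Vale.Agent.P140

open MeasureTheory Set Filter Topology
open scoped ENNReal

noncomputable section

namespace Mono3Aux

lemma ev_small {f : ℝ → ℝ} (hf : Continuous f) (h0 : f 0 = 0) {e : ℝ} (he : 0 < e) :
    ∀ᶠ R in 𝓝[>] (0 : ℝ), f R < e := by
  have : Tendsto f (𝓝 0) (𝓝 0) := by simpa [h0] using hf.tendsto 0
  exact (this.eventually (gt_mem_nhds he)).filter_mono nhdsWithin_le_nhds

lemma freq_le (hc : BaseC) {h : E → ℝ≥0∞} (hm : Measurable h) (v : E) {M : ℝ}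
    (hM : ∀ u, h u ≠ 0 → ‖v - u‖ ≤ M) :
    freqK kF h v ≤ ENNReal.ofReal (2 * Real.pi * M) * ∫⁻ u, h u := by
  rw [hc.alg.freq_eq h v hm, ← lintegral_const_mul _ hm]
  refine lintegral_mono fun u => ?_
  by_cases hu : h u = 0
  · simp [hu]
  · have := hM u hu
    have := Real.pi_pos
    exact mul_le_mul' (ENNReal.ofReal_le_ofReal (by gcongr)) le_rfl

lemma upper (hc : BaseC) {g : Geo} (hg : g.Ok) {Λ : ℕ} (hΛ : 1 ≤ Λ) {ε T : ℝ} (hε : 0 ≤ ε)
    (hT : T ≤ g.R) {F : ST} (hL : Lin g Λ ε T F) {t : ℝ} (ht : t ∈ Icc (0 : ℝ) T) (p : Om) :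
    F t p ≤ BB g t p + (EE g t p + ENNReal.ofReal (g.R ^ 19 + ε) * psE g t p) := by
  have hB := hc.gb g hg
  have hR := hg.R0
  have h32 : t ∈ Icc (0 : ℝ) (1 / 32) := ⟨ht.1, by linarith [hB.R_le, ht.2]⟩
  have hl : (0 : ℝ) ≤ 1 / (8 * Λ) := by positivity
  have hl' : (1 : ℝ) / (8 * Λ) ≤ 1 / 8 := by
    have : (1 : ℝ) ≤ Λ := by exact_mod_cast hΛ
    exact one_div_le_one_div_of_le (by norm_num) (by linarith)
  obtain ⟨t1, t2, -, -⟩ := hB.tau_bd _ hl hl' t h32 p
  have t0 : 0 ≤ tau g (1 / (8 * Λ)) t p := by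
    have := hB.te.1; have := hB.te.2.2 t; linarith [ht.1]
  have hps : 0 ≤ ps g t p := by
    have := hB.ps_bd t h32 p; linarith [this.2.1, this.2.2.2.1]
  have h2 : wt g (1 / (8 * Λ)) Λ t p ≤ psE g t p := by
    refine ENNReal.ofReal_le_ofReal ?_
    have := pow_le_one₀ (n := Λ) t0 t2
    nlinarith
  have h4 : F t p ≤ ENNReal.ofReal ε * psE g t p + Z0 g Λ t p := tsub_le_iff_right.1 (hL t ht p)
  calc F t p ≤ _ := h4
    _ ≤ ENNReal.ofReal ε * psE g t p +
        (BB g t p + EE g t p + ENNReal.ofReal (g.R ^ 19) * psE g t p) := by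
        simp only [Z0, CC]; gcongr
    _ = _ := by rw [ENNReal.ofReal_add (by positivity) hε]; ring

lemma mem_b0s (hc : BaseC) {g : Geo} (hg : g.Ok) {t : ℝ} (ht : t ∈ Icc (0 : ℝ) 1) {p : Om} {j : ℕ}
    (hj : p.1 ∈ Tube g j t) (h : BB g t p ≠ 0) : fl (-t) p ∈ B0s g j := by
  by_contra hn
  apply h
  rw [(hc.gb g hg).bb_tube j t ht p hj]
  split_ifs
  · exact indicator_of_notMem hn _
  · rfl

end Mono3Aux

open Mono3Aux

theorem mono3 (_hb : Base) (hc : BaseC) (hU : DensUStmt) (hP : PPStmt) : Mono3Stmt := by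
  obtain ⟨C₂, hC₂, hP⟩ := hP
  refine ⟨6 * C₂, by linarith, fun c κ V hc1 hκ0 hκ1 hV => ?_⟩
  have hπ := Real.pi_pos
  have s1 := ev_small (f := fun R => R) continuous_id rfl (e := κ ^ 2) (by positivity)
  have s2 := ev_small (f := fun R => 2 * Real.pi * (V + 2) * (24 * c * R)) (by fun_prop) (by simp)
    (e := 1 / 3) (by norm_num)
  have s3 := ev_small (f := fun R => R ^ 19 * (C₂ * (1 + V))) (by fun_prop) (by simp)
    (e := 1 / 3) (by norm_num)
  have s4 := ev_small (f := fun R => 64 * Real.pi * c * R ^ 6) (by fun_prop) (by simp) one_pos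
  filter_upwards [s1, s2, s3, s4, self_mem_nhdsWithin] with R r1 r2 r3 r4 hR K
  have hR0 : 0 < R := hR
  set g : Geo := ⟨c, κ, R, K⟩ with hgdef
  have hg : g.Ok := ⟨hc1, hκ0, hκ1, hR0, r1.le⟩
  have hG := hc.gb g hg
  have hPP := hP g hg
  have hR4 : R ≤ 1 / 10000 := hG.R_le
  have hte := hG.te.1
  refine ⟨8 * c / (κ * g.te 0) + (24 * c + 2 * C₂), by positivity, ?_⟩
  intro Λ ε s Rk δ F hΛ hε hCV hs hF T hT hL
  have hT' : T ≤ R := hT.2
  have mB := fun t x => hc.alg.jm_slice _ (hc.me.jm g).1 t x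
  have mE := fun t x => hc.alg.jm_slice _ (hc.me.jm g).2.1 t x
  have mψ := fun t x => hc.alg.jm_slice _ (hc.me.jm g).2.2.2.1 t x
  have mF := fun t x => hc.alg.jm_slice _ hF.jm t x
  have hε3 : ε * (C₂ * (1 + V)) ≤ 1 / 3 := by
    have : ε * (C₂ * (1 + V)) ≤ ε * (C₂ * (2 * V)) := by gcongr; linarith
    nlinarith
  have part1 : ∀ t ∈ Icc (0 : ℝ) T, ∀ p : Om, ‖p.2‖ ≤ V → Nu F t p ≤ Nu (BB g) t p + 1 := by
    intro t ht p hv
    have h32 : t ∈ Icc (0 : ℝ) (1 / 32) := ⟨ht.1, by linarith [ht.2]⟩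
    have ht1 : t ∈ Icc (0 : ℝ) 1 := ⟨ht.1, by linarith [ht.2]⟩
    have mk : Measurable fun u : E => ENNReal.ofReal (2 * Real.pi * ‖p.2 - u‖) := by fun_prop
    have e1 : Nu F t p ≤ Nu (BB g) t p + (Nu (EE g) t p +
        ENNReal.ofReal (R ^ 19 + ε) * Nu (psE g) t p) := by
      unfold Nu
      rw [hc.alg.freq_eq _ _ (mF _ _), hc.alg.freq_eq _ _ (mB _ _), hc.alg.freq_eq _ _ (mE _ _),
        hc.alg.freq_eq _ _ (mψ _ _), ← lintegral_const_mul' _ _ ENNReal.ofReal_ne_top,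
        ← lintegral_add_left (mk.fun_mul (mE _ _)), ← lintegral_add_left (mk.fun_mul (mB _ _))]
      refine lintegral_mono fun u => ?_
      calc _ ≤ ENNReal.ofReal (2 * Real.pi * ‖p.2 - u‖) * (BB g t (p.1, u) + (EE g t (p.1, u) +
            ENNReal.ofReal (g.R ^ 19 + ε) * psE g t (p.1, u))) :=
            mul_le_mul' le_rfl (upper hc hg hΛ hε hT.2 hL ht _)
        _ = _ := by ring
    have e2 : Nu (EE g) t p ≤ ENNReal.ofReal (1 / 3) := by
      refine (freq_le hc (mE t p.1) p.2 (M := V + 2) fun u hu => ?_).trans ?_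
      · obtain ⟨j, -, hj⟩ := hG.cc_supp t ht1 (p.1, u) fun h => hu (add_eq_zero.1 h).2
        have : ‖u‖ ≤ 2 := (hG.cold_v j t ht1 _ hj).2.1
        linarith [norm_sub_le p.2 u]
      · calc _ ≤ ENNReal.ofReal (2 * Real.pi * (V + 2)) * ENNReal.ofReal (24 * c * t) :=
              mul_le_mul' le_rfl (hU g hg t ht1 p.1).2.1
          _ ≤ _ := by
              rw [← ENNReal.ofReal_mul (by positivity)]
              refine ENNReal.ofReal_le_ofReal (le_trans ?_ r2.le)
              gcongr; linarith [ht.2]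
    have e3 : ENNReal.ofReal (R ^ 19 + ε) * Nu (psE g) t p ≤ ENNReal.ofReal (2 / 3) := by
      calc _ ≤ ENNReal.ofReal (R ^ 19 + ε) * ENNReal.ofReal (C₂ * (1 + ‖p.2‖)) :=
            mul_le_mul' le_rfl (hPP.freq t h32 p)
        _ ≤ _ := by
            rw [← ENNReal.ofReal_mul (by positivity)]
            refine ENNReal.ofReal_le_ofReal ?_
            calc _ ≤ (R ^ 19 + ε) * (C₂ * (1 + V)) := by gcongr
              _ ≤ _ := by rw [add_mul]; linarith
    refine e1.trans (add_le_add le_rfl ((add_le_add e2 e3).trans (le_of_eq ?_)))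
    rw [← ENNReal.ofReal_add (by norm_num) (by norm_num)]; norm_num
  intro t ht p
  have h32 : t ∈ Icc (0 : ℝ) (1 / 32) := ⟨ht.1, by linarith [ht.2]⟩
  have ht1 : t ∈ Icc (0 : ℝ) 1 := ⟨ht.1, by linarith [ht.2]⟩
  refine ⟨part1 t ht p, ?_, ?_⟩
  · by_cases h0 : BB g t p = 0
    · simp [h0]
    obtain ⟨j, -, hj⟩ := hG.cc_supp t ht1 p fun h => h0 (add_eq_zero.1 h).1
    have hp₀ := mem_b0s hc hg ht1 hj.1 h0
    set p₀ := fl (-t) p with hp₀def
    have hv2 : ‖p.2‖ ≤ 2 := (hG.cold_v j t ht1 _ hj).2.1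
    have hnu : ∀ r ∈ Ioc 0 t, Nu F r (fl r p₀) ≤ ENNReal.ofReal 2 := by
      intro r hr
      have hrT : r ∈ Icc (0 : ℝ) T := ⟨hr.1.le, hr.2.trans ht.2⟩
      have hr1 : r ∈ Icc (0 : ℝ) 1 := ⟨hr.1.le, hr.2.trans ht1.2⟩
      have a0 : fl (-r) (fl r p₀) ∈ B0s g j := by rwa [fl_fl, neg_add_cancel, fl_zero]
      obtain ⟨a1, -, a2, -⟩ := hG.supp j r hr1 _ a0
      have a3 : Nu (BB g) r (fl r p₀) ≤ 1 := by
        refine (freq_le hc (mB r _) _ (M := 2 * g.th j) fun u hu => ?_).trans ?_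
        · have b1 := mem_b0s hc hg hr1 (p := ((fl r p₀).1, u)) a1.1 hu
          have b2 := (hG.supp j r hr1 _ b1).2.2.1
          have b3 := norm_sub_le ((fl r p₀).2 - uu g.κ (sg j) (fl r p₀).1)
            (u - uu g.κ (sg j) (fl r p₀).1)
          rw [sub_sub_sub_cancel_right] at b3
          simp only at b2
          linarith
        · obtain ⟨c1, c2, c3, -, c4, -⟩ := hG.r_pos j
          have c5 := (hG.tube j r hr1 _ a1.1).1
          have c6 : g.r j / 2 ≤ ‖pl (fl r p₀).1‖ := by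
            have : 0 ≤ g.κ * r := mul_nonneg hκ0.le hr.1.le
            simp only [Geo.lab, Geo.w] at c5 c3
            linarith
          calc _ ≤ ENNReal.ofReal (2 * Real.pi * (2 * g.th j)) *
                ENNReal.ofReal (8 * c / ‖pl (fl r p₀).1‖) :=
                mul_le_mul' le_rfl (hU g hg r hr1 _).1
            _ ≤ _ := by
                rw [← ENNReal.ofReal_mul (by positivity)]
                refine ENNReal.ofReal_le_one.2 (le_trans ?_ r4.le)
                calc _ ≤ 2 * Real.pi * (2 * g.th j) * (8 * c / (g.r j / 2)) := by gcongr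
                  _ = 64 * Real.pi * c * g.r j ^ 6 := by simp only [Geo.th]; field_simp; ring
                  _ ≤ _ := by gcongr
      refine (part1 r hrT _ (by show ‖p.2‖ ≤ V; linarith)).trans ?_
      calc _ ≤ (1 : ℝ≥0∞) + 1 := add_le_add a3 le_rfl
        _ = _ := by rw [ENNReal.ofReal_ofNat]; norm_num
    have hint : ∫⁻ r in Ioc 0 t, Nu F r (fl r p₀) ≤ ENNReal.ofReal (2 * t) := by
      calc _ ≤ ∫⁻ _ in Ioc 0 t, ENNReal.ofReal 2 := setLIntegral_mono' measurableSet_Ioc hnu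
        _ = _ := by
            rw [setLIntegral_const, Real.volume_Ioc, sub_zero, ← ENNReal.ofReal_mul (by norm_num)]
    have hen : ENNReal.ofReal (19 / 20) ≤ en (∫⁻ r in Ioc 0 t, Nu F r (fl r p₀)) := by
      refine le_trans ?_ (hc.en.anti _ _ hint)
      rw [hc.en.ofReal _ (by linarith [ht.1])]
      refine ENNReal.ofReal_le_ofReal ?_
      have := Real.add_one_le_exp (-(2 * t))
      linarith [ht.2]
    have hlow := hF.low 0 t le_rfl ht.1 p₀
    rw [fl_zero, hF.init, hp₀def, fl_fl, add_neg_cancel, fl_zero] at hlow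
    refine le_trans ?_ (le_self_add.trans hlow)
    rw [mul_comm]
    refine mul_le_mul' (ENNReal.ofReal_le_ofReal ?_) hen
    have := mul_nonneg hs (Mx_pos (fl (-t) p).2).le
    simp only [seed]; linarith
  · have e1 : ∫⁻ u, BB g t (p.1, u) ≤ ENNReal.ofReal (8 * c / (κ * g.te 0)) := by
      by_cases hI : InT g t p.1
      · refine (hU g hg t ht1 p.1).1.trans (ENNReal.ofReal_le_ofReal ?_)
        have a1 := (hG.inT t ht1 _ hI).1
        have a2 : κ * g.te 0 ≤ ‖pl p.1‖ := by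
          refine le_trans ?_ a1
          have : g.te 0 ≤ g.te t := by rw [hG.te.2.2 t]; linarith [ht.1]
          exact mul_le_mul_of_nonneg_left this hκ0.le
        show 8 * c / _ ≤ _
        gcongr
      · have : ∀ u, BB g t (p.1, u) = 0 := fun u => by
          by_contra hu
          obtain ⟨j, hj, hj'⟩ := hG.cc_supp t ht1 (p.1, u) fun h => hu (add_eq_zero.1 h).1
          exact hI ⟨j, hj, hj'.1⟩
        simp [this]
    have e2 : ∫⁻ u, EE g t (p.1, u) ≤ ENNReal.ofReal (24 * c) := by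
      refine (hU g hg t ht1 p.1).2.1.trans (ENNReal.ofReal_le_ofReal ?_)
      exact mul_le_of_le_one_right (by positivity) ht1.2
    have e3 : ENNReal.ofReal (R ^ 19 + ε) * ∫⁻ u, psE g t (p.1, u) ≤ ENNReal.ofReal (2 * C₂) := by
      rw [ENNReal.ofReal_mul (by norm_num)]
      refine mul_le_mul' (ENNReal.ofReal_le_ofReal ?_) (hPP.dens t h32 _)
      have a1 : R ^ 19 ≤ 1 := pow_le_one₀ hR0.le (by linarith)
      have a2 : 1 ≤ C₂ * (1 + V) := one_le_mul_of_one_le_of_one_le hC₂ (by linarith)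
      nlinarith
    calc ∫⁻ u, F t (p.1, u) ≤ ∫⁻ u, (BB g t (p.1, u) + (EE g t (p.1, u) +
          ENNReal.ofReal (R ^ 19 + ε) * psE g t (p.1, u))) :=
          lintegral_mono fun u => upper hc hg hΛ hε hT.2 hL ht _
      _ = (∫⁻ u, BB g t (p.1, u)) + ((∫⁻ u, EE g t (p.1, u)) +
          ENNReal.ofReal (R ^ 19 + ε) * ∫⁻ u, psE g t (p.1, u)) := by
          rw [lintegral_add_left (mB _ _), lintegral_add_left (mE _ _),
            lintegral_const_mul' _ _ ENNReal.ofReal_ne_top]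
      _ ≤ _ := by
          refine (add_le_add e1 (add_le_add e2 e3)).trans (le_of_eq ?_)
          rw [ENNReal.ofReal_add (by positivity) (by positivity),
            ENNReal.ofReal_add (by positivity) (by positivity)]

end

end Vale.Agent.P140
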