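import Vale.Agent.P140.StmC

/-!
One Duhamel step.
-/

namespace Vale.Agent.P140

open MeasureTheory Set Filter Topology
open scoped ENNReal

noncomputable section

namespace OSAux

lemma gain_le {k : ℝ → ℝ → ℝ} {f h f' h' : E → ℝ≥0∞} {v : E} {c : ℝ≥0∞} (hc : c ≠ ⊤)
    (H : ∀ w ω, f (vp v w ω) * h (wp v w ω) ≤ c * (f' (vp v w ω) * h' (wp v w ω))) :
    gainK k f h v ≤ c * gainK k f' h' v := by
  unfold gainK
  rw [← lintegral_const_mul' _ _ hc]
  refine lintegral_mono fun q => ?_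
  exact (mul_le_mul_right (H q.1 q.2) _).trans_eq (mul_left_comm _ _ _)

lemma energy (v w : E) (ω : S2) : ‖v‖ ^ 2 ≤ ‖vp v w ω‖ ^ 2 + ‖wp v w ω‖ ^ 2 := by
  have := energy_post v w 0 ω
  simp only [sub_zero] at this
  nlinarith [sq_nonneg ‖w‖]

lemma tau_cmp (g : Geo) {l t ρ : ℝ} (hl : 0 ≤ l) (ht : 0 ≤ g.te t) (h1 : ρ ≤ 1)
    (x : T3) {u v : E} (h : 2 * l * ‖v‖ ≤ 1 ∨ ρ * ‖v‖ ≤ ‖u‖) :
    ρ * tau g l t (x, u) ≤ tau g l t (x, v) := by
  have m1 : 1 ≤ max 1 (2 * l * ‖u‖) := le_max_left _ _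
  have m2 : 1 ≤ max 1 (2 * l * ‖v‖) := le_max_left _ _
  have h2 : ρ * max 1 (2 * l * ‖v‖) ≤ max 1 (2 * l * ‖u‖) := by
    by_cases h3 : 2 * l * ‖v‖ ≤ 1
    · rw [max_eq_left h3]
      linarith
    · rw [max_eq_right (not_le.1 h3).le]
      refine le_trans ?_ (le_max_right _ _)
      nlinarith [h.resolve_left h3]
  have h4 : ρ * (l / max 1 (2 * l * ‖u‖)) ≤ l / max 1 (2 * l * ‖v‖) := by
    rw [← mul_div_assoc, div_le_div_iff₀ (by linarith) (by linarith)]
    nlinarith [mul_le_mul_of_nonneg_left h2 hl]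
  simp only [tau]
  nlinarith [mul_le_mul_of_nonneg_left h4 (norm_nonneg (pl x))]

lemma tau_pow (g : Geo) {l t : ℝ} {a : ℕ} (hl : 0 ≤ l) (ha : 1 ≤ a) (hal : 8 * a * l ≤ 1)
    (ht : 0 ≤ g.te t) (x : T3) {u v : E} (h : ‖v‖ ≤ ‖u‖ + 2) :
    tau g l t (x, u) ^ a ≤ 2 * tau g l t (x, v) ^ a := by
  have ha1 : (1 : ℝ) ≤ a := by exact_mod_cast ha
  set θ : ℝ := 1 / (2 * a) with hθ
  have hθa : θ * a = 1 / 2 := by rw [hθ]; field_simp
  have hθ0 : 0 < θ := by positivity
  have hθ1 : θ ≤ 1 / 2 := by nlinarith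
  have h1 := tau_cmp g hl ht (ρ := 1 - θ) (by linarith) x (u := u) (v := v) (by
    by_cases h3 : 2 * l * ‖v‖ ≤ 1
    · exact Or.inl h3
    · have h4 : 4 * a ≤ ‖v‖ := by
        by_contra h5
        nlinarith [mul_le_mul_of_nonneg_left (not_le.1 h5).le hl]
      exact Or.inr (by nlinarith))
  have h2 : 0 ≤ tau g l t (x, u) := by
    simp only [tau]
    positivity
  have h3 := pow_le_pow_left₀ (mul_nonneg (by linarith) h2) h1 a
  have h4 := one_add_mul_le_pow (a := -θ) (by linarith) a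
  rw [mul_pow] at h3
  have h5 : 1 / 2 ≤ (1 - θ) ^ a := by
    rw [← sub_eq_add_neg] at h4
    linarith
  linarith [mul_le_mul_of_nonneg_right h5 (pow_nonneg h2 a)]

lemma pow_int {τ t : ℝ} (ht : 0 ≤ t) (h : t ≤ τ) (n : ℕ) :
    ∫⁻ s in Ioc 0 t, ENNReal.ofReal ((τ - (t - s) / 2) ^ n)
      ≤ ENNReal.ofReal (2 * τ ^ (n + 1) / (n + 1)) := by
  have hc : Continuous fun s : ℝ => (τ - (t - s) / 2) ^ n := by fun_prop
  rw [← ofReal_integral_eq_lintegral_ofReal (hc.intervalIntegrable 0 t).1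
    (ae_restrict_of_forall_mem measurableSet_Ioc fun s hs =>
      pow_nonneg (by linarith [hs.1]) n), ← intervalIntegral.integral_of_le ht]
  refine ENNReal.ofReal_le_ofReal ?_
  rw [intervalIntegral.integral_eq_sub_of_hasDerivAt
    (f := fun s => 2 * (τ - (t - s) / 2) ^ (n + 1) / (n + 1)) (fun s _ => ?_)
    (hc.intervalIntegrable 0 t)]
  · have : 0 ≤ 2 * (τ - (t - 0) / 2) ^ (n + 1) / (n + 1) :=
      div_nonneg (mul_nonneg zero_le_two (pow_nonneg (by linarith) _)) (by positivity)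
    simp only [sub_self, zero_div, sub_zero] at this ⊢
    linarith
  · have h1 : HasDerivAt (fun s : ℝ => τ - (t - s) / 2) (1 / 2) s := by
      refine ((((hasDerivAt_id s).const_sub t).div_const 2).const_sub τ).congr_deriv ?_
      norm_num
    refine (((h1.pow (n + 1)).const_mul 2).div_const ((n : ℝ) + 1)).congr_deriv ?_
    simp only [Nat.add_sub_cancel]
    push_cast
    field_simp

/-- Collisions of a slow population with the profile. -/
lemma gain_ps (hc : BaseC) {C₁ : ℝ} {g : Geo} {t : ℝ} {p : Om} {f : ST} (hf : JM f) {m : ℝ}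
    (h1 : ∀ (u : E) (ι : E2 →ₗᵢ[ℝ] E), ‖u‖ ≤ 4 → (∀ y, inner ℝ (ι y) (p.2 - u) = 0) →
      ∫⁻ y, psE g t (p.1, p.2 - ι y) ≤ ENNReal.ofReal (C₁ * ee t p.2))
    (hs : ∀ u, f t (p.1, u) ≠ 0 → ‖u‖ ≤ 2) (hm : 0 ≤ m)
    (hi : ∫⁻ u, f t (p.1, u) * (ENNReal.ofReal ‖p.2 - u‖)⁻¹ ≤
      ENNReal.ofReal (m * (1 + sw g t p))) (hsw : 0 ≤ sw g t p) :
    G2 kF f (psE g) t p ≤ ENNReal.ofReal (2 * m * C₁ * ps g t p) := by
  refine (hc.alg.carl _ _ p.2 _ (hc.alg.jm_slice f hf t p.1)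
    (hc.alg.jm_slice _ (hc.me.jm g).2.2.2.1 t p.1)
    fun u hu ι hι => h1 u ι (by linarith [hs u hu]) hι).trans ?_
  refine (mul_le_mul_left (mul_le_mul_right hi 2) _).trans (le_of_eq ?_)
  rw [← ENNReal.ofReal_ofNat 2, ← ENNReal.ofReal_mul zero_le_two,
    ← ENNReal.ofReal_mul (by positivity), ps]
  congr 1
  ring

lemma duh_le {q : ST} {t : ℝ} {p : Om} {a b : ℝ} (ha : 0 ≤ a) {k : ℝ → ℝ}
    (h : ∀ s ∈ Ioc 0 t, q s (fl (s - t) p) ≤ ENNReal.ofReal (a * k s))
    (hk : ∫⁻ s in Ioc 0 t, ENNReal.ofReal (k s) ≤ ENNReal.ofReal b) :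
    duh 0 q t p ≤ ENNReal.ofReal (a * b) := by
  refine (setLIntegral_mono' measurableSet_Ioc h).trans ?_
  simp only [ENNReal.ofReal_mul ha]
  rw [lintegral_const_mul' _ _ ENNReal.ofReal_ne_top]
  exact mul_le_mul_right hk _

lemma wt_eq {g : Geo} {l t : ℝ} {p : Om} (a : ℕ) (h : 0 ≤ tau g l t p) :
    wt g l a t p = ENNReal.ofReal (tau g l t p ^ a) * psE g t p :=
  ENNReal.ofReal_mul (pow_nonneg h a)

section

variable (hc : BaseC) {g : Geo} (hok : g.Ok)

include hc hok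

lemma te_nonneg {s : ℝ} (hs : 0 ≤ s) : 0 ≤ g.te s := by
  rw [(hc.gb g hok).te.2.2]
  linarith [(hc.gb g hok).te.1]

lemma tau_nonneg {l s : ℝ} (hl : 0 ≤ l) (hs : 0 ≤ s) (p : Om) : 0 ≤ tau g l s p := by
  have := te_nonneg hc hok hs
  simp only [tau]
  positivity

lemma ps_nonneg {s : ℝ} (hs : s ∈ Icc (0 : ℝ) (1 / 32)) (p : Om) : 0 ≤ ps g s p :=
  ((hc.gb g hok).ps_bd s hs p).2.2.2.1.le.trans ((hc.gb g hok).ps_bd s hs p).2.1

lemma cc_v {s : ℝ} (hs : s ∈ Icc (0 : ℝ) (1 / 32)) {x : T3} {u : E} (h : CC g s (x, u) ≠ 0) :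
    ‖u‖ ≤ 2 ∧ InT g s x := by
  have hs1 : s ∈ Icc (0 : ℝ) 1 := ⟨hs.1, by linarith [hs.2]⟩
  obtain ⟨j, hj, h1⟩ := (hc.gb g hok).cc_supp s hs1 _ h
  exact ⟨((hc.gb g hok).cold_v j s hs1 _ h1).2.1, j, hj, h1.1⟩

lemma hot_int {C A : ℝ} (hP : PPP g C) (hC : 0 ≤ C) (hA : 0 ≤ A) {q : ST} {t : ℝ}
    (ht : t ∈ Icc (0 : ℝ) (1 / 32)) {p : Om}
    (h : ∀ s ∈ Ioc 0 t, q s (fl (s - t) p) ≤
      ENNReal.ofReal A * G2 kF (psE g) (psE g) s (fl (s - t) p)) :
    duh 0 q t p ≤ ENNReal.ofReal (A * C * ps g t p) := by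
  obtain ⟨-, b1, -, b2, -⟩ := (hc.gb g hok).ps_bd t ht p
  refine (duh_le (mul_nonneg hA hC) (k := fun s => (1 + ‖p.2‖) * ee s p.2) (fun s hs => ?_)
    (hP.time 0 t le_rfl ht.1 ht.2 p.2)).trans (ENNReal.ofReal_le_ofReal ?_)
  · refine (h s hs).trans ((mul_le_mul_right
      (hP.gain s ⟨hs.1.le, hs.2.trans ht.2⟩ _) _).trans (le_of_eq ?_))
    rw [← ENNReal.ofReal_mul hA, fl_snd]
    congr 1
    ring
  · refine mul_le_mul_of_nonneg_left (le_trans ?_ b1) (mul_nonneg hA hC)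
    have : √(t - 0) ≤ 1 / 2 := Real.sqrt_le_iff.2 ⟨by norm_num, by linarith [ht.2]⟩
    nlinarith

end

end OSAux

open OSAux in
theorem osC (hb : Base) (hc : BaseC) (hS : SingStmt) (h1 : PB1Stmt) (hP : PPStmt) : OSStmt := by
  obtain ⟨Cs, hCs, hS⟩ := hS
  obtain ⟨C₁, hC₁, h1⟩ := h1
  obtain ⟨Cp, hCp, hP⟩ := hP
  have hK : 1 ≤ Cs * C₁ := one_le_mul_of_one_le_of_one_le hCs hC₁
  refine ⟨32 * (Cs * C₁) + Cp, by linarith, fun g hok => ?_⟩
  have hB := hc.gb g hok
  have hPP := hP g hok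
  have hκ := hok.κ0
  have hc0 : 0 ≤ g.c := by linarith [hok.c1]
  have hT : ∀ t ∈ Icc (0 : ℝ) g.R, t ∈ Icc (0 : ℝ) (1 / 32) := fun t ht =>
    ⟨ht.1, by linarith [ht.2, hB.R_le]⟩
  have hdrop : ∀ s ∈ Icc (0 : ℝ) (1 / 32), ∀ p : Om,
      (1 + sw g s p) / (1 + ‖p.2‖) ≤ 1 + sw g s p := fun s hs p =>
    div_le_self (by linarith [(hB.ps_bd s hs p).2.2.1]) (by linarith [norm_nonneg p.2])
  refine ⟨fun l a hl ha hal t ht p => ?_, fun t ht p => ?_, fun a t ht p => ?_,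
    fun l a hl hl8 t ht p => ?_⟩
  · obtain ⟨n, rfl⟩ : ∃ n, a = n + 1 := ⟨a - 1, by omega⟩
    have hn : (1 : ℝ) ≤ (n + 1 : ℕ) := by exact_mod_cast ha
    have hl8 : l ≤ 1 / 8 := by nlinarith
    have ht' := hT t ht
    have key : ∀ s ∈ Icc (0 : ℝ) (1 / 32), ∀ p : Om, G2 kF (CC g) (wt g l (n + 1)) s p ≤
        ENNReal.ofReal (16 * (Cs * C₁) * g.c / g.κ * ps g s p * tau g l s p ^ n) := by
      intro s hs p
      by_cases hin : ¬ InT g s p.1
      · refine (hc.alg.gain_zero _ _ _ _ (Or.inl fun u => ?_)).trans_le zero_le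
        by_contra h
        exact hin (cc_v hc hok hs h).2
      rw [not_not] at hin
      have hX := norm_pos_iff.2 (hB.inT s ⟨hs.1, by linarith [hs.2]⟩ p.1 hin).2.2.1
      have hτ := tau_nonneg hc hok hl hs.1
      have hsw := (hB.ps_bd s hs p).2.2.1
      have g1 : G2 kF (CC g) (wt g l (n + 1)) s p ≤
          ENNReal.ofReal (2 * tau g l s p ^ (n + 1)) * G2 kF (CC g) (psE g) s p := by
        refine gain_le ENNReal.ofReal_ne_top fun w ω => ?_
        by_cases h0 : CC g s (p.1, vp p.2 w ω) = 0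
        · simp [h0]
        rw [wt_eq _ (hτ _), mul_left_comm]
        refine mul_le_mul_left (ENNReal.ofReal_le_ofReal
          (tau_pow g hl ha hal (te_nonneg hc hok hs.1) p.1 ?_)) _
        have e1 := energy p.2 w ω
        have e2 := (cc_v hc hok hs h0).1
        refine le_of_sq_le_sq ?_ (by positivity)
        nlinarith [norm_nonneg (vp p.2 w ω), norm_nonneg (wp p.2 w ω)]
      have g2 : G2 kF (CC g) (psE g) s p ≤
          ENNReal.ofReal (2 * (2 * (Cs * g.c / ‖pl p.1‖)) * C₁ * ps g s p) := by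
        refine gain_ps hc (hc.me.jm g).2.2.1 (fun u ι => h1 g hok s hs p.1 p.2 u ι)
          (fun u hu => (cc_v hc hok hs hu).1) (by positivity) ?_ hsw
        obtain ⟨s1, s2⟩ := hS g hok s hs p
        simp only [CC, add_mul]
        have hm : Measurable fun u => BB g s (p.1, u) * (ENNReal.ofReal ‖p.2 - u‖)⁻¹ :=
          (hc.alg.jm_slice _ (hc.me.jm g).1 s p.1).mul (by fun_prop)
        rw [lintegral_add_left hm]
        refine (add_le_add s1 s2).trans ?_
        have hs0 := hs.1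
        rw [← ENNReal.ofReal_add (by positivity) (by positivity)]
        refine ENNReal.ofReal_le_ofReal ?_
        have b1 : Cs * g.c * s ≤ Cs * g.c / ‖pl p.1‖ := by
          rw [le_div_iff₀ hX, mul_assoc]
          exact mul_le_of_le_one_right (by positivity)
            (mul_le_one₀ (by linarith [hs.2]) hX.le (hc.ga.pl_le p.1))
        have b2 := hdrop s hs p
        have b3 : 0 ≤ Cs * g.c / ‖pl p.1‖ := by positivity
        have b4 : 0 ≤ (1 + sw g s p) / (1 + ‖p.2‖) := by positivity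
        nlinarith [mul_le_mul_of_nonneg_right b1 b4, mul_le_mul_of_nonneg_left b2 b3]
      refine g1.trans ((mul_le_mul_right g2 _).trans ?_)
      have t0 := hτ p
      have p0 := ps_nonneg hc hok hs p
      rw [← ENNReal.ofReal_mul (by positivity)]
      refine ENNReal.ofReal_le_ofReal ?_
      have b5 : tau g l s p / ‖pl p.1‖ ≤ 2 / g.κ := by
        rw [div_le_div_iff₀ hX hκ]
        linarith [(hB.tau_bd l hl hl8 s hs p).2.2.2 hin]
      have b6 : 0 ≤ 8 * (Cs * C₁) * g.c * ps g s p * tau g l s p ^ n := by positivity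
      refine le_trans (le_of_eq ?_) ((mul_le_mul_of_nonneg_left b5 b6).trans (le_of_eq ?_)) <;> ring
    have p0 := ps_nonneg hc hok ht' p
    have t0 := tau_nonneg hc hok hl ht.1 p
    refine (duh_le (a := 16 * (Cs * C₁) * g.c / g.κ * ps g t p) (by positivity)
      (k := fun s => (tau g l t p - (t - s) / 2) ^ n) (fun s hs => ?_)
      (pow_int ht.1 ?_ n)).trans ?_
    · have hs' : s ∈ Icc (0 : ℝ) (1 / 32) := ⟨hs.1.le, hs.2.trans ht'.2⟩
      refine (key s hs' _).trans (ENNReal.ofReal_le_ofReal ?_)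
      have a1 := tau_nonneg hc hok hl hs.1.le (fl (s - t) p)
      refine mul_le_mul (mul_le_mul_of_nonneg_left (hB.ps_mono s t hs.1.le hs.2 ht'.2 p)
        (by positivity)) (pow_le_pow_left₀ a1 ?_ n) (by positivity) (by positivity)
      linarith [hB.tau_mono l s t hl hs.2 p]
    · have := (hB.tau_bd l hl hl8 t ht' p).1
      rw [hB.te.2.2] at this
      linarith [hB.te.1]
    · rw [wt, ← ENNReal.ofReal_mul (by positivity)]
      refine ENNReal.ofReal_le_ofReal ?_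
      have b1 : 0 ≤ g.c / (g.κ * (n + 1)) * (tau g l t p ^ (n + 1) * ps g t p) := by positivity
      have b2 := mul_le_mul_of_nonneg_right
        (show 32 * (Cs * C₁) ≤ 32 * (Cs * C₁) + Cp by linarith) b1
      push_cast
      refine le_trans (le_of_eq ?_) (b2.trans (le_of_eq ?_))
      · field_simp
        ring
      · ring
  · have ht' := hT t ht
    have p0 := ps_nonneg hc hok ht' p
    have t0 := te_nonneg hc hok ht.1
    refine (duh_le (a := 2 * (Cs * C₁) * g.c * (g.te t * ps g t p)) (b := g.R) (by positivity)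
      (k := fun _ => 1) (fun s hs => ?_) ?_).trans ?_
    · have hs' : s ∈ Icc (0 : ℝ) (1 / 32) := ⟨hs.1.le, hs.2.trans ht'.2⟩
      have hs0 := hs.1.le
      have s0 := te_nonneg hc hok hs0
      have g1 : G2 kF (EE g) (wt g 0 1) s (fl (s - t) p) ≤
          ENNReal.ofReal (g.te s) * G2 kF (EE g) (psE g) s (fl (s - t) p) := by
        refine gain_le ENNReal.ofReal_ne_top fun w ω => ?_
        rw [wt_eq _ (tau_nonneg hc hok le_rfl hs0 _), mul_left_comm, pow_one,
          (hB.tau_bd 0 le_rfl (by norm_num) s hs' _).2.2.1]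
      have g2 := gain_ps hc (hc.me.jm g).2.1 (m := Cs * g.c * s)
        (fun u ι => h1 g hok s hs' (fl (s - t) p).1 (fl (s - t) p).2 u ι)
        (fun u hu => (cc_v hc hok hs' fun h => hu (add_eq_zero.1 h).2).1) (by positivity)
        ((hS g hok s hs' _).2.trans (ENNReal.ofReal_le_ofReal
          (mul_le_mul_of_nonneg_left (hdrop s hs' _) (by positivity)))) (hB.ps_bd s hs' _).2.2.1
      refine g1.trans ((mul_le_mul_right g2 _).trans ?_)
      rw [← ENNReal.ofReal_mul s0]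
      refine ENNReal.ofReal_le_ofReal ?_
      have a1 := hB.ps_mono s t hs0 hs.2 ht'.2 p
      have a2 := ps_nonneg hc hok hs' (fl (s - t) p)
      have a3 : g.te s ≤ g.te t := by rw [hB.te.2.2 s, hB.te.2.2 t]; linarith [hs.2]
      have a4 : g.te s * ps g s (fl (s - t) p) * s ≤ g.te t * ps g t p * 1 :=
        mul_le_mul (mul_le_mul a3 a1 a2 t0) (by linarith [hs'.2]) hs0 (by positivity)
      have a5 := mul_le_mul_of_nonneg_left a4
        (show 0 ≤ 2 * (Cs * C₁) * g.c by positivity)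
      refine le_trans (le_of_eq ?_) (a5.trans (le_of_eq ?_)) <;> ring
    · simp only [ENNReal.ofReal_one, setLIntegral_one, Real.volume_Ioc, sub_zero]
      exact ENNReal.ofReal_le_ofReal ht.2
    · have R0 := hok.R0
      rw [wt, ← ENNReal.ofReal_mul (by positivity), pow_one,
        (hB.tau_bd 0 le_rfl (by norm_num) t ht' p).2.2.1]
      refine ENNReal.ofReal_le_ofReal ?_
      have b1 : 0 ≤ g.c * g.R * (g.te t * ps g t p) := by positivity
      have b2 := mul_le_mul_of_nonneg_right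
        (show 2 * (Cs * C₁) ≤ 32 * (Cs * C₁) + Cp by linarith) b1
      refine le_trans (le_of_eq ?_) (b2.trans (le_of_eq ?_)) <;> ring
  · have ht' := hT t ht
    have p0 := ps_nonneg hc hok ht' p
    have t0 := te_nonneg hc hok ht.1
    refine (hot_int hc hok hPP (by linarith) (A := g.te t ^ a) (by positivity) ht'
      fun s hs => ?_).trans ?_
    · have hs' : s ∈ Icc (0 : ℝ) (1 / 32) := ⟨hs.1.le, hs.2.trans ht'.2⟩
      refine gain_le ENNReal.ofReal_ne_top fun w ω => ?_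
      rw [wt_eq _ (tau_nonneg hc hok le_rfl hs.1.le _), mul_left_comm,
        (hB.tau_bd 0 le_rfl (by norm_num) s hs' _).2.2.1]
      refine mul_le_mul_left (ENNReal.ofReal_le_ofReal
        (pow_le_pow_left₀ (te_nonneg hc hok hs.1.le) ?_ a)) _
      rw [hB.te.2.2 s, hB.te.2.2 t]
      linarith [hs.2]
    · rw [wt, ← ENNReal.ofReal_mul (by positivity),
        (hB.tau_bd 0 le_rfl (by norm_num) t ht' p).2.2.1]
      refine ENNReal.ofReal_le_ofReal ?_
      have b1 : 0 ≤ g.te t ^ a * ps g t p := by positivity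
      have b2 := mul_le_mul_of_nonneg_right (show Cp ≤ 32 * (Cs * C₁) + Cp by linarith) b1
      refine le_trans (le_of_eq ?_) b2
      ring
  · have ht' := hT t ht
    have p0 := ps_nonneg hc hok ht' p
    have t0 := tau_nonneg hc hok hl ht.1 p
    refine (hot_int hc hok hPP (by linarith) (A := (2 * tau g l t p) ^ a) (by positivity) ht'
      fun s hs => ?_).trans ?_
    · have hs' : s ∈ Icc (0 : ℝ) (1 / 32) := ⟨hs.1.le, hs.2.trans ht'.2⟩
      have hτ := tau_nonneg hc hok hl hs.1.le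
      refine gain_le ENNReal.ofReal_ne_top fun w ω => ?_
      rw [wt_eq _ (hτ _), wt_eq _ (hτ _), mul_mul_mul_comm,
        ← ENNReal.ofReal_mul (pow_nonneg (hτ _) a), ← mul_pow]
      refine mul_le_mul_left (ENNReal.ofReal_le_ofReal
        (pow_le_pow_left₀ (mul_nonneg (hτ _) (hτ _)) ?_ a)) _
      have a1 := hB.tau_mono l s t hl hs.2 p
      have a2 : ∀ u : E, 1 / 2 * ‖p.2‖ ≤ ‖u‖ →
          tau g l s ((fl (s - t) p).1, u) ≤ 2 * tau g l t p := fun u hu => by
        have : 1 / 2 * tau g l s ((fl (s - t) p).1, u) ≤ tau g l s (fl (s - t) p) :=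
          tau_cmp g hl (te_nonneg hc hok hs.1.le) (by norm_num) _ (Or.inr hu)
        linarith [hs.2]
      have a3 := fun q => (hB.tau_bd l hl hl8 s hs' q).2.1
      rw [fl_snd]
      by_cases h : 1 / 2 * ‖p.2‖ ≤ ‖vp p.2 w ω‖
      · exact (mul_le_of_le_one_right (hτ _) (a3 _)).trans (a2 _ h)
      · refine (mul_le_of_le_one_left (hτ _) (a3 _)).trans (a2 _ ?_)
        by_contra h'
        nlinarith [energy p.2 w ω, norm_nonneg (vp p.2 w ω), norm_nonneg (wp p.2 w ω)]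
    · rw [wt, ← ENNReal.ofReal_mul (by positivity)]
      refine ENNReal.ofReal_le_ofReal ?_
      have b1 : 0 ≤ 2 ^ a * (tau g l t p ^ a * ps g t p) := by positivity
      have b2 := mul_le_mul_of_nonneg_right (show Cp ≤ 32 * (Cs * C₁) + Cp by linarith) b1
      refine le_trans (le_of_eq ?_) (b2.trans (le_of_eq ?_))
      · rw [mul_pow]
        ring
      · ring

end

end Vale.Agent.P140
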