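import Vale.Agent.P140.StmC

/-!
Elementary singular integrals.
-/

namespace Vale.Agent.P140

open MeasureTheory Set Filter Topology
open scoped ENNReal

noncomputable section

namespace SingAux

lemma mp2 : MeasurePreserving (fun y : E2 => (y 0, y 1)) volume
    ((volume : Measure ℝ).prod volume) :=
  (volume_preserving_finTwoArrow ℝ).comp (PiLp.volume_preserving_ofLp (Fin 2))

lemma mp3 : MeasurePreserving (fun y : E => (y 0, y 1, y 2)) volume
    ((volume : Measure ℝ).prod ((volume : Measure ℝ).prod volume)) :=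
  ((MeasurePreserving.id volume).prod (volume_preserving_finTwoArrow ℝ)).comp
    ((volume_preserving_piFinSuccAbove (fun _ : Fin 3 => ℝ) 0).comp
      (PiLp.volume_preserving_ofLp (Fin 3)))

/-- The cut-off inverse square root. -/
def isq (ρ s : ℝ) : ℝ≥0∞ := (Icc (-ρ) ρ).indicator (fun s => (ENNReal.ofReal √|s|)⁻¹) s

lemma isq_meas (ρ : ℝ) : Measurable (isq ρ) :=
  Measurable.indicator (by fun_prop) measurableSet_Icc

lemma isq_int {ρ : ℝ} (hρ : 0 ≤ ρ) : ∫⁻ s, isq ρ s ≤ ENNReal.ofReal (4 * √ρ) := by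
  let k : ℝ → ℝ≥0∞ := (Ioc 0 ρ).indicator fun s => ENNReal.ofReal (s ^ (-(1 / 2) : ℝ))
  have hk : Measurable k := Measurable.indicator (by fun_prop) measurableSet_Ioc
  have h1 : ∫⁻ s, k s = ENNReal.ofReal (2 * √ρ) := by
    have hi := (intervalIntegral.intervalIntegrable_rpow' (a := 0) (b := ρ)
      (r := -(1 / 2)) (by norm_num)).1
    rw [lintegral_indicator measurableSet_Ioc, ← ofReal_integral_eq_lintegral_ofReal hi
      (ae_restrict_of_forall_mem measurableSet_Ioc fun s hs => Real.rpow_nonneg hs.1.le _),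
      ← intervalIntegral.integral_of_le hρ, integral_rpow (Or.inl (by norm_num)),
      Real.zero_rpow (by norm_num), Real.sqrt_eq_rpow]
    congr 1
    norm_num
    ring
  have h2 : ∀ s, 0 < s → s ≤ ρ → (ENNReal.ofReal √s)⁻¹ = k s := fun s h0 h => by
    simp only [k, indicator_of_mem (show s ∈ Ioc 0 ρ from ⟨h0, h⟩)]
    rw [← ENNReal.ofReal_inv_of_pos (Real.sqrt_pos.2 h0), Real.rpow_neg h0.le, Real.sqrt_eq_rpow]
  calc ∫⁻ s, isq ρ s ≤ ∫⁻ s, (k s + k (-s)) := by
        refine lintegral_mono_ae ?_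
        filter_upwards [compl_mem_ae_iff.2 (measure_singleton (0 : ℝ))] with s hs
        by_cases h : s ∈ Icc (-ρ) ρ
        · rw [isq, indicator_of_mem h]
          rcases lt_or_gt_of_ne (show s ≠ 0 from hs) with h0 | h0
          · rw [abs_of_neg h0, h2 _ (by linarith) (by linarith [h.1])]
            exact le_add_self
          · rw [abs_of_pos h0, h2 _ h0 h.2]
            exact le_self_add
        · rw [isq, indicator_of_notMem h]
          exact zero_le
    _ = _ := by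
        rw [lintegral_add_left hk, lintegral_neg_eq_self, h1,
          ← ENNReal.ofReal_add (by positivity) (by positivity)]
        congr 1
        ring

lemma inv_le_isq {n a b ρ : ℝ} (h : a ^ 2 + b ^ 2 ≤ n ^ 2) (hn : 0 ≤ n) (hρ : n ≤ ρ) :
    (ENNReal.ofReal n)⁻¹ ≤ isq ρ a * isq ρ b := by
  have ha : |a| ≤ n := abs_le_of_sq_le_sq' (by nlinarith [sq_nonneg b]) hn |> abs_le.2
  have hb : |b| ≤ n := abs_le_of_sq_le_sq' (by nlinarith [sq_nonneg a]) hn |> abs_le.2
  rw [isq, isq, indicator_of_mem (show a ∈ Icc (-ρ) ρ from abs_le.1 (ha.trans hρ)),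
    indicator_of_mem (show b ∈ Icc (-ρ) ρ from abs_le.1 (hb.trans hρ)),
    ← ENNReal.mul_inv (Or.inr ENNReal.ofReal_ne_top) (Or.inl ENNReal.ofReal_ne_top),
    ← ENNReal.ofReal_mul (Real.sqrt_nonneg _), ← Real.sqrt_mul (abs_nonneg _)]
  refine ENNReal.inv_le_inv.2 (ENNReal.ofReal_le_ofReal (Real.sqrt_le_iff.2 ⟨hn, ?_⟩))
  nlinarith [abs_nonneg a, abs_nonneg b]

lemma isq_sq {ρ : ℝ} (hρ : 0 ≤ ρ) :
    ∫⁻ z : ℝ × ℝ, isq ρ z.1 * isq ρ z.2 ∂(volume.prod volume) ≤ ENNReal.ofReal (16 * ρ) := by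
  rw [lintegral_prod_mul (isq_meas ρ).aemeasurable (isq_meas ρ).aemeasurable]
  refine (mul_le_mul' (isq_int hρ) (isq_int hρ)).trans (le_of_eq ?_)
  rw [← ENNReal.ofReal_mul (by positivity)]
  congr 1
  nlinarith [Real.mul_self_sqrt hρ]

lemma exists_iso {F : Type} [NormedAddCommGroup F] [InnerProductSpace ℝ F] [FiniteDimensional ℝ F]
    {a b : F} (h : ‖a‖ = ‖b‖) : ∃ T : F ≃ₗᵢ[ℝ] F, T a = b :=
  ⟨_, Submodule.reflection_sub h⟩

/-- The singular integral over a slab. -/
lemma slab {e v : E} (he : ‖e‖ = 1) {b h ρ : ℝ} (hh : 0 ≤ h) (hρ : 0 ≤ ρ) {f : E → ℝ≥0∞}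
    {a : ℝ≥0∞} (ha : a ≠ ⊤) (hf : ∀ u, f u ≤ a)
    (hs : ∀ u, f u ≠ 0 → |inner ℝ e u - b| ≤ h ∧ ‖v - u‖ ≤ ρ) :
    ∫⁻ u, f u * (ENNReal.ofReal ‖v - u‖)⁻¹ ≤ a * ENNReal.ofReal (32 * h * ρ) := by
  obtain ⟨T, hT⟩ := exists_iso (a := e) (b := EuclideanSpace.single 0 1) (by simp [he])
  have hT0 : ∀ u, T u 0 = inner ℝ e u := fun u => by
    rw [← T.inner_map_map, hT, EuclideanSpace.inner_single_left]
    simp
  set c := inner ℝ e v - b with hc
  let G : ℝ × ℝ × ℝ → ℝ≥0∞ := fun z =>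
    (Icc (c - h) (c + h)).indicator 1 z.1 * (isq ρ z.2.1 * isq ρ z.2.2)
  have m1 : Measurable ((Icc (c - h) (c + h)).indicator (1 : ℝ → ℝ≥0∞)) :=
    measurable_one.indicator measurableSet_Icc
  have m2 : Measurable fun z : ℝ × ℝ => isq ρ z.1 * isq ρ z.2 :=
    ((isq_meas ρ).comp measurable_fst).mul ((isq_meas ρ).comp measurable_snd)
  have hG : Measurable G := (m1.comp measurable_fst).mul (m2.comp measurable_snd)
  have mp : MeasurePreserving (fun u : E => (T (v - u) 0, T (v - u) 1, T (v - u) 2)) volume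
      ((volume : Measure ℝ).prod ((volume : Measure ℝ).prod volume)) :=
    mp3.comp (T.measurePreserving.comp (Measure.measurePreserving_sub_left volume v))
  calc _ ≤ ∫⁻ u, a * G (T (v - u) 0, T (v - u) 1, T (v - u) 2) := by
        refine lintegral_mono fun u => ?_
        by_cases h0 : f u = 0
        · simp [h0]
        obtain ⟨h1, h2⟩ := hs u h0
        refine mul_le_mul' (hf u) ?_
        have h3 : T (v - u) 0 ∈ Icc (c - h) (c + h) := by
          rw [hT0, inner_sub_right, hc]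
          obtain ⟨h4, h5⟩ := abs_le.1 h1
          constructor <;> linarith
        simp only [G, indicator_of_mem h3, Pi.one_apply, one_mul]
        refine inv_le_isq ?_ (norm_nonneg _) h2
        rw [← T.norm_map, EuclideanSpace.real_norm_sq_eq, Fin.sum_univ_three]
        nlinarith [sq_nonneg (T (v - u) 0)]
    _ = a * ∫⁻ z, G z ∂(volume.prod (volume.prod volume)) := by
        rw [lintegral_const_mul' _ _ ha, mp.lintegral_comp hG]
    _ ≤ _ := by
        refine mul_le_mul_right ?_ a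
        rw [lintegral_prod_mul m1.aemeasurable m2.aemeasurable,
          lintegral_indicator_one measurableSet_Icc, Real.volume_Icc]
        refine (mul_le_mul_right (isq_sq hρ) _).trans (le_of_eq ?_)
        rw [← ENNReal.ofReal_mul (by linarith)]
        congr 1
        ring

/-- The cut-off singular kernel in the plane. -/
def fk (y : E2) : ℝ≥0∞ := isq 6 (y 0) * isq 6 (y 1)

lemma fk_meas : Measurable fk :=
  ((isq_meas 6).comp (by fun_prop)).mul ((isq_meas 6).comp (by fun_prop))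

lemma fk_int : ∫⁻ y, fk y ≠ ⊤ := by
  have m2 : Measurable fun z : ℝ × ℝ => isq 6 z.1 * isq 6 z.2 :=
    ((isq_meas 6).comp measurable_fst).mul ((isq_meas 6).comp measurable_snd)
  exact ne_top_of_le_ne_top ENNReal.ofReal_ne_top
    ((mp2.lintegral_comp m2).trans_le (isq_sq (by norm_num)))

lemma inv_le_fk {y : E2} {n : ℝ} (h : ‖y‖ ≤ n) (h6 : ‖y‖ ≤ 6) : (ENNReal.ofReal n)⁻¹ ≤ fk y := by
  refine (ENNReal.inv_le_inv.2 (ENNReal.ofReal_le_ofReal h)).trans
    (inv_le_isq ?_ (norm_nonneg _) h6)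
  rw [EuclideanSpace.real_norm_sq_eq, Fin.sum_univ_two]

end SingAux

end

end Vale.Agent.P140
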