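import Vale.Agent.P140.StmC
import Vale.Agent.P140.SingA

/-!
Plane integrals of the weight.
-/

namespace Vale.Agent.P140

open MeasureTheory Set Filter Topology
open scoped ENNReal

noncomputable section

namespace PB1Aux

lemma gauss2 : Integrable (fun y : E2 => Real.exp (-(1 / 8 : ℝ) * ‖y‖ ^ 2)) := by
  refine Integrable.of_integral_ne_zero ?_
  rw [GaussianFourier.integral_rexp_neg_mul_sq_norm (by norm_num)]
  positivity

lemma gauss2_fin : ∫⁻ y : E2, ENNReal.ofReal (Real.exp (-(1 / 8 : ℝ) * ‖y‖ ^ 2)) ≠ ⊤ := by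
  rw [← ofReal_integral_eq_lintegral_ofReal gauss2
    (Eventually.of_forall fun y => (Real.exp_pos _).le)]
  exact ENNReal.ofReal_ne_top

/-- The foot of the perpendicular from `w` to the plane. -/
lemma foot (ι : E2 →ₗᵢ[ℝ] E) (w : E) : ∃ y₀ : E2, ∀ y, ‖y - y₀‖ ≤ ‖w - ι y‖ := by
  refine ⟨LinearMap.adjoint ι.toLinearMap w, fun y => ?_⟩
  set y₀ := LinearMap.adjoint ι.toLinearMap w with hy₀
  have h1 : inner ℝ y₀ (y - y₀) = inner ℝ w (ι (y - y₀)) := by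
    rw [hy₀, LinearMap.adjoint_inner_left]; rfl
  have h2 : inner ℝ y (y - y₀) = inner ℝ (ι y) (ι (y - y₀)) := (ι.inner_map_map _ _).symm
  have h3 : ‖y - y₀‖ ^ 2 = inner ℝ (ι y - w) (ι (y - y₀)) := by
    rw [← real_inner_self_eq_norm_sq, inner_sub_left, inner_sub_left, h1, h2]
  have h4 : inner ℝ (ι y - w) (ι (y - y₀)) ≤ ‖ι y - w‖ * ‖y - y₀‖ := by
    refine (real_inner_le_norm _ _).trans (le_of_eq ?_)
    rw [ι.norm_map]
  rw [norm_sub_rev w]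
  rcases (norm_nonneg (y - y₀)).eq_or_lt with h | h
  · rw [← h]; exact norm_nonneg _
  · have : ‖y - y₀‖ * ‖y - y₀‖ ≤ ‖ι y - w‖ * ‖y - y₀‖ := by nlinarith
    exact le_of_mul_le_mul_right this h

lemma ee_le {t : ℝ} (ht : t ∈ Icc (0 : ℝ) (1 / 32)) (v u : E) (ι : E2 →ₗᵢ[ℝ] E) (hu : ‖u‖ ≤ 4)
    (ho : ∀ y, inner ℝ (ι y) (v - u) = 0) (y : E2) :
    ee t (v - ι y) ≤ Real.exp 16 * ee t v * Real.exp (-(1 / 8 : ℝ) * ‖y‖ ^ 2) := by
  have h1 : inner ℝ v (ι y) = inner ℝ (ι y) u := by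
    have := ho y
    rw [inner_sub_right] at this
    rw [real_inner_comm]; linarith
  have h2 : inner ℝ (ι y) u ≤ ‖y‖ * 4 := by
    refine (real_inner_le_norm _ _).trans ?_
    rw [ι.norm_map]
    exact mul_le_mul_of_nonneg_left hu (norm_nonneg _)
  have h3 : ‖v - ι y‖ ^ 2 = ‖v‖ ^ 2 - 2 * inner ℝ v (ι y) + ‖y‖ ^ 2 := by
    rw [norm_sub_sq_real, ι.norm_map]
  have h4 : ‖v‖ ^ 2 + ‖y‖ ^ 2 / 2 - 32 ≤ ‖v - ι y‖ ^ 2 := by
    rw [h3, h1]; nlinarith [sq_nonneg (‖y‖ - 8)]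
  unfold ee
  rw [← Real.exp_add, ← Real.exp_add]
  refine Real.exp_le_exp.2 ?_
  have ha : 0 ≤ 1 / 2 - t := by linarith [ht.2]
  have h5 := mul_le_mul_of_nonneg_left h4 ha
  have h6 : 0 ≤ (3 / 8 - t) * ‖y‖ ^ 2 := mul_nonneg (by linarith [ht.2]) (sq_nonneg _)
  have h7 : 0 ≤ ‖y‖ ^ 2 := sq_nonneg _
  nlinarith [ht.1, ht.2]

lemma one_le (hc : BaseC) (g : Geo) (hg : g.Ok) (σ : ℝ) (hσ : |σ| = 1) (x : T3) (v : E)
    (ι : E2 →ₗᵢ[ℝ] E) : ∃ y₀ : E2, ∀ y, ‖v - ι y‖ ≤ 4 →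
      ENNReal.ofReal (√(gq g.κ σ (x, v - ι y) + g.th g.K ^ 2))⁻¹ ≤ SingAux.fk (y - y₀) := by
  obtain ⟨y₀, hy₀⟩ := foot ι (v - uu g.κ σ x)
  refine ⟨y₀, fun y hy => ?_⟩
  have h1 := (hc.ga.gq_uu g.κ σ (x, v - ι y)).1
  have h2 := (hc.ga.uu_le g.κ σ x hg.κ0.le).2.2
  have hth : 0 < g.th g.K := ((hc.gb g hg).r_pos g.K).2.2.2.2.1
  have e1 : v - uu g.κ σ x - ι y = v - ι y - uu g.κ σ x := by abel
  have h3 := hy₀ y
  rw [e1] at h3
  dsimp only at h1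
  have h4 : ‖v - ι y - uu g.κ σ x‖ ≤ 6 := by
    refine (norm_sub_le _ _).trans ?_
    linarith [hg.κ1]
  have h5 : 0 < gq g.κ σ (x, v - ι y) + g.th g.K ^ 2 := by
    have := sq_nonneg ‖v - ι y - uu g.κ σ x‖
    have := pow_pos hth 2
    linarith
  rw [ENNReal.ofReal_inv_of_pos (Real.sqrt_pos.2 h5)]
  refine SingAux.inv_le_fk (h3.trans ?_) (h3.trans h4)
  refine Real.le_sqrt_of_sq_le ?_
  linarith [sq_nonneg (g.th g.K)]

lemma sw_le (hc : BaseC) (g : Geo) (hg : g.Ok) (t : ℝ) (x : T3) (v : E) (ι : E2 →ₗᵢ[ℝ] E) :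
    ∃ y₁ y₂ : E2, ∀ y, 0 ≤ sw g t (x, v - ι y) ∧
      ENNReal.ofReal (sw g t (x, v - ι y)) ≤ SingAux.fk (y - y₁) + SingAux.fk (y - y₂) := by
  obtain ⟨y₁, h₁⟩ := one_le hc g hg 1 (by norm_num) x v ι
  obtain ⟨y₂, h₂⟩ := one_le hc g hg (-1) (by norm_num) x v ι
  refine ⟨y₁, y₂, fun y => ?_⟩
  unfold sw
  split_ifs with h
  · refine ⟨by positivity, ?_⟩
    refine ENNReal.ofReal_add_le.trans (add_le_add (h₁ y h.1) (h₂ y h.1))
  · simp

end PB1Aux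

open PB1Aux in
theorem pb1 (hb : Base) (hc : BaseC) : PB1Stmt := by
  have _ := hb
  set G : ℝ≥0∞ := ∫⁻ y : E2, ENNReal.ofReal (Real.exp (-(1 / 8 : ℝ) * ‖y‖ ^ 2)) with hG
  set F : ℝ≥0∞ := ∫⁻ y : E2, SingAux.fk y with hF
  have hGt : G ≠ ⊤ := gauss2_fin
  have hFt : F ≠ ⊤ := SingAux.fk_int
  have hS : G + (F + F) ≠ ⊤ := by simp [hGt, hFt]
  refine ⟨max 1 (Real.exp 16 * (G + (F + F)).toReal), le_max_left _ _, ?_⟩
  intro g hg t ht x v u ι hu ho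
  obtain ⟨y₁, y₂, hy⟩ := sw_le hc g hg t x v ι
  have hev : 0 < ee t v := Real.exp_pos _
  have hA : 0 ≤ Real.exp 16 * ee t v := by positivity
  have hpt : ∀ y, psE g t (x, v - ι y) ≤ ENNReal.ofReal (Real.exp 16 * ee t v) *
      (ENNReal.ofReal (Real.exp (-(1 / 8 : ℝ) * ‖y‖ ^ 2)) +
        (SingAux.fk (y - y₁) + SingAux.fk (y - y₂))) := by
    intro y
    have h1 := ee_le ht v u ι hu ho y
    have h2 : Real.exp (-(1 / 8 : ℝ) * ‖y‖ ^ 2) ≤ 1 :=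
      Real.exp_le_one_iff.2 (by nlinarith [sq_nonneg ‖y‖])
    have h3 : ps g t (x, v - ι y) ≤ (Real.exp 16 * ee t v) *
        (Real.exp (-(1 / 8 : ℝ) * ‖y‖ ^ 2) + sw g t (x, v - ι y)) := by
      unfold ps
      dsimp only
      have h4 : ee t (v - ι y) ≤ Real.exp 16 * ee t v :=
        h1.trans (mul_le_of_le_one_right hA h2)
      have h5 := mul_le_mul_of_nonneg_right h4 (hy y).1
      nlinarith
    refine (ENNReal.ofReal_le_ofReal h3).trans ?_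
    rw [ENNReal.ofReal_mul hA]
    refine mul_le_mul_right ?_ _
    exact ENNReal.ofReal_add_le.trans (add_le_add le_rfl (hy y).2)
  refine (lintegral_mono hpt).trans ?_
  have m1 : Measurable fun y : E2 => ENNReal.ofReal (Real.exp (-(1 / 8 : ℝ) * ‖y‖ ^ 2)) := by
    fun_prop
  have m2 : Measurable fun y : E2 => SingAux.fk (y - y₁) :=
    SingAux.fk_meas.comp (measurable_id.sub_const _)
  rw [lintegral_const_mul' _ _ ENNReal.ofReal_ne_top, lintegral_add_left m1,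
    lintegral_add_left m2, lintegral_sub_right_eq_self, lintegral_sub_right_eq_self, ← hG, ← hF,
    ← ENNReal.ofReal_toReal hS, ← ENNReal.ofReal_mul hA]
  refine ENNReal.ofReal_le_ofReal ?_
  rw [ENNReal.toReal_ofReal ENNReal.toReal_nonneg]
  calc Real.exp 16 * ee t v * (G + (F + F)).toReal
      = (Real.exp 16 * (G + (F + F)).toReal) * ee t v := by ring
    _ ≤ _ := mul_le_mul_of_nonneg_right (le_max_right _ _) hev.le

end

end Vale.Agent.P140
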