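import Vale.Agent.P140.SingA

/-!
Plane integrals of the profile over the bad velocities.
-/

namespace Vale.Agent.P140

open MeasureTheory Set Filter Topology
open scoped ENNReal

noncomputable section

namespace PB2Aux

open SingAux

lemma proj (ι : E2 →ₗᵢ[ℝ] E) (z : E) : ∃ y₀ : E2, ∀ y, ‖y - y₀‖ ≤ ‖z - ι y‖ := by
  refine ⟨ContinuousLinearMap.adjoint ι.toContinuousLinearMap z, fun y => ?_⟩
  set y₀ := ContinuousLinearMap.adjoint ι.toContinuousLinearMap z
  have h1 : inner ℝ (y₀ - y) (y₀ - y) = inner ℝ (z - ι y) (ι (y₀ - y)) := by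
    rw [inner_sub_left, inner_sub_left, ι.inner_map_map]
    congr 1
    exact ContinuousLinearMap.adjoint_inner_left _ _ _
  have h2 := real_inner_le_norm (z - ι y) (ι (y₀ - y))
  rw [← h1, real_inner_self_eq_norm_mul_norm, ι.norm_map] at h2
  rw [norm_sub_rev]
  rcases (norm_nonneg (y₀ - y)).eq_or_lt with h | h
  · rw [← h]
    exact norm_nonneg _
  · exact le_of_mul_le_mul_right h2 h

lemma ee_le {t : ℝ} (ht : t ∈ Icc (0 : ℝ) (1 / 32)) {v u : E} {ι : E2 →ₗᵢ[ℝ] E} (hu : ‖u‖ ≤ 4)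
    (h : ∀ y, inner ℝ (ι y) (v - u) = 0) (y : E2) :
    ee t (v - ι y) ≤ Real.exp 16 * ee t v * Real.exp (-‖y‖ ^ 2 / 8) := by
  have h1 := h y
  rw [inner_sub_right, sub_eq_zero] at h1
  have h2 := real_inner_le_norm (ι y) u
  have h3 := norm_sub_sq_real v (ι y)
  rw [real_inner_comm, h1, ι.norm_map] at h3
  rw [ι.norm_map] at h2
  have h4 : ‖v‖ ^ 2 + ‖y‖ ^ 2 / 2 - 32 ≤ ‖v - ι y‖ ^ 2 := by
    nlinarith [sq_nonneg (‖y‖ - 8), mul_le_mul_of_nonneg_left hu (norm_nonneg y)]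
  rw [ee, ee, ← Real.exp_add, ← Real.exp_add]
  refine Real.exp_le_exp.2 ?_
  nlinarith [mul_le_mul_of_nonneg_left h4 (show 0 ≤ 1 / 2 - t by linarith [ht.2]), ht.1, ht.2,
    mul_nonneg (show 0 ≤ 1 / 4 - t by linarith [ht.2]) (sq_nonneg ‖y‖)]

lemma sw_le (hc : BaseC) {g : Geo} (hok : g.Ok) (t : ℝ) (x : T3) (v : E) (ι : E2 →ₗᵢ[ℝ] E) :
    ∃ a b : E2, ∀ y, ENNReal.ofReal (sw g t (x, v - ι y)) ≤ fk (y - a) + fk (y - b) := by
  have th := ((hc.gb g hok).r_pos g.K).2.2.2.2.1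
  have key : ∀ σ : ℝ, |σ| = 1 → ∃ a : E2, ∀ y, ‖v - ι y‖ ≤ 4 →
      ENNReal.ofReal (√(gq g.κ σ (x, v - ι y) + g.th g.K ^ 2))⁻¹ ≤ fk (y - a) := fun σ hσ => by
    obtain ⟨a, ha⟩ := proj ι (v - uu g.κ σ x)
    refine ⟨a, fun y hy => ?_⟩
    have h1 := (hc.ga.gq_uu g.κ σ (x, v - ι y)).1
    have h2 := ha y
    rw [sub_right_comm] at h2
    have h3 := (hc.ga.uu_le g.κ σ x hok.κ0.le).2.2
    have h4 := norm_sub_le (v - ι y) (uu g.κ σ x)
    have h5 := sq_nonneg ‖v - ι y - uu g.κ σ x‖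
    rw [ENNReal.ofReal_inv_of_pos (Real.sqrt_pos.2 (by nlinarith))]
    refine inv_le_fk (h2.trans (Real.le_sqrt_of_sq_le ?_)) (by linarith [hok.κ1])
    nlinarith
  obtain ⟨a, ha⟩ := key 1 abs_one
  obtain ⟨b, hb⟩ := key (-1) (by simp)
  refine ⟨a, b, fun y => ?_⟩
  unfold sw
  split_ifs with h
  · exact ENNReal.ofReal_add_le.trans (add_le_add (ha y h.1) (hb y h.1))
  · simp

lemma hz_sq (w : E) : ‖hz w‖ ^ 2 = w 0 ^ 2 + w 1 ^ 2 := by
  rw [Complex.sq_norm, Complex.normSq_apply]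
  simp only [hz]
  ring

lemma area0 (hc : BaseC) (v : E) (ι : E2 →ₗᵢ[ℝ] E) (h : ι (EuclideanSpace.single 0 1) 2 = 0)
    (κ L : ℝ) {e : ℝ} (he : 0 ≤ e) :
    volume {y : E2 | ‖y‖ ≤ L ∧ |‖hz (v - ι y)‖ ^ 2 - κ ^ 2| ≤ e} ≤
      ENNReal.ofReal (4 * √e) * ENNReal.ofReal (2 * L) := by
  set a := ι (EuclideanSpace.single 0 1) with ha
  set b := ι (EuclideanSpace.single 1 1) with hb
  have ha1 : a 0 ^ 2 + a 1 ^ 2 = 1 := by
    have : ‖a‖ ^ 2 = 1 := by simp [ha]
    rw [EuclideanSpace.real_norm_sq_eq, Fin.sum_univ_three, h] at this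
    linarith
  let S : Set (ℝ × ℝ) := {z | |z.2| ≤ L ∧
    |(v 0 - z.1 * a 0 - z.2 * b 0) ^ 2 + (v 1 - z.1 * a 1 - z.2 * b 1) ^ 2 - κ ^ 2| ≤ e}
  have hS : MeasurableSet S := by
    refine MeasurableSet.inter (s₁ := {z : ℝ × ℝ | |z.2| ≤ L}) (s₂ := {z : ℝ × ℝ |
      |(v 0 - z.1 * a 0 - z.2 * b 0) ^ 2 + (v 1 - z.1 * a 1 - z.2 * b 1) ^ 2 - κ ^ 2| ≤ e})
      ?_ ?_ <;> exact measurableSet_le (by fun_prop) measurable_const
  have hsub : {y : E2 | ‖y‖ ≤ L ∧ |‖hz (v - ι y)‖ ^ 2 - κ ^ 2| ≤ e}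
      ⊆ (fun y : E2 => (y 0, y 1)) ⁻¹' S := fun y hy => by
    have e1 : y = y 0 • EuclideanSpace.single 0 1 + y 1 • EuclideanSpace.single 1 1 := by
      ext i
      fin_cases i <;> simp
    have e2 : ι y = y 0 • a + y 1 • b := by
      conv_lhs => rw [e1]
      rw [map_add, map_smul, map_smul]
    refine ⟨le_trans (by simpa using PiLp.norm_apply_le y 1) hy.1, ?_⟩
    have := hy.2
    rw [hz_sq, e2] at this
    simpa [sub_sub] using this
  refine (measure_mono hsub).trans ?_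
  rw [mp2.measure_preimage hS.nullMeasurableSet, Measure.prod_apply_symm hS]
  calc _ ≤ ∫⁻ r, (Icc (-L) L).indicator (fun _ => ENNReal.ofReal (4 * √e)) r := by
        refine lintegral_mono fun r => ?_
        by_cases hr : r ∈ Icc (-L) L
        · rw [indicator_of_mem hr]
          have := hc.en.qsl 1 (-2 * (a 0 * (v 0 - r * b 0) + a 1 * (v 1 - r * b 1)))
            ((v 0 - r * b 0) ^ 2 + (v 1 - r * b 1) ^ 2 - κ ^ 2) e one_ne_zero he
          rw [abs_one, div_one] at this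
          refine le_trans (measure_mono fun s hs => ?_) this
          have h2 := hs.2
          rw [mem_ofPred_eq]
          convert h2 using 2
          linear_combination (-s ^ 2) * ha1
        · rw [indicator_of_notMem hr, show (fun s => (s, r)) ⁻¹' S = ∅ from
            eq_empty_of_forall_notMem fun s hs => hr (abs_le.1 hs.1), measure_empty]
    _ = _ := by
        rw [lintegral_indicator_const measurableSet_Icc, Real.volume_Icc]
        congr 2
        ring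

lemma bad_meas (hc : BaseC) (v : E) (ι : E2 →ₗᵢ[ℝ] E) (κ L e : ℝ) :
    MeasurableSet {y : E2 | ‖y‖ ≤ L ∧ |‖hz (v - ι y)‖ ^ 2 - κ ^ 2| ≤ e} := by
  have hzc := hc.me.hz
  refine MeasurableSet.inter (s₁ := {y : E2 | ‖y‖ ≤ L})
    (s₂ := {y : E2 | |‖hz (v - ι y)‖ ^ 2 - κ ^ 2| ≤ e}) ?_ ?_ <;>
    exact (isClosed_le (by fun_prop) continuous_const).measurableSet

lemma area (hc : BaseC) (v : E) (ι : E2 →ₗᵢ[ℝ] E) (κ L : ℝ) {e : ℝ} (he : 0 ≤ e) :
    volume {y : E2 | ‖y‖ ≤ L ∧ |‖hz (v - ι y)‖ ^ 2 - κ ^ 2| ≤ e} ≤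
      ENNReal.ofReal (4 * √e) * ENNReal.ofReal (2 * L) := by
  obtain ⟨y, hy, hy0⟩ := (Submodule.ne_bot_iff _).1 (LinearMap.ker_ne_bot_of_finrank_lt
    (f := (EuclideanSpace.proj 2 : E →L[ℝ] ℝ).toLinearMap ∘ₗ ι.toLinearMap) (by simp))
  have hy' : ι y 2 = 0 := hy
  obtain ⟨T, hT⟩ := exists_iso (a := (EuclideanSpace.single 0 1 : E2)) (b := ‖y‖⁻¹ • y) (by
    rw [norm_smul, norm_inv, norm_norm, inv_mul_cancel₀ (norm_ne_zero_iff.2 hy0)]
    simp)
  have := area0 hc v (ι.comp T.toLinearIsometry) (by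
    show ι (T _) 2 = 0
    rw [hT, map_smul]
    simp [hy']) κ L he
  refine le_trans (le_of_eq ?_) this
  rw [← T.measurePreserving.measure_preimage (bad_meas hc v ι κ L e).nullMeasurableSet]
  congr 1
  ext z
  simp

lemma gauss : ∫⁻ y : E2, ENNReal.ofReal (Real.exp (-(1 / 16) * ‖y‖ ^ 2)) ≠ ⊤ := by
  have h : Integrable fun y : E2 => Real.exp (-(1 / 16) * ‖y‖ ^ 2) := by
    refine Integrable.of_integral_ne_zero ?_
    rw [GaussianFourier.integral_rexp_neg_mul_sq_norm (by norm_num)]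
    have := Real.pi_pos
    positivity
  exact h.lintegral_lt_top.ne

lemma tail {ε : ℝ} (hε : 0 < ε) (V : ℝ) : ∃ L : ℝ, V ≤ L ∧ 1 ≤ L ∧
    ∫⁻ y : E2, {y : E2 | L ≤ ‖y‖}.indicator
      (fun y => ENNReal.ofReal (Real.exp (-‖y‖ ^ 2 / 8))) y ≤ ENNReal.ofReal ε := by
  set I := (∫⁻ y : E2, ENNReal.ofReal (Real.exp (-(1 / 16) * ‖y‖ ^ 2))).toReal with hI
  have hI0 : 0 ≤ I := ENNReal.toReal_nonneg
  obtain ⟨L, h1, h2, h3⟩ : ∃ L : ℝ, V ≤ L ∧ 1 ≤ L ∧ 16 * I / ε ≤ L :=
    ⟨max V (max 1 (16 * I / ε)), le_max_left _ _, le_max_of_le_right (le_max_left _ _),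
      le_max_of_le_right (le_max_right _ _)⟩
  have hL : 0 < L := by linarith
  refine ⟨L, h1, h2, ?_⟩
  calc _ ≤ ∫⁻ y : E2, ENNReal.ofReal (16 / L) *
        ENNReal.ofReal (Real.exp (-(1 / 16) * ‖y‖ ^ 2)) := by
        refine lintegral_mono fun y => indicator_apply_le' (fun hy => ?_) fun _ => zero_le
        rw [← ENNReal.ofReal_mul (by positivity)]
        refine ENNReal.ofReal_le_ofReal ?_
        have hy' : L ≤ ‖y‖ := hy
        have e1 : Real.exp (-‖y‖ ^ 2 / 8) = (Real.exp (‖y‖ ^ 2 / 16))⁻¹ *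
            Real.exp (-(1 / 16) * ‖y‖ ^ 2) := by
          rw [← Real.exp_neg, ← Real.exp_add]
          congr 1
          ring
        rw [e1]
        refine mul_le_mul_of_nonneg_right ?_ (Real.exp_pos _).le
        rw [← inv_div L 16]
        refine inv_anti₀ (by positivity) ?_
        nlinarith [Real.add_one_le_exp (‖y‖ ^ 2 / 16)]
    _ ≤ _ := by
        rw [lintegral_const_mul' _ _ ENNReal.ofReal_ne_top, ← ENNReal.ofReal_toReal gauss,
          ← ENNReal.ofReal_mul (by positivity)]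
        refine ENNReal.ofReal_le_ofReal ?_
        rw [div_le_iff₀ hε] at h3
        rw [div_mul_eq_mul_div, div_le_iff₀ hL]
        linarith

lemma shift {δ ε : ℝ≥0∞} (h : ∀ s : Set E2, volume s < δ → ∫⁻ y in s, fk y < ε) {S : Set E2}
    (hS : MeasurableSet S) (hδ : volume S < δ) (a : E2) :
    ∫⁻ y, S.indicator (fun y => fk (y - a)) y ≤ ε := by
  have h1 : MeasurableSet ((fun y => y + a) ⁻¹' S) := measurable_add_const a hS
  rw [← lintegral_add_right_eq_self _ a]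
  refine le_trans (le_of_eq ?_) (h _ ((measure_preimage_add_right _ a S).trans_lt hδ)).le
  rw [← lintegral_indicator h1]
  refine lintegral_congr fun y => ?_
  by_cases hy : y + a ∈ S
  · rw [indicator_of_mem hy, indicator_of_mem (show y ∈ (fun y => y + a) ⁻¹' S from hy),
      add_sub_cancel_right]
  · rw [indicator_of_notMem hy, indicator_of_notMem (show y ∉ (fun y => y + a) ⁻¹' S from hy)]

end PB2Aux

open PB2Aux SingAux in
theorem pb2 (hb : Base) (hc : BaseC) (h1 : PB1Stmt) : PB2Stmt := by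
  obtain ⟨C, hC, h1⟩ := h1
  intro ε hε
  set ε₁ := ε / (4 * Real.exp 16) with hε₁
  have hε0 : 0 < ε₁ := by positivity
  have hε1 : 0 < ENNReal.ofReal ε₁ := ENNReal.ofReal_pos.2 hε0
  obtain ⟨L, hL1, hL2, hL3⟩ := tail hε0 (C / ε + 5)
  obtain ⟨δ, hδ0, hδ⟩ := exists_pos_setLIntegral_lt_of_measure_lt fk_int hε1.ne'
  have hV : 0 < C / ε := by positivity
  have ev1 : ∀ᶠ η in 𝓝[>] (0 : ℝ), ENNReal.ofReal (η ^ 2 * Real.pi + 4 * √(2 * η) * (2 * L))
      < min δ (ENNReal.ofReal ε₁) := by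
    have hc' : Continuous fun η : ℝ =>
        ENNReal.ofReal (η ^ 2 * Real.pi + 4 * √(2 * η) * (2 * L)) :=
      ENNReal.continuous_ofReal.comp (by fun_prop)
    refine nhdsWithin_le_nhds ((hc'.tendsto 0).eventually (gt_mem_nhds ?_))
    simpa using ⟨hδ0, hε0⟩
  filter_upwards [ev1, Ioc_mem_nhdsGT (show (0 : ℝ) < 1 / (C / ε + L) by positivity)]
    with η hη1 hη2 g hok t ht x v u ι hu hι
  have hB := hc.gb g hok
  have hee := (hB.ps_bd t ht (x, v)).2.2.2.1
  have hη3 : C / ε + L ≤ 1 / η := (le_one_div (by positivity) hη2.1).2 hη2.2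
  have hη4 : η ≤ 1 := hη2.2.trans (by rw [div_le_one (by positivity)]; linarith)
  by_cases hv : C / ε ≤ ‖v‖
  · refine (lintegral_mono fun y => indicator_le_self' (fun _ _ => zero_le) _).trans
      ((h1 g hok t ht x v u ι hu hι).trans (ENNReal.ofReal_le_ofReal ?_))
    rw [div_le_iff₀ hε] at hv
    exact mul_le_mul_of_nonneg_right (by nlinarith) hee.le
  obtain ⟨a, b, hab⟩ := sw_le hc hok t x v ι
  let S : Set E2 := Metric.ball 0 η ∪ {y | ‖y‖ ≤ L ∧ |‖hz (v - ι y)‖ ^ 2 - g.κ ^ 2| ≤ 2 * η}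
  have hS : MeasurableSet S := measurableSet_ball.union (bad_meas hc v ι _ _ _)
  have hvol : volume S < min δ (ENNReal.ofReal ε₁) := by
    refine lt_of_le_of_lt ((measure_union_le _ _).trans (add_le_add
      (EuclideanSpace.volume_ball_fin_two 0 η).le
      (area hc v ι g.κ L (by linarith [hη2.1])))) (lt_of_eq_of_lt ?_ hη1)
    have := hη2.1
    have := Real.pi_pos
    rw [← ENNReal.ofReal_pow hη2.1.le, ← ENNReal.ofReal_mul (by positivity),
      ← ENNReal.ofReal_mul (by positivity), ← ENNReal.ofReal_add (by positivity) (by positivity)]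
  rw [lt_min_iff] at hvol
  have hpt : ∀ y, (good η g.κ v)ᶜ.indicator (fun u => psE g t (x, u)) (v - ι y) ≤
      ENNReal.ofReal (Real.exp 16 * ee t v) *
        ({y : E2 | L ≤ ‖y‖}.indicator (fun y => ENNReal.ofReal (Real.exp (-‖y‖ ^ 2 / 8))) y
          + S.indicator 1 y + S.indicator (fun y => fk (y - a)) y
          + S.indicator (fun y => fk (y - b)) y) := fun y => by
    refine indicator_apply_le' (fun hy => ?_) fun _ => zero_le
    have e1 := ee_le ht hu hι y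
    have n1 := norm_sub_norm_le (ι y) v
    have n2 := norm_sub_le v (ι y)
    rw [ι.norm_map] at n2
    rw [ι.norm_map, norm_sub_rev] at n1
    by_cases hyL : L ≤ ‖y‖
    · have hsw : sw g t (x, v - ι y) = 0 := if_neg fun h => by linarith [h.1]
      rw [psE, ps, hsw, add_zero, mul_one, indicator_of_mem (show y ∈ {y : E2 | L ≤ ‖y‖} from hyL)]
      refine (ENNReal.ofReal_le_ofReal e1).trans ?_
      rw [ENNReal.ofReal_mul (by positivity)]
      exact mul_le_mul_right (le_self_add.trans (le_self_add.trans le_self_add)) _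
    · have hyS : y ∈ S := by
        by_contra h
        refine hy ⟨⟨by linarith, ?_⟩, ?_⟩
        · by_contra h'
          refine h (Or.inr ⟨(not_le.1 hyL).le, ?_⟩)
          obtain ⟨h2, h3⟩ := abs_lt.1 (not_le.1 h')
          have := norm_nonneg (hz (v - ι y))
          rw [abs_le]
          constructor <;> nlinarith [hok.κ0, hok.κ1]
        · by_contra h'
          refine h (Or.inl ?_)
          rw [sub_sub_cancel_left, norm_neg, ι.norm_map] at h'
          simpa using h'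
      have e2 : ee t (v - ι y) ≤ Real.exp 16 * ee t v :=
        e1.trans (mul_le_of_le_one_right (by positivity)
          (Real.exp_le_one_iff.2 (by nlinarith [sq_nonneg ‖y‖])))
      rw [psE, ps, ENNReal.ofReal_mul (hB.ps_bd t ht (x, v - ι y)).2.2.2.1.le,
        ENNReal.ofReal_add zero_le_one (hB.ps_bd t ht (x, v - ι y)).2.2.1, ENNReal.ofReal_one,
        indicator_of_mem hyS, indicator_of_mem hyS, indicator_of_mem hyS, add_assoc, add_assoc]
      exact mul_le_mul' (ENNReal.ofReal_le_ofReal e2)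
        ((add_le_add le_rfl (hab y)).trans le_add_self)
  refine (lintegral_mono hpt).trans ?_
  have m2 : Measurable (S.indicator (1 : E2 → ℝ≥0∞)) := measurable_one.indicator hS
  have m3 : ∀ a : E2, Measurable (S.indicator fun y => fk (y - a)) := fun a =>
    (fk_meas.comp (measurable_sub_const a)).indicator hS
  rw [lintegral_const_mul' _ _ ENNReal.ofReal_ne_top, lintegral_add_right _ (m3 b),
    lintegral_add_right _ (m3 a), lintegral_add_right _ m2, lintegral_indicator_one hS]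
  refine (mul_le_mul_right (add_le_add (add_le_add (add_le_add hL3 hvol.2.le)
    (shift hδ hS hvol.1 a)) (shift hδ hS hvol.1 b)) _).trans ?_
  rw [← ENNReal.ofReal_add hε0.le hε0.le, ← ENNReal.ofReal_add (by positivity) hε0.le,
    ← ENNReal.ofReal_add (by positivity) hε0.le, ← ENNReal.ofReal_mul (by positivity)]
  refine ENNReal.ofReal_le_ofReal ?_
  have e : Real.exp 16 * ee t v * (ε₁ + ε₁ + ε₁ + ε₁) = ε * ee t v := by
    rw [hε₁]
    field_simp
    ring
  rw [e]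
  exact mul_le_mul_of_nonneg_right (by nlinarith [norm_nonneg v]) hee.le

end

end Vale.Agent.P140
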