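import Vale.Agent.P140.StmC

/-!
Hot-hot collisions.
-/

namespace Vale.Agent.P140

open MeasureTheory Set Filter Topology
open scoped ENNReal

noncomputable section

namespace PPAux

/-- The singular kernel. -/
def kk (y : E) : ℝ≥0∞ := (ENNReal.ofReal ‖y‖)⁻¹

lemma meas_kk : Measurable kk := measurable_norm.ennreal_ofReal.inv

lemma sing_ball : ∫⁻ y in Metric.ball (0 : E) 1, kk y ^ 2 < ⊤ := by
  have h1 : IntegrableOn (fun y : E => ‖y‖⁻¹ ^ 2) (Metric.ball 0 1) volume := by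
    refine integrableOn_ball_of_norm_le_rpow (C := 1) (α := 2) (by simp) (by simp; norm_num)
      (Eventually.of_forall fun y => le_of_eq ?_)
      (measurable_norm.inv.pow_const 2).aestronglyMeasurable
    rw [one_mul, Real.rpow_neg (norm_nonneg _), Real.rpow_two, norm_pow, norm_inv, norm_norm,
      inv_pow]
  have h2 : ∀ᵐ y : E, y ≠ 0 := by
    rw [ae_iff]
    simp
  refine lt_of_eq_of_lt (lintegral_congr_ae ?_) h1.lintegral_lt_top
  filter_upwards [ae_restrict_of_ae h2] with y hy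
  rw [kk, ENNReal.ofReal_pow (by positivity), ENNReal.ofReal_inv_of_pos (norm_pos_iff.2 hy)]

lemma sing : ∃ J : ℝ≥0∞, J ≠ ⊤ ∧ volume (Metric.closedBall (0 : E) 4) ≤ J ∧
    ∀ a : E, ∫⁻ u in Metric.closedBall (0 : E) 4, kk (u - a) ^ 2 ≤ J := by
  refine ⟨(∫⁻ y in Metric.ball (0 : E) 1, kk y ^ 2) + volume (Metric.closedBall (0 : E) 4),
    ENNReal.add_ne_top.2 ⟨sing_ball.ne, measure_closedBall_lt_top.ne⟩, le_add_self, fun a => ?_⟩
  have h1 : ∀ u : E, kk (u - a) ^ 2 ≤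
      (Metric.ball (0 : E) 1).indicator (fun y => kk y ^ 2) (u - a) + 1 := by
    intro u
    by_cases h : u - a ∈ Metric.ball (0 : E) 1
    · rw [indicator_of_mem h]
      exact le_self_add
    · refine le_trans (pow_le_one' ?_ 2) le_add_self
      rw [kk, ENNReal.inv_le_one, ENNReal.one_le_ofReal]
      simpa using h
  refine (lintegral_mono h1).trans ?_
  rw [lintegral_add_right _ measurable_const, setLIntegral_const, one_mul]
  refine add_le_add ((setLIntegral_le_lintegral _ _).trans (le_of_eq ?_)) le_rfl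
  rw [lintegral_sub_right_eq_self
    (fun y : E => (Metric.ball (0 : E) 1).indicator (fun y => kk y ^ 2) y) a,
    lintegral_indicator measurableSet_ball]

lemma mul_le_sq (x y : ℝ≥0∞) : x * y ≤ x ^ 2 + y ^ 2 := by
  rcases le_total x y with h | h
  · exact ((mul_le_mul' h le_rfl).trans (sq y).ge).trans le_add_self
  · exact ((mul_le_mul' le_rfl h).trans (sq x).ge).trans le_self_add

lemma gauss : ∫⁻ u : E, ENNReal.ofReal (Real.exp (-(1 / 8) * ‖u‖ ^ 2)) < ⊤ := by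
  have h1 := GaussianFourier.integral_rexp_neg_mul_sq_norm (V := E) (b := 1 / 8) (by norm_num)
  refine Integrable.lintegral_lt_top (Integrable.of_integral_ne_zero ?_)
  rw [h1]
  have := Real.pi_pos
  positivity

lemma ee_pos (t : ℝ) (v : E) : 0 < ee t v := Real.exp_pos _

lemma ee_le_one {t : ℝ} (ht : t ≤ 1 / 32) (v : E) : ee t v ≤ 1 :=
  Real.exp_le_one_iff.2 (by nlinarith [sq_nonneg ‖v‖])

lemma continuous_ee (t : ℝ) : Continuous (ee t) := by
  unfold ee
  fun_prop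

lemma mom_ee {t : ℝ} (ht : t ≤ 1 / 32) (v : E) :
    (1 + ‖v‖) * ee t v ≤ 3 * Real.exp (-(1 / 8) * ‖v‖ ^ 2) := by
  have h1 : ee t v ≤ Real.exp (-(1 / 8) * ‖v‖ ^ 2) * Real.exp (-(‖v‖ ^ 2 / 8)) := by
    rw [← Real.exp_add]
    exact Real.exp_le_exp.2 (by nlinarith [sq_nonneg ‖v‖])
  have h2 : (1 + ‖v‖) * Real.exp (-(‖v‖ ^ 2 / 8)) ≤ 3 := by
    rw [Real.exp_neg, ← div_eq_mul_inv, div_le_iff₀ (Real.exp_pos _)]
    nlinarith [Real.add_one_le_exp (‖v‖ ^ 2 / 8), sq_nonneg (‖v‖ - 2)]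
  have h3 := mul_le_mul_of_nonneg_left h1 (by positivity : 0 ≤ 1 + ‖v‖)
  have h4 := mul_le_mul_of_nonneg_left h2 (Real.exp_pos (-(1 / 8) * ‖v‖ ^ 2)).le
  nlinarith

lemma one_le (hc : BaseC) (κ σ θ : ℝ) (p : Om) :
    ENNReal.ofReal (√(gq κ σ p + θ ^ 2))⁻¹ ≤ kk (p.2 - uu κ σ p.1) := by
  refine ENNReal.ofReal_inv_le.trans (ENNReal.inv_le_inv.2 (ENNReal.ofReal_le_ofReal ?_))
  exact Real.le_sqrt_of_sq_le (by linarith [(hc.ga.gq_uu κ σ p).1, sq_nonneg θ])

lemma sw_le (hc : BaseC) (g : Geo) (t : ℝ) (x : T3) (u : E) :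
    ENNReal.ofReal (sw g t (x, u)) ≤ (Metric.closedBall (0 : E) 4).indicator
      (fun u => kk (u - uu g.κ 1 x) + kk (u - uu g.κ (-1) x)) u := by
  rw [sw]
  split_ifs with h
  · rw [indicator_of_mem (by simpa using h.1)]
    exact ENNReal.ofReal_add_le.trans (add_le_add (one_le hc _ _ _ (x, u)) (one_le hc _ _ _ (x, u)))
  · simp

lemma sw_supp {g : Geo} {t : ℝ} {p : Om} (h : sw g t p ≠ 0) : ‖p.2‖ ≤ 4 := by
  by_contra h'
  exact h (if_neg fun h'' => h' h''.1)

lemma sw_int (hc : BaseC) {J : ℝ≥0∞}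
    (hJ : ∀ a : E, ∫⁻ u in Metric.closedBall (0 : E) 4, kk (u - a) ^ 2 ≤ J) (g : Geo) (t : ℝ)
    (x : T3) {φ : E → ℝ≥0∞} (hφ : ∫⁻ u in Metric.closedBall (0 : E) 4, φ u ^ 2 ≤ J) :
    ∫⁻ u, ENNReal.ofReal (sw g t (x, u)) * φ u ≤ 4 * J := by
  have hm : ∀ a : E, Measurable fun u : E => kk (u - a) ^ 2 := fun a =>
    (meas_kk.comp (measurable_id.sub_const a)).pow_const 2
  have h1 : ∀ u, ENNReal.ofReal (sw g t (x, u)) * φ u ≤ (Metric.closedBall (0 : E) 4).indicator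
      (fun u => kk (u - uu g.κ 1 x) ^ 2 + (kk (u - uu g.κ (-1) x) ^ 2 + 2 * φ u ^ 2)) u := by
    intro u
    refine (mul_le_mul' (sw_le hc g t x u) le_rfl).trans ?_
    by_cases h : u ∈ Metric.closedBall (0 : E) 4
    · rw [indicator_of_mem h, indicator_of_mem h, add_mul]
      refine (add_le_add (mul_le_sq _ _) (mul_le_sq _ _)).trans (le_of_eq ?_)
      ring
    · rw [indicator_of_notMem h, zero_mul]
      exact zero_le
  refine (lintegral_mono h1).trans ?_
  rw [lintegral_indicator measurableSet_closedBall, lintegral_add_left (hm _),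
    lintegral_add_left (hm _), lintegral_const_mul' _ _ (by simp)]
  refine (add_le_add (hJ _) (add_le_add (hJ _) (mul_le_mul' le_rfl hφ))).trans (le_of_eq ?_)
  ring

lemma mom_pt {t : ℝ} (ht : t ≤ 1 / 32) (u : E) {w : ℝ} (h0 : 0 ≤ w) (hw : w ≠ 0 → ‖u‖ ≤ 4) :
    ENNReal.ofReal (1 + ‖u‖) * ENNReal.ofReal (ee t u * (1 + w)) ≤
      3 * ENNReal.ofReal (Real.exp (-(1 / 8) * ‖u‖ ^ 2)) + 5 * (ENNReal.ofReal w * 1) := by
  have h2 := mom_ee ht u
  have h3 : (1 + ‖u‖) * ee t u * w ≤ 5 * w := by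
    by_cases h : w = 0
    · rw [h, mul_zero, mul_zero]
    · have h4 : ‖u‖ ≤ 4 := hw h
      refine mul_le_mul_of_nonneg_right ?_ h0
      nlinarith [ee_le_one ht u, ee_pos t u, norm_nonneg u]
  obtain ⟨y, hy⟩ : ∃ y, y = Real.exp (-(1 / 8) * ‖u‖ ^ 2) := ⟨_, rfl⟩
  have hy0 : 0 ≤ y := hy ▸ (Real.exp_pos _).le
  rw [← hy] at h2 ⊢
  have e3 : (3 : ℝ≥0∞) * ENNReal.ofReal y = ENNReal.ofReal (3 * y) := by
    rw [ENNReal.ofReal_mul (by norm_num)]
    simp
  have e5 : (5 : ℝ≥0∞) * (ENNReal.ofReal w * 1) = ENNReal.ofReal (5 * w) := by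
    rw [ENNReal.ofReal_mul (by norm_num)]
    simp
  rw [e3, e5, ← ENNReal.ofReal_mul (by positivity),
    ← ENNReal.ofReal_add (by positivity) (by positivity)]
  refine ENNReal.ofReal_le_ofReal ?_
  nlinarith

lemma mom (hc : BaseC) : ∃ K : ℝ, 1 ≤ K ∧ ∀ g : Geo, g.Ok → ∀ t ∈ Icc (0 : ℝ) (1 / 32), ∀ x : T3,
    ∫⁻ u, ENNReal.ofReal (1 + ‖u‖) * psE g t (x, u) ≤ ENNReal.ofReal K ∧
    ∀ v : E, ∫⁻ u, ENNReal.ofReal (sw g t (x, u)) * (ENNReal.ofReal ‖v - u‖)⁻¹ ≤
      ENNReal.ofReal K := by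
  obtain ⟨J, hJ, hJ1, hJ2⟩ := sing
  obtain ⟨L, hL⟩ : ∃ L, L = 3 * (∫⁻ u : E, ENNReal.ofReal (Real.exp (-(1 / 8) * ‖u‖ ^ 2))) +
    5 * (4 * J) := ⟨_, rfl⟩
  have hL1 : L ≠ ⊤ := by
    rw [hL]
    exact ENNReal.add_ne_top.2 ⟨ENNReal.mul_ne_top (by simp) gauss.ne,
      ENNReal.mul_ne_top (by simp) (ENNReal.mul_ne_top (by simp) hJ)⟩
  have hL2 : L ≤ ENNReal.ofReal (max 1 L.toReal) :=
    (ENNReal.ofReal_toReal hL1).ge.trans (ENNReal.ofReal_le_ofReal (le_max_right _ _))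
  refine ⟨max 1 L.toReal, le_max_left _ _, fun g hg t ht x => ⟨le_trans ?_ hL2, fun v => ?_⟩⟩
  · have h1 : ∀ u : E, ENNReal.ofReal (1 + ‖u‖) * psE g t (x, u) ≤
        3 * ENNReal.ofReal (Real.exp (-(1 / 8) * ‖u‖ ^ 2)) +
          5 * (ENNReal.ofReal (sw g t (x, u)) * 1) := by
      intro u
      exact mom_pt ht.2 u ((hc.gb g hg).ps_bd t ht (x, u)).2.2.1 (sw_supp (g := g) (t := t) (p := (x, u)))
    refine (lintegral_mono h1).trans ?_
    rw [lintegral_add_left (by fun_prop), lintegral_const_mul' _ _ (by simp),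
      lintegral_const_mul' _ _ (by simp), hL]
    exact add_le_add le_rfl (mul_le_mul' le_rfl (sw_int hc hJ2 g t x (by simpa using hJ1)))
  · refine le_trans ?_ hL2
    refine (sw_int hc hJ2 g t x ?_).trans ?_
    · simpa only [kk, norm_sub_rev v] using hJ2 v
    · rw [hL]
      exact (le_mul_of_one_le_left' (by norm_num)).trans le_add_self

lemma freq_le (alg : AlgStmt) {h : E → ℝ≥0∞} (hm : Measurable h) {K : ℝ}
    (hK : ∫⁻ u, ENNReal.ofReal (1 + ‖u‖) * h u ≤ ENNReal.ofReal K) (v : E) :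
    freqK kF h v ≤ ENNReal.ofReal (7 * (1 + ‖v‖) * K) := by
  rw [alg.freq_eq _ v hm, ENNReal.ofReal_mul (by positivity)]
  refine le_trans ?_ (mul_le_mul' le_rfl hK)
  rw [← lintegral_const_mul' _ _ ENNReal.ofReal_ne_top]
  refine lintegral_mono fun u => ?_
  rw [← mul_assoc, ← ENNReal.ofReal_mul (by positivity)]
  refine mul_le_mul' (ENNReal.ofReal_le_ofReal ?_) le_rfl
  rw [mul_assoc 7]
  refine mul_le_mul (by linarith [Real.pi_lt_d2]) ?_ (norm_nonneg _) (by norm_num)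
  nlinarith [norm_sub_le v u, norm_nonneg u, norm_nonneg v, mul_nonneg (norm_nonneg u) (norm_nonneg v)]

lemma gain_ee (t : ℝ) (v : E) :
    gainK kF (fun u => ENNReal.ofReal (ee t u)) (fun u => ENNReal.ofReal (ee t u)) v =
      ENNReal.ofReal (ee t v) * freqK kF (fun u => ENNReal.ofReal (ee t u)) v := by
  rw [gainK, freqK, ← lintegral_const_mul' _ _ ENNReal.ofReal_ne_top]
  refine lintegral_congr fun q => ?_
  have h1 := energy_post v q.1 0 q.2
  simp only [sub_zero] at h1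
  have h2 : ee t (vp v q.1 q.2) * ee t (wp v q.1 q.2) = ee t v * ee t q.1 := by
    simp only [ee]
    rw [← Real.exp_add, ← Real.exp_add, ← mul_add, ← mul_add, h1]
  rw [← ENNReal.ofReal_mul (ee_pos _ _).le, h2, ENNReal.ofReal_mul (ee_pos _ _).le, mul_left_comm]

lemma time {t₀ t : ℝ} (h0 : 0 ≤ t₀) (h1 : t₀ ≤ t) (h2 : t ≤ 1 / 32) (v : E) :
    ∫⁻ s in Ioc t₀ t, ENNReal.ofReal ((1 + ‖v‖) * ee s v) ≤
      ENNReal.ofReal (2 * √(t - t₀) * ee t v) := by
  have hd : ∀ s, HasDerivAt (fun s => ee s v) (‖v‖ ^ 2 * ee s v) s := fun s => by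
    have h3 : HasDerivAt (fun s : ℝ => -(1 / 2 - s) * ‖v‖ ^ 2) (‖v‖ ^ 2) s := by
      exact ((((hasDerivAt_id s).const_sub (1 / 2)).neg).mul_const (‖v‖ ^ 2)).congr_deriv (by simp)
    simpa [ee, mul_comm] using h3.exp
  have hcont : Continuous fun s => ee s v := by
    unfold ee
    fun_prop
  obtain ⟨I, hI⟩ : ∃ I, I = ∫ s in t₀..t, ee s v := ⟨_, rfl⟩
  have hI0 : 0 ≤ I := by
    rw [hI]
    exact intervalIntegral.integral_nonneg h1 fun s _ => (ee_pos s v).le
  have hI1 : I ≤ (t - t₀) * ee t v := by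
    have h3 := intervalIntegral.integral_mono_on (μ := volume) h1 (hcont.intervalIntegrable _ _)
      (intervalIntegrable_const (c := ee t v)) fun s hs =>
        Real.exp_le_exp.2 (by nlinarith [sq_nonneg ‖v‖, hs.2])
    rw [intervalIntegral.integral_const, smul_eq_mul] at h3
    rw [hI]
    exact h3
  have hI2 : ‖v‖ ^ 2 * I ≤ ee t v := by
    rw [hI, ← intervalIntegral.integral_const_mul,
      intervalIntegral.integral_eq_sub_of_hasDerivAt (fun s _ => hd s)
        ((hcont.const_mul _).intervalIntegrable _ _)]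
    linarith [ee_pos t₀ v]
  rw [← ofReal_integral_eq_lintegral_ofReal
    ((hcont.const_mul (1 + ‖v‖)).integrableOn_Icc.mono_set Ioc_subset_Icc_self)
    (Eventually.of_forall fun s => mul_nonneg (by positivity) (ee_pos s v).le),
    ← intervalIntegral.integral_of_le h1, intervalIntegral.integral_const_mul, ← hI]
  refine ENNReal.ofReal_le_ofReal ?_
  have he := ee_pos t v
  have hs := Real.sqrt_nonneg (t - t₀)
  have hs2 := Real.sq_sqrt (sub_nonneg.2 h1)
  have h3 : ‖v‖ * I ≤ √(t - t₀) * ee t v := by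
    refine (pow_le_pow_iff_left₀ (by positivity) (by positivity) two_ne_zero).1 ?_
    have h4 := mul_le_mul hI2 hI1 hI0 he.le
    rw [mul_pow, mul_pow, hs2]
    nlinarith
  have h4 : t - t₀ ≤ √(t - t₀) := by
    have h5 : √(t - t₀) ≤ 1 := Real.sqrt_le_one.2 (by linarith)
    nlinarith
  have h5 := mul_le_mul_of_nonneg_right h4 he.le
  nlinarith

end PPAux

open PPAux in
theorem ppC (hb : Base) (hc : BaseC) (h1 : PB1Stmt) : PPStmt := by
  obtain ⟨C, hC, h1⟩ := h1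
  obtain ⟨K, hK, hmom⟩ := mom hc
  have hCK : 0 ≤ C * K := by positivity
  refine ⟨7 * K + 4 * (C * K), by linarith, fun g hg => ?_⟩
  have hm : ∀ t x, Measurable fun u => psE g t (x, u) :=
    hc.alg.jm_slice _ (hc.me.jm g).2.2.2.1
  refine ⟨fun t ht p => ?_, fun t ht p => ?_, fun t ht x => ?_, fun t₀ t h0 h2 h3 v =>
    time h0 h2 h3 v⟩
  · obtain ⟨P, hP⟩ : ∃ P : E → ℝ≥0∞, P = fun u => psE g t (p.1, u) := ⟨_, rfl⟩
    obtain ⟨e, he⟩ : ∃ e : E → ℝ≥0∞, e = fun u => ENNReal.ofReal (ee t u) := ⟨_, rfl⟩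
    obtain ⟨f, hf⟩ : ∃ f : E → ℝ≥0∞, f = fun u => P u - e u := ⟨_, rfl⟩
    have mP : Measurable P := hP ▸ hm t p.1
    have me : Measurable e := he ▸ (continuous_ee t).measurable.ennreal_ofReal
    have mf : Measurable f := hf ▸ mP.sub me
    have heP : ∀ u, e u ≤ P u := fun u => by
      rw [he, hP]
      exact ENNReal.ofReal_le_ofReal ((hc.gb g hg).ps_bd t ht (p.1, u)).2.1
    have hPe : P = fun u => e u + f u := funext fun u => by
      rw [hf]
      exact (add_tsub_cancel_of_le (heP u)).symm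
    have hfs : ∀ u, f u ≤ ENNReal.ofReal (sw g t (p.1, u)) := fun u => by
      have h0 : 0 ≤ sw g t (p.1, u) := ((hc.gb g hg).ps_bd t ht (p.1, u)).2.2.1
      rw [hf, hP, he]
      show ENNReal.ofReal (ee t u * (1 + sw g t (p.1, u))) - ENNReal.ofReal (ee t u) ≤ _
      rw [← ENNReal.ofReal_sub _ (ee_pos t u).le]
      refine ENNReal.ofReal_le_ofReal ?_
      nlinarith [ee_le_one ht.2 u]
    have hk := hb.meas.1
    have h2 : gainK kF f P p.2 ≤ 2 * ENNReal.ofReal K * ENNReal.ofReal (C * ee t p.2) := by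
      refine (hc.alg.carl f P p.2 (ENNReal.ofReal (C * ee t p.2)) mf mP fun u hu ι hι => ?_).trans
        (mul_le_mul' (mul_le_mul' le_rfl (le_trans (lintegral_mono fun u =>
          mul_le_mul' (hfs u) le_rfl) ((hmom g hg t ht p.1).2 p.2))) le_rfl)
      rw [hP]
      refine h1 g hg t ht p.1 p.2 u ι (sw_supp (g := g) (t := t) (p := (p.1, u)) fun h => hu ?_) hι
      have := hfs u
      rw [h, ENNReal.ofReal_zero] at this
      exact le_zero_iff.1 this
    have h3 : gainK kF e e p.2 ≤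
        ENNReal.ofReal (ee t p.2) * ENNReal.ofReal (7 * (1 + ‖p.2‖) * K) := by
      refine le_trans (le_of_eq ?_) (mul_le_mul' le_rfl (freq_le hc.alg me (le_trans
        (lintegral_mono fun u => mul_le_mul' le_rfl ((heP u).trans (by rw [hP])))
        (hmom g hg t ht p.1).1) p.2))
      rw [he]
      exact gain_ee t p.2
    have h4 : gainK kF e f p.2 ≤ gainK kF f P p.2 := by
      rw [(hb.sym.2 e f me mf p.2).1]
      exact hc.alg.gain_mono _ _ _ _ _ _ _ (fun _ _ _ => le_rfl) (fun _ => le_rfl) heP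
    have h5 : gainK kF P P p.2 = gainK kF e e p.2 + gainK kF e f p.2 + gainK kF f P p.2 := by
      rw [← hc.alg.gain_add_right kF e e f p.2 hk me me, ← hPe,
        ← hc.alg.gain_add_left kF e f P p.2 hk me mP, ← hPe]
    have h6 : G2 kF (psE g) (psE g) t p = gainK kF P P p.2 := by rw [hP]; rfl
    rw [h6, h5]
    refine (add_le_add (add_le_add h3 (h4.trans h2)) h2).trans ?_
    have h7 := ee_pos t p.2
    have e2 : (2 : ℝ≥0∞) * ENNReal.ofReal K = ENNReal.ofReal (2 * K) := by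
      rw [ENNReal.ofReal_mul (by norm_num)]
      simp
    rw [e2, ← ENNReal.ofReal_mul (by positivity), ← ENNReal.ofReal_mul (by positivity),
      ← ENNReal.ofReal_add (by positivity) (by positivity),
      ← ENNReal.ofReal_add (by positivity) (by positivity)]
    refine ENNReal.ofReal_le_ofReal ?_
    have h8 : 0 ≤ C * K * ‖p.2‖ * ee t p.2 := by positivity
    nlinarith
  · refine (freq_le hc.alg (hm t p.1) (hmom g hg t ht p.1).1 p.2).trans
      (ENNReal.ofReal_le_ofReal ?_)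
    have h8 : 0 ≤ C * K * (1 + ‖p.2‖) := by positivity
    nlinarith
  · refine le_trans (le_trans (lintegral_mono fun u => ?_) (hmom g hg t ht x).1)
      (ENNReal.ofReal_le_ofReal (by linarith))
    exact le_mul_of_one_le_left' (ENNReal.one_le_ofReal.2 (by linarith [norm_nonneg u]))

end

end Vale.Agent.P140
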