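import Vale.Agent.P140.StmC

/-!
The seed is seen by the weight.
-/

namespace Vale.Agent.P140

open MeasureTheory Set Filter Topology
open scoped ENNReal

noncomputable section

namespace Phi0Aux

/-- The centre of the velocity ball. -/
def e0 : E := !₂[1, 0, 0]

lemma norm_hz_e0 : ‖hz e0‖ = 1 := by
  have : hz e0 = 1 := by
    apply Complex.ext <;> simp [hz, e0]
  rw [this, norm_one]

lemma norm_e0 : ‖e0‖ = 1 := by
  rw [EuclideanSpace.norm_eq]
  simp [e0, Fin.sum_univ_three]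

lemma ball_facts (hc : BaseC) {v : E} (hv : v ∈ Metric.ball e0 (1 / 2)) :
    ‖v‖ ≤ 2 ∧ 1 / 2 ≤ ‖hz v‖ := by
  rw [mem_ball_iff_norm] at hv
  have h1 := norm_sub_norm_le v e0
  have h2 := norm_sub_norm_le (hz e0) (hz v)
  have h3 := (hc.ga.norm_sq (e0 - v)).2.1
  rw [(hc.ga.hz_add e0 v 1).2.1, norm_sub_rev e0 v] at h3
  rw [norm_e0] at h1
  rw [norm_hz_e0] at h2
  constructor <;> linarith

lemma om_ge {q : Par} (hp1 : q.p ≤ 1) (hp0 : 0 ≤ q.p) (hη : q.η ≤ 1 / 2) (hV : 2 ≤ q.V) {v : E}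
    (h1 : ‖v‖ ≤ 2) (h2 : 1 / 2 ≤ ‖hz v‖) : 1 / 2 ≤ om q v := by
  unfold om
  rw [if_pos ⟨hη.trans h2, h1.trans hV⟩]
  calc (1 / 2 : ℝ) = (1 / 2 : ℝ) ^ (1 : ℝ) := (Real.rpow_one _).symm
    _ ≤ (1 / 2 : ℝ) ^ q.p := Real.rpow_le_rpow_of_exponent_ge (by norm_num) (by norm_num) hp1
    _ ≤ _ := Real.rpow_le_rpow (by norm_num) (le_min h2 (by norm_num)) hp0

/-- Lower bound of the Maxwellian on the ball of radius two. -/
def m0 : ℝ := (2 * Real.pi) ^ (-(3 / 2 : ℝ)) * Real.exp (-2)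

lemma m0_pos : 0 < m0 := by unfold m0; have := Real.pi_pos; positivity

lemma m0_le {v : E} (h : ‖v‖ ≤ 2) : m0 ≤ Mx v := by
  unfold m0 Mx
  have := Real.pi_pos
  refine mul_le_mul_of_nonneg_left (Real.exp_le_exp.2 ?_) (by positivity)
  nlinarith [norm_nonneg v]

end Phi0Aux

open Phi0Aux in
theorem phi0 (_hb : Base) (hc : BaseC) : Phi0Stmt := by
  have hβ0 : volume (Metric.ball e0 (1 / 2)) ≠ 0 :=
    (Metric.measure_ball_pos volume e0 (by norm_num)).ne'
  have hβ1 : volume (Metric.ball e0 (1 / 2)) ≠ ⊤ := measure_ball_lt_top.ne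
  set β := (volume (Metric.ball e0 (1 / 2))).toReal with hβ
  have hβp : 0 < β := ENNReal.toReal_pos hβ0 hβ1
  have hm := m0_pos
  refine ⟨m0 * β / (8 * 2 ^ 18), by positivity, fun g q hg hp0 hp1 hη hV hW hr => ?_⟩
  have gb := hc.gb g hg
  set ρ := g.r (g.K + 1) with hρ
  have hρ0 : 0 < ρ := (gb.r_pos _).1
  have hR := gb.R_le
  set A : Set T3 := {x | ρ ≤ ‖pl x‖ ∧ ‖pl x‖ ≤ 2 * ρ} with hA
  have hAm : MeasurableSet A :=
    (measurableSet_le measurable_const hc.me.pl.norm).inter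
      (measurableSet_le hc.me.pl.norm measurable_const)
  have hv := hc.ga.vol_ge ρ hρ0 (by linarith)
  have hS : MeasurableSet (A ×ˢ Metric.ball e0 (1 / 2)) := hAm.prod measurableSet_ball
  calc ENNReal.ofReal (m0 * β / (8 * 2 ^ 18) * ρ⁻¹ ^ 16)
      = ENNReal.ofReal (1 / 2 * (2 * ρ)⁻¹ ^ 18 * m0) *
          (ENNReal.ofReal (ρ ^ 2 / 4) * volume (Metric.ball e0 (1 / 2))) := by
        rw [← ENNReal.ofReal_toReal hβ1, ← ENNReal.ofReal_mul (by positivity),
          ← ENNReal.ofReal_mul (by positivity)]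
        congr 1
        rw [← hβ]
        field_simp
        ring
    _ ≤ ENNReal.ofReal (1 / 2 * (2 * ρ)⁻¹ ^ 18 * m0) *
          volume (A ×ˢ Metric.ball e0 (1 / 2)) := by
        rw [Measure.volume_eq_prod, Measure.prod_prod]
        exact mul_le_mul_right (mul_le_mul_left hv _) _
    _ = ∫⁻ p : Om, (A ×ˢ Metric.ball e0 (1 / 2)).indicator
          (fun _ => ENNReal.ofReal (1 / 2 * (2 * ρ)⁻¹ ^ 18 * m0)) p :=
        (lintegral_indicator_const hS _).symm
    _ ≤ _ := by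
        refine lintegral_mono fun p => ?_
        by_cases hp : p ∈ A ×ˢ Metric.ball e0 (1 / 2)
        · rw [indicator_of_mem hp]
          obtain ⟨⟨h1, h2⟩, h3⟩ := hp
          obtain ⟨h4, h5⟩ := ball_facts hc h3
          have h6 := hW 0 ⟨le_rfl, hg.R0.le⟩ p (by simpa [Geo.lab] using h1) (by linarith)
            (by linarith)
          rw [ENNReal.ofReal_mul (by positivity)]
          refine mul_le_mul' (le_trans (ENNReal.ofReal_le_ofReal ?_) h6)
            (ENNReal.ofReal_le_ofReal (m0_le h4))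
          have h7 := om_ge hp1 hp0 hη hV h4 h5
          refine mul_le_mul h7 (pow_le_pow_left₀ (by positivity)
            (inv_anti₀ (by linarith) h2) _) (by positivity) (by linarith)
        · rw [indicator_of_notMem hp]; exact zero_le

end

end Vale.Agent.P140
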