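import Vale.Agent.P140.ShootA

namespace Vale.Agent.P140

open MeasureTheory Set Filter Topology
open scoped ENNReal

noncomputable section

namespace ShootAux

lemma ev_small {f : ℝ → ℝ} (hf : Continuous f) (h0 : f 0 = 0) {e : ℝ} (he : 0 < e) :
    ∀ᶠ R in 𝓝[>] (0 : ℝ), f R < e := by
  have : Tendsto f (𝓝 0) (𝓝 0) := by simpa [h0] using hf.tendsto 0
  exact (this.eventually (gt_mem_nhds he)).filter_mono nhdsWithin_le_nhds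

lemma r_tendsto (c κ R : ℝ) : Tendsto (fun K : ℕ => (⟨c, κ, R, K⟩ : Geo).r (K + 1)) atTop (𝓝 0) := by
  have h := (tendsto_pow_atTop_nhds_zero_of_lt_one (r := (3999 / 4000 : ℝ)) (by norm_num)
    (by norm_num)).comp (tendsto_add_atTop_nat 1)
  simpa [Geo.r] using h.const_mul R

lemma boot_of (hc : BaseC) {g : Geo} {q : Par} {Λ : ℕ} {η C c₂ ε C₁ C₂ ε₀ ε₁ T c₃ X Y r : ℝ}
    (hg : g.Ok) (kLY : LYP g η C) (kW2 : W2P g q η c₂) (kHE : HEP g Λ ε) (hO : OSP g C₁)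
    (hP : PPP g C₂) (hη0 : 0 < η) (hη1 : η ≤ 1) (hΛ : 1 ≤ Λ) (hC : 1 ≤ C) (hC₁ : 1 ≤ C₁)
    (hC₂ : 1 ≤ C₂) (hc₂ : 0 < c₂) (hc₃ : 0 < c₃) (hε₀ : 0 < ε₀) (hε₀1 : ε₀ ≤ 1) (hε₁ : 0 < ε₁)
    (hT0 : 0 < T) (hTη : T ≤ η * g.R / 8) (hr : r = g.r (g.K + 1)) (k1 : r < g.κ * (η * g.R / 8))
    (r2 : C * C₁ * (2 * g.c * g.R + 2 * g.R ^ 19) < 1 / 8) (e1' : C * C₁ * ε₀ ≤ 1 / 8)
    (hX : X = (2 / η ^ 4) ^ Λ) (hY : Y = 4 / c₃ + 3 / c₂ + 8 * C₂ * X / η ^ 2 * (4 / c₃))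
    (e3 : ε₁ * (2 * X * (4 / c₃)) ≤ ε) (e4 : ε₁ * (4 * C * Y) ≤ ε₀) :
    ∀ s ∈ Icc (0 : ℝ) (ε₁ * (4 / c₃) * r ^ 16), BootH g q Λ η C c₂ ε C₁ C₂ ε₀ ε₁ s T := by
  have hG := hc.gb g hg
  have hκ0 := hg.κ0
  have hκ1 := hg.κ1
  have hr0 : 0 < r := hr ▸ (hG.r_pos _).1
  have hrR : r ≤ g.R := hr ▸ (hG.r_pos _).2.1
  have hr1 : r ≤ 1 := by linarith [hG.R_le]
  have hte : g.te 0 = r / g.κ := by rw [hr]; simp [Geo.te]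
  have hte0 := hG.te.1
  have hter : r ≤ g.te 0 := by rw [hte, le_div_iff₀ hκ0]; nlinarith
  have hr16 : r ^ 16 ≤ r := by
    calc r ^ 16 ≤ r ^ 1 := pow_le_pow_of_le_one hr0.le hr1 (by norm_num)
      _ = r := pow_one r
  have hX0 : 0 < X := by rw [hX]; positivity
  intro s hs
  have hs0 := hs.1
  have hsb : s ≤ ε₁ * (4 / c₃) := by
    refine hs.2.trans ?_
    exact mul_le_of_le_one_right (by positivity) (by linarith)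
  refine ⟨hg, kLY, kW2, kHE, hO, hP, hη0, hη1, hΛ, hC, hC₁, hC₂,
    hc₂, hε₀, hε₀1, hε₁.le, hs.1, hT0.le, ?_, ?_, ?_, ?_⟩
  · rw [hG.te.2.2 T, hte]
    have : r / g.κ ≤ η * g.R / 8 := by rw [div_le_iff₀ hκ0]; linarith
    linarith
  · rw [mul_add]; linarith
  · rw [← hX]
    calc 2 * s * X ≤ 2 * (ε₁ * (4 / c₃)) * X := by gcongr
      _ = ε₁ * (2 * X * (4 / c₃)) := by ring
      _ ≤ ε := e3
  · rw [← hX]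
    have a1 : s / g.te 0 ≤ ε₁ * (4 / c₃) := by
      rw [div_le_iff₀ hte0]
      calc s ≤ ε₁ * (4 / c₃) * r ^ 16 := hs.2
        _ ≤ _ := by gcongr; linarith
    have a2 : s / g.te 0 ^ 16 ≤ ε₁ * (4 / c₃) := by
      rw [div_le_iff₀ (by positivity)]
      calc s ≤ ε₁ * (4 / c₃) * r ^ 16 := hs.2
        _ ≤ _ := by gcongr
    have a3 : 8 * C₂ * s * X / (η ^ 2 * g.te 0 ^ 16) =
        8 * C₂ * X / η ^ 2 * (s / g.te 0 ^ 16) := by field_simp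
    have a4 : 8 * C₂ * X / η ^ 2 * (s / g.te 0 ^ 16) ≤
        8 * C₂ * X / η ^ 2 * (ε₁ * (4 / c₃)) := by gcongr
    have a5 : s / g.te 0 + 3 * ε₁ / c₂ + 8 * C₂ * s * X / (η ^ 2 * g.te 0 ^ 16) ≤ ε₁ * Y := by
      rw [a3, hY]
      calc _ ≤ ε₁ * (4 / c₃) + 3 * ε₁ / c₂ + 8 * C₂ * X / η ^ 2 * (ε₁ * (4 / c₃)) := by linarith
        _ = _ := by ring
    calc _ ≤ 4 * C * (ε₁ * Y) := by gcongr
      _ = ε₁ * (4 * C * Y) := by ring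
      _ ≤ ε₀ := e4

lemma perK (hb : Base) (hc : BaseC) (hIF : IFStmt) (hWU : WUStmt) (hD : DatStmt) (hB : BootStmt)
    {g : Geo} {q : Par} {Λ : ℕ} {η C c₂ ε C₁ C₂ ε₀ ε₁ T c₃ Cm r : ℝ} (hg : g.Ok) (hp : 0 ≤ q.p)
    (hboot : ∀ s ∈ Icc (0 : ℝ) (ε₁ * (4 / c₃) * r ^ 16), BootH g q Λ η C c₂ ε C₁ C₂ ε₀ ε₁ s T)
    (hM : MonoP g q Cm) (hCm : Cm * q.V * ε₀ ≤ 1) (hVT : q.V * T ≤ g.R / 4)
    (hT0 : 0 < T) (hTR : T ≤ g.R) (hε : 0 < ε) (hε₁ : 0 < ε₁) (hc₃ : 0 < c₃)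
    (hr : r = g.r (g.K + 1)) (k3 : r < c₃ / (4 * ε₁)) (r3 : 2 * g.R ^ 6 < q.D)
    (h1 : ENNReal.ofReal (c₃ * r⁻¹ ^ 16) ≤ ∫⁻ p, WW g q 0 p * ENNReal.ofReal (Mx p.2)) :
    ∃ R₁ δ₁ : ℝ, 0 < R₁ ∧ 0 < δ₁ ∧ ∀ Rk δ, R₁ ≤ Rk → 0 < δ → δ ≤ δ₁ →
      ∃ (s₁ s₂ : ℝ) (F₁ F₂ : ℝ → Om → ℝ), 0 < s₁ ∧ s₁ ≤ g.r g.K ∧ 0 < s₂ ∧
        s₂ ≤ g.r g.K ∧ TS Rk δ (seed g s₁) F₁ ∧ TS Rk δ (seed g s₂) F₂ ∧
        ∫ p in (⋃ j, Cold g j T)ᶜ, F₁ T p ≤ 2 * C₂ * g.R ^ 19 ∧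
        ε₁ * (g.κ * T) ^ 18 / 4 ≤ ∫ p in (⋃ j, Cold g j T)ᶜ, F₂ T p := by
  have hG := hc.gb g hg
  have hκ0 := hg.κ0
  have hR := hg.R0
  have hr0 : 0 < r := hr ▸ (hG.r_pos _).1
  have hrR : r ≤ g.R := hr ▸ (hG.r_pos _).2.1
  have hR4 := hG.R_le
  have hr1 : r ≤ 1 := by linarith
  have hte0 := hG.te.1
  obtain ⟨b, hbdef⟩ : ∃ b, b = ε₁ * (4 / c₃) * r ^ 16 := ⟨_, rfl⟩
  rw [← hbdef] at hboot
  have hb0 : 0 < b := by rw [hbdef]; positivity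
  have hB0 := hboot 0 ⟨le_rfl, hb0.le⟩
  have hε₀ := hB0.ε₀0
  have hbr : b ≤ r := by
    rw [lt_div_iff₀ (by positivity)] at k3
    have h15 : r ^ 16 ≤ r ^ 2 := pow_le_pow_of_le_one hr0.le hr1 (by norm_num)
    have h1 : ε₁ * (4 / c₃) * r ≤ 1 := by
      rw [show ε₁ * (4 / c₃) * r = r * (4 * ε₁) / c₃ by ring, div_le_one hc₃]; exact k3.le
    calc b ≤ ε₁ * (4 / c₃) * r ^ 2 := by rw [hbdef]; gcongr
      _ = ε₁ * (4 / c₃) * r * r := by ring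
      _ ≤ 1 * r := by gcongr
      _ = r := one_mul r
  have hrK : r ≤ g.r g.K := hr ▸ (hG.r_anti g.K (g.K + 1) (Nat.le_succ _)).1
  have hteT : 0 < g.te T := by rw [hG.te.2.2 T]; linarith
  obtain ⟨Z, hZ, hZ0⟩ : ∃ Z : ℝ, Z = (g.te T / g.te 0) ^ Λ ∧ 0 < Z := ⟨_, rfl, by positivity⟩
  obtain ⟨a, ha0, a1, a2, a3, a4⟩ : ∃ a : ℝ, 0 < a ∧ a ≤ b ∧ a ≤ ε / (2 * Z) ∧ a ≤ ε₀ / (2 * Z) ∧
      a ≤ g.R ^ 19 / (2 * Z) :=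
    ⟨min (min b (ε / (2 * Z))) (min (ε₀ / (2 * Z)) (g.R ^ 19 / (2 * Z))),
      lt_min (lt_min hb0 (by positivity)) (lt_min (by positivity) (by positivity)),
      (min_le_left _ _).trans (min_le_left _ _), (min_le_left _ _).trans (min_le_right _ _),
      (min_le_right _ _).trans (min_le_left _ _), (min_le_right _ _).trans (min_le_right _ _)⟩
  rw [le_div_iff₀ (by positivity)] at a2 a3 a4
  have hphi : ENNReal.ofReal (4 * ε₁) ≤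
      ENNReal.ofReal b * ∫⁻ p, WW g q 0 p * ENNReal.ofReal (Mx p.2) := by
    refine le_trans ?_ (mul_le_mul' le_rfl h1)
    rw [← ENNReal.ofReal_mul hb0.le]
    refine ENNReal.ofReal_le_ofReal (le_of_eq ?_)
    rw [hbdef]; field_simp
  obtain ⟨R₁, δ₁, hR₁, hδ₁, hcore⟩ := core hb hc hIF hWU hD hB hg hp hboot
    hM hCm hVT ⟨hT0.le, hTR⟩ ha0 a1 (hbr.trans hr1) hε₁
    (by rw [← hZ]; linarith) (by rw [← hZ]; linarith) (by rw [← hZ]; linarith) hphi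
  refine ⟨R₁, δ₁, hR₁, hδ₁, fun Rk δ h1 h2 h3 => ?_⟩
  obtain ⟨s, F₁, F₂, hs, hF₁, hF₂, hlin, hign⟩ := hcore Rk δ h1 h2 h3
  refine ⟨a, s, F₁, F₂, ha0, a1.trans (hbr.trans hrK), ha0.trans_le hs.1,
    hs.2.trans (hbr.trans hrK), hF₁, hF₂, ?_, ?_⟩
  · exact quiet hb hc hg hB0.pp (by linarith [hB0.C₂1]) hB0.Λ1 hT0.le hTR hF₁ hlin
  · have h4 := hign.trans_le (phi_le hb hc hWU hg (q := q) hp r3 hT0 (by linarith) hF₂)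
    have h5 := (ENNReal.ofReal_lt_ofReal_iff_of_nonneg (by positivity)).1 h4
    have h6 : 0 < (g.κ * T) ^ 18 := by positivity
    rw [inv_pow] at h5
    have h7 := mul_lt_mul_of_pos_left h5 h6
    have h8 : (g.κ * T) ^ 18 * (2 * ((g.κ * T) ^ 18)⁻¹ * ∫ p in (⋃ j, Cold g j T)ᶜ, F₂ T p) =
        2 * ∫ p in (⋃ j, Cold g j T)ᶜ, F₂ T p := by field_simp
    rw [h8] at h7
    linarith

end ShootAux

open ShootAux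

theorem shoot (hb : Base) (hc : BaseC) (hP : PPStmt) (hO : OSStmt) (hHE : HEStmt) (hIF : IFStmt)
    (hLY : LYStmt) (hW1 : W1Stmt) (hW2 : W2Stmt) (hWU : WUStmt) (hM : MonoStmt) (hPhi : Phi0Stmt)
    (hD : DatStmt) (hB : BootStmt) : ShootStmt := by
  obtain ⟨p, η₂, D, c, κ, V₀, hp0, hp1, hη₂0, hη₂1, hD0, hD1, hc1, hκ0, hκ1, hκη, hV₀, hColl,
    hW1⟩ := hW1
  obtain ⟨C₁, hC₁, hO⟩ := hO
  obtain ⟨C₂, hC₂, hP⟩ := hP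
  obtain ⟨Cm, hCm, hM⟩ := hM
  obtain ⟨c₃, hc₃, hPhi⟩ := hPhi
  obtain ⟨Λ, ⟨ε, hε, hHE⟩, hΛ⟩ := ((hHE c κ hc1 hκ0 hκ1).and (eventually_ge_atTop 1)).exists
  have hI : ∀ᶠ η in 𝓝[>] (0 : ℝ), η ∈ Ioc (0 : ℝ) 1 := Ioc_mem_nhdsGT one_pos
  obtain ⟨η, ⟨C, hC, hLY⟩, hη0, hη1⟩ := ((hLY c κ hc1 hκ0 hκ1).and hI).exists
  obtain ⟨V, hV1, hV2⟩ : ∃ V : ℝ, V₀ ≤ V ∧ 1 / η ≤ V := ⟨_, le_max_left _ _, le_max_right _ _⟩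
  have hV : 2 ≤ V := hV₀.trans hV1
  set q : Par := ⟨p, η₂, D, V⟩ with hq
  obtain ⟨c₂, hc₂, hW2⟩ := hW2 q c κ V₀ η hp0.le hD1 hc1 hκ0 hκ1 hκη hColl hV1 hη0 hη1 hV2
  obtain ⟨ε₀, hε₀, e1, e2⟩ : ∃ ε₀ : ℝ, 0 < ε₀ ∧ ε₀ ≤ 1 / (8 * C * C₁) ∧ ε₀ ≤ 1 / (Cm * V) :=
    ⟨_, lt_min (by positivity) (by positivity), min_le_left _ _, min_le_right _ _⟩
  have e1' : C * C₁ * ε₀ ≤ 1 / 8 := by
    rw [le_div_iff₀ (by positivity)] at e1; nlinarith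
  have e2' : Cm * V * ε₀ ≤ 1 := by
    rw [le_div_iff₀ (by positivity)] at e2; nlinarith
  have hCC : 1 ≤ C * C₁ := one_le_mul_of_one_le_of_one_le hC hC₁
  have hε₀1 : ε₀ ≤ 1 := by nlinarith
  obtain ⟨X, hX, hX0⟩ : ∃ X : ℝ, X = (2 / η ^ 4) ^ Λ ∧ 0 < X := ⟨_, rfl, by positivity⟩
  obtain ⟨Y, hY, hY0⟩ : ∃ Y : ℝ, Y = 4 / c₃ + 3 / c₂ + 8 * C₂ * X / η ^ 2 * (4 / c₃) ∧ 0 < Y :=
    ⟨_, rfl, by positivity⟩
  obtain ⟨ε₁, hε₁, e3, e4⟩ : ∃ ε₁ : ℝ, 0 < ε₁ ∧ ε₁ ≤ ε / (2 * X * (4 / c₃)) ∧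
      ε₁ ≤ ε₀ / (4 * C * Y) :=
    ⟨_, lt_min (by positivity) (by positivity), min_le_left _ _, min_le_right _ _⟩
  rw [le_div_iff₀ (by positivity)] at e3 e4
  have s1 := ev_small (f := fun R => R) continuous_id rfl (e := κ ^ 2) (by positivity)
  have s2 := ev_small (f := fun R => C * C₁ * (2 * c * R + 2 * R ^ 19)) (by fun_prop) (by simp)
    (e := 1 / 8) (by norm_num)
  have s3 := ev_small (f := fun R => 2 * R ^ 6) (by fun_prop) (by simp) hD0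
  have s4 := ev_small (f := fun R => 2 * C₂ * R) (by fun_prop) (by simp)
    (e := ε₁ * (κ / (8 * V)) ^ 18 / 4) (by positivity)
  have s5 : ∀ᶠ R in 𝓝[>] (0 : ℝ), 0 < R := self_mem_nhdsWithin
  obtain ⟨R, ⟨⟨⟨⟨⟨⟨⟨⟨⟨kHE, kLY⟩, kW1⟩, kW2⟩, kM⟩, r1⟩, r2⟩, r3⟩, r4⟩, hR⟩⟩ :=
    (((((((((hHE.and hLY).and (hW1 V hV1)).and hW2).and
      (hM q c κ hc1 hκ0 hκ1 hp0.le hη₂0 hD0 hV)).and s1).and s2).and s3).and s4).and s5).exists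
  have hok : ∀ K, (⟨c, κ, R, K⟩ : Geo).Ok := fun K => ⟨hc1, hκ0, hκ1, hR, r1.le⟩
  set T : ℝ := R / (8 * V) with hT
  have hT0 : 0 < T := by positivity
  have hVT : V * T = R / 8 := by rw [hT]; field_simp
  have hTR : T ≤ R := by nlinarith
  have hTη : T ≤ η * R / 8 := by
    rw [div_le_iff₀ hη0] at hV2
    nlinarith
  refine ⟨c, κ, R, T, 2 * C₂ * R ^ 19, ε₁ * (κ * T) ^ 18 / 4,
    (⋃ j, Cold ⟨c, κ, R, 0⟩ j T)ᶜ, hok 0, hT0.le, ?_,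
    (MeasurableSet.iUnion fun j => (hc.me.tube _ j).2.2.2 T).compl, ?_⟩
  · have : κ * T = κ / (8 * V) * R := by rw [hT]; ring
    rw [this, mul_pow]
    have h18 : 0 < R ^ 18 := by positivity
    calc 2 * C₂ * R ^ 19 = 2 * C₂ * R * R ^ 18 := by ring
      _ < ε₁ * (κ / (8 * V)) ^ 18 / 4 * R ^ 18 := by gcongr
      _ = _ := by ring
  have k1 := (r_tendsto c κ R).eventually (gt_mem_nhds (a := κ * (η * R / 8)) (by positivity))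
  have k2 := (r_tendsto c κ R).eventually (gt_mem_nhds (a := R / 8) (by positivity))
  have k3 := (r_tendsto c κ R).eventually (gt_mem_nhds (a := c₃ / (4 * ε₁)) (by positivity))
  filter_upwards [k1, k2, k3] with K k1 k2 k3
  have hVT' : q.V * T ≤ R / 4 := by show V * T ≤ R / 4; linarith
  exact perK hb hc hIF hWU hD hB (hok K) hp0.le
    (boot_of hc (hok K) (kLY K) (kW2 K) (kHE K) (hO _ (hok K)) (hP _ (hok K)) hη0 hη1 hΛ hC hC₁ hC₂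
      hc₂ hc₃ hε₀ hε₀1 hε₁ hT0 hTη rfl k1 r2 e1' hX hY e3 e4)
    (kM K (kW1 K)) e2' hVT' hT0 hTR hε hε₁ hc₃ rfl k3 r3
    (hPhi _ q (hok K) hp0.le hp1 (by show η₂ ≤ 1 / 2; linarith) hV (kW1 K)
      (by show 8 * (⟨c, κ, R, K⟩ : Geo).r (K + 1) ≤ R; linarith))

end

end Vale.Agent.P140
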