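import Vale.Agent.P140.SingA

/-!
Singular integrals of the beams.
-/

namespace Vale.Agent.P140

open MeasureTheory Set Filter Topology
open scoped ENNReal

noncomputable section

namespace SingAux

lemma farInt {f : E → ℝ≥0∞} {v u₀ : E} {ρ m : ℝ} (hρ : 0 < ρ) (hm : 0 ≤ m)
    (hs : ∀ u, f u ≠ 0 → ‖u - u₀‖ ≤ ρ) (hd : 2 * ρ ≤ ‖v - u₀‖)
    (hf : ∫⁻ u, f u ≤ ENNReal.ofReal m) :
    ∫⁻ u, f u * (ENNReal.ofReal ‖v - u‖)⁻¹ ≤ ENNReal.ofReal (m * (2 * ‖v - u₀‖⁻¹)) := by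
  have hd0 : 0 < ‖v - u₀‖ := by linarith
  calc _ ≤ ∫⁻ u, f u * ENNReal.ofReal (2 * ‖v - u₀‖⁻¹) := by
        refine lintegral_mono fun u => ?_
        by_cases h0 : f u = 0
        · simp [h0]
        refine mul_le_mul_right ?_ _
        have h1 := hs u h0
        have h2 := norm_sub_le_norm_sub_add_norm_sub v u u₀
        rw [show 2 * ‖v - u₀‖⁻¹ = (‖v - u₀‖ / 2)⁻¹ by field_simp,
          ENNReal.ofReal_inv_of_pos (by linarith)]
        exact ENNReal.inv_le_inv.2 (ENNReal.ofReal_le_ofReal (by linarith))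
    _ ≤ _ := by
        rw [lintegral_mul_const' _ _ ENNReal.ofReal_ne_top, ENNReal.ofReal_mul hm]
        exact mul_le_mul_left hf _

lemma far {s n d θ ρ : ℝ} (hs : 0 ≤ s) (hn : 0 ≤ n) (hθ : 0 < θ) (h1 : θ ≤ ρ) (h2 : 2 * ρ ≤ d)
    (h3 : n - 2 ≤ d) (h4 : n ≤ 4 → (√(d ^ 2 + θ ^ 2))⁻¹ ≤ s) : d⁻¹ ≤ 10 * ((1 + s) / (1 + n)) := by
  have hd : 0 < d := by linarith
  rw [← mul_div_assoc, le_div_iff₀ (by linarith), inv_mul_le_iff₀ hd]
  by_cases h : n ≤ 4
  · have h5 : √(d ^ 2 + θ ^ 2) ≤ 2 * d := Real.sqrt_le_iff.2 ⟨by linarith, by nlinarith⟩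
    have h6 := (inv_anti₀ (Real.sqrt_pos.2 (by positivity)) h5).trans (h4 h)
    rw [inv_le_iff_one_le_mul₀ (by linarith)] at h6
    nlinarith
  · nlinarith [mul_nonneg hd.le hs]

lemma near {s n d θ ρ : ℝ} (hn : 0 ≤ n) (hd : 0 ≤ d) (hθ : 0 < θ) (h1 : θ ≤ ρ) (h2 : d ≤ 2 * ρ)
    (hρ : ρ ≤ 1) (h3 : n - 2 ≤ d) (h4 : n ≤ 4 → (√(d ^ 2 + θ ^ 2))⁻¹ ≤ s) :
    ρ⁻¹ ≤ 15 * ((1 + s) / (1 + n)) := by
  have h0 : 0 < ρ := by linarith
  have h : n ≤ 4 := by linarith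
  rw [← mul_div_assoc, le_div_iff₀ (by linarith), inv_mul_le_iff₀ h0]
  have h5 : √(d ^ 2 + θ ^ 2) ≤ 3 * ρ := Real.sqrt_le_iff.2 ⟨by linarith, by nlinarith⟩
  have h6 := (inv_anti₀ (Real.sqrt_pos.2 (by positivity)) h5).trans (h4 h)
  rw [inv_le_iff_one_le_mul₀ (by linarith)] at h6
  nlinarith

lemma sw_ge (g : Geo) (j : ℕ) {t : ℝ} {p : Om} (hX : ‖pl p.1‖ ≤ 1 / 8 + 4 * t) (hv : ‖p.2‖ ≤ 4) :
    (√(gq g.κ (sg j) p + g.th g.K ^ 2))⁻¹ ≤ sw g t p := by
  rw [sw, if_pos ⟨hv, hX⟩]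
  rcases neg_one_pow_eq_or ℝ j with h | h
  · rw [sg, h]
    exact le_add_of_nonneg_right (by positivity)
  · rw [sg, h]
    exact le_add_of_nonneg_left (by positivity)

/-- The angular direction. -/
def eφ (X : ℂ) : E := !₂[-X.im / ‖X‖, X.re / ‖X‖, 0]

lemma eφ_norm {X : ℂ} (h : X ≠ 0) : ‖eφ X‖ = 1 := by
  have h0 : ‖X‖ ≠ 0 := norm_ne_zero_iff.2 h
  have h1 : ‖eφ X‖ ^ 2 = 1 := by
    rw [EuclideanSpace.real_norm_sq_eq, Fin.sum_univ_three]
    have : ‖X‖ ^ 2 = X.re ^ 2 + X.im ^ 2 := by rw [Complex.sq_norm, Complex.normSq_apply]; ring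
    simp only [eφ, Matrix.cons_val_zero, Matrix.cons_val_one, Matrix.cons_val]
    field_simp
    linarith
  exact (pow_eq_one_iff_of_nonneg (norm_nonneg _) two_ne_zero).1 h1

lemma eφ_inner (X : ℂ) (u : E) :
    inner ℝ (eφ X) u = (starRingEnd ℂ X * hz u).im / ‖X‖ := by
  simp [eφ, hz, PiLp.inner_apply, Fin.sum_univ_three]
  ring

end SingAux

open SingAux in
theorem sing (hb : Base) (hc : BaseC) (hD : DensUStmt) : SingStmt := by
  refine ⟨13000, by norm_num, fun g hok t ht p => ?_⟩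
  have hB := hc.gb g hok
  have ht1 : t ∈ Icc (0 : ℝ) 1 := ⟨ht.1, by linarith [ht.2]⟩
  by_cases hin : ¬ InT g t p.1
  · have h0 : ∀ u, BB g t (p.1, u) = 0 ∧ EE g t (p.1, u) = 0 := fun u => by
      rw [← add_eq_zero]
      by_contra h
      obtain ⟨j, hj, h1⟩ := hB.cc_supp t ht1 (p.1, u) h
      exact hin ⟨j, hj, h1.1⟩
    simp [h0]
  rw [not_not] at hin
  obtain ⟨-, hX1, hX0, -⟩ := hB.inT t ht1 p.1 hin
  obtain ⟨j, hj, hx⟩ := hin
  obtain ⟨r0, r1, -, a0, th0, th1, -, g1⟩ := hB.r_pos j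
  have thK := (hB.r_pos g.K).2.2.2.2.1
  have thK' := (hB.r_anti j g.K hj).2.1
  have hR := hB.R_le
  have hκ0 := hok.κ0
  have hκ1 := hok.κ1
  have hc0 : 0 ≤ g.c := by linarith [hok.c1]
  have g2 : g.gg j ≤ 1 := g1.trans (pow_le_one₀ hok.R0.le (by linarith))
  have hXp : 0 < ‖pl p.1‖ := norm_pos_iff.2 hX0
  have hs := (hB.ps_bd t ht p).2.2.1
  set u₀ := uu g.κ (sg j) p.1 with hu₀
  have hu : ‖u₀‖ ≤ 2 := by
    have h1 := (hc.ga.uu_le g.κ (sg j) p.1 hκ0.le).2.2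
    have h2 : |sg j| = 1 := by simp [sg]
    linarith
  have h3 : ‖p.2‖ - 2 ≤ ‖p.2 - u₀‖ := by linarith [norm_sub_norm_le p.2 u₀]
  have h4 : ‖p.2‖ ≤ 4 → (√(‖p.2 - u₀‖ ^ 2 + g.th g.K ^ 2))⁻¹ ≤ sw g t p := fun h => by
    rw [← (hc.ga.gq_uu g.κ (sg j) p).2 hX0]
    exact sw_ge g j (by nlinarith [ht.1, ht.2]) h
  set W := (1 + sw g t p) / (1 + ‖p.2‖) with hW
  have hW0 : 0 ≤ W := by positivity
  obtain ⟨d1, d2, -⟩ := hD g hok t ht1 p.1
  constructor
  · have hs1 : ∀ u, BB g t (p.1, u) ≠ 0 → ‖u - u₀‖ ≤ g.th j ∧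
        |(starRingEnd ℂ (pl p.1) * hz u).im| ≤ g.th j * g.r j := fun u h => by
      rw [hB.bb_tube j t ht1 (p.1, u) hx, if_pos hj] at h
      exact (hB.supp j t ht1 (p.1, u) (mem_of_indicator_ne_zero h)).2.2
    by_cases hd : 2 * g.th j ≤ ‖p.2 - u₀‖
    · refine (farInt th0 (by positivity) (fun u h => (hs1 u h).1) hd d1).trans
        (ENNReal.ofReal_le_ofReal ?_)
      have h5 := far hs (norm_nonneg _) thK thK' hd h3 h4
      have h6 : 0 ≤ g.c / ‖pl p.1‖ := by positivity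
      rw [mul_div_assoc, mul_div_assoc]
      nlinarith [mul_le_mul_of_nonneg_left h5 h6, mul_nonneg h6 hW0]
    · have h5 := near (norm_nonneg _) (norm_nonneg _) thK thK' (not_le.1 hd).le (th1.trans g2) h3 h4
      refine (slab (eφ_norm hX0) (b := 0) (h := g.th j * g.r j / ‖pl p.1‖) (ρ := 3 * g.th j)
        (by positivity) (by positivity) (a := ENNReal.ofReal (g.a j)) ENNReal.ofReal_ne_top
        (fun u => ?_) fun u h => ⟨?_, ?_⟩).trans ?_
      · rw [hB.bb_tube j t ht1 (p.1, u) hx, if_pos hj]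
        exact indicator_le_self' (fun _ _ => zero_le) _
      · rw [sub_zero, eφ_inner, abs_div, abs_of_pos hXp]
        exact div_le_div_of_nonneg_right (hs1 u h).2 hXp.le
      · have := norm_sub_le_norm_sub_add_norm_sub p.2 u₀ u
        rw [norm_sub_rev u₀] at this
        linarith [(hs1 u h).1]
      · rw [← ENNReal.ofReal_mul a0.le]
        refine ENNReal.ofReal_le_ofReal ?_
        have e : g.a j * (32 * (g.th j * g.r j / ‖pl p.1‖) * (3 * g.th j))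
            = 96 * (g.c / ‖pl p.1‖ * (g.th j)⁻¹) := by
          rw [Geo.a]
          field_simp
          ring
        have h6 : 0 ≤ g.c / ‖pl p.1‖ := by positivity
        rw [e, mul_div_assoc]
        nlinarith [mul_le_mul_of_nonneg_left h5 h6, mul_nonneg h6 hW0]
  · have hs1 : ∀ u, EE g t (p.1, u) ≠ 0 → ‖u - u₀‖ ≤ g.gg j := fun u h => by
      rw [hB.ee_tube j t ht1 (p.1, u) hx, if_pos hj] at h
      exact (hB.cold_v j t ht1 (p.1, u) (mem_of_indicator_ne_zero h)).1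
    have g0 : 0 < g.gg j := th0.trans_le th1
    have h6 : 0 ≤ g.c * t := mul_nonneg hc0 ht.1
    have ht0 := ht.1
    by_cases hd : 2 * g.gg j ≤ ‖p.2 - u₀‖
    · refine (farInt g0 (by positivity) hs1 hd d2).trans (ENNReal.ofReal_le_ofReal ?_)
      have h5 := far hs (norm_nonneg _) thK (thK'.trans th1) hd h3 h4
      nlinarith [mul_le_mul_of_nonneg_left h5 h6, mul_nonneg h6 hW0]
    · have h5 := near (norm_nonneg _) (norm_nonneg _) thK (thK'.trans th1) (not_le.1 hd).le g2 h3 h4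
      have h7 : ∀ u, EE g t (p.1, u) ≠ 0 → ‖p.2 - u‖ ≤ 3 * g.gg j := fun u h => by
        have := norm_sub_le_norm_sub_add_norm_sub p.2 u₀ u
        rw [norm_sub_rev u₀] at this
        linarith [hs1 u h]
      have he : ‖(EuclideanSpace.single 0 1 : E)‖ = 1 := by simp
      refine (slab he (b := inner ℝ (EuclideanSpace.single 0 1 : E) p.2) (h := 3 * g.gg j)
        (ρ := 3 * g.gg j) (by positivity) (by positivity)
        (a := ENNReal.ofReal (3 * t * g.r j ^ 4 * g.a j)) ENNReal.ofReal_ne_top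
        (fun u => ?_) fun u h => ⟨?_, h7 u h⟩).trans ?_
      · rw [hB.ee_tube j t ht1 (p.1, u) hx, if_pos hj]
        refine (indicator_le_self' (fun _ _ => zero_le) _).trans (ENNReal.ofReal_le_ofReal ?_)
        refine mul_le_of_le_one_right (by positivity) (Real.exp_le_one_iff.2 ?_)
        exact div_nonpos_of_nonpos_of_nonneg (neg_nonpos.2
          ((sq_nonneg _).trans (hc.ga.gq_uu g.κ (sg j) (p.1, u)).1)) (sq_nonneg _)
      · rw [← inner_sub_right]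
        refine (abs_real_inner_le_norm _ _).trans ?_
        rw [he, one_mul, norm_sub_rev]
        exact h7 u h
      · rw [← ENNReal.ofReal_mul (by positivity)]
        refine ENNReal.ofReal_le_ofReal ?_
        have e : 3 * t * g.r j ^ 4 * g.a j * (32 * (3 * g.gg j) * (3 * g.gg j))
            = 864 * (g.c * t * (g.gg j)⁻¹) := by
          rw [Geo.a, Geo.th, Geo.gg]
          field_simp
          ring
        rw [e]
        nlinarith [mul_le_mul_of_nonneg_left h5 h6, mul_nonneg h6 hW0]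

end

end Vale.Agent.P140
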