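import Vale.Agent.P140.StmC

/-!
Gain in one collision with a beam particle.
-/

namespace Vale.Agent.P140

open MeasureTheory Set Filter Topology
open scoped ENNReal

noncomputable section

namespace SphAux

lemma exists_p (x : ℝ) (hx : 0 < x) : ∃ p : ℝ, 0 < p ∧ p ≤ 1 ∧ 19 / 20 ≤ x ^ p := by
  have h1 : ContinuousAt (fun p : ℝ => x ^ p) 0 := Real.continuousAt_const_rpow hx.ne'
  have h2 : ∀ᶠ p in 𝓝 (0 : ℝ), 19 / 20 < x ^ p :=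
    h1.eventually (lt_mem_nhds (by norm_num))
  have h3 : ∀ᶠ p in 𝓝[>] (0 : ℝ), p ∈ Ioc (0 : ℝ) 1 := Ioc_mem_nhdsGT one_pos
  obtain ⟨p, a, b⟩ := ((h2.filter_mono nhdsWithin_le_nhds).and h3).exists
  exact ⟨p, b.1, b.2, a.le⟩

lemma om_ge {p η D V d r : ℝ} {y : E} (hp : 0 < p) (hd : 0 < d) (hd1 : d ≤ 1) (hr : 0 ≤ r)
    (hq : 19 / 20 ≤ (d / 4) ^ p) (h1 : η ≤ ‖hz y‖) (h2 : ‖y‖ ≤ V) (h3 : d * r / 2 ≤ ‖hz y‖) :
    19 / 20 * min (2 * r) 1 ^ p ≤ om ⟨p, η, D, V⟩ y := by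
  unfold om
  rw [if_pos ⟨h1, h2⟩]
  have hm : 0 ≤ min (2 * r) 1 := le_min (by positivity) zero_le_one
  have a1 : d / 4 * min (2 * r) 1 ≤ min ‖hz y‖ 1 := by
    refine le_min ?_ ?_
    · have := mul_le_mul_of_nonneg_left (min_le_left (2 * r) 1) (show 0 ≤ d / 4 by positivity)
      linarith
    · have := mul_le_mul_of_nonneg_left (min_le_right (2 * r) 1) (show 0 ≤ d / 4 by positivity)
      linarith
  calc 19 / 20 * min (2 * r) 1 ^ p ≤ (d / 4) ^ p * min (2 * r) 1 ^ p :=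
        mul_le_mul_of_nonneg_right hq (Real.rpow_nonneg hm _)
    _ = (d / 4 * min (2 * r) 1) ^ p := (Real.mul_rpow (by positivity) hm).symm
    _ ≤ _ := Real.rpow_le_rpow (by positivity) a1 hp.le

lemma speed {V d : ℝ} {v u y y' : E} (hd : 0 < d) (hV : 6 + 4 / d ≤ V) (hv : ‖v‖ ≤ V)
    (hu : ‖u‖ ≤ 2) (e1 : ‖y - u‖ ^ 2 + ‖y' - u‖ ^ 2 = ‖v - u‖ ^ 2)
    (e2 : ‖y‖ ^ 2 + ‖y'‖ ^ 2 = ‖v‖ ^ 2 + ‖u‖ ^ 2) (h : d * ‖v - u‖ ≤ ‖y' - u‖) : ‖y‖ ≤ V := by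
  by_cases hc : ‖v‖ ≤ V - 4
  · have a1 : ‖y - u‖ ≤ ‖v - u‖ :=
      (sq_le_sq₀ (norm_nonneg _) (norm_nonneg _)).1 (by nlinarith [sq_nonneg ‖y' - u‖])
    have a2 := norm_sub_le v u
    have a3 := norm_le_norm_sub_add y u
    linarith
  · have a1 := norm_le_norm_sub_add v u
    have a2 : 4 / d ≤ ‖v - u‖ := by linarith [not_le.1 hc]
    rw [div_le_iff₀ hd] at a2
    have a3 := norm_sub_le y' u
    have a4 : ‖u‖ ≤ ‖y'‖ := by linarith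
    have a5 : ‖u‖ ^ 2 ≤ ‖y'‖ ^ 2 := pow_le_pow_left₀ (norm_nonneg _) a4 2
    have a6 : ‖y‖ ≤ ‖v‖ := (sq_le_sq₀ (norm_nonneg _) (norm_nonneg _)).1 (by linarith)
    linarith

lemma point (ga : GeoAStmt) {p η V d : ℝ} {v u : E} {ω : S2} (hp : 0 < p) (hd : 0 < d) (hd1 : d ≤ 1)
    (hq : 19 / 20 ≤ (d / 4) ^ p) (hη : 0 < η) (hV : 6 + 4 / d ≤ V) (hv : ‖v‖ ≤ V) (hu : ‖u‖ ≤ 2)
    (hu' : ‖hz u‖ ≤ 2 * η) (hD : 4 / d * η ≤ ‖v - u‖)
    (g1 : d * ‖v - u‖ ≤ ‖hz (vp v u ω - u)‖) (g2 : d * ‖v - u‖ ≤ ‖hz (wp v u ω - u)‖) :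
    ENNReal.ofReal (19 / 10 * min (2 * ‖v - u‖) 1 ^ p) * ENNReal.ofReal |cf v u ω| ≤
      ENNReal.ofReal (kS (4 / d * η) η |cf v u ω| ‖v - u‖) *
        ENNReal.ofReal (om ⟨p, η, 4 / d * η, V⟩ (vp v u ω) + om ⟨p, η, 4 / d * η, V⟩ (wp v u ω)) := by
  have a0 : 4 * η ≤ d * ‖v - u‖ := by
    have := mul_le_mul_of_nonneg_left hD hd.le
    rwa [show d * (4 / d * η) = 4 * η by field_simp] at this
  have b1 := (ga.norm_sq (vp v u ω - u)).2.1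
  have b2 := (ga.norm_sq (wp v u ω - u)).2.1
  have a1 : η ≤ |cf v u ω| := by
    have : ‖wp v u ω - u‖ = |cf v u ω| := by
      rw [wp, add_sub_cancel_left, norm_smul, norm_S2, mul_one, Real.norm_eq_abs]
    linarith
  have e1 := energy_post v u u ω
  have e2 := energy_post v u 0 ω
  simp only [sub_self, norm_zero, sub_zero] at e1 e2
  have s1 : ‖vp v u ω‖ ≤ V := speed hd hV hv hu (by linarith) e2 (g2.trans b2)
  have s2 : ‖wp v u ω‖ ≤ V :=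
    speed (y' := vp v u ω) hd hV hv hu (by linarith) (by linarith) (g1.trans b1)
  have c : ∀ y : E, d * ‖v - u‖ ≤ ‖hz (y - u)‖ → η ≤ ‖hz y‖ ∧ d * ‖v - u‖ / 2 ≤ ‖hz y‖ := by
    intro y hy
    rw [(ga.hz_add y u 0).2.1] at hy
    have := norm_sub_le (hz y) (hz u)
    constructor <;> linarith
  have o1 := om_ge (D := 4 / d * η) hp hd hd1 (norm_nonneg (v - u)) hq (c _ g1).1 s1 (c _ g1).2
  have o2 := om_ge (D := 4 / d * η) hp hd hd1 (norm_nonneg (v - u)) hq (c _ g2).1 s2 (c _ g2).2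
  have k : kS (4 / d * η) η |cf v u ω| ‖v - u‖ = |cf v u ω| := by
    unfold kS; rw [if_pos ⟨hD, a1⟩]
  rw [k, mul_comm]
  exact mul_le_mul_right (ENNReal.ofReal_le_ofReal (by linarith)) _

lemma scale (ga : GeoAStmt) {d : ℝ} {v u : E} {ω : S2} (hz0 : 0 < ‖v - u‖)
    (h : ¬ (‖hz (‖v - u‖⁻¹ • (v - u) - inner ℝ (‖v - u‖⁻¹ • (v - u)) (ω : E) • (ω : E))‖ < d ∨
      |inner ℝ (‖v - u‖⁻¹ • (v - u)) (ω : E)| * ‖hz (ω : E)‖ < d)) :
    d * ‖v - u‖ ≤ ‖hz (vp v u ω - u)‖ ∧ d * ‖v - u‖ ≤ ‖hz (wp v u ω - u)‖ := by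
  rw [not_or, not_lt, not_lt, real_inner_smul_left] at h
  have hi : 0 < ‖v - u‖⁻¹ := inv_pos.2 hz0
  have e1 : ‖v - u‖⁻¹ • (v - u) - (‖v - u‖⁻¹ * inner ℝ (v - u) (ω : E)) • (ω : E) =
      ‖v - u‖⁻¹ • (vp v u ω - u) := by
    rw [mul_smul, ← smul_sub, vp, cf]; congr 1; abel
  have e2 : wp v u ω - u = cf v u ω • (ω : E) := by rw [wp, add_sub_cancel_left]
  rw [e1, (ga.hz_add u _ _).2.2, norm_mul, Complex.norm_real, Real.norm_of_nonneg hi.le, abs_mul,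
    abs_of_pos hi, mul_assoc, ← div_eq_inv_mul, ← div_eq_inv_mul, le_div_iff₀ hz0,
    le_div_iff₀ hz0] at h
  refine ⟨h.1, ?_⟩
  rw [e2, (ga.hz_add u _ _).2.2, norm_mul, Complex.norm_real, Real.norm_eq_abs]
  exact h.2

end SphAux

theorem sphC (hb : Base) (hc : BaseC) (h0 : Sph0Stmt) : SphStmt := by
  have _hb := hb
  obtain ⟨d, hd, hd1, hs⟩ := h0 (3 / 10) (by norm_num)
  obtain ⟨p, hp, hp1, hq⟩ := SphAux.exists_p (d / 4) (by positivity)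
  have h4 : 4 ≤ 4 / d := by rw [le_div_iff₀ hd]; linarith
  refine ⟨p, 4 / d, 6 + 4 / d, hp, hp1, by linarith, by linarith, fun η hη V hV v u hv hu hu' hD => ?_⟩
  have hz0 : 0 < ‖v - u‖ := lt_of_lt_of_le (by positivity) hD
  have hn : ‖‖v - u‖⁻¹ • (v - u)‖ = 1 := norm_smul_inv_norm (norm_pos_iff.1 hz0)
  have hB := hs _ hn
  set B := {ω : S2 | ‖hz (‖v - u‖⁻¹ • (v - u) - inner ℝ (‖v - u‖⁻¹ • (v - u)) (ω : E) • (ω : E))‖ < d
    ∨ |inner ℝ (‖v - u‖⁻¹ • (v - u)) (ω : E)| * ‖hz (ω : E)‖ < d} with hBdef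
  have hzc := hc.me.hz
  have hBm : MeasurableSet B := by
    have c1 : Continuous fun ω : S2 => ‖hz (‖v - u‖⁻¹ • (v - u) -
        inner ℝ (‖v - u‖⁻¹ • (v - u)) (ω : E) • (ω : E))‖ := by fun_prop
    have c2 : Continuous fun ω : S2 =>
        |inner ℝ (‖v - u‖⁻¹ • (v - u)) (ω : E)| * ‖hz (ω : E)‖ := by fun_prop
    exact ((isOpen_lt c1 continuous_const).union (isOpen_lt c2 continuous_const)).measurableSet
  have i1 : ∫⁻ ω in B, ENNReal.ofReal |cf v u ω| ∂sph ≤ ENNReal.ofReal (3 / 10 * ‖v - u‖) := by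
    calc ∫⁻ ω in B, ENNReal.ofReal |cf v u ω| ∂sph ≤ ∫⁻ _ in B, ENNReal.ofReal ‖v - u‖ ∂sph :=
          lintegral_mono fun ω => ENNReal.ofReal_le_ofReal (abs_cf_le v u ω)
      _ = ENNReal.ofReal ‖v - u‖ * sph B := setLIntegral_const _ _
      _ ≤ ENNReal.ofReal ‖v - u‖ * ENNReal.ofReal (3 / 10) := mul_le_mul_right hB _
      _ = _ := by rw [← ENNReal.ofReal_mul hz0.le, mul_comm]
  have i2 : ENNReal.ofReal ((2 * Real.pi - 3 / 10) * ‖v - u‖) ≤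
      ∫⁻ ω in Bᶜ, ENNReal.ofReal |cf v u ω| ∂sph := by
    have e := lintegral_add_compl (μ := sph) (fun ω => ENNReal.ofReal |cf v u ω|) hBm
    rw [hc.alg.sph_cf] at e
    rw [show (2 * Real.pi - 3 / 10) * ‖v - u‖ = 2 * Real.pi * ‖v - u‖ - 3 / 10 * ‖v - u‖ by ring,
      ENNReal.ofReal_sub _ (by positivity), tsub_le_iff_left, ← e]
    exact add_le_add_left i1 _
  have hm : 0 ≤ min (2 * ‖v - u‖) 1 ^ p :=
    Real.rpow_nonneg (le_min (by positivity) zero_le_one) _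
  calc ENNReal.ofReal (9 / 5 * min (2 * ‖v - u‖) 1 ^ p * (2 * Real.pi * ‖v - u‖))
      ≤ ENNReal.ofReal (19 / 10 * min (2 * ‖v - u‖) 1 ^ p) *
          ENNReal.ofReal ((2 * Real.pi - 3 / 10) * ‖v - u‖) := by
        rw [← ENNReal.ofReal_mul (by positivity)]
        refine ENNReal.ofReal_le_ofReal ?_
        have h1 : 0 ≤ min (2 * ‖v - u‖) 1 ^ p * ‖v - u‖ := by positivity
        nlinarith [Real.pi_gt_three]
    _ ≤ ENNReal.ofReal (19 / 10 * min (2 * ‖v - u‖) 1 ^ p) *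
          ∫⁻ ω in Bᶜ, ENNReal.ofReal |cf v u ω| ∂sph := mul_le_mul_right i2 _
    _ = ∫⁻ ω in Bᶜ, ENNReal.ofReal (19 / 10 * min (2 * ‖v - u‖) 1 ^ p) *
          ENNReal.ofReal |cf v u ω| ∂sph :=
        (lintegral_const_mul' _ _ ENNReal.ofReal_ne_top).symm
    _ ≤ _ := by
        refine le_trans (setLIntegral_mono' hBm.compl fun ω hω => ?_) (setLIntegral_le_lintegral _ _)
        have := SphAux.scale hc.ga hz0 hω
        exact SphAux.point hc.ga hp hd hd1 hq hη hV hv hu hu' hD this.1 this.2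

end

end Vale.Agent.P140
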