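import Vale.Agent.P140.StmC

/-! The bad directions of a collision have small measure. -/

namespace Vale.Agent.P140

open MeasureTheory Set Filter Topology
open scoped ENNReal

namespace Sph0Aux

theorem band (ha : ArchStmt) {n : E} (hn : ‖n‖ = 1) (c s : ℝ) :
    sph {ω : S2 | |inner ℝ n (ω : E) - c| < s} ≤ ENNReal.ofReal (4 * Real.pi * s) := by
  have hm : Measurable fun ω : S2 => inner ℝ n (ω : E) :=
    (continuous_const.inner continuous_subtype_val).measurable
  have he : {ω : S2 | |inner ℝ n (ω : E) - c| < s} =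
      (fun ω : S2 => inner ℝ n (ω : E)) ⁻¹' Ioo (c - s) (c + s) := by
    ext ω
    simp only [mem_ofPred_eq, mem_preimage, mem_Ioo, abs_lt]
    constructor <;> rintro ⟨h1, h2⟩ <;> constructor <;> linarith
  have h1 := ha n hn ((Ioo (c - s) (c + s)).indicator 1) (measurable_one.indicator measurableSet_Ioo)
  have h2 : ∀ ω : S2, (Ioo (c - s) (c + s)).indicator (1 : ℝ → ℝ≥0∞) (inner ℝ n (ω : E)) =
      ((fun ω : S2 => inner ℝ n (ω : E)) ⁻¹' Ioo (c - s) (c + s)).indicator 1 ω := fun ω => rfl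
  simp only [h2] at h1
  rw [lintegral_indicator_one (hm measurableSet_Ioo), lintegral_indicator_one measurableSet_Ioo]
    at h1
  rw [he, h1]
  refine (mul_le_mul_right (Measure.restrict_apply_le _ _) _).trans ?_
  rw [Real.volume_Ioo, ← ENNReal.ofReal_mul (by positivity)]
  exact ENNReal.ofReal_le_ofReal (le_of_eq (by ring))

theorem exists_perp (x y : ℝ) : ∃ a b : ℝ, a ^ 2 + b ^ 2 = 1 ∧ a * x + b * y = 0 := by
  by_cases h : x ^ 2 + y ^ 2 = 0
  · have h1 : x = 0 := by nlinarith [sq_nonneg x, sq_nonneg y]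
    exact ⟨1, 0, by norm_num, by simp [h1]⟩
  · have h1 : 0 < x ^ 2 + y ^ 2 := lt_of_le_of_ne (by positivity) (Ne.symm h)
    have h2 := Real.sq_sqrt h1.le
    have h3 := (Real.sqrt_pos.2 h1).ne'
    refine ⟨-y / √(x ^ 2 + y ^ 2), x / √(x ^ 2 + y ^ 2), ?_, by ring⟩
    rw [div_pow, div_pow, h2]
    field_simp
    ring

theorem inner3 (a b c : ℝ) (w : E) :
    inner ℝ (!₂[a, b, c] : E) w = a * w 0 + b * w 1 + c * w 2 := by
  simp [PiLp.inner_apply, Fin.sum_univ_three, mul_comm]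

theorem norm3 (w : E) : ‖w‖ ^ 2 = w 0 ^ 2 + w 1 ^ 2 + w 2 ^ 2 := by
  simp [EuclideanSpace.norm_sq_eq, Fin.sum_univ_three]

theorem norm_hz (w : E) : ‖hz w‖ ^ 2 = w 0 ^ 2 + w 1 ^ 2 := by
  rw [Complex.sq_norm, hz, Complex.normSq_mk]
  ring

theorem unit3 {a b c : ℝ} (h : a ^ 2 + b ^ 2 + c ^ 2 = 1) : ‖(!₂[a, b, c] : E)‖ = 1 := by
  have h1 := norm3 (!₂[a, b, c] : E)
  rw [← sq_eq_sq₀ (norm_nonneg _) zero_le_one, h1]
  simpa using h

theorem split {x y s : ℝ} (hx : 0 ≤ x) (hs : 0 < s) (h : x * y < s ^ 2) : x < s ∨ y < s := by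
  by_contra h1
  push Not at h1
  nlinarith [mul_le_mul h1.1 h1.2 hs.le hx]

end Sph0Aux

open Sph0Aux in
theorem sph0 (hb : Base) (hc : BaseC) : Sph0Stmt := by
  have _ := hc
  intro ε hε
  obtain ⟨s, s0, s1, s2⟩ : ∃ s : ℝ, 0 < s ∧ s ≤ 1 ∧ 16 * Real.pi * s ≤ ε :=
    ⟨min 1 (ε / (16 * Real.pi)), by positivity, min_le_left _ _,
      (le_div_iff₀' (by positivity)).1 (min_le_right _ _)⟩
  refine ⟨s ^ 2, by positivity, pow_le_one₀ s0.le s1, fun z hz1 => ?_⟩
  obtain ⟨a, b, hab, hz0⟩ := exists_perp (z 0) (z 1)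
  have hn : ‖(!₂[a, b, 0] : E)‖ = 1 := unit3 (by simpa using hab)
  have he : ‖(!₂[0, 0, 1] : E)‖ = 1 := unit3 (by norm_num)
  have hsub : {ω : S2 | ‖hz (z - inner ℝ z (ω : E) • (ω : E))‖ < s ^ 2 ∨
      |inner ℝ z (ω : E)| * ‖hz (ω : E)‖ < s ^ 2} ⊆
      ({ω : S2 | |inner ℝ z (ω : E) - 0| < s} ∪
        {ω : S2 | |inner ℝ (!₂[a, b, 0] : E) (ω : E) - 0| < s}) ∪
      ({ω : S2 | |inner ℝ (!₂[0, 0, 1] : E) (ω : E) - 1| < s} ∪
        {ω : S2 | |inner ℝ (!₂[0, 0, 1] : E) (ω : E) - -1| < s}) := by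
    intro ω h
    simp only [mem_union, mem_ofPred_eq, sub_zero, inner3, zero_mul, add_zero, zero_add, one_mul]
    rcases h with h | h
    · left
      refine split (abs_nonneg _) s0 (lt_of_le_of_lt ?_ h)
      rw [← abs_mul]
      refine abs_le_of_sq_le_sq ?_ (norm_nonneg _)
      rw [norm_hz]
      simp only [PiLp.sub_apply, PiLp.smul_apply, smul_eq_mul]
      generalize inner ℝ z (ω : E) = t
      have h1 : t * (a * (ω : E) 0 + b * (ω : E) 1) =
          -(a * (z 0 - t * (ω : E) 0) + b * (z 1 - t * (ω : E) 1)) := by linear_combination hz0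
      rw [h1]
      generalize z 0 - t * (ω : E) 0 = p
      generalize z 1 - t * (ω : E) 1 = q
      nlinarith [sq_nonneg (a * q - b * p)]
    · rcases split (abs_nonneg _) s0 h with h1 | h1
      · exact Or.inl (Or.inl h1)
      · right
        have h2 := norm3 (ω : E)
        rw [norm_eq_of_mem_sphere, ← norm_hz] at h2
        have h3 := pow_lt_pow_left₀ h1 (norm_nonneg _) two_ne_zero
        have h4 := sq_nonneg ‖hz (ω : E)‖
        simp only [abs_lt]
        rcases le_total 0 ((ω : E) 2) with h5 | h5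
        · left
          constructor <;> nlinarith
        · right
          constructor <;> nlinarith
  refine (measure_mono hsub).trans ((measure_union_le _ _).trans ((add_le_add
    ((measure_union_le _ _).trans (add_le_add (band hb.arch hz1 _ _) (band hb.arch hn _ _)))
    ((measure_union_le _ _).trans (add_le_add (band hb.arch he _ _) (band hb.arch he _ _)))).trans
    ?_))
  have h0 : 0 ≤ 4 * Real.pi * s := by positivity
  rw [← ENNReal.ofReal_add h0 h0, ← ENNReal.ofReal_add (by positivity) (by positivity)]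
  exact ENNReal.ofReal_le_ofReal (by linarith)

end Vale.Agent.P140
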