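import Vale.Agent.P140.W1a

/-!
The adjoint weight dominates its own boundary values.
-/

namespace Vale.Agent.P140

open MeasureTheory Set Filter Topology
open scoped ENNReal

namespace W1Aux

lemma num1 : (1 : ℝ) ≤ 81 / 50 * (201 / 200 : ℝ)⁻¹ ^ 18 * (1 - Real.exp (-2)) := by
  have h1 : Real.exp (-2) ≤ 1 / 5 := by
    have h2 : (5 : ℝ) ≤ Real.exp 2 := by
      have := Real.quadratic_le_exp_of_nonneg (x := 2) (by norm_num)
      linarith
    rw [Real.exp_neg, ← one_div]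
    exact one_div_le_one_div_of_le (by norm_num) h2
  have h3 : (4 / 5 : ℝ) ≤ 1 - Real.exp (-2) := by linarith
  calc (1 : ℝ) ≤ 81 / 50 * (201 / 200 : ℝ)⁻¹ ^ 18 * (4 / 5) := by norm_num
    _ ≤ _ := by gcongr

lemma depth (c r P κ l : ℝ) (hc : c = 10 ^ 8) (hr : 0 < r) (hκ : 0 < κ) (hP : 1200 * κ ≤ P)
    (hl : r / 400 ≤ l) :
    2 ≤ Real.pi * c * (P / 2) / (8 * (201 / 200 * r)) * (l / 20000 / (P + κ)) := by
  have hP0 : 0 < P := by linarith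
  have hpi := Real.pi_gt_three
  have h1 : r / 400 / 20000 / (1201 / 1200 * P) ≤ l / 20000 / (P + κ) := by
    have : 0 ≤ l := le_trans (by positivity) hl
    gcongr
    linarith
  have h2 : 3 * c * (P / 2) / (8 * (201 / 200 * r)) ≤
      Real.pi * c * (P / 2) / (8 * (201 / 200 * r)) := by
    have : 0 < c := by rw [hc]; positivity
    gcongr
  calc (2 : ℝ) ≤ 3 * c * (P / 2) / (8 * (201 / 200 * r)) * (r / 400 / 20000 / (1201 / 1200 * P)) := by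
        rw [hc]; field_simp; norm_num
    _ ≤ _ := mul_le_mul h2 h1 (by positivity) (le_trans (by rw [hc]; positivity) h2)

/-- Times at which the flight is in a tube with index in J. -/
def GS (g : Geo) (J : Set ℕ) (t : ℝ) (p : Om) : Set ℝ :=
  {s | ∃ j, (j ∈ J ∧ j ≤ g.K) ∧ (fl (s - t) p).1 ∈ Tube g j s}

lemma meas_GS (hc : BaseC) (g : Geo) (J : Set ℕ) (t : ℝ) (p : Om) :
    MeasurableSet (GS g J t p) := by
  have e : GS g J t p = ⋃ j ∈ {j | j ∈ J ∧ j ≤ g.K}, (fun s : ℝ => (s, (fl (s - t) p).1)) ⁻¹'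
      {y : ℝ × T3 | y.2 ∈ Tube g j y.1} := by
    ext s; simp [GS]
  rw [e]
  refine MeasurableSet.biUnion (Set.to_countable _) fun j _ => ?_
  have h1 : Continuous fun s : ℝ => fl (s - t) p :=
    continuous_fl.comp (f := fun s : ℝ => (s - t, p)) (by fun_prop)
  have h2 : Continuous fun s : ℝ => (s, (fl (s - t) p).1) :=
    continuous_id.prodMk h1.fst
  exact h2.measurable (hc.me.tube g j).1

/-- The window of the flight. -/
lemma window (hc : BaseC) (hL : LineStmt) (g : Geo) (η t : ℝ) (p : Om) (hg : g.Ok)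
    (hη1 : η ≤ 1) (hκ : 1200 * g.κ = η) (ht : t ∈ Icc (0 : ℝ) g.R)
    (hlab : g.r (g.K + 1) ≤ g.lab t p.1) (hX : ‖pl p.1‖ ≤ g.R / 2) (hP : η ≤ ‖hz p.2‖) (i : ℕ) :
    0 < ‖pl p.1‖ ∧ ∃ b, t ≤ b ∧ b ≤ 1 ∧ b - t ≤ 3 * ‖pl p.1‖ / η ∧
      (∀ s ∈ Icc t b, ‖pl (fl (s - t) p).1‖ ≤ 201 / 200 * ‖pl p.1‖ ∧
        (InT g s (fl (s - t) p).1 → ‖pl p.1‖ / 2 ≤ ‖pl (fl (s - t) p).1‖)) ∧
      ∃ j ≤ g.K, sg j = sg i ∧ ∃ S : Set ℝ, MeasurableSet S ∧ S ⊆ Icc t b ∧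
        (∀ s ∈ S, (fl (s - t) p).1 ∈ Core g j s) ∧ ∃ l, ‖pl p.1‖ / 400 ≤ l ∧
          ENNReal.ofReal (l / 20000 / (‖hz p.2‖ + g.κ)) ≤ volume S := by
  have hB := hc.gb g hg
  have hκ0 := hg.κ0
  have hR0 := hg.R0
  have hR1 := hg.R1
  have hR4 := hB.R_le
  have hη0 : 0 < η := by linarith
  have hr0 := (hB.r_pos (g.K + 1)).1
  have hlab' : g.r (g.K + 1) ≤ ‖pl p.1‖ - g.κ * t := hlab
  have hκt : 0 ≤ g.κ * t := mul_nonneg hκ0.le ht.1
  have hX0 : 0 < ‖pl p.1‖ := by linarith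
  have hP0 : 0 < ‖hz p.2‖ := by linarith
  refine ⟨hX0, ?_⟩
  obtain ⟨b, b1, b2, b3, s₁, hs₁, s₂, hs₂, e1, e2⟩ := hL.window (pl p.1) (hz p.2) g.κ t
    (g.r (g.K + 1)) hκ0 (norm_pos_iff.1 hX0) (by linarith) hlab'
  have b4 : 3 * ‖pl p.1‖ / ‖hz p.2‖ ≤ 3 * ‖pl p.1‖ / η :=
    div_le_div_of_nonneg_left (by positivity) hη0 hP
  have b5 : 3 * ‖pl p.1‖ / η ≤ 1 / 2 := by
    rw [div_le_iff₀ hη0]
    have : g.κ ^ 2 ≤ g.κ / 100 := by nlinarith [hg.κ1]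
    linarith
  have hb1 : b ≤ 1 := by linarith [ht.2]
  have hlift : ∀ s ∈ Icc t b, pl (fl (s - t) p).1 = pl p.1 + ((s - t : ℝ) : ℂ) * hz p.2 := by
    intro s hs
    apply hc.ga.lift p (s - t)
    have a1 : |s - t| ≤ 3 * ‖pl p.1‖ / ‖hz p.2‖ := by
      rw [abs_of_nonneg (by linarith [hs.1])]; linarith [hs.2]
    have a2 : |s - t| * ‖hz p.2‖ ≤ 3 * ‖pl p.1‖ := by rwa [le_div_iff₀ hP0] at a1
    linarith
  have hI : ∀ s ∈ Icc t b, s ∈ Icc (0 : ℝ) 1 := fun s hs =>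
    ⟨le_trans ht.1 hs.1, hs.2.trans hb1⟩
  have hκs : 0 ≤ g.κ * s₂ := mul_nonneg hκ0.le (hI s₂ hs₂).1
  have e3 := (b3 s₂ hs₂).1
  obtain ⟨j, hj, hsg, S, hSm, hSsub, hScore, hSvol⟩ :=
    core_time hL g hg hB (pl p.1) (hz p.2) t t b s₁ s₂ _ _ i hs₁ hs₂ le_rfl le_rfl e1
      (by linarith) (by linarith) (by linarith)
  refine ⟨b, b1, hb1, by linarith, fun s hs => ?_, j, hj, hsg, S, hSm, hSsub, fun s hs => ?_,
    _, ?_, hSvol⟩
  · rw [hlift s hs]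
    refine ⟨(b3 s hs).1, fun hin => (b3 s hs).2 ?_⟩
    have := (hB.inT s (hI s hs) _ hin).2.2.2
    rw [← hlift s hs]
    exact this
  · change |‖pl (fl (s - t) p).1‖ - g.κ * s - g.mid j| ≤ 1 / 5 * g.w j
    rw [hlift s (hSsub hs)]; exact hScore s hs
  · linarith

/-- The lower bound along one flight, for a set J of good rings. -/
lemma flight (hc : BaseC) (hL : LineStmt) (hF : FreqStmt) (g : Geo) (q : Par) (V₀ : ℝ)
    (hg : g.Ok) (hp : 0 ≤ q.p) (hη1 : q.η ≤ 1) (hκ : 1200 * g.κ = q.η) (hc8 : g.c = 10 ^ 8)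
    (hColl : Coll q.p q.η q.D V₀) (hV : V₀ ≤ q.V) (t : ℝ) (p : Om) (ht : t ∈ Icc (0 : ℝ) g.R)
    (hlab : g.r (g.K + 1) ≤ g.lab t p.1) (hcut : ‖pl p.1‖ ≤ g.R / 4 + q.V * t)
    (hX : ‖pl p.1‖ ≤ g.R / 2) (hP : q.η ≤ ‖hz p.2‖) (hv : ‖p.2‖ ≤ q.V)
    (J : Set ℕ) (i : ℕ) (m a M : ℝ) (hi : ∀ j, sg j = sg i → j ∈ J) (hm0 : 0 ≤ m)
    (hm : ∀ j ∈ J, ∀ x, m + g.th j ≤ ‖p.2 - uu g.κ (sg j) x‖) (hD : q.D ≤ m) (ha0 : 0 ≤ a)
    (ha : a ≤ min (2 * m) 1) (hM0 : 0 ≤ M)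
    (hM : ∀ j, j ∉ J → ∀ x, ‖p.2 - uu g.κ (sg j) x‖ + g.th j ≤ M) :
    ENNReal.ofReal (81 / 50 * (201 / 200 * ‖pl p.1‖)⁻¹ ^ 18 * a ^ q.p) *
      ENNReal.ofReal (Real.exp (-(96 * Real.pi * g.c * M / q.η)) * (1 - Real.exp (-2))) ≤
      WW g q t p := by
  have hB := hc.gb g hg
  have hκ0 := hg.κ0
  have hc1 := hg.c1
  have hpi := Real.pi_pos
  have hη0 : 0 < q.η := by linarith
  have hκη : g.κ ≤ q.η := by linarith
  obtain ⟨hX0, b, b1, hb1, b2, hw, j, hj, hsg, S, hSm, hSsub, hScore, l, hl, hSvol⟩ :=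
    window hc hL g q.η t p hg hη1 hκ ht hlab hX hP i
  have hI : ∀ s ∈ Icc t b, s ∈ Icc (0 : ℝ) 1 := fun s hs =>
    ⟨le_trans ht.1 hs.1, hs.2.trans hb1⟩
  have hth : ∀ j, g.th j ≤ g.κ := fun j => by
    have h1 := th_le g hg hB j
    have h2 : g.κ ^ 2 ≤ g.κ := by nlinarith [hg.κ1]
    linarith [hg.R1]
  have hn : Measurable fun s => Nu (BB g) s (fl (s - t) p) :=
    (hc.alg.jm_flight _ (hc.alg.jm_Nu _ (hc.me.jm g).1) t p).1
  have hhz := (hc.ga.norm_sq p.2).2.1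
  refine flight_lb hc.en t b 2 (96 * Real.pi * g.c * M / q.η) _
    (fun s => Nu (BB g) s (fl (s - t) p)) (fun s => nuS g q s (fl (s - t) p)) (GS g J t p) b1 hb1
    (by norm_num) (by positivity) ENNReal.ofReal_ne_top hn (meas_GS hc g J t p) ?_ ?_ ?_ ?_
  · rintro s hs ⟨j', ⟨hj1, hj2⟩, ht'⟩
    have hs' : s ∈ Icc t b := ⟨hs.1.le, hs.2⟩
    refine nus_low hF g q V₀ hg hB hκη hp hColl hV s (hI s hs') _ j' hj2 ht' m _ a hm0
      (hm j' hj1 _) (hw s hs').1 hv hD ?_ ha0 ha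
    have hlip := hc.ga.lip p (s - t)
    have a2 : |s - t| * ‖hz p.2‖ ≤ (s - t) * q.V := by
      rw [abs_of_nonneg (by linarith [hs.1])]
      exact mul_le_mul_of_nonneg_left (hhz.trans hv) (by linarith [hs.1])
    linarith
  · refine (le_const_mul t b (16 * Real.pi * g.c * M / (‖pl p.1‖ / 2)) (by positivity) _
      fun s hs => ?_).trans (ENNReal.ofReal_le_ofReal ?_)
    · have hs' : s ∈ Icc t b := ⟨hs.1.le, hs.2⟩
      by_cases hsG : s ∈ GS g J t p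
      · rw [indicator_of_notMem (by simpa using hsG)]; exact zero_le
      · rw [indicator_of_mem (by simpa using hsG)]
        refine nu_up hF g q V₀ hg hκη hp hColl hV s (hI s hs') _ _ _ hM0 (by positivity) ?_
        intro j' hj' ht'
        exact ⟨hM j' (fun hJ => hsG ⟨j', ⟨hJ, hj'⟩, ht'⟩) _, (hw s hs').2 ⟨j', hj', ht'⟩⟩
    · calc 16 * Real.pi * g.c * M / (‖pl p.1‖ / 2) * (b - t)
          ≤ 16 * Real.pi * g.c * M / (‖pl p.1‖ / 2) * (3 * ‖pl p.1‖ / q.η) := by gcongr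
        _ = 96 * Real.pi * g.c * M / q.η := by field_simp; ring
  · refine ne_top_of_le_ne_top ENNReal.ofReal_ne_top
      (le_const_mul t b (16 * Real.pi * g.c * (‖p.2‖ + 3) / (‖pl p.1‖ / 2)) (by positivity) _
        fun s hs => ?_)
    have hs' : s ∈ Icc t b := ⟨hs.1.le, hs.2⟩
    refine nu_up hF g q V₀ hg hκη hp hColl hV s (hI s hs') _ _ _ (by positivity) (by positivity) ?_
    intro j' hj' ht'
    have d := (dist_uu hc.ga g.κ (sg j') hκ0.le (fl (s - t) p).1 p.2).2.2.2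
    rw [abs_sg] at d
    exact ⟨by rw [fl_snd]; linarith [hth j', hg.κ1], (hw s hs').2 ⟨j', hj', ht'⟩⟩
  · have hP0 : 0 < ‖hz p.2‖ := by linarith
    have hk : (0 : ℝ) ≤ Real.pi * g.c * (‖hz p.2‖ / 2) / (8 * (201 / 200 * ‖pl p.1‖)) := by
      positivity
    refine le_trans ?_ (const_mul_le t b S hSm hSsub (ENNReal.ofReal
      (Real.pi * g.c * (‖hz p.2‖ / 2) / (8 * (201 / 200 * ‖pl p.1‖)))) _ fun s hs => ?_)
    · refine le_trans ?_ (mul_le_mul' le_rfl hSvol)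
      rw [← ENNReal.ofReal_mul hk]
      exact ENNReal.ofReal_le_ofReal (depth g.c _ _ g.κ l hc8 hX0 hκ0 (by linarith) hl)
    · have hs' := hSsub hs
      have htube := hB.core j s (hI s hs').1 (hScore s hs)
      have hsG : s ∈ GS g J t p := ⟨j, ⟨hi j hsg, hj⟩, htube⟩
      rw [indicator_of_mem hsG]
      refine nu_low hF g q V₀ hg hB hκη hp hColl hV s (hI s hs') _ j hj (hScore s hs) _ _
        (by positivity) ?_ (hw s hs').1
      have d := (dist_uu hc.ga g.κ (sg j) hκ0.le (fl (s - t) p).1 p.2).1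
      rw [fl_snd]; linarith [hth j]

lemma fin_le (r a o B p : ℝ) (hr : 0 < r) (ha : 0 ≤ a) (ho : o ≤ a ^ p * Real.exp (-B)) :
    ENNReal.ofReal (o * r⁻¹ ^ 18) ≤ ENNReal.ofReal (81 / 50 * (201 / 200 * r)⁻¹ ^ 18 * a ^ p) *
      ENNReal.ofReal (Real.exp (-B) * (1 - Real.exp (-2))) := by
  have h0 : 0 ≤ a ^ p := Real.rpow_nonneg ha _
  rw [← ENNReal.ofReal_mul (by positivity)]
  apply ENNReal.ofReal_le_ofReal
  have h1 : 0 ≤ a ^ p * Real.exp (-B) * r⁻¹ ^ 18 := by positivity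
  calc o * r⁻¹ ^ 18 ≤ a ^ p * Real.exp (-B) * r⁻¹ ^ 18 * 1 := by
        rw [mul_one]; gcongr
    _ ≤ a ^ p * Real.exp (-B) * r⁻¹ ^ 18 *
        (81 / 50 * (201 / 200 : ℝ)⁻¹ ^ 18 * (1 - Real.exp (-2))) :=
        mul_le_mul_of_nonneg_left num1 h1
    _ = _ := by rw [mul_inv, mul_pow]; ring

lemma main (hc : BaseC) (hL : LineStmt) (hF : FreqStmt) (g : Geo) (q : Par) (V₀ D₀ : ℝ)
    (hg : g.Ok) (hp : 0 ≤ q.p) (hκ : 1200 * g.κ = q.η) (hc8 : g.c = 10 ^ 8)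
    (hD : q.D = D₀ * q.η) (hD1 : 1 ≤ D₀) (hD4 : q.D ≤ 1 / 4)
    (hsm : (2 * q.D) ^ q.p ≤ Real.exp (-(480 * Real.pi * g.c * D₀)))
    (hColl : Coll q.p q.η q.D V₀) (hV : V₀ ≤ q.V) : W1P g q := by
  intro t ht p hlab hcut hX
  have hB := hc.gb g hg
  have hκ0 := hg.κ0
  have hη0 : 0 < q.η := by linarith
  have hηD : q.η ≤ q.D := by rw [hD]; nlinarith
  have hth : ∀ j, g.th j ≤ g.κ := fun j => by
    have h1 := th_le g hg hB j
    have h2 : g.κ ^ 2 ≤ g.κ := by nlinarith [hg.κ1]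
    linarith [hg.R1]
  by_cases hom : q.η ≤ ‖hz p.2‖ ∧ ‖p.2‖ ≤ q.V
  swap
  · unfold om
    rw [if_neg hom]; simp
  obtain ⟨hP, hv⟩ := hom
  have hX0 : 0 < ‖pl p.1‖ := by
    have h1 : g.r (g.K + 1) ≤ ‖pl p.1‖ - g.κ * t := hlab
    have h2 : 0 ≤ g.κ * t := mul_nonneg hκ0.le ht.1
    linarith [(hB.r_pos (g.K + 1)).1]
  have hom : om q p.2 = min ‖hz p.2‖ 1 ^ q.p := by
    unfold om
    rw [if_pos ⟨hP, hv⟩]
  have hmin0 : 0 ≤ min ‖hz p.2‖ 1 := le_min (norm_nonneg _) zero_le_one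
  rw [hom]
  by_cases hcase : ‖hz p.2‖ < 2 * q.D ∧ ∃ i, |p.2 2 - sg i| < 2 * q.D
  · obtain ⟨h1, i, h2⟩ := hcase
    have hsucc : sg (i + 1) = -sg i := by simp [sg, pow_succ]
    refine le_trans (fin_le _ 1 _ (96 * Real.pi * g.c * (5 * q.D) / q.η) q.p hX0 zero_le_one ?_)
      (flight hc hL hF g q V₀ hg hp (by linarith) hκ hc8 hColl hV t p ht hlab hcut hX hP hv
        {j | sg j = sg (i + 1)} (i + 1) 1 1 (5 * q.D) (fun j hj => hj) zero_le_one ?_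
        (by linarith) zero_le_one (by norm_num) (by linarith) ?_)
    · have e : 96 * Real.pi * g.c * (5 * q.D) / q.η = 480 * Real.pi * g.c * D₀ := by
        rw [hD]; field_simp; norm_num
      rw [e, Real.one_rpow, one_mul]
      exact (Real.rpow_le_rpow hmin0 ((min_le_left _ _).trans h1.le) hp).trans hsm
    · intro j hj x
      have hj' : sg j = -sg i := by rw [← hsucc]; exact hj
      have d := (dist_uu hc.ga g.κ (sg j) hκ0.le x p.2).2.1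
      refine le_trans ?_ d
      rw [hj']
      have t1 := hth j
      have t2 := hg.κ1
      obtain ⟨a1, a2⟩ := abs_lt.1 h2
      rcases sg_cases i with h | h <;> rw [h] at a1 a2 ⊢
      · exact le_trans (by linarith) (le_abs_self _)
      · exact le_trans (by linarith) (neg_le_abs _)
    · intro j hj x
      have hj' : sg j = sg i := by
        have hj2 : sg j ≠ -sg i := by rw [← hsucc]; exact hj
        rcases sg_cases i with h | h <;> rcases sg_cases j with h' | h' <;>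
          simp only [h, h'] at hj2 ⊢ <;> simp at hj2
      have d := (dist_uu hc.ga g.κ (sg j) hκ0.le x p.2).2.2.1
      rw [← hj'] at h2
      linarith [hth j]
  · refine le_trans (fin_le _ (min ‖hz p.2‖ 1) _ (96 * Real.pi * g.c * 0 / q.η) q.p hX0 hmin0 ?_)
      (flight hc hL hF g q V₀ hg hp (by linarith) hκ hc8 hColl hV t p ht hlab hcut hX hP hv
        univ 0 (max q.D (‖hz p.2‖ / 2)) (min ‖hz p.2‖ 1) 0 (fun j _ => mem_univ j)
        (le_max_of_le_right (by positivity)) ?_ (le_max_left _ _) hmin0 ?_ le_rfl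
        (fun j hj => absurd (mem_univ j) hj))
    · simp
    · intro j _ x
      obtain ⟨d1, d2, -⟩ := dist_uu hc.ga g.κ (sg j) hκ0.le x p.2
      have t1 := hth j
      rcases le_total q.D (‖hz p.2‖ / 2) with h | h
      · rw [max_eq_right h]; linarith
      · rw [max_eq_left h]
        by_cases h' : ‖hz p.2‖ < 2 * q.D
        · have : 2 * q.D ≤ |p.2 2 - sg j| := not_lt.1 fun h'' => hcase ⟨h', j, h''⟩
          linarith
        · linarith [not_lt.1 h']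
    · refine min_le_min ?_ le_rfl
      linarith [le_max_right q.D (‖hz p.2‖ / 2)]

lemma exists_eta (p D₀ B : ℝ) (hp : 0 < p) (hD : 1 ≤ D₀) :
    ∃ η : ℝ, 0 < η ∧ D₀ * η ≤ 1 / 4 ∧ (2 * (D₀ * η)) ^ p ≤ Real.exp (-B) := by
  refine ⟨min (1 / 4) (Real.exp (-B / p) / 2) / D₀, by positivity, ?_, ?_⟩
  · rw [mul_div_cancel₀ _ (by linarith)]; exact min_le_left _ _
  · rw [mul_div_cancel₀ _ (by linarith)]
    have h1 : 2 * min (1 / 4) (Real.exp (-B / p) / 2) ≤ Real.exp (-B / p) := by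
      linarith [min_le_right (1 / 4) (Real.exp (-B / p) / 2)]
    refine (Real.rpow_le_rpow (by positivity) h1 hp.le).trans (le_of_eq ?_)
    rw [← Real.exp_mul, div_mul_cancel₀ _ hp.ne']

end W1Aux

theorem w1C (hb : Base) (hc : BaseC) (hS : SphStmt) (hL : LineStmt) (hF : FreqStmt) : W1Stmt := by
  obtain ⟨p, D₀, V₀, hp0, hp1, hD1, hV2, hColl⟩ := hS
  obtain ⟨η, hη0, hη1, hη2⟩ := W1Aux.exists_eta p D₀ (480 * Real.pi * 10 ^ 8 * D₀) hp0 hD1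
  have hη4 : η ≤ 1 / 4 := by nlinarith
  refine ⟨p, η, D₀ * η, 10 ^ 8, η / 1200, V₀, hp0, hp1, hη0, hη4, by positivity, hη1, by norm_num,
    by positivity, by linarith, by linarith, hV2, hColl η hη0, fun V hV => ?_⟩
  have hev : ∀ᶠ R in 𝓝[>] (0 : ℝ), R ∈ Ioc 0 ((η / 1200) ^ 2) := Ioc_mem_nhdsGT (by positivity)
  filter_upwards [hev] with R hR K
  exact W1Aux.main hc hL hF ⟨10 ^ 8, η / 1200, R, K⟩ ⟨p, η, D₀ * η, V⟩ V₀ D₀
    ⟨by norm_num, by positivity, by change η / 1200 ≤ 1 / 100; linarith, hR.1, hR.2⟩ hp0.le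
    (by change 1200 * (η / 1200) = η; ring) rfl rfl hD1 hη1 hη2 (hColl η hη0) hV

end Vale.Agent.P140
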