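import Vale.Agent.P140.W1a

/-!
Lower bound for the adjoint weight on the Harnack sets.
-/

namespace Vale.Agent.P140

open MeasureTheory Set Filter Topology
open scoped ENNReal

namespace W2Aux

open W1Aux

/-- The labels along the flight sweep a definite range. -/
lemma sweep (X w : ℂ) (κ η t T m R : ℝ) (hκ0 : 0 < κ) (hκ1 : κ ≤ 1) (hη0 : 0 < η) (hη1 : η ≤ 1)
    (ht : 0 ≤ t) (htT : t ≤ T) (hT : T ≤ η * R / 4) (hv : η ≤ |‖w‖ - κ|)
    (hl : η ^ 4 * T < ‖X‖ - κ * t) (hX : ‖X‖ ≤ T / η) (hm : 2 * m ≤ η ^ 4 * T) (hm0 : 0 < m) :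
    ∃ s₁ ∈ Icc t (t + 4 * T / η ^ 2), ∃ s₂ ∈ Icc t (t + 4 * T / η ^ 2), ∃ l₁ l₂ : ℝ,
      ‖X + ((s₁ - t : ℝ) : ℂ) * w‖ - κ * s₁ ≤ l₁ ∧ l₂ ≤ ‖X + ((s₂ - t : ℝ) : ℂ) * w‖ - κ * s₂ ∧
      m ≤ l₁ ∧ l₂ ≤ R ∧ l₂ / 1000 ≤ l₂ - l₁ ∧ η ^ 4 * T ≤ l₂ := by
  have hT0 : 0 ≤ T := le_trans ht htT
  have hκt : 0 ≤ κ * t := by positivity
  have hκT : κ * t ≤ T := by nlinarith
  have hTη : T ≤ T / η := by rw [le_div_iff₀ hη0]; nlinarith
  have hR4 : T / η ≤ R / 4 := by rw [div_le_iff₀ hη0]; linarith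
  have hl0 : 0 < ‖X‖ - κ * t := by linarith
  have h4 : 0 ≤ 4 * T / η ^ 2 := by positivity
  have hself : ‖X + ((t - t : ℝ) : ℂ) * w‖ = ‖X‖ := by simp
  rcases le_total ‖w‖ κ with hw | hw
  · rw [abs_of_nonpos (by linarith)] at hv
    set δ := (‖X‖ - κ * t) / (2 * η) with hδ
    have hδ0 : 0 ≤ δ := by positivity
    have hδη : δ * η = (‖X‖ - κ * t) / 2 := by rw [hδ]; field_simp
    have hδ1 : δ ≤ 4 * T / η ^ 2 := by
      have e : 4 * T / η ^ 2 = (8 * (T / η)) / (2 * η) := by field_simp; ring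
      rw [e, hδ]
      apply div_le_div_of_nonneg_right _ (by positivity)
      have : 0 ≤ T / η := by positivity
      linarith
    refine ⟨t + δ, ⟨by linarith, by linarith⟩, t, ⟨le_rfl, by linarith⟩, (‖X‖ - κ * t) / 2,
      ‖X‖ - κ * t, ?_, by rw [hself], by linarith, by linarith, by linarith, hl.le⟩
    have n1 : ‖X + ((t + δ - t : ℝ) : ℂ) * w‖ ≤ ‖X‖ + δ * ‖w‖ := by
      refine (norm_add_le _ _).trans ?_
      rw [norm_mul, Complex.norm_real, Real.norm_eq_abs, add_sub_cancel_left, abs_of_nonneg hδ0]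
    have n2 : δ * ‖w‖ ≤ δ * (κ - η) := mul_le_mul_of_nonneg_left (by linarith) hδ0
    nlinarith
  · rw [abs_of_nonneg (by linarith)] at hv
    set δ := 4 * T / η ^ 2 with hδ
    have hδη : δ * η = 4 * (T / η) := by rw [hδ]; field_simp
    refine ⟨t, ⟨le_rfl, by linarith⟩, t + δ, ⟨by linarith, le_rfl⟩, ‖X‖ - κ * t,
      2 * (‖X‖ - κ * t), by rw [hself], ?_, by linarith, by linarith, by linarith, by linarith⟩
    have n1 : δ * ‖w‖ - ‖X‖ ≤ ‖X + ((t + δ - t : ℝ) : ℂ) * w‖ := by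
      have := norm_sub_norm_le (((t + δ - t : ℝ) : ℂ) * w) (-X)
      rw [norm_mul, Complex.norm_real, Real.norm_eq_abs, add_sub_cancel_left, abs_of_nonneg h4,
        norm_neg, sub_neg_eq_add, add_comm _ X] at this
      rw [add_sub_cancel_left]
      exact this
    have n2 : δ * (κ + η) ≤ δ * ‖w‖ := mul_le_mul_of_nonneg_left (by linarith) h4
    nlinarith

/-- The constant. -/
noncomputable def c2 (c κ η : ℝ) : ℝ :=
  Real.exp (-(16 * Real.pi * c * (1 / η + 3) / κ * (4 / η ^ 2))) *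
    (81 / 50 * (η ^ 3 / 5) ^ 18 * (Real.pi * c * η ^ 3 / 80)) * (η ^ 5 / 40000)

/-- Elementary consequences of the hypotheses. -/
lemma sizes (η t T R P x : ℝ) (hη0 : 0 < η) (hη1 : η ≤ 1) (htT : t ≤ T) (hT0 : 0 < T)
    (hT1 : T ≤ η * R / 4) (hR : R ≤ η ^ 2 / 4) (hP0 : 0 ≤ P) (hP : P ≤ 1 / η) (hx : x ≤ T / η) :
    t + 4 * T / η ^ 2 ≤ 1 ∧ 5 * T / η ^ 3 < 1 / 2 ∧ x ≤ R / 4 ∧
      ∀ s ∈ Icc t (t + 4 * T / η ^ 2), x + |s - t| * P ≤ 5 * T / η ^ 3 := by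
  have h4 : 0 ≤ 4 * T / η ^ 2 := by positivity
  have hTη3 : T ≤ η ^ 3 / 16 := by
    have : η * R / 4 ≤ η * (η ^ 2 / 4) / 4 := by gcongr
    linarith
  refine ⟨?_, ?_, ?_, ?_⟩
  · have h1 : 4 * T / η ^ 2 ≤ η / 4 := by
      rw [div_le_iff₀ (by positivity)]; nlinarith
    have h2 : η ^ 3 ≤ 1 := pow_le_one₀ hη0.le hη1
    linarith
  · rw [div_lt_iff₀ (by positivity)]
    have : 0 < η ^ 3 := by positivity
    linarith
  · have a1 : T / η ≤ R / 4 := by rw [div_le_iff₀ hη0]; linarith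
    linarith
  · intro s hs
    have a1 : |s - t| ≤ 4 * T / η ^ 2 := by
      rw [abs_of_nonneg (by linarith [hs.1])]; linarith [hs.2]
    have a2 : |s - t| * P ≤ 4 * T / η ^ 2 * (1 / η) := mul_le_mul a1 hP hP0 h4
    have a3 : T / η ≤ T / η ^ 3 := by
      apply div_le_div_of_nonneg_left hT0.le (by positivity)
      have : η ^ 2 ≤ 1 := pow_le_one₀ hη0.le hη1
      nlinarith
    have a4 : 4 * T / η ^ 2 * (1 / η) = 4 * (T / η ^ 3) := by field_simp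
    have a5 : 5 * T / η ^ 3 = 5 * (T / η ^ 3) := by ring
    linarith

lemma two_r_le (g : Geo) (hg : g.Ok) (hB : GeoB g) (η T : ℝ) (hη0 : 0 < η)
    (hT2 : 2 / η ^ 4 * g.te 0 ≤ T) : 2 * g.r (g.K + 1) ≤ η ^ 4 * T := by
  have hr0 := (hB.r_pos (g.K + 1)).1
  have e : g.te 0 = g.r (g.K + 1) / g.κ := by simp [Geo.te]
  have h1 : g.r (g.K + 1) ≤ g.te 0 := by
    rw [e, le_div_iff₀ hg.κ0]; nlinarith [hg.κ1]
  have h2 : 2 * g.te 0 ≤ η ^ 4 * T := by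
    have h3 : η ^ 4 * (2 / η ^ 4 * g.te 0) = 2 * g.te 0 := by field_simp
    rw [← h3]
    exact mul_le_mul_of_nonneg_left hT2 (by positivity)
  linarith

lemma const_eq (c κ η T : ℝ) (hη0 : 0 < η) (hT0 : 0 < T) :
    c2 c κ η * T⁻¹ ^ 18 = Real.exp (-(16 * Real.pi * c * (1 / η + 3) / κ * (4 / η ^ 2))) *
      (81 / 50 * (5 * T / η ^ 3)⁻¹ ^ 18 * (Real.pi * c * (1 / 2) / (8 * (5 * T / η ^ 3)))) *
      (η ^ 5 * T / 40000) := by
  rw [c2]; field_simp; ring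

lemma vol_le (η T l P κ : ℝ) (hη0 : 0 < η) (hη1 : η ≤ 1) (hT0 : 0 < T) (hl : η ^ 4 * T ≤ l)
    (hP0 : 0 ≤ P) (hP : P ≤ 1 / η) (hκ0 : 0 < κ) (hκ1 : κ ≤ 1) :
    η ^ 5 * T / 40000 ≤ l / 20000 / (P + κ) := by
  have hη' : 1 ≤ 1 / η := by rw [le_div_iff₀ hη0]; linarith
  have a0 : 0 < P + κ := by positivity
  have a1 : P + κ ≤ 2 / η := by
    have : 2 / η = 1 / η + 1 / η := by ring
    linarith
  have a2 : 0 ≤ l := le_trans (by positivity) hl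
  calc η ^ 5 * T / 40000 = η ^ 4 * T / 20000 / (2 / η) := by field_simp; norm_num
    _ ≤ l / 20000 / (P + κ) := by gcongr

lemma main (hc : BaseC) (hL : LineStmt) (hF : FreqStmt) (g : Geo) (q : Par) (V₀ η : ℝ)
    (hg : g.Ok) (hp : 0 ≤ q.p) (hD : q.D ≤ 1 / 4) (hκη : g.κ ≤ q.η)
    (hColl : Coll q.p q.η q.D V₀) (hV : V₀ ≤ q.V) (hη0 : 0 < η) (hη1 : η ≤ 1)
    (hηV : 1 / η ≤ q.V) (hR : g.R ≤ η ^ 2 / 4) : W2P g q η (c2 g.c g.κ η) := by
  intro t ht hT1 hT2 p hpK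
  obtain ⟨⟨hv1, hv2⟩, hl, hX⟩ := hpK
  have hB := hc.gb g hg
  obtain ⟨te0, -, te2⟩ := hB.te
  have hκ0 := hg.κ0
  have hκ1 := hg.κ1
  have hc1 := hg.c1
  have hpi := Real.pi_pos
  have hTt : g.te t = t + g.te 0 := te2 t
  generalize g.te t = T at hT1 hT2 hl hX hTt ⊢
  have hT0 : 0 < T := by linarith
  have htT : t ≤ T := by linarith
  have hr0 := (hB.r_pos (g.K + 1)).1
  have hm := two_r_le g hg hB η T hη0 hT2
  have hP : ‖hz p.2‖ ≤ 1 / η := (hc.ga.norm_sq p.2).2.1.trans hv1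
  obtain ⟨hb1, h5, hX4, hsz⟩ := sizes η t T g.R ‖hz p.2‖ ‖pl p.1‖ hη0 hη1 htT hT0 hT1 hR
    (norm_nonneg _) hP hX
  obtain ⟨s₁, hs₁, s₂, hs₂, l₁, l₂, e1, e2, k1, k2, k3, k4⟩ :=
    sweep (pl p.1) (hz p.2) g.κ η t T (g.r (g.K + 1)) g.R hκ0 (by linarith) hη0 hη1 ht htT hT1
      hv2 hl hX hm hr0
  have hbt : t + 4 * T / η ^ 2 - t = 4 * T / η ^ 2 := by ring
  generalize t + 4 * T / η ^ 2 = b at hb1 hsz hs₁ hs₂ hbt
  have hlift : ∀ s ∈ Icc t b, pl (fl (s - t) p).1 = pl p.1 + ((s - t : ℝ) : ℂ) * hz p.2 :=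
    fun s hs => hc.ga.lift p (s - t) ((hsz s hs).trans_lt h5)
  have hI : ∀ s ∈ Icc t b, s ∈ Icc (0 : ℝ) 1 := fun s hs =>
    ⟨le_trans ht hs.1, hs.2.trans hb1⟩
  obtain ⟨i, hi⟩ : ∃ i : ℕ, 1 ≤ |p.2 2 - sg i| := by
    rcases le_total 0 (p.2 2) with h | h
    · exact ⟨1, by rw [sg_one, abs_of_nonneg (by linarith)]; linarith⟩
    · exact ⟨0, by rw [sg_zero, abs_of_nonpos (by linarith)]; linarith⟩
  have hl2 : 0 < l₂ := by linarith
  obtain ⟨j, hj, hsg, S, hSm, hSsub, hScore, hSvol⟩ :=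
    core_time hL g hg hB (pl p.1) (hz p.2) t t b s₁ s₂ l₁ l₂ i hs₁ hs₂ e1 e2 k1 k2 k3 hl2
  have hth : ∀ j, g.th j ≤ 1 / 2 := fun j => by linarith [th_le g hg hB j, hB.R_le]
  -- upper bound for the frequency
  have hup : ∀ s ∈ Icc t b, Nu (BB g) s (fl (s - t) p) ≤
      ENNReal.ofReal (16 * Real.pi * g.c * (1 / η + 3) / (g.κ * T)) := by
    intro s hs
    refine nu_up hF g q V₀ hg hκη hp hColl hV s (hI s hs) _ _ _ (by positivity) (by positivity) ?_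
    intro j' hj' ht'
    obtain ⟨a1, -⟩ := hB.inT s (hI s hs) _ ⟨j', hj', ht'⟩
    have d := (dist_uu hc.ga g.κ (sg j') hκ0.le (fl (s - t) p).1 p.2).2.2.2
    rw [abs_sg] at d
    refine ⟨by rw [fl_snd]; linarith [hth j'], le_trans ?_ a1⟩
    apply mul_le_mul_of_nonneg_left _ hκ0.le
    rw [te2 s]; linarith [hs.1]
  have hen : ∀ s ∈ Icc t b,
      ENNReal.ofReal (Real.exp (-(16 * Real.pi * g.c * (1 / η + 3) / g.κ * (4 / η ^ 2)))) ≤
      en (∫⁻ r in Ioc t s, Nu (BB g) r (fl (r - t) p)) := by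
    intro s hs
    rw [← hc.en.ofReal _ (by positivity)]
    apply hc.en.anti
    refine (lintegral_mono_set (Ioc_subset_Ioc_right hs.2)).trans ?_
    refine (le_const_mul t b _ (by positivity) _
      (fun r hr => hup r ⟨hr.1.le, hr.2⟩)).trans (le_of_eq ?_)
    congr 1
    rw [hbt]; field_simp
  -- lower bound on the core times
  have hlow : ∀ s ∈ S, ENNReal.ofReal (81 / 50 * (5 * T / η ^ 3)⁻¹ ^ 18 *
      (Real.pi * g.c * (1 / 2) / (8 * (5 * T / η ^ 3)))) ≤ nuS g q s (fl (s - t) p) := by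
    intro s hsS
    have hs := hSsub hsS
    have hcore : (fl (s - t) p).1 ∈ Core g j s := by
      change |‖pl (fl (s - t) p).1‖ - g.κ * s - g.mid j| ≤ 1 / 5 * g.w j
      rw [hlift s hs]; exact hScore s hsS
    have htube := hB.core j s (hI s hs).1 hcore
    have hlip := hc.ga.lip p (s - t)
    have hY1 : ‖pl (fl (s - t) p).1‖ ≤ 5 * T / η ^ 3 := hlip.trans (hsz s hs)
    have d := (dist_uu hc.ga g.κ (sg j) hκ0.le (fl (s - t) p).1 p.2).2.1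
    have d' : 1 / 2 + g.th j ≤ ‖(fl (s - t) p).2 - uu g.κ (sg j) (fl (s - t) p).1‖ := by
      rw [fl_snd]; rw [← hsg] at hi; linarith [hth j]
    have g3 := nu_low hF g q V₀ hg hB hκη hp hColl hV s (hI s hs) _ j hj hcore (1 / 2) _
      (by norm_num) d' hY1
    have hcut : ‖pl (fl (s - t) p).1‖ ≤ g.R / 4 + q.V * s := by
      have a2 : |s - t| * ‖hz p.2‖ ≤ (s - t) * q.V := by
        rw [abs_of_nonneg (by linarith [hs.1])]
        exact mul_le_mul_of_nonneg_left (hP.trans hηV) (by linarith [hs.1])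
      have a3 : 0 ≤ q.V * t := mul_nonneg (le_trans (by positivity) hηV) ht
      linarith
    have g4 := nus_low hF g q V₀ hg hB hκη hp hColl hV s (hI s hs) _ j hj htube (1 / 2) _ 1
      (by norm_num) d' hY1 (hv1.trans hηV) (by linarith) hcut (by norm_num) (by norm_num)
    rw [Real.one_rpow, mul_one] at g4
    refine le_trans ?_ g4
    rw [ENNReal.ofReal_mul (by positivity)]
    exact mul_le_mul' le_rfl g3
  have hvol : ENNReal.ofReal (η ^ 5 * T / 40000) ≤ volume S :=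
    le_trans (ENNReal.ofReal_le_ofReal
      (vol_le η T l₂ _ g.κ hη0 hη1 hT0 k4 (norm_nonneg _) hP hκ0 (by linarith))) hSvol
  rw [const_eq g.c g.κ η T hη0 hT0, ENNReal.ofReal_mul (by positivity),
    ENNReal.ofReal_mul (Real.exp_pos _).le]
  refine (mul_le_mul' le_rfl hvol).trans ?_
  refine (const_mul_le t b S hSm hSsub _
    (fun s => en (∫⁻ r in Ioc t s, Nu (BB g) r (fl (r - t) p)) * nuS g q s (fl (s - t) p))
    fun s hs => mul_le_mul' (hen s (hSsub hs)) (hlow s hs)).trans ?_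
  exact lintegral_mono_set (Ioc_subset_Ioc_right hb1)

end W2Aux

theorem w2C (hb : Base) (hc : BaseC) (hL : LineStmt) (hF : FreqStmt) : W2Stmt := by
  intro q c κ V₀ η hp hD hc1 hκ0 hκ1 hκη hColl hV hη0 hη1 hηV
  have hpi := Real.pi_pos
  refine ⟨W2Aux.c2 c κ η, by unfold W2Aux.c2; positivity, ?_⟩
  have hev : ∀ᶠ R in 𝓝[>] (0 : ℝ), R ∈ Ioc 0 (min (κ ^ 2) (η ^ 2 / 4)) :=
    Ioc_mem_nhdsGT (by positivity)
  filter_upwards [hev] with R hR K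
  exact W2Aux.main hc hL hF ⟨c, κ, R, K⟩ q V₀ η
    ⟨hc1, hκ0, hκ1, hR.1, hR.2.trans (min_le_left _ _)⟩ hp hD hκη hColl hV hη0 hη1 hηV
    (hR.2.trans (min_le_right _ _))

end Vale.Agent.P140
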