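import Vale.Agent.P140.StmC

/-!
Upper bounds for the adjoint weight.
-/

namespace Vale.Agent.P140

open MeasureTheory Set Filter Topology
open scoped ENNReal

noncomputable section

namespace WUAux

lemma bb_supp (hc : BaseC) {g : Geo} (hg : g.Ok) {s : ℝ} (hs : s ∈ Icc (0 : ℝ) 1) {x : T3} {u : E}
    (h : BB g s (x, u) ≠ 0) : InT g s x ∧ ‖u‖ ≤ 2 := by
  have h1 : CC g s (x, u) ≠ 0 := by
    unfold CC
    intro h0
    exact h (add_eq_zero.1 h0).1
  obtain ⟨j, hj, hp⟩ := (hc.gb g hg).cc_supp s hs (x, u) h1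
  exact ⟨⟨j, hj, hp.1⟩, ((hc.gb g hg).cold_v j s hs (x, u) hp).2.1⟩

lemma te_pos (hc : BaseC) {g : Geo} (hg : g.Ok) {s : ℝ} (hs : 0 ≤ s) : 0 < g.te s := by
  have := (hc.gb g hg).te.1; have := (hc.gb g hg).te.2.2 s; linarith

lemma te_mono (hc : BaseC) {g : Geo} (hg : g.Ok) {s t : ℝ} (hs : s ≤ t) : g.te s ≤ g.te t := by
  have := (hc.gb g hg).te.2.2 t; have := (hc.gb g hg).te.2.2 s; linarith

lemma om_le (q : Par) (hp : 0 ≤ q.p) (v : E) : om q v ≤ 1 := by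
  unfold om
  split_ifs
  · exact Real.rpow_le_one (le_min (norm_nonneg _) zero_le_one) (min_le_right _ _) hp
  · exact zero_le_one

lemma kS_le (D a₀ : ℝ) {a : ℝ} (ha : 0 ≤ a) (r : ℝ) : kS D a₀ a r ≤ a := by
  unfold kS
  split_ifs
  · exact le_rfl
  · exact ha

lemma nu_zero (hc : BaseC) {g : Geo} (hg : g.Ok) {s : ℝ} (hs : s ∈ Icc (0 : ℝ) 1) {p : Om}
    (hx : ¬ InT g s p.1) (u : E) : BB g s (p.1, u) = 0 := by
  by_contra hne
  exact hx (bb_supp hc hg hs hne).1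

lemma nu_le (hc : BaseC) (hU : DensUStmt) {g : Geo} (hg : g.Ok) {s : ℝ} (hs : s ∈ Icc (0 : ℝ) 1)
    (p : Om) : Nu (BB g) s p ≤
      ENNReal.ofReal (2 * Real.pi * (‖p.2‖ + 2)) * ENNReal.ofReal (8 * g.c / (g.κ * g.te 0)) := by
  have hm : Measurable (fun u => BB g s (p.1, u)) := hc.alg.jm_slice _ (hc.me.jm g).1 s p.1
  unfold Nu
  rw [hc.alg.freq_eq _ _ hm]
  by_cases hx : InT g s p.1
  swap
  · simp [nu_zero hc hg hs hx]
  calc ∫⁻ u, ENNReal.ofReal (2 * Real.pi * ‖p.2 - u‖) * BB g s (p.1, u)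
      ≤ ∫⁻ u, ENNReal.ofReal (2 * Real.pi * (‖p.2‖ + 2)) * BB g s (p.1, u) := by
        refine lintegral_mono fun u => ?_
        by_cases h0 : BB g s (p.1, u) = 0
        · simp [h0]
        refine mul_le_mul_left (ENNReal.ofReal_le_ofReal ?_) _
        have e1 := (bb_supp hc hg hs h0).2
        have e2 := norm_sub_le p.2 u
        have := Real.pi_pos
        gcongr
        linarith
    _ = ENNReal.ofReal (2 * Real.pi * (‖p.2‖ + 2)) * ∫⁻ u, BB g s (p.1, u) :=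
        lintegral_const_mul _ hm
    _ ≤ _ := by
        refine mul_le_mul_right (((hU g hg s hs p.1).1).trans (ENNReal.ofReal_le_ofReal ?_)) _
        have e1 := ((hc.gb g hg).inT s hs p.1 hx).1
        have e2 := te_mono hc hg hs.1
        have e3 := te_pos hc hg le_rfl
        have e4 := hg.κ0
        have e5 := hg.c1
        refine div_le_div_of_nonneg_left (by linarith) (by positivity) ?_
        exact (mul_le_mul_of_nonneg_left e2 e4.le).trans e1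

lemma nuS_le (hc : BaseC) {g : Geo} (hg : g.Ok) (q : Par) (hp : 0 ≤ q.p) {t s : ℝ} (ht : 0 ≤ t)
    (hts : t ≤ s) (hs : s ≤ 1) (p : Om) :
    nuS g q s p ≤ ENNReal.ofReal (2 * (g.κ * g.te t)⁻¹ ^ 18) * Nu (BB g) s p := by
  have hs' : s ∈ Icc (0 : ℝ) 1 := ⟨ht.trans hts, hs⟩
  unfold nuS
  split_ifs
  swap
  · exact zero_le
  by_cases hx : InT g s p.1
  swap
  · simp [nu_zero hc hg hs' hx]
  have e1 := ((hc.gb g hg).inT s hs' p.1 hx).1
  have e2 := te_mono hc hg hts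
  have e3 := te_pos hc hg ht
  have e4 := hg.κ0
  have e5 : 0 < g.κ * g.te t := by positivity
  have e6 : g.κ * g.te t ≤ ‖pl p.1‖ := (mul_le_mul_of_nonneg_left e2 e4.le).trans e1
  have h1 : SS g q.V s p.1 ≤ (g.κ * g.te t)⁻¹ ^ 18 := by
    unfold SS
    split_ifs
    · exact pow_le_pow_left₀ (by positivity) (inv_anti₀ e5 e6) _
    · positivity
  have h2 : ∫⁻ z : E × S2, ENNReal.ofReal (kS q.D q.η |cf p.2 z.1 z.2| ‖p.2 - z.1‖) *
      (BB g s (p.1, z.1) * ENNReal.ofReal (om q (vp p.2 z.1 z.2) + om q (wp p.2 z.1 z.2)))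
      ∂(volume.prod sph) ≤ 2 * Nu (BB g) s p := by
    unfold Nu freqK
    rw [← lintegral_const_mul' _ _ (by norm_num)]
    refine lintegral_mono fun z => ?_
    have a1 : ENNReal.ofReal (kS q.D q.η |cf p.2 z.1 z.2| ‖p.2 - z.1‖) ≤
        ENNReal.ofReal (kF |cf p.2 z.1 z.2| ‖p.2 - z.1‖) :=
      ENNReal.ofReal_le_ofReal (kS_le _ _ (abs_nonneg _) _)
    have a2 : ENNReal.ofReal (om q (vp p.2 z.1 z.2) + om q (wp p.2 z.1 z.2)) ≤ 2 := by
      rw [← ENNReal.ofReal_ofNat]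
      apply ENNReal.ofReal_le_ofReal
      linarith [om_le q hp (vp p.2 z.1 z.2), om_le q hp (wp p.2 z.1 z.2)]
    calc _ ≤ ENNReal.ofReal (kF |cf p.2 z.1 z.2| ‖p.2 - z.1‖) * (BB g s (p.1, z.1) * 2) := by
          gcongr
      _ = _ := by ring
  have e7 : 0 ≤ (g.κ * g.te t)⁻¹ ^ 18 := by positivity
  calc _ ≤ ENNReal.ofReal ((g.κ * g.te t)⁻¹ ^ 18) * (2 * Nu (BB g) s p) := by
        refine mul_le_mul' (ENNReal.ofReal_le_ofReal ?_) h2
        linarith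
    _ = _ := by
        rw [ENNReal.ofReal_mul (by norm_num : (0 : ℝ) ≤ 2), ENNReal.ofReal_ofNat]; ring

lemma part1 (hc : BaseC) (hU : DensUStmt) {g : Geo} (hg : g.Ok) (q : Par) (hp : 0 ≤ q.p) {t : ℝ}
    (ht : t ∈ Icc (0 : ℝ) 1) (p : Om) :
    WW g q t p ≤ ENNReal.ofReal (2 * (g.κ * g.te t)⁻¹ ^ 18) := by
  have hm : Measurable (fun r => Nu (BB g) r (fl (r - t) p)) :=
    (hc.alg.jm_flight _ (hc.alg.jm_Nu _ (hc.me.jm g).1) t p).1
  have hfin : ∫⁻ r in Ioc t 1, Nu (BB g) r (fl (r - t) p) ≠ ⊤ := by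
    refine ne_top_of_le_ne_top ?_ (setLIntegral_mono' (g := fun _ =>
      ENNReal.ofReal (2 * Real.pi * (‖p.2‖ + 2)) * ENNReal.ofReal (8 * g.c / (g.κ * g.te 0)))
      measurableSet_Ioc fun r hr => nu_le hc hU hg ⟨ht.1.trans hr.1.le, hr.2⟩ _)
    rw [setLIntegral_const, Real.volume_Ioc]
    exact ENNReal.mul_ne_top (ENNReal.mul_ne_top ENNReal.ofReal_ne_top ENNReal.ofReal_ne_top)
      ENNReal.ofReal_ne_top
  have hex := hc.en.expo t 1 _ ht.2 hm hfin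
  unfold WW
  calc _ ≤ ∫⁻ s in Ioc t 1, ENNReal.ofReal (2 * (g.κ * g.te t)⁻¹ ^ 18) *
        (en (∫⁻ r in Ioc t s, Nu (BB g) r (fl (r - t) p)) * Nu (BB g) s (fl (s - t) p)) := by
        refine setLIntegral_mono' measurableSet_Ioc fun s hs => ?_
        refine (mul_le_mul_right (nuS_le hc hg q hp ht.1 hs.1.le hs.2 _) _).trans (le_of_eq ?_)
        ring
    _ = ENNReal.ofReal (2 * (g.κ * g.te t)⁻¹ ^ 18) * ∫⁻ s in Ioc t 1,
        en (∫⁻ r in Ioc t s, Nu (BB g) r (fl (r - t) p)) * Nu (BB g) s (fl (s - t) p) :=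
        lintegral_const_mul' _ _ ENNReal.ofReal_ne_top
    _ ≤ ENNReal.ofReal (2 * (g.κ * g.te t)⁻¹ ^ 18) * 1 := by
        refine mul_le_mul_right ?_ _
        rw [← hex]
        exact le_self_add
    _ = _ := mul_one _

lemma nuS_zero (g : Geo) (q : Par) (t : ℝ) {p : Om} (hv : q.V < ‖p.2‖) : nuS g q t p = 0 := by
  unfold nuS
  rw [if_neg (not_le.2 hv)]

lemma cold_zero (hc : BaseC) {g : Geo} (hg : g.Ok) (q : Par) (hD : 2 * g.R ^ 6 < q.D) {j : ℕ}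
    {s : ℝ} (hs : s ∈ Icc (0 : ℝ) 1) {p : Om} (hp : p ∈ Cold g j s) : nuS g q s p = 0 := by
  have hgb := hc.gb g hg
  unfold nuS
  split_ifs
  swap
  · rfl
  have : ∀ z : E × S2, ENNReal.ofReal (kS q.D q.η |cf p.2 z.1 z.2| ‖p.2 - z.1‖) *
      (BB g s (p.1, z.1) * ENNReal.ofReal (om q (vp p.2 z.1 z.2) + om q (wp p.2 z.1 z.2))) = 0 := by
    intro z
    by_cases h0 : BB g s (p.1, z.1) = 0
    · rw [h0]; simp
    have h1 := hgb.bb_tube j s hs (p.1, z.1) hp.1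
    have h2 : fl (-s) (p.1, z.1) ∈ B0s g j := by
      by_contra hn
      apply h0
      rw [h1, indicator_of_notMem hn]; simp
    have h3 : ‖z.1 - uu g.κ (sg j) p.1‖ ≤ g.th j := (hgb.supp j s hs _ h2).2.2.1
    have h4 := (hgb.cold_v j s hs p hp).1
    obtain ⟨-, -, -, -, -, h5, -, h6⟩ := hgb.r_pos j
    have h7 : ‖p.2 - z.1‖ ≤ ‖p.2 - uu g.κ (sg j) p.1‖ + ‖z.1 - uu g.κ (sg j) p.1‖ := by
      have := norm_sub_le (p.2 - uu g.κ (sg j) p.1) (z.1 - uu g.κ (sg j) p.1)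
      rwa [sub_sub_sub_cancel_right] at this
    have h8 : kS q.D q.η |cf p.2 z.1 z.2| ‖p.2 - z.1‖ = 0 := by
      unfold kS
      rw [if_neg]
      rintro ⟨h9, -⟩
      linarith
    rw [h8]; simp
  simp [this]

end WUAux

open WUAux in
theorem wuC (hb : Base) (hc : BaseC) (hU : DensUStmt) : WUStmt := by
  have _ := hb
  intro g q hg hp
  refine ⟨fun t ht p => part1 hc hU hg q hp ht p, fun t p hv => ⟨?_, nuS_zero g q t hv⟩, ?_, ?_⟩
  · unfold WW
    have : ∀ s, nuS g q s (fl (s - t) p) = 0 := fun s => nuS_zero g q s hv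
    simp [this]
  · refine ⟨2 * (g.κ * g.te 0)⁻¹ ^ 18 * (2 * Real.pi * (|q.V| + 2) * (8 * g.c / (g.κ * g.te 0))),
      fun t ht p => ?_⟩
    by_cases hv : q.V < ‖p.2‖
    · rw [nuS_zero g q t hv]; exact zero_le
    have e1 := te_pos hc hg le_rfl
    have e2 := hg.κ0
    have e3 := Real.pi_pos
    refine (nuS_le hc hg q hp le_rfl ht.1 ht.2 p).trans ?_
    rw [ENNReal.ofReal_mul (p := 2 * (g.κ * g.te 0)⁻¹ ^ 18) (by positivity),
      ENNReal.ofReal_mul (p := 2 * Real.pi * (|q.V| + 2)) (by positivity)]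
    refine mul_le_mul_right ((nu_le hc hU hg ht p).trans
      (mul_le_mul_left (ENNReal.ofReal_le_ofReal ?_) _)) _
    have e4 : ‖p.2‖ ≤ |q.V| := (not_lt.1 hv).trans (le_abs_self _)
    gcongr
  · intro hD j t ht p hp'
    unfold WW
    refine (setLIntegral_congr_fun measurableSet_Ioc (g := fun _ => 0) fun s hs => ?_).trans
      (by simp)
    have h1 := ((hc.gb g hg).cold_fwd j t s ht.1 hs.1.le hs.2 p hp').1
    simp only
    rw [cold_zero hc hg q hD ⟨ht.1.trans hs.1.le, hs.2⟩ h1, mul_zero]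

end

end Vale.Agent.P140
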