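import Vale.Agent.P140.BaseP
import Vale.Agent.P140.AlgC
import Vale.Agent.P140.EnC
import Vale.Agent.P140.MeC
import Vale.Agent.P140.GeoA
import Vale.Agent.P140.GeoB
import Vale.Agent.P140.DensU
import Vale.Agent.P140.DensL
import Vale.Agent.P140.Sing
import Vale.Agent.P140.PB1
import Vale.Agent.P140.PB2
import Vale.Agent.P140.PP
import Vale.Agent.P140.OS
import Vale.Agent.P140.CCol
import Vale.Agent.P140.Cmp
import Vale.Agent.P140.Bar
import Vale.Agent.P140.HE
import Vale.Agent.P140.IFc
import Vale.Agent.P140.LYa
import Vale.Agent.P140.LYb
import Vale.Agent.P140.LY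
import Vale.Agent.P140.Sph0
import Vale.Agent.P140.Sph
import Vale.Agent.P140.Line
import Vale.Agent.P140.Freq
import Vale.Agent.P140.W1
import Vale.Agent.P140.W2
import Vale.Agent.P140.WU
import Vale.Agent.P140.Mono1
import Vale.Agent.P140.Mono2
import Vale.Agent.P140.Mono3
import Vale.Agent.P140.Mono
import Vale.Agent.P140.Phi0
import Vale.Agent.P140.Dat
import Vale.Agent.P140.Imp
import Vale.Agent.P140.Boot
import Vale.Agent.P140.Shoot
import Vale.Agent.P140.Inst

/-! Wiring of the ring construction and the final theorem. -/

namespace Vale.Agent.P140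

theorem baseC : BaseC :=
  ⟨algC base, enC base, meC base (algC base) (enC base), geoA base, geoB (geoA base)⟩

theorem instAll : InstStmt :=
  have hU := densU base baseC
  have hL := densL base baseC
  have hS := sing base baseC hU
  have h1 := pb1 base baseC
  have h2 := pb2 base baseC h1
  have hP := ppC base baseC h1
  have hO := osC base baseC hS h1 hP
  have hC := cmpC base baseC
  have hHE := heC base baseC hC (bar base baseC hO (ccol base baseC))
  have hLY := lyC base baseC hO (lya base baseC hS h1 h2) (lyb base baseC hU)
  have hLi := lineC baseC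
  have hF := freqC base baseC hU hL
  have hW1 := w1C base baseC (sphC base baseC (sph0 base baseC)) hLi hF
  have hW2 := w2C base baseC hLi hF
  have hWU := wuC base baseC hU
  have hM := monoC base baseC hWU (mono1 baseC) (mono2 base baseC) (mono3 base baseC hU hP)
  have hD := datC base baseC
  instC base baseC hD (shoot base baseC hP hO hHE (ifC base baseC) hLY hW1 hW2 hWU hM
    (phi0 base baseC) hD (boot base baseC hC (impC base baseC)))

theorem goalAll : Goal := goal_of_inst instAll

end Vale.Agent.P140
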