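import Vale.Agent.P140.StmA

/-!
Carleman representation in isometric form.
-/

namespace Vale.Agent.P140

open MeasureTheory Set
open scoped ENNReal

noncomputable section

namespace Carl

lemma exists_iso (p : E) : ∃ ι : E2 →ₗᵢ[ℝ] E, ∀ y, inner ℝ (ι y) p = 0 := by
  have key : ∀ q : E, q ≠ 0 → ∃ ι : E2 →ₗᵢ[ℝ] E, ∀ y, inner ℝ (ι y) q = 0 := by
    intro q hq
    have : Fact (Module.finrank ℝ E = 2 + 1) := ⟨by simp⟩
    let b := OrthonormalBasis.fromOrthogonalSpanSingleton (𝕜 := ℝ) 2 hq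
    refine ⟨(Submodule.subtypeₗᵢ _).comp b.repr.symm.toLinearIsometry, fun y => ?_⟩
    have h := (b.repr.symm y).2
    rw [Submodule.mem_orthogonal_singleton_iff_inner_left] at h
    exact h
  by_cases hp : p = 0
  · obtain ⟨ι, _⟩ := key (EuclideanSpace.single 0 1) (by
      intro h
      have := congrArg (fun z : E => z 0) h
      simp at this)
    exact ⟨ι, fun y => by simp [hp]⟩
  · exact key p hp

lemma inner3 (a b : E) : inner ℝ a b = a 0 * b 0 + a 1 * b 1 + a 2 * b 2 := by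
  simp [PiLp.inner_apply, Fin.sum_univ_three, mul_comm]

lemma alg (u0 u1 u2 v0 v1 v2 p0 p1 p2 : ℝ) (hu : u0 * u0 + u1 * u1 + u2 * u2 = 1)
    (hv : v0 * v0 + v1 * v1 + v2 * v2 = 1) (huv : u0 * v0 + u1 * v1 + u2 * v2 = 0)
    (hup : u0 * p0 + u1 * p1 + u2 * p2 = 0) (hvp : v0 * p0 + v1 * p1 + v2 * p2 = 0) :
    (u0 * v1 - v0 * u1) ^ 2 * (p0 * p0 + p1 * p1 + p2 * p2) = p2 ^ 2 := by
  have hn : (u1 * v2 - u2 * v1) ^ 2 + (u2 * v0 - u0 * v2) ^ 2 + (u0 * v1 - v0 * u1) ^ 2 = 1 := by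
    have : (u1 * v2 - u2 * v1) ^ 2 + (u2 * v0 - u0 * v2) ^ 2 + (u0 * v1 - v0 * u1) ^ 2 =
        (u0 * u0 + u1 * u1 + u2 * u2) * (v0 * v0 + v1 * v1 + v2 * v2) -
          (u0 * v0 + u1 * v1 + u2 * v2) ^ 2 := by ring
    rw [this, hu, hv, huv]; norm_num
  have h0 : (u0 * v1 - v0 * u1) * p0 = (u1 * v2 - u2 * v1) * p2 := by
    linear_combination v1 * hup - u1 * hvp
  have h1 : (u0 * v1 - v0 * u1) * p1 = (u2 * v0 - u0 * v2) * p2 := by
    linear_combination (-v0) * hup + u0 * hvp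
  have e : (u0 * v1 - v0 * u1) ^ 2 * (p0 * p0 + p1 * p1 + p2 * p2) =
      ((u0 * v1 - v0 * u1) * p0) ^ 2 + ((u0 * v1 - v0 * u1) * p1) ^ 2 +
        ((u0 * v1 - v0 * u1) * p2) ^ 2 := by ring
  rw [e, h0, h1]
  linear_combination p2 ^ 2 * hn

lemma measurable_gr : Measurable (fun z : E × (ℝ × ℝ) => gr z.1 z.2) := by
  unfold gr
  refine (PiLp.continuous_toLp 2 _).measurable.comp ?_
  refine measurable_pi_lambda _ fun i => ?_
  fin_cases i
  · simp only [Fin.zero_eta, Matrix.cons_val_zero]; fun_prop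
  · simp only [Fin.mk_one, Matrix.cons_val_one, Matrix.cons_val_zero]; fun_prop
  · simp only [Fin.reduceFinMk, Matrix.cons_val]; fun_prop

lemma change (p : E) (hp : p 2 ≠ 0) (ι : E2 →ₗᵢ[ℝ] E) (hι : ∀ y, inner ℝ (ι y) p = 0)
    (Ψ : E → ℝ≥0∞) (hΨ : Measurable Ψ) :
    ∫⁻ y : E2, Ψ (ι y) = ENNReal.ofReal (‖p‖ / |p 2|) * ∫⁻ y : ℝ × ℝ, Ψ (gr p y) := by
  set u : E := ι (EuclideanSpace.single 0 1) with hu
  set v : E := ι (EuclideanSpace.single 1 1) with hv
  have hdec : ∀ y : Fin 2 → ℝ, ι (WithLp.toLp 2 y) = y 0 • u + y 1 • v := by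
    intro y
    rw [hu, hv, ← map_smul, ← map_smul, ← map_add]
    congr 1
    ext i
    fin_cases i <;> simp
  have huu : inner ℝ u u = 1 := by
    rw [hu, ι.inner_map_map]; simp
  have hvv : inner ℝ v v = 1 := by
    rw [hv, ι.inner_map_map]; simp
  have huv : inner ℝ u v = 0 := by
    rw [hu, hv, ι.inner_map_map]; simp [EuclideanSpace.inner_single_left]
  have hup : inner ℝ u p = 0 := hι _
  have hvp : inner ℝ v p = 0 := hι _
  rw [inner3] at huu hvv huv hup hvp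
  have halg := alg _ _ _ _ _ _ _ _ _ huu hvv huv hup hvp
  have hpp : p 0 * p 0 + p 1 * p 1 + p 2 * p 2 = ‖p‖ ^ 2 := by
    rw [← inner3, real_inner_self_eq_norm_sq]
  rw [hpp] at halg
  set A : Matrix (Fin 2) (Fin 2) ℝ := !![u 0, v 0; u 1, v 1] with hA
  have hdet : A.det = u 0 * v 1 - v 0 * u 1 := by rw [hA, Matrix.det_fin_two_of]
  have hp0 : p ≠ 0 := by
    intro h; apply hp; rw [h]; rfl
  have hn : 0 < ‖p‖ := norm_pos_iff.2 hp0
  have habs : |A.det| * ‖p‖ = |p 2| := by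
    have h1 : (|A.det| * ‖p‖) ^ 2 = |p 2| ^ 2 := by
      rw [mul_pow, sq_abs, sq_abs, hdet, halg]
    exact (pow_left_inj₀ (by positivity) (abs_nonneg _) two_ne_zero).1 h1
  have hap : 0 < |p 2| := abs_pos.2 hp
  have hdet0 : A.det ≠ 0 := by
    intro h; rw [h, abs_zero, zero_mul] at habs; exact hap.ne habs
  have hinv : |A.det⁻¹| = ‖p‖ / |p 2| := by
    rw [abs_inv, ← habs]
    have : 0 < |A.det| := abs_pos.2 hdet0
    field_simp
  have hgr : Measurable (gr p) := measurable_gr.comp (measurable_const.prodMk measurable_id)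
  set G : (Fin 2 → ℝ) → ℝ≥0∞ := fun z => Ψ (gr p (z 0, z 1)) with hG
  have hGm : Measurable G := hΨ.comp (hgr.comp (by fun_prop))
  have h1 : ∫⁻ y : E2, Ψ (ι y) = ∫⁻ y : Fin 2 → ℝ, Ψ (ι (WithLp.toLp 2 y)) :=
    ((PiLp.volume_preserving_toLp (Fin 2)).lintegral_comp
      (hΨ.comp ι.continuous.measurable)).symm
  have h2 : ∀ y : Fin 2 → ℝ, Ψ (ι (WithLp.toLp 2 y)) = G (Matrix.toLin' A y) := by
    intro y
    rw [hdec, hG]
    simp only
    congr 1
    ext i
    fin_cases i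
    · simp [gr, hA, Matrix.mulVec, dotProduct, Fin.sum_univ_two]; ring
    · simp [gr, hA, Matrix.mulVec, dotProduct, Fin.sum_univ_two]; ring
    · simp [gr, hA, Matrix.mulVec, dotProduct, Fin.sum_univ_two]
      field_simp
      linear_combination y 0 * hup + y 1 * hvp
  have h3 : ∫⁻ y : Fin 2 → ℝ, G (Matrix.toLin' A y) =
      ENNReal.ofReal |A.det⁻¹| * ∫⁻ z : Fin 2 → ℝ, G z := by
    rw [← lintegral_map hGm (LinearMap.continuous_of_finiteDimensional _).measurable,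
      Real.map_matrix_volume_pi_eq_smul_volume_pi hdet0, lintegral_smul_measure, smul_eq_mul]
  have h4 : ∫⁻ z : Fin 2 → ℝ, G z = ∫⁻ y : ℝ × ℝ, Ψ (gr p y) :=
    (volume_preserving_finTwoArrow ℝ).lintegral_comp (hΨ.comp hgr)
  rw [h1, lintegral_congr h2, h3, h4, hinv]

lemma ae_ne : ∀ᵐ p : E, p 2 ≠ 0 := by
  have h : (volume : Measure E) (LinearMap.ker (EuclideanSpace.projₗ (𝕜 := ℝ) (2 : Fin 3)) :
      Submodule ℝ E) = 0 := by
    refine Measure.addHaar_submodule _ _ fun h => ?_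
    have : (EuclideanSpace.single 2 1 : E) ∈
        (LinearMap.ker (EuclideanSpace.projₗ (𝕜 := ℝ) (2 : Fin 3)) : Submodule ℝ E) := by
      rw [h]; trivial
    simp at this
  rw [ae_iff]
  refine measure_mono_null (fun p hp => ?_) h
  simpa using hp

end Carl

theorem carl (h : GraphStmt) : CarlStmt := by
  choose ι hι using Carl.exists_iso
  refine ⟨ι, hι, fun Φ hΦ => ?_⟩
  have hm : Measurable (fun z : E × (ℝ × ℝ) => Φ (z.1, gr z.1 z.2)) :=
    hΦ.comp (measurable_fst.prodMk Carl.measurable_gr)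
  have hc : ∀ᵐ p : E, ∫⁻ y : E2, Φ (p, ι p y) =
      ENNReal.ofReal (‖p‖ / |p 2|) * ∫⁻ y : ℝ × ℝ, Φ (p, gr p y) := by
    filter_upwards [Carl.ae_ne] with p hp
    exact Carl.change p hp (ι p) (hι p) (fun z => Φ (p, z))
      (hΦ.comp (measurable_const.prodMk measurable_id))
  refine ⟨?_, fun v => ?_⟩
  · refine AEMeasurable.congr ?_ (Filter.EventuallyEq.symm hc)
    refine Measurable.aemeasurable ?_
    refine Measurable.mul ?_ hm.lintegral_prod_right'
    exact ENNReal.measurable_ofReal.comp (by fun_prop)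
  · rw [h Φ hΦ v]
    congr 1
    refine lintegral_congr_ae ?_
    filter_upwards [Carl.ae_ne, hc] with p hp hp'
    have hp0 : p ≠ 0 := by
      intro h; apply hp; rw [h]; rfl
    have hn : 0 < ‖p‖ := norm_pos_iff.2 hp0
    have hap : 0 < |p 2| := abs_pos.2 hp
    have hm' : Measurable (fun y : ℝ × ℝ => Φ (p, gr p y)) :=
      hm.comp (measurable_const.prodMk measurable_id)
    rw [hp', lintegral_const_mul _ hm', ← mul_assoc]
    congr 1
    rw [← ENNReal.ofReal_inv_of_pos hn, ← ENNReal.ofReal_inv_of_pos hap,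
      ← ENNReal.ofReal_mul (by positivity)]
    congr 1
    field_simp

end

end Vale.Agent.P140
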