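import Vale.Agent.P140.StmA

/-! Chain rule and integrating factors for primitives of integrable functions. -/

namespace Vale.Agent.P140

open MeasureTheory Set Filter Topology

namespace Chain

section

variable {V : Type} [NormedAddCommGroup V] [NormedSpace ℝ V] [CompleteSpace V] {a b : ℝ}

omit [NormedSpace ℝ V] [CompleteSpace V] in
theorem sub_int {g : ℝ → V} (hab : a ≤ b) (hg : IntervalIntegrable g volume a b) {s t : ℝ}
    (hs : s ∈ Icc a b) (ht : t ∈ Icc a b) : IntervalIntegrable g volume s t :=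
  hg.mono_set (by rw [uIcc_of_le hab]; exact uIcc_subset_Icc hs ht)

omit [CompleteSpace V] in
theorem cont_prim {g : ℝ → V} (hab : a ≤ b) (hg : IntervalIntegrable g volume a b) :
    ContinuousOn (fun t => ∫ s in a..t, g s) (Icc a b) := by
  have := intervalIntegral.continuousOn_primitive_interval' hg left_mem_uIcc
  rwa [uIcc_of_le hab] at this

omit [CompleteSpace V] in
theorem cont_of_prim {y g : ℝ → V} {c : V} (hab : a ≤ b) (hg : IntervalIntegrable g volume a b)
    (hy : ∀ t ∈ Icc a b, y t = c + ∫ s in a..t, g s) : ContinuousOn y (Icc a b) :=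
  (continuousOn_const.add (cont_prim hab hg)).congr hy

omit [CompleteSpace V] in
theorem diff_prim {g : ℝ → V} (hab : a ≤ b) (hg : IntervalIntegrable g volume a b) {s t : ℝ}
    (hs : s ∈ Icc a b) (ht : t ∈ Icc a b) :
    ∫ r in a..t, g r = (∫ r in a..s, g r) + ∫ r in s..t, g r :=
  (intervalIntegral.integral_add_adjacent_intervals (sub_int hab hg (left_mem_Icc.2 hab) hs)
    (sub_int hab hg hs ht)).symm

omit [CompleteSpace V] in
theorem int_apply {g : ℝ → V} {L : ℝ → V →L[ℝ] ℝ} (hab : a ≤ b)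
    (hg : IntervalIntegrable g volume a b) (hL : ContinuousOn L (Icc a b)) :
    IntervalIntegrable (fun s => L s (g s)) volume a b := by
  obtain ⟨C, hC⟩ := isCompact_Icc.exists_bound_of_continuousOn hL
  rw [intervalIntegrable_iff_integrableOn_Icc_of_le hab] at hg ⊢
  exact (ContinuousLinearMap.id ℝ (V →L[ℝ] ℝ)).integrable_of_bilin_of_bdd_left C
    (hL.aestronglyMeasurable measurableSet_Icc)
    ((ae_restrict_mem measurableSet_Icc).mono hC) hg

theorem local_est {y g : ℝ → V} {S : Set V} {Φ : V → ℝ} {Φ' : V → V →L[ℝ] ℝ} (hab : a ≤ b)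
    (hg : IntervalIntegrable g volume a b) (hy : ∀ t ∈ Icc a b, y t = y a + ∫ s in a..t, g s)
    (hS : Convex ℝ S) (hyS : ∀ t ∈ Icc a b, y t ∈ S) (hΦ : ∀ z ∈ S, HasFDerivWithinAt Φ (Φ' z) S z)
    (hc : ContinuousOn Φ' S) {ε : ℝ} (hε : 0 < ε) {x : ℝ} (hx : x ∈ Ico a b) :
    ∀ᶠ t in 𝓝[>] x, t ∈ Icc a b ∧
      ‖Φ (y t) - Φ (y x) - ∫ s in x..t, Φ' (y s) (g s)‖ ≤ 2 * ε * ∫ s in x..t, ‖g s‖ := by
  have hx' : x ∈ Icc a b := Ico_subset_Icc_self hx
  have hyc := cont_of_prim hab hg hy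
  have hL : ContinuousOn (fun s => Φ' (y s)) (Icc a b) := hc.comp hyc hyS
  have hint := int_apply hab hg hL
  obtain ⟨δ, hδ, h1⟩ := Metric.continuousWithinAt_iff.1 (hc _ (hyS x hx')) ε hε
  obtain ⟨η, hη, h2⟩ := Metric.continuousWithinAt_iff.1 (hyc x hx') δ hδ
  filter_upwards [Ioo_mem_nhdsGT (lt_min hx.2 (lt_add_of_pos_right x hη))] with t ht
  have htb : t < b := ht.2.trans_le (min_le_left _ _)
  have htη : t < x + η := ht.2.trans_le (min_le_right _ _)
  have ht' : t ∈ Icc a b := ⟨hx.1.trans ht.1.le, htb.le⟩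
  have hmem : ∀ r ∈ Icc x t, y r ∈ S ∩ Metric.ball (y x) δ := fun r hr => by
    have hr' : r ∈ Icc a b := ⟨hx.1.trans hr.1, hr.2.trans htb.le⟩
    refine ⟨hyS r hr', h2 hr' ?_⟩
    rw [Real.dist_eq, abs_of_nonneg (sub_nonneg.2 hr.1)]
    linarith [hr.2]
  have hb : ∀ z ∈ S ∩ Metric.ball (y x) δ, ‖Φ' z - Φ' (y x)‖ ≤ ε := fun z hz => by
    rw [← dist_eq_norm]
    exact (h1 hz.1 hz.2).le
  have hmv := (hS.inter (convex_ball (y x) δ)).norm_image_sub_le_of_norm_hasFDerivWithin_le'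
    (fun z hz => (hΦ z hz.1).mono inter_subset_left) hb
    (hmem x (left_mem_Icc.2 ht.1.le)) (hmem t (right_mem_Icc.2 ht.1.le))
  have hgx := sub_int hab hg hx' ht'
  have hd : y t - y x = ∫ s in x..t, g s := by
    rw [hy t ht', hy x hx', diff_prim hab hg hx' ht']
    abel
  have hn : ‖y t - y x‖ ≤ ∫ s in x..t, ‖g s‖ := by
    rw [hd]
    exact intervalIntegral.norm_integral_le_integral_norm ht.1.le
  have hi2 : IntervalIntegrable (fun s => Φ' (y x) (g s)) volume x t :=
    ⟨(Φ' (y x)).integrable_comp hgx.1, (Φ' (y x)).integrable_comp hgx.2⟩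
  have h3 : ‖Φ' (y x) (y t - y x) - ∫ s in x..t, Φ' (y s) (g s)‖ ≤ ε * ∫ s in x..t, ‖g s‖ := by
    rw [hd, ← (Φ' (y x)).intervalIntegral_comp_comm hgx,
      ← intervalIntegral.integral_sub hi2 (sub_int hab hint hx' ht'),
      ← intervalIntegral.integral_const_mul]
    refine intervalIntegral.norm_integral_le_of_norm_le ht.1.le
      (Eventually.of_forall fun r hr => ?_) (hgx.norm.const_mul ε)
    have h4 := hb _ (hmem r (Ioc_subset_Icc_self hr))
    rw [norm_sub_rev]
    exact ((Φ' (y r) - Φ' (y x)).le_opNorm (g r)).trans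
      (mul_le_mul_of_nonneg_right h4 (norm_nonneg _))
  refine ⟨ht', ?_⟩
  have h5 := norm_sub_le_norm_sub_add_norm_sub (Φ (y t) - Φ (y x)) (Φ' (y x) (y t - y x))
    (∫ s in x..t, Φ' (y s) (g s))
  have h6 := mul_le_mul_of_nonneg_left hn hε.le
  linarith

end

end Chain

open Chain

theorem chain : ChainStmt := by
  intro V _ _ _ a b y g S Φ Φ' hab hg hy hS hyS hΦ hc
  have hyc := cont_of_prim hab hg hy
  have hL : ContinuousOn (fun s => Φ' (y s)) (Icc a b) := hc.comp hyc hyS
  have hint := int_apply hab hg hL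
  refine ⟨hint, ?_⟩
  have hΦc : ContinuousOn Φ S := fun z hz => (hΦ z hz).continuousWithinAt
  have key : ∀ ε : ℝ, 0 < ε →
      ‖Φ (y b) - Φ (y a) - ∫ s in a..b, Φ' (y s) (g s)‖ ≤ 2 * ε * ∫ s in a..b, ‖g s‖ := by
    intro ε hε
    have c1 : ContinuousOn (fun t => ‖Φ (y t) - Φ (y a) - ∫ s in a..t, Φ' (y s) (g s)‖) (Icc a b) :=
      (((hΦc.comp hyc hyS).sub continuousOn_const).sub (cont_prim hab hint)).norm
    have c2 : ContinuousOn (fun t => 2 * ε * ∫ s in a..t, ‖g s‖) (Icc a b) :=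
      continuousOn_const.mul (cont_prim hab hg.norm)
    have hcl : IsClosed ({t | ‖Φ (y t) - Φ (y a) - ∫ s in a..t, Φ' (y s) (g s)‖ ≤
        2 * ε * ∫ s in a..t, ‖g s‖} ∩ Icc a b) := by
      rw [inter_comm]
      exact isClosed_Icc.isClosed_le c1 c2
    refine hcl.Icc_subset_of_forall_mem_nhdsWithin (by simp) ?_ (right_mem_Icc.2 hab)
    rintro x ⟨hx1, hx⟩
    filter_upwards [local_est hab hg hy hS hyS hΦ hc hε hx] with t ht
    have hx' : x ∈ Icc a b := Ico_subset_Icc_self hx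
    simp only [mem_ofPred_eq] at hx1 ⊢
    rw [diff_prim hab hint hx' ht.1, diff_prim hab hg.norm hx' ht.1]
    have e : Φ (y t) - Φ (y a) - ((∫ s in a..x, Φ' (y s) (g s)) + ∫ s in x..t, Φ' (y s) (g s)) =
        (Φ (y x) - Φ (y a) - ∫ s in a..x, Φ' (y s) (g s)) +
          (Φ (y t) - Φ (y x) - ∫ s in x..t, Φ' (y s) (g s)) := by ring
    rw [e]
    refine (norm_add_le _ _).trans ?_
    linarith [ht.2]
  have h0 : ‖Φ (y b) - Φ (y a) - ∫ s in a..b, Φ' (y s) (g s)‖ ≤ 0 := by
    have ht : Tendsto (fun ε : ℝ => 2 * ε * ∫ s in a..b, ‖g s‖) (𝓝[>] 0)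
        (𝓝 (2 * 0 * ∫ s in a..b, ‖g s‖)) :=
      ((by fun_prop : Continuous fun ε : ℝ => 2 * ε * ∫ s in a..b, ‖g s‖).tendsto 0).mono_left
        nhdsWithin_le_nhds
    rw [mul_zero, zero_mul] at ht
    exact ge_of_tendsto ht (eventually_mem_nhdsWithin.mono key)
  have h1 := norm_le_zero_iff.1 h0
  linarith

namespace Chain

/-- Product of a primitive with the exponential of a primitive. -/
theorem prod_exp (h : ChainStmt) {a b c : ℝ} {z p n : ℝ → ℝ} (hab : a ≤ b)
    (hp : IntervalIntegrable p volume a b) (hn : IntervalIntegrable n volume a b)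
    (hz : ∀ t ∈ Icc a b, z t = c + ∫ s in a..t, p s) :
    z b * Real.exp (∫ s in a..b, n s) =
      c + ∫ r in a..b, (p r + n r * z r) * Real.exp (∫ s in a..r, n s) := by
  have hza : z a = c := by simpa using hz a (left_mem_Icc.2 hab)
  have hG : IntervalIntegrable (fun s => (p s, n s)) volume a b :=
    ⟨hp.1.prodMk hn.1, hp.2.prodMk hn.2⟩
  have hd : ∀ w : ℝ × ℝ, HasFDerivAt (fun w : ℝ × ℝ => w.1 * Real.exp w.2)
      ((w.1 * Real.exp w.2) • ContinuousLinearMap.snd ℝ ℝ ℝ +
        Real.exp w.2 • ContinuousLinearMap.fst ℝ ℝ ℝ) w := fun w => by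
    have := (hasFDerivAt_fst (𝕜 := ℝ) (p := w)).mul (hasFDerivAt_snd (𝕜 := ℝ) (p := w)).exp
    refine this.congr_fderiv ?_
    rw [smul_smul]
  have := (h (ℝ × ℝ) a b (fun t => (z t, ∫ s in a..t, n s)) (fun s => (p s, n s)) univ
    (fun w => w.1 * Real.exp w.2) _ hab hG (fun t ht => ?_) convex_univ (fun _ _ => mem_univ _)
    (fun w _ => (hd w).hasFDerivWithinAt) (by fun_prop)).2
  · simp only [intervalIntegral.integral_same, Real.exp_zero, mul_one, hza] at this
    rw [this]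
    refine congrArg (c + ·) (intervalIntegral.integral_congr fun r _ => ?_)
    simp
    ring
  · have hGt := sub_int hab hG (left_mem_Icc.2 hab) ht
    have e1 := (ContinuousLinearMap.fst ℝ ℝ ℝ).intervalIntegral_comp_comm hGt
    have e2 := (ContinuousLinearMap.snd ℝ ℝ ℝ).intervalIntegral_comp_comm hGt
    simp only [ContinuousLinearMap.coe_fst', ContinuousLinearMap.coe_snd'] at e1 e2
    refine Prod.ext ?_ ?_
    · simp only [Prod.fst_add, ← e1, hza]
      exact hz t ht
    · simp only [Prod.snd_add, ← e2, intervalIntegral.integral_same, zero_add]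

theorem exp_split {a b : ℝ} {q n : ℝ → ℝ} (hab : a ≤ b) (hn : IntervalIntegrable n volume a b) :
    ∫ r in a..b, q r * Real.exp (-∫ s in r..b, n s) =
      (∫ r in a..b, q r * Real.exp (∫ s in a..r, n s)) * Real.exp (-∫ s in a..b, n s) := by
  rw [← intervalIntegral.integral_mul_const]
  refine intervalIntegral.integral_congr fun r hr => ?_
  rw [uIcc_of_le hab] at hr
  rw [diff_prim hab hn hr (right_mem_Icc.2 hab), mul_assoc, ← Real.exp_add]
  ring_nf

end Chain

theorem expForm (h : ChainStmt) : ExpStmt := by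
  refine ⟨fun a b y q n hab hq hn hy hyq => ?_, fun a b y₀ y q n hab hq hn hy => ?_⟩
  · have hp : IntervalIntegrable (fun s => q s - n s * y s) volume a b :=
      hq.sub (hn.mul_continuousOn (by rwa [uIcc_of_le hab]))
    have h1 := prod_exp h hab hp hn hyq
    simp only [sub_add_cancel] at h1
    rw [exp_split hab hn, ← add_mul, ← h1, mul_assoc, ← Real.exp_add, add_neg_cancel,
      Real.exp_zero, mul_one]
  · have hN := cont_prim hab hn
    have hp : IntervalIntegrable (fun r => q r * Real.exp (∫ s in a..r, n s)) volume a b :=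
      hq.mul_continuousOn (by rw [uIcc_of_le hab]; exact hN.rexp)
    have hyz : ∀ t ∈ Icc a b, y t = (y₀ + ∫ r in a..t, q r * Real.exp (∫ s in a..r, n s)) *
        Real.exp (-∫ s in a..t, n s) := fun t ht => by
      rw [hy t ht, exp_split ht.1 (sub_int hab hn (left_mem_Icc.2 hab) ht), add_mul]
    refine ⟨((continuousOn_const.add (cont_prim hab hp)).mul hN.neg.rexp).congr hyz,
      fun t ht => ?_⟩
    have h1 := prod_exp h (c := y₀) (z := fun t => y₀ + ∫ r in a..t, q r * Real.exp (∫ s in a..r, n s))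
      ht.1 (sub_int hab hp (left_mem_Icc.2 hab) ht)
      (sub_int hab hn (left_mem_Icc.2 hab) ht).neg (fun _ _ => rfl)
    simp only [Pi.neg_apply, intervalIntegral.integral_neg] at h1
    rw [hyz t ht, h1]
    refine congrArg (y₀ + ·) (intervalIntegral.integral_congr fun r hr => ?_)
    rw [uIcc_of_le ht.1] at hr
    have hr' : r ∈ Icc a b := ⟨hr.1, hr.2.trans ht.2⟩
    rw [hyz r hr', add_mul, mul_assoc (q r), ← Real.exp_add, add_neg_cancel, Real.exp_zero]
    ring

end Vale.Agent.P140
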