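import Vale.Agent.P140.StmB

/-!
Conservation laws of the limit, weak continuity in time, and the difference criterion.
-/

namespace Vale.Agent.P140

open MeasureTheory Set Filter Topology
open scoped ENNReal

noncomputable section

namespace Cons

lemma mY_eq (T : ℝ) : mY T = tm.restrict (Iic T ×ˢ univ) := by
  unfold mY tm mT
  rw [← Measure.restrict_prod_eq_prod_univ, Measure.restrict_restrict measurableSet_Iic,
    inter_comm, Ici_inter_Iic]

lemma tm_mY {T : ℝ} {f : ℝ × Om → ℝ} (hf : ∀ y : ℝ × Om, T < y.1 → f y = 0) :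
    (Integrable f (mY T) → Integrable f tm) ∧ ∫ y, f y ∂tm = ∫ y, f y ∂(mY T) := by
  have hz : ∀ y : ℝ × Om, y ∉ Iic T ×ˢ (univ : Set Om) → f y = 0 := fun y hy =>
    hf y (lt_of_not_ge fun h => hy ⟨h, mem_univ _⟩)
  rw [mY_eq]
  refine ⟨fun h => ?_, (setIntegral_eq_integral_of_forall_compl_eq_zero hz).symm⟩
  exact (integrableOn_iff_integrable_of_support_subset fun y hy => by
    by_contra h'; exact hy (hz y h')).1 h

lemma ae_mY (T : ℝ) : ∀ᵐ y ∂(mY T), y.1 ∈ Icc (0 : ℝ) T := by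
  unfold mY
  refine Measure.quasiMeasurePreserving_fst.ae (p := fun t => t ∈ Icc (0 : ℝ) T) ?_
  exact ae_restrict_mem measurableSet_Icc

/-- A bound at each time gives a bound on the strip. -/
lemma strip {T C : ℝ} {f : ℝ × Om → ℝ} (hf : Measurable f) (h0 : ∀ y, 0 ≤ f y)
    (h : ∀ t, 0 ≤ t → Integrable (fun p => f (t, p)) ∧ ∫ p, f (t, p) ≤ C) :
    Integrable f (mY T) ∧ ∫ y, f y ∂(mY T) ≤ (mT T).real univ * C := by
  have hae : ∀ᵐ t ∂(mT T), t ∈ Icc (0 : ℝ) T := ae_restrict_mem measurableSet_Icc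
  have hm : AEStronglyMeasurable f ((mT T).prod volume) := hf.aestronglyMeasurable
  have hi : Integrable f ((mT T).prod volume) := by
    rw [integrable_prod_iff hm]
    refine ⟨hae.mono fun t ht => (h t ht.1).1, ?_⟩
    refine Integrable.mono' (integrable_const C) hm.norm.integral_prod_right' ?_
    filter_upwards [hae] with t ht
    have e : ∫ p, ‖f (t, p)‖ = ∫ p, f (t, p) := by
      simp only [Real.norm_eq_abs, abs_of_nonneg (h0 _)]
    rw [e, Real.norm_eq_abs, abs_of_nonneg (integral_nonneg fun p => h0 _)]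
    exact (h t ht.1).2
  refine ⟨hi, ?_⟩
  unfold mY
  rw [integral_prod _ hi]
  calc _ ≤ ∫ _, C ∂(mT T) :=
        integral_mono_ae hi.integral_prod_left (integrable_const C)
          (hae.mono fun t ht => (h t ht.1).2)
    _ = _ := by simp

lemma one_le_W (v : E) : 1 ≤ 1 + ‖v‖ := le_add_of_nonneg_right (norm_nonneg _)

lemma comp_int {f : Om → ℝ} (hf : Measurable f) (h0 : ∀ p, 0 ≤ f p)
    (h : Integrable fun p : Om => f p * (1 + ‖p.2‖) ^ 2) (i : Fin 3) :
    (∫ p : Om, f p • p.2) i = ∫ p : Om, f p * p.2 i := by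
  have hi : Integrable fun p : Om => f p • p.2 := by
    refine h.mono' (hf.smul measurable_snd).aestronglyMeasurable (Eventually.of_forall fun p => ?_)
    rw [norm_smul, Real.norm_eq_abs, abs_of_nonneg (h0 p)]
    refine mul_le_mul_of_nonneg_left ?_ (h0 p)
    nlinarith [norm_nonneg p.2]
  have := (EuclideanSpace.proj i : E →L[ℝ] ℝ).integral_comp_comm hi
  simpa using this.symm

lemma int_en {f : Om → ℝ} (hf : Measurable f) (h0 : ∀ p, 0 ≤ f p)
    (h : Integrable fun p : Om => f p * (1 + ‖p.2‖) ^ 2) :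
    Integrable fun p : Om => ‖p.2‖ ^ 2 * f p := by
  refine h.mono' ((measurable_snd.norm.pow_const 2).mul hf).aestronglyMeasurable
    (Eventually.of_forall fun p => ?_)
  rw [Real.norm_eq_abs, abs_of_nonneg (mul_nonneg (sq_nonneg _) (h0 p)), mul_comm]
  refine mul_le_mul_of_nonneg_left ?_ (h0 p)
  nlinarith [norm_nonneg p.2]

lemma datum_mom {F₀ : Om → ℝ} (h : IsDatum F₀) :
    Integrable fun p : Om => F₀ p * (1 + ‖p.2‖) ^ 2 := by
  refine (h.2.2.const_mul 2).mono' (h.1.mul
    ((measurable_const.add measurable_snd.norm).pow_const 2)).aestronglyMeasurable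
    (Eventually.of_forall fun p => ?_)
  have h0 := h.2.1 p
  rw [Real.norm_eq_abs, abs_of_nonneg (mul_nonneg h0 (sq_nonneg _)), mul_left_comm]
  refine mul_le_mul_of_nonneg_left ?_ h0
  nlinarith [sq_nonneg (1 - ‖p.2‖), abs_nonneg (Real.log (F₀ p))]

lemma lint_en {f : Om → ℝ} (h0 : ∀ p, 0 ≤ f p)
    (h : Integrable fun p : Om => ‖p.2‖ ^ 2 * f p) :
    ∫⁻ p : Om, ENNReal.ofReal (f p) * ENNReal.ofReal (‖p.2‖ ^ 2)
      = ENNReal.ofReal (∫ p : Om, ‖p.2‖ ^ 2 * f p) := by
  rw [ofReal_integral_eq_lintegral_ofReal h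
    (Eventually.of_forall fun p => mul_nonneg (sq_nonneg _) (h0 p))]
  refine lintegral_congr fun p => ?_
  rw [ENNReal.ofReal_mul (sq_nonneg _), mul_comm]

lemma fl_cont (hT : TorusStmt) {f : Om → ℝ} (hf : Integrable f) :
    Tendsto (fun t : ℝ => ∫ p, |f (fl t p) - f p|) (𝓝 0) (𝓝 0) := by
  have : (volume : Measure Om).Regular :=
    Measure.Regular.of_sigmaCompactSpace_of_isLocallyFiniteMeasure _
  let g : C(ℝ × Om, Om) := ⟨fun y => fl y.1 y.2, continuous_fl⟩
  have hm : ∀ t, MeasurePreserving (g.curry t) (volume : Measure Om) volume := fun t =>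
    hT.2.2.2.2.2.2.1 t
  have hc : Continuous fun t => Lp.compMeasurePreserving (g.curry t) (hm t) (hf.toL1 f) :=
    continuous_const.compMeasurePreservingLp g.curry.continuous hm ENNReal.one_ne_top
  have h1 := ((hc.sub (continuous_const (y := Lp.compMeasurePreserving (g.curry 0) (hm 0)
    (hf.toL1 f)))).norm).tendsto 0
  simp only [Pi.sub_apply, sub_self, norm_zero] at h1
  refine h1.congr fun t => ?_
  rw [L1.norm_eq_integral_norm]
  refine integral_congr_ae ?_
  have e : ∀ s, Lp.compMeasurePreserving (g.curry s) (hm s) (hf.toL1 f)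
      =ᵐ[volume] fun p => f (fl s p) := fun s =>
    (Lp.coeFn_compMeasurePreserving _ (hm s)).trans
      ((hm s).quasiMeasurePreserving.ae_eq_comp hf.coeFn_toL1)
  filter_upwards [Lp.coeFn_sub (Lp.compMeasurePreserving (g.curry t) (hm t) (hf.toL1 f))
    (Lp.compMeasurePreserving (g.curry 0) (hm 0) (hf.toL1 f)), e t, e 0] with p h1 h2 h3
  rw [h1, Pi.sub_apply, h2, h3, fl_zero, Real.norm_eq_abs]

end Cons

open Cons in
theorem consL (hU : UIStmt) (hW : WLStmt) (hTe : TestStmt) (hC : TSConsStmt) : ConsStmt := by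
  intro R δ Fn F₀ F hL
  have := hU.2.1
  have hA := hL.apr
  have hS := hA.toSeq
  obtain ⟨Cm, hmom⟩ := hA.mom
  obtain ⟨CF, hmomF⟩ := hL.mom
  have hcons := fun n => hC _ _ _ _ (hS.Rpos n) (hS.δpos n) (hS.ts n)
  have hmn : ∀ n t, Measurable (Fn n t) := fun n t =>
    (hS.ts n).meas.comp (measurable_const.prodMk measurable_id)
  have hmF : ∀ t, Measurable (F t) := fun t =>
    hL.meas.comp (measurable_const.prodMk measurable_id)
  have hWm : Measurable fun p : Om => 1 + ‖p.2‖ := measurable_const.add measurable_snd.norm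
  refine ⟨fun χ hχ => ?_, fun t ht => ?_, fun t ht => ?_⟩
  · obtain ⟨hχc, htc, -, r, D, hr, hsupp, hbd⟩ := hTe.2 χ hχ
    set T := r + 1 with hTdef
    have hD : 0 ≤ D := (abs_nonneg _).trans (hbd 0 (0, 0) le_rfl).1
    let ψ : ℝ × Om → ℝ := fun y => trans (fun t p => χ t p.1) (max y.1 0) y.2
    have hψm : Measurable ψ :=
      (htc.comp (f := fun y : ℝ × Om => (max y.1 0, y.2)) (by fun_prop)).measurable
    have hψ : ∀ᵐ y ∂(mY T), ψ y = trans (fun t p => χ t p.1) y.1 y.2 := by
      filter_upwards [ae_mY T] with y hy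
      simp only [ψ, max_eq_left hy.1]
    have hst := fun n => strip (T := T) (C := Cm)
      (f := fun y : ℝ × Om => Fn n y.1 y.2 * (1 + ‖y.2.2‖) ^ 2)
      ((hS.ts n).meas.mul ((hWm.comp measurable_snd).pow_const 2))
      (fun y => mul_nonneg ((hS.ts n).nonneg _ _) (sq_nonneg _)) (fun t ht => hmom n t ht)
    have hψb : ∀ y, |ψ y| ≤ D * (1 + ‖y.2.2‖) := fun y => (hbd _ y.2 (le_max_right _ _)).2
    obtain ⟨hi, hlim⟩ := (hW (ℝ × Om) (mY T)).2.2.2.1 (fun n y => Fn n y.1 y.2)
      (fun y => F y.1 y.2) (fun y => 1 + ‖y.2.2‖) ψ (max ((mT T).real univ * Cm) D) (hA.uiY T)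
      (fun n y => (hS.ts n).nonneg _ _) (hL.wlY T) (hWm.comp measurable_snd)
      (fun y => one_le_W _) (fun n => (hst n).1) (fun n => (hst n).2.trans (le_max_left _ _)) hψm
      (fun y => (hψb y).trans (mul_le_mul_of_nonneg_right (le_max_right _ _) (by positivity)))
    have hz : ∀ (G : ℝ → Om → ℝ) (y : ℝ × Om), T < y.1 →
        G y.1 y.2 * trans (fun t p => χ t p.1) y.1 y.2 = 0 := fun G y hy => by
      rw [(hsupp y.1 y.2 (by linarith)).2, mul_zero]
    have hcongr : ∀ G : ℝ → Om → ℝ, (fun y : ℝ × Om => G y.1 y.2 * ψ y) =ᵐ[mY T]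
        fun y => G y.1 y.2 * trans (fun t p => χ t p.1) y.1 y.2 := fun G => by
      filter_upwards [hψ] with y hy
      rw [hy]
    have hiF : Integrable (fun y : ℝ × Om => F y.1 y.2 * ψ y) (mY T) := by
      refine (hi.const_mul D).mono' (hL.meas.mul hψm).aestronglyMeasurable
        (Eventually.of_forall fun y => ?_)
      have h0 := hL.nonneg y.1 y.2
      rw [Real.norm_eq_abs, abs_mul, abs_of_nonneg h0, mul_left_comm]
      refine mul_le_mul_of_nonneg_left ((hψb y).trans (mul_le_mul_of_nonneg_left ?_ hD)) h0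
      nlinarith [norm_nonneg y.2.2]
    refine ⟨(tm_mY (hz F)).1 (hiF.congr (hcongr F)), ?_⟩
    have hlim0 := (hL.wl 0 le_rfl).2.2 (fun p => χ 0 p.1)
      (hχc.comp (f := fun p : Om => ((0 : ℝ), p.1)) (by fun_prop)).measurable
      ⟨D, fun p => (hbd 0 p le_rfl).1⟩
    have hsum := hlim.add hlim0
    have he : ∀ n, ∫ y, Fn n y.1 y.2 * ψ y ∂(mY T) + ∫ p : Om, Fn n 0 p * χ 0 p.1 = 0 := fun n => by
      rw [integral_congr_ae (hcongr (Fn n)), ← (tm_mY (hz (Fn n))).2]
      exact ((hcons n).2 χ hχ).2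
    simp only [he] at hsum
    have h0 := tendsto_nhds_unique hsum tendsto_const_nhds
    have h1 : ∫ p : Om, F 0 p * χ 0 p.1 = ∫ p : Om, F₀ p * χ 0 p.1 := by
      refine integral_congr_ae ?_
      filter_upwards [hL.init] with p hp
      rw [hp]
    rw [(tm_mY (hz F)).2, ← integral_congr_ae (hcongr F), ← h1]
    exact h0
  · ext i
    have hlim : ∀ s, 0 ≤ s → Tendsto (fun n => ∫ p : Om, Fn n s p * p.2 i) UF
        (𝓝 (∫ p : Om, F s p * p.2 i)) := fun s hs =>
      ((hW Om volume).2.2.2.1 (fun n => Fn n s) (F s) (fun p => 1 + ‖p.2‖) (fun p => p.2 i)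
        (max Cm 1) (hA.uiT s hs) (fun n p => (hS.ts n).nonneg _ _) (hL.wl s hs) hWm
        (fun p => one_le_W _) (fun n => (hmom n s hs).1)
        (fun n => (hmom n s hs).2.trans (le_max_left _ _)) (by fun_prop) (fun p => by
          have h1 : |p.2 i| ≤ ‖p.2‖ := by simpa using PiLp.norm_apply_le p.2 i
          have h2 := le_max_right Cm 1
          nlinarith [norm_nonneg p.2])).2
    have he : ∀ n, ∫ p : Om, Fn n t p * p.2 i = ∫ p : Om, Fn n 0 p * p.2 i := fun n => by
      rw [← comp_int (hmn n t) ((hS.ts n).nonneg t) (hmom n t ht).1,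
        ← comp_int (hmn n 0) ((hS.ts n).nonneg 0) (hmom n 0 le_rfl).1, ((hcons n).1 t ht).2.2.1]
    have h1 := hlim t ht
    simp only [he] at h1
    have h2 := tendsto_nhds_unique h1 (hlim 0 le_rfl)
    rw [comp_int (hmF t) (hL.nonneg t) (hmomF t ht).1,
      comp_int hS.datum.1 hS.datum.2.1 (datum_mom hS.datum), h2]
    refine integral_congr_ae ?_
    filter_upwards [hL.init] with p hp
    rw [hp]
  · have i0 := int_en hS.datum.1 hS.datum.2.1 (datum_mom hS.datum)
    have c0 : 0 ≤ ∫ p : Om, ‖p.2‖ ^ 2 * F₀ p :=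
      integral_nonneg fun p => mul_nonneg (sq_nonneg _) (hS.datum.2.1 p)
    refine le_of_forall_pos_le_add fun ε hε => ?_
    have hev : ∀ᶠ n in UF, ∫⁻ p : Om, ENNReal.ofReal (Fn n t p) * ENNReal.ofReal (‖p.2‖ ^ 2)
        ≤ ENNReal.ofReal ((∫ p : Om, ‖p.2‖ ^ 2 * F₀ p) + ε) := by
      refine hU.1 ?_
      filter_upwards [hS.conv.eventually (gt_mem_nhds hε)] with n hn
      have i1 := int_en (hmn n 0) ((hS.ts n).nonneg 0) (hmom n 0 le_rfl).1
      rw [lint_en ((hS.ts n).nonneg t) (int_en (hmn n t) ((hS.ts n).nonneg t) (hmom n t ht).1),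
        ((hcons n).1 t ht).2.2.2]
      refine ENNReal.ofReal_le_ofReal ?_
      have i2 : Integrable fun p : Om => |Fn n 0 p - F₀ p| * (1 + ‖p.2‖ ^ 2) := by
        refine ((hmom n 0 le_rfl).1.add (datum_mom hS.datum)).mono'
          (((hmn n 0).sub hS.datum.1).abs.mul
            (measurable_const.add (measurable_snd.norm.pow_const 2))).aestronglyMeasurable
          (Eventually.of_forall fun p => ?_)
        have a1 := (hS.ts n).nonneg 0 p
        have a2 := hS.datum.2.1 p
        rw [Real.norm_eq_abs, abs_of_nonneg (by positivity), Pi.add_apply, ← add_mul]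
        refine mul_le_mul (abs_le.2 ⟨by linarith, by linarith⟩) ?_ (by positivity) (by positivity)
        nlinarith [norm_nonneg p.2]
      have h3 : ∫ p : Om, (‖p.2‖ ^ 2 * Fn n 0 p - ‖p.2‖ ^ 2 * F₀ p)
          ≤ ∫ p : Om, |Fn n 0 p - F₀ p| * (1 + ‖p.2‖ ^ 2) := by
        refine integral_mono (i1.sub i0) i2 fun p => ?_
        have a1 := le_abs_self (Fn n 0 p - F₀ p)
        have a2 := abs_nonneg (Fn n 0 p - F₀ p)
        simp only
        nlinarith [sq_nonneg ‖p.2‖]
      rw [integral_sub i1 i0] at h3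
      linarith
    have key := (hW Om volume).2.2.1 (fun n => Fn n t) (F t) (fun p => ENNReal.ofReal (‖p.2‖ ^ 2))
      _ (hA.uiT t ht) (fun n p => (hS.ts n).nonneg _ _) (hL.wl t ht)
      (ENNReal.measurable_ofReal.comp (measurable_snd.norm.pow_const 2)) hev
    rw [lint_en (hL.nonneg t) (int_en (hmF t) (hL.nonneg t) (hmomF t ht).1)] at key
    exact (ENNReal.ofReal_le_ofReal_iff (by linarith)).1 key

open Cons in
theorem weakCont (hT : TorusStmt) : WeakContStmt := by
  intro R δ Fn F₀ F hL ψ hψ ⟨C, hC⟩ s hs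
  have hs0 : 0 ≤ s := hs
  have hint : ∀ t, 0 ≤ t → Integrable (F t) := fun t ht => (hL.wl t ht).2.1
  have hmp := hT.2.2.2.2.2.2.1
  have hmF : ∀ t, Measurable (F t) := fun t =>
    hL.meas.comp (measurable_const.prodMk measurable_id)
  -- convergence in L¹
  have h1 : Tendsto (fun t => ∫ p, |F t (fl t p) - F s (fl s p)|) (𝓝[Ici 0] s) (𝓝 0) := by
    rw [Metric.tendsto_nhdsWithin_nhds]
    intro ε hε
    obtain ⟨η, hη, h⟩ := hL.cont (s + 1) (ε / 2) (half_pos hε)
    refine ⟨min η 1, lt_min hη one_pos, fun t ht hd => ?_⟩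
    rw [Real.dist_eq, lt_min_iff] at hd
    have h2 := h s ⟨hs0, by linarith⟩ t ⟨ht, by linarith [(abs_lt.1 hd.2).2]⟩
      (by rw [abs_sub_comm]; exact hd.1.le)
    rw [Real.dist_eq, sub_zero, abs_of_nonneg (integral_nonneg fun p => abs_nonneg _)]
    linarith
  have h2 : Tendsto (fun t => ∫ p, |F s (fl (s - t) p) - F s p|) (𝓝[Ici 0] s) (𝓝 0) := by
    refine (fl_cont hT (hint s hs0)).comp (tendsto_nhdsWithin_of_tendsto_nhds ?_)
    have : Tendsto (fun t : ℝ => s - t) (𝓝 s) (𝓝 (s - s)) :=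
      (continuous_const.sub continuous_id).tendsto s
    rwa [sub_self] at this
  have h3 := (h1.add h2).const_mul C
  rw [add_zero, mul_zero] at h3
  rw [ContinuousWithinAt, tendsto_iff_norm_sub_tendsto_zero]
  refine squeeze_zero' (Eventually.of_forall fun _ => norm_nonneg _) ?_ h3
  filter_upwards [self_mem_nhdsWithin] with t ht
  have ht0 : 0 ≤ t := ht
  have hC0 : 0 ≤ C := (abs_nonneg _).trans (hC (0, 0))
  have iψ : ∀ u, 0 ≤ u → Integrable fun p => F u p * ψ p := fun u hu =>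
    (hint u hu).mul_bdd hψ.aestronglyMeasurable (Eventually.of_forall hC)
  have i3 : Integrable fun p => F s (fl (s - t) p) :=
    ((hmp (s - t)).integrable_comp (hint s hs0).aestronglyMeasurable).2 (hint s hs0)
  have e1 : ∫ p, |F t (fl t p) - F s (fl s p)| = ∫ p, |F t p - F s (fl (s - t) p)| := by
    have hm : Measurable fun p => |F t p - F s (fl (s - t) p)| :=
      ((hmF t).sub ((hmF s).comp (hmp (s - t)).measurable)).abs
    conv_rhs => rw [← (hmp t).map_eq]
    rw [integral_map (hmp t).measurable.aemeasurable hm.aestronglyMeasurable]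
    simp only [fl_fl, sub_add_cancel]
  have ia : Integrable fun p => |F t p - F s (fl (s - t) p)| := ((hint t ht0).sub i3).abs
  have ib : Integrable fun p => |F s (fl (s - t) p) - F s p| := (i3.sub (hint s hs0)).abs
  rw [e1, ← integral_sub (iψ t ht0) (iψ s hs0), ← integral_add ia ib, ← integral_const_mul]
  refine norm_integral_le_of_norm_le ((ia.add ib).const_mul C) (Eventually.of_forall fun p => ?_)
  rw [← sub_mul, Real.norm_eq_abs, abs_mul, mul_comm]
  exact mul_le_mul (hC p) (abs_sub_le _ _ _) (abs_nonneg _) hC0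

theorem differ : DifferStmt := by
  intro F₀ F G hF hG t ψ ht hψ hb hne h
  refine hne (Measure.eqOn_of_ae_eq (μ := volume) (s := Ici 0) ?_ (hF.weakCont ψ hψ hb)
    (hG.weakCont ψ hψ hb) (by rw [interior_Ici, closure_Ioi]) ht)
  have h1 := Measure.ae_ae_of_ae_prod h
  filter_upwards [h1] with s hs
  refine integral_congr_ae ?_
  filter_upwards [hs] with p hp
  rw [hp]

end

end Vale.Agent.P140
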