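import Vale.Agent.P140.DissLscA

/-!
Lower semicontinuity of the dissipation.
-/

namespace Vale.Agent.P140

open MeasureTheory Set Filter Topology
open scoped ENNReal

noncomputable section

namespace DissLsc

instance sf2 : SFinite ((volume : Measure E).prod sph) := inferInstance

instance sf3 : SFinite ((volume : Measure E).prod ((volume : Measure E).prod sph)) :=
  @Measure.prod.instSFinite _ _ _ _ _ inferInstance _ sf2

/-- Collision space. -/
abbrev WW : Type := (ℝ × T3) × E × E × S2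

/-- Measure on the collision space. -/
def mW (T : ℝ) : Measure WW :=
  (mX T).prod ((volume : Measure E).prod ((volume : Measure E).prod sph))

/-- Forget the angle. -/
def pj (w : WW) : (ℝ × T3) × E × E := (w.1, w.2.1, w.2.2.1)

/-- The collision map. -/
def sg (w : WW) : WW :=
  (w.1, vp w.2.1 w.2.2.1 w.2.2.2, wp w.2.1 w.2.2.1 w.2.2.2, w.2.2.2)

/-- The kernel on the collision space. -/
def kk (k : ℝ → ℝ → ℝ) (w : WW) : ℝ := k |cf w.2.1 w.2.2.1 w.2.2.2| ‖w.2.1 - w.2.2.1‖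

/-- Normalized dissipation density for a general kernel. -/
def eK (k : ℝ → ℝ → ℝ) (δ : ℝ) (f : Om → ℝ) (p : Om) : ℝ≥0∞ :=
  (∫⁻ q : E × S2, ENNReal.ofReal (k |cf p.2 q.1 q.2| ‖p.2 - q.1‖) *
    jj (f (p.1, vp p.2 q.1 q.2) * f (p.1, wp p.2 q.1 q.2)) (f (p.1, p.2) * f (p.1, q.1))
      ∂(volume.prod sph)) / ENNReal.ofReal (1 + δ * rho f p.1)

/-- The integrand on the collision space. -/
def HH (k : ℝ → ℝ → ℝ) (ε : ℝ) (G : ℝ → Om → ℝ) (w : WW) : ℝ≥0∞ :=
  ENNReal.ofReal (kk k w) * jj (PP ε G (pj (sg w))) (PP ε G (pj w))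

lemma measurable_pj : Measurable pj := by unfold pj; fun_prop

lemma sg_sg (w : WW) : sg (sg w) = w := by
  simp only [sg, vp_post, wp_post]

lemma sg_pres (hP : PrePostStmt) (T : ℝ) : MeasurePreserving sg (mW T) (mW T) :=
  (MeasurePreserving.id (mX T)).prod hP

lemma measurable_sg : Measurable sg := by
  have h1 : Measurable fun w : WW => vp w.2.1 w.2.2.1 w.2.2.2 :=
    continuous_vp.measurable.comp measurable_snd
  have h2 : Measurable fun w : WW => wp w.2.1 w.2.2.1 w.2.2.2 :=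
    continuous_wp.measurable.comp measurable_snd
  exact measurable_fst.prodMk (h1.prodMk (h2.prodMk (by fun_prop)))

lemma measurable_kk {k : ℝ → ℝ → ℝ} (hk : IsKer k) : Measurable (kk k) := by
  have h1 : Measurable fun w : WW => |cf w.2.1 w.2.2.1 w.2.2.2| :=
    (continuous_cf.measurable.comp measurable_snd).abs
  have h2 : Measurable fun w : WW => ‖w.2.1 - w.2.2.1‖ := by fun_prop
  exact hk.comp (h1.prodMk h2)

lemma measurable_PP (hM : MeasStmt) {G : ℝ → Om → ℝ}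
    (hG : Measurable fun y : ℝ × Om => G y.1 y.2) (ε : ℝ) : Measurable (PP ε G) := by
  have h0 := (hM.2.2.2.2.1 G hG 0 0).1
  have h1 : Measurable fun z : (ℝ × T3) × E × E => G z.1.1 (z.1.2, z.2.1) :=
    hG.comp (f := fun z : (ℝ × T3) × E × E => (z.1.1, (z.1.2, z.2.1))) (by fun_prop)
  have h2 : Measurable fun z : (ℝ × T3) × E × E => G z.1.1 (z.1.2, z.2.2) :=
    hG.comp (f := fun z : (ℝ × T3) × E × E => (z.1.1, (z.1.2, z.2.2))) (by fun_prop)
  have h3 : Measurable fun z : (ℝ × T3) × E × E => rho (G z.1.1) z.1.2 := h0.comp measurable_fst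
  exact (h1.mul h2).div (measurable_const.add (measurable_const.mul h3))

lemma measurable_HH (hM : MeasStmt) {k : ℝ → ℝ → ℝ} (hk : IsKer k) {G : ℝ → Om → ℝ}
    (hG : Measurable fun y : ℝ × Om => G y.1 y.2) (ε : ℝ) : Measurable (HH k ε G) := by
  have h := measurable_PP hM hG ε
  exact (measurable_kk hk).ennreal_ofReal.mul (hM.2.2.2.2.2.1.comp
    ((h.comp (measurable_pj.comp measurable_sg)).prodMk (h.comp measurable_pj)))

lemma rho_nonneg {f : Om → ℝ} (hf : ∀ p, 0 ≤ f p) (x : T3) : 0 ≤ rho f x :=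
  integral_nonneg fun _ => hf _

lemma den_pos {f : Om → ℝ} (hf : ∀ p, 0 ≤ f p) {ε : ℝ} (hε : 0 ≤ ε) (x : T3) :
    0 < 1 + ε * rho f x := by
  have := mul_nonneg hε (rho_nonneg hf x); linarith

lemma PP_nonneg {G : ℝ → Om → ℝ} (hG : ∀ t p, 0 ≤ G t p) {ε : ℝ} (hε : 0 ≤ ε) (z) :
    0 ≤ PP ε G z :=
  div_nonneg (mul_nonneg (hG _ _) (hG _ _)) (den_pos (hG _) hε _).le

lemma HH_eq (hI : IneqStmt) (k : ℝ → ℝ → ℝ) {G : ℝ → Om → ℝ} (hG : ∀ t p, 0 ≤ G t p) {ε : ℝ}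
    (hε : 0 ≤ ε) (w : WW) : HH k ε G w = ENNReal.ofReal (kk k w) *
      jj (G w.1.1 (w.1.2, vp w.2.1 w.2.2.1 w.2.2.2) * G w.1.1 (w.1.2, wp w.2.1 w.2.2.1 w.2.2.2))
        (G w.1.1 (w.1.2, w.2.1) * G w.1.1 (w.1.2, w.2.2.1)) *
        (ENNReal.ofReal (1 + ε * rho (G w.1.1) w.1.2))⁻¹ := by
  have := hI.2.1 _ _ _ (mul_nonneg (hG w.1.1 (w.1.2, vp w.2.1 w.2.2.1 w.2.2.2))
    (hG w.1.1 (w.1.2, wp w.2.1 w.2.2.1 w.2.2.2)))
    (mul_nonneg (hG w.1.1 (w.1.2, w.2.1)) (hG w.1.1 (w.1.2, w.2.2.1)))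
    (den_pos (hG w.1.1) hε w.1.2)
  rw [mul_assoc, ← div_eq_mul_inv, ← this]
  rfl

lemma eK_eq (hI : IneqStmt) (k : ℝ → ℝ → ℝ) {G : ℝ → Om → ℝ} (hG : ∀ t p, 0 ≤ G t p) {ε : ℝ}
    (hε : 0 ≤ ε) (r : ℝ) (p : Om) :
    eK k ε (G r) p = ∫⁻ q : E × S2, HH k ε G ((r, p.1), p.2, q) ∂(volume.prod sph) := by
  simp only [HH_eq hI k hG hε]
  rw [lintegral_mul_const' _ _ (ENNReal.inv_ne_top.2
    (ENNReal.ofReal_pos.2 (den_pos (hG r) hε p.1)).ne')]
  rfl

lemma formula (hM : MeasStmt) (hI : IneqStmt) {k : ℝ → ℝ → ℝ} (hk : IsKer k) {G : ℝ → Om → ℝ}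
    (hGm : Measurable fun y : ℝ × Om => G y.1 y.2) (hG : ∀ t p, 0 ≤ G t p) {ε : ℝ}
    (hε : 0 ≤ ε) (T : ℝ) :
    ∫⁻ w, HH k ε G w ∂(mW T) = ∫⁻ r in Icc (0 : ℝ) T, ∫⁻ p, eK k ε (G r) p := by
  have hH := measurable_HH hM hk hGm ε
  simp only [eK_eq hI k hG hε]
  unfold mW
  rw [lintegral_prod _ hH.aemeasurable]
  unfold mX
  rw [lintegral_prod _ (hH.lintegral_prod_right').aemeasurable]
  refine lintegral_congr fun r => ?_
  have h1 : Measurable fun z : Om × (E × S2) => HH k ε G ((r, z.1.1), z.1.2, z.2) :=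
    hH.comp (by fun_prop)
  rw [Measure.volume_eq_prod T3 E, lintegral_prod _ (h1.lintegral_prod_right').aemeasurable]
  refine lintegral_congr fun x => ?_
  have h2 : Measurable fun u : E × E × S2 => HH k ε G ((r, x), u) := hH.comp (by fun_prop)
  rw [lintegral_prod _ h2.aemeasurable]

lemma kT_mono {R R' a r : ℝ} (hR : 0 ≤ R) (h : R ≤ R') (ha : 0 ≤ a) : kT R a r ≤ kT R' a r := by
  unfold kT
  have h2 : R * a ^ 2 ≤ R' * a ^ 2 := mul_le_mul_of_nonneg_right h (sq_nonneg a)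
  split_ifs with h1 h3
  · exact min_le_min le_rfl h2
  · exact absurd (h1.trans h) h3
  · exact le_min ha (mul_nonneg (hR.trans h) (sq_nonneg a))
  · exact le_rfl

lemma eK_mono {R R' ε ε' : ℝ} (hR : 0 ≤ R) (h : R ≤ R') (h2 : ε' ≤ ε)
    {f : Om → ℝ} (hf : ∀ p, 0 ≤ f p) (p : Om) : eK (kT R) ε f p ≤ eT R' ε' f p := by
  refine ENNReal.div_le_div (lintegral_mono fun q => ?_) (ENNReal.ofReal_le_ofReal ?_)
  · exact mul_le_mul_left (ENNReal.ofReal_le_ofReal (kT_mono hR h (abs_nonneg _))) _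
  · have := mul_le_mul_of_nonneg_right h2 (rho_nonneg hf p.1); linarith

lemma kk_bound {R : ℝ} (hR : 0 ≤ R) (w : WW) : 0 ≤ kk (kT R) w ∧ kk (kT R) w ≤ R := by
  unfold kk kT
  split_ifs with h
  · exact ⟨le_min (abs_nonneg _) (mul_nonneg hR (sq_nonneg _)),
      (min_le_left _ _).trans ((abs_cf_le _ _ _).trans h)⟩
  · exact ⟨le_rfl, hR⟩

/-- Reassociation. -/
lemma assoc_pres (T : ℝ) : MeasurePreserving
    (fun w : WW => (pj w, w.2.2.2)) (mW T) ((mZ T).prod sph) := by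
  have h1 := (measurePreserving_prodAssoc (mX T)
    ((volume : Measure E).prod (volume : Measure E)) sph).symm
  have h2 := (MeasurePreserving.id (mX T)).prod
    (measurePreserving_prodAssoc (volume : Measure E) (volume : Measure E) sph).symm
  exact h1.comp h2

lemma wl_pj {T : ℝ} {f : ℕ → (ℝ × T3) × E × E → ℝ} {g : (ℝ × T3) × E × E → ℝ}
    (hf : ∀ n, Measurable (f n)) (hi : ∀ n, Integrable (f n) (mZ T)) (h : WL (mZ T) f g) :
    (∀ n, Integrable (fun w => f n (pj w)) (mW T)) ∧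
      WL (mW T) (fun n w => f n (pj w)) (fun w => g (pj w)) := by
  refine ⟨fun n => (assoc_pres T).integrable_comp_of_integrable ((hi n).comp_fst sph), ?_⟩
  exact wl_comp (assoc_pres T) (e' := fun u => (u.1.1, u.1.2.1, u.1.2.2, u.2)) (by fun_prop)
    (fun _ => rfl) (fun n => (hf n).comp measurable_fst) (wl_fst (ν := sph) hf hi h)

lemma tendsto_HH (hI : IneqStmt) {G : ℝ → Om → ℝ} (hG : ∀ t p, 0 ≤ G t p) (w : WW) :
    Tendsto (fun N : ℕ => HH (kT ((N : ℝ) + 1)) ((N : ℝ) + 1)⁻¹ G w) atTop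
      (𝓝 (HH kF 0 G w)) := by
  have hN : Tendsto (fun N : ℕ => (N : ℝ) + 1) atTop atTop :=
    tendsto_atTop_add_const_right _ _ tendsto_natCast_atTop_atTop
  have hpos : ∀ N : ℕ, (0 : ℝ) ≤ ((N : ℝ) + 1)⁻¹ := fun N => by positivity
  have hev : ∀ᶠ N : ℕ in atTop, kk (kT ((N : ℝ) + 1)) w = kk kF w := by
    unfold kk kT kF
    set a := |cf w.2.1 w.2.2.1 w.2.2.2| with ha
    have ha0 : 0 ≤ a := abs_nonneg _
    filter_upwards [hN.eventually_ge_atTop ‖w.2.1 - w.2.2.1‖, hN.eventually_ge_atTop a⁻¹]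
      with N h1 h2
    rw [if_pos h1]
    refine min_eq_left ?_
    rcases ha0.eq_or_lt with h | h
    · rw [← h]; simp
    · have : a⁻¹ * a ^ 2 = a := by field_simp
      nlinarith [mul_le_mul_of_nonneg_right h2 (sq_nonneg a)]
  simp only [HH_eq hI _ hG (hpos _), HH_eq hI _ hG le_rfl]
  refine Tendsto.congr' (f₁ := fun N : ℕ => ENNReal.ofReal (kk kF w) * _ *
    (ENNReal.ofReal (1 + ((N : ℝ) + 1)⁻¹ * rho (G w.1.1) w.1.2))⁻¹)
    (hev.mono fun N h => by simp only [h]; rfl) ?_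
  refine ENNReal.Tendsto.const_mul ?_ (Or.inl (by simp))
  refine tendsto_inv_iff.2 ((ENNReal.continuous_ofReal.tendsto _).comp ?_)
  exact tendsto_const_nhds.add ((tendsto_inv_atTop_zero.comp hN).mul_const _)

end DissLsc

open DissLsc in
theorem dissLsc (hM : MeasStmt) (hP : PrePostStmt) (_hWk : WeakStmt) (hU : UIStmt)
    (hI : IneqStmt) (_hF : TSFlStmt) (_hO : TOpStmt) (h : ProdStmt) : DissLscStmt := by
  intro R δ Fn F₀ F hL t c _ hc
  have hts := hL.apr.ts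
  have hc4 : ∀ᶠ n in UF, ∫⁻ r in Icc (0 : ℝ) t, ∫⁻ p, eT (R n) (δ n) (Fn n r) p ≤ 4 * c := by
    filter_upwards [hc] with n hn
    refine le_trans (le_of_eq ?_) (mul_le_mul_right hn 4)
    rw [← mul_assoc, one_div, ENNReal.mul_inv_cancel (by simp) (by simp), one_mul]
  have step : ∀ M : ℝ, 0 < M → ∫⁻ w, HH (kT M) M⁻¹ F w ∂(mW t) ≤ 4 * c := by
    intro M hM0
    have hε : 0 < M⁻¹ := inv_pos.2 hM0
    obtain ⟨hui, hwl⟩ := h R δ Fn F₀ F hL t M⁻¹ hε
    have hint := ((hU.2.2 _ (mZ t)).1 _ hui).1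
    obtain ⟨i1, w1⟩ := wl_pj hui.1 hint hwl
    have w2 := wl_comp (sg_pres hP t) measurable_sg sg_sg
      (fun n => (hui.1 n).comp measurable_pj) w1
    refine lsc hI hU (K := M) (fun n w => PP_nonneg (hts n).nonneg hε.le _)
      (fun n w => PP_nonneg (hts n).nonneg hε.le _)
      (fun n => (sg_pres hP t).integrable_comp_of_integrable (i1 n)) i1 w2 w1
      (fun w => PP_nonneg hL.nonneg hε.le _) (fun w => PP_nonneg hL.nonneg hε.le _)
      (measurable_kk (hM.2.1 M)) (fun w => (kk_bound hM0.le w).1)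
      (fun w => (kk_bound hM0.le w).2) ?_
    filter_upwards [hc4, hU.1 (hL.apr.Rlim.eventually_ge_atTop M),
      hU.1 (hL.apr.δlim.eventually (ge_mem_nhds hε))] with n h1 h2 h3
    have := formula hM hI (hM.2.1 M) (hts n).meas (hts n).nonneg hε.le t
    refine le_trans (le_of_eq this) (le_trans ?_ h1)
    exact lintegral_mono fun r => lintegral_mono fun p =>
      eK_mono hM0.le h2 h3 ((hts n).nonneg r) p
  have fat := lintegral_liminf_le (μ := mW t) (u := atTop)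
    (fun N : ℕ => measurable_HH hM (hM.2.1 ((N : ℝ) + 1)) hL.meas ((N : ℝ) + 1)⁻¹)
  simp only [(tendsto_HH hI hL.nonneg _).liminf_eq] at fat
  have h4 : ∫⁻ w, HH kF 0 F w ∂(mW t) ≤ 4 * c :=
    fat.trans (liminf_le_of_frequently_le'
      (Eventually.of_forall fun N => step _ (by positivity)).frequently)
  rw [formula hM hI hM.1 hL.meas hL.nonneg le_rfl t] at h4
  have h5 : ∀ s, diss (F s) = (1 / 4) * ∫⁻ p, eK kF 0 (F s) p := by
    intro s
    simp [diss, eK, kF]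
  simp only [h5]
  rw [lintegral_const_mul' _ _ (by simp)]
  refine (mul_le_mul_right h4 _).trans (le_of_eq ?_)
  rw [← mul_assoc, one_div, ENNReal.inv_mul_cancel (by simp) (by simp), one_mul]

end

end Vale.Agent.P140
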