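import Vale.Agent.P140.StmB

/-!
Lower semicontinuity of the relative entropy; the entropy inequality of the limit.
-/

namespace Vale.Agent.P140

open MeasureTheory Set Filter Topology
open scoped ENNReal

noncomputable section

namespace EntLsc

/-- Clamping to the interval from `1 / (N + 1)` to `N + 1`. -/
def cl (N : ℕ) (r : ℝ) : ℝ := max ((N : ℝ) + 1)⁻¹ (min r (N + 1))

lemma one_le (N : ℕ) : (1 : ℝ) ≤ N + 1 := le_add_of_nonneg_left (Nat.cast_nonneg N)

lemma inv_le (N : ℕ) : ((N : ℝ) + 1)⁻¹ ≤ 1 := inv_le_one_of_one_le₀ (one_le N)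

lemma cl_pos (N : ℕ) (r : ℝ) : 0 < cl N r := lt_max_of_lt_left (by positivity)

lemma cl_le (N : ℕ) (r : ℝ) : cl N r ≤ N + 1 :=
  max_le ((inv_le N).trans (one_le N)) (min_le_right _ _)

lemma abs_log_cl (N : ℕ) (r : ℝ) : |Real.log (cl N r)| ≤ Real.log (N + 1) := by
  rw [abs_le, ← Real.log_inv]
  exact ⟨Real.log_le_log (by positivity) (le_max_left _ _), Real.log_le_log (cl_pos N r) (cl_le N r)⟩

lemma measurable_cl (N : ℕ) : Measurable (cl N) := by
  unfold cl; fun_prop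

lemma cl_sign (N : ℕ) (r : ℝ) : 0 ≤ (r - cl N r) * Real.log (cl N r) := by
  unfold cl
  rcases le_total r (N + 1) with h | h
  · rw [min_eq_left h]
    rcases le_total r ((N : ℝ) + 1)⁻¹ with h' | h'
    · rw [max_eq_left h']
      exact mul_nonneg_of_nonpos_of_nonpos (sub_nonpos.2 h')
        (Real.log_nonpos (by positivity) (inv_le N))
    · rw [max_eq_right h', sub_self, zero_mul]
  · rw [min_eq_right h, max_eq_right ((inv_le N).trans (one_le N))]
    exact mul_nonneg (sub_nonneg.2 h) (Real.log_nonneg (one_le N))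

lemma cl_nonneg (N : ℕ) (r : ℝ) : 0 ≤ r * Real.log (cl N r) - (cl N r - 1) := by
  have h1 := cl_sign N r
  have h2 := cl_pos N r
  have h3 := Real.one_sub_inv_le_log_of_pos h2
  have h4 := mul_le_mul_of_nonneg_left h3 h2.le
  rw [mul_sub, mul_inv_cancel₀ h2.ne'] at h4
  linarith

lemma cl_lim {r : ℝ} (hr : 0 ≤ r) : Tendsto (fun N : ℕ => r * Real.log (cl N r) - (cl N r - 1))
    atTop (𝓝 (r * Real.log r - (r - 1))) := by
  have h0 : Tendsto (fun N : ℕ => (N : ℝ) + 1) atTop atTop :=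
    tendsto_atTop_add_const_right _ _ tendsto_natCast_atTop_atTop
  have h1 : Tendsto (fun N : ℕ => ((N : ℝ) + 1)⁻¹) atTop (𝓝 0) := h0.inv_tendsto_atTop
  have h2 : Tendsto (fun N : ℕ => cl N r) atTop (𝓝 r) := by
    have h3 : Tendsto (fun N : ℕ => min r ((N : ℝ) + 1)) atTop (𝓝 r) :=
      tendsto_const_nhds.congr' ((h0.eventually_ge_atTop r).mono fun N h => (min_eq_left h).symm)
    have h4 := h1.max h3
    rwa [max_eq_right hr] at h4
  refine Tendsto.sub ?_ (h2.sub_const 1)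
  rcases hr.eq_or_lt with rfl | h
  · simp only [zero_mul]
    exact tendsto_const_nhds
  · exact (h2.log h.ne').const_mul r

lemma ofReal_integral_le {α : Type} [MeasurableSpace α] {μ : Measure α} {f : α → ℝ}
    (hf : Integrable f μ) : ENNReal.ofReal (∫ x, f x ∂μ) ≤ ∫⁻ x, ENNReal.ofReal (f x) ∂μ := by
  have h1 : ∫ x, f x ∂μ ≤ ∫ x, max (f x) 0 ∂μ :=
    integral_mono hf hf.pos_part fun x => le_max_left _ _
  refine (ENNReal.ofReal_le_ofReal h1).trans ?_
  rw [ofReal_integral_eq_lintegral_ofReal hf.pos_part (ae_of_all _ fun x => le_max_right _ _)]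
  refine lintegral_mono fun x => ?_
  rw [ENNReal.ofReal_max]
  simp

lemma int_Mx (hI : IneqStmt) : Integrable (fun p : Om => Mx p.2) :=
  hI.2.2.2.2.2.2.1.comp_snd (volume : Measure T3)

lemma int_mul {f ψ : Om → ℝ} {C : ℝ} (hf : Integrable f) (hψ : Measurable ψ)
    (hC : ∀ p, |ψ p| ≤ C) : Integrable fun p => f p * ψ p :=
  hf.mul_bdd hψ.aestronglyMeasurable (ae_of_all _ hC)

lemma lim_ex (a : ℕ → ℝ≥0∞) : ∃ l, Tendsto a UF (𝓝 l) :=
  ⟨_, ((hyperfilter ℕ).map a).le_nhds_lim⟩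

end EntLsc

open EntLsc

theorem entLsc (hU : UIStmt) (hI : IneqStmt) : EntLscStmt := by
  intro f g c hf hg hui hwl hc
  have := hU.2.1
  have hint := ((hU.2.2 Om volume).1 f hui).1
  have hM : Measurable fun p : Om => Mx p.2 := continuous_Mx.measurable.comp measurable_snd
  have hs : ∀ N, Measurable fun p : Om => cl N (g p / Mx p.2) := fun N =>
    (measurable_cl N).comp (hwl.1.div hM)
  have hψ : ∀ N, Measurable fun p : Om => Real.log (cl N (g p / Mx p.2)) := fun N => (hs N).log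
  have hB : ∀ N, Integrable fun p : Om => Mx p.2 * (cl N (g p / Mx p.2) - 1) := fun N =>
    int_mul (C := N + 1 + 1) (int_Mx hI) ((hs N).sub_const 1) fun p => by
      have h1 := cl_pos N (g p / Mx p.2)
      have h2 := cl_le N (g p / Mx p.2)
      have h3 := one_le N
      rw [abs_le]
      constructor <;> linarith
  have hA : ∀ N (u : Om → ℝ), Integrable u →
      Integrable fun p : Om => u p * Real.log (cl N (g p / Mx p.2)) := fun N u hu =>
    int_mul hu (hψ N) fun p => abs_log_cl N _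
  have h1 : ∀ N, ENNReal.ofReal (∫ p : Om, (g p * Real.log (cl N (g p / Mx p.2))
      - Mx p.2 * (cl N (g p / Mx p.2) - 1))) ≤ c := by
    intro N
    have h2 := (hwl.2.2 _ (hψ N) ⟨_, fun p => abs_log_cl N _⟩).sub_const
      (∫ p : Om, Mx p.2 * (cl N (g p / Mx p.2) - 1))
    rw [← integral_sub (hA N g hwl.2.1) (hB N)] at h2
    refine le_of_tendsto (ENNReal.tendsto_ofReal h2) (hc.mono fun n hn => le_trans ?_ hn)
    rw [← integral_sub (hA N _ (hint n)) (hB N)]
    refine (ofReal_integral_le ((hA N _ (hint n)).sub (hB N))).trans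
      (lintegral_mono fun p => ENNReal.ofReal_le_ofReal ?_)
    have h3 := (hI.2.2.2.2.1 (f n p) (Mx p.2) (hf n p) (Mx_pos _)).2.2
      (Real.log (cl N (g p / Mx p.2)))
    rw [Real.exp_log (cl_pos _ _)] at h3
    show f n p * _ - Mx p.2 * _ ≤ _
    linarith
  have he : ∀ N (p : Om), g p * Real.log (cl N (g p / Mx p.2))
      - Mx p.2 * (cl N (g p / Mx p.2) - 1) = Mx p.2 * (g p / Mx p.2 *
        Real.log (cl N (g p / Mx p.2)) - (cl N (g p / Mx p.2) - 1)) := fun N p => by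
    rw [mul_sub (Mx p.2) (_ * _), ← mul_assoc, mul_div_cancel₀ _ (Mx_pos _).ne']
  have h2 : ∀ N, ∫⁻ p : Om, ENNReal.ofReal (g p * Real.log (cl N (g p / Mx p.2))
      - Mx p.2 * (cl N (g p / Mx p.2) - 1)) ≤ c := by
    intro N
    refine (ofReal_integral_eq_lintegral_ofReal ((hA N g hwl.2.1).sub (hB N))
      (ae_of_all _ fun p => ?_)).symm.le.trans (h1 N)
    show 0 ≤ g p * _ - Mx p.2 * _
    rw [he]
    exact mul_nonneg (Mx_pos _).le (cl_nonneg _ _)
  have h3 := lintegral_liminf_le (μ := (volume : Measure Om)) (u := atTop)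
    (f := fun (N : ℕ) (p : Om) =>
    ENNReal.ofReal (g p * Real.log (cl N (g p / Mx p.2)) - Mx p.2 * (cl N (g p / Mx p.2) - 1)))
    fun N => ((hwl.1.mul (hψ N)).sub (hM.mul ((hs N).sub_const 1))).ennreal_ofReal
  refine le_trans (le_of_eq (lintegral_congr fun p => ?_))
    (h3.trans (liminf_le_of_frequently_le' (Frequently.of_forall h2)))
  refine (Tendsto.liminf_eq (ENNReal.tendsto_ofReal ?_)).symm
  simp only [he]
  have h4 := (cl_lim (div_nonneg (hg p) (Mx_pos p.2).le)).const_mul (Mx p.2)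
  convert h4 using 2
  have h5 := (Mx_pos p.2).ne'
  field_simp
  ring

theorem ent (hU : UIStmt) (hE : TSEntStmt) (h1 : EntLscStmt) (h2 : DissLscStmt) : EntStmt := by
  intro R δ Fn F₀ F hL t ht
  have := hU.2.1
  obtain ⟨a, ha⟩ := lim_ex fun n => relEnt (Fn n t)
  obtain ⟨b, hb⟩ := lim_ex fun n =>
    (1 / 4) * ∫⁻ r in Icc (0 : ℝ) t, ∫⁻ p, eT (R n) (δ n) (Fn n r) p
  have h3 : relEnt (F t) ≤ a := le_of_forall_gt_imp_ge_of_dense fun c hc =>
    h1 (fun n => Fn n t) (F t) c (fun n => (hL.apr.ts n).nonneg t) (hL.nonneg t) (hL.apr.uiT t ht)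
      (hL.wl t ht) (ha.eventually_le_const hc)
  have h4 : ∫⁻ s in Icc (0 : ℝ) t, diss (F s) ≤ b := le_of_forall_gt_imp_ge_of_dense fun c hc =>
    h2 R δ Fn F₀ F hL t c ht (hb.eventually_le_const hc)
  refine (add_le_add h3 h4).trans (ENNReal.le_of_forall_pos_le_add fun ε hε _ => ?_)
  refine le_of_tendsto (ha.add hb) (((hL.apr.ent ε hε).filter_mono hU.1).mono fun n hn => ?_)
  obtain ⟨s, hs, hs'⟩ := hL.apr.low n
  rw [ENNReal.ofReal_coe_nnreal] at hn
  exact ((hE _ _ _ _ (hL.apr.Rpos n) (hL.apr.δpos n) (hL.apr.ts n) s hs hs').2 t ht).trans hn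

end

end Vale.Agent.P140
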