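import Vale.Agent.P140.StmB

/-!
Weak limit of the normalized gain term with a bounded kernel.
-/

namespace Vale.Agent.P140

open MeasureTheory Set Filter Topology
open scoped ENNReal

noncomputable section

namespace GainW

/-- the kernel as an extended number -/
def kk (k : ℝ → ℝ → ℝ) (v w : E) (ω : S2) : ℝ≥0∞ := ENNReal.ofReal (k |cf v w ω| ‖v - w‖)

/-- the linear gain operator -/
def Gam (k : ℝ → ℝ → ℝ) (P : (ℝ × T3) × E × E → ℝ≥0∞) (y : ℝ × Om) : ℝ≥0∞ :=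
  ∫⁻ q : E × S2, kk k y.2.2 q.1 q.2 *
    P ((y.1, y.2.1), vp y.2.2 q.1 q.2, wp y.2.2 q.1 q.2) ∂(volume.prod sph)

/-- its adjoint -/
def Psi (k : ℝ → ℝ → ℝ) (ψ : ℝ × Om → ℝ≥0∞) (z : (ℝ × T3) × E × E) : ℝ≥0∞ :=
  ∫⁻ ω : S2, kk k z.2.1 z.2.2 ω * ψ (z.1.1, (z.1.2, vp z.2.1 z.2.2 ω)) ∂sph

lemma meas_vp {α : Type*} [MeasurableSpace α] {a b : α → E} {c : α → S2} (ha : Measurable a)
    (hb : Measurable b) (hc : Measurable c) : Measurable fun x => vp (a x) (b x) (c x) :=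
  continuous_vp.measurable.comp (ha.prodMk (hb.prodMk hc))

lemma meas_wp {α : Type*} [MeasurableSpace α] {a b : α → E} {c : α → S2} (ha : Measurable a)
    (hb : Measurable b) (hc : Measurable c) : Measurable fun x => wp (a x) (b x) (c x) :=
  continuous_wp.measurable.comp (ha.prodMk (hb.prodMk hc))

lemma meas_kk {k : ℝ → ℝ → ℝ} (hk : IsKer k) {α : Type*} [MeasurableSpace α] {a b : α → E}
    {c : α → S2} (ha : Measurable a) (hb : Measurable b) (hc : Measurable c) :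
    Measurable fun x => kk k (a x) (b x) (c x) := by
  have h1 : Measurable fun x => cf (a x) (b x) (c x) :=
    continuous_cf.measurable.comp (ha.prodMk (hb.prodMk hc))
  exact (Measurable.comp (g := fun z : ℝ × ℝ => k z.1 z.2) hk
    (h1.abs.prodMk (ha.sub hb).norm)).ennreal_ofReal

lemma kk_post (k : ℝ → ℝ → ℝ) (v w : E) (ω : S2) :
    kk k (vp v w ω) (wp v w ω) ω = kk k v w ω := by
  unfold kk; rw [cf_post, abs_neg, norm_post]

lemma kk_le {k : ℝ → ℝ → ℝ} {r : ℝ} (hr : ∀ a b, 0 ≤ a → a ≤ b → 0 ≤ k a b ∧ k a b ≤ kC r a b)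
    (v w : E) (ω : S2) : kk k v w ω ≤ ENNReal.ofReal |r| := by
  refine ENNReal.ofReal_le_ofReal ((hr _ _ (abs_nonneg _) (abs_cf_le v w ω)).2.trans ?_)
  unfold kC
  split_ifs with h
  · exact (abs_cf_le v w ω).trans (h.trans (le_abs_self r))
  · exact abs_nonneg r

lemma meas_Gam {k : ℝ → ℝ → ℝ} (hk : IsKer k) {P : (ℝ × T3) × E × E → ℝ≥0∞} (hP : Measurable P) :
    Measurable (Gam k P) := by
  refine Measurable.lintegral_prod_right' (f := fun u : (ℝ × Om) × E × S2 =>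
    kk k u.1.2.2 u.2.1 u.2.2 *
      P ((u.1.1, u.1.2.1), vp u.1.2.2 u.2.1 u.2.2, wp u.1.2.2 u.2.1 u.2.2)) ?_
  exact (meas_kk hk (by fun_prop) (by fun_prop) (by fun_prop)).mul
    (hP.comp ((by fun_prop : Measurable fun u : (ℝ × Om) × E × S2 => (u.1.1, u.1.2.1)).prodMk
      ((meas_vp (by fun_prop) (by fun_prop) (by fun_prop)).prodMk
        (meas_wp (by fun_prop) (by fun_prop) (by fun_prop)))))

lemma meas_Psi {k : ℝ → ℝ → ℝ} (hk : IsKer k) {ψ : ℝ × Om → ℝ≥0∞} (hψ : Measurable ψ) :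
    Measurable (Psi k ψ) := by
  refine Measurable.lintegral_prod_right' (f := fun u : ((ℝ × T3) × E × E) × S2 =>
    kk k u.1.2.1 u.1.2.2 u.2 * ψ (u.1.1.1, (u.1.1.2, vp u.1.2.1 u.1.2.2 u.2))) ?_
  exact (meas_kk hk (by fun_prop) (by fun_prop) (by fun_prop)).mul
    (hψ.comp ((by fun_prop : Measurable fun u : ((ℝ × T3) × E × E) × S2 => u.1.1.1).prodMk
      ((by fun_prop : Measurable fun u : ((ℝ × T3) × E × E) × S2 => u.1.1.2).prodMk
        (meas_vp (by fun_prop) (by fun_prop) (by fun_prop)))))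

lemma dual_slice (hWk : WeakStmt) {k : ℝ → ℝ → ℝ} (hk : IsKer k)
    {P : (ℝ × T3) × E × E → ℝ≥0∞} (hP : Measurable P) {ψ : ℝ × Om → ℝ≥0∞} (hψ : Measurable ψ)
    (t : ℝ) (x : T3) :
    ∫⁻ v, ψ (t, (x, v)) * Gam k P (t, (x, v)) =
      ∫⁻ u : E × E, P ((t, x), u) * Psi k ψ ((t, x), u) ∂(volume.prod volume) := by
  let Φ : E × E × S2 → ℝ≥0∞ := fun u =>
    P ((t, x), u.1, u.2.1) * (kk k u.1 u.2.1 u.2.2 * ψ (t, (x, vp u.1 u.2.1 u.2.2)))
  have hΦ : Measurable Φ :=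
    (hP.comp (by fun_prop)).mul ((meas_kk hk (by fun_prop) (by fun_prop) (by fun_prop)).mul
      (hψ.comp (measurable_const.prodMk (measurable_const.prodMk
        (meas_vp (by fun_prop) (by fun_prop) (by fun_prop))))))
  have h1 := hWk.2.2.2 Φ hΦ
  have h2 : ∀ v, ψ (t, (x, v)) * Gam k P (t, (x, v)) =
      ∫⁻ q : E × S2, Φ (vp v q.1 q.2, wp v q.1 q.2, q.2) ∂(volume.prod sph) := by
    intro v
    unfold Gam
    rw [← lintegral_const_mul]
    · refine lintegral_congr fun q => ?_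
      simp only [Φ, kk_post, vp_post]
      ring
    · exact (meas_kk hk (by fun_prop) (by fun_prop) (by fun_prop)).mul
        (hP.comp (measurable_const.prodMk ((meas_vp (by fun_prop) (by fun_prop) (by fun_prop)).prodMk
          (meas_wp (by fun_prop) (by fun_prop) (by fun_prop)))))
  simp_rw [h2]
  rw [← h1, lintegral_prod]
  · refine lintegral_congr fun v => ?_
    rw [lintegral_prod]
    · refine lintegral_congr fun w => ?_
      unfold Psi
      rw [← lintegral_const_mul]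
      exact (meas_kk hk (by fun_prop) (by fun_prop) (by fun_prop)).mul
        (hψ.comp (measurable_const.prodMk (measurable_const.prodMk
          (meas_vp (by fun_prop) (by fun_prop) (by fun_prop)))))
    · exact (hΦ.comp (by fun_prop : Measurable fun q : E × S2 => (v, q.1, q.2))).aemeasurable
  · exact ((hP.comp (by fun_prop)).mul ((meas_Psi hk hψ).comp (by fun_prop))).aemeasurable

lemma dual (hWk : WeakStmt) {k : ℝ → ℝ → ℝ} (hk : IsKer k)
    {P : (ℝ × T3) × E × E → ℝ≥0∞} (hP : Measurable P) {ψ : ℝ × Om → ℝ≥0∞} (hψ : Measurable ψ)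
    (T : ℝ) :
    ∫⁻ y, ψ y * Gam k P y ∂(mY T) = ∫⁻ z, P z * Psi k ψ z ∂(mZ T) := by
  have hA : Measurable fun y => ψ y * Gam k P y := hψ.mul (meas_Gam hk hP)
  have hB : Measurable fun z => P z * Psi k ψ z := hP.mul (meas_Psi hk hψ)
  unfold mY mZ mX
  rw [lintegral_prod _ hA.aemeasurable, lintegral_prod _ hB.aemeasurable, lintegral_prod]
  · refine lintegral_congr fun t => ?_
    rw [Measure.volume_eq_prod, lintegral_prod]
    · exact lintegral_congr fun x => dual_slice hWk hk hP hψ t x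
    · exact (hA.comp (by fun_prop)).aemeasurable
  · exact hB.lintegral_prod_right'.aemeasurable

lemma Psi_le {k : ℝ → ℝ → ℝ} {r : ℝ} (hr : ∀ a b, 0 ≤ a → a ≤ b → 0 ≤ k a b ∧ k a b ≤ kC r a b)
    {ψ : ℝ × Om → ℝ≥0∞} {C : ℝ≥0∞} (hC : ∀ y, ψ y ≤ C) (z : (ℝ × T3) × E × E) :
    Psi k ψ z ≤ ENNReal.ofReal |r| * C * sph univ := by
  unfold Psi
  rw [← lintegral_const]
  exact lintegral_mono fun ω => mul_le_mul' (kk_le hr _ _ _) (hC _)

lemma lint_Gam_le (hWk : WeakStmt) {k : ℝ → ℝ → ℝ} (hk : IsKer k) {r : ℝ}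
    (hr : ∀ a b, 0 ≤ a → a ≤ b → 0 ≤ k a b ∧ k a b ≤ kC r a b)
    {P : (ℝ × T3) × E × E → ℝ≥0∞} (hP : Measurable P) (T : ℝ) :
    ∫⁻ y, Gam k P y ∂(mY T) ≤ (∫⁻ z, P z ∂(mZ T)) * (ENNReal.ofReal |r| * sph univ) := by
  have h := dual hWk hk hP (ψ := fun _ => 1) measurable_const T
  simp only [one_mul] at h
  rw [h, ← lintegral_mul_const _ hP]
  refine lintegral_mono fun z => mul_le_mul' le_rfl ?_
  simpa using Psi_le hr (ψ := fun _ => 1) (C := 1) (fun _ => le_rfl) z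

lemma rho_nonneg {f : Om → ℝ} (hf : ∀ p, 0 ≤ f p) (x : T3) : 0 ≤ rho f x :=
  integral_nonneg fun _ => hf _

lemma gain_eq (k : ℝ → ℝ → ℝ) {ε : ℝ} (hε : 0 < ε) {F : ℝ → Om → ℝ} (hF : ∀ t p, 0 ≤ F t p)
    (y : ℝ × Om) :
    gainK k (sl (F y.1) y.2.1) (sl (F y.1) y.2.1) y.2.2 =
      Gam k (fun z => ENNReal.ofReal (PP ε F z)) y * ENNReal.ofReal (1 + ε * rho (F y.1) y.2.1) := by
  have hd : 0 < 1 + ε * rho (F y.1) y.2.1 := by
    have := mul_nonneg hε.le (rho_nonneg (hF y.1) y.2.1); linarith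
  unfold Gam gainK
  rw [← lintegral_mul_const' _ _ ENNReal.ofReal_ne_top]
  refine lintegral_congr fun q => ?_
  rw [mul_assoc]
  congr 1
  simp only [sl, PP]
  rw [← ENNReal.ofReal_mul (hF _ _),
    ← ENNReal.ofReal_mul (div_nonneg (mul_nonneg (hF _ _) (hF _ _)) hd.le),
    div_mul_cancel₀ _ hd.ne']

lemma GG_eq (k : ℝ → ℝ → ℝ) {ε : ℝ} (hε : 0 < ε) {F : ℝ → Om → ℝ} (hF : ∀ t p, 0 ≤ F t p)
    (y : ℝ × Om) : GG k ε F y = (Gam k (fun z => ENNReal.ofReal (PP ε F z)) y).toReal := by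
  have hd : 0 < 1 + ε * rho (F y.1) y.2.1 := by
    have := mul_nonneg hε.le (rho_nonneg (hF y.1) y.2.1); linarith
  unfold GG
  rw [gain_eq k hε hF, ENNReal.toReal_mul, ENNReal.toReal_ofReal hd.le, mul_div_cancel_right₀ _ hd.ne']

lemma PP_nonneg {ε : ℝ} (hε : 0 < ε) {F : ℝ → Om → ℝ} (hF : ∀ t p, 0 ≤ F t p)
    (z : (ℝ × T3) × E × E) : 0 ≤ PP ε F z := by
  have := mul_nonneg hε.le (rho_nonneg (hF z.1.1) z.1.2)
  exact div_nonneg (mul_nonneg (hF _ _) (hF _ _)) (by linarith)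

lemma lint_Gam_lt (hWk : WeakStmt) {k : ℝ → ℝ → ℝ} (hk : IsKer k) {r : ℝ}
    (hr : ∀ a b, 0 ≤ a → a ≤ b → 0 ≤ k a b ∧ k a b ≤ kC r a b) {T : ℝ}
    {P : (ℝ × T3) × E × E → ℝ} (hP : Measurable P) (hI : Integrable P (mZ T)) :
    ∫⁻ y, Gam k (fun z => ENNReal.ofReal (P z)) y ∂(mY T) < ⊤ :=
  (lint_Gam_le hWk hk hr hP.ennreal_ofReal T).trans_lt
    (ENNReal.mul_lt_top hI.lintegral_lt_top
      (ENNReal.mul_lt_top ENNReal.ofReal_lt_top (measure_lt_top _ _)))

/-- real duality for nonnegative bounded test functions -/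
lemma dual_real (hWk : WeakStmt) {k : ℝ → ℝ → ℝ} (hk : IsKer k) {r : ℝ}
    (hr : ∀ a b, 0 ≤ a → a ≤ b → 0 ≤ k a b ∧ k a b ≤ kC r a b) {T : ℝ}
    {P : (ℝ × T3) × E × E → ℝ} (hP : Measurable P) (hP0 : ∀ z, 0 ≤ P z)
    (hI : Integrable P (mZ T)) {ψ : ℝ × Om → ℝ} (hψ : Measurable ψ) (hψ0 : ∀ y, 0 ≤ ψ y)
    {C : ℝ} (hC : ∀ y, ψ y ≤ C) :
    ∫ y, (Gam k (fun z => ENNReal.ofReal (P z)) y).toReal * ψ y ∂(mY T) =
      ∫ z, P z * (Psi k (fun y => ENNReal.ofReal (ψ y)) z).toReal ∂(mZ T) := by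
  have hG := meas_Gam hk hP.ennreal_ofReal
  have hS := meas_Psi hk hψ.ennreal_ofReal
  have hfin := ae_lt_top hG (lint_Gam_lt hWk hk hr hP hI).ne
  have hSfin : ∀ z, Psi k (fun y => ENNReal.ofReal (ψ y)) z ≠ ⊤ := fun z =>
    ((Psi_le hr (C := ENNReal.ofReal C) (fun y => ENNReal.ofReal_le_ofReal (hC y)) z).trans_lt
      (ENNReal.mul_lt_top (ENNReal.mul_lt_top ENNReal.ofReal_lt_top ENNReal.ofReal_lt_top)
        (measure_lt_top _ _))).ne
  rw [integral_eq_lintegral_of_nonneg_ae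
      (Eventually.of_forall fun y => mul_nonneg ENNReal.toReal_nonneg (hψ0 y))
      (hG.ennreal_toReal.mul hψ).aestronglyMeasurable,
    integral_eq_lintegral_of_nonneg_ae
      (Eventually.of_forall fun z => mul_nonneg (hP0 z) ENNReal.toReal_nonneg)
      (hP.mul hS.ennreal_toReal).aestronglyMeasurable]
  congr 1
  have h := dual hWk hk hP.ennreal_ofReal hψ.ennreal_ofReal T
  refine Eq.trans (lintegral_congr_ae ?_) (h.trans (lintegral_congr fun z => ?_))
  · filter_upwards [hfin] with y hy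
    rw [ENNReal.ofReal_mul ENNReal.toReal_nonneg, ENNReal.ofReal_toReal hy.ne, mul_comm]
  · rw [ENNReal.ofReal_mul (hP0 z), ENNReal.ofReal_toReal (hSfin z)]

lemma ui_Gam (hWk : WeakStmt) {k : ℝ → ℝ → ℝ} (hk : IsKer k) {r : ℝ}
    (hr : ∀ a b, 0 ≤ a → a ≤ b → 0 ≤ k a b ∧ k a b ≤ kC r a b) {T : ℝ}
    {P : ℕ → (ℝ × T3) × E × E → ℝ} (hP : UI (mZ T) P) :
    UI (mY T) fun n y => (Gam k (fun z => ENNReal.ofReal (P n z)) y).toReal := by
  refine ⟨fun n => (meas_Gam hk (hP.1 n).ennreal_ofReal).ennreal_toReal, fun ε hε => ?_⟩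
  set c : ℝ := |r| * sph.real univ with hc
  have hc0 : 0 ≤ c := mul_nonneg (abs_nonneg r) measureReal_nonneg
  obtain ⟨g, hg, hg0, hgI, hgn⟩ := hP.2 (ε / (c + 1)) (by positivity)
  have hG := meas_Gam hk hg.ennreal_ofReal
  have hlt := lint_Gam_lt hWk hk hr hg hgI
  refine ⟨fun y => (Gam k (fun z => ENNReal.ofReal (g z)) y).toReal, hG.ennreal_toReal,
    fun _ => ENNReal.toReal_nonneg, integrable_toReal_of_lintegral_ne_top hG.aemeasurable hlt.ne,
    fun n => ?_⟩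
  have hm : Measurable fun z => ENNReal.ofReal (|P n z| - g z) :=
    ((hP.1 n).abs.sub hg).ennreal_ofReal
  calc ∫⁻ y, ENNReal.ofReal (|(Gam k (fun z => ENNReal.ofReal (P n z)) y).toReal| -
        (Gam k (fun z => ENNReal.ofReal (g z)) y).toReal) ∂(mY T)
      ≤ ∫⁻ y, Gam k (fun z => ENNReal.ofReal (|P n z| - g z)) y ∂(mY T) := by
        refine lintegral_mono_ae ?_
        filter_upwards [ae_lt_top hG hlt.ne] with y hy
        rw [ENNReal.ofReal_sub _ ENNReal.toReal_nonneg, ENNReal.ofReal_toReal hy.ne,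
          abs_of_nonneg ENNReal.toReal_nonneg, tsub_le_iff_right]
        refine ENNReal.ofReal_toReal_le.trans ?_
        unfold Gam
        rw [← lintegral_add_left]
        · refine lintegral_mono fun q => ?_
          rw [← mul_add]
          refine mul_le_mul' le_rfl ?_
          refine le_trans (ENNReal.ofReal_le_ofReal ?_) ENNReal.ofReal_add_le
          linarith [le_abs_self (P n ((y.1, y.2.1), vp y.2.2 q.1 q.2, wp y.2.2 q.1 q.2))]
        · exact (meas_kk hk (by fun_prop) (by fun_prop) (by fun_prop)).mul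
            (hm.comp (measurable_const.prodMk
              ((meas_vp (by fun_prop) (by fun_prop) (by fun_prop)).prodMk
              (meas_wp (by fun_prop) (by fun_prop) (by fun_prop)))))
    _ ≤ ENNReal.ofReal (ε / (c + 1)) * (ENNReal.ofReal |r| * sph univ) :=
        (lint_Gam_le hWk hk hr hm T).trans (mul_le_mul' (hgn n) le_rfl)
    _ ≤ ENNReal.ofReal ε := by
        rw [← ofReal_measureReal (measure_ne_top _ _), ← ENNReal.ofReal_mul (abs_nonneg r), ← hc,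
          ← ENNReal.ofReal_mul (by positivity)]
        refine ENNReal.ofReal_le_ofReal ?_
        rw [div_mul_eq_mul_div, div_le_iff₀ (by positivity)]
        nlinarith

lemma wl_Gam (hWk : WeakStmt) (hU : UIStmt) {k : ℝ → ℝ → ℝ} (hk : IsKer k) {r : ℝ}
    (hr : ∀ a b, 0 ≤ a → a ≤ b → 0 ≤ k a b ∧ k a b ≤ kC r a b) {T : ℝ}
    {P : ℕ → (ℝ × T3) × E × E → ℝ} {Q : (ℝ × T3) × E × E → ℝ} (hP : UI (mZ T) P)
    (hP0 : ∀ n z, 0 ≤ P n z) (hQ0 : ∀ z, 0 ≤ Q z) (hQ : WL (mZ T) P Q) :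
    WL (mY T) (fun n y => (Gam k (fun z => ENNReal.ofReal (P n z)) y).toReal)
      fun y => (Gam k (fun z => ENNReal.ofReal (Q z)) y).toReal := by
  have hPI : ∀ n, Integrable (P n) (mZ T) := ((hU.2.2 _ (mZ T)).1 P hP).1
  have hint : ∀ {S : (ℝ × T3) × E × E → ℝ}, Measurable S → Integrable S (mZ T) →
      Integrable (fun y => (Gam k (fun z => ENNReal.ofReal (S z)) y).toReal) (mY T) :=
    fun hS hSI => integrable_toReal_of_lintegral_ne_top
      (meas_Gam hk hS.ennreal_ofReal).aemeasurable (lint_Gam_lt hWk hk hr hS hSI).ne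
  have key : ∀ ψ : ℝ × Om → ℝ, Measurable ψ → (∀ y, 0 ≤ ψ y) → ∀ C : ℝ, (∀ y, ψ y ≤ C) →
      Tendsto (fun n => ∫ y, (Gam k (fun z => ENNReal.ofReal (P n z)) y).toReal * ψ y ∂(mY T)) UF
        (𝓝 (∫ y, (Gam k (fun z => ENNReal.ofReal (Q z)) y).toReal * ψ y ∂(mY T))) := by
    intro ψ hψ hψ0 C hC
    simp_rw [fun n => dual_real hWk hk hr (hP.1 n) (hP0 n) (hPI n) hψ hψ0 hC,
      dual_real hWk hk hr hQ.1 hQ0 hQ.2.1 hψ hψ0 hC]
    refine hQ.2.2 _ (meas_Psi hk hψ.ennreal_ofReal).ennreal_toReal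
      ⟨(ENNReal.ofReal |r| * ENNReal.ofReal C * sph univ).toReal, fun z => ?_⟩
    rw [abs_of_nonneg ENNReal.toReal_nonneg]
    exact ENNReal.toReal_mono
      (ENNReal.mul_lt_top (ENNReal.mul_lt_top ENNReal.ofReal_lt_top ENNReal.ofReal_lt_top)
        (measure_lt_top _ _)).ne
      (Psi_le hr (C := ENNReal.ofReal C) (fun y => ENNReal.ofReal_le_ofReal (hC y)) z)
  refine ⟨(meas_Gam hk hQ.1.ennreal_ofReal).ennreal_toReal, hint hQ.1 hQ.2.1, ?_⟩
  rintro ψ hψ ⟨C, hC⟩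
  have split : ∀ G : ℝ × Om → ℝ, Integrable G (mY T) →
      ∫ y, G y * ψ y ∂(mY T) =
        ∫ y, G y * max (ψ y) 0 ∂(mY T) - ∫ y, G y * max (-ψ y) 0 ∂(mY T) := by
    intro G hG
    rw [← integral_sub]
    · refine integral_congr_ae (Eventually.of_forall fun y => ?_)
      simp only
      rw [← mul_sub, max_zero_sub_max_neg_zero_eq_self]
    · refine hG.mul_bdd (c := C) (hψ.max measurable_const).aestronglyMeasurable
        (Eventually.of_forall fun y => ?_)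
      rw [Real.norm_eq_abs, abs_of_nonneg (le_max_right _ _)]
      exact max_le ((le_abs_self _).trans (hC y)) ((abs_nonneg _).trans (hC y))
    · refine hG.mul_bdd (c := C) (hψ.neg.max measurable_const).aestronglyMeasurable
        (Eventually.of_forall fun y => ?_)
      rw [Real.norm_eq_abs, abs_of_nonneg (le_max_right _ _)]
      exact max_le ((neg_le_abs _).trans (hC y)) ((abs_nonneg _).trans (hC y))
  simp_rw [fun n => split _ (hint (hP.1 n) (hPI n)), split _ (hint hQ.1 hQ.2.1)]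
  exact (key _ (hψ.max measurable_const) (fun y => le_max_right _ _) C fun y =>
      max_le ((le_abs_self _).trans (hC y)) ((abs_nonneg _).trans (hC y))).sub
    (key _ (hψ.neg.max measurable_const) (fun y => le_max_right _ _) C fun y =>
      max_le ((neg_le_abs _).trans (hC y)) ((abs_nonneg _).trans (hC y)))

end GainW

open GainW in
set_option linter.unusedVariables false in
theorem gainW (hM : MeasStmt) (hWk : WeakStmt) (hP : PrePostStmt) (hU : UIStmt) (hW : WLStmt)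
    (hF : TSFlStmt) (hO : TOpStmt) (h : ProdStmt) : GainWStmt := by
  intro R δ Fn F₀ F hL T ε r k hε hk hr
  obtain ⟨h1, h2⟩ := h R δ Fn F₀ F hL T ε hε
  have hn : ∀ n t p, 0 ≤ Fn n t p := fun n => (hL.apr.ts n).nonneg
  have e1 : (fun n => GG k ε (Fn n)) =
      fun n y => (Gam k (fun z => ENNReal.ofReal (PP ε (Fn n) z)) y).toReal :=
    funext fun n => funext fun y => GG_eq k hε (hn n) y
  have e2 : GG k ε F = fun y => (Gam k (fun z => ENNReal.ofReal (PP ε F z)) y).toReal :=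
    funext fun y => GG_eq k hε hL.nonneg y
  rw [e1, e2]
  refine ⟨?_, ui_Gam hWk hk hr h1, wl_Gam hWk hU hk hr h1 (fun n => PP_nonneg hε (hn n))
    (PP_nonneg hε hL.nonneg) h2⟩
  filter_upwards [ae_lt_top (meas_Gam hk h2.1.ennreal_ofReal)
    (lint_Gam_lt hWk hk hr h2.1 h2.2.1).ne] with y hy
  rw [gain_eq k hε hL.nonneg]
  exact ENNReal.mul_ne_top hy.ne ENNReal.ofReal_ne_top

end

end Vale.Agent.P140
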