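import Vale.Agent.P140.StmA

/-!
Carleman representation of the gain term, graph form.
-/

namespace Vale.Agent.P140

open MeasureTheory Set
open scoped ENNReal Pointwise

namespace Graph

/-- polar coordinates -/
theorem polar (G : E → ℝ≥0∞) (hG : Measurable G) :
    ∫⁻ ω : S2, (∫⁻ a in Ioi (0 : ℝ), ENNReal.ofReal (a ^ 2) * G (a • (ω : E))) ∂sph =
      ∫⁻ p, G p := by
  have h1 := (volume : Measure E).measurePreserving_homeomorphUnitSphereProd
  have hd : Module.finrank ℝ E - 1 = 2 := by simp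
  rw [hd] at h1
  have hm : Measurable fun q : S2 × Ioi (0 : ℝ) => G ((q.2 : ℝ) • (q.1 : E)) :=
    hG.comp (by fun_prop)
  have h2 := h1.lintegral_comp hm
  have h3 : ∀ x : ({0}ᶜ : Set E), (((homeomorphUnitSphereProd E x).2 : ℝ) •
      ((homeomorphUnitSphereProd E x).1 : E)) = x := by
    intro x
    have := (homeomorphUnitSphereProd E).symm_apply_apply x
    exact congrArg Subtype.val this
  simp only [h3] at h2
  rw [lintegral_subtype_comap (measurableSet_singleton (0 : E)).compl G,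
    restrict_compl_singleton, lintegral_prod _ hm.aemeasurable] at h2
  rw [h2]
  unfold sph
  refine lintegral_congr fun ω => ?_
  have hm2 : Measurable fun a : Ioi (0 : ℝ) => G ((a : ℝ) • (ω : E)) := hG.comp (by fun_prop)
  rw [Measure.volumeIoiPow, lintegral_withDensity_eq_lintegral_mul _ (by fun_prop) hm2]
  exact (lintegral_subtype_comap measurableSet_Ioi
    (fun a : ℝ => ENNReal.ofReal (a ^ 2) * G (a • (ω : E)))).symm

theorem polar2 (G : E → ℝ≥0∞) (hG : Measurable G) :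
    ∫⁻ ω : S2, (∫⁻ a : ℝ, ENNReal.ofReal (a ^ 2) * G (a • (ω : E))) ∂sph = 2 * ∫⁻ p, G p := by
  have hG' : Measurable fun p : E => G (-p) := hG.comp measurable_neg
  have h1 : ∀ ω : S2, ∫⁻ a : ℝ, ENNReal.ofReal (a ^ 2) * G (a • (ω : E)) =
      (∫⁻ a in Ioi (0 : ℝ), ENNReal.ofReal (a ^ 2) * G (a • (ω : E))) +
        ∫⁻ a in Ioi (0 : ℝ), ENNReal.ofReal (a ^ 2) * G (-(a • (ω : E))) := by
    intro ω
    rw [← lintegral_add_compl (μ := volume) _ (measurableSet_Ioi (a := (0 : ℝ))), compl_Ioi]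
    congr 1
    rw [← setLIntegral_congr (Iio_ae_eq_Iic (a := (0 : ℝ)))]
    have h2 := (Measure.measurePreserving_neg (volume : Measure ℝ)).setLIntegral_comp_preimage_emb
      (measurableEmbedding_neg) (fun a : ℝ => ENNReal.ofReal (a ^ 2) * G (a • (ω : E))) (Iio 0)
    rw [← h2]
    have h3 : (Neg.neg ⁻¹' Iio (0 : ℝ)) = Ioi 0 := by ext a; simp
    rw [h3]
    simp only [neg_sq, neg_smul]
  simp only [h1]
  have hm : Measurable fun ω : S2 =>
      ∫⁻ a in Ioi (0 : ℝ), ENNReal.ofReal (a ^ 2) * G (a • (ω : E)) := by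
    refine Measurable.lintegral_prod_right' (f := fun q : S2 × ℝ =>
      ENNReal.ofReal (q.2 ^ 2) * G (q.2 • (q.1 : E))) ?_
    exact (by fun_prop : Measurable fun q : S2 × ℝ => ENNReal.ofReal (q.2 ^ 2)).mul
      (hG.comp (by fun_prop))
  rw [lintegral_add_left hm, polar G hG, polar (fun p => G (-p)) hG', lintegral_neg_eq_self,
    two_mul]

theorem ae_ne : ∀ᵐ ω : S2 ∂sph, (ω : E) 2 ≠ 0 := by
  rw [ae_iff]
  have hm : MeasurableSet {ω : S2 | ¬ (ω : E) 2 ≠ 0} := by
    simp only [not_not]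
    exact measurableSet_eq_fun (by fun_prop) measurable_const
  unfold sph
  rw [Measure.toSphere_apply' _ hm]
  have h0 : (volume : Measure E)
      (LinearMap.ker (EuclideanSpace.projₗ (𝕜 := ℝ) (2 : Fin 3)) : Submodule ℝ E) = 0 := by
    refine Measure.addHaar_submodule _ _ fun h => ?_
    have : (EuclideanSpace.single (2 : Fin 3) (1 : ℝ) : E) ∈
        LinearMap.ker (EuclideanSpace.projₗ (𝕜 := ℝ) (2 : Fin 3)) := by rw [h]; trivial
    simp at this
  rw [measure_mono_null ?_ h0, mul_zero]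
  rintro _ ⟨a, -, _, ⟨ω, hω, rfl⟩, rfl⟩
  simp only [not_not, mem_ofPred_eq] at hω
  simp [hω]

theorem lintegral_coord (g : (Fin 3 → ℝ) → ℝ≥0∞) (hg : Measurable g) :
    ∫⁻ u, g u = ∫⁻ a : ℝ, ∫⁻ y : ℝ × ℝ, g ![a, y.1, y.2] := by
  have h1 := (volume_preserving_piFinSuccAbove (fun _ : Fin 3 => ℝ) 0).symm
  have h2 := (MeasurePreserving.id (volume : Measure ℝ)).prod
    (volume_preserving_finTwoArrow ℝ).symm
  have h3 := h1.comp h2
  rw [← h3.lintegral_comp hg]
  refine (lintegral_prod _ (hg.comp h3.measurable).aemeasurable).trans ?_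
  refine lintegral_congr fun a => lintegral_congr fun y => ?_
  refine congrArg g ?_
  funext i
  fin_cases i <;> rfl

theorem sum_sq (ω : S2) : (ω : E) 0 ^ 2 + (ω : E) 1 ^ 2 + (ω : E) 2 ^ 2 = 1 := by
  have h := norm_S2 ω
  have h2 := EuclideanSpace.real_norm_sq_eq (ω : E)
  rw [h, Fin.sum_univ_three] at h2
  linarith

/-- the linear change of variables -/
theorem change (ω : S2) (hω : (ω : E) 2 ≠ 0) (g : E → ℝ≥0∞) (hg : Measurable g) :
    ∫⁻ z, g z = (ENNReal.ofReal |(ω : E) 2|)⁻¹ *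
      ∫⁻ a : ℝ, ∫⁻ y : ℝ × ℝ, g (a • (ω : E) + gr ω y) := by
  have hs := sum_sq ω
  obtain ⟨M, hM⟩ : ∃ M : Matrix (Fin 3) (Fin 3) ℝ, M = !![(ω : E) 0, 1, 0; (ω : E) 1, 0, 1;
      (ω : E) 2, -(ω : E) 0 / (ω : E) 2, -(ω : E) 1 / (ω : E) 2] := ⟨_, rfl⟩
  have hdet : M.det = ((ω : E) 2)⁻¹ := by
    rw [hM, Matrix.det_fin_three]
    simp
    field_simp
    linarith
  have h1 := Real.map_matrix_volume_pi_eq_smul_volume_pi (M := M) (by rw [hdet]; exact inv_ne_zero hω)
  rw [hdet, inv_inv] at h1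
  have hg' : Measurable fun u : Fin 3 → ℝ => g (WithLp.toLp 2 u) := hg.comp (by fun_prop)
  have hL : Measurable (Matrix.toLin' M) := (LinearMap.continuous_on_pi _).measurable
  have h2 : ∫⁻ u, g (WithLp.toLp 2 (Matrix.toLin' M u)) =
      ENNReal.ofReal |(ω : E) 2| * ∫⁻ z, g z := by
    rw [← lintegral_map hg' hL, h1, lintegral_smul_measure,
      (PiLp.volume_preserving_toLp (Fin 3)).lintegral_comp hg, smul_eq_mul]
  have h3 : ∀ (a : ℝ) (y : ℝ × ℝ),
      (WithLp.toLp 2 (Matrix.toLin' M ![a, y.1, y.2]) : E) = a • (ω : E) + gr ω y := by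
    intro a y
    ext i
    rw [hM]
    fin_cases i <;> simp [gr, Matrix.mulVec, dotProduct, Fin.sum_univ_three] <;> ring
  rw [lintegral_coord (fun u => g (WithLp.toLp 2 (Matrix.toLin' M u))) (hg'.comp hL)] at h2
  simp only [h3] at h2
  have hp : ENNReal.ofReal |(ω : E) 2| ≠ 0 := by simpa using hω
  rw [h2, ← mul_assoc, ENNReal.inv_mul_cancel hp ENNReal.ofReal_ne_top, one_mul]

theorem inner_gr (ω : S2) (hω : (ω : E) 2 ≠ 0) (y : ℝ × ℝ) : inner ℝ (gr ω y) (ω : E) = 0 := by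
  rw [EuclideanSpace.inner_eq_star_dotProduct]
  simp [gr, dotProduct, Fin.sum_univ_three]
  field_simp
  ring

theorem gr_smul (p : E) {a : ℝ} (ha : a ≠ 0) (y : ℝ × ℝ) : gr (a • p) y = gr p y := by
  unfold gr
  simp only [PiLp.smul_apply, smul_eq_mul]
  rw [show -(a * p 0 * y.1 + a * p 1 * y.2) = a * -(p 0 * y.1 + p 1 * y.2) by ring,
    mul_div_mul_left _ _ ha]

theorem measurable_gr : Measurable fun q : E × ℝ × ℝ => gr q.1 q.2 := by
  unfold gr
  refine (WithLp.measurable_toLp 2 _).comp (measurable_pi_lambda _ fun i => ?_)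
  fin_cases i
  · exact measurable_snd.fst
  · exact measurable_snd.snd
  · change Measurable fun q : E × ℝ × ℝ => -(q.1 0 * q.2.1 + q.1 1 * q.2.2) / q.1 2
    fun_prop

end Graph

open _root_.Vale.Agent.P140.Graph in
theorem graph : GraphStmt := by
  intro Φ hΦ v
  obtain ⟨G, hG⟩ : ∃ G : E → ℝ≥0∞,
    G = fun p => ∫⁻ y : ℝ × ℝ, (ENNReal.ofReal |p 2|)⁻¹ * Φ (p, gr p y) := ⟨_, rfl⟩
  have hGm : Measurable G := by
    rw [hG]
    refine Measurable.lintegral_prod_right' (f := fun q : E × ℝ × ℝ =>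
      (ENNReal.ofReal |q.1 2|)⁻¹ * Φ (q.1, gr q.1 q.2)) ?_
    exact (by fun_prop : Measurable fun q : E × ℝ × ℝ => (ENNReal.ofReal |q.1 2|)⁻¹).mul
      (hΦ.comp (measurable_fst.prodMk measurable_gr))
  have hG' : ∀ p : E, ∫⁻ y : ℝ × ℝ, (ENNReal.ofReal |p 2|)⁻¹ * Φ (p, gr p y) = G p := by
    intro p; rw [hG]
  simp only [hG']
  rw [← polar2 G hGm]
  have hm : Measurable fun q : E × S2 =>
      ENNReal.ofReal |cf v q.1 q.2| * Φ (v - vp v q.1 q.2, v - wp v q.1 q.2) := by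
    unfold vp wp cf
    exact (by fun_prop : Measurable fun q : E × S2 =>
      ENNReal.ofReal |inner ℝ (v - q.1) (q.2 : E)|).mul (hΦ.comp (by fun_prop))
  rw [lintegral_prod_symm _ hm.aemeasurable]
  refine lintegral_congr_ae ?_
  filter_upwards [ae_ne] with ω hω
  obtain ⟨g, hg⟩ : ∃ g : E → ℝ≥0∞, g = fun z => ENNReal.ofReal |inner ℝ z (ω : E)| *
    Φ (inner ℝ z (ω : E) • (ω : E), z - inner ℝ z (ω : E) • (ω : E)) := ⟨_, rfl⟩
  have hgm : Measurable g := by
    rw [hg]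
    exact (by fun_prop : Measurable fun z : E =>
      ENNReal.ofReal |inner ℝ z (ω : E)|).mul (hΦ.comp (by fun_prop))
  have h1 : ∀ w : E, ENNReal.ofReal |cf v w ω| * Φ (v - vp v w ω, v - wp v w ω) = g (v - w) := by
    intro w
    rw [hg]
    unfold vp wp cf
    simp only [sub_sub_cancel, sub_add_eq_sub_sub]
  simp only [h1]
  rw [lintegral_sub_left_eq_self g v, change ω hω g hgm,
    ← lintegral_const_mul' _ _ (by simpa using hω)]
  refine lintegral_congr_ae ?_
  filter_upwards [(volume : Measure ℝ).ae_ne 0] with a ha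
  rw [← hG', ← lintegral_const_mul' _ _ (by simpa using hω),
    ← lintegral_const_mul' _ _ ENNReal.ofReal_ne_top]
  refine lintegral_congr fun y => ?_
  have h2 : inner ℝ (a • (ω : E) + gr ω y) (ω : E) = a := by
    rw [inner_add_left, inner_gr ω hω, real_inner_smul_left, inner_self_S2]; ring
  rw [hg]
  simp only [h2, add_sub_cancel_left, gr_smul _ ha]
  rw [← mul_assoc, ← mul_assoc]
  congr 1
  have ha' : 0 < |a| := abs_pos.2 ha
  have hω' : 0 < |(ω : E) 2| := abs_pos.2 hω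
  rw [PiLp.smul_apply, smul_eq_mul, abs_mul, ← ENNReal.ofReal_inv_of_pos hω',
    ← ENNReal.ofReal_inv_of_pos (mul_pos ha' hω'), ← ENNReal.ofReal_mul (by positivity),
    ← ENNReal.ofReal_mul (by positivity)]
  congr 1
  rw [← sq_abs a]
  field_simp

end Vale.Agent.P140
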