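import Vale.Agent.P140.StmB

/-! Existence of the weak limit. -/

namespace Vale.Agent.P140

open MeasureTheory Set Filter Topology
open scoped ENNReal

noncomputable section

namespace LimEx

variable {α : Type} [MeasurableSpace α] {μ : Measure α}

lemma wl_congr {f : ℕ → α → ℝ} {g g' : α → ℝ} (h : WL μ f g) (hm : Measurable g')
    (he : g' =ᵐ[μ] g) : WL μ f g' := by
  refine ⟨hm, h.2.1.congr he.symm, fun ψ h1 h2 => ?_⟩
  have e : ∫ x, g' x * ψ x ∂μ = ∫ x, g x * ψ x ∂μ :=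
    integral_congr_ae (he.mono fun x hx => by simp only [hx])
  rw [e]
  exact h.2.2 ψ h1 h2

lemma int_mul {f ψ : α → ℝ} (hf : Integrable f μ) (h1 : Measurable ψ) {C : ℝ}
    (h2 : ∀ x, |ψ x| ≤ C) : Integrable (fun x => f x * ψ x) μ :=
  hf.mul_bdd h1.aestronglyMeasurable (Eventually.of_forall h2)

lemma wl_sub {f f' : ℕ → α → ℝ} {g g' : α → ℝ} (hf : ∀ n, Integrable (f n) μ)
    (hf' : ∀ n, Integrable (f' n) μ) (h : WL μ f g) (h' : WL μ f' g') :
    WL μ (fun n x => f n x - f' n x) (fun x => g x - g' x) := by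
  refine ⟨h.1.sub h'.1, h.2.1.sub h'.2.1, fun ψ h1 ⟨C, h2⟩ => ?_⟩
  simp only [sub_mul]
  rw [integral_sub (int_mul h.2.1 h1 h2) (int_mul h'.2.1 h1 h2)]
  refine ((h.2.2 ψ h1 ⟨C, h2⟩).sub (h'.2.2 ψ h1 ⟨C, h2⟩)).congr fun n => ?_
  rw [integral_sub (int_mul (hf n) h1 h2) (int_mul (hf' n) h1 h2)]

lemma wl_strong {f : ℕ → α → ℝ} {g : α → ℝ} (hf : ∀ n, Integrable (f n) μ) (hm : Measurable g)
    (hg : Integrable g μ) (h : Tendsto (fun n => ∫ x, |f n x - g x| ∂μ) UF (𝓝 0)) :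
    WL μ f g := by
  refine ⟨hm, hg, fun ψ h1 ⟨C, h2⟩ => ?_⟩
  rw [tendsto_iff_norm_sub_tendsto_zero]
  have h3 := h.mul_const C
  rw [zero_mul] at h3
  refine squeeze_zero (fun _ => norm_nonneg _) (fun n => ?_) h3
  rw [← integral_sub (int_mul (hf n) h1 h2) (int_mul hg h1 h2), ← integral_mul_const]
  refine norm_integral_le_of_norm_le (((hf n).sub hg).abs.mul_const C)
    (Eventually.of_forall fun x => ?_)
  rw [← sub_mul, Real.norm_eq_abs, abs_mul]
  exact mul_le_mul_of_nonneg_left (h2 x) (abs_nonneg _)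

lemma meas_fl (s : ℝ) : Measurable (fl s) :=
  (continuous_fl.comp (Continuous.prodMk_right s)).measurable

/-- Free flight as a measurable equivalence. -/
def flE (s : ℝ) : Om ≃ᵐ Om where
  toFun := fl s
  invFun := fl (-s)
  left_inv p := by rw [fl_fl, neg_add_cancel, fl_zero]
  right_inv p := by rw [fl_fl, add_neg_cancel, fl_zero]
  measurable_toFun := meas_fl s
  measurable_invFun := meas_fl (-s)

end LimEx

open LimEx in
theorem limEx (hU : UIStmt) (hX : WLExStmt) (hW : WLStmt) (hT : TorusStmt) (hE : EquiStmt)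
    (hR : RepStmt) (hY : WLYStmt) : LimExStmt := by
  intro R δ Fn F₀ hA
  obtain ⟨hUF, -, hU⟩ := hU
  obtain ⟨u1, -, -, -, u5, u6, -, u8, -⟩ := hU Om volume
  obtain ⟨-, -, w3, -, w5, w6, w7⟩ := hW Om volume
  have hfl := hT.2.2.2.2.2.2.1
  have hnn : ∀ n t p, 0 ≤ Fn n t p := fun n => (hA.ts n).nonneg
  have hui : ∀ t, 0 ≤ t → UI volume (fun n p => Fn n t (fl t p)) := fun t ht =>
    u8 Om volume (fl t) _ (hfl t) (hA.uiT t ht)
  have hex : ∀ t, 0 ≤ t → ∃ g : Om → ℝ, (∀ x, 0 ≤ g x) ∧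
      WL volume (fun n p => Fn n t (fl t p)) g := fun t ht =>
    hX Om volume _ (fun n x => hnn n t _) (hui t ht)
  choose! f hf0 hf using hex
  have hc : ∀ T ε : ℝ, 0 < ε → ∃ η : ℝ, 0 < η ∧ ∀ s ∈ Icc (0 : ℝ) T, ∀ t ∈ Icc (0 : ℝ) T,
      |s - t| ≤ η → ∫ x, |f t x - f s x| ≤ ε := by
    intro T ε hε
    obtain ⟨η, hη, h⟩ := hE R δ Fn F₀ hA T ε hε
    refine ⟨η, hη, fun s hs t ht hst => ?_⟩
    have h1 := u5 _ _ (hui t ht.1) (u6 _ (-1) (hui s hs.1))
    simp only [neg_one_mul, ← sub_eq_add_neg] at h1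
    exact w6 _ _ ε h1 (wl_sub (u1 _ (hui t ht.1)).1 (u1 _ (hui s hs.1)).1 (hf t ht.1) (hf s hs.1))
      (Eventually.of_forall fun n => h n s hs t ht hst)
  obtain ⟨g, hgm, hg0, hg⟩ := hR Om volume f
    (fun t ht => ⟨(hf t ht).1, (hf t ht).2.1, hf0 t ht⟩) hc
  have hFm : Measurable fun y : ℝ × Om => g y.1 (fl (-y.1) y.2) :=
    hgm.comp (continuous_fst.prodMk
      (continuous_fl.comp (continuous_fst.neg.prodMk continuous_snd))).measurable
  have hwl : ∀ t, 0 ≤ t → WL volume (fun n => Fn n t) fun p => g t (fl (-t) p) := by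
    intro t ht
    have h1 := w7 (flE (-t)) _ _ (hfl (-t))
      (wl_congr (hf t ht) (hgm.comp measurable_prodMk_left) (hg t ht))
    have e : ∀ x, fl t (flE (-t) x) = x := fun x => by
      change fl t (fl (-t) x) = x
      rw [fl_fl, add_neg_cancel, fl_zero]
    simp only [e] at h1
    exact h1
  have hcF : ∀ T ε : ℝ, 0 < ε → ∃ η : ℝ, 0 < η ∧ ∀ s ∈ Icc (0 : ℝ) T, ∀ t ∈ Icc (0 : ℝ) T,
      |s - t| ≤ η → ∫ p, |g t (fl (-t) (fl t p)) - g s (fl (-s) (fl s p))| ≤ ε := by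
    intro T ε hε
    obtain ⟨η, hη, h⟩ := hc T ε hε
    refine ⟨η, hη, fun s hs t ht hst => ?_⟩
    simp only [fl_fl, neg_add_cancel, fl_zero]
    refine le_trans (le_of_eq (integral_congr_ae ?_)) (h s hs t ht hst)
    filter_upwards [hg t ht.1, hg s hs.1] with x h1 h2
    rw [h1, h2]
  obtain ⟨C, hC⟩ := hA.mom
  refine ⟨fun t p => g t (fl (-t) p), hA, hFm, fun t p => hg0 _ _, hwl,
    hY R δ Fn F₀ _ hA hFm hwl hcF, hcF, ?_, C, fun t ht => ?_⟩
  · obtain ⟨d1, d2, d3⟩ := hA.datum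
    have hi := (u1 _ (hA.uiT 0 le_rfl)).1
    have hI : Integrable F₀ := by
      refine d3.mono' d1.aestronglyMeasurable (Eventually.of_forall fun p => ?_)
      rw [Real.norm_of_nonneg (d2 p)]
      exact le_mul_of_one_le_right (d2 p) (by linarith [abs_nonneg (Real.log (F₀ p)), sq_nonneg ‖p.2‖])
    have h0 : WL volume (fun n => Fn n 0) F₀ := by
      refine wl_strong hi d1 hI (squeeze_zero (fun n => integral_nonneg fun p => abs_nonneg _)
        (fun n => ?_) (hA.conv.mono_left hUF))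
      refine integral_mono ((hi n).sub hI).abs ?_ fun p => le_mul_of_one_le_right (abs_nonneg _)
        (by linarith [sq_nonneg ‖p.2‖])
      refine ((hC n 0 le_rfl).1.add d3).mono' ?_ (Eventually.of_forall fun p => ?_)
      · exact ((((hA.uiT 0 le_rfl).1 n).sub d1).abs.mul (by fun_prop)).aestronglyMeasurable
      · have a1 := hnn n 0 p
        have a2 := d2 p
        have a3 : |Fn n 0 p - F₀ p| ≤ Fn n 0 p + F₀ p := abs_le.2 ⟨by linarith, by linarith⟩
        have a4 := norm_nonneg p.2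
        have a5 := abs_nonneg (Real.log (F₀ p))
        rw [Real.norm_of_nonneg (by positivity), Pi.add_apply]
        calc _ ≤ (Fn n 0 p + F₀ p) * (1 + ‖p.2‖ ^ 2) := by gcongr
          _ ≤ _ := by nlinarith [mul_nonneg a1 a4, mul_nonneg a2 a5]
    have h1 := w5 _ _ _ _ (hA.uiT 0 le_rfl) (hA.uiT 0 le_rfl) (hwl 0 le_rfl) h0
      fun n => Eventually.of_forall fun _ => le_rfl
    have h2 := w5 _ _ _ _ (hA.uiT 0 le_rfl) (hA.uiT 0 le_rfl) h0 (hwl 0 le_rfl)
      fun n => Eventually.of_forall fun _ => le_rfl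
    filter_upwards [h1, h2] with x a b
    exact le_antisymm a b
  · have hC0 : 0 ≤ C :=
      le_trans (integral_nonneg fun p => mul_nonneg (hnn 0 t p) (sq_nonneg _)) (hC 0 t ht).2
    have h1 := w3 _ _ (fun p => ENNReal.ofReal ((1 + ‖p.2‖) ^ 2)) (ENNReal.ofReal C) (hA.uiT t ht)
      (fun n => hnn n t) (hwl t ht) (by fun_prop) (Eventually.of_forall fun n => by
        simp only [← ENNReal.ofReal_mul (hnn n t _)]
        rw [← ofReal_integral_eq_lintegral_ofReal (hC n t ht).1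
          (Eventually.of_forall fun p => mul_nonneg (hnn n t p) (sq_nonneg _))]
        exact ENNReal.ofReal_le_ofReal (hC n t ht).2)
    simp only [← ENNReal.ofReal_mul (hg0 t _)] at h1
    have h2 : 0 ≤ᵐ[volume] fun p : Om => g t (fl (-t) p) * (1 + ‖p.2‖) ^ 2 :=
      Eventually.of_forall fun p => mul_nonneg (hg0 _ _) (sq_nonneg _)
    have h3 : AEStronglyMeasurable (fun p : Om => g t (fl (-t) p) * (1 + ‖p.2‖) ^ 2) volume :=
      ((hwl t ht).1.mul (by fun_prop)).aestronglyMeasurable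
    refine ⟨⟨h3, (hasFiniteIntegral_iff_ofReal h2).2 (h1.trans_lt ENNReal.ofReal_lt_top)⟩, ?_⟩
    rw [integral_eq_lintegral_of_nonneg_ae h2 h3]
    exact ENNReal.toReal_le_of_le_ofReal hC0 h1

end

end Vale.Agent.P140
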