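import Vale.Agent.P140.StmA

/-! Convergence in measure. -/

namespace Vale.Agent.P140

open MeasureTheory Set Filter Topology
open scoped ENNReal

namespace MCAux

variable {α : Type} [MeasurableSpace α] {μ : Measure α}

theorem m0 (d : ℝ) : 0 ≤ min 1 |d| := le_min zero_le_one (abs_nonneg d)

theorem mm {a b : α → ℝ} (ha : Measurable a) (hb : Measurable b) :
    Measurable fun x => min 1 |a x - b x| := measurable_const.min (ha.fun_sub hb).abs

theorem dom {g h : α → ℝ} (gi : Integrable g μ) (hm : Measurable h) (h0 : ∀ x, 0 ≤ h x)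
    (h1 : ∀ x, h x ≤ g x) : Integrable h μ :=
  gi.mono' hm.aestronglyMeasurable (Eventually.of_forall fun x => by
    rw [Real.norm_of_nonneg (h0 x)]; exact h1 x)

theorem intg {g a b : α → ℝ} (gm : Measurable g) (g0 : ∀ x, 0 ≤ g x) (gi : Integrable g μ)
    (ha : Measurable a) (hb : Measurable b) : Integrable (fun x => g x * min 1 |a x - b x|) μ :=
  dom gi (gm.mul (mm ha hb)) (fun x => mul_nonneg (g0 x) (m0 _))
    fun x => mul_le_of_le_one_right (g0 x) (min_le_left _ _)

theorem tendR {u : ℕ → ℝ} (h0 : ∀ n, 0 ≤ u n)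
    (h : ∀ ε : ℝ, 0 < ε → ∃ v : ℕ → ℝ, Tendsto v UF (𝓝 0) ∧ ∀ n, u n ≤ ε + v n) :
    Tendsto u UF (𝓝 0) := by
  refine tendsto_order.2 ⟨fun c hc => Eventually.of_forall fun n => hc.trans_le (h0 n),
    fun c hc => ?_⟩
  obtain ⟨v, hv, h1⟩ := h _ (half_pos hc)
  filter_upwards [hv.eventually (gt_mem_nhds (half_pos hc))] with n hn
  linarith [h1 n]

theorem small {g : α → ℝ} (gi : Integrable g μ) {G : ℕ → α → ℝ} (hm : ∀ k, Measurable (G k))
    (h0 : ∀ k x, 0 ≤ G k x) (h1 : ∀ k x, G k x ≤ g x) (h2 : ∀ x, ∀ᶠ k in atTop, G k x = 0)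
    {ε : ℝ} (hε : 0 < ε) : ∃ k, ∫ x, G k x ∂μ ≤ ε := by
  have ht : Tendsto (fun k => ∫ x, G k x ∂μ) atTop (𝓝 (∫ _, (0 : ℝ) ∂μ)) :=
    tendsto_integral_of_dominated_convergence g (fun k => (hm k).aestronglyMeasurable) gi
      (fun k => Eventually.of_forall fun x => by rw [Real.norm_of_nonneg (h0 k x)]; exact h1 k x)
      (Eventually.of_forall fun x => tendsto_const_nhds.congr' ((h2 x).mono fun k hk => hk.symm))
  rw [integral_zero] at ht
  exact (ht.eventually (ge_mem_nhds hε)).exists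

theorem p1 {a : ℕ → α → ℝ} {b : α → ℝ} {A : ℕ → Set α} (ha : ∀ n, Measurable (a n))
    (hb : Measurable b) (hA : ∀ k, MeasurableSet (A k)) (hm : Monotone A) (hc : ∀ x, ∃ k, x ∈ A k)
    (h : ∀ k, Tendsto (fun n => ∫⁻ x in A k, ENNReal.ofReal |a n x - b x| ∂μ) UF (𝓝 0)) :
    MC μ a b := by
  refine ⟨ha, hb, fun g gm g0 gi => tendR (fun n => integral_nonneg fun x =>
    mul_nonneg (g0 x) (m0 _)) fun ε hε => ?_⟩
  let G : ℕ → α → ℝ := fun k => (A k).indicator fun x => min (g x) k
  have Gm : ∀ k, Measurable (G k) := fun k => (gm.min measurable_const).indicator (hA k)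
  have G0 : ∀ k x, 0 ≤ G k x := fun k x =>
    indicator_nonneg (fun x _ => le_min (g0 x) (Nat.cast_nonneg k)) x
  have G1 : ∀ k x, G k x ≤ g x := fun k x =>
    (indicator_le_self' (fun x _ => le_min (g0 x) (Nat.cast_nonneg k)) x).trans (min_le_left _ _)
  obtain ⟨k, hk⟩ := small gi (G := fun k x => g x - G k x) (fun k => gm.fun_sub (Gm k))
    (fun k x => sub_nonneg.2 (G1 k x)) (fun k x => sub_le_self _ (G0 k x)) (fun x => by
      obtain ⟨j, hj⟩ := hc x
      filter_upwards [eventually_ge_atTop j,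
        tendsto_natCast_atTop_atTop.eventually_ge_atTop (g x)] with k h1 h2
      simp only [G, indicator_of_mem (hm h1 hj), min_eq_left h2, sub_self]) hε
  have Gi : Integrable (G k) μ := dom gi (Gm k) (G0 k) (G1 k)
  refine ⟨fun n => ∫ x, G k x * min 1 |a n x - b x| ∂μ, ?_, fun n => ?_⟩
  · have t1 : Tendsto (fun n => ∫⁻ x, ENNReal.ofReal (G k x * min 1 |a n x - b x|) ∂μ) UF
        (𝓝 0) := by
      have t2 := ENNReal.Tendsto.const_mul (a := ENNReal.ofReal k) (h k)
        (Or.inr ENNReal.ofReal_ne_top)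
      rw [mul_zero] at t2
      refine tendsto_of_tendsto_of_tendsto_of_le_of_le tendsto_const_nhds t2
        (fun n => zero_le) fun n => ?_
      simp only
      rw [← lintegral_const_mul' _ _ ENNReal.ofReal_ne_top, ← lintegral_indicator (hA k)]
      refine lintegral_mono fun x => ?_
      by_cases hx : x ∈ A k
      · simp only [G, indicator_of_mem hx]
        rw [← ENNReal.ofReal_mul (Nat.cast_nonneg k)]
        exact ENNReal.ofReal_le_ofReal (mul_le_mul (min_le_right _ _) (min_le_right _ _) (m0 _)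
          (Nat.cast_nonneg k))
      · simp [G, indicator_of_notMem hx]
    refine ((ENNReal.tendsto_toReal ENNReal.zero_ne_top).comp t1).congr fun n => ?_
    exact (integral_eq_lintegral_of_nonneg_ae
      (Eventually.of_forall fun x => mul_nonneg (G0 k x) (m0 _))
      ((Gm k).mul (mm (ha n) hb)).aestronglyMeasurable).symm
  · refine le_trans ?_ (add_le_add hk le_rfl)
    have i1 : Integrable (fun x => g x - G k x) μ := gi.sub Gi
    refine le_trans (integral_mono (intg gm g0 gi (ha n) hb)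
      (i1.add (intg (Gm k) (G0 k) Gi (ha n) hb)) fun x => ?_)
      (integral_add' i1 (intg (Gm k) (G0 k) Gi (ha n) hb)).le
    have := mul_le_of_le_one_right (sub_nonneg.2 (G1 k x)) (min_le_left 1 |a n x - b x|)
    simp only [Pi.add_apply]
    linarith

theorem unif {Φ : ℝ × ℝ → ℝ} (hΦ : Continuous Φ) (K : ℝ) {η : ℝ} (hη : 0 < η) :
    ∃ c : ℝ, 0 ≤ c ∧ ∀ a a' b b' : ℝ, |b| ≤ K → |b'| ≤ K →
      min 1 |Φ (a, a') - Φ (b, b')| ≤ η + (c * min 1 |a - b| + c * min 1 |a' - b'|) := by
  obtain ⟨δ, hδ, h⟩ := Metric.uniformContinuousOn_iff.1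
    ((isCompact_closedBall (0 : ℝ × ℝ) (K + 1)).uniformContinuousOn_of_continuous
      hΦ.continuousOn) η hη
  have hδ' : 0 < min 1 δ := lt_min one_pos hδ
  refine ⟨(min 1 δ)⁻¹, by positivity, fun a a' b b' hb hb' => ?_⟩
  have k0 : ∀ d : ℝ, 0 ≤ (min 1 δ)⁻¹ * min 1 |d| := fun d => mul_nonneg (by positivity) (m0 d)
  have k1 : ∀ d : ℝ, min 1 δ ≤ |d| → 1 ≤ (min 1 δ)⁻¹ * min 1 |d| := fun d hd => by
    rw [inv_mul_eq_div, one_le_div hδ']
    exact le_min (min_le_left _ _) hd
  have k2 := min_le_left 1 |Φ (a, a') - Φ (b, b')|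
  rcases le_or_gt (min 1 δ) |a - b| with h1 | h1
  · linarith [k1 _ h1, k0 (a' - b')]
  rcases le_or_gt (min 1 δ) |a' - b'| with h2 | h2
  · linarith [k1 _ h2, k0 (a - b)]
  obtain ⟨h11, h12⟩ := lt_min_iff.1 h1
  obtain ⟨h21, h22⟩ := lt_min_iff.1 h2
  have k3 := h (a, a') (by
      rw [mem_closedBall_zero_iff, Prod.norm_def, max_le_iff, Real.norm_eq_abs, Real.norm_eq_abs]
      constructor <;> linarith [abs_sub_abs_le_abs_sub a b, abs_sub_abs_le_abs_sub a' b'])
    (b, b') (by
      rw [mem_closedBall_zero_iff, Prod.norm_def, max_le_iff, Real.norm_eq_abs, Real.norm_eq_abs]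
      constructor <;> linarith)
    (by rw [Prod.dist_eq, max_lt_iff, Real.dist_eq, Real.dist_eq]; exact ⟨h12, h22⟩)
  rw [Real.dist_eq] at k3
  linarith [min_le_right 1 |Φ (a, a') - Φ (b, b')|, k0 (a - b), k0 (a' - b')]

theorem p2 {a a' : ℕ → α → ℝ} {b b' : α → ℝ} {Φ : ℝ × ℝ → ℝ} (hΦ : Continuous Φ) (h : MC μ a b)
    (h' : MC μ a' b') : MC μ (fun n x => Φ (a n x, a' n x)) (fun x => Φ (b x, b' x)) := by
  have m1 : ∀ n, Measurable fun x => Φ (a n x, a' n x) := fun n =>
    hΦ.measurable.comp ((h.1 n).prodMk (h'.1 n))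
  have m2 : Measurable fun x => Φ (b x, b' x) := hΦ.measurable.comp (h.2.1.prodMk h'.2.1)
  refine ⟨m1, m2, fun g gm g0 gi => tendR (fun n => integral_nonneg fun x =>
    mul_nonneg (g0 x) (m0 _)) fun ε hε => ?_⟩
  let G : ℕ → α → ℝ := fun k => {x | (k : ℝ) < max |b x| |b' x|}.indicator g
  have Gm : ∀ k, Measurable (G k) := fun k =>
    gm.indicator (measurableSet_lt measurable_const (h.2.1.abs.max h'.2.1.abs))
  have G0 : ∀ k x, 0 ≤ G k x := fun k x => indicator_nonneg (fun x _ => g0 x) x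
  have G1 : ∀ k x, G k x ≤ g x := fun k x => indicator_le_self' (fun x _ => g0 x) x
  obtain ⟨k, hk⟩ := small gi Gm G0 G1 (fun x => by
    filter_upwards [tendsto_natCast_atTop_atTop.eventually_ge_atTop (max |b x| |b' x|)] with k h1
    exact indicator_of_notMem (s := {x | (k : ℝ) < max |b x| |b' x|}) (not_lt.2 h1) g)
      (half_pos hε)
  have Gi : Integrable (G k) μ := dom gi (Gm k) (G0 k) (G1 k)
  have I0 : 0 ≤ ∫ x, g x ∂μ := integral_nonneg g0
  obtain ⟨c, hc, hu⟩ := unif hΦ k (η := ε / 2 / (∫ x, g x ∂μ + 1)) (by positivity)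
  have t := ((h.2.2 g gm g0 gi).const_mul c).add ((h'.2.2 g gm g0 gi).const_mul c)
  simp only [mul_zero, add_zero] at t
  refine ⟨_, t, fun n => ?_⟩
  have i1 := (intg gm g0 gi (h.1 n) h.2.1).const_mul c
  have i2 := (intg gm g0 gi (h'.1 n) h'.2.1).const_mul c
  have i3 := gi.const_mul (ε / 2 / (∫ x, g x ∂μ + 1))
  have k1 : ε / 2 / (∫ x, g x ∂μ + 1) * ∫ x, g x ∂μ ≤ ε / 2 := by
    rw [div_mul_eq_mul_div, div_le_iff₀ (by positivity)]
    nlinarith
  have k2 := integral_mono (intg gm g0 gi (m1 n) m2) ((Gi.add i3).add (i1.add i2)) fun x => by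
    simp only [Pi.add_apply]
    have q1 := mul_nonneg hc (mul_nonneg (g0 x) (m0 (a n x - b x)))
    have q2 := mul_nonneg hc (mul_nonneg (g0 x) (m0 (a' n x - b' x)))
    have q3 : 0 ≤ ε / 2 / (∫ x, g x ∂μ + 1) * g x := mul_nonneg (by positivity) (g0 x)
    by_cases hx : (k : ℝ) < max |b x| |b' x|
    · have q4 : G k x = g x := indicator_of_mem (s := {x | (k : ℝ) < max |b x| |b' x|}) hx _
      have q5 := mul_le_of_le_one_right (g0 x)
        (min_le_left 1 |Φ (a n x, a' n x) - Φ (b x, b' x)|)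
      linarith
    · obtain ⟨q4, q5⟩ := max_le_iff.1 (not_lt.1 hx)
      have q6 := mul_le_mul_of_nonneg_left (hu (a n x) (a' n x) _ _ q4 q5) (g0 x)
      linarith [G0 k x]
  rw [integral_add' (Gi.add i3) (i1.add i2), integral_add' Gi i3, integral_add' i1 i2,
    integral_const_mul, integral_const_mul, integral_const_mul] at k2
  linarith

theorem p5 (hU : UIStmt) {a : ℕ → α → ℝ} {b : α → ℝ} (hu : UI μ a) (h : MC μ a b)
    (hb : Integrable b μ) : Tendsto (fun n => ∫ x, |a n x - b x| ∂μ) UF (𝓝 0) := by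
  refine tendR (fun n => integral_nonneg fun x => abs_nonneg _) fun ε hε => ?_
  obtain ⟨g, gm, g0, gi, hg⟩ := hu.2 _ (half_pos hε)
  have ai := ((hU.2.2 α μ).1 a hu).1
  let W : α → ℝ := fun x => g x + |b x|
  have Wm : Measurable W := gm.add h.2.1.abs
  have W0 : ∀ x, 0 ≤ W x := fun x => add_nonneg (g0 x) (abs_nonneg _)
  have Wi : Integrable W μ := gi.add hb.abs
  let G : ℕ → α → ℝ := fun k => {x | W x < 1 / ((k : ℝ) + 1)}.indicator W
  have Gm : ∀ k, Measurable (G k) := fun k => Wm.indicator (measurableSet_lt Wm measurable_const)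
  have G0 : ∀ k x, 0 ≤ G k x := fun k x => indicator_nonneg (fun x _ => W0 x) x
  have G1 : ∀ k x, G k x ≤ W x := fun k x => indicator_le_self' (fun x _ => W0 x) x
  obtain ⟨k, hk⟩ := small Wi Gm G0 G1 (fun x => by
    rcases (W0 x).eq_or_lt with h0 | h0
    · exact Eventually.of_forall fun k => le_antisymm (h0 ▸ G1 k x) (G0 k x)
    · filter_upwards [tendsto_one_div_add_atTop_nhds_zero_nat.eventually (ge_mem_nhds h0)]
        with k h1
      exact indicator_of_notMem (s := {x | W x < 1 / ((k : ℝ) + 1)}) (not_lt.2 h1) W)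
        (half_pos hε)
  have Gi : Integrable (G k) μ := dom Wi (Gm k) (G0 k) (G1 k)
  have t := (h.2.2 W Wm W0 Wi).const_mul ((k : ℝ) + 1)
  rw [mul_zero] at t
  refine ⟨_, t, fun n => ?_⟩
  have i1 := (intg Wm W0 Wi (h.1 n) h.2.1).const_mul ((k : ℝ) + 1)
  have i2 : Integrable (fun x => max (|a n x| - g x) 0) μ := ((ai n).abs.sub gi).pos_part
  have k1 : ∫ x, max (|a n x| - g x) 0 ∂μ ≤ ε / 2 := by
    rw [integral_eq_lintegral_of_nonneg_ae (f := fun x => max (|a n x| - g x) 0)
      (Eventually.of_forall fun x => le_max_right _ _) i2.aestronglyMeasurable]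
    refine ENNReal.toReal_le_of_le_ofReal (half_pos hε).le (le_trans (le_of_eq ?_) (hg n))
    exact lintegral_congr fun x => by simp [ENNReal.ofReal_max]
  have k2 := integral_mono ((ai n).sub hb).abs ((i2.add Gi).add i1) fun x => by
    simp only [Pi.add_apply, Pi.sub_apply]
    have q1 := le_max_left (|a n x| - g x) 0
    have q2 := le_max_right (|a n x| - g x) 0
    have q3 : |a n x - b x| ≤ |a n x| - g x + W x := by
      have := abs_sub (a n x) (b x)
      simp only [W]; linarith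
    have q4 : (0 : ℝ) ≤ k := Nat.cast_nonneg k
    have q5 := mul_nonneg (W0 x) (m0 (a n x - b x))
    by_cases hx : W x < 1 / ((k : ℝ) + 1)
    · have q6 : G k x = W x := indicator_of_mem (s := {x | W x < 1 / ((k : ℝ) + 1)}) hx _
      nlinarith
    · have q6 := G0 k x
      rw [not_lt, div_le_iff₀ (by positivity)] at hx
      rcases le_total 1 |a n x - b x| with q7 | q7
      · rw [min_eq_left q7]
        nlinarith [W0 x]
      · rw [min_eq_right q7]
        nlinarith [abs_nonneg (a n x - b x)]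
  rw [integral_add' (i2.add Gi) i1, integral_add' i2 Gi, integral_const_mul] at k2
  simp only [Pi.sub_apply] at k2
  linarith

theorem p6 [SFinite μ] {β : Type} [MeasurableSpace β] {ν : Measure β} [SFinite ν]
    {a : ℕ → α → ℝ} {b : α → ℝ} (h : MC μ a b) :
    MC (μ.prod ν) (fun n x => a n x.1) (fun x => b x.1) := by
  refine ⟨fun n => (h.1 n).comp measurable_fst, h.2.1.comp measurable_fst, fun g gm g0 gi => ?_⟩
  refine (h.2.2 (fun x => ∫ y, g (x, y) ∂ν) gm.stronglyMeasurable.integral_prod_right'.measurable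
    (fun x => integral_nonneg fun y => g0 _) gi.integral_prod_left).congr fun n => ?_
  rw [integral_prod _ (intg gm g0 gi (a := fun x : α × β => a n x.1) (b := fun x : α × β => b x.1)
    ((h.1 n).comp measurable_fst) (h.2.1.comp measurable_fst))]
  simp only [integral_mul_const]

theorem p8 {β : Type} [MeasurableSpace β] {ν : Measure β} {e : β ≃ᵐ α} {a : ℕ → α → ℝ}
    {b : α → ℝ} (he : MeasurePreserving e ν μ) (h : MC μ a b) :
    MC ν (fun n x => a n (e x)) (fun x => b (e x)) := by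
  refine ⟨fun n => (h.1 n).comp e.measurable, h.2.1.comp e.measurable, fun g gm g0 gi => ?_⟩
  refine (h.2.2 (fun x => g (e.symm x)) (gm.comp e.symm.measurable) (fun x => g0 _)
    ((he.symm e).integrable_comp_of_integrable gi)).congr fun n => ?_
  rw [← he.integral_comp']
  simp only [MeasurableEquiv.symm_apply_apply]

end MCAux

theorem mc (h : UIStmt) : MCStmt := by
  intro α _ μ _
  refine ⟨fun _ _ _ => MCAux.p1, fun _ _ _ _ _ => MCAux.p2, fun b hb => ?_, fun c d hc => ?_,
    fun _ _ => MCAux.p5 h, fun _ _ _ _ _ _ => MCAux.p6, fun β _ ν _ a b hab => ?_,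
    fun _ _ _ _ _ _ => MCAux.p8⟩
  · exact ⟨fun _ => hb, hb, fun g _ _ _ => by simpa using tendsto_const_nhds⟩
  · refine ⟨fun _ => measurable_const, measurable_const, fun g _ _ _ => ?_⟩
    simp only [integral_mul_const]
    have := ((tendsto_const_nhds (x := (1 : ℝ))).min (hc.sub_const d).abs).const_mul (∫ x, g x ∂μ)
    simpa using this
  · exact MCAux.p8 (e := MeasurableEquiv.prodComm) Measure.measurePreserving_swap (MCAux.p6 hab)

end Vale.Agent.P140
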