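import Vale.Agent.P140.StmA

/-! Measurability of the collision operators. -/

namespace Vale.Agent.P140

open MeasureTheory Set
open scoped ENNReal

namespace Meas

variable {α : Type} [MeasurableSpace α]

theorem tri {u : α → E} (hu : Measurable u) :
    Measurable fun z : α × E × S2 => (u z.1, z.2.1, z.2.2) :=
  (hu.comp measurable_fst).prodMk measurable_snd

theorem mcf {u : α → E} (hu : Measurable u) :
    Measurable fun z : α × E × S2 => |cf (u z.1) z.2.1 z.2.2| :=
  continuous_abs.measurable.comp (continuous_cf.measurable.comp (tri hu))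

theorem mvp {u : α → E} (hu : Measurable u) :
    Measurable fun z : α × E × S2 => vp (u z.1) z.2.1 z.2.2 :=
  continuous_vp.measurable.comp (tri hu)

theorem mwp {u : α → E} (hu : Measurable u) :
    Measurable fun z : α × E × S2 => wp (u z.1) z.2.1 z.2.2 :=
  continuous_wp.measurable.comp (tri hu)

theorem mker {k : ℝ → ℝ → ℝ} (hk : IsKer k) {u : α → E} (hu : Measurable u) :
    Measurable fun z : α × E × S2 =>
      ENNReal.ofReal (k |cf (u z.1) z.2.1 z.2.2| ‖u z.1 - z.2.1‖) :=
  (hk.comp ((mcf hu).prodMk ((hu.comp measurable_fst).sub measurable_snd.fst).norm)).ennreal_ofReal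

theorem lin {Φ : α × E × S2 → ℝ≥0∞} (h : Measurable Φ) :
    Measurable fun a => ∫⁻ q : E × S2, Φ (a, q) ∂(volume.prod sph) :=
  h.lintegral_prod_right'

theorem gain {k : ℝ → ℝ → ℝ} {f g : α → E → ℝ≥0∞} {u : α → E} (hk : IsKer k)
    (hf : Measurable fun z : α × E => f z.1 z.2) (hg : Measurable fun z : α × E => g z.1 z.2)
    (hu : Measurable u) : Measurable fun a => gainK k (f a) (g a) (u a) :=
  lin ((mker hk hu).mul ((hf.comp (measurable_fst.prodMk (mvp hu))).mul
    (hg.comp (measurable_fst.prodMk (mwp hu)))))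

theorem freq {k : ℝ → ℝ → ℝ} {g : α → E → ℝ≥0∞} {u : α → E} (hk : IsKer k)
    (hg : Measurable fun z : α × E => g z.1 z.2) (hu : Measurable u) :
    Measurable fun a => freqK k (g a) (u a) :=
  lin ((mker hk hu).mul (hg.comp (measurable_fst.prodMk measurable_snd.fst)))

theorem kF' : IsKer kF := measurable_fst

theorem kT' (R : ℝ) : IsKer (kT R) :=
  Measurable.ite (measurableSet_le measurable_snd measurable_const)
    (measurable_fst.min ((measurable_fst.pow_const 2).const_mul R)) measurable_const

theorem kC' (R : ℝ) : IsKer (kC R) :=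
  Measurable.ite (measurableSet_le measurable_snd measurable_const) measurable_fst measurable_const

theorem mjj : Measurable fun z : ℝ × ℝ => jj z.1 z.2 := by
  unfold jj
  refine Measurable.ite (measurableSet_eq_fun measurable_fst measurable_snd) measurable_const
    (Measurable.ite ((measurableSet_eq_fun measurable_fst measurable_const).union
      (measurableSet_eq_fun measurable_snd measurable_const)) measurable_const ?_)
  exact ((measurable_fst.sub measurable_snd).mul
    (measurable_fst.div measurable_snd).log).ennreal_ofReal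

variable {F : ℝ → Om → ℝ}

theorem ev (hF : Measurable fun y : ℝ × Om => F y.1 y.2) {w : (ℝ × Om) × E × S2 → E}
    (hw : Measurable w) : Measurable fun z : (ℝ × Om) × E × S2 => F z.1.1 (z.1.2.1, w z) :=
  hF.comp (measurable_fst.fst.prodMk (measurable_fst.snd.fst.prodMk hw))

theorem post (hF : Measurable fun y : ℝ × Om => F y.1 y.2) :
    Measurable fun z : (ℝ × Om) × E × S2 => F z.1.1 (z.1.2.1, vp z.1.2.2 z.2.1 z.2.2) *
      F z.1.1 (z.1.2.1, wp z.1.2.2 z.2.1 z.2.2) :=
  (ev hF (mvp (u := fun y : ℝ × Om => y.2.2) measurable_snd.snd)).mul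
    (ev hF (mwp (u := fun y : ℝ × Om => y.2.2) measurable_snd.snd))

theorem pre (hF : Measurable fun y : ℝ × Om => F y.1 y.2) :
    Measurable fun z : (ℝ × Om) × E × S2 => F z.1.1 (z.1.2.1, z.1.2.2) *
      F z.1.1 (z.1.2.1, z.2.1) :=
  (ev hF measurable_fst.snd.snd).mul (ev hF measurable_snd.fst)

theorem mrho (hF : Measurable fun y : ℝ × Om => F y.1 y.2) :
    Measurable fun y : ℝ × T3 => rho (F y.1) y.2 :=
  (StronglyMeasurable.integral_prod_right' (f := fun z : (ℝ × T3) × E => F z.1.1 (z.1.2, z.2))
    (hF.comp (measurable_fst.fst.prodMk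
      (measurable_fst.snd.prodMk measurable_snd))).stronglyMeasurable).measurable

theorem msl (hF : Measurable fun y : ℝ × Om => F y.1 y.2) :
    Measurable fun z : (ℝ × Om) × E => sl (F z.1.1) z.1.2.1 z.2 :=
  (hF.comp (measurable_fst.fst.prodMk
    (measurable_fst.snd.fst.prodMk measurable_snd))).ennreal_ofReal

theorem den (hF : Measurable fun y : ℝ × Om => F y.1 y.2) (δ : ℝ) :
    Measurable fun y : ℝ × Om => 1 + δ * rho (F y.1) y.2.1 :=
  (((mrho hF).comp (measurable_fst.prodMk measurable_snd.fst)).const_mul δ).const_add 1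

end Meas

open Meas in
theorem meas : MeasStmt := by
  refine ⟨kF', kT', kC', fun α _ k f g u hk hf hg hu => ⟨gain hk hf hg hu, freq hk hg hu⟩,
    fun F hF R δ => ⟨mrho hF, ?_, ?_, ?_, ?_, ?_, ?_, ?_, ?_⟩, mjj, fun f p hf h0 => ⟨?_, ?_⟩⟩
  · exact (gain (f := fun y : ℝ × Om => sl (F y.1) y.2.1) (g := fun y => sl (F y.1) y.2.1)
      (kT' R) (msl hF) (msl hF) measurable_snd.snd).ennreal_toReal.div (den hF δ)
  · exact (freq (g := fun y : ℝ × Om => sl (F y.1) y.2.1) (kT' R) (msl hF)
      measurable_snd.snd).ennreal_toReal.div (den hF δ)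
  · exact (freq (g := fun y : ℝ × Om => sl (F y.1) y.2.1) kF' (msl hF)
      measurable_snd.snd).ennreal_toReal
  · exact (lin ((mker (kT' R) measurable_snd.snd).mul
      (mjj.comp ((post hF).prodMk (pre hF))))).div (den hF δ).ennreal_ofReal
  · exact lin ((mcf measurable_snd.snd).mul (post hF)).ennreal_ofReal
  · exact lin ((mcf measurable_snd.snd).mul (pre hF)).ennreal_ofReal
  · exact (Measurable.lintegral_prod_right' (lin ((mcf measurable_snd.snd).ennreal_ofReal.mul
      (mjj.comp ((post hF).prodMk (pre hF)))))).const_mul _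
  · have hM : Measurable fun y : ℝ × Om => Mx y.2.2 :=
      continuous_Mx.measurable.comp measurable_snd.snd
    exact Measurable.lintegral_prod_right'
      (((hF.mul (hF.div hM).log).sub hF).add hM).ennreal_ofReal
  · refine lintegral_congr fun q => ?_
    rw [ENNReal.ofReal_mul (abs_nonneg _), ENNReal.ofReal_mul (h0 _)]
    rfl
  · rw [freqK, ← lintegral_const_mul' _ _ ENNReal.ofReal_ne_top]
    refine lintegral_congr fun q => ?_
    rw [ENNReal.ofReal_mul (abs_nonneg _), ENNReal.ofReal_mul (h0 _), mul_left_comm]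
    rfl

end Vale.Agent.P140
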