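import Vale.Agent.P140.StmB

/-! The mild form of the limit and good flights. -/

namespace Vale.Agent.P140

open MeasureTheory Set Filter Topology
open scoped ENNReal

noncomputable section

namespace MildX

theorem ae_tendsto {α : Type} [MeasurableSpace α] {μ : Measure α} {g : ℕ → α → ℝ≥0∞}
    (hg : ∀ k, Measurable (g k)) (h : ∀ k, ∫⁻ x, g k x ∂μ ≤ ENNReal.ofReal ((1 / 2) ^ k)) :
    ∀ᵐ x ∂μ, Tendsto (fun k => g k x) atTop (𝓝 0) := by
  have h1 : ∫⁻ x, ∑' k, g k x ∂μ ≠ ⊤ := by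
    rw [lintegral_tsum fun k => (hg k).aemeasurable]
    refine ne_top_of_le_ne_top ?_ (ENNReal.tsum_le_tsum h)
    rw [← ENNReal.ofReal_tsum_of_nonneg (fun k => by positivity) summable_geometric_two]
    exact ENNReal.ofReal_ne_top
  exact (ae_lt_top (Measurable.ennreal_tsum hg) h1).mono fun x hx =>
    ENNReal.tendsto_atTop_zero_of_tsum_ne_top hx.ne

theorem ae_swap {t : ℝ} {P : ℝ × Om → Prop} (h : ∀ᵐ y ∂(mY t), P y) :
    ∀ᵐ p : Om, ∀ᵐ r ∂(mT t), P (r, p) :=
  Measure.ae_ae_of_ae_prod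
    ((Measure.measurePreserving_swap (μ := volume) (ν := mT t)).quasiMeasurePreserving.ae h)

theorem ae_comm {t : ℝ} {P : ℝ → Om → Prop} (hP : MeasurableSet {y : ℝ × Om | P y.1 y.2})
    (h : ∀ r ∈ Icc 0 t, ∀ᵐ p : Om, P r p) : ∀ᵐ p : Om, ∀ᵐ r ∂(mT t), P r p :=
  (Measure.ae_ae_comm hP).1 ((ae_restrict_iff' measurableSet_Icc).2 (ae_of_all _ h))

theorem mfl : Measurable fun y : ℝ × Om => (y.1, fl y.1 y.2) :=
  (continuous_fst.prodMk continuous_fl).measurable

theorem msec {β : Type} [MeasurableSpace β] {Q : ℝ × Om → β} (hQ : Measurable Q) (p : Om) :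
    Measurable fun r : ℝ => Q (r, p) := hQ.comp (measurable_id.prodMk measurable_const)

theorem measurable_duh {Q : ℝ × Om → ℝ≥0∞} {N : ℝ × Om → ℝ} (hQ : Measurable Q)
    (hN : Measurable N) : Measurable fun y : ℝ × Om => ∫⁻ r in Icc 0 y.1,
      Q (r, y.2) * ENNReal.ofReal (Real.exp (-(N (y.1, y.2) - N (r, y.2)))) := by
  have h1 : Measurable fun z : (ℝ × Om) × ℝ => (z.2, z.1.2) := by fun_prop
  have h2 : Measurable fun z : (ℝ × Om) × ℝ => if 0 ≤ z.2 ∧ z.2 ≤ z.1.1 then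
      Q (z.2, z.1.2) * ENNReal.ofReal (Real.exp (-(N z.1 - N (z.2, z.1.2)))) else 0 :=
    Measurable.ite ((measurableSet_le measurable_const measurable_snd).inter
      (measurableSet_le measurable_snd measurable_fst.fst))
      ((hQ.comp h1).mul ((hN.comp measurable_fst).sub (hN.comp h1)).neg.exp.ennreal_ofReal)
      measurable_const
  have h3 := h2.lintegral_prod_right' (ν := volume)
  refine (congrArg Measurable (funext fun y => ?_)).mp h3
  rw [← lintegral_indicator measurableSet_Icc]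
  exact lintegral_congr fun r => by simp only [indicator, mem_Icc]

end MildX

open MildX

theorem mild (hM : MeasStmt) (hT : TorusStmt) (hN : NuExpStmt) (hS : SuperStmt) (hB : SubMStmt) :
    MildStmt := by
  intro R δ Fn F₀ F L t ht
  obtain ⟨n1, -, n3, -⟩ := hN R δ Fn F₀ F L t ht
  have mN := n3.2.1
  have mF := L.meas.comp mfl
  have mν := (hM.2.2.2.2.1 _ L.meas 0 0).2.2.2.1.comp mfl
  have h1 : ∀ᵐ p : Om, ∀ᵐ r ∂(mT t), F r (fl r p) *
      Real.exp (-(NN (fun s => nu (F s)) t p - NN (fun s => nu (F s)) r p)) ≤ F t (fl t p) :=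
    ae_comm (measurableSet_le (mF.mul ((mN.comp (measurable_const.prodMk measurable_snd)).sub
      mN).neg.exp) (mF.comp (measurable_const.prodMk measurable_snd))) fun r hr =>
      (hS R δ Fn F₀ F L r t hr.1 hr.2).mono fun p hp =>
        (ENNReal.ofReal_le_ofReal_iff (L.nonneg _ _)).1 (le_self_add.trans hp)
  choose b e hb he he0 h2 h3 h4 h5 using fun k : ℕ =>
    hB R δ Fn F₀ F L t ((1 / 2) ^ k) ht (by positivity)
  have h6 := ae_tendsto (fun k => ((mF.comp (measurable_const.prodMk measurable_id)).sub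
    (hb k)).ennreal_ofReal) h2
  have h7 := ae_swap (ae_tendsto (fun k => (he k).ennreal_ofReal) h3)
  have h8 := ae_swap (ae_all_iff.2 h4)
  filter_upwards [hS R δ Fn F₀ F L 0 t le_rfl ht, L.init, n1, h1, ae_all_iff.2 h5, h6, h7, h8]
    with p k0 k1 k2 k3 k4 k5 k6 k7
  refine le_antisymm ?_ (by simpa only [fl_zero, k1, NN, intervalIntegral.integral_same,
    sub_zero] using k0)
  have hν : ∀ r, 0 ≤ nu (F r) (fl r p) := fun r => ENNReal.toReal_nonneg
  have mp : Measurable fun r : ℝ => (r, p) := measurable_id.prodMk measurable_const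
  have k8 : Tendsto (fun k => ∫⁻ r in Icc (0 : ℝ) t, ENNReal.ofReal (e k (r, p) *
      nu (F r) (fl r p) *
      Real.exp (-(NN (fun s => nu (F s)) t p - NN (fun s => nu (F s)) r p)))) atTop
      (𝓝 (∫⁻ _ in Icc (0 : ℝ) t, 0)) := by
    refine tendsto_lintegral_of_dominated_convergence
      (fun r => ENNReal.ofReal (F t (fl t p) * nu (F r) (fl r p)))
      (fun k => ((((he k).comp mp).mul (mν.comp mp)).mul
        (measurable_const.sub (mN.comp mp)).neg.exp).ennreal_ofReal) (fun k => ?_) ?_ ?_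
    · filter_upwards [k3, k7] with r a1 a2
      refine ENNReal.ofReal_le_ofReal ?_
      rw [mul_right_comm]
      exact mul_le_mul_of_nonneg_right
        ((mul_le_mul_of_nonneg_right (a2 k) (Real.exp_pos _).le).trans a1) (hν r)
    · exact (((intervalIntegrable_iff_integrableOn_Icc_of_le ht).1 k2).const_mul
        _).lintegral_lt_top.ne
    · filter_upwards [k6] with r a1
      simp only [mul_assoc, ENNReal.ofReal_mul (he0 _ _)]
      simpa using ENNReal.Tendsto.mul_const a1 (Or.inr ENNReal.ofReal_ne_top)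
  have k9 := (k8.const_add (ENNReal.ofReal (F₀ p * Real.exp (-NN (fun s => nu (F s)) t p)) +
    Duh F 0 t p)).add k5
  rw [lintegral_zero, add_zero, add_zero] at k9
  refine ge_of_tendsto' k9 fun k => le_trans ?_ (add_le_add_left (k4 k) _)
  refine le_trans (le_of_eq ?_) ENNReal.ofReal_add_le
  simp

theorem MildX.one (hE : ExpStmt) {T y₀ : ℝ} {Q : ℝ → ℝ≥0∞} {ν f N : ℝ → ℝ} (hT : 0 ≤ T)
    (hy₀ : 0 ≤ y₀) (mQ : Measurable Q) (hν : ∀ r, 0 ≤ ν r) (hf : ∀ r, 0 ≤ f r)
    (hN : ∀ r, N r = ∫ s in (0 : ℝ)..r, ν s) (k3 : IntervalIntegrable ν volume 0 T)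
    (k1 : ∀ᵐ t ∂(mT T), ENNReal.ofReal (f t) = ENNReal.ofReal (y₀ * Real.exp (-N t)) +
      ∫⁻ r in Icc 0 t, Q r * ENNReal.ofReal (Real.exp (-(N t - N r))))
    (k2 : ∫⁻ r in Icc 0 T, Q r * ENNReal.ofReal (Real.exp (-(N T - N r))) ≠ ⊤) :
    ∃ y : ℝ → ℝ, (∀ t ∈ Icc (0 : ℝ) T, 0 ≤ y t) ∧ (∀ᵐ t ∂(mT T), y t = f t) ∧
      IntervalIntegrable (fun s => (Q s).toReal - f s * ν s) volume 0 T ∧
      ∀ t ∈ Icc (0 : ℝ) T, y t = y₀ + ∫ s in (0 : ℝ)..t, ((Q s).toReal - f s * ν s) := by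
  have k4 : ∫⁻ r in Icc 0 T, Q r ≠ ⊤ := by
    have a1 : (∫⁻ r in Icc 0 T, Q r) * ENNReal.ofReal (Real.exp (-N T)) ≤
        ∫⁻ r in Icc 0 T, Q r * ENNReal.ofReal (Real.exp (-(N T - N r))) := by
      rw [← lintegral_mul_const' _ _ ENNReal.ofReal_ne_top]
      refine setLIntegral_mono' measurableSet_Icc fun r hr => mul_le_mul' le_rfl
        (ENNReal.ofReal_le_ofReal (Real.exp_le_exp.2 ?_))
      have a2 : 0 ≤ N r := hN r ▸ intervalIntegral.integral_nonneg hr.1 fun s _ => hν s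
      linarith
    intro a2
    rw [a2, ENNReal.top_mul (ENNReal.ofReal_pos.2 (Real.exp_pos _)).ne', top_le_iff] at a1
    exact k2 a1
  have k5 : IntervalIntegrable (fun r => (Q r).toReal) volume 0 T :=
    (intervalIntegrable_iff_integrableOn_Icc_of_le hT).2
      (integrable_toReal_of_lintegral_ne_top mQ.aemeasurable k4)
  have k6 : ∀ᵐ r ∂(mT T), Q r < ⊤ := ae_lt_top mQ k4
  have sub : ∀ {f : ℝ → ℝ}, IntervalIntegrable f volume 0 T → ∀ t ∈ Icc 0 T,
      IntervalIntegrable f volume 0 t := fun hf t ht =>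
    hf.mono_set (by rw [uIcc_of_le ht.1, uIcc_of_le hT]; exact Icc_subset_Icc_right ht.2)
  obtain ⟨y, hy⟩ : ∃ y : ℝ → ℝ, ∀ t, y t = y₀ * Real.exp (-∫ s in (0 : ℝ)..t, ν s) +
    ∫ r in (0 : ℝ)..t, (Q r).toReal * Real.exp (-∫ s in r..t, ν s) := ⟨_, fun _ => rfl⟩
  obtain ⟨k7, k8⟩ := hE.2 0 T y₀ y _ _ hT k5 k3 fun t _ => hy t
  have a0 : ∀ t, 0 ≤ y₀ * Real.exp (-∫ s in (0 : ℝ)..t, ν s) := fun t => by positivity
  have a1 : ∀ t ∈ Icc 0 T, 0 ≤ ∫ r in (0 : ℝ)..t, (Q r).toReal * Real.exp (-∫ s in r..t, ν s) :=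
    fun t ht => intervalIntegral.integral_nonneg ht.1 fun s _ => by positivity
  have k9 : ∀ t ∈ Icc 0 T, 0 ≤ y t := fun t ht => hy t ▸ add_nonneg (a0 t) (a1 t ht)
  have k10 : ∀ᵐ t ∂(mT T), y t = f t := by
    filter_upwards [k1, ae_restrict_mem measurableSet_Icc] with t b1 ht
    refine (ENNReal.ofReal_eq_ofReal_iff (k9 t ht) (hf _)).1 (Eq.trans ?_ b1.symm)
    rw [hy, ENNReal.ofReal_add (a0 t) (a1 t ht), hN t]
    refine congrArg₂ _ rfl ?_
    have b2 : ContinuousOn (fun r => Real.exp (-∫ s in r..t, ν s)) (uIcc 0 t) :=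
      (intervalIntegral.continuousOn_primitive_interval_left
        ((intervalIntegrable_iff' (by simp)).1 (sub k3 t ht))).neg.rexp
    rw [intervalIntegral.integral_of_le ht.1, ← integral_Icc_eq_integral_Ioc,
      ofReal_integral_eq_lintegral_ofReal ((intervalIntegrable_iff_integrableOn_Icc_of_le ht.1).1
        ((sub k5 t ht).mul_continuousOn b2)) (ae_of_all _ fun s => by positivity)]
    refine lintegral_congr_ae ?_
    filter_upwards [ae_restrict_of_ae_restrict_of_subset (Icc_subset_Icc_right ht.2) k6,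
      ae_restrict_mem measurableSet_Icc] with r c1 c2
    rw [ENNReal.ofReal_mul ENNReal.toReal_nonneg, ENNReal.ofReal_toReal c1.ne, hN r,
      intervalIntegral.integral_interval_sub_left (sub k3 t ht)
        (sub k3 r ⟨c2.1, c2.2.trans ht.2⟩)]
  have k11 : ∀ᵐ s ∂(mT T), (Q s).toReal - ν s * y s = (Q s).toReal - f s * ν s := by
    filter_upwards [k10] with s b1
    rw [b1, mul_comm]
  refine ⟨y, k9, k10, ?_, fun t ht => (k8 t ht).trans (congrArg₂ _ rfl ?_)⟩
  · rw [intervalIntegrable_iff_integrableOn_Icc_of_le hT]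
    refine ((intervalIntegrable_iff_integrableOn_Icc_of_le hT).1
      (k5.sub (k3.mul_continuousOn ?_))).congr_fun_ae k11
    rwa [uIcc_of_le hT]
  · rw [intervalIntegral.integral_of_le ht.1, intervalIntegral.integral_of_le ht.1]
    exact integral_congr_ae (ae_restrict_of_ae_restrict_of_subset
      (Ioc_subset_Icc_self.trans (Icc_subset_Icc_right ht.2)) k11)

theorem flight (hM : MeasStmt) (hT : TorusStmt) (hE : ExpStmt) (hN : NuExpStmt) (h : MildStmt) :
    FlightStmt := by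
  intro R δ Fn F₀ F L T hT
  obtain ⟨n1, -, n3, -⟩ := hN R δ Fn F₀ F L T hT
  have mN := n3.2.1
  have mF : Measurable fun y : ℝ × Om => F y.1 (fl y.1 y.2) := L.meas.comp mfl
  have mQ : Measurable fun y : ℝ × Om => Qp (F y.1) (fl y.1 y.2) :=
    (hM.2.2.2.2.1 _ L.meas 0 0).2.2.2.2.2.1.comp mfl
  have mD : Measurable fun y : ℝ × Om => Duh F 0 y.1 y.2 :=
    measurable_duh (Q := fun y : ℝ × Om => Qp (F y.1) (fl y.1 y.2))
      (N := fun y : ℝ × Om => NN (fun s => nu (F s)) y.1 y.2) mQ mN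
  have h1 : ∀ᵐ p : Om, ∀ᵐ t ∂(mT T), ENNReal.ofReal (F t (fl t p)) =
      ENNReal.ofReal (F₀ p * Real.exp (-NN (fun s => nu (F s)) t p)) + Duh F 0 t p :=
    ae_comm (measurableSet_eq_fun mF.ennreal_ofReal
      ((((L.apr.datum.1.comp measurable_snd).mul mN.neg.exp).ennreal_ofReal).add mD))
      fun r hr => h R δ Fn F₀ F L r hr.1
  filter_upwards [h1, h R δ Fn F₀ F L T hT, n1] with p k1 k2 k3
  have k4 : ∀ s, (Qm (F s) (fl s p)).toReal = F s (fl s p) * nu (F s) (fl s p) := fun s => by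
    rw [(hM.2.2.2.2.2.2 (F s) (fl s p) (L.meas.comp (measurable_const.prodMk measurable_id))
      (L.nonneg s)).2, ENNReal.toReal_mul, ENNReal.toReal_ofReal (L.nonneg _ _), nu]
  simp only [k4]
  have mQ' : Measurable fun r : ℝ => Qp (F r) (fl r p) := msec mQ p
  refine one hE (N := fun t => NN (fun s => nu (F s)) t p) (Q := fun r => Qp (F r) (fl r p))
    (f := fun r => F r (fl r p)) (ν := fun r => nu (F r) (fl r p)) hT (L.apr.datum.2.1 p)
    mQ' (fun r => ENNReal.toReal_nonneg)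
    (fun r => L.nonneg _ _) (fun _ => rfl) k3 k1 fun a => ?_
  rw [Duh, a, add_top] at k2
  exact ENNReal.ofReal_ne_top k2

end

end Vale.Agent.P140
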