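import Vale.Agent.P140.NuA

/-!
Strong convergence of the collision frequency.
-/

namespace Vale.Agent.P140

open MeasureTheory Set Filter Topology
open scoped ENNReal

noncomputable section

namespace Nu

open AvF

lemma frac_le {L x : ℝ} (hL : 0 ≤ L) (hx : 0 ≤ x) : |L / (1 + x) - L| ≤ L * min 1 |x - 0| := by
  have e : L / (1 + x) - L = -(L * (x / (1 + x))) := by field_simp; ring
  rw [e, abs_neg, abs_of_nonneg (by positivity), sub_zero, abs_of_nonneg hx]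
  gcongr
  refine le_min ?_ (div_le_self hx (by linarith))
  rw [div_le_one (by linarith)]; linarith

lemma pt_est (hM : MeasStmt) {f g : E → ℝ} (hf : Measurable f) (hg : Measurable g)
    (hf0 : ∀ w, 0 ≤ f w) (hg0 : ∀ w, 0 ≤ g w)
    (hfI : Integrable (fun w => f w * (1 + ‖w‖) ^ 2))
    (hgI : Integrable (fun w => g w * (1 + ‖w‖) ^ 2)) {R x r η : ℝ} (hR : 0 < R) (hx : 0 ≤ x)
    {v u : E} (hv : ‖v‖ ≤ r) (hu : ‖v - u‖ ≤ η) :
    |(∫ w, f w * AK (kT R) (v - w)) / (1 + x) - ∫ w, g w * AK kF (v - w)| ≤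
      cS * (1 + r) * (|(∫ w, f w * (1 + ‖w‖)) - ∫ w, g w * (1 + ‖w‖)| +
        (∫ w, g w * (1 + ‖w‖)) * min 1 |x - 0|) +
      cS * (1 + r) ^ 2 / R * (∫ w, f w * (1 + ‖w‖) ^ 2) +
      cS * η * ((∫ w, f w * (1 + ‖w‖) ^ 2) + ∫ w, g w * (1 + ‖w‖) ^ 2) +
      |(∫ w, f w * AK kF (u - w)) - ∫ w, g w * AK kF (u - w)| := by
  have hc := cS_nonneg
  have hr : 0 ≤ r := (norm_nonneg v).trans hv
  have hη : 0 ≤ η := (norm_nonneg _).trans hu
  obtain ⟨hL0, hL1⟩ := conv_le (sub_kT hM hR) hf hf0 hfI hv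
  have h1 : |(∫ w, f w * AK (kT R) (v - w)) / (1 + x) - ∫ w, f w * AK (kT R) (v - w)| ≤
      cS * (1 + r) * (|(∫ w, f w * (1 + ‖w‖)) - ∫ w, g w * (1 + ‖w‖)| +
        (∫ w, g w * (1 + ‖w‖)) * min 1 |x - 0|) := by
    refine (frac_le hL0 hx).trans ?_
    have hm0 : 0 ≤ min 1 |x - 0| := le_min zero_le_one (abs_nonneg _)
    have hm1 : min 1 |x - 0| ≤ 1 := min_le_left _ _
    generalize min 1 |x - 0| = θ at *
    generalize (∫ w, f w * (1 + ‖w‖)) = a at *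
    generalize (∫ w, g w * (1 + ‖w‖)) = b at *
    have h2 : a * θ ≤ |a - b| + b * θ := by
      have h3 : (a - b) * θ ≤ |a - b| * θ := by gcongr; exact le_abs_self _
      have h4 : |a - b| * θ ≤ |a - b| * 1 := by gcongr
      linarith
    calc (∫ w, f w * AK (kT R) (v - w)) * θ ≤ cS * (1 + r) * a * θ := by gcongr
      _ = cS * (1 + r) * (a * θ) := by ring
      _ ≤ cS * (1 + r) * (|a - b| + b * θ) := by gcongr
  have gen : ∀ (h φ₁ φ₂ : E → ℝ) (c : ℝ), (∀ w, 0 ≤ h w) →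
      Integrable (fun w => h w * (1 + ‖w‖) ^ 2) → Integrable (fun w => h w * φ₁ w) →
      Integrable (fun w => h w * φ₂ w) → (∀ w, |φ₁ w - φ₂ w| ≤ c * (1 + ‖w‖) ^ 2) →
      |(∫ w, h w * φ₁ w) - ∫ w, h w * φ₂ w| ≤ c * ∫ w, h w * (1 + ‖w‖) ^ 2 := by
    intro h φ₁ φ₂ c h0 hI h1 h2 hb
    rw [← integral_sub h1 h2, ← integral_const_mul]
    refine abs_integral_le_integral_abs.trans
      (integral_mono (h1.sub h2).abs (hI.const_mul c) fun w => ?_)
    show |h w * φ₁ w - h w * φ₂ w| ≤ c * (h w * (1 + ‖w‖) ^ 2)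
    rw [← mul_sub, abs_mul, abs_of_nonneg (h0 w)]
    calc h w * |φ₁ w - φ₂ w| ≤ h w * (c * (1 + ‖w‖) ^ 2) := by gcongr; exacts [h0 w, hb w]
      _ = c * (h w * (1 + ‖w‖) ^ 2) := by ring
  have h2 : |(∫ w, f w * AK (kT R) (v - w)) - ∫ w, f w * AK kF (v - w)| ≤
      cS * (1 + r) ^ 2 / R * (∫ w, f w * (1 + ‖w‖) ^ 2) := by
    refine gen f _ _ _ hf0 hfI (int_AK (sub_kT hM hR) hf hf0 hfI v)
      (int_AK (sub_kF hM) hf hf0 hfI v) fun w => ?_
    refine (AF_sub_AT hM hR _).trans ?_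
    have h3 : 1 + ‖v - w‖ ≤ (1 + r) * (1 + ‖w‖) := by
      have := norm_sub_le v w
      nlinarith [norm_nonneg v, norm_nonneg w]
    have h4 : 1 + ‖v - w‖ ^ 2 ≤ ((1 + r) * (1 + ‖w‖)) ^ 2 := by
      have h5 : (1 + ‖v - w‖) ^ 2 ≤ ((1 + r) * (1 + ‖w‖)) ^ 2 := by gcongr
      nlinarith [norm_nonneg (v - w)]
    calc cS * ((1 + ‖v - w‖ ^ 2) / R) ≤ cS * (((1 + r) * (1 + ‖w‖)) ^ 2 / R) := by gcongr
      _ = cS * (1 + r) ^ 2 / R * (1 + ‖w‖) ^ 2 := by ring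
  have hlip : ∀ w, |AK kF (v - w) - AK kF (u - w)| ≤ cS * η * (1 + ‖w‖) ^ 2 := fun w => by
    refine (AF_lip hM _ _).trans ?_
    rw [sub_sub_sub_cancel_right]
    calc cS * ‖v - u‖ ≤ cS * η := by gcongr
      _ = cS * η * 1 := (mul_one _).symm
      _ ≤ cS * η * (1 + ‖w‖) ^ 2 := by gcongr; exact (one_le_w w).1
  have h3 := gen f _ _ _ hf0 hfI (int_AK (sub_kF hM) hf hf0 hfI v)
    (int_AK (sub_kF hM) hf hf0 hfI u) hlip
  have h4 := gen g _ _ _ hg0 hgI (int_AK (sub_kF hM) hg hg0 hgI v)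
    (int_AK (sub_kF hM) hg hg0 hgI u) hlip
  rw [abs_le] at h1 h2 h3 h4 ⊢
  have h5 := le_abs_self ((∫ w, f w * AK kF (u - w)) - ∫ w, g w * AK kF (u - w))
  have h6 := neg_abs_le ((∫ w, f w * AK kF (u - w)) - ∫ w, g w * AK kF (u - w))
  constructor <;> linarith [h1.1, h1.2, h2.1, h2.2, h3.1, h3.2, h4.1, h4.2]

lemma exists_net (r : ℝ) {η : ℝ} (hη : 0 < η) :
    ∃ S : Finset E, ∀ v : E, ‖v‖ ≤ r → ∃ u ∈ S, ‖v - u‖ ≤ η := by
  obtain ⟨t, -, ht, hc⟩ := (isCompact_closedBall (0 : E) r).finite_cover_balls hη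
  refine ⟨ht.toFinset, fun v hv => ?_⟩
  have := hc (show v ∈ Metric.closedBall (0 : E) r by simpa using hv)
  simp only [mem_iUnion] at this
  obtain ⟨u, hu, h⟩ := this
  exact ⟨u, ht.mem_toFinset.2 hu, by rw [← dist_eq_norm]; exact (Metric.mem_ball.1 h).le⟩

lemma mc_small (hU : UIStmt) (hC : MCStmt) (hM : MeasStmt) {R δ : ℕ → ℝ} {Fn : ℕ → ℝ → Om → ℝ}
    {F₀ : Om → ℝ} (hap : Apr R δ Fn F₀) (T : ℝ) :
    MC (mX T) (fun n y => δ n * rho (Fn n y.1) y.2) (fun _ => 0) := by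
  obtain ⟨hI, B, hB⟩ := (hU.2.2 _ (mY T)).1 _ (hap.uiY T)
  refine (hC _ (mX T)).1 _ _ (fun _ => univ)
    (fun n => measurable_const.mul (hM.2.2.2.2.1 _ (hap.ts n).meas 0 0).1) measurable_const
    (fun _ => MeasurableSet.univ) monotone_const (fun _ => ⟨0, mem_univ _⟩) fun _ => ?_
  have h1 : Tendsto (fun n => ENNReal.ofReal (δ n * B)) UF (𝓝 0) := by
    have := ENNReal.tendsto_ofReal ((hap.δlim.mono_left hU.1).mul_const B)
    simpa using this
  refine tendsto_of_tendsto_of_tendsto_of_le_of_le tendsto_const_nhds h1 (fun _ => zero_le)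
    fun n => ?_
  have h0 := (hap.ts n).nonneg
  have h2 : Integrable (fun y : ℝ × T3 => δ n * rho (Fn n y.1) y.2) (mX T) :=
    (int_marg (hI n)).const_mul _
  have h3 : ∀ y : ℝ × T3, 0 ≤ δ n * rho (Fn n y.1) y.2 := fun y =>
    mul_nonneg (hap.δpos n).le (integral_nonneg fun v => h0 _ _)
  simp only [Measure.restrict_univ, sub_zero]
  simp only [abs_of_nonneg (h3 _)]
  rw [← ofReal_integral_eq_lintegral_ofReal h2 (Eventually.of_forall h3), integral_const_mul]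
  refine ENNReal.ofReal_le_ofReal (mul_le_mul_of_nonneg_left ?_ (hap.δpos n).le)
  have h4 := hB n
  simp only [abs_of_nonneg (h0 _ _)] at h4
  rw [integral_as (hI n)] at h4
  exact h4

end Nu

open AvF Nu in
theorem nuConv (hM : MeasStmt) (hU : UIStmt) (hC : MCStmt) (hO : TOpStmt) (hF : TSFlStmt)
    (hA : AvFStmt) : NuStmt := by
  intro R δ Fn F₀ F hL T r
  have hap := hL.apr
  obtain ⟨Cm, hCm⟩ := hap.mom
  obtain ⟨Cl, hCl⟩ := hL.mom
  have hmn := fun n => mom_int (T := T) (hap.ts n).meas (hap.ts n).nonneg (hCm n)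
  have hml := mom_int (T := T) hL.meas hL.nonneg hCl
  have hc := cS_nonneg
  have hsl : ∀ G : ℝ → Om → ℝ, Measurable (fun y : ℝ × Om => G y.1 y.2) → ∀ t x,
      Measurable (fun w : E => G t (x, w)) := fun G hG t x =>
    hG.comp (f := fun w : E => (t, (x, w))) (by fun_prop)
  refine ⟨cut_freq_int (sub_kF hM) hL.meas hL.nonneg hml.1 (hM.2.2.2.2.1 _ hL.meas 0 0).2.2.2.1
    fun y => (abs_of_nonneg ENNReal.toReal_nonneg).le, ?_, ?_⟩
  · filter_upwards [ae_lift (ae_slice hml.1)] with y hy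
    have e := freq_eq (sub_kF hM) (hsl F hL.meas y.1 y.2.1) (fun w => hL.nonneg _ _) hy y.2.2
    exact ne_of_eq_of_ne e ENNReal.ofReal_ne_top
  rw [Metric.tendsto_nhds]
  intro ε hε
  set B := (mT T).real univ * Cm with hB
  set B' := (mT T).real univ * Cl with hB'
  have hv0 := vb_nonneg r
  set η := ε / 2 / (vb r * cS * |B + B'| + 1) with hη
  have hη0 : 0 < η := by positivity
  obtain ⟨S, hS⟩ := exists_net r hη0
  obtain ⟨hJ, hJU, hJT⟩ := hA R δ Fn F₀ F hL T 1 (fun w => 1 + ‖w‖) (by fun_prop)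
    fun w => by rw [abs_of_nonneg (by positivity), one_mul]
  have hN := fun u : E => hA R δ Fn F₀ F hL T (cS * (1 + ‖u‖)) (fun w => AK kF (u - w))
    ((meas_AK hM.1).comp (by fun_prop)) fun w => abs_AK_le (sub_kF hM) u w
  have hJn := ((hU.2.2 _ (mX T)).1 _ hJU).1
  have hNn := fun u => ((hU.2.2 _ (mX T)).1 _ (hN u).2.1).1
  have hmc := mc_small hU hC hM hap T
  set J : ℝ × T3 → ℝ := fun y => ∫ v, F y.1 (y.2, v) * (1 + ‖v‖) with hJdef
  have hJm : Measurable J :=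
    meas_marg (G := fun y => F y.1 y.2 * (1 + ‖y.2.2‖)) (hL.meas.mul (by fun_prop))
  have hJ0 : ∀ y, 0 ≤ J y := fun y =>
    integral_nonneg fun v => mul_nonneg (hL.nonneg _ _) (by positivity)
  have hT1 := hmc.2.2 J hJm hJ0 hJ
  have hT2 : Tendsto (fun n => cS * (1 + r) ^ 2 / R n * |B|) UF (𝓝 0) := by
    have := ((tendsto_const_nhds (x := cS * (1 + r) ^ 2)).div_atTop
      (hap.Rlim.mono_left hU.1)).mul_const |B|
    simpa using this
  have hT3 := tendsto_finsetSum S fun u _ => (hN u).2.2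
  have hT4 := ((((hJT.add hT1).const_mul (cS * (1 + r))).add hT2).add hT3).const_mul (vb r)
  simp only [add_zero, mul_zero, Finset.sum_const_zero] at hT4
  filter_upwards [hT4.eventually (gt_mem_nhds (half_pos hε))] with n hn
  have h0 := (hap.ts n).nonneg
  have hI1 : Integrable (fun y : ℝ × T3 =>
      |(∫ v, Fn n y.1 (y.2, v) * (1 + ‖v‖)) - J y|) (mX T) := ((hJn n).sub hJ).abs
  have hI2 : Integrable (fun y : ℝ × T3 => J y * min 1 |δ n * rho (Fn n y.1) y.2 - 0|) (mX T) := by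
    refine hJ.mul_bdd (c := 1) ?_ (Eventually.of_forall fun y => ?_)
    · exact (measurable_const.min ((hmc.1 n).sub measurable_const).abs).aestronglyMeasurable
    · rw [Real.norm_of_nonneg (le_min zero_le_one (abs_nonneg _))]
      exact min_le_left _ _
  have hI3 := int_marg (hmn n).1
  have hI4 := int_marg hml.1
  have hI5 : ∀ u ∈ S, Integrable (fun y : ℝ × T3 => |(∫ v, Fn n y.1 (y.2, v) * AK kF (u - v)) -
      ∫ v, F y.1 (y.2, v) * AK kF (u - v)|) (mX T) := fun u _ => ((hNn u n).sub (hN u).1).abs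
  have hI12 : Integrable (fun y : ℝ × T3 => cS * (1 + r) *
      (|(∫ v, Fn n y.1 (y.2, v) * (1 + ‖v‖)) - J y| +
        J y * min 1 |δ n * rho (Fn n y.1) y.2 - 0|)) (mX T) := (hI1.add hI2).const_mul _
  have hI3' : Integrable (fun y : ℝ × T3 => cS * (1 + r) ^ 2 / R n *
      ∫ v, Fn n y.1 (y.2, v) * (1 + ‖v‖) ^ 2) (mX T) := hI3.const_mul _
  have hI34 : Integrable (fun y : ℝ × T3 => cS * η *
      ((∫ v, Fn n y.1 (y.2, v) * (1 + ‖v‖) ^ 2) + ∫ v, F y.1 (y.2, v) * (1 + ‖v‖) ^ 2)) (mX T) :=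
    (hI3.add hI4).const_mul _
  have hI6 := integrable_finsetSum S hI5
  set H : ℝ × T3 → ℝ := fun y => cS * (1 + r) *
      (|(∫ v, Fn n y.1 (y.2, v) * (1 + ‖v‖)) - J y| +
        J y * min 1 |δ n * rho (Fn n y.1) y.2 - 0|) +
      cS * (1 + r) ^ 2 / R n * (∫ v, Fn n y.1 (y.2, v) * (1 + ‖v‖) ^ 2) +
      cS * η *
        ((∫ v, Fn n y.1 (y.2, v) * (1 + ‖v‖) ^ 2) + ∫ v, F y.1 (y.2, v) * (1 + ‖v‖) ^ 2) +
      ∑ u ∈ S, |(∫ v, Fn n y.1 (y.2, v) * AK kF (u - v)) - ∫ v, F y.1 (y.2, v) * AK kF (u - v)|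
    with hH
  have hIa : Integrable (fun y : ℝ × T3 => cS * (1 + r) *
      (|(∫ v, Fn n y.1 (y.2, v) * (1 + ‖v‖)) - J y| +
        J y * min 1 |δ n * rho (Fn n y.1) y.2 - 0|) +
      cS * (1 + r) ^ 2 / R n * (∫ v, Fn n y.1 (y.2, v) * (1 + ‖v‖) ^ 2)) (mX T) := hI12.add hI3'
  have hIb : Integrable (fun y : ℝ × T3 => cS * (1 + r) *
      (|(∫ v, Fn n y.1 (y.2, v) * (1 + ‖v‖)) - J y| +
        J y * min 1 |δ n * rho (Fn n y.1) y.2 - 0|) +
      cS * (1 + r) ^ 2 / R n * (∫ v, Fn n y.1 (y.2, v) * (1 + ‖v‖) ^ 2) +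
      cS * η *
        ((∫ v, Fn n y.1 (y.2, v) * (1 + ‖v‖) ^ 2) + ∫ v, F y.1 (y.2, v) * (1 + ‖v‖) ^ 2))
      (mX T) := hIa.add hI34
  have hHI : Integrable H (mX T) := hIb.add hI6
  have hK : ∫ y, (∫ v, Fn n y.1 (y.2, v) * (1 + ‖v‖) ^ 2) ∂(mX T) ≤ B := by
    have := (hmn n).2
    rw [integral_as (hmn n).1] at this
    exact this
  have hK' : ∫ y, (∫ v, F y.1 (y.2, v) * (1 + ‖v‖) ^ 2) ∂(mX T) ≤ B' := by
    have := hml.2
    rw [integral_as hml.1] at this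
    exact this
  have hHe : ∫ y, H y ∂(mX T) ≤ (cS * (1 + r) *
      ((∫ y, |(∫ v, Fn n y.1 (y.2, v) * (1 + ‖v‖)) - J y| ∂(mX T)) +
        ∫ y, J y * min 1 |δ n * rho (Fn n y.1) y.2 - 0| ∂(mX T)) +
      cS * (1 + r) ^ 2 / R n * |B| +
      ∑ u ∈ S, ∫ y, |(∫ v, Fn n y.1 (y.2, v) * AK kF (u - v)) -
        ∫ v, F y.1 (y.2, v) * AK kF (u - v)| ∂(mX T)) + cS * η * |B + B'| := by
    have hI34' : ∫ y, ((∫ v, Fn n y.1 (y.2, v) * (1 + ‖v‖) ^ 2) +
        ∫ v, F y.1 (y.2, v) * (1 + ‖v‖) ^ 2) ∂(mX T) =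
        ∫ y, (∫ v, Fn n y.1 (y.2, v) * (1 + ‖v‖) ^ 2) ∂(mX T) +
          ∫ y, (∫ v, F y.1 (y.2, v) * (1 + ‖v‖) ^ 2) ∂(mX T) := integral_add hI3 hI4
    simp only [hH]
    rw [integral_add hIb hI6, integral_add hIa hI34, integral_add hI12 hI3', integral_const_mul,
      integral_const_mul, integral_const_mul, integral_add hI1 hI2, hI34',
      integral_finsetSum S hI5]
    have hR := hap.Rpos n
    have e1 : cS * (1 + r) ^ 2 / R n * ∫ y, (∫ v, Fn n y.1 (y.2, v) * (1 + ‖v‖) ^ 2) ∂(mX T) ≤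
        cS * (1 + r) ^ 2 / R n * |B| := by gcongr; exact hK.trans (le_abs_self B)
    have e2 : cS * η * (∫ y, (∫ v, Fn n y.1 (y.2, v) * (1 + ‖v‖) ^ 2) ∂(mX T) +
          ∫ y, (∫ v, F y.1 (y.2, v) * (1 + ‖v‖) ^ 2) ∂(mX T)) ≤ cS * η * |B + B'| := by
      gcongr; exact (add_le_add hK hK').trans (le_abs_self _)
    linarith
  have hmain : ∫ y, cut r y.2 * |nT (R n) (δ n) (Fn n y.1) y.2 - nu (F y.1) y.2| ∂(mY T) ≤
      vb r * ∫ y, H y ∂(mX T) := by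
    rw [← (cut_int (r := r) hHI).2]
    refine integral_mono_of_nonneg
      (Eventually.of_forall fun y => mul_nonneg (cut_nonneg _ _) (abs_nonneg _))
      (cut_int (r := r) hHI).1 ?_
    filter_upwards [ae_lift (ae_slice (hmn n).1), ae_lift (ae_slice hml.1)] with y hy hy'
    unfold cut
    split_ifs with h
    · rw [one_mul, one_mul]
      obtain ⟨u, huS, hu⟩ := hS y.2.2 h
      have hf := hsl (Fn n) (hap.ts n).meas y.1 y.2.1
      have hg := hsl F hL.meas y.1 y.2.1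
      have e1 := freq_toReal (sub_kT hM (hap.Rpos n)) hf (fun w => h0 _ _) hy y.2.2
      have e2 := freq_toReal (sub_kF hM) hg (fun w => hL.nonneg _ _) hy' y.2.2
      have hx : 0 ≤ δ n * rho (Fn n y.1) y.2.1 :=
        mul_nonneg (hap.δpos n).le (integral_nonneg fun v => h0 _ _)
      have h5 := pt_est hM hf hg (fun w => h0 _ _) (fun w => hL.nonneg _ _) hy hy' (hap.Rpos n) hx
        h hu
      rw [← e1, ← e2] at h5
      refine h5.trans ?_
      simp only [hH, hJdef]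
      gcongr
      exact Finset.single_le_sum (f := fun u => |(∫ v, Fn n y.1 (y.2.1, v) * AK kF (u - v)) -
        ∫ v, F y.1 (y.2.1, v) * AK kF (u - v)|) (fun _ _ => abs_nonneg _) huS
    · simp
  rw [Real.dist_eq, sub_zero,
    abs_of_nonneg (integral_nonneg fun y => mul_nonneg (cut_nonneg _ _) (abs_nonneg _))]
  have h7 : vb r * (cS * η * |B + B'|) ≤ ε / 2 := by
    have e : vb r * (cS * η * |B + B'|) = η * (vb r * cS * |B + B'|) := by ring
    rw [e, hη, div_mul_eq_mul_div, div_le_iff₀ (by positivity)]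
    nlinarith
  have h8 := mul_le_mul_of_nonneg_left hHe hv0
  rw [mul_add] at h8
  linarith

end

end Vale.Agent.P140
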