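import Vale.Agent.P140.NuA

/-!
Convergence of the integrating factors.
-/

namespace Vale.Agent.P140

open MeasureTheory Set Filter Topology
open scoped ENNReal

noncomputable section

namespace NuExp

open AvF

lemma meas_NN {n : ℝ → Om → ℝ} (hn : Measurable (fun y : ℝ × Om => n y.1 y.2)) :
    Measurable (fun y : ℝ × Om => NN n y.1 y.2) := by
  have h1 : Measurable (fun z : (ℝ × Om) × ℝ => n z.2 (fl z.2 z.1.2)) :=
    hn.comp (f := fun z : (ℝ × Om) × ℝ => (z.2, fl z.2 z.1.2))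
      (measurable_snd.prodMk (continuous_fl.measurable.comp
        (f := fun z : (ℝ × Om) × ℝ => (z.2, z.1.2)) (by fun_prop)))
  have key : ∀ a b : ℝ × Om → ℝ, Measurable a → Measurable b →
      Measurable (fun y : ℝ × Om => ∫ s in Ioc (a y) (b y), n s (fl s y.2)) := by
    intro a b ha hb
    have hS : MeasurableSet {z : (ℝ × Om) × ℝ | a z.1 < z.2 ∧ z.2 ≤ b z.1} :=
      (measurableSet_lt (ha.comp measurable_fst) measurable_snd).inter
        (measurableSet_le measurable_snd (hb.comp measurable_fst))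
    have h2 := ((h1.indicator hS).stronglyMeasurable.integral_prod_right'
      (ν := (volume : Measure ℝ))).measurable
    convert h2 using 2 with y
    rw [← integral_indicator measurableSet_Ioc]
    rfl
  exact (key _ _ measurable_const measurable_fst).sub (key _ _ measurable_fst measurable_const)

lemma mp_fl (hT : TorusStmt) (T : ℝ) :
    MeasurePreserving (fun y : ℝ × Om => (y.1, fl y.1 y.2)) (mY T) (mY T) := by
  have := hT.2.2.2.2.2.2.2.1 (mT T) 1 0
  simp only [one_mul, add_zero] at this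
  exact this

lemma emb_fl : MeasurableEmbedding (fun y : ℝ × Om => (y.1, fl y.1 y.2)) := by
  let e : ℝ × Om ≃ₜ ℝ × Om :=
    { toFun := fun y => (y.1, fl y.1 y.2)
      invFun := fun y => (y.1, fl (-y.1) y.2)
      left_inv := fun y => by simp [fl_fl, fl_zero]
      right_inv := fun y => by simp [fl_fl, fl_zero]
      continuous_toFun := continuous_fst.prodMk continuous_fl
      continuous_invFun := continuous_fst.prodMk
        (continuous_fl.comp (continuous_fst.neg.prodMk continuous_snd)) }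
  exact e.measurableEmbedding

lemma ii_of_cut (hT : TorusStmt) {T : ℝ} (hT0 : 0 ≤ T) {N : ℝ → Om → ℝ}
    (h : ∀ r : ℝ, Integrable (fun y : ℝ × Om => cut r y.2 * N y.1 y.2) (mY T)) :
    ∀ᵐ p, IntervalIntegrable (fun s => N s (fl s p)) volume 0 T := by
  have h1 : ∀ k : ℕ, ∀ᵐ p : Om, Integrable (fun s => cut k p * N s (fl s p)) (mT T) := fun k =>
    ((mp_fl hT T).integrable_comp_of_integrable (h k)).prod_left_ae
  filter_upwards [ae_all_iff.2 h1] with p hp
  obtain ⟨k, hk⟩ := exists_nat_ge ‖p.2‖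
  have h2 := hp k
  unfold cut at h2
  rw [if_pos hk] at h2
  simp only [one_mul] at h2
  exact (intervalIntegrable_iff_integrableOn_Icc_of_le hT0).2 h2

/-- The difference of integrated frequencies is bounded by the time integral. -/
lemma bound (hT : TorusStmt) {T r : ℝ} {N N' : ℝ → Om → ℝ}
    (hI : Integrable (fun y : ℝ × Om => cut r y.2 * |N y.1 y.2 - N' y.1 y.2|) (mY T))
    (h1 : ∀ᵐ p, IntervalIntegrable (fun s => N s (fl s p)) volume 0 T)
    (h2 : ∀ᵐ p, IntervalIntegrable (fun s => N' s (fl s p)) volume 0 T) :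
    ∃ D : Om → ℝ, Integrable D ∧ (∀ p, 0 ≤ D p) ∧
      ∫ p, D p = ∫ y, cut r y.2 * |N y.1 y.2 - N' y.1 y.2| ∂(mY T) ∧
      ∀ᵐ p, ‖p.2‖ ≤ r → ∀ t ∈ Icc (0 : ℝ) T, |NN N t p - NN N' t p| ≤ D p := by
  have hJ : Integrable (fun y : ℝ × Om => cut r y.2 * |N y.1 (fl y.1 y.2) - N' y.1 (fl y.1 y.2)|)
      ((mT T).prod volume) := (mp_fl hT T).integrable_comp_of_integrable hI
  refine ⟨fun p => ∫ s, cut r p * |N s (fl s p) - N' s (fl s p)| ∂(mT T), hJ.integral_prod_right,
    fun p => integral_nonneg fun s => mul_nonneg (cut_nonneg _ _) (abs_nonneg _), ?_, ?_⟩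
  · rw [← integral_prod_symm _ hJ]
    exact (mp_fl hT T).integral_comp emb_fl
      (fun y : ℝ × Om => cut r y.2 * |N y.1 y.2 - N' y.1 y.2|)
  · filter_upwards [h1, h2] with p hp hp' hr t ht
    have hT0 : 0 ≤ T := ht.1.trans ht.2
    have hsub : uIcc 0 t ⊆ uIcc 0 T := by
      rw [uIcc_of_le ht.1, uIcc_of_le hT0]; exact Icc_subset_Icc_right ht.2
    unfold NN cut mT
    rw [if_pos hr, ← intervalIntegral.integral_sub (hp.mono_set hsub) (hp'.mono_set hsub)]
    simp only [one_mul]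
    refine (intervalIntegral.abs_integral_le_integral_abs ht.1).trans ?_
    rw [integral_Icc_eq_integral_Ioc, ← intervalIntegral.integral_of_le hT0]
    exact intervalIntegral.integral_mono_interval le_rfl ht.1 ht.2
      (Eventually.of_forall fun s => abs_nonneg _) (hp.sub hp').abs

lemma squeeze {a : ℕ → ℝ≥0∞} {b : ℕ → ℝ} (hb : Tendsto b UF (𝓝 0))
    (h : ∀ n, a n ≤ ENNReal.ofReal (b n)) : Tendsto a UF (𝓝 0) := by
  have h1 : Tendsto (fun n => ENNReal.ofReal (b n)) UF (𝓝 0) := by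
    simpa using ENNReal.tendsto_ofReal hb
  exact tendsto_of_tendsto_of_tendsto_of_le_of_le tendsto_const_nhds h1 (fun _ => zero_le) h

end NuExp

open AvF Nu NuExp in
theorem nuExp (hM : MeasStmt) (hT : TorusStmt) (hC : MCStmt) (hF : TSFlStmt) (hA : AvFStmt)
    (hN : NuStmt) : NuExpStmt := by
  intro R δ Fn F₀ F hL T hT0
  have hap := hL.apr
  have hnu := fun r => hN R δ Fn F₀ F hL T r
  have hii : ∀ᵐ p, IntervalIntegrable (fun s => nu (F s) (fl s p)) volume 0 T :=
    ii_of_cut hT hT0 (N := fun s => nu (F s)) fun r => (hnu r).1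
  have hiin : ∀ n, ∀ᵐ p, IntervalIntegrable (fun s => nT (R n) (δ n) (Fn n s) (fl s p))
      volume 0 T := fun n => Eventually.of_forall fun p =>
    ((hF _ _ _ _ (hap.Rpos n) (hap.δpos n) (hap.ts n)).2.2.1 p 0 T le_rfl hT0).2.1
  have hmn : ∀ n, Measurable (fun y : ℝ × Om =>
      NN (fun s => nT (R n) (δ n) (Fn n s)) y.1 y.2) := fun n =>
    meas_NN (hM.2.2.2.2.1 _ (hap.ts n).meas (R n) (δ n)).2.2.1
  have hm : Measurable (fun y : ℝ × Om => NN (fun s => nu (F s)) y.1 y.2) :=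
    meas_NN (hM.2.2.2.2.1 _ hL.meas 0 0).2.2.2.1
  have hD := fun (r : ℝ) (n : ℕ) => bound hT (T := T) (r := r)
    (N := fun s => nT (R n) (δ n) (Fn n s)) (N' := fun s => nu (F s))
    (by
      refine ((cut_nT_int hM hap T r n).sub (hnu r).1).abs.congr
        (Eventually.of_forall fun y => ?_)
      show |cut r y.2 * nT (R n) (δ n) (Fn n y.1) y.2 - cut r y.2 * nu (F y.1) y.2| = _
      rw [← mul_sub, abs_mul, abs_of_nonneg (cut_nonneg _ _)]) (hiin n) hii
  refine ⟨hii, fun t ht => ?_, ?_, ?_⟩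
  · have hA' : ∀ k : ℕ, MeasurableSet {p : Om | ‖p.2‖ ≤ k} := fun k =>
      measurableSet_le (by fun_prop) measurable_const
    refine (hC _ volume).1 _ _ (fun k => {p : Om | ‖p.2‖ ≤ k})
      (fun n => (hmn n).comp (f := fun p : Om => (t, p)) (by fun_prop))
      (hm.comp (f := fun p : Om => (t, p)) (by fun_prop)) hA'
      (fun a b hab p (hp : ‖p.2‖ ≤ a) => show ‖p.2‖ ≤ b from hp.trans (Nat.cast_le.2 hab))
      (fun p => exists_nat_ge ‖p.2‖) fun k => squeeze (hnu k).2.2 fun n => ?_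
    obtain ⟨D, hD1, hD2, hD3, hD4⟩ := hD k n
    rw [← hD3, ofReal_integral_eq_lintegral_ofReal hD1 (Eventually.of_forall hD2)]
    refine le_trans (lintegral_mono_ae ?_) (setLIntegral_le_lintegral {p : Om | ‖p.2‖ ≤ k} _)
    filter_upwards [ae_restrict_of_ae hD4, ae_restrict_mem (hA' k)] with p hp hp'
    exact ENNReal.ofReal_le_ofReal (hp hp' t ht)
  · have hA' : ∀ k : ℕ, MeasurableSet {y : ℝ × Om | ‖y.2.2‖ ≤ k} := fun k =>
      measurableSet_le (by fun_prop) measurable_const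
    refine (hC _ (mY T)).1 _ _ (fun k => {y : ℝ × Om | ‖y.2.2‖ ≤ k}) hmn hm hA'
      (fun a b hab p (hp : ‖p.2.2‖ ≤ a) => show ‖p.2.2‖ ≤ b from hp.trans (Nat.cast_le.2 hab))
      (fun p => exists_nat_ge ‖p.2.2‖) fun k => ?_
    have h1 := (hnu k).2.2.const_mul ((mT T).real univ)
    rw [mul_zero] at h1
    refine squeeze h1 fun n => ?_
    obtain ⟨D, hD1, hD2, hD3, hD4⟩ := hD k n
    have hD5 : Integrable (fun y : ℝ × Om => D y.2) (mY T) := hD1.comp_snd _
    have hD6 : ∫ y, D y.2 ∂(mY T) = (mT T).real univ * ∫ p, D p := by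
      unfold mY
      rw [integral_fun_snd]; rfl
    rw [← hD3, ← hD6,
      ofReal_integral_eq_lintegral_ofReal hD5 (Eventually.of_forall fun y => hD2 _)]
    refine le_trans (lintegral_mono_ae ?_)
      (setLIntegral_le_lintegral {y : ℝ × Om | ‖y.2.2‖ ≤ k} _)
    have hD7 : ∀ᵐ y ∂(mY T), ‖y.2.2‖ ≤ k → ∀ t ∈ Icc (0 : ℝ) T,
        |NN (fun s => nT (R n) (δ n) (Fn n s)) t y.2 - NN (fun s => nu (F s)) t y.2| ≤ D y.2 :=
      Measure.quasiMeasurePreserving_snd.ae hD4
    filter_upwards [ae_restrict_of_ae hD7, ae_restrict_of_ae (ae_mY T),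
      ae_restrict_mem (hA' k)] with y hy hy1 hy2
    exact ENNReal.ofReal_le_ofReal (hy hy2 y.1 hy1)
  · obtain ⟨h1, h2, h3⟩ := hA R δ Fn F₀ F hL T 1 (fun _ => 1) measurable_const
      fun v => by simp
    simp only [mul_one] at h1 h2 h3
    obtain ⟨Cm, hCm⟩ := hap.mom
    refine (hC _ (mX T)).1 _ _ (fun _ => univ) h2.1 (hM.2.2.2.2.1 _ hL.meas 0 0).1
      (fun _ => MeasurableSet.univ) monotone_const (fun _ => ⟨0, mem_univ _⟩)
      fun _ => squeeze h3 fun n => ?_
    have h4 : Integrable (fun y : ℝ × Om => Fn n y.1 y.2 * 1) (mY T) :=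
      int_weight (C := 1) (hap.ts n).meas (fun y => (hap.ts n).nonneg _ _)
        (mom_int (hap.ts n).meas (hap.ts n).nonneg (hCm n)).1 measurable_const fun y => by simp
    simp only [mul_one] at h4
    have h5 : Integrable (fun y : ℝ × T3 => |(∫ v, Fn n y.1 (y.2, v)) - ∫ v, F y.1 (y.2, v)|)
        (mX T) := ((int_marg h4).sub h1).abs
    rw [Measure.restrict_univ,
      ofReal_integral_eq_lintegral_ofReal h5 (Eventually.of_forall fun y => abs_nonneg _)]
    rfl

end

end Vale.Agent.P140
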