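import Vale.Agent.P140.StmA

/-!
The collision map preserves Lebesgue measure; weak form of the gain term.
-/

namespace Vale.Agent.P140

open MeasureTheory Set
open scoped ENNReal

noncomputable section

namespace PrePost

/-- The collision map for a fixed direction, as a linear map. -/
def lin (ω : S2) : (E × E) →ₗ[ℝ] (E × E) where
  toFun z := (vp z.1 z.2 ω, wp z.1 z.2 ω)
  map_add' a b := by
    have h : cf (a.1 + b.1) (a.2 + b.2) ω = cf a.1 a.2 ω + cf b.1 b.2 ω := by
      unfold cf; rw [← inner_add_left]; congr 1; abel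
    refine Prod.ext ?_ ?_
    · simp only [Prod.fst_add, Prod.snd_add, vp, h, add_smul]; abel
    · simp only [Prod.fst_add, Prod.snd_add, wp, h, add_smul]; abel
  map_smul' c a := by
    have h : cf (c • a.1) (c • a.2) ω = c * cf a.1 a.2 ω := by
      unfold cf; rw [← smul_sub, real_inner_smul_left]
    refine Prod.ext ?_ ?_
    · simp only [Prod.smul_fst, Prod.smul_snd, vp, h, RingHom.id_apply, smul_sub, mul_smul]
    · simp only [Prod.smul_fst, Prod.smul_snd, wp, h, RingHom.id_apply, smul_add, mul_smul]

lemma lin_lin (ω : S2) : (lin ω).comp (lin ω) = LinearMap.id := by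
  refine LinearMap.ext fun z => Prod.ext ?_ ?_
  · exact vp_post z.1 z.2 ω
  · exact wp_post z.1 z.2 ω

lemma abs_det (ω : S2) : |LinearMap.det (lin ω)| = 1 := by
  have h := congrArg LinearMap.det (lin_lin ω)
  rw [LinearMap.det_comp, LinearMap.det_id] at h
  have h2 : |LinearMap.det (lin ω)| ^ 2 = 1 ^ 2 := by rw [sq_abs, sq, h]; norm_num
  exact (pow_left_inj₀ (abs_nonneg _) zero_le_one two_ne_zero).1 h2

lemma map_lin (ω : S2) :
    Measure.map (fun z : E × E => (vp z.1 z.2 ω, wp z.1 z.2 ω))
      ((volume : Measure E).prod (volume : Measure E))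
      = (volume : Measure E).prod (volume : Measure E) := by
  have h0 : LinearMap.det (lin ω) ≠ 0 := fun h => by
    have := abs_det ω
    rw [h, abs_zero] at this
    exact zero_ne_one this
  have h := Measure.map_linearMap_addHaar_eq_smul_addHaar
    ((volume : Measure E).prod (volume : Measure E)) h0
  rw [abs_inv, abs_det, inv_one, ENNReal.ofReal_one, one_smul] at h
  exact h

lemma skew : MeasurePreserving
    (fun z : S2 × E × E => (z.1, (vp z.2.1 z.2.2 z.1, wp z.2.1 z.2.2 z.1)))
    (sph.prod ((volume : Measure E).prod (volume : Measure E)))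
    (sph.prod ((volume : Measure E).prod (volume : Measure E))) := by
  refine (MeasurePreserving.id sph).skew_product
    (g := fun (ω : S2) (z : E × E) => (vp z.1 z.2 ω, wp z.1 z.2 ω)) ?_
    (Filter.Eventually.of_forall map_lin)
  refine Continuous.measurable ?_
  unfold vp wp cf Function.uncurry
  fun_prop

lemma swap12 : MeasurePreserving (fun z : E × E × S2 => (z.2.1, z.1, z.2.2))
    ((volume : Measure E).prod ((volume : Measure E).prod sph))
    ((volume : Measure E).prod ((volume : Measure E).prod sph)) := by
  have h1 := measurePreserving_prodAssoc (volume : Measure E) (volume : Measure E) sph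
  have h2 : MeasurePreserving (Prod.map Prod.swap id : (E × E) × S2 → (E × E) × S2)
      (((volume : Measure E).prod (volume : Measure E)).prod sph)
      (((volume : Measure E).prod (volume : Measure E)).prod sph) :=
    Measure.measurePreserving_swap.prod (MeasurePreserving.id sph)
  exact h1.comp (h2.comp (h1.symm _))

lemma lint_mp {T : E × E × S2 → E × E × S2}
    (hT : MeasurePreserving T ((volume : Measure E).prod ((volume : Measure E).prod sph))
      ((volume : Measure E).prod ((volume : Measure E).prod sph)))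
    (Φ : E × E × S2 → ℝ≥0∞) (hΦ : Measurable Φ) :
    ∫⁻ v, ∫⁻ q : E × S2, Φ (v, q.1, q.2) ∂(volume.prod sph) =
      ∫⁻ v, ∫⁻ q : E × S2, Φ (T (v, q.1, q.2)) ∂(volume.prod sph) := by
  have h1 := lintegral_prod (μ := (volume : Measure E)) (ν := (volume : Measure E).prod sph) Φ
    hΦ.aemeasurable
  have h2 := lintegral_prod (μ := (volume : Measure E)) (ν := (volume : Measure E).prod sph)
    (fun z => Φ (T z)) (hΦ.comp hT.measurable).aemeasurable
  exact h1.symm.trans ((hT.lintegral_comp hΦ).symm.trans h2)

lemma meas_ker {k : ℝ → ℝ → ℝ} (hk : IsKer k) :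
    Measurable fun z : E × E × S2 => ENNReal.ofReal (k |cf z.1 z.2.1 z.2.2| ‖z.1 - z.2.1‖) := by
  have h1 : Measurable fun z : E × E × S2 => (|cf z.1 z.2.1 z.2.2|, ‖z.1 - z.2.1‖) :=
    (continuous_cf.abs.prodMk (by fun_prop)).measurable
  exact ENNReal.measurable_ofReal.comp (Measurable.comp hk h1)

lemma weak1 (h : PrePostStmt) (k : ℝ → ℝ → ℝ) (f g φ : E → ℝ≥0∞) (hk : IsKer k)
    (hf : Measurable f) (hg : Measurable g) (hφ : Measurable φ) :
    ∫⁻ v, φ v * gainK k f g v =
      ∫⁻ v, ∫⁻ q : E × S2, ENNReal.ofReal (k |cf v q.1 q.2| ‖v - q.1‖) *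
        (f v * (g q.1 * φ (vp v q.1 q.2))) ∂(volume.prod sph) := by
  have hm : Measurable fun z : E × E × S2 =>
      ENNReal.ofReal (k |cf z.1 z.2.1 z.2.2| ‖z.1 - z.2.1‖) *
        (f z.1 * (g z.2.1 * φ (vp z.1 z.2.1 z.2.2))) :=
    (meas_ker hk).mul ((hf.comp measurable_fst).mul
      ((hg.comp (measurable_fst.comp measurable_snd)).mul (hφ.comp continuous_vp.measurable)))
  refine Eq.trans ?_ (lint_mp h _ hm).symm
  refine lintegral_congr fun v => ?_
  have hm2 : Measurable fun q : E × S2 => ENNReal.ofReal (k |cf v q.1 q.2| ‖v - q.1‖) *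
      (f (vp v q.1 q.2) * g (wp v q.1 q.2)) :=
    ((meas_ker hk).comp measurable_prodMk_left).mul
      ((hf.comp (continuous_vp.measurable.comp measurable_prodMk_left)).mul
        (hg.comp (continuous_wp.measurable.comp measurable_prodMk_left)))
  rw [gainK, ← lintegral_const_mul _ hm2]
  refine lintegral_congr fun q => ?_
  simp only [cf_post, abs_neg, norm_post, vp_post]
  ring

end PrePost

theorem prePost : PrePostStmt := by
  have h1 := measurePreserving_prodAssoc (volume : Measure E) (volume : Measure E) sph
  have h2 : MeasurePreserving (Prod.swap : (E × E) × S2 → S2 × (E × E))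
      (((volume : Measure E).prod (volume : Measure E)).prod sph)
      (sph.prod ((volume : Measure E).prod (volume : Measure E))) :=
    Measure.measurePreserving_swap
  have h3 : MeasurePreserving (Prod.swap : S2 × (E × E) → (E × E) × S2)
      (sph.prod ((volume : Measure E).prod (volume : Measure E)))
      (((volume : Measure E).prod (volume : Measure E)).prod sph) :=
    Measure.measurePreserving_swap
  exact h1.comp (h3.comp (PrePost.skew.comp (h2.comp (h1.symm _))))

theorem weak (h : PrePostStmt) : WeakStmt := by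
  refine ⟨fun k f g φ hk hf hg hφ => ?_, fun k f g φ hk hf hg hφ => ?_, fun Φ hΦ => ?_,
    fun Φ hΦ => ?_⟩
  · rw [PrePost.weak1 h k f g φ hk hf hg hφ]
    refine lintegral_congr fun v => ?_
    have hm2 : Measurable fun q : E × S2 => ENNReal.ofReal (k |cf v q.1 q.2| ‖v - q.1‖) *
        (g q.1 * φ (vp v q.1 q.2)) :=
      ((PrePost.meas_ker hk).comp measurable_prodMk_left).mul
        ((hg.comp measurable_fst).mul
          (hφ.comp (continuous_vp.measurable.comp measurable_prodMk_left)))
    rw [← lintegral_const_mul _ hm2]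
    exact lintegral_congr fun q => by ring
  · rw [PrePost.weak1 h k f g φ hk hf hg hφ]
    have hm : Measurable fun z : E × E × S2 =>
        ENNReal.ofReal (k |cf z.1 z.2.1 z.2.2| ‖z.1 - z.2.1‖) *
          (f z.1 * (g z.2.1 * φ (vp z.1 z.2.1 z.2.2))) :=
      (PrePost.meas_ker hk).mul ((hf.comp measurable_fst).mul
        ((hg.comp (measurable_fst.comp measurable_snd)).mul (hφ.comp continuous_vp.measurable)))
    refine (PrePost.lint_mp PrePost.swap12 _ hm).trans ?_
    refine lintegral_congr fun v => ?_
    have hm2 : Measurable fun q : E × S2 => ENNReal.ofReal (k |cf v q.1 q.2| ‖v - q.1‖) *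
        (f q.1 * φ (wp v q.1 q.2)) :=
      ((PrePost.meas_ker hk).comp measurable_prodMk_left).mul
        ((hf.comp measurable_fst).mul
          (hφ.comp (continuous_wp.measurable.comp measurable_prodMk_left)))
    rw [← lintegral_const_mul _ hm2]
    refine lintegral_congr fun q => ?_
    simp only []
    rw [cf_swap v q.1, abs_neg, norm_sub_rev q.1 v, vp_swap v q.1]
    ring
  · exact PrePost.lint_mp PrePost.swap12 Φ hΦ
  · exact PrePost.lint_mp h Φ hΦ

end

end Vale.Agent.P140
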