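import Vale.Agent.P140.StmB

/-! Weak limit of the normalized tensor square. -/

namespace Vale.Agent.P140

open MeasureTheory Set Filter Topology
open scoped ENNReal

noncomputable section

namespace ProdAux

section abs

variable {α β : Type} [MeasurableSpace α] [MeasurableSpace β] {μ : Measure α} {ν : Measure β}

/-- Average over a set. -/
def av (ν : Measure β) (f : α × β → ℝ) (B : Set β) (x : α) : ℝ := ∫ v in B, f (x, v) ∂ν

/-- Total average. -/
def ro (ν : Measure β) (f : α × β → ℝ) (x : α) : ℝ := ∫ v, f (x, v) ∂ν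

/-- Normalized square. -/
def sq (ν : Measure β) (ε : ℝ) (f : α × β → ℝ) (z : α × β × β) : ℝ :=
  f (z.1, z.2.1) * f (z.1, z.2.2) / (1 + ε * ro ν f z.1)

omit [MeasurableSpace α] in
theorem ro_nonneg {f : α × β → ℝ} (h0 : ∀ z, 0 ≤ f z) (x : α) : 0 ≤ ro ν f x :=
  integral_nonneg fun _ => h0 _

omit [MeasurableSpace α] in
theorem den_pos {f : α × β → ℝ} (h0 : ∀ z, 0 ≤ f z) {ε : ℝ} (hε : 0 < ε) (x : α) :
    1 ≤ 1 + ε * ro ν f x := by
  have := mul_nonneg hε.le (ro_nonneg (ν := ν) h0 x)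
  linarith

omit [MeasurableSpace α] in
theorem sq_nonneg' {f : α × β → ℝ} (h0 : ∀ z, 0 ≤ f z) {ε : ℝ} (hε : 0 < ε) (z : α × β × β) :
    0 ≤ sq ν ε f z :=
  div_nonneg (mul_nonneg (h0 _) (h0 _)) (zero_le_one.trans (den_pos h0 hε _))

variable [SFinite ν]

theorem ro_meas {f : α × β → ℝ} (hf : Measurable f) : Measurable (ro ν f) :=
  (hf.stronglyMeasurable.integral_prod_right' (ν := ν)).measurable

theorem av_meas {f : α × β → ℝ} (hf : Measurable f) (B : Set β) : Measurable (av ν f B) :=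
  (hf.stronglyMeasurable.integral_prod_right' (ν := ν.restrict B)).measurable

theorem m1 : Measurable fun z : α × β × β => (z.1, z.2.1) := by fun_prop

theorem m2 : Measurable fun z : α × β × β => (z.1, z.2.2) := by fun_prop

theorem sq_meas {f : α × β → ℝ} (hf : Measurable f) (ε : ℝ) : Measurable (sq ν ε f) :=
  ((hf.comp m1).mul (hf.comp m2)).div
    ((((ro_meas hf).comp measurable_fst).const_mul ε).const_add 1)

omit [SFinite ν] in
theorem m3 {a b : α × β → ℝ≥0∞} (ha : Measurable a) (hb : Measurable b) :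
    Measurable fun z : α × β × β => a (z.1, z.2.1) * b (z.1, z.2.2) :=
  (ha.comp m1).mul (hb.comp m2)

theorem core {a b : α × β → ℝ≥0∞} (ha : Measurable a) (hb : Measurable b) :
    ∫⁻ z : α × β × β, a (z.1, z.2.1) * b (z.1, z.2.2) ∂(μ.prod (ν.prod ν)) =
      ∫⁻ x, (∫⁻ v, a (x, v) ∂ν) * ∫⁻ w, b (x, w) ∂ν ∂μ := by
  rw [lintegral_prod _ (m3 ha hb).aemeasurable]
  refine lintegral_congr fun x => ?_
  exact lintegral_prod_mul (f := fun v => a (x, v)) (g := fun w => b (x, w))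
    (ha.comp measurable_prodMk_left).aemeasurable (hb.comp measurable_prodMk_left).aemeasurable

omit [MeasurableSpace α] [SFinite ν] in
theorem slice {f : α × β → ℝ} (h0 : ∀ z, 0 ≤ f z) {ε : ℝ} (hε : 0 < ε) {x : α}
    (hx : Integrable (fun v => f (x, v)) ν) :
    ∫⁻ w, ENNReal.ofReal (f (x, w) / (1 + ε * ro ν f x)) ∂ν ≤ ENNReal.ofReal ε⁻¹ := by
  have hd := den_pos (ν := ν) h0 hε x
  rw [← ofReal_integral_eq_lintegral_ofReal (hx.div_const _)
    (Eventually.of_forall fun w => div_nonneg (h0 _) (zero_le_one.trans hd)), integral_div]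
  refine ENNReal.ofReal_le_ofReal ?_
  rw [div_le_iff₀ (by linarith), mul_add, ← mul_assoc, inv_mul_cancel₀ hε.ne', one_mul, mul_one]
  have : 0 < ε⁻¹ := inv_pos.2 hε
  change ro ν f x ≤ _
  linarith

variable [SFinite μ]

theorem core1 {f : α × β → ℝ} (hf : Measurable f) (h0 : ∀ z, 0 ≤ f z)
    (hi : Integrable f (μ.prod ν)) {ε : ℝ} (hε : 0 < ε) {a : α × β → ℝ≥0∞} (ha : Measurable a) :
    ∫⁻ z : α × β × β, a (z.1, z.2.1) * ENNReal.ofReal (f (z.1, z.2.2) / (1 + ε * ro ν f z.1))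
        ∂(μ.prod (ν.prod ν)) ≤ ENNReal.ofReal ε⁻¹ * ∫⁻ z, a z ∂(μ.prod ν) ∧
    ∫⁻ z : α × β × β, ENNReal.ofReal (f (z.1, z.2.1) / (1 + ε * ro ν f z.1)) * a (z.1, z.2.2)
        ∂(μ.prod (ν.prod ν)) ≤ ENNReal.ofReal ε⁻¹ * ∫⁻ z, a z ∂(μ.prod ν) := by
  have hb : Measurable fun z : α × β => ENNReal.ofReal (f z / (1 + ε * ro ν f z.1)) :=
    (hf.div ((((ro_meas hf).comp measurable_fst).const_mul ε).const_add 1)).ennreal_ofReal
  have h1 := core (μ := μ) (ν := ν) ha hb
  have h2 := core (μ := μ) (ν := ν) hb ha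
  rw [lintegral_prod _ ha.aemeasurable, ← lintegral_const_mul' _ _ ENNReal.ofReal_ne_top]
  constructor
  · refine h1.le.trans (lintegral_mono_ae ?_)
    filter_upwards [hi.prod_right_ae] with x hx
    rw [mul_comm]
    exact mul_le_mul_left (slice h0 hε hx) _
  · refine h2.le.trans (lintegral_mono_ae ?_)
    filter_upwards [hi.prod_right_ae] with x hx
    exact mul_le_mul_left (slice h0 hε hx) _

theorem sq_int {f : α × β → ℝ} (hf : Measurable f) (h0 : ∀ z, 0 ≤ f z)
    (hi : Integrable f (μ.prod ν)) {ε : ℝ} (hε : 0 < ε) :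
    Integrable (sq ν ε f) (μ.prod (ν.prod ν)) := by
  refine ⟨(sq_meas hf ε).aestronglyMeasurable, ?_⟩
  rw [hasFiniteIntegral_iff_ofReal (Eventually.of_forall (sq_nonneg' h0 hε))]
  have h1 := (core1 hf h0 hi hε hf.ennreal_ofReal).1
  have h2 := (hasFiniteIntegral_iff_ofReal (Eventually.of_forall h0)).1 hi.2
  refine lt_of_le_of_lt (le_trans (le_of_eq ?_) h1) (ENNReal.mul_lt_top ENNReal.ofReal_lt_top h2)
  refine lintegral_congr fun z => ?_
  rw [← ENNReal.ofReal_mul (h0 _), sq, mul_div_assoc]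

theorem ptw {a b a0 b0 d : ℝ} (ha : 0 ≤ a) (hb : 0 ≤ b) (ha0 : 0 ≤ a0) (hb0 : 0 ≤ b0)
    (hd : 1 ≤ d) : ENNReal.ofReal (|a * b / d| - a0 * b0) ≤
      ENNReal.ofReal (a - a0) * ENNReal.ofReal (b / d) +
        ENNReal.ofReal (a / d) * ENNReal.ofReal (b - b0) := by
  have hd0 : 0 < d := by linarith
  have e1 : ENNReal.ofReal (a - a0) = ENNReal.ofReal (max (a - a0) 0) := by simp
  have e2 : ENNReal.ofReal (b - b0) = ENNReal.ofReal (max (b - b0) 0) := by simp
  have p1 := le_max_right (a - a0) 0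
  have p2 := le_max_right (b - b0) 0
  have q1 := le_max_left (a - a0) 0
  have q2 := le_max_left (b - b0) 0
  rw [e1, e2, ← ENNReal.ofReal_mul p1, ← ENNReal.ofReal_mul (by positivity),
    ← ENNReal.ofReal_add (by positivity) (by positivity), abs_of_nonneg (by positivity)]
  refine ENNReal.ofReal_le_ofReal ?_
  have h1 : a * b ≤ max (a - a0) 0 * b + a * max (b - b0) 0 + a0 * b0 := by
    rcases le_total a a0 with h | h
    · nlinarith [mul_nonneg p1 hb, mul_le_mul_of_nonneg_left q2 ha,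
        mul_le_mul_of_nonneg_right h hb0]
    · nlinarith [mul_le_mul_of_nonneg_right q1 hb, mul_le_mul_of_nonneg_left q2 ha0,
        mul_le_mul_of_nonneg_right h p2]
  have h2 : a0 * b0 / d ≤ a0 * b0 := div_le_self (by positivity) hd
  have h3 := div_le_div_of_nonneg_right h1 hd0.le
  have h4 : (max (a - a0) 0 * b + a * max (b - b0) 0 + a0 * b0) / d =
      max (a - a0) 0 * (b / d) + a / d * max (b - b0) 0 + a0 * b0 / d := by ring
  linarith

theorem sq_ui [IsFiniteMeasure μ] {f : ℕ → α × β → ℝ} (hf : ∀ n, Measurable (f n))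
    (h0 : ∀ n z, 0 ≤ f n z) (hi : ∀ n, Integrable (f n) (μ.prod ν)) {ε : ℝ} (hε : 0 < ε)
    (ht : ∀ η : ℝ, 0 < η → ∃ h : β → ℝ, Measurable h ∧ (∀ v, 0 ≤ h v) ∧ Integrable h ν ∧
      ∀ n, ∫⁻ z, ENNReal.ofReal (f n z - h z.2) ∂(μ.prod ν) ≤ ENNReal.ofReal η) :
    UI (μ.prod (ν.prod ν)) fun n => sq ν ε (f n) := by
  refine ⟨fun n => sq_meas (hf n) ε, fun η hη => ?_⟩
  obtain ⟨h, hm, hh0, hhi, H⟩ := ht (ε * (η / 2)) (by positivity)
  refine ⟨fun z => h z.2.1 * h z.2.2, by fun_prop, fun z => mul_nonneg (hh0 _) (hh0 _), ?_,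
    fun n => ?_⟩
  · have h1 := (integrable_const (μ := μ) (1 : ℝ)).mul_prod (hhi.mul_prod hhi)
    simpa only [one_mul] using h1
  · have ha : Measurable fun z : α × β => ENNReal.ofReal (f n z - h z.2) :=
      ((hf n).sub (hm.comp measurable_snd)).ennreal_ofReal
    have hb : Measurable fun z : α × β => ENNReal.ofReal (f n z / (1 + ε * ro ν (f n) z.1)) :=
      ((hf n).div
        ((((ro_meas (hf n)).comp measurable_fst).const_mul ε).const_add 1)).ennreal_ofReal
    obtain ⟨h1, h2⟩ := core1 (hf n) (h0 n) (hi n) hε ha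
    have h3 : ENNReal.ofReal ε⁻¹ * ∫⁻ z, ENNReal.ofReal (f n z - h z.2) ∂(μ.prod ν) ≤
        ENNReal.ofReal (η / 2) := by
      refine (mul_le_mul_right (H n) _).trans (le_of_eq ?_)
      rw [← ENNReal.ofReal_mul (inv_pos.2 hε).le, ← mul_assoc, inv_mul_cancel₀ hε.ne', one_mul]
    have h4 := add_le_add (h1.trans h3) (h2.trans h3)
    rw [← ENNReal.ofReal_add (by positivity) (by positivity), add_halves,
      ← lintegral_add_left (m3 ha hb)] at h4
    refine le_trans (lintegral_mono fun z => ?_) h4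
    exact ptw (h0 n _) (h0 n _) (hh0 _) (hh0 _) (den_pos (h0 n) hε _)

/-- A bounded continuous version of the quotient. -/
def ph (ε : ℝ) (y : ℝ × ℝ) : ℝ := min (max y.1 0) (max y.2 0) / (1 + ε * max y.2 0)

theorem ph_cont {ε : ℝ} (hε : 0 < ε) : Continuous (ph ε) := by
  unfold ph
  refine Continuous.div (by fun_prop) (by fun_prop) fun y => ?_
  have := le_max_right y.2 0
  positivity

theorem ph_le {ε : ℝ} (hε : 0 < ε) (y : ℝ × ℝ) : |ph ε y| ≤ ε⁻¹ := by
  have h1 := le_max_right y.1 0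
  have h2 := le_max_right y.2 0
  have h3 : 0 ≤ min (max y.1 0) (max y.2 0) := le_min h1 h2
  have h4 := min_le_right (max y.1 0) (max y.2 0)
  rw [ph, abs_of_nonneg (by positivity), div_le_iff₀ (by positivity), mul_add, ← mul_assoc,
    inv_mul_cancel₀ hε.ne', one_mul, mul_one]
  have : 0 < ε⁻¹ := inv_pos.2 hε
  linarith

theorem box_eq {f : α × β → ℝ} (hf : Measurable f) (h0 : ∀ z, 0 ≤ f z)
    (hi : Integrable f (μ.prod ν)) {ε : ℝ} (hε : 0 < ε) {A : Set α} (hA : MeasurableSet A)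
    (B C : Set β) :
    ∫ z in A ×ˢ B ×ˢ C, sq ν ε f z ∂(μ.prod (ν.prod ν)) =
      ∫ x, av ν f B x * (A.indicator (fun _ => (1 : ℝ)) x * ph ε (av ν f C x, ro ν f x)) ∂μ := by
  rw [setIntegral_prod _ (sq_int hf h0 hi hε).integrableOn, ← integral_indicator hA]
  refine integral_congr_ae ?_
  filter_upwards [hi.prod_right_ae] with x hx
  by_cases hxA : x ∈ A
  · rw [indicator_of_mem hxA, indicator_of_mem hxA, one_mul]
    have h1 : 0 ≤ av ν f C x := integral_nonneg fun _ => h0 _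
    have h2 : av ν f C x ≤ ro ν f x :=
      setIntegral_le_integral hx (Eventually.of_forall fun _ => h0 _)
    have h3 : ph ε (av ν f C x, ro ν f x) = av ν f C x / (1 + ε * ro ν f x) := by
      rw [ph, max_eq_left h1, max_eq_left (h1.trans h2), min_eq_left h2]
    rw [h3, ← mul_div_assoc, av, av, ← setIntegral_prod_mul, ← integral_div]
    rfl
  · rw [indicator_of_notMem hxA, indicator_of_notMem hxA, zero_mul, mul_zero]

end abs

section lim

variable {α : Type} [MeasurableSpace α] {μ : Measure α}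

theorem wl_of_l1 {a : ℕ → α → ℝ} {b : α → ℝ} (ha : ∀ n, Integrable (a n) μ) (hbm : Measurable b)
    (hb : Integrable b μ) (h : Tendsto (fun n => ∫ x, |a n x - b x| ∂μ) UF (𝓝 0)) :
    WL μ a b := by
  refine ⟨hbm, hb, ?_⟩
  rintro ψ hψ ⟨C, hC⟩
  have hi : ∀ u : α → ℝ, Integrable u μ → Integrable (fun x => u x * ψ x) μ := fun u hu =>
    hu.mul_bdd hψ.aestronglyMeasurable (Eventually.of_forall hC)
  rw [tendsto_iff_norm_sub_tendsto_zero]
  have h1 := h.mul_const C
  rw [zero_mul] at h1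
  refine squeeze_zero (fun n => norm_nonneg _) (fun n => ?_) h1
  rw [← integral_sub (hi _ (ha n)) (hi _ hb), ← integral_mul_const]
  refine norm_integral_le_of_norm_le (((ha n).sub hb).abs.mul_const C)
    (Eventually.of_forall fun x => ?_)
  rw [← sub_mul, norm_mul, Real.norm_eq_abs, Real.norm_eq_abs]
  exact mul_le_mul_of_nonneg_left (hC x) (abs_nonneg _)

theorem mc_of_l1 [SigmaFinite μ] (hC : MCStmt) {a : ℕ → α → ℝ} {b : α → ℝ}
    (ham : ∀ n, Measurable (a n)) (ha : ∀ n, Integrable (a n) μ) (hbm : Measurable b)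
    (hb : Integrable b μ) (h : Tendsto (fun n => ∫ x, |a n x - b x| ∂μ) UF (𝓝 0)) :
    MC μ a b := by
  refine (hC α μ).1 a b (fun _ => univ) ham hbm (fun _ => MeasurableSet.univ) monotone_const
    (fun x => ⟨0, mem_univ x⟩) fun _ => ?_
  have h1 := ENNReal.tendsto_ofReal h
  rw [ENNReal.ofReal_zero] at h1
  refine h1.congr fun n => ?_
  rw [Measure.restrict_univ]
  exact ofReal_integral_eq_lintegral_ofReal ((ha n).sub hb).abs
    (Eventually.of_forall fun x => abs_nonneg _)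

theorem sq_wl {β : Type} [MeasurableSpace β] {ν : Measure β} [SigmaFinite μ] [SigmaFinite ν]
    (hU : UIStmt) (hW : WLStmt) (hC : MCStmt) (hR : RectStmt)
    {f : ℕ → α × β → ℝ} {g : α × β → ℝ} (hf : ∀ n, Measurable (f n))
    (h0 : ∀ n z, 0 ≤ f n z) (hi : ∀ n, Integrable (f n) (μ.prod ν)) (hg : Measurable g)
    (hg0 : ∀ z, 0 ≤ g z) (hgi : Integrable g (μ.prod ν)) {ε : ℝ} (hε : 0 < ε)
    (hui : UI (μ.prod (ν.prod ν)) fun n => sq ν ε (f n))
    (hav : ∀ B, MeasurableSet B → Integrable (av ν g B) μ ∧ UI μ (fun n => av ν (f n) B) ∧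
      Tendsto (fun n => ∫ x, |av ν (f n) B x - av ν g B x| ∂μ) UF (𝓝 0)) :
    WL (μ.prod (ν.prod ν)) (fun n => sq ν ε (f n)) (sq ν ε g) := by
  refine hR α β μ ν _ _ (fun n => sq_nonneg' (h0 n) hε) hui (sq_meas hg ε) (sq_nonneg' hg0 hε)
    (sq_int hg hg0 hgi hε) fun A B C hA hB hC' => ?_
  have hmc : ∀ D, MeasurableSet D → MC μ (fun n => av ν (f n) D) (av ν g D) := fun D hD =>
    mc_of_l1 hC (fun n => av_meas (hf n) D) ((hU.2.2 α μ).1 _ (hav D hD).2.1).1 (av_meas hg D)
      (hav D hD).1 (hav D hD).2.2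
  have hro : ∀ u : α × β → ℝ, av ν u univ = ro ν u := fun u => by
    funext x
    rw [av, ro, Measure.restrict_univ]
  have h1 := hmc univ MeasurableSet.univ
  simp only [hro] at h1
  have h2 := (hC α μ).2.1 _ _ _ _ (ph ε) (ph_cont hε) (hmc C hC') h1
  have h3 := (hC α μ).2.2.1 (A.indicator fun _ => (1 : ℝ)) (measurable_const.indicator hA)
  have h4 := (hC α μ).2.1 _ _ _ _ (fun y => y.1 * y.2) (by fun_prop) h3 h2
  have hbd : ∀ (x : α) (y : ℝ × ℝ), |A.indicator (fun _ => (1 : ℝ)) x * ph ε y| ≤ ε⁻¹ := by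
    intro x y
    by_cases hx : x ∈ A
    · rw [indicator_of_mem hx, one_mul]
      exact ph_le hε y
    · rw [indicator_of_notMem hx, zero_mul, abs_zero]
      exact (inv_pos.2 hε).le
  have h5 := (hW α μ).1 _ _ _ _ ε⁻¹ (hav B hB).2.1
    (wl_of_l1 ((hU.2.2 α μ).1 _ (hav B hB).2.1).1 (av_meas hg B) (hav B hB).1 (hav B hB).2.2) h4
    (fun n x => hbd x _) (fun x => hbd x _)
  rw [box_eq hg hg0 hgi hε hA]
  exact h5.congr fun n => (box_eq (hf n) (h0 n) (hi n) hε hA B C).symm

end lim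

theorem int_Mx : Integrable Mx := by
  have h := (GaussianFourier.integrable_cexp_neg_mul_sq_norm_add (V := E) (b := 1 / 2)
    (by norm_num) 0 0).norm
  refine (h.const_mul ((2 * Real.pi) ^ (-(3 / 2 : ℝ)))).congr (Eventually.of_forall fun v => ?_)
  simp only [Mx, Complex.norm_exp]
  congr 2
  simp [← Complex.ofReal_pow]
  ring

/-- Reassociation. -/
def ra (F : ℝ → Om → ℝ) (z : (ℝ × T3) × E) : ℝ := F z.1.1 (z.1.2, z.2)

theorem mp (T : ℝ) : MeasurePreserving (fun z : (ℝ × T3) × E => ((z.1.1, (z.1.2, z.2)) : ℝ × Om))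
    ((mX T).prod volume) (mY T) :=
  measurePreserving_prodAssoc (mT T) volume volume

end ProdAux

open ProdAux in
theorem prodW (hM : MeasStmt) (hU : UIStmt) (hW : WLStmt) (hC : MCStmt) (hR : RectStmt)
    (hF : TSFlStmt) (hA : AvFStmt) (hN : NuExpStmt) : ProdStmt := by
  intro R δ Fn F₀ F hL T ε hε
  have _ := hM
  have _ := hF
  have _ := hN
  have : IsFiniteMeasure (mX T) := by
    unfold mX
    infer_instance
  have hf : ∀ n, Measurable (ra (Fn n)) := fun n => (hL.apr.ts n).meas.comp (mp T).measurable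
  have h0 : ∀ n z, 0 ≤ ra (Fn n) z := fun n z => (hL.apr.ts n).nonneg _ _
  have hi : ∀ n, Integrable (ra (Fn n)) ((mX T).prod volume) := fun n =>
    (mp T).integrable_comp_of_integrable (((hU.2.2 _ _).1 _ (hL.apr.uiY T)).1 n)
  have hg : Measurable (ra F) := hL.meas.comp (mp T).measurable
  have hgi : Integrable (ra F) ((mX T).prod volume) :=
    (mp T).integrable_comp_of_integrable (hL.wlY T).2.1
  have hui : UI ((mX T).prod (volume.prod volume)) fun n => sq volume ε (ra (Fn n)) := by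
    refine sq_ui hf h0 hi hε fun η hη => ?_
    obtain ⟨K, hK, H⟩ := hL.apr.tail (η / ((mT T).real univ + 1)) (by positivity)
    refine ⟨fun v => K * Mx v, continuous_Mx.measurable.const_mul K,
      fun v => mul_nonneg hK.le (Mx_pos v).le, int_Mx.const_mul K, fun n => ?_⟩
    have hm : Measurable fun y : ℝ × Om => ENNReal.ofReal (Fn n y.1 y.2 - K * Mx y.2.2) :=
      ((hL.apr.ts n).meas.sub ((continuous_Mx.measurable.comp
        (measurable_snd.comp measurable_snd)).const_mul K)).ennreal_ofReal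
    refine le_trans (le_of_eq ((mp T).lintegral_comp hm)) ?_
    rw [mY, lintegral_prod _ hm.aemeasurable]
    have h1 : ∀ᵐ t ∂(mT T), ∫⁻ p : Om, ENNReal.ofReal (Fn n t p - K * Mx p.2) ≤
        ENNReal.ofReal (η / ((mT T).real univ + 1)) := by
      filter_upwards [ae_restrict_mem (μ := volume) (measurableSet_Icc (a := (0 : ℝ)) (b := T))]
        with t ht
      exact H n t ht.1
    refine (lintegral_mono_ae h1).trans ?_
    rw [lintegral_const, ← ofReal_measureReal (measure_ne_top _ _),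
      ← ENNReal.ofReal_mul (by positivity)]
    refine ENNReal.ofReal_le_ofReal ?_
    rw [div_mul_eq_mul_div, div_le_iff₀ (by positivity)]
    nlinarith
  refine ⟨hui, sq_wl hU hW hC hR hf h0 hi hg (fun z => hL.nonneg _ _) hgi hε hui fun B hB => ?_⟩
  have he : ∀ G : ℝ → Om → ℝ, (fun y : ℝ × T3 =>
      ∫ v, G y.1 (y.2, v) * B.indicator (fun _ => (1 : ℝ)) v) = av volume (ra G) B := by
    intro G
    funext y
    rw [av, ← integral_indicator hB]
    refine integral_congr_ae (Eventually.of_forall fun v => ?_)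
    by_cases hv : v ∈ B
    · simp [indicator_of_mem hv, ra]
    · simp [indicator_of_notMem hv]
  obtain ⟨h1, h2, h3⟩ := hA R δ Fn F₀ F hL T 1 (B.indicator fun _ => (1 : ℝ))
    (measurable_const.indicator hB) fun v => by
      have := norm_nonneg v
      by_cases hv : v ∈ B
      · rw [indicator_of_mem hv, abs_one]
        linarith
      · rw [indicator_of_notMem hv, abs_zero]
        linarith
  simp only [← he]
  exact ⟨h1, h2, h3⟩

end

end Vale.Agent.P140
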