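import Vale.Agent.P140.StmB

/-!
Weak limits of the renormalized truncated gain terms are below the gain term of the limit.
-/

namespace Vale.Agent.P140

open MeasureTheory Set Filter Topology
open scoped ENNReal

namespace RenGain

theorem kT_le (R b : ℝ) {a : ℝ} (ha : 0 ≤ a) : kT R a b ≤ a := by
  unfold kT
  split_ifs
  · exact min_le_left _ _
  · exact ha

theorem kC_le (j b : ℝ) {a : ℝ} (ha : 0 ≤ a) : kC j a b ≤ a := by
  unfold kC
  split_ifs
  · exact le_rfl
  · exact ha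

theorem kC_nonneg (j b : ℝ) {a : ℝ} (ha : 0 ≤ a) : 0 ≤ kC j a b := by
  unfold kC
  split_ifs
  · exact ha
  · exact le_rfl

theorem rho_nonneg {f : Om → ℝ} (h0 : ∀ p, 0 ≤ f p) (x : T3) : 0 ≤ rho f x :=
  integral_nonneg fun _ => h0 _

/-- the second moment at a point of the torus -/
noncomputable def HH (f : Om → ℝ) (x : T3) : ℝ≥0∞ :=
  ∫⁻ w : E, ENNReal.ofReal (f (x, w) * (1 + ‖w‖) ^ 2)

/-- the truncated dissipation before normalization -/
noncomputable def YY (R : ℝ) (f : Om → ℝ) (p : Om) : ℝ≥0∞ :=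
  ∫⁻ q : E × S2, ENNReal.ofReal (kT R |cf p.2 q.1 q.2| ‖p.2 - q.1‖) *
    jj (f (p.1, vp p.2 q.1 q.2) * f (p.1, wp p.2 q.1 q.2)) (f (p.1, p.2) * f (p.1, q.1))
      ∂(volume.prod sph)

theorem far_bound {v w : E} {r j : ℝ} (hj : 0 < j) (hv : ‖v‖ ≤ r) (hw : ¬ ‖v - w‖ ≤ j) :
    ‖v - w‖ ≤ (1 + |r|) ^ 2 / j * (1 + ‖w‖) ^ 2 := by
  have h1 : ‖v - w‖ ≤ (1 + |r|) * (1 + ‖w‖) := by
    have h2 := norm_sub_le v w
    have h3 := le_abs_self r
    have h4 := abs_nonneg r
    have h5 := norm_nonneg w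
    nlinarith [mul_nonneg h4 h5]
  have h2 : ‖v - w‖ * j ≤ ((1 + |r|) * (1 + ‖w‖)) ^ 2 := by
    have h3 := norm_nonneg (v - w)
    have h4 := pow_le_pow_left₀ h3 h1 2
    nlinarith [not_le.1 hw]
  rw [div_mul_eq_mul_div, le_div_iff₀ hj, ← mul_pow]
  exact h2

theorem gain_split (hM : MeasStmt) (hI : IneqStmt) {f : Om → ℝ} (hf : Measurable f)
    (h0 : ∀ p, 0 ≤ f p) (R : ℝ) {j K r : ℝ} (hj : 0 < j) (hK : 1 < K) (p : Om)
    (hp : ‖p.2‖ ≤ r) :
    gainK (kT R) (sl f p.1) (sl f p.1) p.2 ≤ gainK (kC j) (sl f p.1) (sl f p.1) p.2 +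
      ENNReal.ofReal (f p * (K * ((1 + |r|) ^ 2 / j))) * (HH f p.1 * sph univ) +
      YY R f p / ENNReal.ofReal (Real.log K) := by
  obtain ⟨x, v⟩ := p
  simp only at hp ⊢
  have hL : (ENNReal.ofReal (Real.log K))⁻¹ ≠ ⊤ := by
    simpa using Real.log_pos hK
  have hsl : Measurable (sl f x) := by
    unfold sl
    exact (hf.comp (measurable_const.prodMk measurable_id)).ennreal_ofReal
  have hm1 : Measurable fun q : E × S2 => ENNReal.ofReal (kC j |cf v q.1 q.2| ‖v - q.1‖) *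
      (sl f x (vp v q.1 q.2) * sl f x (wp v q.1 q.2)) := by
    have h1 : Measurable fun q : E × S2 => (|cf v q.1 q.2|, ‖v - q.1‖) := by
      unfold cf; fun_prop
    have h2 : Measurable fun q : E × S2 => vp v q.1 q.2 := by unfold vp cf; fun_prop
    have h3 : Measurable fun q : E × S2 => wp v q.1 q.2 := by unfold wp cf; fun_prop
    exact ((hM.2.2.1 j).comp h1).ennreal_ofReal.mul ((hsl.comp h2).mul (hsl.comp h3))
  have hm3 : Measurable fun w : E => ENNReal.ofReal (f (x, w) * (1 + ‖w‖) ^ 2) :=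
    ((hf.comp (measurable_const.prodMk measurable_id)).mul (by fun_prop)).ennreal_ofReal
  have hm2 : Measurable fun q : E × S2 => ENNReal.ofReal (f (x, v) * (K * ((1 + |r|) ^ 2 / j))) *
      ENNReal.ofReal (f (x, q.1) * (1 + ‖q.1‖) ^ 2) := (hm3.comp measurable_fst).const_mul _
  have he : ∫⁻ q : E × S2, ENNReal.ofReal (f (x, q.1) * (1 + ‖q.1‖) ^ 2) ∂(volume.prod sph) =
      HH f x * sph univ := by
    refine (lintegral_prod _ (hm3.comp measurable_fst).aemeasurable).trans ?_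
    simp only [Function.comp_apply, lintegral_const]
    rw [lintegral_mul_const _ hm3]
    rfl
  unfold gainK YY
  rw [← he, ← lintegral_const_mul' _ _ ENNReal.ofReal_ne_top, div_eq_mul_inv (lintegral _ _),
    ← lintegral_mul_const' _ _ hL, ← lintegral_add_left hm1, ← lintegral_add_left (hm1.fun_add hm2)]
  refine lintegral_mono fun q => ?_
  simp only
  have ha : 0 ≤ |cf v q.1 q.2| := abs_nonneg _
  by_cases hq : ‖v - q.1‖ ≤ j
  · refine le_add_right (le_add_right ?_)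
    refine mul_le_mul_left (ENNReal.ofReal_le_ofReal ?_) _
    rw [kC, if_pos hq]
    exact kT_le _ _ ha
  · rw [add_assoc]
    refine le_add_left ?_
    have h1 := hI.1 (f (x, vp v q.1 q.2) * f (x, wp v q.1 q.2)) (f (x, v) * f (x, q.1)) K
      (mul_nonneg (h0 _) (h0 _)) (mul_nonneg (h0 _) (h0 _)) hK
    unfold sl
    rw [← ENNReal.ofReal_mul (h0 _)]
    refine (mul_le_mul_right h1 _).trans ?_
    rw [mul_add, div_eq_mul_inv (jj _ _)]
    refine add_le_add ?_ (mul_assoc _ _ _).ge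
    have hk : kT R |cf v q.1 q.2| ‖v - q.1‖ ≤ (1 + |r|) ^ 2 / j * (1 + ‖q.1‖) ^ 2 :=
      (kT_le _ _ ha).trans ((abs_cf_le _ _ _).trans (far_bound hj hp hq))
    have hK0 : 0 ≤ K := by linarith
    have h2 := h0 (x, v)
    have h3 := h0 (x, q.1)
    refine (mul_le_mul_left (ENNReal.ofReal_le_ofReal hk) _).trans (le_of_eq ?_)
    rw [← ENNReal.ofReal_mul (by positivity), ← ENNReal.ofReal_mul (by positivity)]
    congr 1
    ring

theorem gain_fin {f : Om → ℝ} (h0 : ∀ p, 0 ≤ f p) {C : ℝ} (hC : ∀ p, f p ≤ C) (j : ℝ) (p : Om) :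
    gainK (kC j) (sl f p.1) (sl f p.1) p.2 ≠ ⊤ := by
  have hs : MeasurableSet (Metric.closedBall p.2 j ×ˢ (univ : Set S2)) :=
    measurableSet_closedBall.prod MeasurableSet.univ
  have h1 : gainK (kC j) (sl f p.1) (sl f p.1) p.2 ≤ ∫⁻ q : E × S2,
      (Metric.closedBall p.2 j ×ˢ (univ : Set S2)).indicator
        (fun _ => ENNReal.ofReal j * (ENNReal.ofReal C * ENNReal.ofReal C)) q
        ∂(volume.prod sph) := by
    refine lintegral_mono fun q => ?_
    by_cases hq : ‖p.2 - q.1‖ ≤ j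
    · rw [indicator_of_mem (by
        refine ⟨?_, mem_univ _⟩
        rw [mem_closedBall_iff_norm, norm_sub_rev]; exact hq)]
      refine mul_le_mul' (ENNReal.ofReal_le_ofReal ?_)
        (mul_le_mul' (ENNReal.ofReal_le_ofReal (hC _)) (ENNReal.ofReal_le_ofReal (hC _)))
      exact (kC_le _ _ (abs_nonneg _)).trans ((abs_cf_le _ _ _).trans hq)
    · simp only [kC, if_neg hq, ENNReal.ofReal_zero, zero_mul]
      exact bot_le
  rw [lintegral_indicator_const hs, Measure.prod_prod] at h1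
  refine ne_top_of_le_ne_top ?_ h1
  have h2 := (measure_closedBall_lt_top (μ := (volume : Measure E)) (x := p.2) (r := j)).ne
  have h3 := measure_ne_top sph univ
  have _ := h0
  finiteness

theorem point (hM : MeasStmt) (hI : IneqStmt) {f : Om → ℝ} (hf : Measurable f)
    (h0 : ∀ p, 0 ≤ f p) {C : ℝ} (hC : ∀ p, f p ≤ C) (R r : ℝ) {δ j K m : ℝ} (hδ : 0 < δ)
    (hj : 0 < j) (hK : 1 < K) (hm : 0 < m) (p : Om) :
    ENNReal.ofReal (cut r p * (gT R δ f p / (1 + f p / m) ^ 2) * (1 / (1 + |rho f p.1|))) ≤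
      ENNReal.ofReal ((gainK (kC j) (sl f p.1) (sl f p.1) p.2).toReal / (1 + 1 * rho f p.1)) +
      ((Metric.closedBall (0 : E) r).indicator (fun _ =>
        ENNReal.ofReal (m * (K * ((1 + |r|) ^ 2 / j))) * (HH f p.1 * sph univ)) p.2 +
      eT R δ f p / ENNReal.ofReal (Real.log K)) := by
  by_cases hp : ‖p.2‖ ≤ r
  swap
  · simp [cut, hp]
  have hρ := rho_nonneg h0 p.1
  have h1 := gain_split hM hI hf h0 R hj hK p hp
  have h2 := gain_fin h0 hC j p
  have h3 : eT R δ f p = YY R f p / ENNReal.ofReal (1 + δ * rho f p.1) := rfl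
  rw [indicator_of_mem (mem_closedBall_zero_iff.2 hp), h3, cut, if_pos hp, gT, abs_of_nonneg hρ,
    one_mul, one_mul, ← add_assoc]
  have h4 := h0 p
  generalize gainK (kT R) (sl f p.1) (sl f p.1) p.2 = GT at h1 ⊢
  generalize gainK (kC j) (sl f p.1) (sl f p.1) p.2 = GC at h1 h2 ⊢
  generalize HH f p.1 * sph univ = H at h1 ⊢
  generalize YY R f p = Y at h1 ⊢
  generalize rho f p.1 = ρ at hρ ⊢
  have hc : 0 ≤ K * ((1 + |r|) ^ 2 / j) := by
    have : 0 ≤ K := by linarith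
    positivity
  generalize K * ((1 + |r|) ^ 2 / j) = c at hc h1 ⊢
  generalize f p = y at h1 h4 ⊢
  have hD : 1 ≤ 1 + δ * ρ := le_add_of_nonneg_right (by positivity)
  have hP : 1 ≤ 1 + y / m := le_add_of_nonneg_right (by positivity)
  have hQ : 1 ≤ 1 + ρ := le_add_of_nonneg_right hρ
  have hPm : y ≤ m * (1 + y / m) := by
    rw [mul_add, mul_div_cancel₀ _ hm.ne']; linarith
  generalize 1 + δ * ρ = D at hD ⊢
  generalize 1 + y / m = P at hP hPm ⊢
  generalize 1 + ρ = Q at hQ ⊢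
  have hD0 : 0 < D := by linarith
  have hP0 : 0 < P := by linarith
  have hQ0 : 0 < Q := by linarith
  have hP2 : 1 ≤ P ^ 2 := one_le_pow₀ hP
  obtain ⟨l, hl⟩ : ∃ l : ℝ, l = 1 / (D * P ^ 2 * Q) := ⟨_, rfl⟩
  have hl0 : 0 ≤ l := by rw [hl]; positivity
  have hl1 : l ≤ 1 / Q := by
    rw [hl]
    refine one_div_le_one_div_of_le hQ0 (le_mul_of_one_le_left hQ0.le ?_)
    exact one_le_mul_of_one_le_of_one_le hD hP2
  have hl2 : l ≤ D⁻¹ := by
    rw [hl, ← one_div, mul_assoc]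
    refine one_div_le_one_div_of_le hD0 (le_mul_of_one_le_right hD0.le ?_)
    exact one_le_mul_of_one_le_of_one_le hP2 hQ
  have hl3 : y * l ≤ m := by
    have h5 : l ≤ 1 / P := by
      rw [hl, show D * P ^ 2 * Q = P * (D * P * Q) by ring]
      refine one_div_le_one_div_of_le hP0 (le_mul_of_one_le_right hP0.le ?_)
      exact one_le_mul_of_one_le_of_one_le (one_le_mul_of_one_le_of_one_le hD hP) hQ
    refine (mul_le_mul_of_nonneg_left h5 h4).trans ?_
    rw [mul_one_div, div_le_iff₀ hP0]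
    exact hPm
  have e1 : GT.toReal / D / P ^ 2 * (1 / Q) = GT.toReal * l := by
    rw [hl]; field_simp
  rw [e1, ENNReal.ofReal_mul ENNReal.toReal_nonneg]
  refine (mul_le_mul_left (ENNReal.ofReal_toReal_le.trans h1) _).trans ?_
  rw [add_mul, add_mul]
  refine add_le_add (add_le_add ?_ ?_) ?_
  · rw [div_eq_mul_one_div, ENNReal.ofReal_mul ENNReal.toReal_nonneg, ENNReal.ofReal_toReal h2]
    exact mul_le_mul_right (ENNReal.ofReal_le_ofReal hl1) _
  · rw [mul_right_comm, ← ENNReal.ofReal_mul (by positivity)]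
    refine mul_le_mul_left (ENNReal.ofReal_le_ofReal ?_) _
    rw [mul_right_comm]
    exact mul_le_mul_of_nonneg_right hl3 hc
  · rw [div_eq_mul_inv, div_eq_mul_inv, div_eq_mul_inv, mul_right_comm,
      ← ENNReal.ofReal_inv_of_pos hD0]
    exact mul_le_mul_left (mul_le_mul_right (ENNReal.ofReal_le_ofReal hl2) _) _

theorem integral_le_add {α : Type*} [MeasurableSpace α] {μ : Measure α} {u g : α → ℝ}
    {e : α → ℝ≥0∞} {ε : ℝ} (hε : 0 ≤ ε) (hu : Integrable u μ) (hg : Integrable g μ)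
    (hu0 : ∀ x, 0 ≤ u x) (hg0 : ∀ x, 0 ≤ g x)
    (h : ∀ᵐ x ∂μ, ENNReal.ofReal (u x) ≤ ENNReal.ofReal (g x) + e x)
    (he : ∫⁻ x, e x ∂μ ≤ ENNReal.ofReal ε) : ∫ x, u x ∂μ ≤ ∫ x, g x ∂μ + ε := by
  have h1 : 0 ≤ ∫ x, g x ∂μ := integral_nonneg hg0
  rw [← ENNReal.ofReal_le_ofReal_iff (add_nonneg h1 hε), ENNReal.ofReal_add h1 hε,
    ofReal_integral_eq_lintegral_ofReal hu (Eventually.of_forall hu0),
    ofReal_integral_eq_lintegral_ofReal hg (Eventually.of_forall hg0)]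
  refine (lintegral_mono_ae h).trans ?_
  rw [lintegral_add_left' hg.aemeasurable.ennreal_ofReal]
  exact add_le_add_right he _

theorem err1 {F : ℝ → Om → ℝ} (hF : Measurable fun y : ℝ × Om => F y.1 y.2)
    (h0 : ∀ t p, 0 ≤ F t p) {C : ℝ}
    (hC : ∀ t, 0 ≤ t → Integrable (fun p : Om => F t p * (1 + ‖p.2‖) ^ 2) ∧
      ∫ p : Om, F t p * (1 + ‖p.2‖) ^ 2 ≤ C) (T r : ℝ) (c : ℝ≥0∞) (hc : c ≠ ⊤) :
    ∫⁻ y, (Metric.closedBall (0 : E) r).indicator (fun _ =>
        c * (HH (F y.1) y.2.1 * sph univ)) y.2.2 ∂(mY T) ≤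
      c * (sph univ * volume (Metric.closedBall (0 : E) r) * ENNReal.ofReal C * mT T univ) := by
  have hV := (measure_closedBall_lt_top (μ := (volume : Measure E)) (x := 0) (r := r)).ne
  have hS := measure_ne_top sph univ
  refine (lintegral_prod_le _).trans ?_
  rw [← mul_assoc, ← lintegral_const]
  refine lintegral_mono_ae ?_
  filter_upwards [ae_restrict_mem measurableSet_Icc] with t ht
  refine (lintegral_prod_le _).trans ?_
  simp only [lintegral_indicator_const measurableSet_closedBall]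
  have h1 : ∀ x, c * (HH (F t) x * sph univ) * volume (Metric.closedBall (0 : E) r) =
      c * (sph univ * volume (Metric.closedBall (0 : E) r)) * HH (F t) x := by
    intro x; ring
  simp only [h1]
  rw [lintegral_const_mul' _ _ (by finiteness), mul_assoc c]
  refine mul_le_mul_right (mul_le_mul_right ?_ _) _
  have hm : Measurable fun p : Om => ENNReal.ofReal (F t p * (1 + ‖p.2‖) ^ 2) :=
    ((hF.comp (measurable_const.prodMk measurable_id)).mul (by fun_prop)).ennreal_ofReal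
  have h2 : ∫⁻ x, HH (F t) x = ∫⁻ p : Om, ENNReal.ofReal (F t p * (1 + ‖p.2‖) ^ 2) :=
    (lintegral_prod _ hm.aemeasurable).symm
  rw [h2, ← ofReal_integral_eq_lintegral_ofReal (hC t ht.1).1
    (Eventually.of_forall fun p => mul_nonneg (h0 t p) (sq_nonneg _))]
  exact ENNReal.ofReal_le_ofReal (hC t ht.1).2

theorem mc_rho (hC : MCStmt) {T : ℝ} {a : ℕ → ℝ × T3 → ℝ} {b : ℝ × T3 → ℝ} (h : MC (mX T) a b)
    {ψ : ℝ × Om → ℝ} (hψ : Measurable ψ) :
    MC (mY T) (fun n y => 1 / (1 + |a n (y.1, y.2.1)|) * ψ y)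
      (fun y => 1 / (1 + |b (y.1, y.2.1)|) * ψ y) := by
  have h1 := (hC (ℝ × T3) (mX T)).2.2.2.2.2.1 E volume a b h
  have he : MeasurePreserving (MeasurableEquiv.prodAssoc.symm : ℝ × Om ≃ᵐ (ℝ × T3) × E)
      (mY T) ((mX T).prod volume) :=
    (measurePreserving_prodAssoc (mT T) (volume : Measure T3) (volume : Measure E)).symm
  have h2 := (hC ((ℝ × T3) × E) ((mX T).prod volume)).2.2.2.2.2.2.2 (ℝ × Om) (mY T) _ _ _ he h1
  have h3 := (hC (ℝ × Om) (mY T)).2.2.1 ψ hψ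
  have hΦ : Continuous fun z : ℝ × ℝ => 1 / (1 + |z.1|) * z.2 :=
    (continuous_const.div (by fun_prop) fun z => by positivity).mul continuous_snd
  exact (hC (ℝ × Om) (mY T)).2.1 _ _ _ _ _ hΦ h2 h3

theorem gT_nonneg {f : Om → ℝ} (h0 : ∀ p, 0 ≤ f p) (R : ℝ) {δ : ℝ} (hδ : 0 < δ) (p : Om) :
    0 ≤ gT R δ f p := by
  have := rho_nonneg h0 p.1
  unfold gT
  positivity

theorem cut_nonneg (r : ℝ) (p : Om) : 0 ≤ cut r p := by
  unfold cut; split_ifs <;> norm_num

theorem measurable_cut (r : ℝ) : Measurable (cut r) := by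
  unfold cut
  exact Measurable.ite (measurableSet_le (by fun_prop) measurable_const) measurable_const
    measurable_const

theorem GG_nonneg {F : ℝ → Om → ℝ} (h0 : ∀ t p, 0 ≤ F t p) (k : ℝ → ℝ → ℝ) (y : ℝ × Om) :
    0 ≤ GG k 1 F y := by
  have := rho_nonneg (h0 y.1) y.2.1
  unfold GG
  positivity

theorem ind_bound {α : Type*} (A : Set α) (y : α) :
    0 ≤ A.indicator (fun _ => (1 : ℝ)) y ∧ A.indicator (fun _ => (1 : ℝ)) y ≤ 1 := by
  by_cases h : y ∈ A <;> simp [h]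

theorem w_bound (x : ℝ) : 0 < 1 / (1 + |x|) ∧ 1 / (1 + |x|) ≤ 1 := by
  have := abs_nonneg x
  exact ⟨by positivity, (div_le_one (by positivity)).2 (by linarith)⟩

theorem wi_bound {α : Type*} (A : Set α) (y : α) (x : ℝ) :
    |1 / (1 + |x|) * A.indicator (fun _ => (1 : ℝ)) y| ≤ 1 := by
  have h1 := w_bound x
  have h2 := ind_bound A y
  rw [abs_of_nonneg (mul_nonneg h1.1.le h2.1)]
  exact mul_le_one₀ h1.2 h2.1 h2.2

/-- the tested inequality -/
theorem tested (hM : MeasStmt) (hU : UIStmt) (hW : WLStmt) (hC : MCStmt) (hI : IneqStmt)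
    (hR : RenUIStmt) (hN : NuExpStmt) (hG : GainWStmt) {R δ : ℕ → ℝ} {Fn : ℕ → ℝ → Om → ℝ}
    {F₀ : Om → ℝ} {F : ℝ → Om → ℝ} (hL : Lim R δ Fn F₀ F) {T r m : ℝ} {q : ℝ × Om → ℝ}
    (hT : 0 ≤ T) (hm : 0 < m) (hq : WL (mY T) (fun n y => cut r y.2 *
      (gT (R n) (δ n) (Fn n y.1) y.2 / (1 + Fn n y.1 y.2 / m) ^ 2)) q)
    {A : Set (ℝ × Om)} (hA : MeasurableSet A) {ε : ℝ} (hε : 0 < ε) :
    ∃ j : ℝ, Integrable (GG (kC j) 1 F) (mY T) ∧
      ∫ y, q y * (1 / (1 + |rho (F y.1) y.2.1|) * A.indicator (fun _ => (1 : ℝ)) y) ∂(mY T) ≤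
        ∫ y, GG (kC j) 1 F y * A.indicator (fun _ => (1 : ℝ)) y ∂(mY T) + (ε + ε) := by
  obtain ⟨C₁, hC₁⟩ := hL.apr.mom
  obtain ⟨C₂, hC₂⟩ := hL.apr.entB
  obtain ⟨Z, hZ⟩ : ∃ Z : ℝ≥0∞, Z = sph univ * volume (Metric.closedBall (0 : E) r) *
    ENNReal.ofReal C₁ * mT T univ := ⟨_, rfl⟩
  have hZt : Z ≠ ⊤ := by
    have hV := (measure_closedBall_lt_top (μ := (volume : Measure E)) (x := 0) (r := r)).ne
    have hS := measure_ne_top sph univ
    have hm := measure_ne_top (mT T) univ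
    rw [hZ]; finiteness
  obtain ⟨K, hK⟩ : ∃ K : ℝ, K = Real.exp ((|C₂| + 1) / ε) := ⟨_, rfl⟩
  have hK1 : 1 < K := by rw [hK]; exact Real.one_lt_exp_iff.2 (by positivity)
  have hK0 : 0 < K := by linarith
  have hz := ENNReal.toReal_nonneg (a := Z)
  obtain ⟨j, hj⟩ : ∃ j : ℝ, j = m * K * (1 + |r|) ^ 2 * (Z.toReal + 1) / ε := ⟨_, rfl⟩
  have hj0 : 0 < j := by rw [hj]; positivity
  have hψ : Measurable (A.indicator fun _ => (1 : ℝ)) := measurable_const.indicator hA
  obtain ⟨-, hGu, hGw⟩ := hG R δ Fn F₀ F hL T 1 j (kC j) one_pos (hM.2.2.1 j)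
    fun a b ha _ => ⟨kC_nonneg _ _ ha, le_rfl⟩
  refine ⟨j, hGw.2.1, ?_⟩
  have hts := hL.apr.ts
  have hnn : ∀ n y, 0 ≤ cut r (Prod.snd y) *
      (gT (R n) (δ n) (Fn n y.1) y.2 / (1 + Fn n y.1 y.2 / m) ^ 2) := fun n y =>
    mul_nonneg (cut_nonneg _ _) (div_nonneg (gT_nonneg ((hts n).nonneg _) _ (hL.apr.δpos n) _)
      (sq_nonneg _))
  have hui : UI (mY T) (fun n y => cut r y.2 *
      (gT (R n) (δ n) (Fn n y.1) y.2 / (1 + Fn n y.1 y.2 / m) ^ 2)) := by
    refine (hU.2.2 _ (mY T)).2.2.2.1 _ _ (hR R δ Fn F₀ hL.apr T r m hm).2.2 (fun n => ?_)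
      fun n => Eventually.of_forall fun y => ?_
    · exact ((measurable_cut r).comp measurable_snd).mul
        ((hM.2.2.2.2.1 (Fn n) (hts n).meas (R n) (δ n)).2.1.div
          ((((hts n).meas.div_const m).const_add 1).pow_const 2))
    · have h1 := (hts n).nonneg y.1 y.2
      have h2 := gT_nonneg ((hts n).nonneg y.1) (R n) (hL.apr.δpos n) y.2
      have h3 : 1 ≤ 1 + Fn n y.1 y.2 / m := le_add_of_nonneg_right (by positivity)
      rw [abs_of_nonneg (hnn n y)]
      refine le_trans ?_ (le_abs_self _)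
      refine mul_le_mul_of_nonneg_left ?_ (cut_nonneg _ _)
      refine div_le_div_of_nonneg_left h2 (by linarith) ?_
      nlinarith
  have hmc := mc_rho hC (hN R δ Fn F₀ F hL T hT).2.2.2 hψ
  have t1 := (hW _ (mY T)).1 _ _ _ _ 1 hui hq hmc (fun n y => wi_bound _ _ _)
    (fun y => wi_bound _ _ _)
  have t2 := (hGw.2.2 _ hψ ⟨1, fun y => by
    rw [abs_of_nonneg (ind_bound A y).1]; exact (ind_bound A y).2⟩).add_const (ε + ε)
  have := hU.2.1
  refine le_of_tendsto_of_tendsto' t1 t2 fun n => ?_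
  have hi1 := ((hU.2.2 _ (mY T)).1 _ hui).1 n
  have hi2 := ((hU.2.2 _ (mY T)).1 _ hGu).1 n
  have hme := (hM.2.2.2.2.1 (Fn n) (hts n).meas (R n) (δ n)).2.2.2.2.1
  refine integral_le_add (e := fun y => (Metric.closedBall (0 : E) r).indicator (fun _ =>
        ENNReal.ofReal (m * (K * ((1 + |r|) ^ 2 / j))) * (HH (Fn n y.1) y.2.1 * sph univ)) y.2.2 +
      eT (R n) (δ n) (Fn n y.1) y.2 / ENNReal.ofReal (Real.log K)) (by positivity)
    (hi1.mul_bdd (hmc.1 n).aestronglyMeasurable (Eventually.of_forall fun y => wi_bound _ _ _))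
    (hi2.mul_bdd hψ.aestronglyMeasurable (c := 1) (Eventually.of_forall fun y => by
      rw [Real.norm_eq_abs, abs_of_nonneg (ind_bound A y).1]; exact (ind_bound A y).2))
    (fun y => mul_nonneg (hnn n y) (mul_nonneg (w_bound _).1.le (ind_bound A y).1))
    (fun y => mul_nonneg (GG_nonneg (hts n).nonneg _ _) (ind_bound A y).1) ?_ ?_
  · obtain ⟨C, hCb⟩ := (hts n).bound T
    have hae : ∀ᵐ y ∂(mY T), y.1 ∈ Icc (0 : ℝ) T :=
      Measure.quasiMeasurePreserving_fst.ae (ae_restrict_mem measurableSet_Icc)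
    filter_upwards [hae] with y hy
    by_cases hyA : y ∈ A
    · simp only [indicator_of_mem hyA, mul_one]
      refine point hM hI ((hts n).meas.comp (measurable_const.prodMk measurable_id))
        ((hts n).nonneg y.1) (C := |C|) (fun p => ?_) _ _ (hL.apr.δpos n) hj0 hK1 hm y.2
      refine (hCb y.1 hy p).trans ((le_abs_self _).trans ?_)
      rw [abs_mul, abs_of_pos (Real.exp_pos _)]
      exact mul_le_of_le_one_right (abs_nonneg _) (Real.exp_le_one_iff.2 (by simp))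
    · simp [indicator_of_notMem hyA]
  · rw [lintegral_add_right _ (hme.div_const _), ENNReal.ofReal_add hε.le hε.le]
    refine add_le_add ?_ ?_
    · refine (err1 (hts n).meas (hts n).nonneg (hC₁ n) T r _ ENNReal.ofReal_ne_top).trans ?_
      rw [← hZ, ← ENNReal.ofReal_toReal hZt, ← ENNReal.ofReal_mul (by positivity)]
      refine ENNReal.ofReal_le_ofReal ?_
      have e : m * (K * ((1 + |r|) ^ 2 / j)) = ε / (Z.toReal + 1) := by
        rw [hj]; field_simp
      rw [e, div_mul_eq_mul_div, div_le_iff₀ (by positivity)]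
      nlinarith
    · have hlog : Real.log K = (|C₂| + 1) / ε := by rw [hK, Real.log_exp]
      have hl0 : 0 < Real.log K := Real.log_pos hK1
      simp only [div_eq_mul_inv]
      rw [lintegral_mul_const _ hme]
      have h1 : ∫⁻ y, eT (R n) (δ n) (Fn n y.1) y.2 ∂(mY T) ≤ ENNReal.ofReal |C₂| :=
        (lintegral_prod_le _).trans (((hC₂ n T hT).2).trans
          (ENNReal.ofReal_le_ofReal (le_abs_self _)))
      refine (mul_le_mul_left h1 _).trans ?_
      rw [← ENNReal.ofReal_inv_of_pos hl0, ← ENNReal.ofReal_mul (abs_nonneg _)]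
      refine ENNReal.ofReal_le_ofReal ?_
      have h2 := abs_nonneg C₂
      rw [hlog, inv_div, ← mul_div_assoc, div_le_iff₀ (by positivity)]
      nlinarith

theorem GG_le (hM : MeasStmt) {F : ℝ → Om → ℝ} (hF : Measurable fun y : ℝ × Om => F y.1 y.2)
    (h0 : ∀ t p, 0 ≤ F t p) (j : ℝ) (y : ℝ × Om) :
    ENNReal.ofReal (GG (kC j) 1 F y) ≤
      Qp (F y.1) y.2 * ENNReal.ofReal (1 / (1 + |rho (F y.1) y.2.1|)) := by
  rw [(hM.2.2.2.2.2.2 (F y.1) y.2 (hF.comp (measurable_const.prodMk measurable_id)) (h0 y.1)).1,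
    GG, one_mul, abs_of_nonneg (rho_nonneg (h0 y.1) _), div_eq_mul_one_div,
    ENNReal.ofReal_mul ENNReal.toReal_nonneg]
  refine mul_le_mul_left (ENNReal.ofReal_toReal_le.trans ?_) _
  refine lintegral_mono fun q => mul_le_mul_left (ENNReal.ofReal_le_ofReal ?_) _
  exact kC_le _ _ (abs_nonneg _)

end RenGain

open _root_.Vale.Agent.P140.RenGain in
theorem renGain (hM : MeasStmt) (hU : UIStmt) (hW : WLStmt) (hC : MCStmt) (hI : IneqStmt)
    (hO : TOpStmt) (hF : TSFlStmt) (hR : RenUIStmt) (hN : NuExpStmt) (hG : GainWStmt) :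
    RenGainStmt := by
  have _ := hO
  have _ := hF
  intro R δ Fn F₀ F hL T r m q hm hq
  by_cases hT : 0 ≤ T
  swap
  · have h0 : mY T = 0 := by
      unfold mY mT
      rw [Icc_eq_empty hT, Measure.restrict_empty, Measure.zero_prod]
    rw [h0]
    simp
  have hb : Measurable fun y : ℝ × Om => 1 / (1 + |rho (F y.1) y.2.1|) := by
    have h1 := (hM.2.2.2.2.1 F hL.meas 0 0).1.comp
      (measurable_fst.prodMk measurable_snd.fst : Measurable fun y : ℝ × Om => (y.1, y.2.1))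
    exact measurable_const.div (h1.abs.const_add 1)
  have key : (fun y : ℝ × Om => ENNReal.ofReal (q y * (1 / (1 + |rho (F y.1) y.2.1|)))) ≤ᵐ[mY T]
      fun y => Qp (F y.1) y.2 * ENNReal.ofReal (1 / (1 + |rho (F y.1) y.2.1|)) := by
    refine ae_le_of_forall_setLIntegral_le_of_sigmaFinite (hq.1.mul hb).ennreal_ofReal
      fun s hs _ => ?_
    have hA : MeasurableSet (s ∩ {y | 0 ≤ q y}) :=
      hs.inter (measurableSet_le measurable_const hq.1)
    have hψ : Measurable ((s ∩ {y | 0 ≤ q y}).indicator fun _ => (1 : ℝ)) :=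
      measurable_const.indicator hA
    refine ENNReal.le_of_forall_pos_le_add fun ε hε _ => ?_
    have hε' : 0 < (ε : ℝ) / 2 := by positivity
    obtain ⟨j, hj1, hj2⟩ := tested hM hU hW hC hI hR hN hG hL hT hm hq hA hε'
    rw [add_halves] at hj2
    have hi1 := hq.2.1.mul_bdd (hb.fun_mul hψ).aestronglyMeasurable (c := 1)
      (Eventually.of_forall fun y => wi_bound _ _ _)
    have hi2 := hj1.mul_bdd hψ.aestronglyMeasurable (c := 1) (Eventually.of_forall fun y => by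
      rw [Real.norm_eq_abs, abs_of_nonneg (ind_bound _ y).1]; exact (ind_bound _ y).2)
    have hn2 : ∀ y, 0 ≤ GG (kC j) 1 F y * (s ∩ {y | 0 ≤ q y}).indicator (fun _ => (1 : ℝ)) y :=
      fun y => mul_nonneg (GG_nonneg hL.nonneg _ _) (ind_bound _ y).1
    have hn1 : ∀ y, 0 ≤ q y * (1 / (1 + |rho (F y.1) y.2.1|) *
        (s ∩ {y | 0 ≤ q y}).indicator (fun _ => (1 : ℝ)) y) := by
      intro y
      by_cases hy : y ∈ s ∩ {y | 0 ≤ q y}
      · exact mul_nonneg hy.2 (mul_nonneg (w_bound _).1.le (ind_bound _ y).1)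
      · simp [indicator_of_notMem hy]
    have h3 := ENNReal.ofReal_le_ofReal hj2
    rw [ENNReal.ofReal_add (integral_nonneg hn2) (NNReal.coe_nonneg ε), ENNReal.ofReal_coe_nnreal,
      ofReal_integral_eq_lintegral_ofReal hi1 (Eventually.of_forall hn1),
      ofReal_integral_eq_lintegral_ofReal hi2 (Eventually.of_forall hn2)] at h3
    refine le_trans ?_ (h3.trans (add_le_add_left ?_ _))
    · rw [← lintegral_indicator hs]
      refine lintegral_mono fun y => ?_
      by_cases hy : y ∈ s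
      · rw [indicator_of_mem hy]
        by_cases hy2 : 0 ≤ q y
        · rw [indicator_of_mem (show y ∈ s ∩ {y | 0 ≤ q y} from ⟨hy, hy2⟩), mul_one]
        · rw [ENNReal.ofReal_of_nonpos
            (mul_nonpos_of_nonpos_of_nonneg (not_le.1 hy2).le (w_bound _).1.le)]
          exact bot_le
      · rw [indicator_of_notMem hy]
        exact bot_le
    · rw [← lintegral_indicator hs]
      refine lintegral_mono fun y => ?_
      by_cases hy : y ∈ s ∩ {y | 0 ≤ q y}
      · rw [indicator_of_mem hy, indicator_of_mem hy.1, mul_one]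
        exact GG_le hM hL.meas hL.nonneg j y
      · rw [indicator_of_notMem hy, mul_zero, ENNReal.ofReal_zero]
        exact bot_le
  filter_upwards [key] with y hy
  have h1 := (w_bound (rho (F y.1) y.2.1)).1
  rw [ENNReal.ofReal_mul' h1.le] at hy
  exact (ENNReal.mul_le_mul_iff_left (by simpa using h1) ENNReal.ofReal_ne_top).1 hy

end Vale.Agent.P140
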