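import Vale.Agent.P140.StmB

/-! Uniform integrability of the renormalized collision terms. -/

namespace Vale.Agent.P140

open MeasureTheory Set Filter Topology
open scoped ENNReal

noncomputable section

namespace RenUI

lemma lint_Y_le (T : ℝ) (H : ℝ × Om → ℝ≥0∞) (c : ℝ≥0∞)
    (h : ∀ t ∈ Icc (0 : ℝ) T, ∫⁻ p, H (t, p) ≤ c) :
    ∫⁻ y, H y ∂(mY T) ≤ c * ENNReal.ofReal T := by
  refine (lintegral_prod_le H).trans ?_
  refine (setLIntegral_mono' measurableSet_Icc h).trans (le_of_eq ?_)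
  rw [setLIntegral_const, Real.volume_Icc, sub_zero]

lemma ofReal_max0 (a : ℝ) : ENNReal.ofReal (max a 0) = ENNReal.ofReal a := by
  rw [ENNReal.ofReal_max, ENNReal.ofReal_zero, max_eq_left zero_le]

lemma kT_le (R a b : ℝ) (ha : 0 ≤ a) : kT R a b ≤ a := by
  unfold kT
  split_ifs
  · exact min_le_left _ _
  · exact ha

lemma rho_nonneg {f : Om → ℝ} (hf : ∀ p, 0 ≤ f p) (x : T3) : 0 ≤ rho f x :=
  integral_nonneg fun _ => hf _

lemma den_ge {f : Om → ℝ} (hf : ∀ p, 0 ≤ f p) {δ : ℝ} (hδ : 0 < δ) (x : T3) :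
    1 ≤ 1 + δ * rho f x := le_add_of_nonneg_right (mul_nonneg hδ.le (rho_nonneg hf x))

lemma nT_nonneg {f : Om → ℝ} (hf : ∀ p, 0 ≤ f p) (R : ℝ) {δ : ℝ} (hδ : 0 < δ) (p : Om) :
    0 ≤ nT R δ f p := div_nonneg ENNReal.toReal_nonneg (zero_le_one.trans (den_ge hf hδ _))

lemma gT_nonneg {f : Om → ℝ} (hf : ∀ p, 0 ≤ f p) (R : ℝ) {δ : ℝ} (hδ : 0 < δ) (p : Om) :
    0 ≤ gT R δ f p := div_nonneg ENNReal.toReal_nonneg (zero_le_one.trans (den_ge hf hδ _))

lemma nT_le {f : Om → ℝ} (hf : ∀ p, 0 ≤ f p) (R : ℝ) {δ : ℝ} (hδ : 0 < δ) (p : Om) :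
    ENNReal.ofReal (nT R δ f p) ≤ freqK (kT R) (sl f p.1) p.2 :=
  (ENNReal.ofReal_le_ofReal (div_le_self ENNReal.toReal_nonneg (den_ge hf hδ _))).trans
    ENNReal.ofReal_toReal_le

lemma measurable_cut (r : ℝ) : Measurable (cut r) :=
  Measurable.ite (isClosed_le (by fun_prop) continuous_const).measurableSet measurable_const
    measurable_const

lemma cut_mem (r : ℝ) (p : Om) : 0 ≤ cut r p ∧ cut r p ≤ 1 := by
  unfold cut
  split_ifs <;> norm_num

lemma split_le {F M K r L a w : ℝ} (hF : 0 ≤ F) (hM : 0 ≤ M) (hK : 0 ≤ K) (hr : 0 ≤ r)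
    (hL : 0 < L) (hw : 0 ≤ w) (ha : a ≤ r + w) :
    a * F ≤ (r + L) * max (F - K * M) 0 + K * (r + L) * M + (r + 1) / L * (F * (1 + w) ^ 2) := by
  have h0 : a * F ≤ (r + w) * F := mul_le_mul_of_nonneg_right ha hF
  have h1 : 0 ≤ (r + L) * max (F - K * M) 0 := by positivity
  have h2 : 0 ≤ K * (r + L) * M := by positivity
  have h3 : 0 ≤ (r + 1) / L * (F * (1 + w) ^ 2) := by positivity
  rcases le_total w L with c | c
  · have h4 : (r + w) * F ≤ (r + L) * F := by gcongr
    have h5 : (r + L) * (F - K * M) ≤ (r + L) * max (F - K * M) 0 := by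
      gcongr
      exact le_max_left _ _
    linarith
  · have h4 : (r + w) * L ≤ (r + 1) * (1 + w) ^ 2 := by
      have a1 : r + w ≤ (r + 1) * (1 + w) := by nlinarith
      have a2 : L ≤ 1 + w := by linarith
      calc (r + w) * L ≤ (r + 1) * (1 + w) * (1 + w) := by gcongr
        _ = _ := by ring
    have h5 : (r + w) * F ≤ (r + 1) / L * (F * (1 + w) ^ 2) := by
      rw [div_mul_eq_mul_div, le_div_iff₀ hL]
      nlinarith [mul_le_mul_of_nonneg_right h4 hF]
    linarith

lemma freq_le (hI : IneqStmt) {f : Om → ℝ} (hm : Measurable f) (hf : ∀ p, 0 ≤ f p)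
    {R K r L : ℝ} (hK : 0 ≤ K) (hr : 0 ≤ r) (hL : 0 < L) (x : T3) {v : E} (hv : ‖v‖ ≤ r) :
    freqK (kT R) (sl f x) v ≤
      (ENNReal.ofReal (r + L) * (∫⁻ w, ENNReal.ofReal (f (x, w) - K * Mx w)) +
        ENNReal.ofReal ((r + 1) / L) * ∫⁻ w, ENNReal.ofReal (f (x, w) * (1 + ‖w‖) ^ 2)) * sph univ
      + ENNReal.ofReal (K * (r + L) * sph.real univ) := by
  obtain ⟨-, -, -, -, -, -, iM, eM, -⟩ := hI
  have hfx : Measurable fun w : E => f (x, w) := hm.comp measurable_prodMk_left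
  have hMx := continuous_Mx.measurable
  have e1 : ∫⁻ w, ENNReal.ofReal (Mx w) = 1 := by
    rw [← ofReal_integral_eq_lintegral_ofReal iM (ae_of_all _ fun w => (Mx_pos w).le), eM,
      ENNReal.ofReal_one]
  have h1 : freqK (kT R) (sl f x) v ≤ ∫⁻ w, ∫⁻ _ω, (ENNReal.ofReal (r + L) *
      ENNReal.ofReal (f (x, w) - K * Mx w) + ENNReal.ofReal (K * (r + L)) * ENNReal.ofReal (Mx w)
      + ENNReal.ofReal ((r + 1) / L) * ENNReal.ofReal (f (x, w) * (1 + ‖w‖) ^ 2)) ∂sph := by
    refine (lintegral_prod_le _).trans (lintegral_mono fun w => lintegral_mono fun ω => ?_)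
    have a1 : kT R |cf v w ω| ‖v - w‖ ≤ r + ‖w‖ :=
      (kT_le _ _ _ (abs_nonneg _)).trans ((abs_cf_le v w ω).trans
        ((norm_sub_le v w).trans (by linarith)))
    have a2 := split_le (hf (x, w)) (Mx_pos w).le hK hr hL (norm_nonneg w) a1
    have p1 := hf (x, w)
    have p2 := Mx_pos w
    simp only [sl]
    rw [← ENNReal.ofReal_mul' p1, ← ofReal_max0 (f (x, w) - K * Mx w),
      ← ENNReal.ofReal_mul (by positivity), ← ENNReal.ofReal_mul (by positivity),
      ← ENNReal.ofReal_mul (by positivity), ← ENNReal.ofReal_add (by positivity) (by positivity),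
      ← ENNReal.ofReal_add (by positivity) (by positivity)]
    exact ENNReal.ofReal_le_ofReal a2
  refine h1.trans (le_of_eq ?_)
  simp only [lintegral_const]
  rw [lintegral_mul_const' _ _ (measure_ne_top _ _), lintegral_add_left (by fun_prop),
    lintegral_add_left (by fun_prop), lintegral_const_mul' _ _ ENNReal.ofReal_ne_top,
    lintegral_const_mul' _ _ ENNReal.ofReal_ne_top, lintegral_const_mul' _ _ ENNReal.ofReal_ne_top,
    e1, mul_one, ENNReal.ofReal_mul (p := K * (r + L)) (by positivity), ofReal_measureReal]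
  ring

lemma slice_le (hI : IneqStmt) {f : Om → ℝ} (hm : Measurable f) (hf : ∀ p, 0 ≤ f p)
    {R δ K r L e C : ℝ} (hδ : 0 < δ) (hK : 0 ≤ K) (hL : 0 < L)
    (h1 : ∫⁻ p : Om, ENNReal.ofReal (f p - K * Mx p.2) ≤ ENNReal.ofReal e)
    (h2 : ∫⁻ p : Om, ENNReal.ofReal (f p * (1 + ‖p.2‖) ^ 2) ≤ ENNReal.ofReal C) :
    ∫⁻ p, ENNReal.ofReal (|cut r p * nT R δ f p| - cut r p * (K * (|r| + L) * sph.real univ))
      ≤ (ENNReal.ofReal (|r| + L) * ENNReal.ofReal e + ENNReal.ofReal ((|r| + 1) / L) *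
        ENNReal.ofReal C) * sph univ * volume (Metric.closedBall (0 : E) r) := by
  have hMx := continuous_Mx.measurable
  have m1 : Measurable fun p : Om => ENNReal.ofReal (f p - K * Mx p.2) := by fun_prop
  have m2 : Measurable fun p : Om => ENNReal.ofReal (f p * (1 + ‖p.2‖) ^ 2) := by fun_prop
  have h3 : ∀ x : T3, ∫⁻ v, ENNReal.ofReal (|cut r (x, v) * nT R δ f (x, v)|
      - cut r (x, v) * (K * (|r| + L) * sph.real univ)) ≤
      (ENNReal.ofReal (|r| + L) * (∫⁻ w, ENNReal.ofReal (f (x, w) - K * Mx w)) +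
        ENNReal.ofReal ((|r| + 1) / L) * ∫⁻ w, ENNReal.ofReal (f (x, w) * (1 + ‖w‖) ^ 2)) * sph univ
        * volume (Metric.closedBall (0 : E) r) := by
    intro x
    rw [← setLIntegral_const, ← lintegral_indicator measurableSet_closedBall]
    refine lintegral_mono fun v => ?_
    by_cases hv : ‖v‖ ≤ r
    · rw [indicator_of_mem (mem_closedBall_zero_iff.2 hv), cut, if_pos hv, one_mul, one_mul,
        abs_of_nonneg (nT_nonneg hf R hδ _), ENNReal.ofReal_sub _ (by positivity),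
        tsub_le_iff_right]
      exact (nT_le hf R hδ _).trans
        (freq_le hI hm hf hK (abs_nonneg r) hL x (hv.trans (le_abs_self r)))
    · rw [cut, if_neg hv]
      simp
  refine (lintegral_prod_le _).trans ((lintegral_mono h3).trans ?_)
  rw [lintegral_mul_const' _ _ measure_closedBall_lt_top.ne,
    lintegral_mul_const' _ _ (measure_ne_top _ _),
    lintegral_add_left (m1.lintegral_prod_right'.const_mul _),
    lintegral_const_mul' _ _ ENNReal.ofReal_ne_top, lintegral_const_mul' _ _ ENNReal.ofReal_ne_top,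
    ← lintegral_prod _ m1.aemeasurable, ← lintegral_prod _ m2.aemeasurable]
  gcongr
  · exact h1
  · exact h2

lemma integrable_cut (T r c : ℝ) : Integrable (fun y : ℝ × Om => cut r y.2 * c) (mY T) := by
  have h1 : Integrable (cut r) (volume : Measure Om) := by
    have e : cut r = (univ ×ˢ Metric.closedBall (0 : E) r).indicator fun _ => (1 : ℝ) := by
      funext p
      simp [cut, indicator]
    rw [e, integrable_indicator_iff (MeasurableSet.univ.prod measurableSet_closedBall)]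
    refine integrableOn_const ?_
    rw [Measure.volume_eq_prod, Measure.prod_prod]
    exact ENNReal.mul_ne_top (measure_ne_top _ _) measure_closedBall_lt_top.ne
  exact (h1.comp_snd (mT T)).mul_const c

lemma first (hM : MeasStmt) (hI : IneqStmt) {R δ : ℕ → ℝ} {Fn : ℕ → ℝ → Om → ℝ} {F₀ : Om → ℝ}
    (h : Apr R δ Fn F₀) (T r : ℝ) :
    UI (mY T) (fun n y => cut r y.2 * nT (R n) (δ n) (Fn n y.1) y.2) := by
  refine ⟨fun n => ((measurable_cut r).comp measurable_snd).mul
    (hM.2.2.2.2.1 _ (h.ts n).meas _ _).2.2.1, fun ε hε => ?_⟩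
  obtain ⟨C, hC⟩ := h.mom
  obtain ⟨A, hA⟩ : ∃ A : ℝ,
    A = sph.real univ * volume.real (Metric.closedBall (0 : E) r) * |T| + 1 := ⟨_, rfl⟩
  have hA0 : 0 < A := by
    rw [hA]
    positivity
  obtain ⟨L, hL⟩ : ∃ L : ℝ, L = 2 * (|r| + 1) * (|C| + 1) * A / ε := ⟨_, rfl⟩
  have hL0 : 0 < L := by
    rw [hL]
    positivity
  obtain ⟨K, hK, hK'⟩ := h.tail (ε / (2 * (|r| + L) * A)) (by positivity)
  refine ⟨fun y => cut r y.2 * (K * (|r| + L) * sph.real univ),
    ((measurable_cut r).comp measurable_snd).mul_const _,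
    fun y => mul_nonneg (cut_mem r _).1 (by positivity), integrable_cut T r _, fun n => ?_⟩
  refine (lint_Y_le T _ _ fun t ht => slice_le hI (f := Fn n t)
    ((h.ts n).meas.comp measurable_prodMk_left)
    ((h.ts n).nonneg t) (C := |C| + 1) (h.δpos n) hK.le hL0 (hK' n t ht.1) ?_).trans ?_
  · rw [← ofReal_integral_eq_lintegral_ofReal (hC n t ht.1).1
      (ae_of_all _ fun p => mul_nonneg ((h.ts n).nonneg t p) (by positivity))]
    exact ENNReal.ofReal_le_ofReal ((hC n t ht.1).2.trans (by linarith [le_abs_self C]))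
  · rw [← ofReal_measureReal (μ := sph),
      ← ofReal_measureReal (μ := volume) measure_closedBall_lt_top.ne,
      ← ENNReal.ofReal_mul (by positivity), ← ENNReal.ofReal_mul (by positivity),
      ← ENNReal.ofReal_add (by positivity) (by positivity), ← ENNReal.ofReal_mul (by positivity),
      ← ENNReal.ofReal_mul (by positivity), ← ENNReal.ofReal_mul (by positivity)]
    refine ENNReal.ofReal_le_ofReal ?_
    have e1 : (|r| + L) * (ε / (2 * (|r| + L) * A)) = ε / (2 * A) := by field_simp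
    have e2 : (|r| + 1) / L * (|C| + 1) = ε / (2 * A) := by
      rw [hL]
      field_simp
    have e3 : sph.real univ * volume.real (Metric.closedBall (0 : E) r) * T ≤ A := by
      have : sph.real univ * volume.real (Metric.closedBall (0 : E) r) * T
          ≤ sph.real univ * volume.real (Metric.closedBall (0 : E) r) * |T| := by
        gcongr
        exact le_abs_self T
      linarith
    rw [e1, e2]
    calc (ε / (2 * A) + ε / (2 * A)) * sph.real univ * volume.real (Metric.closedBall (0 : E) r) * T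
        = ε / A * (sph.real univ * volume.real (Metric.closedBall (0 : E) r) * T) := by
          field_simp
          ring
      _ ≤ ε / A * A := by gcongr
      _ = ε := by field_simp

lemma gain_le (hM : MeasStmt) (hI : IneqStmt) {f : Om → ℝ} (hm : Measurable f)
    (hf : ∀ p, 0 ≤ f p) {R δ K : ℝ} (hδ : 0 < δ) (hK : 1 < K) (p : Om)
    (hfin : freqK (kT R) (sl f p.1) p.2 ≠ ⊤) :
    ENNReal.ofReal (gT R δ f p) ≤ ENNReal.ofReal (K * (nT R δ f p * f p))
      + eT R δ f p / ENNReal.ofReal (Real.log K) := by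
  have hd := den_ge hf hδ p.1
  have hd0 : 0 < 1 + δ * rho f p.1 := zero_lt_one.trans_le hd
  have hk : Measurable fun q : E × S2 => ENNReal.ofReal (kT R |cf p.2 q.1 q.2| ‖p.2 - q.1‖) := by
    have c1 : Continuous fun q : E × S2 => (|cf p.2 q.1 q.2|, ‖p.2 - q.1‖) :=
      (continuous_cf.comp (continuous_const.prodMk continuous_id)).abs.prodMk (by fun_prop)
    exact ((hM.2.1 R).comp c1.measurable).ennreal_ofReal
  have hs : Measurable fun q : E × S2 => sl f p.1 q.1 :=
    (hm.comp (measurable_const.prodMk measurable_fst)).ennreal_ofReal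
  have h1 : gainK (kT R) (sl f p.1) (sl f p.1) p.2 ≤
      ENNReal.ofReal (K * f p) * freqK (kT R) (sl f p.1) p.2 +
      (∫⁻ q : E × S2, ENNReal.ofReal (kT R |cf p.2 q.1 q.2| ‖p.2 - q.1‖) *
        jj (f (p.1, vp p.2 q.1 q.2) * f (p.1, wp p.2 q.1 q.2)) (f (p.1, p.2) * f (p.1, q.1))
          ∂(volume.prod sph)) / ENNReal.ofReal (Real.log K) := by
    have hl : (ENNReal.ofReal (Real.log K))⁻¹ ≠ ⊤ :=
      ENNReal.inv_ne_top.2 (ENNReal.ofReal_pos.2 (Real.log_pos hK)).ne'
    rw [freqK, ← lintegral_const_mul' _ _ ENNReal.ofReal_ne_top, div_eq_mul_inv,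
      ← lintegral_mul_const' _ _ hl, ← lintegral_add_left ((hk.fun_mul hs).const_mul _)]
    refine lintegral_mono fun q => ?_
    have a := hI.1 _ _ K (mul_nonneg (hf (p.1, vp p.2 q.1 q.2)) (hf (p.1, wp p.2 q.1 q.2)))
      (mul_nonneg (hf (p.1, p.2)) (hf (p.1, q.1))) hK
    simp only [sl]
    rw [← ENNReal.ofReal_mul (hf _)]
    refine (mul_le_mul_right a _).trans (le_of_eq ?_)
    rw [← mul_assoc K, ENNReal.ofReal_mul' (hf (p.1, q.1)), div_eq_mul_inv]
    ring
  have h2 : ENNReal.ofReal (gT R δ f p) ≤ gainK (kT R) (sl f p.1) (sl f p.1) p.2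
      / ENNReal.ofReal (1 + δ * rho f p.1) := by
    rw [gT, ENNReal.ofReal_div_of_pos hd0]
    gcongr
    exact ENNReal.ofReal_toReal_le
  refine h2.trans ((ENNReal.div_le_div_right h1 _).trans (le_of_eq ?_))
  rw [mul_comm (nT _ _ _ _), ← mul_assoc K, ENNReal.ofReal_mul' (nT_nonneg hf R hδ p), nT,
    ENNReal.ofReal_div_of_pos hd0, ENNReal.ofReal_toReal hfin, eT]
  simp only [div_eq_mul_inv]
  ring

end RenUI

open RenUI in
theorem renUI (hM : MeasStmt) (hU : UIStmt) (hI : IneqStmt) (hO : TOpStmt) (hF : TSFlStmt) :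
    RenUIStmt := by
  intro R δ Fn F₀ h T r m hm
  obtain ⟨-, -, -, hdom, -, hsm, happ, -⟩ := hU.2.2 (ℝ × Om) (mY T)
  have mc : Measurable fun y : ℝ × Om => cut r y.2 := (measurable_cut r).comp measurable_snd
  have mF := fun n => (h.ts n).meas
  have mg := fun n => (hM.2.2.2.2.1 _ (mF n) (R n) (δ n)).2.1
  have mn := fun n => (hM.2.2.2.2.1 _ (mF n) (R n) (δ n)).2.2.1
  have md : ∀ n, Measurable fun y : ℝ × Om => 1 + Fn n y.1 y.2 / m := fun n =>
    measurable_const.add ((mF n).div_const m)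
  have h0 := fun n => (h.ts n).nonneg
  have u1 := first hM hI h T r
  have u2 : UI (mY T) (fun n y => cut r y.2 *
      (nT (R n) (δ n) (Fn n y.1) y.2 * Fn n y.1 y.2 / (1 + Fn n y.1 y.2 / m))) := by
    refine hdom _ _ (hsm _ m u1) (fun n => mc.mul (((mn n).mul (mF n)).div (md n)))
      fun n => ae_of_all _ fun y => ?_
    have a1 := (cut_mem r y.2).1
    have a2 := nT_nonneg (h0 n y.1) (R n) (h.δpos n) y.2
    have a3 := h0 n y.1 y.2
    have a4 : Fn n y.1 y.2 / (1 + Fn n y.1 y.2 / m) ≤ m := by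
      rw [div_le_iff₀ (by positivity), mul_add, mul_div_cancel₀ _ hm.ne']
      linarith
    rw [abs_of_nonneg (by positivity), abs_of_nonneg (by positivity), mul_div_assoc, ← mul_assoc,
      mul_comm m]
    gcongr
  refine ⟨u1, u2, happ _ (fun n => mc.mul ((mg n).div (md n))) fun ε hε => ?_⟩
  obtain ⟨C, hC⟩ := h.entB
  obtain ⟨K, hK, hK'⟩ : ∃ K : ℝ, 1 < K ∧ Real.log K = (|C| + 1) / ε :=
    ⟨Real.exp ((|C| + 1) / ε), Real.one_lt_exp_iff.2 (by positivity), Real.log_exp _⟩
  refine ⟨_, hsm _ K u2, fun n => ?_⟩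
  obtain ⟨B, hB⟩ := (hF _ _ _ _ (h.Rpos n) (h.δpos n) (h.ts n)).2.1 T
  obtain ⟨L, -, hL, -⟩ := hO _ _ (h.Rpos n) (h.δpos n)
  have hl : (ENNReal.ofReal (Real.log K))⁻¹ ≠ ⊤ :=
    ENNReal.inv_ne_top.2 (ENNReal.ofReal_pos.2 (Real.log_pos hK)).ne'
  refine (lintegral_prod_le _).trans ?_
  have s1 : ∀ t ∈ Icc (0 : ℝ) T, ∫⁻ p, ENNReal.ofReal
      (|cut r p * (gT (R n) (δ n) (Fn n t) p / (1 + Fn n t p / m))| - |K * (cut r p *
        (nT (R n) (δ n) (Fn n t) p * Fn n t p / (1 + Fn n t p / m)))|)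
      ≤ (∫⁻ p, eT (R n) (δ n) (Fn n t) p) * (ENNReal.ofReal (Real.log K))⁻¹ := by
    intro t ht
    rw [← lintegral_mul_const' _ _ hl]
    refine lintegral_mono fun p => ?_
    have g := gain_le hM hI (hB t ht).1 (h0 n t) (h.δpos n) hK p (hL B _ (hB t ht) p).2.1
    have a1 := cut_mem r p
    have a1' := a1.1
    have a2 := nT_nonneg (h0 n t) (R n) (h.δpos n) p
    have a2' := gT_nonneg (h0 n t) (R n) (h.δpos n) p
    have a3 := h0 n t p
    have a4 : 0 < K := by linarith
    have a5 : 1 ≤ 1 + Fn n t p / m := le_add_of_nonneg_right (by positivity)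
    rw [← tsub_le_iff_left, ← ENNReal.ofReal_sub _ (by positivity), div_eq_mul_inv] at g
    refine le_trans ?_ g
    rw [abs_of_nonneg (by positivity), abs_of_nonneg (by positivity),
      ← ofReal_max0 (gT _ _ _ _ - _)]
    refine ENNReal.ofReal_le_ofReal ?_
    have a6 : cut r p / (1 + Fn n t p / m) ≤ 1 := (div_le_one (by positivity)).2 (a1.2.trans a5)
    calc _ = cut r p / (1 + Fn n t p / m) * (gT (R n) (δ n) (Fn n t) p
          - K * (nT (R n) (δ n) (Fn n t) p * Fn n t p)) := by ring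
      _ ≤ cut r p / (1 + Fn n t p / m) * max (gT (R n) (δ n) (Fn n t) p
          - K * (nT (R n) (δ n) (Fn n t) p * Fn n t p)) 0 := by
          gcongr
          exact le_max_left _ _
      _ ≤ _ := mul_le_of_le_one_left (le_max_right _ _) a6
  refine (setLIntegral_mono' measurableSet_Icc s1).trans ?_
  rw [lintegral_mul_const' _ _ hl]
  have s2 : ∫⁻ t in Icc (0 : ℝ) T, ∫⁻ p, eT (R n) (δ n) (Fn n t) p ≤ ENNReal.ofReal (|C| + 1) :=
    (lintegral_mono_set (Icc_subset_Icc_right (le_max_left T 0))).trans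
      ((hC n _ (le_max_right T 0)).2.trans
        (ENNReal.ofReal_le_ofReal (by linarith [le_abs_self C])))
  refine (mul_le_mul_left s2 _).trans (le_of_eq ?_)
  rw [← ENNReal.ofReal_inv_of_pos (Real.log_pos hK), ← ENNReal.ofReal_mul (by positivity), hK']
  congr 1
  field_simp

end

end Vale.Agent.P140
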