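import Vale.Agent.P140.StmB

/-!
The limit solves the renormalized equation.
-/

namespace Vale.Agent.P140

open MeasureTheory Set Filter Topology
open scoped ENNReal

noncomputable section

namespace Renorm

lemma mY_eq (T : ℝ) : mY T = tm.restrict (Iic T ×ˢ univ) := by
  unfold mY tm mT
  rw [← Measure.restrict_prod_eq_prod_univ, Measure.restrict_restrict measurableSet_Iic,
    inter_comm, Ici_inter_Iic]

lemma tm_mY {T : ℝ} {f : ℝ × Om → ℝ} (hf : ∀ y : ℝ × Om, T < y.1 → f y = 0) :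
    (Integrable f (mY T) → Integrable f tm) ∧ ∫ y, f y ∂tm = ∫ y, f y ∂(mY T) := by
  have hz : ∀ y : ℝ × Om, y ∉ Iic T ×ˢ (univ : Set Om) → f y = 0 := fun y hy =>
    hf y (lt_of_not_ge fun h => hy ⟨h, mem_univ _⟩)
  rw [mY_eq]
  refine ⟨fun h => ?_, (setIntegral_eq_integral_of_forall_compl_eq_zero hz).symm⟩
  exact (integrableOn_iff_integrable_of_support_subset fun y hy => by
    by_contra h'; exact hy (hz y h')).1 h

lemma ae_mY (T : ℝ) : ∀ᵐ y ∂(mY T), y.1 ∈ Icc (0 : ℝ) T := by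
  unfold mY
  refine Measure.quasiMeasurePreserving_fst.ae (p := fun t => t ∈ Icc (0 : ℝ) T) ?_
  exact ae_restrict_mem measurableSet_Icc

lemma meas_comp {α : Type} [MeasurableSpace α] {β : ℝ → ℝ} (hβ : ContinuousOn β (Ici 0))
    {G : α → ℝ} (hG : Measurable G) (h0 : ∀ a, 0 ≤ G a) : Measurable fun a => β (G a) := by
  have h1 : Continuous fun z : ℝ => β (max z 0) :=
    hβ.comp_continuous (by fun_prop) fun z => mem_Ici.2 (le_max_right _ _)
  have h2 : (fun a => β (G a)) = fun a => β (max (G a) 0) := by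
    funext a; rw [max_eq_left (h0 a)]
  rw [h2]
  exact h1.measurable.comp hG

lemma beta_le {β β' : ℝ → ℝ} {C : ℝ} (h0 : β 0 = 0)
    (hβ : ∀ z, 0 ≤ z → HasDerivWithinAt β (β' z) (Ici 0) z)
    (hC : ∀ z, 0 ≤ z → |β' z| ≤ C / (1 + z)) {z : ℝ} (hz : 0 ≤ z) : |β z| ≤ C * z := by
  have hC0 : 0 ≤ C := by simpa using (abs_nonneg _).trans (hC 0 le_rfl)
  have h := (convex_Ici (0 : ℝ)).norm_image_sub_le_of_norm_hasDerivWithin_le (f := β) (f' := β')
    (C := C) (fun x hx => hβ x hx) (fun x hx => (hC x hx).trans (div_le_self hC0 (by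
      have : (0 : ℝ) ≤ x := hx
      linarith))) (self_mem_Ici (a := (0 : ℝ))) hz
  simpa [h0, abs_of_nonneg hz] using h

lemma flight (hC : ChainStmt) {β β' : ℝ → ℝ}
    (hβ : ∀ z, 0 ≤ z → HasDerivWithinAt β (β' z) (Ici 0) z) (hβ' : ContinuousOn β' (Ici 0))
    {M T : ℝ} (hM : 0 < M) (hT : 0 ≤ T) {y q u u' : ℝ → ℝ} (hy : ∀ t ∈ Icc (0 : ℝ) T, 0 ≤ y t)
    (hq : IntervalIntegrable q volume 0 T)
    (hyq : ∀ t ∈ Icc (0 : ℝ) T, y t = y 0 + ∫ s in (0 : ℝ)..t, q s)
    (hu : ∀ t, HasDerivAt u (u' t) t) (hu' : Continuous u') :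
    M * β (y T / M) * u T = M * β (y 0 / M) * u 0 +
      ∫ s in (0 : ℝ)..T, (M * β (y s / M) * u' s + β' (y s / M) * q s * u s) := by
  have hβc : ContinuousOn β (Ici 0) := fun z hz => (hβ z hz).continuousWithinAt
  have hg : IntervalIntegrable (fun s => (q s, u' s)) volume 0 T :=
    ⟨hq.1.prodMk (hu'.intervalIntegrable 0 T).1, hq.2.prodMk (hu'.intervalIntegrable 0 T).2⟩
  have hmap : MapsTo (fun z : ℝ × ℝ => z.1 / M) (Ici (0 : ℝ) ×ˢ (univ : Set ℝ)) (Ici 0) :=
    fun z hz => div_nonneg hz.1 hM.le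
  have key := hC (ℝ × ℝ) 0 T (fun t => (y t, u t)) (fun s => (q s, u' s)) (Ici 0 ×ˢ univ)
    (fun z => M * β (z.1 / M) * z.2)
    (fun z => (M * β (z.1 / M)) • ContinuousLinearMap.snd ℝ ℝ ℝ
      + (β' (z.1 / M) * z.2) • ContinuousLinearMap.fst ℝ ℝ ℝ) hT hg ?_
    ((convex_Ici 0).prod convex_univ) (fun t ht => ⟨hy t ht, mem_univ _⟩) ?_ ?_
  · rw [key.2]
    congr 1
    refine intervalIntegral.integral_congr fun s _ => ?_
    simp only [add_apply, smul_apply,
      ContinuousLinearMap.coe_snd', ContinuousLinearMap.coe_fst', smul_eq_mul]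
    ring
  · intro t ht
    have hgt : IntervalIntegrable (fun s => (q s, u' s)) volume 0 t :=
      hg.mono_set (by rw [uIcc_of_le ht.1, uIcc_of_le hT]; exact Icc_subset_Icc_right ht.2)
    refine Prod.ext ?_ ?_
    · have := (ContinuousLinearMap.fst ℝ ℝ ℝ).intervalIntegral_comp_comm hgt
      simp only [ContinuousLinearMap.coe_fst'] at this
      simp only [Prod.fst_add]
      rw [← this]
      exact hyq t ht
    · have := (ContinuousLinearMap.snd ℝ ℝ ℝ).intervalIntegral_comp_comm hgt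
      simp only [ContinuousLinearMap.coe_snd'] at this
      simp only [Prod.snd_add]
      rw [← this, intervalIntegral.integral_eq_sub_of_hasDerivAt (fun s _ => hu s)
        (hu'.intervalIntegrable 0 t)]
      ring
  · intro z hz
    have h1 : HasFDerivWithinAt (fun z : ℝ × ℝ => z.1 / M)
        (M⁻¹ • ContinuousLinearMap.fst ℝ ℝ ℝ) (Ici (0 : ℝ) ×ˢ (univ : Set ℝ)) z := by
      have := ((ContinuousLinearMap.fst ℝ ℝ ℝ).hasFDerivWithinAt
        (s := Ici (0 : ℝ) ×ˢ (univ : Set ℝ)) (x := z)).const_smul M⁻¹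
      refine this.congr (fun w _ => ?_) ?_ <;> simp [div_eq_inv_mul]
    have h2 := (hβ (z.1 / M) (hmap hz)).comp_hasFDerivWithinAt z h1 hmap
    have h3 := (h2.const_mul M).mul ((ContinuousLinearMap.snd ℝ ℝ ℝ).hasFDerivWithinAt
      (s := Ici (0 : ℝ) ×ˢ (univ : Set ℝ)) (x := z))
    refine h3.congr_fderiv (ContinuousLinearMap.ext fun w => ?_)
    simp only [add_apply, smul_apply,
      ContinuousLinearMap.coe_snd', ContinuousLinearMap.coe_fst', smul_eq_mul,
      Function.comp_apply]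
    field_simp
  · have h1 : ContinuousOn (fun z : ℝ × ℝ => β (z.1 / M)) (Ici (0 : ℝ) ×ˢ (univ : Set ℝ)) :=
      hβc.comp (by fun_prop) hmap
    have h2 : ContinuousOn (fun z : ℝ × ℝ => β' (z.1 / M)) (Ici (0 : ℝ) ×ˢ (univ : Set ℝ)) :=
      hβ'.comp (by fun_prop) hmap
    exact ((continuousOn_const.mul h1).smul continuousOn_const).add
      ((h2.mul continuousOn_snd).smul continuousOn_const)

lemma int_Q {T : ℝ} {Q : ℝ × Om → ℝ≥0∞} {G : ℝ × Om → ℝ} (hQ : Measurable Q)
    (hG : Measurable G) (h0 : ∀ y, 0 ≤ G y)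
    (h : ∫⁻ t in Icc (0 : ℝ) T, ∫⁻ p, Q (t, p) / ENNReal.ofReal (1 + G (t, p)) < ⊤) :
    Integrable (fun y => (Q y).toReal / (1 + G y)) (mY T) := by
  have hm : Measurable fun y => Q y / ENNReal.ofReal (1 + G y) :=
    hQ.div (ENNReal.measurable_ofReal.comp (measurable_const.add hG))
  have h1 : ∫⁻ y, Q y / ENNReal.ofReal (1 + G y) ∂(mY T) ≠ ⊤ := by
    unfold mY
    rw [lintegral_prod _ hm.aemeasurable]
    exact h.ne
  have h2 := integrable_toReal_of_lintegral_ne_top hm.aemeasurable h1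
  refine h2.congr (Eventually.of_forall fun y => ?_)
  have := h0 y
  simp only [ENNReal.toReal_div]
  rw [ENNReal.toReal_ofReal (by linarith)]

end Renorm

open Renorm in
theorem renormL (hM : MeasStmt) (hT : TorusStmt) (hTe : TestStmt) (hC : ChainStmt)
    (hI : IntStmt) (hF : FlightStmt) : RenormStmt := by
  intro R δ Fn F₀ F hL β β' hβ0 hβ hβ' ⟨C, hβC⟩ φ hφ
  obtain ⟨hφc, htc, hder, r, D, hr, hsupp, hbd⟩ := hTe.1 φ hφ
  obtain ⟨-, -, -, -, -, hQp, hQm, -⟩ := hM.2.2.2.2.1 F hL.meas 0 0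
  obtain ⟨-, hIp, hIm⟩ := hI R δ Fn F₀ F hL
  have hC0 : 0 ≤ C := by simpa using (abs_nonneg _).trans (hβC 0 le_rfl)
  have hβc : ContinuousOn β (Ici 0) := fun z hz => (hβ z hz).continuousWithinAt
  set T := r + 1 with hTdef
  have hT0 : 0 ≤ T := by linarith
  have hMx : Measurable fun y : ℝ × Om => Mx y.2.2 :=
    continuous_Mx.measurable.comp (measurable_snd.comp measurable_snd)
  have hG : Measurable fun y : ℝ × Om => F y.1 y.2 / Mx y.2.2 := hL.meas.div hMx
  have hG0 : ∀ y : ℝ × Om, 0 ≤ F y.1 y.2 / Mx y.2.2 := fun y =>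
    div_nonneg (hL.nonneg _ _) (Mx_pos _).le
  have hmeas : Measurable (renInt F β β' φ) := by
    unfold renInt
    exact ((hMx.mul (meas_comp hβc hG hG0)).mul htc.measurable).add
      (((meas_comp hβ' hG hG0).mul (hQp.ennreal_toReal.sub hQm.ennreal_toReal)).mul
        hφc.measurable)
  have hzero : ∀ y : ℝ × Om, T < y.1 → renInt F β β' φ y = 0 := fun y hy => by
    have := hsupp y.1 y.2 (Or.inl (by linarith))
    simp [renInt, this.1, this.2]
  have hint : Integrable (renInt F β β' φ) (mY T) := by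
    have h1 := (hL.wlY T).2.1
    have h2 := int_Q hQp hG hG0 (hIp T)
    have h3 := int_Q hQm hG hG0 (hIm T)
    refine Integrable.mono' (((h1.add h2).add h3).const_mul (C * D)) hmeas.aestronglyMeasurable ?_
    filter_upwards [ae_mY T] with y hy
    obtain ⟨b1, b2⟩ := hbd y.1 y.2 hy.1
    have hD : 0 ≤ D := (abs_nonneg _).trans b1
    have hm := Mx_pos y.2.2
    have g0 := hG0 y
    have e1 : |Mx y.2.2 * β (F y.1 y.2 / Mx y.2.2) * trans φ y.1 y.2| ≤ C * D * F y.1 y.2 := by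
      rw [abs_mul, abs_mul, abs_of_pos hm]
      calc _ ≤ Mx y.2.2 * (C * (F y.1 y.2 / Mx y.2.2)) * D :=
            mul_le_mul (mul_le_mul_of_nonneg_left (beta_le hβ0 hβ hβC g0) hm.le) b2
              (abs_nonneg _) (by positivity)
        _ = _ := by field_simp
    have e2 : |β' (F y.1 y.2 / Mx y.2.2) *
        ((Qp (F y.1) y.2).toReal - (Qm (F y.1) y.2).toReal) * φ y.1 y.2|
        ≤ C * D * ((Qp (F y.1) y.2).toReal / (1 + F y.1 y.2 / Mx y.2.2)
          + (Qm (F y.1) y.2).toReal / (1 + F y.1 y.2 / Mx y.2.2)) := by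
      have p1 : 0 ≤ (Qp (F y.1) y.2).toReal := ENNReal.toReal_nonneg
      have p2 : 0 ≤ (Qm (F y.1) y.2).toReal := ENNReal.toReal_nonneg
      rw [abs_mul, abs_mul]
      calc _ ≤ C / (1 + F y.1 y.2 / Mx y.2.2) *
            ((Qp (F y.1) y.2).toReal + (Qm (F y.1) y.2).toReal) * D :=
            mul_le_mul (mul_le_mul (hβC _ g0) (abs_le.2 ⟨by linarith, by linarith⟩)
              (abs_nonneg _) (by positivity)) b1 (abs_nonneg _) (by positivity)
        _ = _ := by ring
    refine (abs_add_le _ _).trans ?_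
    simp only [Pi.add_apply]
    linarith
  obtain ⟨t1, t2⟩ := tm_mY hzero
  refine ⟨t1 hint, ?_⟩
  have hmp : MeasurePreserving (fun y : ℝ × Om => (y.1, fl y.1 y.2)) (mY T) (mY T) := by
    have := hT.2.2.2.2.2.2.2.1 (mT T) 1 0
    simp only [one_mul, add_zero] at this
    exact this
  have hint' : Integrable (fun y : ℝ × Om => renInt F β β' φ (y.1, fl y.1 y.2)) (mY T) :=
    (hmp.integrable_comp hmeas.aestronglyMeasurable).2 hint
  have h1 : ∫ y, renInt F β β' φ y ∂(mY T)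
      = ∫ y : ℝ × Om, renInt F β β' φ (y.1, fl y.1 y.2) ∂(mY T) := by
    conv_lhs => rw [← hmp.map_eq]
    rw [integral_map hmp.measurable.aemeasurable hmeas.aestronglyMeasurable]
  have h2 : ∫ y : ℝ × Om, renInt F β β' φ (y.1, fl y.1 y.2) ∂(mY T)
      = ∫ p : Om, ∫ t, renInt F β β' φ (t, fl t p) ∂(mT T) := integral_prod_symm _ hint'
  have h3 : ∀ᵐ p : Om, ∫ t, renInt F β β' φ (t, fl t p) ∂(mT T)
      = -(Mx p.2 * β (F₀ p / Mx p.2) * φ 0 p) := by
    filter_upwards [hF R δ Fn F₀ F hL T hT0] with p ⟨y, hy0, hyF, hq, hyq⟩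
    have hy00 : y 0 = F₀ p := by simpa using hyq 0 ⟨le_rfl, hT0⟩
    have hcont : Continuous fun s : ℝ => trans φ s (fl s p) :=
      htc.comp (f := fun s : ℝ => (s, fl s p))
        (continuous_id.prodMk (continuous_fl.comp (continuous_id.prodMk continuous_const)))
    have key := flight hC hβ hβ' (Mx_pos p.2) hT0 hy0 hq (fun t ht => by rw [hy00]; exact hyq t ht)
      (fun t => hder t p) hcont
    rw [(hsupp T (fl T p) (Or.inl (by linarith))).1, mul_zero, hy00, fl_zero,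
      intervalIntegral.integral_of_le hT0, ← integral_Icc_eq_integral_Ioc] at key
    have e : ∫ t, renInt F β β' φ (t, fl t p) ∂(mT T) = ∫ s in Icc (0 : ℝ) T,
        (Mx p.2 * β (y s / Mx p.2) * trans φ s (fl s p) + β' (y s / Mx p.2) *
          ((Qp (F s) (fl s p)).toReal - (Qm (F s) (fl s p)).toReal) * φ s (fl s p)) := by
      refine integral_congr_ae ?_
      filter_upwards [hyF] with s hs
      simp only [renInt, fl_snd, hs]
    rw [e]
    linarith
  rw [t2, h1, h2, integral_congr_ae h3, integral_neg]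
  ring

end

end Vale.Agent.P140
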