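import Vale.Agent.P140.StmB

/-! Measurable representatives of curves; weak convergence on the time-space domain. -/

namespace Vale.Agent.P140

open MeasureTheory Set Filter Topology
open scoped ENNReal

namespace RepX

theorem mesh {η t : ℝ} (hη : 0 < η) (ht : 0 ≤ t) :
    0 ≤ (⌊t / η⌋₊ : ℝ) * η ∧ (⌊t / η⌋₊ : ℝ) * η ≤ t ∧ |(⌊t / η⌋₊ : ℝ) * η - t| ≤ η := by
  have h1 : (⌊t / η⌋₊ : ℝ) * η ≤ t := (le_div_iff₀ hη).1 (Nat.floor_le (div_nonneg ht hη.le))
  have h2 : t < (⌊t / η⌋₊ + 1 : ℝ) * η := (div_lt_iff₀ hη).1 (Nat.lt_floor_add_one _)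
  exact ⟨by positivity, h1, abs_le.2 ⟨by linarith, by linarith⟩⟩

theorem meas_floor (η : ℝ) : Measurable fun t : ℝ => ⌊t / η⌋₊ :=
  Nat.measurable_floor.comp (measurable_id.div_const η)

theorem int_comp {α β : Type} [MeasurableSpace α] [MeasurableSpace β] {μ : Measure α}
    {ν : Measure β} {e : α → β} (he : MeasurePreserving e μ ν) {h : β → ℝ} (hh : Measurable h) :
    ∫ x, h (e x) ∂μ = ∫ y, h y ∂ν := by
  rw [← he.map_eq, integral_map he.measurable.aemeasurable hh.aestronglyMeasurable]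

section

variable {α : Type} [MeasurableSpace α] {μ : Measure α} [SigmaFinite μ]

theorem mul_bdd {β : Type} [MeasurableSpace β] {ν : Measure β} {f φ : β → ℝ} {C : ℝ}
    (hf : Integrable f ν) (hφ : Measurable φ) (hC : ∀ y, |φ y| ≤ C) :
    Integrable (fun y => f y * φ y) ν :=
  hf.mul_bdd hφ.aestronglyMeasurable (Eventually.of_forall hC)

theorem core1 (ν : Measure ℝ) [IsFiniteMeasure ν] {f : α → ℝ} {φ : ℝ × α → ℝ} {C : ℝ}
    (hf : Integrable f μ) (hφ : Measurable φ) (hC : ∀ y, |φ y| ≤ C) :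
    Integrable (fun y : ℝ × α => f y.2 * φ y) (ν.prod μ) ∧
      ∫ y, f y.2 * φ y ∂(ν.prod μ) = ∫ p, f p * (∫ t, φ (t, p) ∂ν) ∂μ := by
  have h1 : Integrable (fun y : ℝ × α => f y.2 * φ y) (ν.prod μ) :=
    mul_bdd (hf.comp_snd ν) hφ hC
  refine ⟨h1, ?_⟩
  rw [integral_prod_symm _ h1]
  simp only [integral_const_mul]

theorem core2 (ν : Measure ℝ) [IsFiniteMeasure ν] {f : ℕ → α → ℝ} {g : α → ℝ} {φ : ℝ × α → ℝ}
    {C : ℝ} (hf : ∀ n, Integrable (f n) μ) (hg : WL μ f g) (hφ : Measurable φ)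
    (hC : ∀ y, |φ y| ≤ C) : Tendsto (fun n => ∫ y, f n y.2 * φ y ∂(ν.prod μ)) UF
      (𝓝 (∫ y, g y.2 * φ y ∂(ν.prod μ))) := by
  simp only [fun n => (core1 ν (hf n) hφ hC).2, (core1 ν hg.2.1 hφ hC).2]
  refine hg.2.2 _ (hφ.stronglyMeasurable.integral_prod_left' (μ := ν)).measurable
    ⟨C * ν.real univ, fun p => ?_⟩
  exact norm_integral_le_of_norm_le_const (f := fun t => φ (t, p))
    (Eventually.of_forall fun t => hC _)

theorem core3 {T η ε C : ℝ} (hη : 0 < η) {G : ℝ → α → ℝ} {ψ : ℝ × α → ℝ}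
    (hG : Integrable (fun y : ℝ × α => G y.1 y.2) ((mT T).prod μ))
    (hGt : ∀ t, 0 ≤ t → Integrable (G t) μ) (hψ : Measurable ψ) (hC : ∀ y, |ψ y| ≤ C)
    (he : ∀ s ∈ Icc (0 : ℝ) T, ∀ t ∈ Icc (0 : ℝ) T, |s - t| ≤ η → ∫ p, |G t p - G s p| ∂μ ≤ ε)
    (hC0 : 0 ≤ C) :
    |∫ y, G y.1 y.2 * ψ y ∂((mT T).prod μ) - ∑ i ∈ Finset.range (⌊T / η⌋₊ + 1),
      ∫ y, G (i * η) y.2 * (if ⌊y.1 / η⌋₊ = i then ψ y else 0) ∂((mT T).prod μ)| ≤
      C * ε * (mT T).real univ := by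
  have hm : ∀ i : ℕ, Measurable fun y : ℝ × α => if ⌊y.1 / η⌋₊ = i then ψ y else 0 := fun i =>
    Measurable.ite (((meas_floor η).comp measurable_fst) (measurableSet_singleton i)) hψ
      measurable_const
  have hb : ∀ (i : ℕ) (y : ℝ × α), |if ⌊y.1 / η⌋₊ = i then ψ y else 0| ≤ C := fun i y => by
    split_ifs
    · exact hC y
    · simpa using hC0
  have hi : ∀ i : ℕ, Integrable (fun y : ℝ × α =>
      G (i * η) y.2 * (if ⌊y.1 / η⌋₊ = i then ψ y else 0)) ((mT T).prod μ) := fun i =>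
    (core1 _ (hGt _ (by positivity)) (hm i) (hb i)).1
  have h1 := integrable_finsetSum (Finset.range (⌊T / η⌋₊ + 1)) fun i _ => hi i
  have h2 := mul_bdd hG hψ hC
  rw [← integral_finsetSum _ fun i _ => hi i, ← integral_sub h2 h1, integral_prod _ (h2.sub' h1),
    ← Real.norm_eq_abs]
  refine norm_integral_le_of_norm_le_const ((ae_restrict_mem measurableSet_Icc).mono fun t ht => ?_)
  obtain ⟨h3, h4, h5⟩ := mesh hη ht.1
  have h6 : ⌊t / η⌋₊ ∈ Finset.range (⌊T / η⌋₊ + 1) := Finset.mem_range.2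
    (Nat.lt_succ_of_le (Nat.floor_mono (div_le_div_of_nonneg_right ht.2 hη.le)))
  have h7 := he _ ⟨h3, h4.trans ht.2⟩ t ht h5
  have h8 := ((hGt t ht.1).sub (hGt _ h3)).abs.const_mul C
  refine (norm_integral_le_of_norm_le h8 (Eventually.of_forall fun p => ?_)).trans ?_
  · simp only [mul_ite, mul_zero, Finset.sum_ite_eq, h6, if_true, Pi.sub_apply]
    rw [← sub_mul, Real.norm_eq_abs, abs_mul, mul_comm]
    exact mul_le_mul_of_nonneg_right (hC _) (abs_nonneg _)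
  · rw [integral_const_mul]
    exact mul_le_mul_of_nonneg_left h7 hC0

theorem core4 {T : ℝ} {Gn : ℕ → ℝ → α → ℝ} {G : ℝ → α → ℝ} {ψ : ℝ × α → ℝ}
    (hGn : ∀ n, Integrable (fun y : ℝ × α => Gn n y.1 y.2) ((mT T).prod μ))
    (hG : Integrable (fun y : ℝ × α => G y.1 y.2) ((mT T).prod μ))
    (hGt : ∀ n t, 0 ≤ t → Integrable (Gn n t) μ) (hw : ∀ t, 0 ≤ t → WL μ (fun n => Gn n t) (G t))
    (hψ : Measurable ψ) (hC : ∃ C, ∀ y, |ψ y| ≤ C)
    (hen : ∀ ε : ℝ, 0 < ε → ∃ η : ℝ, 0 < η ∧ ∀ n, ∀ s ∈ Icc (0 : ℝ) T, ∀ t ∈ Icc (0 : ℝ) T,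
      |s - t| ≤ η → ∫ p, |Gn n t p - Gn n s p| ∂μ ≤ ε)
    (he : ∀ ε : ℝ, 0 < ε → ∃ η : ℝ, 0 < η ∧ ∀ s ∈ Icc (0 : ℝ) T, ∀ t ∈ Icc (0 : ℝ) T,
      |s - t| ≤ η → ∫ p, |G t p - G s p| ∂μ ≤ ε) :
    Tendsto (fun n => ∫ y, Gn n y.1 y.2 * ψ y ∂((mT T).prod μ)) UF
      (𝓝 (∫ y, G y.1 y.2 * ψ y ∂((mT T).prod μ))) := by
  obtain ⟨C', hC'⟩ := hC
  have hC : ∀ y, |ψ y| ≤ |C'| := fun y => (hC' y).trans (le_abs_self _)
  refine Metric.tendsto_nhds.2 fun ε hε => ?_
  obtain ⟨K, hK⟩ : ∃ K, K = |C'| * (mT T).real univ := ⟨_, rfl⟩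
  have hK0 : 0 ≤ K := by rw [hK]; positivity
  obtain ⟨η₁, h1, h1'⟩ := hen (ε / (4 * (K + 1))) (by positivity)
  obtain ⟨η₂, h2, h2'⟩ := he (ε / (4 * (K + 1))) (by positivity)
  obtain ⟨η, hη, e1, e2⟩ : ∃ η, 0 < η ∧ η ≤ η₁ ∧ η ≤ η₂ :=
    ⟨min η₁ η₂, lt_min h1 h2, min_le_left _ _, min_le_right _ _⟩
  have h3 := fun n => core3 hη (hGn n) (hGt n) hψ hC
    (fun s hs t ht h => h1' n s hs t ht (h.trans e1)) (abs_nonneg _)
  have h4 := core3 hη hG (fun t ht => (hw t ht).2.1) hψ hC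
    (fun s hs t ht h => h2' s hs t ht (h.trans e2)) (abs_nonneg _)
  have h5 : |C'| * (ε / (4 * (K + 1))) * (mT T).real univ ≤ ε / 4 := by
    rw [mul_right_comm, ← hK, mul_div_assoc', div_le_div_iff₀ (by positivity) (by positivity)]
    nlinarith
  have h6 := tendsto_finsetSum (Finset.range (⌊T / η⌋₊ + 1)) fun (i : ℕ) _ =>
    core2 (mT T) (φ := fun y : ℝ × α => if ⌊y.1 / η⌋₊ = i then ψ y else 0) (C := |C'|)
      (fun n => hGt n (i * η) (by positivity)) (hw (i * η) (by positivity))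
      (Measurable.ite (((meas_floor η).comp measurable_fst) (measurableSet_singleton i)) hψ
        measurable_const) fun y => by
      split_ifs
      · exact hC y
      · simp
  filter_upwards [Metric.tendsto_nhds.1 h6 (ε / 4) (by positivity)] with n hn
  rw [Real.dist_eq] at hn ⊢
  have h7 := abs_le.1 ((h3 n).trans h5)
  have h8 := abs_le.1 (h4.trans h5)
  have h9 := abs_lt.1 hn
  exact abs_lt.2 ⟨by linarith, by linarith⟩

end

theorem meas_fl : Measurable fun y : ℝ × Om => (y.1, fl y.1 y.2) :=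
  measurable_fst.prodMk continuous_fl.measurable

end RepX

open RepX

theorem repr : RepStmt := by
  intro α _ μ _ f hf hc
  choose η hη hη' using fun j : ℕ => hc j (2⁻¹ ^ j) (by positivity)
  have hm : ∀ j, Measurable fun y : ℝ × α => f (⌊y.1 / η j⌋₊ * η j) y.2 := fun j => by
    have h1 : Measurable fun z : ℕ × α => f (z.1 * η j) z.2 :=
      measurable_from_prod_countable_right fun i => (hf (i * η j) (by
        have := hη j
        positivity)).1
    exact h1.comp (((meas_floor (η j)).comp measurable_fst).prodMk measurable_snd)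
  refine ⟨fun t x => (liminf (fun j => ENNReal.ofReal (f (⌊t / η j⌋₊ * η j) x)) atTop).toReal,
    (Measurable.liminf fun j => (hm j).ennreal_ofReal).ennreal_toReal,
    fun _ _ => ENNReal.toReal_nonneg, fun t ht => ?_⟩
  obtain ⟨J, hJ⟩ := exists_nat_ge t
  have h1 : ∀ j, ∫⁻ x, ENNReal.ofReal |f t x - f (⌊t / η (j + J)⌋₊ * η (j + J)) x| ∂μ ≤
      ENNReal.ofReal (2⁻¹ ^ j) := fun j => by
    obtain ⟨h3, h4, h5⟩ := mesh (hη (j + J)) ht
    have h6 : t ≤ (j + J : ℕ) := hJ.trans (by exact_mod_cast Nat.le_add_left J j)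
    have h7 := hη' (j + J) _ ⟨h3, h4.trans h6⟩ t ⟨ht, h6⟩ h5
    rw [← ofReal_integral_eq_lintegral_ofReal ((hf t ht).2.1.sub' (hf _ h3).2.1).abs
      (Eventually.of_forall fun x => abs_nonneg _)]
    exact ENNReal.ofReal_le_ofReal (h7.trans
      (pow_le_pow_of_le_one (by norm_num) (by norm_num) (Nat.le_add_right j J)))
  have h2 : ∀ j, Measurable fun x =>
      ENNReal.ofReal |f t x - f (⌊t / η (j + J)⌋₊ * η (j + J)) x| := fun j =>
    ((hf t ht).1.sub (hf _ (mesh (hη (j + J)) ht).1).1).abs.ennreal_ofReal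
  have h3 : ∫⁻ x, ∑' j, ENNReal.ofReal |f t x - f (⌊t / η (j + J)⌋₊ * η (j + J)) x| ∂μ ≠ ⊤ := by
    rw [lintegral_tsum fun j => (h2 j).aemeasurable]
    refine ne_top_of_le_ne_top ?_ (ENNReal.tsum_le_tsum h1)
    rw [← ENNReal.ofReal_tsum_of_nonneg (fun _ => by positivity)
      (summable_geometric_of_lt_one (by norm_num) (by norm_num))]
    exact ENNReal.ofReal_ne_top
  filter_upwards [ae_lt_top (Measurable.tsum h2) h3] with x hx
  have h4 := (ENNReal.tendsto_toReal ENNReal.zero_ne_top).comp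
    (ENNReal.tendsto_atTop_zero_of_tsum_ne_top hx.ne)
  have h5 : Tendsto (fun j => f (⌊t / η j⌋₊ * η j) x) atTop (𝓝 (f t x)) := by
    rw [← tendsto_add_atTop_iff_nat J, tendsto_iff_dist_tendsto_zero]
    refine h4.congr fun j => ?_
    rw [Function.comp_apply, ENNReal.toReal_ofReal (abs_nonneg _), Real.dist_eq, abs_sub_comm]
  rw [(ENNReal.tendsto_ofReal h5).liminf_eq, ENNReal.toReal_ofReal ((hf t ht).2.2 x)]

theorem wlY (hU : UIStmt) (hT : TorusStmt) (hW : WLStmt) (hE : EquiStmt) : WLYStmt := by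
  intro R δ Fn F₀ F hA hF hw hc T
  obtain ⟨-, -, -, -, -, -, hfl, hflY, -⟩ := hT
  have hY : MeasurePreserving (fun y : ℝ × Om => (y.1, fl y.1 y.2)) (mY T) (mY T) := by
    have := hflY (mT T) 1 0
    simp only [one_mul, add_zero] at this
    exact this
  have hint : Integrable (fun y : ℝ × Om => F y.1 y.2) (mY T) := by
    obtain ⟨C, hC⟩ := hA.mom
    refine (integrable_prod_iff hF.aestronglyMeasurable).2
      ⟨(ae_restrict_mem measurableSet_Icc).mono fun t ht => (hw t ht.1).2.1, ?_⟩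
    refine Integrable.of_bound hF.aestronglyMeasurable.norm.integral_prod_right' C
      ((ae_restrict_mem measurableSet_Icc).mono fun t ht => ?_)
    rw [Real.norm_of_nonneg (integral_nonneg fun _ => norm_nonneg _)]
    refine (hW Om volume).2.2.2.2.2.1 _ _ C (hA.uiT t ht.1) (hw t ht.1)
      (Eventually.of_forall fun n => le_trans ?_ (hC n t ht.1).2)
    refine integral_mono_of_nonneg (Eventually.of_forall fun _ => abs_nonneg _) (hC n t ht.1).1
      (Eventually.of_forall fun p => ?_)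
    have h1 := (hA.ts n).nonneg t p
    beta_reduce
    rw [abs_of_nonneg h1]
    exact le_mul_of_one_le_right h1 (one_le_pow₀ (by linarith [norm_nonneg p.2]))
  refine ⟨hF, hint, fun ψ hψ ⟨C, hC⟩ => ?_⟩
  have hn := ((hU.2.2 _ _).1 _ (hA.uiY T)).1
  have h1 := core4 (μ := volume) (T := T) (Gn := fun n t p => Fn n t (fl t p))
    (G := fun t p => F t (fl t p)) (ψ := fun y => ψ (y.1, fl y.1 y.2))
    (fun n => hY.integrable_comp_of_integrable (hn n)) (hY.integrable_comp_of_integrable hint)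
    (fun n t ht => (hfl t).integrable_comp_of_integrable (((hU.2.2 _ _).1 _ (hA.uiT t ht)).1 n))
    (fun t ht => ⟨(hw t ht).1.comp (hfl t).measurable,
      (hfl t).integrable_comp_of_integrable (hw t ht).2.1, fun φ hφ ⟨D, hD⟩ => by
        have h2 := hφ.comp (hfl (-t)).measurable
        have h3 : ∀ f : Om → ℝ, Measurable f →
            ∫ p, f (fl t p) * φ p = ∫ p, f p * φ (fl (-t) p) := fun f hf => by
          rw [← int_comp (h := fun p => f p * φ (fl (-t) p)) (hfl t) (hf.mul h2)]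
          simp only [fl_fl, neg_add_cancel, fl_zero]
        simp only [fun n => h3 _ ((hA.uiT t ht).1 n), h3 _ (hw t ht).1]
        exact (hw t ht).2.2 _ h2 ⟨D, fun _ => hD _⟩⟩)
    (hψ.comp meas_fl) ⟨C, fun _ => hC _⟩ (hE R δ Fn F₀ hA T) (hc T)
  rw [← int_comp (h := fun y => F y.1 y.2 * ψ y) hY (hF.mul hψ)]
  refine h1.congr fun n => ?_
  exact int_comp (h := fun y => Fn n y.1 y.2 * ψ y) hY ((hA.ts n).meas.mul hψ)

end Vale.Agent.P140
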