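import Vale.Agent.P140.SubMb

/-! Subsolution at level m. -/

namespace Vale.Agent.P140

open MeasureTheory Set Filter Topology
open scoped ENNReal

noncomputable section

namespace SubMX

theorem ae_of_tested {b h : Om → ℝ} (hb : Integrable b) (hh : Integrable h) {S : Set Om}
    (hS : MeasurableSet S) (H : ∀ ψ : Om → ℝ, Measurable ψ → (∀ x, 0 ≤ ψ x ∧ ψ x ≤ 1) →
      (∀ x, ψ x ≠ 0 → x ∈ S) → ∫ p, b p * ψ p ≤ ∫ p, h p * ψ p) :
    ∀ᵐ p, p ∈ S → b p ≤ h p := by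
  rw [← ae_restrict_iff' hS]
  refine ae_le_of_forall_setIntegral_le hb.restrict hh.restrict fun A hA _ => ?_
  have h1 := H ((A ∩ S).indicator 1) (measurable_one.indicator (hA.inter hS))
    (fun x => by by_cases hx : x ∈ A ∩ S <;> simp [hx])
    fun x hx => (mem_of_indicator_ne_zero hx).2
  rw [Measure.restrict_restrict hA, ← integral_indicator (hA.inter hS),
    ← integral_indicator (hA.inter hS)]
  have h2 : ∀ f : Om → ℝ, (A ∩ S).indicator f = fun p => f p * (A ∩ S).indicator 1 p :=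
    fun f => funext fun x => by by_cases hx : x ∈ A ∩ S <;> simp [hx]
  rw [h2 b, h2 h]
  exact h1

theorem regroup {t : ℝ} {f ψ : Om → ℝ} {g g' : ℝ × Om → ℝ} (hf : Integrable f)
    (hg : Integrable g (mY t)) (hg' : Integrable g' (mY t)) (hψ : Measurable ψ)
    (h : ∀ x, |ψ x| ≤ 1) :
    ∫ p, ((f + fun p => ∫ r, g (r, p) ∂(mT t)) + fun p => ∫ r, g' (r, p) ∂(mT t)) p * ψ p =
      (∫ p, f p * ψ p) + (∫ y, g y * ψ y.2 ∂(mY t)) + ∫ y, g' y * ψ y.2 ∂(mY t) := by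
  have j : ∀ g : ℝ × Om → ℝ, Integrable g (mY t) →
      ∫ y, g y * ψ y.2 ∂(mY t) = ∫ p, (∫ r, g (r, p) ∂(mT t)) * ψ p := fun g hg => by
    simp only [← integral_mul_const]
    exact integral_prod_symm _ (int_mul hg (hψ.comp measurable_snd) fun x => h _)
  have i1 := int_mul hf hψ h
  have i2 := int_mul hg.integral_prod_right hψ h
  have i3 := int_mul hg'.integral_prod_right hψ h
  rw [j g hg, j g' hg', ← integral_add i1 i2,
    ← integral_add (f := fun p => f p * ψ p + (∫ r, g (r, p) ∂(mT t)) * ψ p) (i1.add i2) i3]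
  simp only [Pi.add_apply, add_mul]

theorem wl_le_const {α : Type} [MeasurableSpace α] {μ : Measure α} [SigmaFinite μ]
    {f : ℕ → α → ℝ} {g : α → ℝ} {m : ℝ} (h : WL μ f g) (hi : ∀ n, Integrable (f n) μ)
    (hm : ∀ n x, f n x ≤ m) : ∀ᵐ x ∂μ, g x ≤ m := by
  haveI : UF.NeBot := inferInstanceAs (Filter.NeBot (Filter.hyperfilter ℕ : Filter ℕ))
  have h1 := ae_nonneg_of_forall_setIntegral_nonneg_of_sigmaFinite (μ := μ)
    (f := fun x => m - g x)
    (fun s _ hs => (integrableOn_const hs.ne).sub h.2.1.integrableOn) fun s hs hs' => by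
      have h2 : ∀ f : α → ℝ, ∫ x, f x * s.indicator 1 x ∂μ = ∫ x in s, f x ∂μ := fun f => by
        rw [← integral_indicator hs]
        exact integral_congr_ae (ae_of_all _ fun x => by by_cases hx : x ∈ s <;> simp [hx])
      have h3 := h.2.2 (s.indicator 1) (measurable_one.indicator hs)
        ⟨1, fun x => by by_cases hx : x ∈ s <;> simp [hx]⟩
      simp only [h2] at h3
      have h4 : IntegrableOn (fun _ => m) s μ := integrableOn_const hs'.ne
      rw [integral_sub h4.integrable h.2.1.restrict, sub_nonneg]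
      exact le_of_tendsto h3 (Eventually.of_forall fun n =>
        integral_mono (hi n).restrict h4.integrable (hm n))
  exact h1.mono fun x hx => sub_nonneg.1 hx

theorem ball_step (hT : TorusStmt) (hU : UIStmt) (hX : WLExStmt) (hW : WLStmt) (hC : MCStmt)
    (hM : MeasStmt) (hE : ExpStmt) (hF : TSFlStmt) (hR : RenUIStmt) (hB : BetaStmt)
    (hN : NuExpStmt) (hNu : NuStmt) (hG : RenGainStmt) {R δ : ℕ → ℝ} {Fn : ℕ → ℝ → Om → ℝ}
    {F₀ : Om → ℝ} {F : ℝ → Om → ℝ} (L : Lim R δ Fn F₀ F) {t m : ℝ} (ht : 0 ≤ t) (hm : 0 < m)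
    {b : Om → ℝ} {e : ℝ × Om → ℝ} (hb0 : UI volume fun n p => bt m (Fn n t (fl t p)))
    (hb : WL volume (fun n p => bt m (Fn n t (fl t p))) b)
    (he0 : UI (mY t) fun n y => gm m (Fn n y.1 (fl y.1 y.2)))
    (he : WL (mY t) (fun n y => gm m (Fn n y.1 (fl y.1 y.2))) e) (he1 : ∀ y, 0 ≤ e y) (ρ : ℝ) :
    ∀ᵐ p : Om, ‖p.2‖ ≤ ρ → ENNReal.ofReal (b p) ≤
      ENNReal.ofReal (F₀ p * Real.exp (-NN (fun s => nu (F s)) t p)) + Duh F 0 t p +
      ∫⁻ r in Icc (0 : ℝ) t, ENNReal.ofReal (e (r, p) * nu (F r) (fl r p) *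
        Real.exp (-(NN (fun s => nu (F s)) t p - NN (fun s => nu (F s)) r p))) := by
  have A := L.apr
  have hnn : ∀ n t p, 0 ≤ Fn n t p := fun n => (A.ts n).nonneg
  obtain ⟨u1, -, u3⟩ := hR R δ Fn F₀ A t ρ m hm
  have hg0 : ∀ n (y : ℝ × Om), 0 ≤ cut ρ y.2 *
      (gT (R n) (δ n) (Fn n y.1) y.2 / (1 + Fn n y.1 y.2 / m) ^ 2) := fun n y =>
    mul_nonneg (cut_mem _ _).1 (div_nonneg (gT_nonneg _ (A.δpos n) (hnn n _) _) (sq_nonneg _))
  have u4 : UI (mY t) fun n y => cut ρ y.2 *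
      (gT (R n) (δ n) (Fn n y.1) y.2 / (1 + Fn n y.1 y.2 / m) ^ 2) := by
    refine (hU.2.2 _ _).2.2.2.1 _ _ u3 (fun n => ((measurable_cut ρ).comp measurable_snd).mul
      ((hM.2.2.2.2.1 _ (A.ts n).meas _ _).2.1.div
        ((((A.ts n).meas.div_const m).const_add 1).pow_const 2))) fun n => ae_of_all _ fun y => ?_
    rw [abs_of_nonneg (hg0 n y)]
    refine le_trans (mul_le_mul_of_nonneg_left ?_ (cut_mem _ _).1) (le_abs_self _)
    have h1 : 0 ≤ Fn n y.1 y.2 / m := div_nonneg (hnn n _ _) hm.le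
    exact div_le_div_of_nonneg_left (gT_nonneg _ (A.δpos n) (hnn n _) _) (by linarith)
      (by nlinarith)
  obtain ⟨q, hq0, hq⟩ := hX _ (mY t) _ hg0 u4
  have hq1 := ae_swap ((mp_flY hT t).quasiMeasurePreserving.ae (hG R δ Fn F₀ F L t ρ m q hm hq))
  have hq2 := (hW _ (mY t)).2.2.2.2.2.2 flY _ _ (mp_flY hT t) hq
  have u5 := (hU.2.2 _ _).2.2.2.2.2.2.2.1 _ _ _ _ (mp_flY hT t) u4
  have u6 := (hU.2.2 _ _).2.2.2.2.2.2.2.1 _ _ _ _ (mp_flY hT t) u1
  obtain ⟨-, n2, n3, -⟩ := hN R δ Fn F₀ F L t ht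
  obtain ⟨v1, -, v3⟩ := hNu R δ Fn F₀ F L t ρ
  have m1 := (hC Om volume).2.1 _ _ _ _ wf continuous_wf (n2 t ⟨ht, le_rfl⟩)
    ((hC Om volume).2.2.1 (fun _ => 0) measurable_const)
  have m2 := (hC _ (mY t)).2.1 _ _ _ _ wf continuous_wf
    ((hC Om volume).2.2.2.2.2.2.1 ℝ (mT t) _ _ (n2 t ⟨ht, le_rfl⟩)) n3
  have v4 : Integrable (fun y => cut ρ (flY y).2 * nu (F (flY y).1) (flY y).2) (mY t) :=
    ((mp_flY hT t).integrable_comp_emb flY.measurableEmbedding).2 v1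
  have v5 : Measurable fun y => cut ρ (flY y).2 * nu (F (flY y).1) (flY y).2 :=
    (((measurable_cut ρ).comp measurable_snd).mul
      (hM.2.2.2.2.1 _ L.meas 0 0).2.2.2.1).comp flY.measurable
  have v6 : Tendsto (fun n => ∫ y, |cut ρ (flY y).2 * nT (R n) (δ n) (Fn n (flY y).1) (flY y).2 -
      cut ρ (flY y).2 * nu (F (flY y).1) (flY y).2| ∂(mY t)) UF (𝓝 0) := by
    refine v3.congr fun n => ?_
    rw [← (mp_flY hT t).integral_comp' ]
    refine integral_congr_ae (ae_of_all _ fun y => ?_)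
    simp only [← mul_sub, abs_mul, abs_of_nonneg (cut_mem _ _).1]
  have hwf : ∀ z, 0 ≤ wf z ∧ wf z ≤ 1 := fun z => ⟨(wf_pos z).le, wf_le_one z⟩
  have hwa : ∀ z, |wf z| ≤ 1 := fun z => (abs_of_pos (wf_pos z)).trans_le (wf_le_one z)
  have hem : ∀ n (y : ℝ × Om), |gm m (Fn n y.1 (fl y.1 y.2))| ≤ m := fun n y =>
    (abs_of_nonneg (gm_nonneg hm (hnn n _ _))).trans_le (gm_le_m hm (hnn n _ _))
  have he2 : ∀ᵐ y ∂(mY t), ‖e y‖ ≤ m :=
    (wl_le_const he ((hU.2.2 _ _).1 _ he0).1 fun n y => (le_abs_self _).trans (hem n y)).mono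
      fun y hy => (Real.norm_of_nonneg (he1 y)).trans_le hy
  have i1 := int_mul (L.wl 0 le_rfl).2.1 m1.2.1 fun x => hwa _
  have i2 := int_mul hq2.2.1 m2.2.1 fun x => hwa _
  have i3 := (int_mul v4 m2.2.1 fun x => hwa _).bdd_mul he.1.aestronglyMeasurable he2
  have key := ae_of_tested hb.2.1 ((i1.add i2.integral_prod_right).add i3.integral_prod_right)
    (S := {p : Om | ‖p.2‖ ≤ ρ}) (measurableSet_le measurable_snd.norm measurable_const)
    fun ψ hψ hψ1 hψ2 => by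
      have k' : ∀ x, |ψ x| ≤ 1 := fun x => (abs_of_nonneg (hψ1 x).1).trans_le (hψ1 x).2
      refine (tested hU hW hC hb0 hb (A.uiT 0 le_rfl) (L.wl 0 le_rfl) m1 (fun _ _ => hwf _)
        (fun _ => hwf _) u5 hq2 he0 hem he ((hU.2.2 _ _).1 _ u6).1 v4 v5 v6 m2 (fun _ _ => hwf _)
        (fun _ => hwf _) hψ hψ1 fun n p hp => ?_).trans_eq ?_
      · refine (one_flight hE hF hB (A.Rpos n) (A.δpos n) (A.ts n) hm ht p).trans_eq ?_
        refine congrArg₂ _ rfl (integral_congr_ae (ae_of_all _ fun r => ?_))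
        simp only [flY, MeasurableEquiv.coe_mk, Equiv.coe_fn_mk, cut_fl (hψ2 p hp), one_mul]
      · rw [regroup i1 i2 i3 hψ k']
        simp only [mul_assoc]
  filter_upwards [key, hq1, L.init] with p h1 h2 h3 hp
  refine (ENNReal.ofReal_le_ofReal (h1 hp)).trans (ENNReal.ofReal_add_le.trans
    (add_le_add (ENNReal.ofReal_add_le.trans (add_le_add (ENNReal.ofReal_le_ofReal ?_) ?_)) ?_))
  · rw [← h3]
    exact mul_le_mul_of_nonneg_left ((wf_le _).trans_eq (by rw [sub_zero])) (L.nonneg 0 p)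
  · refine ofReal_int_le (h2.mono fun r hr => ⟨mul_nonneg (hq0 _) (wf_pos _).le, ?_⟩)
    rw [ENNReal.ofReal_mul (hq0 _)]
    exact mul_le_mul' hr (ENNReal.ofReal_le_ofReal (wf_le _))
  · refine ofReal_int_le (ae_of_all _ fun r => ?_)
    have h4 : 0 ≤ nu (F r) (fl r p) := ENNReal.toReal_nonneg
    simp only [flY, MeasurableEquiv.coe_mk, Equiv.coe_fn_mk, cut_fl hp, one_mul]
    refine ⟨mul_nonneg (he1 _) (mul_nonneg h4 (wf_pos _).le), ENNReal.ofReal_le_ofReal ?_⟩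
    rw [mul_assoc]
    exact mul_le_mul_of_nonneg_left (mul_le_mul_of_nonneg_left (wf_le _) h4) (he1 _)

end SubMX

open SubMX in
theorem subM (hM : MeasStmt) (hT : TorusStmt) (hU : UIStmt) (hX : WLExStmt) (hW : WLStmt)
    (hC : MCStmt) (hE : ExpStmt) (hF : TSFlStmt) (hR : RenUIStmt) (hB : BetaStmt)
    (hN : NuExpStmt) (hNu : NuStmt) (hG : RenGainStmt) : SubMStmt := by
  intro R δ Fn F₀ F L t ε ht hε
  have A := L.apr
  have hnn : ∀ n t p, 0 ≤ Fn n t p := fun n => (A.ts n).nonneg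
  have u1 := (hU.2.2 _ _).2.2.2.2.2.2.2.1 _ _ _ _ (mp_flE hT t) (A.uiT t ht)
  have u2 := (hU.2.2 _ _).2.2.2.2.2.2.2.1 _ _ _ _ (mp_flY hT t) (A.uiY t)
  have w1 := (hW _ volume).2.2.2.2.2.2 (flE t) _ _ (mp_flE hT t) (L.wl t ht)
  have w2 := (hW _ (mY t)).2.2.2.2.2.2 flY _ _ (mp_flY hT t) (L.wlY t)
  obtain ⟨k, k1, k2, k3⟩ := ((eventually_gt_atTop 0).and
    ((trunc_small u1 (fun n _ => hnn n _ _) hε).and
      (trunc_small u2 (fun n _ => hnn n _ _) hε))).exists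
  have hm : (0 : ℝ) < k := by exact_mod_cast k1
  generalize (k : ℝ) = m at hm k2 k3
  have u3 : UI volume fun n p => bt m (Fn n t (fl t p)) :=
    (hU.2.2 _ _).2.2.2.1 _ _ u1 (fun n => (measurable_bt m).comp (u1.1 n)) fun n =>
      ae_of_all _ fun p => (abs_of_nonneg (bt_nonneg hm (hnn n _ _))).trans_le
        ((bt_le hm (hnn n _ _)).trans (le_abs_self _))
  have hgm : ∀ n (y : ℝ × Om), gm m (Fn n y.1 (fl y.1 y.2)) ≤ Fn n y.1 (fl y.1 y.2) := fun n y =>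
    (gm_le hm (hnn n _ _)).trans (sub_le_self _ (bt_nonneg hm (hnn n _ _)))
  have u4 : UI (mY t) fun n y => gm m (Fn n y.1 (fl y.1 y.2)) :=
    (hU.2.2 _ _).2.2.2.1 _ _ u2 (fun n => (measurable_gm m).comp (u2.1 n)) fun n =>
      ae_of_all _ fun y => (abs_of_nonneg (gm_nonneg hm (hnn n _ _))).trans_le
        ((hgm n y).trans (le_abs_self _))
  obtain ⟨b, -, hb⟩ := hX _ volume _ (fun n _ => bt_nonneg hm (hnn n _ _)) u3
  obtain ⟨e, he0, he⟩ := hX _ (mY t) _ (fun n _ => gm_nonneg hm (hnn n _ _)) u4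
  refine ⟨b, e, hb.1, he.1, he0, wl_sub_le w1 hb ((hU.2.2 _ _).1 _ u1).1 ((hU.2.2 _ _).1 _ u3).1
    (fun n _ => bt_le hm (hnn n _ _)) hε.le k2, ?_,
    (hW _ (mY t)).2.2.2.2.1 _ _ _ _ u4 u2 he w2 fun n => ae_of_all _ (hgm n), ?_⟩
  · simpa using wl_sub_le he wl_zero ((hU.2.2 _ _).1 _ u4).1 (fun _ => integrable_zero _ _ _)
      (fun n _ => gm_nonneg hm (hnn n _ _)) hε.le fun n => le_trans (lintegral_mono fun y =>
        ENNReal.ofReal_le_ofReal ((sub_zero _).trans_le (gm_le hm (hnn n _ _)))) (k3 n)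
  · filter_upwards [ae_all_iff.2 fun j : ℕ =>
      ball_step hT hU hX hW hC hM hE hF hR hB hN hNu hG L ht hm u3 hb u4 he he0 j] with p hp
    exact hp _ (Nat.le_ceil _)

end

end Vale.Agent.P140
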