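import Vale.Agent.P140.SuperA

/-!
The weak limit is a supersolution.
-/

namespace Vale.Agent.P140

open MeasureTheory Set Filter Topology
open scoped ENNReal

noncomputable section

namespace Super

open DissLsc (wl_comp)

/-- Flight coordinates on [0, T] × Ω. -/
def fy (y : ℝ × Om) : ℝ × Om := (y.1, fl y.1 y.2)

lemma measurable_fy : Measurable fy := measurable_fst.prodMk continuous_fl.measurable

lemma fy_pres (hT : TorusStmt) (T : ℝ) : MeasurePreserving fy (mY T) (mY T) := by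
  have := hT.2.2.2.2.2.2.2.1 (mT T) 1 0
  simp only [one_mul, add_zero] at this
  exact this

lemma measurable_fl (s : ℝ) : Measurable (fl s) :=
  continuous_fl.measurable.comp measurable_prodMk_left

lemma fl_inv (s : ℝ) (p : Om) : fl (-s) (fl s p) = p := by rw [fl_fl, neg_add_cancel, fl_zero]

lemma ind_bound {α : Type} (A : Set α) (x : α) :
    0 ≤ A.indicator (fun _ => (1 : ℝ)) x ∧ A.indicator (fun _ => (1 : ℝ)) x ≤ 1 := by
  by_cases h : x ∈ A <;> simp [h]

lemma mul_ex_bound {c : ℝ} (h : 0 ≤ c ∧ c ≤ 1) (z : ℝ × ℝ) : 0 ≤ c * ex z ∧ |c * ex z| ≤ 1 := by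
  have h1 := ex_pos z
  have h2 := ex_le_one z
  have h3 : 0 ≤ c * ex z := mul_nonneg h.1 h1.le
  exact ⟨h3, by rw [abs_of_nonneg h3]; nlinarith [h.1, h.2]⟩

lemma int_mul {α : Type} [MeasurableSpace α] {μ : Measure α} {u a : α → ℝ} (hu : Integrable u μ)
    (ha : Measurable a) (h : ∀ x, |a x| ≤ 1) : Integrable (fun x => u x * a x) μ :=
  hu.mul_bdd (c := 1) ha.aestronglyMeasurable (Eventually.of_forall fun x => by simpa using h x)

/-- The tested inequality for one solution of the truncated problem. -/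
lemma one (hF : TSFlStmt) {R δ M ε : ℝ} {F₀ : Om → ℝ} {G : ℝ → Om → ℝ} (hts : TS R δ F₀ G)
    (hR : 0 < R) (hδ : 0 < δ) (hM : 0 ≤ M) (hMR : M ≤ R) (hδε : δ ≤ ε) {s t : ℝ} (hs : 0 ≤ s)
    (hst : s ≤ t) (hm : Measurable fun y : ℝ × Om => NN (fun s => nT R δ (G s)) y.1 y.2)
    {ψ : Om → ℝ} (hψ : ∀ p, 0 ≤ ψ p)
    (i1 : Integrable (fun p => G t (fl t p) * ψ p))
    (i2 : Integrable (fun p => G s (fl s p) * (ψ p *
      ex (NN (fun s => nT R δ (G s)) t p, NN (fun s => nT R δ (G s)) s p))))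
    (i3 : Integrable (fun y => GG (kT M) ε G (fy y) *
      (ψ y.2 * (Icc s t).indicator (fun _ => (1 : ℝ)) y.1 *
        ex (NN (fun s => nT R δ (G s)) t y.2, NN (fun s => nT R δ (G s)) y.1 y.2))) (mY t)) :
    (∫ p, G s (fl s p) * (ψ p *
      ex (NN (fun s => nT R δ (G s)) t p, NN (fun s => nT R δ (G s)) s p))) +
    ∫ y, GG (kT M) ε G (fy y) * (ψ y.2 * (Icc s t).indicator (fun _ => (1 : ℝ)) y.1 *
        ex (NN (fun s => nT R δ (G s)) t y.2, NN (fun s => nT R δ (G s)) y.1 y.2)) ∂(mY t) ≤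
      ∫ p, G t (fl t p) * ψ p := by
  unfold mY at i3 ⊢
  rw [integral_prod_symm _ i3, ← integral_add i2 i3.integral_prod_right]
  refine integral_mono (i2.add i3.integral_prod_right) i1 fun p => ?_
  have hm' : Measurable fun r : ℝ => NN (fun s => nT R δ (G s)) r p :=
    hm.comp (f := fun r : ℝ => (r, p)) measurable_prodMk_right
  have h4 := pt hF hts hR hδ hM hMR hδε hs hst p hm'
  have h5 := mul_le_mul_of_nonneg_right h4 (hψ p)
  refine le_trans (le_of_eq ?_) h5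
  rw [add_mul, ← integral_mul_const]
  congr 1
  · ring
  · refine integral_congr_ae (Eventually.of_forall fun r => ?_)
    simp only [fy]
    ring

/-- Transport of the sequence along flights. -/
lemma tr (hT : TorusStmt) (hU : UIStmt) {R δ Fn F₀ F} (hL : Lim R δ Fn F₀ F) {r : ℝ}
    (hr : 0 ≤ r) : UI volume (fun n p => Fn n r (fl r p)) ∧
      WL volume (fun n p => Fn n r (fl r p)) (fun p => F r (fl r p)) :=
  ⟨(hU.2.2 _ volume).2.2.2.2.2.2.2.1 _ volume (fl r) _ (hT.2.2.2.2.2.2.1 r) (hL.apr.uiT r hr),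
    wl_comp (hT.2.2.2.2.2.2.1 r) (measurable_fl (-r)) (fl_inv r) (hL.apr.uiT r hr).1
      (hL.wl r hr)⟩

lemma trY (hT : TorusStmt) (hU : UIStmt) {T : ℝ} {f : ℕ → ℝ × Om → ℝ} {g : ℝ × Om → ℝ}
    (h1 : UI (mY T) f) (h2 : WL (mY T) f g) :
    UI (mY T) (fun n y => f n (fy y)) ∧ WL (mY T) (fun n y => f n (fy y)) (fun y => g (fy y)) :=
  ⟨(hU.2.2 _ (mY T)).2.2.2.2.2.2.2.1 _ (mY T) fy _ (fy_pres hT T) h1,
    wl_comp (fy_pres hT T) (e' := fun y => (y.1, fl (-y.1) y.2))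
      (measurable_fst.prodMk (continuous_fl.measurable.comp
        (measurable_fst.neg.prodMk measurable_snd)))
      (fun y => by simp only [fy, fl_inv]) h1.1 h2⟩

lemma mc_ex (hC : MCStmt) {α : Type} [MeasurableSpace α] {μ : Measure α} [SigmaFinite μ]
    {a a' : ℕ → α → ℝ} {b b' ψ : α → ℝ} (hψ : Measurable ψ) (h1 : MC μ a b) (h2 : MC μ a' b') :
    MC μ (fun n x => ψ x * ex (a n x, a' n x)) (fun x => ψ x * ex (b x, b' x)) :=
  (hC _ μ).2.1 _ _ _ _ (fun z => z.1 * z.2) (by fun_prop) ((hC _ μ).2.2.1 ψ hψ)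
    ((hC _ μ).2.1 _ _ _ _ ex continuous_ex h1 h2)

lemma mc_snd (hC : MCStmt) {T : ℝ} {a : ℕ → Om → ℝ} {b : Om → ℝ} (h : MC volume a b) :
    MC (mY T) (fun n y => a n y.2) (fun y => b y.2) :=
  (hC _ volume).2.2.2.2.2.2.1 ℝ (mT T) _ _ h

/-- The limit inequality at truncation level M, tested on a set A. -/
lemma level (hT : TorusStmt) (hU : UIStmt) (hW : WLStmt) (hC : MCStmt) (hF : TSFlStmt)
    (hM : MeasStmt) (hN : NuExpStmt) (hG : GainWStmt) {R δ Fn F₀ F} (hL : Lim R δ Fn F₀ F)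
    {s t : ℝ} (hs : 0 ≤ s) (hst : s ≤ t) {ψ : Om → ℝ} (hψm : Measurable ψ)
    (hψb : ∀ p, 0 ≤ ψ p ∧ ψ p ≤ 1) {M : ℝ} (hM0 : 0 < M) :
    (∫⁻ p, ENNReal.ofReal (F s (fl s p) * (ψ p *
        ex (NN (fun s => nu (F s)) t p, NN (fun s => nu (F s)) s p)))) +
      ∫⁻ y, ENNReal.ofReal (GG (kT M) M⁻¹ F (fy y) *
        (ψ y.2 * (Icc s t).indicator (fun _ => (1 : ℝ)) y.1 *
          ex (NN (fun s => nu (F s)) t y.2, NN (fun s => nu (F s)) y.1 y.2))) ∂(mY t) ≤
      ∫⁻ p, ENNReal.ofReal (F t (fl t p) * ψ p) := by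
  have := hU.2.1
  have ht : 0 ≤ t := hs.trans hst
  have hε : 0 < M⁻¹ := inv_pos.2 hM0
  have hts := hL.apr.ts
  obtain ⟨-, mc1, mc2, -⟩ := hN R δ Fn F₀ F hL t ht
  obtain ⟨-, uiG, wlG⟩ := hG R δ Fn F₀ F hL t M⁻¹ M (kT M) hε (hM.2.1 M) (kT_le hM0.le)
  have hχm : Measurable fun y : ℝ × Om => ψ y.2 * (Icc s t).indicator (fun _ => (1 : ℝ)) y.1 :=
    (hψm.comp measurable_snd).mul
      ((measurable_const.indicator measurableSet_Icc).comp measurable_fst)
  have hχb : ∀ y : ℝ × Om, 0 ≤ ψ y.2 * (Icc s t).indicator (fun _ => (1 : ℝ)) y.1 ∧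
      ψ y.2 * (Icc s t).indicator (fun _ => (1 : ℝ)) y.1 ≤ 1 := fun y =>
    ⟨mul_nonneg (hψb _).1 (ind_bound _ _).1, mul_le_one₀ (hψb _).2 (ind_bound _ _).1
      (ind_bound _ _).2⟩
  have hψ1 : ∀ p, |ψ p| ≤ 1 := fun p => by rw [abs_of_nonneg (hψb p).1]; exact (hψb p).2
  obtain ⟨ut, wt⟩ := tr hT hU hL ht
  obtain ⟨us, ws⟩ := tr hT hU hL hs
  obtain ⟨uiG', wlG'⟩ := trY hT hU uiG wlG
  have ma := mc_ex hC hψm (mc1 t ⟨ht, le_rfl⟩) (mc1 s ⟨hs, hst⟩)
  have mb := mc_ex hC hχm (mc_snd hC (T := t) (mc1 t ⟨ht, le_rfl⟩)) mc2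
  have l1 := wt.2.2 ψ hψm ⟨1, hψ1⟩
  have l2 := (hW _ volume).1 _ _ _ _ 1 us ws ma
    (fun n p => (mul_ex_bound (hψb p) _).2) (fun p => (mul_ex_bound (hψb p) _).2)
  have l3 := (hW _ (mY t)).1 _ _ _ _ 1 uiG' wlG' mb
    (fun n y => (mul_ex_bound (hχb y) _).2) (fun y => (mul_ex_bound (hχb y) _).2)
  have hle := le_of_tendsto_of_tendsto (l2.add l3) l1 (by
    filter_upwards [hU.1 (hL.apr.Rlim.eventually_ge_atTop M),
      hU.1 (hL.apr.δlim.eventually (ge_mem_nhds hε))] with n h2 h3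
    exact one hF (hts n) (hL.apr.Rpos n) (hL.apr.δpos n) hM0.le h2 h3 hs hst (mc2.1 n)
      (fun p => (hψb p).1) (int_mul (((hU.2.2 _ volume).1 _ ut).1 n) hψm hψ1)
      (int_mul (((hU.2.2 _ volume).1 _ us).1 n) (ma.1 n) (fun p => (mul_ex_bound (hψb p) _).2))
      (int_mul (((hU.2.2 _ (mY t)).1 _ uiG').1 n) (mb.1 n)
        (fun y => (mul_ex_bound (hχb y) _).2)))
  have j1 := int_mul wt.2.1 hψm hψ1
  have j2 := int_mul ws.2.1 ma.2.1 (fun p => (mul_ex_bound (hψb p) _).2)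
  have j3 := int_mul wlG'.2.1 mb.2.1 (fun y => (mul_ex_bound (hχb y) _).2)
  have n2 : ∀ p, 0 ≤ F s (fl s p) *
      (ψ p * ex (NN (fun s => nu (F s)) t p, NN (fun s => nu (F s)) s p)) := fun p =>
    mul_nonneg (hL.nonneg _ _) (mul_ex_bound (hψb p) _).1
  have n3 : ∀ y : ℝ × Om, 0 ≤ GG (kT M) M⁻¹ F (fy y) *
      (ψ y.2 * (Icc s t).indicator (fun _ => (1 : ℝ)) y.1 *
        ex (NN (fun s => nu (F s)) t y.2, NN (fun s => nu (F s)) y.1 y.2)) := fun y =>
    mul_nonneg (GG_nonneg _ hε.le hL.nonneg _) (mul_ex_bound (hχb y) _).1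
  rw [← ofReal_integral_eq_lintegral_ofReal j1
      (Eventually.of_forall fun p => mul_nonneg (hL.nonneg _ _) (hψb p).1),
    ← ofReal_integral_eq_lintegral_ofReal j2 (Eventually.of_forall n2),
    ← ofReal_integral_eq_lintegral_ofReal j3 (Eventually.of_forall n3),
    ← ENNReal.ofReal_add (integral_nonneg n2) (integral_nonneg n3)]
  exact ENNReal.ofReal_le_ofReal hle

end Super

open Super in
theorem super (hM : MeasStmt) (hT : TorusStmt) (hU : UIStmt) (hW : WLStmt) (hC : MCStmt)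
    (hF : TSFlStmt) (hN : NuExpStmt) (hG : GainWStmt) : SuperStmt := by
  intro R δ Fn F₀ F hL s t hs hst
  have ht : 0 ≤ t := hs.trans hst
  have hsub : Icc s t ⊆ Icc 0 t := Icc_subset_Icc hs le_rfl
  obtain ⟨hint, mc1, mc2, -⟩ := hN R δ Fn F₀ F hL t ht
  set N : ℝ → Om → ℝ := NN (fun s => nu (F s)) with hNdef
  have hNm : Measurable fun y : ℝ × Om => N y.1 y.2 := mc2.2.1
  have hQm : Measurable fun y : ℝ × Om => Qp (F y.1) (fl y.1 y.2) :=
    (hM.2.2.2.2.1 F hL.meas 0 0).2.2.2.2.2.1.comp measurable_fy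
  have hexm : Measurable fun y : ℝ × Om => ex (N t y.2, N y.1 y.2) :=
    continuous_ex.measurable.comp
      ((hNm.comp (measurable_const.prodMk measurable_snd)).prodMk hNm)
  have hFm : ∀ r, Measurable fun p => F r (fl r p) := fun r =>
    hL.meas.comp (measurable_const.prodMk (measurable_fl r))
  set D : Om → ℝ≥0∞ := fun p => ∫⁻ r in Icc s t, Qp (F r) (fl r p) *
    ENNReal.ofReal (ex (N t p, N r p)) with hD
  have hDm : Measurable D := (hQm.mul hexm.ennreal_ofReal).lintegral_prod_left'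
  have hm1 : Measurable fun p => ENNReal.ofReal (F s (fl s p) * ex (N t p, N s p)) :=
    ((hFm s).mul (hexm.comp measurable_prodMk_left)).ennreal_ofReal
  have hfin : ∀ᵐ y ∂(mY t), ∀ k : ℕ, gainK (kT ((k : ℝ) + 1)) (sl (F (fy y).1) (fy y).2.1)
      (sl (F (fy y).1) (fy y).2.1) (fy y).2.2 ≠ ⊤ := by
    refine (fy_pres hT t).quasiMeasurePreserving.ae (p := fun y : ℝ × Om => ∀ k : ℕ,
      gainK (kT ((k : ℝ) + 1)) (sl (F y.1) y.2.1) (sl (F y.1) y.2.1) y.2.2 ≠ ⊤) ?_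
    rw [ae_all_iff]
    intro k
    exact (hG R δ Fn F₀ F hL t 1 ((k : ℝ) + 1) (kT _) one_pos (hM.2.1 _)
      (kT_le (by positivity))).1
  have main : ∀ᵐ p, ENNReal.ofReal (F s (fl s p) * ex (N t p, N s p)) + D p ≤
      ENNReal.ofReal (F t (fl t p)) := by
    refine ae_le_of_forall_setLIntegral_le_of_sigmaFinite (hm1.add hDm) fun A hA _ => ?_
    set χ : ℝ × Om → ℝ := fun y => A.indicator (fun _ => (1 : ℝ)) y.2 *
      (Icc s t).indicator (fun _ => (1 : ℝ)) y.1 * ex (N t y.2, N y.1 y.2) with hχ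
    have hχm : Measurable χ := (((measurable_const.indicator hA).comp measurable_snd).mul
      ((measurable_const.indicator measurableSet_Icc).comp measurable_fst)).mul hexm
    have hχ0 : ∀ y, 0 ≤ χ y := fun y =>
      mul_nonneg (mul_nonneg (ind_bound _ _).1 (ind_bound _ _).1) (ex_pos _).le
    have hGm : ∀ k : ℕ, Measurable fun y => ENNReal.ofReal
        (GG (kT ((k : ℝ) + 1)) ((k : ℝ) + 1)⁻¹ F (fy y) * χ y) := fun k =>
      (((hG R δ Fn F₀ F hL t _ ((k : ℝ) + 1) (kT _) (by positivity) (hM.2.1 _)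
        (kT_le (by positivity))).2.2.1.comp measurable_fy).mul hχm).ennreal_ofReal
    have fat := lintegral_liminf_le (μ := mY t) (u := atTop) hGm
    have e1 : ∫⁻ y, liminf (fun k : ℕ => ENNReal.ofReal
        (GG (kT ((k : ℝ) + 1)) ((k : ℝ) + 1)⁻¹ F (fy y) * χ y)) atTop ∂(mY t) =
        ∫⁻ y, Qp (F y.1) (fl y.1 y.2) * ENNReal.ofReal (χ y) ∂(mY t) := by
      refine lintegral_congr_ae (hfin.mono fun y hy => Tendsto.liminf_eq ?_)
      simp only [ENNReal.ofReal_mul' (hχ0 y)]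
      exact ENNReal.Tendsto.mul_const (tendsto_GG hM hL.meas hL.nonneg (fy y) hy)
        (Or.inr ENNReal.ofReal_ne_top)
    have e2 : ∫⁻ y, Qp (F y.1) (fl y.1 y.2) * ENNReal.ofReal (χ y) ∂(mY t) = ∫⁻ p in A, D p := by
      unfold mY
      have hmm : Measurable fun y : ℝ × Om => Qp (F y.1) (fl y.1 y.2) * ENNReal.ofReal (χ y) :=
        hQm.mul hχm.ennreal_ofReal
      rw [lintegral_prod_symm _ hmm.aemeasurable, ← lintegral_indicator hA]
      refine lintegral_congr fun p => ?_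
      by_cases hp : p ∈ A
      · simp only [hχ, indicator_of_mem hp, one_mul, hD]
        unfold mT
        conv_rhs => rw [← inter_eq_left.2 hsub, ← Measure.restrict_restrict measurableSet_Icc,
          ← lintegral_indicator measurableSet_Icc]
        refine lintegral_congr fun r => ?_
        by_cases hr : r ∈ Icc s t <;> simp [hr]
      · simp [hχ, hp]
    have e3 : ∀ u : Om → ℝ, ∫⁻ p in A, ENNReal.ofReal (u p) =
        ∫⁻ p, ENNReal.ofReal (u p * A.indicator (fun _ => (1 : ℝ)) p) := by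
      intro u
      rw [← lintegral_indicator hA]
      refine lintegral_congr fun p => ?_
      by_cases hp : p ∈ A <;> simp [hp]
    rw [e1, e2] at fat
    rw [lintegral_add_left hm1, e3, e3]
    set a := ∫⁻ p, ENNReal.ofReal (F s (fl s p) * ex (N t p, N s p) *
      A.indicator (fun _ => (1 : ℝ)) p) with ha
    set b := ∫⁻ p, ENNReal.ofReal (F t (fl t p) * A.indicator (fun _ => (1 : ℝ)) p) with hb
    have lev : ∀ k : ℕ, a + ∫⁻ y, ENNReal.ofReal
        (GG (kT ((k : ℝ) + 1)) ((k : ℝ) + 1)⁻¹ F (fy y) * χ y) ∂(mY t) ≤ b := by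
      intro k
      have := level hT hU hW hC hF hM hN hG hL hs hst (measurable_const.indicator hA)
        (ind_bound A) (M := (k : ℝ) + 1) (by positivity)
      refine le_trans (le_of_eq ?_) this
      congr 1
      refine lintegral_congr fun p => ?_
      congr 1
      ring
    by_cases hat : a = ⊤
    · have := lev 0
      rw [hat, top_add] at this ⊢
      exact this
    have hab : a ≤ b := le_trans le_self_add (lev 0)
    rw [add_comm, ← ENNReal.le_sub_iff_add_le_right hat hab]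
    refine fat.trans (liminf_le_of_frequently_le' (Eventually.of_forall fun k => ?_).frequently)
    rw [ENNReal.le_sub_iff_add_le_left hat hab]
    exact lev k
  filter_upwards [main, hint] with p hp hi
  have hex : ∀ r ∈ Icc 0 t, ex (N t p, N r p) = Real.exp (-(N t p - N r p)) := by
    intro r hr
    refine ex_eq ?_
    rw [hNdef, NN_sub (n := fun s => nu (F s)) hi hr ⟨ht, le_rfl⟩]
    exact intervalIntegral.integral_nonneg hr.2 fun u _ => ENNReal.toReal_nonneg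
  have hD' : D p = Duh F s t p := by
    refine setLIntegral_congr_fun measurableSet_Icc fun r hr => ?_
    rw [hex r (hsub hr)]
  rw [← hD', ← hex s ⟨hs, hst⟩]
  exact hp

end

end Vale.Agent.P140
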