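import Vale.Agent.P140.StmA

/-! Symmetry of the hard-sphere gain term. -/

namespace Vale.Agent.P140

open MeasureTheory Set Filter Topology
open scoped ENNReal

noncomputable section

namespace Sym

/-- the point with horizontal part `a` and height `s` -/
def mk (a : ℝ × ℝ) (s : ℝ) : E := !₂[a.1, a.2, s]

lemma continuous_mk : Continuous fun z : (ℝ × ℝ) × ℝ => mk z.1 z.2 := by
  unfold mk
  fun_prop

lemma measurable_mk {α : Type} [MeasurableSpace α] {a : α → ℝ × ℝ} {s : α → ℝ}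
    (ha : Measurable a) (hs : Measurable s) : Measurable fun x => mk (a x) (s x) :=
  continuous_mk.measurable.comp (ha.prodMk hs)

lemma lint_E {f : E → ℝ≥0∞} (hf : Measurable f) :
    ∫⁻ p, f p = ∫⁻ a : ℝ × ℝ, ∫⁻ s : ℝ, f (mk a s) := by
  have h1 := PiLp.volume_preserving_toLp (Fin 3)
  have h2 := (volume_preserving_piFinSuccAbove (fun _ : Fin 3 => ℝ) 2).symm
  have h3 := (MeasurePreserving.id (volume : Measure ℝ)).prod
    (volume_preserving_finTwoArrow ℝ).symm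
  have h4 := ((h1.comp h2).comp h3).comp
    (Measure.measurePreserving_swap (μ := (volume : Measure (ℝ × ℝ))) (ν := (volume : Measure ℝ)))
  rw [← h4.lintegral_comp hf]
  refine (lintegral_prod _ (hf.comp h4.measurable).aemeasurable).trans ?_
  refine lintegral_congr fun a => lintegral_congr fun s => congrArg f ?_
  ext i
  fin_cases i <;> rfl

lemma one_dim {m : ℝ} (hm : m ≠ 0) (G : ℝ → ℝ → ℝ≥0∞) :
    ∫⁻ s, (ENNReal.ofReal |s|)⁻¹ * G s (m / s) = ∫⁻ s, (ENNReal.ofReal |s|)⁻¹ * G (m / s) s := by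
  have hS : MeasurableSet ({0}ᶜ : Set ℝ) := (measurableSet_singleton 0).compl
  have him : (fun s : ℝ => m / s) '' {0}ᶜ = {0}ᶜ := by
    ext x
    constructor
    · rintro ⟨s, hs, rfl⟩
      exact div_ne_zero hm hs
    · intro hx
      have hx' : x ≠ 0 := hx
      exact ⟨m / x, div_ne_zero hm hx', by field_simp⟩
  have h := lintegral_image_eq_lintegral_abs_deriv_mul (f := fun s : ℝ => m / s)
    (f' := fun s => -m / s ^ 2) hS (fun s hs => by
      have hs' : s ≠ 0 := hs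
      have := ((hasDerivAt_inv hs').const_mul m).hasDerivWithinAt (s := {0}ᶜ)
      simpa [div_eq_mul_inv] using this)
    (fun s hs t ht h => by
      have hs' : s ≠ 0 := hs
      have ht' : t ≠ 0 := ht
      simp only at h
      rw [div_eq_div_iff hs' ht'] at h
      exact (mul_left_cancel₀ hm h).symm)
    (fun s => (ENNReal.ofReal |s|)⁻¹ * G s (m / s))
  rw [him, restrict_compl_singleton] at h
  rw [h]
  refine lintegral_congr_ae ?_
  filter_upwards [Measure.ae_ne volume 0] with s hs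
  have e1 : m / (m / s) = s := by field_simp
  have p1 : 0 < |m / s| := abs_pos.2 (div_ne_zero hm hs)
  have p2 : 0 < |s| := abs_pos.2 hs
  have p3 : 0 < |m| := abs_pos.2 hm
  rw [e1, ← mul_assoc, ← ENNReal.ofReal_inv_of_pos p1, ← ENNReal.ofReal_inv_of_pos p2,
    ← ENNReal.ofReal_mul (abs_nonneg _)]
  congr 2
  rw [abs_div, abs_div, abs_neg, abs_pow]
  field_simp

lemma ae_ne : ∀ᵐ a : ℝ × ℝ, ∀ᵐ y : ℝ × ℝ, -(a.1 * y.1 + a.2 * y.2) ≠ 0 := by
  have h1 : ∀ᵐ a : ℝ × ℝ, a.2 ≠ 0 :=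
    (Measure.quasiMeasurePreserving_snd (μ := (volume : Measure ℝ))
      (ν := (volume : Measure ℝ))).ae (Measure.ae_ne volume 0)
  filter_upwards [h1] with a ha
  have hm : MeasurableSet {y : ℝ × ℝ | -(a.1 * y.1 + a.2 * y.2) ≠ 0} :=
    (isOpen_ne_fun (by fun_prop) continuous_const).measurableSet
  refine (Measure.ae_prod_mem_iff_ae_ae_mem hm).2 (ae_of_all _ fun u => ?_)
  filter_upwards [Measure.ae_ne volume (-(a.1 * u) / a.2)] with w hw h
  refine hw ?_
  rw [eq_div_iff ha]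
  linarith

lemma red {Ψ : E × E → ℝ≥0∞} (hΨ : Measurable Ψ) :
    ∫⁻ p : E, ∫⁻ y : ℝ × ℝ, (ENNReal.ofReal |p 2|)⁻¹ * Ψ (p, gr p y)
      = ∫⁻ a : ℝ × ℝ, ∫⁻ y : ℝ × ℝ, ∫⁻ s : ℝ, (ENNReal.ofReal |s|)⁻¹ *
          Ψ (mk a s, mk y (-(a.1 * y.1 + a.2 * y.2) / s)) := by
  have hg : Measurable fun z : E × (ℝ × ℝ) => gr z.1 z.2 :=
    measurable_mk (a := fun z : E × (ℝ × ℝ) => z.2)
      (s := fun z => -(z.1 0 * z.2.1 + z.1 1 * z.2.2) / z.1 2) measurable_snd (by fun_prop)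
  have hm : Measurable fun z : E × (ℝ × ℝ) =>
      (ENNReal.ofReal |z.1 2|)⁻¹ * Ψ (z.1, gr z.1 z.2) :=
    (by fun_prop : Measurable fun z : E × (ℝ × ℝ) => (ENNReal.ofReal |z.1 2|)⁻¹).mul
      (hΨ.comp (measurable_fst.prodMk hg))
  rw [lint_E hm.lintegral_prod_right']
  refine lintegral_congr fun a => ?_
  refine lintegral_lintegral_swap (f := fun (s : ℝ) (y : ℝ × ℝ) => (ENNReal.ofReal |s|)⁻¹ *
    Ψ (mk a s, mk y (-(a.1 * y.1 + a.2 * y.2) / s))) ?_
  exact (hm.comp ((measurable_mk measurable_const measurable_fst).prodMk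
    measurable_snd)).aemeasurable

lemma core {Ψ : E × E → ℝ≥0∞} (hΨ : Measurable Ψ) :
    ∫⁻ p : E, ∫⁻ y : ℝ × ℝ, (ENNReal.ofReal |p 2|)⁻¹ * Ψ (p, gr p y)
      = ∫⁻ p : E, ∫⁻ y : ℝ × ℝ, (ENNReal.ofReal |p 2|)⁻¹ * Ψ (gr p y, p) := by
  have e := red (Ψ := fun z => Ψ z.swap) (hΨ.comp measurable_swap)
  simp only [Prod.swap_prod_mk] at e
  rw [red hΨ, e]
  have hm : Measurable fun z : ((ℝ × ℝ) × (ℝ × ℝ)) × ℝ => (ENNReal.ofReal |z.2|)⁻¹ *
      Ψ (mk z.1.2 (-(z.1.1.1 * z.1.2.1 + z.1.1.2 * z.1.2.2) / z.2), mk z.1.1 z.2) :=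
    (by fun_prop : Measurable fun z : ((ℝ × ℝ) × (ℝ × ℝ)) × ℝ => (ENNReal.ofReal |z.2|)⁻¹).mul
      (hΨ.comp ((measurable_mk (by fun_prop) (by fun_prop)).prodMk
        (measurable_mk (by fun_prop) (by fun_prop))))
  rw [lintegral_lintegral_swap (f := fun (a y : ℝ × ℝ) => ∫⁻ s : ℝ, (ENNReal.ofReal |s|)⁻¹ *
    Ψ (mk y (-(a.1 * y.1 + a.2 * y.2) / s), mk a s)) hm.lintegral_prod_right'.aemeasurable]
  refine lintegral_congr_ae ?_
  filter_upwards [ae_ne] with a ha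
  refine lintegral_congr_ae ?_
  filter_upwards [ha] with y hy
  rw [one_dim hy fun s t => Ψ (mk a s, mk y t), mul_comm y.1, mul_comm y.2]

end Sym

theorem sym (h : GraphStmt) (_hM : MeasStmt) : SymStmt := by
  have h1 : ∀ (Φ : E × E → ℝ≥0∞), Measurable Φ → ∀ v : E,
      ∫⁻ q : E × S2, ENNReal.ofReal |cf v q.1 q.2| * Φ (vp v q.1 q.2, wp v q.1 q.2)
        ∂(volume.prod sph) =
      ∫⁻ q : E × S2, ENNReal.ofReal |cf v q.1 q.2| * Φ (wp v q.1 q.2, vp v q.1 q.2)
        ∂(volume.prod sph) := by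
    intro Φ hΦ v
    have m1 : Measurable fun z : E × E => Φ (v - z.1, v - z.2) := hΦ.comp (by fun_prop)
    have e1 := h _ m1 v
    have e2 := h (fun z : E × E => Φ (v - z.2, v - z.1)) (hΦ.comp (by fun_prop)) v
    simp only [sub_sub_cancel] at e1 e2
    rw [e1, e2, Sym.core m1]
  refine ⟨h1, fun f g hf hg v => ⟨?_, fun R => ?_⟩⟩
  · have e := h1 (fun z => f z.1 * g z.2) ((hf.comp measurable_fst).mul (hg.comp measurable_snd)) v
    simp only [mul_comm (f (wp _ _ _))] at e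
    exact e
  · have hs : MeasurableSet {z : E × E | ‖z.1 - z.2‖ ≤ R} :=
      (isClosed_le (by fun_prop) continuous_const).measurableSet
    have e := h1 (fun z => if ‖z.1 - z.2‖ ≤ R then f z.1 * g z.2 else 0)
      (Measurable.ite hs ((hf.comp measurable_fst).mul (hg.comp measurable_snd))
        measurable_const) v
    simp only [norm_sub_rev (wp _ _ _), norm_post] at e
    unfold gainK kC
    refine Eq.trans (lintegral_congr fun q => ?_) (e.trans (lintegral_congr fun q => ?_))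
    · split_ifs <;> simp
    · split_ifs <;> simp [mul_comm (f _)]

end

end Vale.Agent.P140
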