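import Vale.Agent.P140.StmA

/-!
Pointwise estimates of the truncated collision operators.
-/

namespace Vale.Agent.P140

open MeasureTheory Set Filter Topology
open scoped ENNReal

noncomputable section

namespace TOp

lemma integrable_exp_neg : Integrable (fun v : E => Real.exp (-‖v‖)) := by
  have h := (integrable_one_add_norm (E := E) (μ := volume) (r := 4)
    (by simp; norm_num)).const_mul (24 * Real.exp 1)
  refine h.mono' (by fun_prop) (Eventually.of_forall fun v => ?_)
  rw [Real.norm_eq_abs, abs_of_pos (Real.exp_pos _)]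
  have h0 : 0 < 1 + ‖v‖ := by positivity
  have h1 := Real.pow_div_factorial_le_exp (1 + ‖v‖) h0.le 4
  have h2 : (1 + ‖v‖) ^ (-(4 : ℝ)) = ((1 + ‖v‖) ^ 4)⁻¹ := by
    rw [Real.rpow_neg h0.le]
    norm_num
  rw [h2, ← div_eq_mul_inv, le_div_iff₀ (by positivity)]
  have h3 : (Nat.factorial 4 : ℝ) = 24 := by norm_num [Nat.factorial]
  rw [h3, div_le_iff₀ (by norm_num), Real.exp_add] at h1
  have h4 : Real.exp (-‖v‖) * Real.exp ‖v‖ = 1 := by rw [← Real.exp_add]; simp
  calc Real.exp (-‖v‖) * (1 + ‖v‖) ^ 4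
      ≤ Real.exp (-‖v‖) * (Real.exp 1 * Real.exp ‖v‖ * 24) := by gcongr
    _ = 24 * Real.exp 1 * (Real.exp (-‖v‖) * Real.exp ‖v‖) := by ring
    _ = 24 * Real.exp 1 := by rw [h4, mul_one]

/-- The integral of the weight. -/
def I0 : ℝ := ∫ v : E, Real.exp (-‖v‖)

lemma I0_nonneg : 0 ≤ I0 := integral_nonneg fun _ => (Real.exp_pos _).le

lemma kT_le (R a r : ℝ) (hR : 0 < R) (har : a ≤ r) : kT R a r ≤ R := by
  unfold kT
  split_ifs with h
  · exact (min_le_left _ _).trans (har.trans h)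
  · exact hR.le

lemma norm_sub_vp (v w : E) (ω : S2) : ‖v - vp v w ω‖ = |cf v w ω| := by
  have : v - vp v w ω = cf v w ω • (ω : E) := by unfold vp; abel
  rw [this, norm_smul, norm_S2, mul_one, Real.norm_eq_abs]

lemma norm_sub_wp_le (v w : E) (ω : S2) : ‖v - wp v w ω‖ ≤ ‖v - w‖ := by
  have h : v - wp v w ω = (v - w) - cf v w ω • (ω : E) := by unfold wp; abel
  have h2 : ‖v - wp v w ω‖ ^ 2 ≤ ‖v - w‖ ^ 2 := by
    rw [h, norm_sq_sub_smul]
    have : inner ℝ (v - w) (ω : E) = cf v w ω := rfl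
    rw [this]
    nlinarith [sq_nonneg (cf v w ω)]
  exact (pow_le_pow_iff_left₀ (norm_nonneg _) (norm_nonneg _) two_ne_zero).1 h2

/-- Area of the disc of radius R. -/
def disc (R : ℝ) : ℝ := (volume (Metric.closedBall (0 : E2) R)).toReal

lemma disc_nonneg (R : ℝ) : 0 ≤ disc R := ENNReal.toReal_nonneg

lemma ofReal_disc (R : ℝ) :
    ENNReal.ofReal (disc R) = volume (Metric.closedBall (0 : E2) R) :=
  ENNReal.ofReal_toReal measure_closedBall_lt_top.ne

/-- The constant of the gain estimate. -/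
def K1 (R : ℝ) : ℝ := 2 * R * disc R * Real.exp R

lemma K1_nonneg {R : ℝ} (hR : 0 < R) : 0 ≤ K1 R := by
  unfold K1; have := disc_nonneg R; positivity

lemma gain_le (hC : CarlStmt) {R : ℝ} (hR : 0 < R) (f g : E → ℝ≥0∞) (hf : Measurable f)
    (C : ℝ) (hC0 : 0 ≤ C) (hg : ∀ u, g u ≤ ENNReal.ofReal (C * Real.exp (-‖u‖))) (v : E) :
    gainK (kT R) f g v ≤ ENNReal.ofReal (K1 R * C * Real.exp (-‖v‖)) * ∫⁻ u, f u := by
  obtain ⟨ι, -, hι⟩ := hC
  set c : ℝ≥0∞ := ENNReal.ofReal (C * Real.exp R * Real.exp (-‖v‖)) with hc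
  set Φ : E × E → ℝ≥0∞ := fun z => ENNReal.ofReal (R * ‖z.1‖) * f (v - z.1) *
    (Metric.closedBall (0 : E) R).indicator (fun _ => c) z.2 with hΦ
  have hΦm : Measurable Φ := by
    refine Measurable.mul (Measurable.mul (by fun_prop) (hf.comp (by fun_prop))) ?_
    exact (measurable_const.indicator measurableSet_closedBall).comp measurable_snd
  have h1 : gainK (kT R) f g v ≤ ∫⁻ q : E × S2, ENNReal.ofReal |cf v q.1 q.2| *
      Φ (v - vp v q.1 q.2, v - wp v q.1 q.2) ∂(volume.prod sph) := by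
    unfold gainK
    refine lintegral_mono fun q => ?_
    by_cases h : ‖v - q.1‖ ≤ R
    · have hw : ‖v - wp v q.1 q.2‖ ≤ R := (norm_sub_wp_le _ _ _).trans h
      have hmem : v - wp v q.1 q.2 ∈ Metric.closedBall (0 : E) R := by
        simpa using hw
      have hk : kT R |cf v q.1 q.2| ‖v - q.1‖ ≤ |cf v q.1 q.2| * (R * |cf v q.1 q.2|) := by
        unfold kT
        rw [if_pos h]
        refine (min_le_right _ _).trans (le_of_eq ?_)
        ring
      have hgw : g (wp v q.1 q.2) ≤ c := by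
        refine (hg _).trans (ENNReal.ofReal_le_ofReal ?_)
        rw [mul_assoc, ← Real.exp_add]
        refine mul_le_mul_of_nonneg_left (Real.exp_le_exp.2 ?_) hC0
        have := norm_sub_norm_le v (wp v q.1 q.2)
        linarith
      simp only [hΦ, indicator_of_mem hmem, norm_sub_vp, sub_sub_cancel]
      calc ENNReal.ofReal (kT R |cf v q.1 q.2| ‖v - q.1‖) * (f (vp v q.1 q.2) * g (wp v q.1 q.2))
          ≤ ENNReal.ofReal (|cf v q.1 q.2| * (R * |cf v q.1 q.2|)) * (f (vp v q.1 q.2) * c) := by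
            gcongr
        _ = _ := by
            rw [ENNReal.ofReal_mul (abs_nonneg _)]
            ring
    · have hk : kT R |cf v q.1 q.2| ‖v - q.1‖ = 0 := by
        unfold kT; rw [if_neg h]
      simp [hk]
  rw [(hι Φ hΦm).2 v] at h1
  refine h1.trans ?_
  have h2 : ∀ p : E, (ENNReal.ofReal ‖p‖)⁻¹ * ∫⁻ y : E2, Φ (p, ι p y) ≤
      (ENNReal.ofReal R * (c * ENNReal.ofReal (disc R))) * f (v - p) := by
    intro p
    have h3 : ∀ y : E2, Φ (p, ι p y) = ENNReal.ofReal (R * ‖p‖) * f (v - p) *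
        (Metric.closedBall (0 : E2) R).indicator (fun _ => c) y := by
      intro y
      simp only [hΦ]
      congr 1
      by_cases hy : ‖y‖ ≤ R
      · rw [indicator_of_mem (by simpa using hy), indicator_of_mem (by simpa using hy)]
      · rw [indicator_of_notMem (by simpa using hy), indicator_of_notMem (by simpa using hy)]
    simp only [h3]
    rw [lintegral_const_mul _ (measurable_const.indicator measurableSet_closedBall),
      lintegral_indicator_const measurableSet_closedBall, ← ofReal_disc,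
      ENNReal.ofReal_mul hR.le]
    have h4 : (ENNReal.ofReal ‖p‖)⁻¹ * ENNReal.ofReal ‖p‖ ≤ 1 := ENNReal.inv_mul_le_one _
    calc (ENNReal.ofReal ‖p‖)⁻¹ * (ENNReal.ofReal R * ENNReal.ofReal ‖p‖ * f (v - p) *
          (c * ENNReal.ofReal (disc R)))
        = ((ENNReal.ofReal ‖p‖)⁻¹ * ENNReal.ofReal ‖p‖) *
          ((ENNReal.ofReal R * (c * ENNReal.ofReal (disc R))) * f (v - p)) := by ring
      _ ≤ 1 * ((ENNReal.ofReal R * (c * ENNReal.ofReal (disc R))) * f (v - p)) := by gcongr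
      _ = _ := one_mul _
  calc 2 * ∫⁻ p : E, (ENNReal.ofReal ‖p‖)⁻¹ * ∫⁻ y : E2, Φ (p, ι p y)
      ≤ 2 * ∫⁻ p : E, (ENNReal.ofReal R * (c * ENNReal.ofReal (disc R))) * f (v - p) :=
        mul_le_mul_right (lintegral_mono h2) _
    _ = 2 * (ENNReal.ofReal R * (c * ENNReal.ofReal (disc R))) * ∫⁻ u, f u := by
        have hm : Measurable fun p : E => f (v - p) := hf.comp (by fun_prop)
        rw [lintegral_const_mul _ hm, lintegral_sub_left_eq_self f v, ← mul_assoc]
    _ = _ := by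
        congr 1
        have hd := disc_nonneg R
        have h2' : ∀ x : ℝ, 2 * ENNReal.ofReal x = ENNReal.ofReal (2 * x) := fun x => by
          rw [ENNReal.ofReal_mul (by norm_num)]; simp
        rw [hc, ← ENNReal.ofReal_mul (by positivity), ← ENNReal.ofReal_mul hR.le, h2']
        congr 1
        unfold K1
        ring

/-- Total mass of the sphere. -/
def S0 : ℝ := (sph univ).toReal

lemma S0_nonneg : 0 ≤ S0 := ENNReal.toReal_nonneg

lemma freq_le {R : ℝ} (hR : 0 < R) (g : E → ℝ≥0∞) (hg : Measurable g) (v : E) :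
    freqK (kT R) g v ≤ ENNReal.ofReal (R * S0) * ∫⁻ u, g u := by
  unfold freqK
  calc ∫⁻ q : E × S2, ENNReal.ofReal (kT R |cf v q.1 q.2| ‖v - q.1‖) * g q.1 ∂(volume.prod sph)
      ≤ ∫⁻ q : E × S2, (ENNReal.ofReal R * g q.1) * 1 ∂(volume.prod sph) := by
        refine lintegral_mono fun q => ?_
        rw [mul_one]
        gcongr
        exact kT_le _ _ _ hR (abs_cf_le _ _ _)
    _ = (∫⁻ u, ENNReal.ofReal R * g u) * ∫⁻ _ : S2, 1 ∂sph :=
        lintegral_prod_mul (f := fun u => ENNReal.ofReal R * g u) (g := fun _ => 1)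
          (hg.const_mul _).aemeasurable aemeasurable_const
    _ = _ := by
        rw [lintegral_const_mul _ hg, lintegral_const, one_mul, ENNReal.ofReal_mul hR.le]
        unfold S0
        rw [ENNReal.ofReal_toReal (measure_ne_top _ _)]
        ring

lemma tdata_nonneg {C : ℝ} {f : Om → ℝ} (hf : TData C f) : 0 ≤ C := by
  have h := hf.2 (0, 0)
  have h1 := h.1.trans h.2
  exact nonneg_of_mul_nonneg_left h1 (Real.exp_pos _)

lemma sl_meas {f : Om → ℝ} (hf : Measurable f) (x : T3) : Measurable (sl f x) := by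
  unfold sl
  exact (hf.comp measurable_prodMk_left).ennreal_ofReal

lemma sl_le {C : ℝ} {f : Om → ℝ} (hf : TData C f) (x : T3) (u : E) :
    sl f x u ≤ ENNReal.ofReal (C * Real.exp (-‖u‖)) :=
  ENNReal.ofReal_le_ofReal (hf.2 (x, u)).2

lemma tdata_int {C : ℝ} {f : Om → ℝ} (hf : TData C f) (x : T3) :
    Integrable (fun v => f (x, v)) := by
  refine (integrable_exp_neg.const_mul C).mono'
    (hf.1.comp measurable_prodMk_left).aestronglyMeasurable (Eventually.of_forall fun v => ?_)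
  rw [Real.norm_eq_abs, abs_of_nonneg (hf.2 (x, v)).1]
  exact (hf.2 (x, v)).2

lemma rho_nonneg {C : ℝ} {f : Om → ℝ} (hf : TData C f) (x : T3) : 0 ≤ rho f x :=
  integral_nonneg fun v => (hf.2 (x, v)).1

lemma lint_sl {C : ℝ} {f : Om → ℝ} (hf : TData C f) (x : T3) :
    ∫⁻ u, sl f x u = ENNReal.ofReal (rho f x) := by
  unfold sl rho
  rw [ofReal_integral_eq_lintegral_ofReal (tdata_int hf x)
    (Eventually.of_forall fun v => (hf.2 (x, v)).1)]

lemma rho_le {C : ℝ} {f : Om → ℝ} (hf : TData C f) (x : T3) : rho f x ≤ C * I0 := by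
  unfold rho I0
  rw [← integral_const_mul]
  exact integral_mono (tdata_int hf x) (integrable_exp_neg.const_mul C)
    fun v => (hf.2 (x, v)).2

lemma gain_rho (hC : CarlStmt) {R : ℝ} (hR : 0 < R) {C D : ℝ} {f g : Om → ℝ} (hf : TData C f)
    (hg : TData D g) (x : T3) (v : E) :
    gainK (kT R) (sl f x) (sl g x) v ≤
      ENNReal.ofReal (K1 R * D * Real.exp (-‖v‖) * rho f x) := by
  have h := gain_le hC hR (sl f x) (sl g x) (sl_meas hf.1 x) D (tdata_nonneg hg) (sl_le hg x) v
  have h1 := K1_nonneg hR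
  have h2 := tdata_nonneg hg
  rwa [lint_sl hf, ← ENNReal.ofReal_mul (by positivity)] at h

lemma gain_bil (hC : CarlStmt) {R : ℝ} (hR : 0 < R) {C D : ℝ} {f g : Om → ℝ} (hf : TData C f)
    (hg : TData D g) (x : T3) (v : E) :
    gainK (kT R) (sl f x) (sl g x) v ≤
      ENNReal.ofReal (K1 R * I0 * C * D * Real.exp (-‖v‖)) := by
  refine (gain_rho hC hR hf hg x v).trans (ENNReal.ofReal_le_ofReal ?_)
  have h1 := K1_nonneg hR
  have h2 := tdata_nonneg hg
  calc K1 R * D * Real.exp (-‖v‖) * rho f x ≤ K1 R * D * Real.exp (-‖v‖) * (C * I0) := by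
        gcongr
        exact rho_le hf x
    _ = _ := by ring

lemma freq_rho {R : ℝ} (hR : 0 < R) {C : ℝ} {f : Om → ℝ} (hf : TData C f) (x : T3) (v : E) :
    freqK (kT R) (sl f x) v ≤ ENNReal.ofReal (R * S0 * rho f x) := by
  have h := freq_le hR (sl f x) (sl_meas hf.1 x) v
  have h1 := S0_nonneg
  rwa [lint_sl hf, ← ENNReal.ofReal_mul (by positivity)] at h

lemma ker_meas (hM : MeasStmt) (R : ℝ) (v : E) :
    Measurable (fun q : E × S2 => ENNReal.ofReal (kT R |cf v q.1 q.2| ‖v - q.1‖)) := by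
  have hk : IsKer (kT R) := hM.2.1 R
  have hcf : Continuous (fun q : E × S2 => cf v q.1 q.2) := by unfold cf; fun_prop
  have h : Measurable (fun q : E × S2 => ((|cf v q.1 q.2|, ‖v - q.1‖) : ℝ × ℝ)) :=
    (hcf.abs.prodMk (by fun_prop)).measurable
  exact (hk.comp h).ennreal_ofReal

lemma vp_meas (v : E) : Measurable (fun q : E × S2 => vp v q.1 q.2) := by
  have : Continuous (fun q : E × S2 => vp v q.1 q.2) := by unfold vp cf; fun_prop
  exact this.measurable

lemma wp_meas (v : E) : Measurable (fun q : E × S2 => wp v q.1 q.2) := by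
  have : Continuous (fun q : E × S2 => wp v q.1 q.2) := by unfold wp cf; fun_prop
  exact this.measurable

lemma gain_sub (hM : MeasStmt) (R : ℝ) (f g h : E → ℝ≥0∞) (_hf : Measurable f) (hg : Measurable g)
    (hh : Measurable h) (hle : ∀ u, f u ≤ g u + h u) (v : E) :
    gainK (kT R) f f v ≤ gainK (kT R) g g v + (gainK (kT R) g h v + gainK (kT R) h f v) := by
  unfold gainK
  have hk := ker_meas hM R v
  have h1 := vp_meas v
  have h2 := wp_meas v
  have m1 : Measurable fun q : E × S2 => ENNReal.ofReal (kT R |cf v q.1 q.2| ‖v - q.1‖) *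
      (g (vp v q.1 q.2) * h (wp v q.1 q.2)) := hk.mul ((hg.comp h1).mul (hh.comp h2))
  have m2 : Measurable fun q : E × S2 => ENNReal.ofReal (kT R |cf v q.1 q.2| ‖v - q.1‖) *
      (g (vp v q.1 q.2) * g (wp v q.1 q.2)) := hk.mul ((hg.comp h1).mul (hg.comp h2))
  rw [← lintegral_add_left m1, ← lintegral_add_left m2]
  refine lintegral_mono fun q => ?_
  rw [← mul_add, ← mul_add]
  gcongr
  calc f (vp v q.1 q.2) * f (wp v q.1 q.2)
      ≤ (g (vp v q.1 q.2) + h (vp v q.1 q.2)) * f (wp v q.1 q.2) := by gcongr; exact hle _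
    _ = g (vp v q.1 q.2) * f (wp v q.1 q.2) + h (vp v q.1 q.2) * f (wp v q.1 q.2) := by ring
    _ ≤ g (vp v q.1 q.2) * (g (wp v q.1 q.2) + h (wp v q.1 q.2)) +
        h (vp v q.1 q.2) * f (wp v q.1 q.2) := by gcongr; exact hle _
    _ = _ := by ring

lemma freq_sub (hM : MeasStmt) (R : ℝ) (f g h : E → ℝ≥0∞) (hg : Measurable g)
    (hle : ∀ u, f u ≤ g u + h u) (v : E) :
    freqK (kT R) f v ≤ freqK (kT R) g v + freqK (kT R) h v := by
  unfold freqK
  have hk := ker_meas hM R v
  have m1 : Measurable fun q : E × S2 => ENNReal.ofReal (kT R |cf v q.1 q.2| ‖v - q.1‖) *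
      g q.1 := hk.mul (hg.comp measurable_fst)
  rw [← lintegral_add_left m1]
  refine lintegral_mono fun q => ?_
  rw [← mul_add]
  gcongr
  exact hle _

lemma toReal_le_add {a b : ℝ≥0∞} {e : ℝ} (hb : b ≠ ⊤) (he : 0 ≤ e)
    (h : a ≤ b + ENNReal.ofReal e) : a.toReal ≤ b.toReal + e := by
  have := ENNReal.toReal_mono (by finiteness) h
  rwa [ENNReal.toReal_add hb ENNReal.ofReal_ne_top, ENNReal.toReal_ofReal he] at this

lemma quot_lip {A B a b δ e1 e2 M : ℝ} (hδ : 0 < δ) (ha : 0 ≤ a) (hb : 0 ≤ b) (hB : 0 ≤ B)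
    (hBM : B ≤ M) (h1 : |A - B| ≤ e1) (h2 : |a - b| ≤ e2) :
    |A / (1 + δ * a) - B / (1 + δ * b)| ≤ e1 + M * (δ * e2) := by
  have hu : 1 ≤ 1 + δ * a := by nlinarith
  have hw : 1 ≤ 1 + δ * b := by nlinarith
  have hu0 : 0 < 1 + δ * a := by linarith
  have hw0 : 0 < 1 + δ * b := by linarith
  have e : A / (1 + δ * a) - B / (1 + δ * b) =
      (A - B) / (1 + δ * a) + B * (δ * (b - a)) / ((1 + δ * a) * (1 + δ * b)) := by
    field_simp
    ring
  rw [e]
  refine (abs_add_le _ _).trans (add_le_add ?_ ?_)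
  · rw [abs_div, abs_of_pos hu0]
    exact (div_le_self (abs_nonneg _) hu).trans h1
  · rw [abs_div, abs_of_pos (mul_pos hu0 hw0)]
    refine (div_le_self (abs_nonneg _) (one_le_mul_of_one_le_of_one_le hu hw)).trans ?_
    rw [abs_mul, abs_mul, abs_of_nonneg hB, abs_of_pos hδ, abs_sub_comm]
    have := hB.trans hBM
    gcongr

lemma tdata_diff {C ε : ℝ} {f g : Om → ℝ} (hf : TData C f) (hg : TData C g)
    (h : ∀ p : Om, |f p - g p| ≤ ε * Real.exp (-‖p.2‖)) : TData ε (fun p => |f p - g p|) :=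
  ⟨(hf.1.sub hg.1).abs, fun p => ⟨abs_nonneg _, h p⟩⟩

lemma sl_le_add {f g h : Om → ℝ} (hle : ∀ p, f p ≤ g p + h p) (x : T3) (u : E) :
    sl f x u ≤ sl g x u + sl h x u :=
  (ENNReal.ofReal_le_ofReal (hle (x, u))).trans ENNReal.ofReal_add_le

lemma gain_diff (hM : MeasStmt) (hC : CarlStmt) {R : ℝ} (hR : 0 < R) {C ε : ℝ} {f g h : Om → ℝ}
    (hf : TData C f) (hg : TData C g) (hh : TData ε h) (hle : ∀ p, f p ≤ g p + h p)
    (x : T3) (v : E) :
    (gainK (kT R) (sl f x) (sl f x) v).toReal ≤ (gainK (kT R) (sl g x) (sl g x) v).toReal +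
      2 * (K1 R * I0 * C * ε * Real.exp (-‖v‖)) := by
  have h1 := K1_nonneg hR
  have h2 := tdata_nonneg hf
  have h3 := tdata_nonneg hh
  have h4 := I0_nonneg
  refine toReal_le_add (ne_top_of_le_ne_top ENNReal.ofReal_ne_top (gain_bil hC hR hg hg x v))
    (by positivity) ?_
  refine (gain_sub hM R _ _ _ (sl_meas hf.1 x) (sl_meas hg.1 x) (sl_meas hh.1 x)
    (sl_le_add hle x) v).trans ?_
  gcongr
  refine (add_le_add (gain_bil hC hR hg hh x v) (gain_bil hC hR hh hf x v)).trans ?_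
  rw [← ENNReal.ofReal_add (by positivity) (by positivity)]
  exact ENNReal.ofReal_le_ofReal (le_of_eq (by ring))

lemma freq_diff (hM : MeasStmt) {R : ℝ} (hR : 0 < R) {C ε : ℝ} {f g h : Om → ℝ}
    (hg : TData C g) (hh : TData ε h) (hle : ∀ p, f p ≤ g p + h p)
    (x : T3) (v : E) :
    (freqK (kT R) (sl f x) v).toReal ≤ (freqK (kT R) (sl g x) v).toReal + R * S0 * (ε * I0) := by
  have h1 := S0_nonneg
  have h3 := tdata_nonneg hh
  have h4 := I0_nonneg
  refine toReal_le_add (ne_top_of_le_ne_top ENNReal.ofReal_ne_top (freq_rho hR hg x v))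
    (by positivity) ?_
  refine (freq_sub hM R _ _ _ (sl_meas hg.1 x) (sl_le_add hle x) v).trans ?_
  gcongr
  refine (freq_rho hR hh x v).trans (ENNReal.ofReal_le_ofReal ?_)
  gcongr
  exact rho_le hh x

lemma rho_diff {C ε : ℝ} {f g h : Om → ℝ} (hf : TData C f)
    (hg : TData C g) (hh : TData ε h) (hle : ∀ p, f p ≤ g p + h p) (x : T3) :
    rho f x ≤ rho g x + ε * I0 := by
  refine le_trans ?_ (add_le_add le_rfl (rho_le hh x))
  unfold rho
  rw [← integral_add (tdata_int hg x) (tdata_int hh x)]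
  exact integral_mono (tdata_int hf x) ((tdata_int hg x).add (tdata_int hh x))
    fun v => hle (x, v)

lemma div_le_of {A K r δ : ℝ} (hδ : 0 < δ) (hr : 0 ≤ r) (hK : 0 ≤ K) (h : A ≤ K * r) :
    A / (1 + δ * r) ≤ K / δ := by
  rw [div_le_div_iff₀ (by positivity) hδ]
  nlinarith

end TOp

open TOp in
theorem tOp (hM : MeasStmt) (hC : CarlStmt) : TOpStmt := by
  intro R δ hR hδ
  have h1 := K1_nonneg hR
  have h2 := S0_nonneg
  have h4 := I0_nonneg
  have hRS : 0 ≤ R * S0 := by positivity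
  obtain ⟨L, hL0, hLa, hLb, hLc, hLd⟩ : ∃ L : ℝ, 0 < L ∧ K1 R / δ ≤ L ∧ R * S0 / δ ≤ L ∧
      K1 R * I0 * (1 + δ * I0) ≤ L ∧ R * S0 * I0 * (1 + δ * I0) ≤ L := by
    have a1 : 0 ≤ K1 R / δ := by positivity
    have a2 : 0 ≤ R * S0 / δ := by positivity
    have a3 : 0 ≤ K1 R * I0 * (1 + δ * I0) := by positivity
    have a4 : 0 ≤ R * S0 * I0 * (1 + δ * I0) := by positivity
    exact ⟨1 + K1 R / δ + R * S0 / δ + K1 R * I0 * (1 + δ * I0) + R * S0 * I0 * (1 + δ * I0),
      by linarith, by linarith, by linarith, by linarith, by linarith⟩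
  refine ⟨L, hL0, ?_, ?_, ?_⟩
  · intro C f hf p
    have hC0 := tdata_nonneg hf
    have hr := rho_nonneg hf p.1
    have hg := gain_rho hC hR hf hf p.1 p.2
    have hn := freq_rho hR hf p.1 p.2
    have he := Real.exp_pos (-‖p.2‖)
    refine ⟨ne_top_of_le_ne_top ENNReal.ofReal_ne_top hg,
      ne_top_of_le_ne_top ENNReal.ofReal_ne_top hn, tdata_int hf p.1, hr, ?_, ?_, ?_, ?_⟩
    · unfold gT; positivity
    · unfold gT
      refine (div_le_of hδ hr (by positivity)
        (ENNReal.toReal_le_of_le_ofReal (by positivity) hg)).trans ?_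
      calc K1 R * C * Real.exp (-‖p.2‖) / δ = K1 R / δ * C * Real.exp (-‖p.2‖) := by ring
        _ ≤ _ := by gcongr
    · unfold nT; positivity
    · unfold nT
      exact (div_le_of hδ hr hRS (ENNReal.toReal_le_of_le_ofReal (by positivity) hn)).trans hLb
  · intro C ε f g hf hg h p
    have hh := tdata_diff hf hg h
    have hC0 := tdata_nonneg hf
    have hε := tdata_nonneg hh
    have he := Real.exp_pos (-‖p.2‖)
    have hfg : ∀ p, f p ≤ g p + |f p - g p| := fun p => by
      have := le_abs_self (f p - g p); linarith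
    have hgf : ∀ p, g p ≤ f p + |f p - g p| := fun p => by
      have := neg_abs_le (f p - g p); linarith
    have hρ : |rho f p.1 - rho g p.1| ≤ ε * I0 := by
      have a := rho_diff hf hg hh hfg p.1
      have b := rho_diff hg hf hh hgf p.1
      rw [abs_le]; constructor <;> linarith
    constructor
    · have hG : |(gainK (kT R) (sl f p.1) (sl f p.1) p.2).toReal -
          (gainK (kT R) (sl g p.1) (sl g p.1) p.2).toReal| ≤
          2 * (K1 R * I0 * C * ε * Real.exp (-‖p.2‖)) := by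
        have a := gain_diff hM hC hR hf hg hh hfg p.1 p.2
        have b := gain_diff hM hC hR hg hf hh hgf p.1 p.2
        rw [abs_le]; constructor <;> linarith
      have hB := ENNReal.toReal_le_of_le_ofReal (by positivity) (gain_bil hC hR hg hg p.1 p.2)
      refine (quot_lip hδ (rho_nonneg hf p.1) (rho_nonneg hg p.1) ENNReal.toReal_nonneg hB hG
        hρ).trans ?_
      have b1 : 2 * C ≤ (1 + C) ^ 2 := by nlinarith
      have b2 : C * C ≤ (1 + C) ^ 2 := by nlinarith
      calc 2 * (K1 R * I0 * C * ε * Real.exp (-‖p.2‖)) +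
            K1 R * I0 * C * C * Real.exp (-‖p.2‖) * (δ * (ε * I0))
          = K1 R * I0 * ((2 * C) + (C * C) * (δ * I0)) * ε * Real.exp (-‖p.2‖) := by ring
        _ ≤ K1 R * I0 * ((1 + C) ^ 2 + (1 + C) ^ 2 * (δ * I0)) * ε * Real.exp (-‖p.2‖) := by
            gcongr
        _ = K1 R * I0 * (1 + δ * I0) * (1 + C) ^ 2 * ε * Real.exp (-‖p.2‖) := by ring
        _ ≤ _ := by gcongr
    · have hN : |(freqK (kT R) (sl f p.1) p.2).toReal - (freqK (kT R) (sl g p.1) p.2).toReal| ≤
          R * S0 * (ε * I0) := by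
        have a := freq_diff (f := f) hM hR hg hh hfg p.1 p.2
        have b := freq_diff (f := g) hM hR hf hh hgf p.1 p.2
        rw [abs_le]; constructor <;> linarith
      have hr := rho_nonneg hg p.1
      have hB : (freqK (kT R) (sl g p.1) p.2).toReal ≤ R * S0 * (C * I0) := by
        refine (ENNReal.toReal_le_of_le_ofReal (by positivity)
          (freq_rho hR hg p.1 p.2)).trans ?_
        gcongr
        exact rho_le hg p.1
      refine (quot_lip hδ (rho_nonneg hf p.1) hr ENNReal.toReal_nonneg hB hN hρ).trans ?_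
      calc R * S0 * (ε * I0) + R * S0 * (C * I0) * (δ * (ε * I0))
          = R * S0 * I0 * (1 + C * (δ * I0)) * ε := by ring
        _ ≤ R * S0 * I0 * ((1 + C) + (1 + C) * (δ * I0)) * ε := by
            gcongr <;> linarith
        _ = R * S0 * I0 * (1 + δ * I0) * (1 + C) * ε := by ring
        _ ≤ _ := by gcongr
  · intro C ε f g hf hg p
    have hC0 := tdata_nonneg hf
    have hε := tdata_nonneg hg
    have he := Real.exp_pos (-‖p.2‖)
    have hL : K1 R * I0 ≤ L := by
      refine le_trans ?_ hLc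
      refine le_mul_of_one_le_right (by positivity) ?_
      have : 0 ≤ δ * I0 := by positivity
      linarith
    constructor
    · refine (gain_bil hC hR hf hg p.1 p.2).trans (ENNReal.ofReal_le_ofReal ?_)
      gcongr
    · refine (gain_bil hC hR hg hf p.1 p.2).trans (ENNReal.ofReal_le_ofReal ?_)
      calc K1 R * I0 * ε * C * Real.exp (-‖p.2‖) = K1 R * I0 * C * ε * Real.exp (-‖p.2‖) := by
            ring
        _ ≤ _ := by gcongr

end

end Vale.Agent.P140
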