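import Vale.Agent.P140.StmA

/-!
Conservation laws of the truncated problem.
-/

namespace Vale.Agent.P140

open MeasureTheory Set Filter Topology
open scoped ENNReal

noncomputable section

namespace TSCons

/-- The weight. -/
def W (v : E) : ℝ := (1 + ‖v‖ ^ 2) * Real.exp (-‖v‖)

lemma W_nonneg (v : E) : 0 ≤ W v := by unfold W; positivity

lemma integrable_W : Integrable W := by
  have h : Integrable (fun x : E => (1 + ‖x‖) ^ (-(4 : ℝ))) := by
    apply integrable_one_add_norm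
    simp; norm_num
  refine (h.const_mul (720 * Real.exp 1)).mono' ?_ (Eventually.of_forall fun v => ?_)
  · unfold W; exact (by fun_prop : Continuous _).aestronglyMeasurable
  · rw [Real.norm_of_nonneg (W_nonneg v)]
    unfold W
    have hr := norm_nonneg v
    set r := ‖v‖
    have h1 : (1 + r) ^ 6 / 720 ≤ Real.exp (1 + r) := by
      have := Real.pow_div_factorial_le_exp (1 + r) (by linarith) 6
      simpa [Nat.factorial] using this
    have h2 : (1 + r) ^ (-(4 : ℝ)) = ((1 + r) ^ 4)⁻¹ := by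
      rw [Real.rpow_neg (by linarith)]
      norm_cast
    rw [h2, Real.exp_neg, ← div_eq_mul_inv, ← div_eq_mul_inv,
      div_le_div_iff₀ (Real.exp_pos _) (by positivity)]
    rw [Real.exp_add] at h1
    have h3 : (1 + r ^ 2) * (1 + r) ^ 4 ≤ (1 + r) ^ 2 * (1 + r) ^ 4 :=
      mul_le_mul_of_nonneg_right (by nlinarith) (by positivity)
    nlinarith

lemma integrable_WO : Integrable (fun p : Om => W p.2) := by
  have h := (integrable_const (μ := (volume : Measure T3)) (1 : ℝ)).mul_prod integrable_W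
  simp only [one_mul] at h
  exact h

lemma lint_inv (hW : WeakStmt) (k : ℝ → ℝ → ℝ) (hk : IsKer k) (a φ : E → ℝ≥0∞)
    (ha : Measurable a) (hφ : Measurable φ)
    (hinv : ∀ v w ω, φ (vp v w ω) + φ (wp v w ω) = φ v + φ w) :
    ∫⁻ v, φ v * gainK k a a v = ∫⁻ v, φ v * (freqK k a v * a v) := by
  have mk : Measurable (fun z : E × E × S2 =>
      ENNReal.ofReal (k |cf z.1 z.2.1 z.2.2| ‖z.1 - z.2.1‖)) := by
    have h1 : Measurable (fun z : E × E × S2 => (|cf z.1 z.2.1 z.2.2|, ‖z.1 - z.2.1‖)) :=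
      (continuous_cf.abs.prodMk (by fun_prop)).measurable
    exact ENNReal.measurable_ofReal.comp (hk.comp h1)
  have mv : Measurable (fun z : E × E × S2 => φ (vp z.1 z.2.1 z.2.2)) :=
    hφ.comp continuous_vp.measurable
  have mw : Measurable (fun z : E × E × S2 => φ (wp z.1 z.2.1 z.2.2)) :=
    hφ.comp continuous_wp.measurable
  have m1 : Measurable (fun z : E × E × S2 => a z.1) := ha.comp measurable_fst
  have m2 : Measurable (fun z : E × E × S2 => a z.2.1) := ha.comp (measurable_fst.comp measurable_snd)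
  have p1 : Measurable (fun z : E × E × S2 => φ z.1) := hφ.comp measurable_fst
  have p2 : Measurable (fun z : E × E × S2 => φ z.2.1) := hφ.comp (measurable_fst.comp measurable_snd)
  have key : ∀ Φ Ψ : E × E × S2 → ℝ≥0∞, Measurable Φ → Measurable Ψ →
      (∫⁻ v, ∫⁻ q : E × S2, Φ (v, q) ∂(volume.prod sph)) +
        ∫⁻ v, ∫⁻ q : E × S2, Ψ (v, q) ∂(volume.prod sph) =
      ∫⁻ v, ∫⁻ q : E × S2, (Φ (v, q) + Ψ (v, q)) ∂(volume.prod sph) := by
    intro Φ Ψ h1 h2
    rw [← lintegral_add_left h1.lintegral_prod_right']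
    refine lintegral_congr fun v => ?_
    exact (lintegral_add_left (h1.comp measurable_prodMk_left) _).symm
  have cm : ∀ Φ : E × E × S2 → ℝ≥0∞, Measurable Φ → ∀ (c : ℝ≥0∞) (v : E),
      c * ∫⁻ q : E × S2, Φ (v, q) ∂(volume.prod sph) =
        ∫⁻ q : E × S2, c * Φ (v, q) ∂(volume.prod sph) := fun Φ h c v =>
    (lintegral_const_mul c (h.comp measurable_prodMk_left)).symm
  set K : E × E × S2 → ℝ≥0∞ := fun z =>
    ENNReal.ofReal (k |cf z.1 z.2.1 z.2.2| ‖z.1 - z.2.1‖) * (a z.1 * a z.2.1) with hK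
  have mK : Measurable K := mk.mul (m1.mul m2)
  have A1 : ∫⁻ v, φ v * gainK k a a v =
      ∫⁻ v, ∫⁻ q : E × S2, K (v, q) * φ (vp v q.1 q.2) ∂(volume.prod sph) := by
    rw [hW.1 k a a φ hk ha ha hφ]
    refine lintegral_congr fun v => ?_
    refine (cm _ (mk.fun_mul (m2.fun_mul mv)) (a v) v).trans (lintegral_congr fun q => ?_)
    simp only [hK]; ring
  have A2 : ∫⁻ v, φ v * gainK k a a v =
      ∫⁻ v, ∫⁻ q : E × S2, K (v, q) * φ (wp v q.1 q.2) ∂(volume.prod sph) := by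
    rw [hW.2.1 k a a φ hk ha ha hφ]
    refine lintegral_congr fun v => ?_
    refine (cm _ (mk.fun_mul (m2.fun_mul mw)) (a v) v).trans (lintegral_congr fun q => ?_)
    simp only [hK]; ring
  have B1 : ∫⁻ v, φ v * (freqK k a v * a v) =
      ∫⁻ v, ∫⁻ q : E × S2, K (v, q) * φ v ∂(volume.prod sph) := by
    refine lintegral_congr fun v => ?_
    unfold freqK
    rw [mul_comm _ (a v), ← mul_assoc]
    refine (cm _ (mk.fun_mul m2) (φ v * a v) v).trans (lintegral_congr fun q => ?_)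
    simp only [hK]; ring
  have B2 : ∫⁻ v, φ v * (freqK k a v * a v) =
      ∫⁻ v, ∫⁻ q : E × S2, K (v, q) * φ q.1 ∂(volume.prod sph) := by
    rw [B1]
    have := hW.2.2.1 (fun z => K z * φ z.1) (mK.mul p1)
    refine this.trans (lintegral_congr fun v => lintegral_congr fun q => ?_)
    simp only [hK]
    rw [cf_swap v q.1, abs_neg, norm_sub_rev q.1 v]; ring
  have hA := key (fun z => K z * φ (vp z.1 z.2.1 z.2.2)) (fun z => K z * φ (wp z.1 z.2.1 z.2.2))
    (mK.mul mv) (mK.mul mw)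
  have hB := key (fun z => K z * φ z.1) (fun z => K z * φ z.2.1) (mK.mul p1) (mK.mul p2)
  simp only at hA hB
  rw [← A1, ← A2] at hA
  rw [← B1, ← B2] at hB
  have hAB : (∫⁻ v, φ v * gainK k a a v) + ∫⁻ v, φ v * gainK k a a v =
      (∫⁻ v, φ v * (freqK k a v * a v)) + ∫⁻ v, φ v * (freqK k a v * a v) := by
    rw [hA, hB]
    refine lintegral_congr fun v => lintegral_congr fun q => ?_
    rw [← mul_add, ← mul_add, hinv]
  rw [← two_mul, ← two_mul] at hAB
  exact (ENNReal.mul_right_inj (by norm_num) (by norm_num)).1 hAB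

lemma real_inv (hM : MeasStmt) (hW : WeakStmt) (R δ : ℝ) (f : Om → ℝ) (hf : Measurable f)
    (hf0 : ∀ p, 0 ≤ f p) (x : T3)
    (h1 : ∀ v, gainK (kT R) (sl f x) (sl f x) v ≠ ⊤) (h2 : ∀ v, freqK (kT R) (sl f x) v ≠ ⊤)
    (φ : E → ℝ) (hφ : Measurable φ) (hφ0 : ∀ v, 0 ≤ φ v)
    (hinv : ∀ v w ω, φ (vp v w ω) + φ (wp v w ω) = φ v + φ w) :
    ∫ v, φ v * gT R δ f (x, v) = ∫ v, φ v * (nT R δ f (x, v) * f (x, v)) := by
  have ha : Measurable (sl f x) :=
    ENNReal.measurable_ofReal.comp (hf.comp measurable_prodMk_left)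
  have hφ' : Measurable (fun v => ENNReal.ofReal (φ v)) := ENNReal.measurable_ofReal.comp hφ
  have hm := hM.2.2.2.1 E (kT R) (fun _ => sl f x) (fun _ => sl f x) id (hM.2.1 R)
    (ha.comp measurable_snd) (ha.comp measurable_snd) measurable_id
  have hl := lint_inv hW (kT R) (hM.2.1 R) (sl f x) _ ha hφ' (fun v w ω => by
    rw [← ENNReal.ofReal_add (hφ0 _) (hφ0 _), ← ENNReal.ofReal_add (hφ0 _) (hφ0 _), hinv])
  have e1 : ∫ v, φ v * gT R δ f (x, v) =
      (∫⁻ v, ENNReal.ofReal (φ v) * gainK (kT R) (sl f x) (sl f x) v).toReal /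
        (1 + δ * rho f x) := by
    rw [← integral_toReal (by exact (hφ'.mul hm.1).aemeasurable)
      (Eventually.of_forall fun v => ENNReal.mul_lt_top ENNReal.ofReal_lt_top (h1 v).lt_top), ← integral_div]
    refine integral_congr_ae (Eventually.of_forall fun v => ?_)
    simp only [gT]
    rw [ENNReal.toReal_mul, ENNReal.toReal_ofReal (hφ0 v)]; ring
  have e2 : ∫ v, φ v * (nT R δ f (x, v) * f (x, v)) =
      (∫⁻ v, ENNReal.ofReal (φ v) * (freqK (kT R) (sl f x) v * sl f x v)).toReal /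
        (1 + δ * rho f x) := by
    have h3 : ∀ v, sl f x v < ⊤ := fun v => ENNReal.ofReal_lt_top
    rw [← integral_toReal (by exact (hφ'.mul (hm.2.mul ha)).aemeasurable)
      (Eventually.of_forall fun v => ENNReal.mul_lt_top ENNReal.ofReal_lt_top
        (ENNReal.mul_lt_top (h2 v).lt_top (h3 v))), ← integral_div]
    refine integral_congr_ae (Eventually.of_forall fun v => ?_)
    have h4 : (sl f x v).toReal = f (x, v) := ENNReal.toReal_ofReal (hf0 _)
    simp only [nT]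
    rw [ENNReal.toReal_mul, ENNReal.toReal_mul, ENNReal.toReal_ofReal (hφ0 v), h4]; ring
  rw [e1, e2, hl]

/-- The collision term. -/
def Qc (R δ : ℝ) (f : Om → ℝ) (p : Om) : ℝ := gT R δ f p - nT R δ f p * f p

/-- Quadratically bounded collision invariants. -/
def Inv (c : ℝ) (ψ : E → ℝ) : Prop :=
  Measurable ψ ∧ (∀ v, |ψ v| ≤ c * (1 + ‖v‖ ^ 2)) ∧
    ∀ v w ω, ψ (vp v w ω) + ψ (wp v w ω) = ψ v + ψ w

lemma bd_mul {c K a b : ℝ} {v : E} (ha : |a| ≤ c * (1 + ‖v‖ ^ 2))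
    (hb : |b| ≤ K * Real.exp (-‖v‖)) : |a * b| ≤ c * K * W v := by
  rw [abs_mul]
  calc |a| * |b| ≤ (c * (1 + ‖v‖ ^ 2)) * (K * Real.exp (-‖v‖)) :=
        mul_le_mul ha hb (abs_nonneg _) ((abs_nonneg _).trans ha)
    _ = c * K * W v := by unfold W; ring

lemma intE {g : E → ℝ} (hg : Measurable g) {K : ℝ} (h : ∀ v, |g v| ≤ K * W v) : Integrable g :=
  (integrable_W.const_mul K).mono' hg.aestronglyMeasurable (Eventually.of_forall h)

lemma intO {g : Om → ℝ} (hg : Measurable g) {K : ℝ} (h : ∀ p, |g p| ≤ K * W p.2) :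
    Integrable g :=
  (integrable_WO.const_mul K).mono' hg.aestronglyMeasurable (Eventually.of_forall h)

lemma energy0 (v w : E) (ω : S2) : ‖vp v w ω‖ ^ 2 + ‖wp v w ω‖ ^ 2 = ‖v‖ ^ 2 + ‖w‖ ^ 2 := by
  simpa using energy_post v w 0 ω

lemma coll (hM : MeasStmt) (hW : WeakStmt) (R δ L C : ℝ) (f : Om → ℝ) (hf : TData C f)
    (hL : ∀ p : Om,
      gainK (kT R) (sl f p.1) (sl f p.1) p.2 ≠ ⊤ ∧ freqK (kT R) (sl f p.1) p.2 ≠ ⊤ ∧
      Integrable (fun v => f (p.1, v)) ∧ 0 ≤ rho f p.1 ∧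
      0 ≤ gT R δ f p ∧ gT R δ f p ≤ L * C * Real.exp (-‖p.2‖) ∧
      0 ≤ nT R δ f p ∧ nT R δ f p ≤ L) (x : T3) (c : ℝ) (ψ : E → ℝ) (hψ : Inv c ψ) :
    ∫ v, ψ v * Qc R δ f (x, v) = 0 := by
  have hm := hM.2.2.2.2.1 (fun _ => f) (hf.1.comp measurable_snd) R δ
  have hp : Measurable (fun v : E => ((0 : ℝ), ((x, v) : Om))) := by fun_prop
  have mg : Measurable (fun v : E => gT R δ f (x, v)) := by
    have := hm.2.1.comp hp
    simpa only [Function.comp_def] using this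
  have mn : Measurable (fun v : E => nT R δ f (x, v) * f (x, v)) := by
    have h1 := hm.2.2.1.comp hp
    have h2 : Measurable (fun v : E => f (x, v)) := hf.1.comp measurable_prodMk_left
    simp only [Function.comp_def] at h1
    exact h1.fun_mul h2
  have bg : ∀ v, |gT R δ f (x, v)| ≤ L * C * Real.exp (-‖v‖) := fun v => by
    rw [abs_of_nonneg (hL (x, v)).2.2.2.2.1]; exact (hL (x, v)).2.2.2.2.2.1
  have bn : ∀ v, |nT R δ f (x, v) * f (x, v)| ≤ L * C * Real.exp (-‖v‖) := fun v => by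
    obtain ⟨h1, h2⟩ := (hL (x, v)).2.2.2.2.2.2
    obtain ⟨h3, h4⟩ := hf.2 (x, v)
    rw [abs_of_nonneg (mul_nonneg h1 h3), mul_assoc]
    exact mul_le_mul h2 h4 h3 (h1.trans h2)
  have pos : ∀ (c : ℝ) (φ : E → ℝ), Inv c φ → (∀ v, 0 ≤ φ v) →
      Integrable (fun v => φ v * Qc R δ f (x, v)) ∧ ∫ v, φ v * Qc R δ f (x, v) = 0 := by
    intro c φ hφ h0
    have i1 : Integrable (fun v => φ v * gT R δ f (x, v)) :=
      intE (hφ.1.mul mg) fun v => bd_mul (hφ.2.1 v) (bg v)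
    have i2 : Integrable (fun v => φ v * (nT R δ f (x, v) * f (x, v))) :=
      intE (hφ.1.mul mn) fun v => bd_mul (hφ.2.1 v) (bn v)
    have e : (fun v => φ v * Qc R δ f (x, v)) =
        fun v => φ v * gT R δ f (x, v) - φ v * (nT R δ f (x, v) * f (x, v)) := by
      funext v; unfold Qc; ring
    rw [e]
    refine ⟨i1.sub i2, ?_⟩
    rw [integral_sub i1 i2, real_inv hM hW R δ f hf.1 (fun p => (hf.2 p).1) x
      (fun v => (hL (x, v)).1) (fun v => (hL (x, v)).2.1) φ hφ.1 h0 hφ.2.2, sub_self]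
  have hc : 0 ≤ c := by
    have := (abs_nonneg _).trans (hψ.2.1 0)
    simpa using this
  have h1 := pos c (fun v => c * (1 + ‖v‖ ^ 2)) ⟨by fun_prop,
    fun v => (abs_of_nonneg (by positivity)).le, fun v w ω => by
      have := energy0 v w ω
      linear_combination c * this⟩ (fun v => by positivity)
  have h2 := pos (2 * c) (fun v => ψ v + c * (1 + ‖v‖ ^ 2)) ⟨hψ.1.add (by fun_prop),
    fun v => by
      have h := abs_le.1 (hψ.2.1 v)
      rw [abs_le]; constructor <;> linarith [h.1, h.2], fun v w ω => by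
      have := energy0 v w ω
      linear_combination c * this + hψ.2.2 v w ω⟩ (fun v => by
      have h := abs_le.1 (hψ.2.1 v)
      linarith [h.1])
  have e : (fun v => ψ v * Qc R δ f (x, v)) = fun v => (ψ v + c * (1 + ‖v‖ ^ 2)) * Qc R δ f (x, v)
      - c * (1 + ‖v‖ ^ 2) * Qc R δ f (x, v) := by
    funext v; ring
  rw [e, integral_sub h2.1 h1.1, h1.2, h2.2, sub_self]

lemma int_fl (hT : TorusStmt) (s : ℝ) {g : Om → ℝ} (hg : Measurable g) :
    ∫ p, g (fl s p) = ∫ p, g p := by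
  have h := hT.2.2.2.2.2.2.1 s
  rw [← integral_map h.measurable.aemeasurable hg.aestronglyMeasurable, h.map_eq]

lemma fub (hT : TorusStmt) (H : ℝ → Om → ℝ) (hH : Measurable (fun y : ℝ × Om => H y.1 y.2))
    (T K : ℝ) (hT0 : 0 ≤ T) (hb : ∀ s ∈ Icc (0 : ℝ) T, ∀ p, |H s p| ≤ K * W p.2) :
    Integrable (fun p => ∫ s in (0 : ℝ)..T, H s (fl s p)) ∧
      ∫ p, ∫ s in (0 : ℝ)..T, H s (fl s p) = ∫ s in (0 : ℝ)..T, ∫ p, H s p := by
  have m : Measurable (fun y : ℝ × Om => H y.1 (fl y.1 y.2)) :=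
    hH.comp (measurable_fst.prodMk continuous_fl.measurable)
  have hi : Integrable (fun y : ℝ × Om => H y.1 (fl y.1 y.2))
      ((volume.restrict (Ioc 0 T)).prod volume) := by
    have h0 : Integrable (fun _ : ℝ => K) (volume.restrict (Ioc 0 T)) := integrable_const K
    refine (h0.mul_prod integrable_WO).mono' m.aestronglyMeasurable ?_
    have : ∀ᵐ y : ℝ × Om ∂((volume.restrict (Ioc 0 T)).prod volume), y.1 ∈ Ioc 0 T :=
      Measure.quasiMeasurePreserving_fst.ae (ae_restrict_mem measurableSet_Ioc)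
    filter_upwards [this] with y hy
    exact hb y.1 (Ioc_subset_Icc_self hy) (fl y.1 y.2)
  simp only [intervalIntegral.integral_of_le hT0]
  refine ⟨hi.integral_prod_right, ?_⟩
  rw [← integral_integral_swap hi]
  refine integral_congr_ae (Eventually.of_forall fun s => ?_)
  exact int_fl hT s (hH.comp measurable_prodMk_left)

lemma facts (hM : MeasStmt) (hW : WeakStmt) (hO : TOpStmt) (hF : TSFlStmt) {R δ : ℝ}
    {F₀ : Om → ℝ} {F : ℝ → Om → ℝ} (hR : 0 < R) (hδ : 0 < δ) (hS : TS R δ F₀ F) (T : ℝ) :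
    ∃ C K : ℝ, (∀ t ∈ Icc (0 : ℝ) T, ∀ p : Om, |F t p| ≤ C * Real.exp (-‖p.2‖)) ∧
      (∀ t ∈ Icc (0 : ℝ) T, ∀ p : Om, |Qc R δ (F t) p| ≤ K * Real.exp (-‖p.2‖)) ∧
      (∀ t ∈ Icc (0 : ℝ) T, ∀ x c ψ, Inv c ψ → ∫ v, ψ v * Qc R δ (F t) (x, v) = 0) := by
  obtain ⟨L, -, hL, -⟩ := hO R δ hR hδ
  obtain ⟨C, hC⟩ := (hF R δ F₀ F hR hδ hS).2.1 T
  refine ⟨C, 2 * (L * C), fun t ht p => ?_, fun t ht p => ?_, fun t ht x c ψ hψ =>
    coll hM hW R δ L C (F t) (hC t ht) (hL C (F t) (hC t ht)) x c ψ hψ⟩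
  · rw [abs_of_nonneg ((hC t ht).2 p).1]; exact ((hC t ht).2 p).2
  · obtain ⟨-, -, -, -, h1, h2, h3, h4⟩ := hL C (F t) (hC t ht) p
    obtain ⟨h5, h6⟩ := (hC t ht).2 p
    have h7 : nT R δ (F t) p * F t p ≤ L * (C * Real.exp (-‖p.2‖)) :=
      mul_le_mul h4 h6 h5 (h3.trans h4)
    have h8 := mul_nonneg h3 h5
    unfold Qc
    rw [abs_le]; constructor <;> nlinarith

lemma measQ (hM : MeasStmt) (R δ : ℝ) {F : ℝ → Om → ℝ}
    (hF : Measurable (fun y : ℝ × Om => F y.1 y.2)) :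
    Measurable (fun y : ℝ × Om => Qc R δ (F y.1) y.2) := by
  have hm := hM.2.2.2.2.1 F hF R δ
  exact hm.2.1.fun_sub (hm.2.2.1.fun_mul hF)

lemma zero_int (hT : TorusStmt) (Q : ℝ → Om → ℝ) (mQ : Measurable (fun y : ℝ × Om => Q y.1 y.2))
    (T K : ℝ) (hT0 : 0 ≤ T)
    (hQ : ∀ t ∈ Icc (0 : ℝ) T, ∀ p : Om, |Q t p| ≤ K * Real.exp (-‖p.2‖))
    (c : ℝ) (ψ : E → ℝ) (hψ : Inv c ψ)
    (h0 : ∀ t ∈ Icc (0 : ℝ) T, ∀ x, ∫ v, ψ v * Q t (x, v) = 0)
    (χ : ℝ → T3 → ℝ) (mχ : Measurable (fun y : ℝ × T3 => χ y.1 y.2)) (B : ℝ)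
    (hχ : ∀ t x, 0 ≤ t → |χ t x| ≤ B) :
    Integrable (fun p : Om => ∫ s in (0 : ℝ)..T, χ s (fl s p).1 * (ψ p.2 * Q s (fl s p))) ∧
      ∫ p : Om, ∫ s in (0 : ℝ)..T, χ s (fl s p).1 * (ψ p.2 * Q s (fl s p)) = 0 := by
  have m1 : Measurable (fun y : ℝ × Om => χ y.1 y.2.1) := by
    have := mχ.comp (by fun_prop : Measurable (fun y : ℝ × Om => (y.1, y.2.1)))
    simpa only [Function.comp_def] using this
  have m2 : Measurable (fun y : ℝ × Om => ψ y.2.2) := hψ.1.comp (by fun_prop)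
  have m : Measurable (fun y : ℝ × Om => χ y.1 y.2.1 * (ψ y.2.2 * Q y.1 y.2)) :=
    m1.fun_mul (m2.fun_mul mQ)
  have hb : ∀ s ∈ Icc (0 : ℝ) T, ∀ p : Om,
      |χ s p.1 * (ψ p.2 * Q s p)| ≤ B * (c * K) * W p.2 := fun s hs p => by
    rw [abs_mul, mul_assoc B]
    exact mul_le_mul (hχ s p.1 hs.1) (bd_mul (hψ.2.1 p.2) (hQ s hs p)) (abs_nonneg _)
      ((abs_nonneg _).trans (hχ s p.1 hs.1))
  have h := fub hT (fun s p => χ s p.1 * (ψ p.2 * Q s p)) m T _ hT0 hb
  refine ⟨h.1, h.2.trans ?_⟩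
  rw [intervalIntegral.integral_congr (g := fun _ => (0 : ℝ)), intervalIntegral.integral_zero]
  intro s hs
  rw [uIcc_of_le hT0] at hs
  have ms : Measurable (fun p : Om => χ s p.1 * (ψ p.2 * Q s p)) := by
    have := m.comp (measurable_prodMk_left (x := s))
    simpa only [Function.comp_def] using this
  have hi := intO ms (hb s hs)
  refine (integral_prod _ hi).trans ?_
  simp only [integral_const_mul, h0 s hs, mul_zero, integral_zero]

lemma cons (hM : MeasStmt) (hW : WeakStmt) (hT : TorusStmt) (hO : TOpStmt) (hF : TSFlStmt)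
    {R δ : ℝ} {F₀ : Om → ℝ} {F : ℝ → Om → ℝ} (hR : 0 < R) (hδ : 0 < δ) (hS : TS R δ F₀ F)
    {t : ℝ} (ht : 0 ≤ t) (c : ℝ) (ψ : E → ℝ) (hψ : Inv c ψ) :
    Integrable (fun p : Om => ψ p.2 * F t p) ∧
      ∫ p : Om, ψ p.2 * F t p = ∫ p : Om, ψ p.2 * F₀ p := by
  obtain ⟨C, K, h1, h2, h3⟩ := facts hM hW hO hF hR hδ hS t
  have hI : ∀ s ∈ Icc (0 : ℝ) t, Measurable (fun p : Om => ψ p.2 * F s p) ∧
      Integrable (fun p : Om => ψ p.2 * F s p) := fun s hs => by
    have m : Measurable (fun p : Om => ψ p.2 * F s p) :=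
      (hψ.1.comp measurable_snd).fun_mul (hS.meas.comp (measurable_prodMk_left (x := s)))
    exact ⟨m, intO m fun p => bd_mul (hψ.2.1 p.2) (h1 s hs p)⟩
  have hz := zero_int hT (fun s p => Qc R δ (F s) p) (measQ hM R δ hS.meas) t K ht h2 c ψ hψ
    (fun s hs x => h3 s hs x c ψ hψ) (fun _ _ => 1) measurable_const 1 (fun _ _ _ => by simp)
  have h0 := (hI 0 ⟨le_rfl, ht⟩).2
  rw [(hF R δ F₀ F hR hδ hS).1] at h0
  refine ⟨(hI t ⟨ht, le_rfl⟩).2, ?_⟩
  rw [← int_fl hT t (hI t ⟨ht, le_rfl⟩).1, ← add_zero (∫ p : Om, ψ p.2 * F₀ p), ← hz.2,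
    ← integral_add h0 hz.1]
  refine integral_congr_ae (Eventually.of_forall fun p => ?_)
  simp only [one_mul, intervalIntegral.integral_const_mul, fl_snd]
  rw [hS.mild t ht p, mul_add]
  rfl

lemma ibp (hC : ChainStmt) (T : ℝ) (hT0 : 0 ≤ T) (y q z z' : ℝ → ℝ)
    (hq : IntervalIntegrable q volume 0 T)
    (hy : ∀ t ∈ Icc (0 : ℝ) T, y t = y 0 + ∫ s in (0 : ℝ)..t, q s)
    (hyc : ContinuousOn y (Icc 0 T))
    (hz : ∀ t, HasDerivAt z (z' t) t) (hz' : Continuous z') :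
    y T * z T = y 0 * z 0 + ((∫ s in (0 : ℝ)..T, y s * z' s) + ∫ s in (0 : ℝ)..T, z s * q s) := by
  have hzc : Continuous z := continuous_iff_continuousAt.2 fun t => (hz t).continuousAt
  have hi : ∀ t ∈ Icc (0 : ℝ) T, IntervalIntegrable (fun s => (q s, z' s)) volume 0 t := by
    intro t ht
    have h1 : IntervalIntegrable q volume 0 t :=
      hq.mono_set (by rw [uIcc_of_le ht.1, uIcc_of_le hT0]; exact Icc_subset_Icc_right ht.2)
    have h2 := hz'.intervalIntegrable (μ := volume) 0 t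
    exact ⟨h1.1.prodMk h2.1, h1.2.prodMk h2.2⟩
  have h := hC (ℝ × ℝ) 0 T (fun s => (y s, z s)) (fun s => (q s, z' s)) univ
    (fun u => u.1 * u.2)
    (fun u => u.1 • ContinuousLinearMap.snd ℝ ℝ ℝ + u.2 • ContinuousLinearMap.fst ℝ ℝ ℝ)
    hT0 (hi T ⟨hT0, le_rfl⟩) (fun t ht => ?_) convex_univ (fun _ _ => mem_univ _)
    (fun u _ => (hasFDerivAt_fst.mul hasFDerivAt_snd).hasFDerivWithinAt) (by fun_prop)
  · have h2 := h.2
    simp only [add_apply, smul_apply, ContinuousLinearMap.coe_snd', ContinuousLinearMap.coe_fst',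
      smul_eq_mul] at h2
    rw [h2, intervalIntegral.integral_add]
    · exact ContinuousOn.intervalIntegrable
        (by rw [uIcc_of_le hT0]; exact hyc.mul hz'.continuousOn)
    · exact hq.continuousOn_mul hzc.continuousOn
  · have e1 := (ContinuousLinearMap.fst ℝ ℝ ℝ).intervalIntegral_comp_comm (hi t ht)
    have e2 := (ContinuousLinearMap.snd ℝ ℝ ℝ).intervalIntegral_comp_comm (hi t ht)
    simp only [ContinuousLinearMap.coe_snd', ContinuousLinearMap.coe_fst'] at e1 e2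
    refine Prod.ext ?_ ?_
    · simp only [Prod.fst_add]
      rw [← e1]; exact hy t ht
    · simp only [Prod.snd_add]
      rw [← e2, intervalIntegral.integral_eq_sub_of_hasDerivAt (fun s _ => hz s)
        (hz'.intervalIntegrable 0 t)]
      ring

lemma inv_one : Inv 1 (fun _ => 1) :=
  ⟨measurable_const, fun v => by rw [abs_one, one_mul]; nlinarith [sq_nonneg ‖v‖],
    fun _ _ _ => rfl⟩

lemma locm (hM : MeasStmt) (hW : WeakStmt) (hT : TorusStmt) (hTe : TestStmt) (hC : ChainStmt)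
    (hO : TOpStmt) (hF : TSFlStmt)
    {R δ : ℝ} {F₀ : Om → ℝ} {F : ℝ → Om → ℝ} (hR : 0 < R) (hδ : 0 < δ) (hS : TS R δ F₀ F)
    (χ : ℝ → T3 → ℝ) (hχ : IsTestX χ) :
    Integrable (fun y : ℝ × Om => F y.1 y.2 * trans (fun t p => χ t p.1) y.1 y.2) tm ∧
      ∫ y, F y.1 y.2 * trans (fun t p => χ t p.1) y.1 y.2 ∂tm + ∫ p : Om, F₀ p * χ 0 p.1 = 0 := by
  obtain ⟨cχ, cτ, hd, R', B, hR', hv, hb⟩ := hTe.2 χ hχ
  generalize trans (fun t p => χ t p.1) = τ at cτ hd hv hb ⊢
  set T := R' + 1 with hTdef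
  have hT0 : 0 ≤ T := by linarith
  obtain ⟨C, K, h1, h2, h3⟩ := facts hM hW hO hF hR hδ hS T
  obtain ⟨g0, -, g1, g2, -⟩ := hF R δ F₀ F hR hδ hS
  have m : Measurable (fun y : ℝ × Om => F y.1 y.2 * τ y.1 y.2) := hS.meas.fun_mul cτ.measurable
  have hB : 0 ≤ B := (abs_nonneg _).trans (hb 0 (0, 0) le_rfl).1
  have bd : ∀ s ∈ Icc (0 : ℝ) T, ∀ p : Om, |F s p * τ s p| ≤ 2 * B * C * W p.2 := by
    intro s hs p
    rw [mul_comm]
    refine bd_mul ((hb s p hs.1).2.trans ?_) (h1 s hs p)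
    nlinarith [mul_nonneg hB (sq_nonneg (‖p.2‖ - 1)), mul_nonneg hB (sq_nonneg ‖p.2‖)]
  have hi : Integrable (fun y : ℝ × Om => F y.1 y.2 * τ y.1 y.2) tm := by
    have h0 : Integrable ((Icc (0 : ℝ) T).indicator fun _ : ℝ => 2 * B * C)
        (volume.restrict (Ici 0)) :=
      ((integrable_indicator_iff measurableSet_Icc).2
        (integrableOn_const (by simp))).integrableOn
    refine (h0.mul_prod integrable_WO).mono' m.aestronglyMeasurable ?_
    have : ∀ᵐ y : ℝ × Om ∂tm, y.1 ∈ Ici (0 : ℝ) :=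
      Measure.quasiMeasurePreserving_fst.ae (ae_restrict_mem measurableSet_Ici)
    filter_upwards [this] with y hy
    by_cases h : y.1 ≤ T
    · rw [indicator_of_mem (show y.1 ∈ Icc 0 T from ⟨hy, h⟩)]
      exact bd y.1 ⟨hy, h⟩ y.2
    · rw [indicator_of_notMem (fun h' => h h'.2), (hv y.1 y.2 (by linarith [not_le.1 h])).2]
      simp
  refine ⟨hi, ?_⟩
  have hf := fub hT (fun s p => F s p * τ s p) m T _ hT0 bd
  have e1 : ∫ y, F y.1 y.2 * τ y.1 y.2 ∂tm = ∫ s in (0 : ℝ)..T, ∫ p, F s p * τ s p := by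
    refine (integral_prod _ hi).trans ?_
    rw [intervalIntegral.integral_of_le hT0, ← integral_Icc_eq_integral_Ioc]
    refine setIntegral_eq_of_subset_of_forall_sdiff_eq_zero measurableSet_Ici
      Icc_subset_Ici_self fun s hs => ?_
    have : R' < s := by
      by_contra h
      exact hs.2 ⟨hs.1, by linarith [not_lt.1 h]⟩
    simp [(hv s _ this).2]
  have hz := zero_int hT (fun s p => Qc R δ (F s) p) (measQ hM R δ hS.meas) T K hT0 h2 1 _ inv_one
    (fun s hs x => h3 s hs x 1 _ inv_one) χ cχ.measurable B (fun t x ht => (hb t (x, 0) ht).1)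
  have i0 : Integrable (fun p : Om => F₀ p * χ 0 p.1) := by
    have m0 : Measurable (fun p : Om => χ 0 p.1) := by
      have := cχ.measurable.comp (by fun_prop : Measurable (fun p : Om => ((0 : ℝ), p.1)))
      simpa only [Function.comp_def] using this
    rw [← g0]
    refine intO (K := B * C)
      ((hS.meas.comp (measurable_prodMk_left (x := (0 : ℝ)))).fun_mul m0) fun p => ?_
    rw [mul_comm]
    refine bd_mul ((hb 0 p le_rfl).1.trans ?_) (h1 0 ⟨le_rfl, hT0⟩ p)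
    nlinarith [mul_nonneg hB (sq_nonneg ‖p.2‖)]
  rw [e1, ← hf.2, ← integral_add hf.1 i0]
  refine Eq.trans ?_ (neg_eq_zero.2 hz.2)
  rw [← integral_neg]
  refine integral_congr_ae (Eventually.of_forall fun p => ?_)
  have h := ibp hC T hT0 (fun s => F s (fl s p)) (fun s => Qc R δ (F s) (fl s p))
    (fun s => χ s (fl s p).1) (fun s => τ s (fl s p))
    ((g1 p 0 T le_rfl hT0).1.sub (g1 p 0 T le_rfl hT0).2.2)
    (fun t ht => by
      simp only [fl_zero, g0]
      exact hS.mild t ht.1 p)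
    ((g2 p).mono Icc_subset_Ici_self) (fun t => hd t p)
    (cτ.comp (continuous_id.prodMk (continuous_fl.comp (continuous_id.prodMk continuous_const))))
  simp only [fl_zero, g0, (hv T (fl T p) (by linarith)).1, mul_zero] at h
  simp only [one_mul]
  linarith

end TSCons

open TSCons in
theorem tsCons (hM : MeasStmt) (hW : WeakStmt) (hT : TorusStmt) (hTe : TestStmt) (hC : ChainStmt)
    (hO : TOpStmt) (hF : TSFlStmt) : TSConsStmt := by
  intro R δ F₀ F hR hδ hS
  refine ⟨fun t ht => ⟨?_, ?_, ?_, ?_⟩, locm hM hW hT hTe hC hO hF hR hδ hS⟩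
  · have h := (cons hM hW hT hO hF hR hδ hS ht 1 (fun v => 1 + ‖v‖ ^ 2) ⟨by fun_prop,
      fun v => by rw [one_mul, abs_of_nonneg (by positivity)], fun v w ω => by
        linarith [energy0 v w ω]⟩).1
    simpa only [mul_comm] using h
  · simpa only [one_mul] using (cons hM hW hT hO hF hR hδ hS ht 1 _ inv_one).2
  · have hI : ∀ s, 0 ≤ s → Integrable (fun p : Om => F s p • p.2) := by
      intro s hs
      have h := (cons hM hW hT hO hF hR hδ hS hs 1 (fun v => 1 + ‖v‖ ^ 2) ⟨by fun_prop,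
        fun v => by rw [one_mul, abs_of_nonneg (by positivity)], fun v w ω => by
          linarith [energy0 v w ω]⟩).1
      have m : Measurable (fun p : Om => F s p) := hS.meas.comp (measurable_prodMk_left (x := s))
      refine h.mono' (m.smul measurable_snd).aestronglyMeasurable (Eventually.of_forall fun p => ?_)
      rw [norm_smul, Real.norm_of_nonneg (hS.nonneg s p), mul_comm]
      exact mul_le_mul_of_nonneg_right (by nlinarith [sq_nonneg (‖p.2‖ - 1), norm_nonneg p.2])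
        (hS.nonneg s p)
    have h0 := hI 0 le_rfl
    rw [(hF R δ F₀ F hR hδ hS).1] at h0
    refine ext_inner_left ℝ fun u => ?_
    rw [← integral_inner (hI t ht), ← integral_inner h0]
    have h := (cons hM hW hT hO hF hR hδ hS ht ‖u‖ (fun v => inner ℝ u v) ⟨by fun_prop,
      fun v => (abs_real_inner_le_norm u v).trans (mul_le_mul_of_nonneg_left
        (by nlinarith [sq_nonneg (‖v‖ - 1), norm_nonneg v]) (norm_nonneg u)), fun v w ω => by
        simp only [← inner_add_right, vp_add_wp]⟩).2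
    simpa only [real_inner_smul_right, mul_comm] using h
  · exact (cons hM hW hT hO hF hR hδ hS ht 1 (fun v => ‖v‖ ^ 2) ⟨by fun_prop,
      fun v => by rw [one_mul, abs_of_nonneg (by positivity)]; linarith, energy0⟩).2

end

end Vale.Agent.P140
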