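import Vale.Agent.P140.TSEntA

/-! Entropy inequality for the truncated problem. -/

namespace Vale.Agent.P140

open MeasureTheory Set Filter
open scoped ENNReal

noncomputable section

namespace TSEnt

/-- Entropy production density. -/
def DD (R δ : ℝ) (f : Om → ℝ) (p : Om) : ℝ :=
  Real.log (f p / Mx p.2) * (gT R δ f p - nT R δ f p * f p)

theorem jj_pos {A B : ℝ} (hA : 0 < A) (hB : 0 < B) : 0 ≤ (A - B) * Real.log (A / B) ∧
    jj A B = ENNReal.ofReal ((A - B) * Real.log (A / B)) := by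
  constructor
  · rcases le_total A B with h | h
    · exact mul_nonneg_of_nonpos_of_nonpos (sub_nonpos.2 h)
        (Real.log_nonpos (by positivity) ((div_le_one hB).2 h))
    · exact mul_nonneg (sub_nonneg.2 h) (Real.log_nonneg ((one_le_div hB).2 h))
  · unfold jj
    split_ifs with h1 h2
    · rw [h1, sub_self, zero_mul, ENNReal.ofReal_zero]
    · exact (h2.elim hA.ne' hB.ne').elim
    · rfl

theorem slice_x (hM : MeasStmt) (hW : WeakStmt) {R δ C K : ℝ} (hR : 0 < R) (hδ : 0 < δ)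
    (hK : 0 < K) {f : Om → ℝ} (hf : Measurable f) (f0 : ∀ p, 0 < f p)
    (up : ∀ p : Om, f p ≤ C * Real.exp (-‖p.2‖))
    (lb : ∀ p : Om, |Real.log (f p / Mx p.2)| ≤ K * (1 + ‖p.2‖ ^ 2)) (x : T3) :
    0 ≤ -∫ v, DD R δ f (x, v) ∧
      ∫⁻ v, eT R δ f (x, v) = 4 * ENNReal.ofReal (-∫ v, DD R δ f (x, v)) := by
  obtain ⟨g, hg⟩ : ∃ g : E → ℝ, g = fun v => f (x, v) := ⟨_, rfl⟩
  have gm : Measurable g := hg ▸ hf.comp measurable_prodMk_left
  have g0 : ∀ v, 0 < g v := fun v => hg ▸ f0 _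
  obtain ⟨i1, i2, i3, e⟩ := vel hM hW (C := C) hR hK gm g0 (fun v => by rw [hg]; exact up (x, v))
    (fun v => by rw [hg]; exact lb (x, v))
  have hd : 0 < 1 + δ * rho f x :=
    add_pos_of_pos_of_nonneg one_pos (mul_nonneg hδ.le (integral_nonneg fun v => (f0 _).le))
  have k0 := fun z => (kk_mem hR z).1
  have b0 : ∀ z, 0 < BB g z := fun z => mul_pos (g0 _) (g0 _)
  have e1 : ∀ v, (gainK (kT R) (sl f x) (sl f x) v).toReal =
      ∫ q, kk R (v, q) * BB g (ta (v, q)) ∂(volume.prod sph) := fun v => by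
    rw [integral_eq_lintegral_of_nonneg_ae (Eventually.of_forall fun q =>
      mul_nonneg (k0 _) (b0 _).le) (((m_kk hM R).mul ((m_BB gm).comp m_ta)).comp
      measurable_prodMk_left).aestronglyMeasurable, gainK]
    refine congrArg _ (lintegral_congr fun q => ?_)
    rw [ENNReal.ofReal_mul (k0 _), BB, ENNReal.ofReal_mul (g0 _).le, hg]
    rfl
  have e2 : ∀ v, (freqK (kT R) (sl f x) v).toReal =
      ∫ q, kk R (v, q) * g q.1 ∂(volume.prod sph) := fun v => by
    rw [integral_eq_lintegral_of_nonneg_ae (Eventually.of_forall fun q =>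
      mul_nonneg (k0 _) (g0 _).le) (((m_kk hM R).comp measurable_prodMk_left).mul
      (gm.comp measurable_fst)).aestronglyMeasurable, freqK]
    refine congrArg _ (lintegral_congr fun q => ?_)
    rw [ENNReal.ofReal_mul (k0 _), hg]
    rfl
  have e3 : ∀ v, DD R δ f (x, v) =
      (∫ q, kk R (v, q) * BB g (ta (v, q)) * ell g v ∂(volume.prod sph) -
        ∫ q, kk R (v, q) * BB g (v, q) * ell g v ∂(volume.prod sph)) / (1 + δ * rho f x) :=
    fun v => by
      have a : ∀ q : E × S2, kk R (v, q) * BB g (v, q) = kk R (v, q) * g q.1 * g v := fun q => by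
        simp only [BB]
        ring
      simp only [a, integral_mul_const, DD, gT, nT, e1, e2, ell]
      rw [hg]
      ring
  have q0 : ∀ z, 0 ≤ QQ R g z := fun z => mul_nonneg (k0 z) (jj_pos (b0 _) (b0 _)).1
  have e4 : -∫ v, DD R δ f (x, v) = (∫ z, QQ R g z ∂mu) / (1 + δ * rho f x) / 4 := by
    simp only [e3]
    rw [integral_div, integral_sub i1.integral_prod_left i2.integral_prod_left, e, mu,
      integral_prod _ i1, integral_prod _ i2]
    ring
  have q1 : 0 ≤ ∫ z, QQ R g z ∂mu := integral_nonneg q0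
  refine ⟨e4 ▸ by positivity, ?_⟩
  have e5 : ∀ v, eT R δ f (x, v) = (∫⁻ q, ENNReal.ofReal (QQ R g (v, q)) ∂(volume.prod sph)) *
      (ENNReal.ofReal (1 + δ * rho f x))⁻¹ := fun v => by
    rw [eT, ← div_eq_mul_inv]
    refine congrArg (· / _) (lintegral_congr fun q => ?_)
    rw [QQ, ENNReal.ofReal_mul (k0 _), ← (jj_pos (b0 _) (b0 _)).2, hg]
    rfl
  simp only [e5]
  rw [lintegral_mul_const' _ _ (ENNReal.inv_ne_top.2 (ENNReal.ofReal_pos.2 hd).ne'),
    ← lintegral_prod (fun z => ENNReal.ofReal (QQ R g z)) i3.1.aemeasurable.ennreal_ofReal,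
    ← mu, ← ofReal_integral_eq_lintegral_ofReal i3 (Eventually.of_forall q0), ← div_eq_mul_inv,
    ← ENNReal.ofReal_div_of_pos hd, e4, ← ENNReal.ofReal_ofNat 4,
    ← ENNReal.ofReal_mul (by norm_num), mul_div_cancel₀ _ (by norm_num)]

theorem slice (hM : MeasStmt) (hW : WeakStmt) {R δ C K : ℝ} (hR : 0 < R) (hδ : 0 < δ)
    (hK : 0 < K) {f : Om → ℝ} (hf : Measurable f) (f0 : ∀ p, 0 < f p)
    (up : ∀ p : Om, f p ≤ C * Real.exp (-‖p.2‖))
    (lb : ∀ p : Om, |Real.log (f p / Mx p.2)| ≤ K * (1 + ‖p.2‖ ^ 2))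
    (hi : Integrable (DD R δ f)) : 0 ≤ -∫ p, DD R δ f p ∧
      ∫⁻ p, eT R δ f p = 4 * ENNReal.ofReal (-∫ p, DD R δ f p) := by
  have h := slice_x hM hW hR hδ hK hf f0 up lb
  have m0 : Measurable fun y : ℝ × Om => eT R δ f y.2 :=
    (hM.2.2.2.2.1 (fun _ => f) (hf.comp measurable_snd) R δ).2.2.2.2.1
  have m : Measurable (eT R δ f) := Measurable.of_uncurry_left (f := fun (_ : ℝ) p => eT R δ f p)
    m0 (x := 0)
  rw [Measure.volume_eq_prod] at hi ⊢
  rw [integral_prod _ hi, ← integral_neg, lintegral_prod _ m.aemeasurable,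
    ofReal_integral_eq_lintegral_ofReal hi.integral_prod_left.fun_neg
      (Eventually.of_forall fun x => (h x).1), ← lintegral_const_mul' _ _ (by norm_num)]
  exact ⟨integral_nonneg fun x => (h x).1, lintegral_congr fun x => (h x).2⟩

theorem intO (K : ℝ) : Integrable fun p : Om => K * W p.2 :=
  (intW.comp_snd (volume : Measure T3)).const_mul K

/-- Entropy density. -/
def HH (f : Om → ℝ) (p : Om) : ℝ := f p * Real.log (f p / Mx p.2) - f p + Mx p.2

theorem intH (hI : IneqStmt) {C K : ℝ} {f : Om → ℝ} (hf : Measurable f) (f0 : ∀ p, 0 < f p)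
    (up : ∀ p : Om, f p ≤ C * Real.exp (-‖p.2‖))
    (lb : ∀ p : Om, |Real.log (f p / Mx p.2)| ≤ K * (1 + ‖p.2‖ ^ 2)) :
    Integrable (HH f) ∧ 0 ≤ ∫ p, HH f p ∧ relEnt f = ENNReal.ofReal (∫ p, HH f p) := by
  have h0 : ∀ p, 0 ≤ HH f p := fun p => (hI.2.2.2.2.1 _ _ (f0 p).le (Mx_pos _)).1
  have hM : Measurable fun p : Om => Mx p.2 := continuous_Mx.measurable.comp measurable_snd
  have hi : Integrable (HH f) := by
    refine (intO (C * K + 1)).mono' (((hf.mul (hf.div hM).log).sub hf).add hM).aestronglyMeasurable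
      (Eventually.of_forall fun p => ?_)
    have a1 := (hI.2.2.2.2.2.2.2.2.2.1 p.2).trans (exp_le_W p.2)
    have a2 := (mul_le_mul_of_nonneg_left (le_abs_self _) (f0 p).le).trans
      (mul_le_mul (up p) (lb p) (abs_nonneg _) ((f0 p).le.trans (up p)))
    rw [Real.norm_of_nonneg (h0 p), HH, add_mul, one_mul]
    have a3 : C * Real.exp (-‖p.2‖) * (K * (1 + ‖p.2‖ ^ 2)) = C * K * W p.2 := by
      rw [W]
      ring
    linarith [f0 p]
  exact ⟨hi, integral_nonneg h0,
    (ofReal_integral_eq_lintegral_ofReal hi (Eventually.of_forall h0)).symm⟩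

theorem chain (hC : ChainStmt) {m t : ℝ} (hm : 0 < m) (ht : 0 ≤ t) {y g : ℝ → ℝ}
    (hg : IntervalIntegrable g volume 0 t) (hy : ∀ r ∈ Icc 0 t, y r = y 0 + ∫ s in (0 : ℝ)..r, g s)
    (y0 : ∀ r ∈ Icc 0 t, 0 < y r) : y t * Real.log (y t / m) - y t + m =
      y 0 * Real.log (y 0 / m) - y 0 + m + ∫ s in Icc 0 t, Real.log (y s / m) * g s := by
  have h := (hC ℝ 0 t y g (Ioi 0) (fun z => z * Real.log (z / m) - z + m)
    (fun z => Real.log (z / m) • ContinuousLinearMap.id ℝ ℝ) ht hg hy (convex_Ioi 0) y0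
    (fun z hz => ?_) (ContinuousOn.smul ((continuousOn_id.div_const m).log fun z hz =>
      (div_pos hz hm).ne') continuousOn_const)).2
  · rw [integral_Icc_eq_integral_Ioc, ← intervalIntegral.integral_of_le ht]
    exact h
  · have hz' : (0 : ℝ) < z := hz
    have h1 := ((((hasDerivAt_id z).mul (((hasDerivAt_id z).div_const m).log
      (div_pos hz' hm).ne')).sub (hasDerivAt_id z)).add_const m).hasFDerivAt.hasFDerivWithinAt
      (s := Ioi 0)
    refine h1.congr_fderiv (ContinuousLinearMap.ext_ring ?_)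
    simp
    field_simp
    ring

end TSEnt

open TSEnt in
theorem tsEnt (hM : MeasStmt) (hW : WeakStmt) (hT : TorusStmt) (hC : ChainStmt) (hO : TOpStmt)
    (hF : TSFlStmt) (hI : IneqStmt) : TSEntStmt := by
  intro R δ F₀ F hR hδ hS s hs h0
  obtain ⟨L, hL, hO, -⟩ := hO R δ hR hδ
  obtain ⟨f1, f2, f3, -, f5, f6⟩ := hF R δ F₀ F hR hδ hS
  have key : ∀ t, 0 ≤ t → ∃ C K : ℝ, 0 < K ∧ ∀ r ∈ Icc 0 t, TData C (F r) ∧ ∀ p : Om,
      0 < F r p ∧ |Real.log (F r p / Mx p.2)| ≤ K * (1 + ‖p.2‖ ^ 2) := fun t ht => by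
    obtain ⟨C, hC⟩ := f2 t
    obtain ⟨K, hK, hb⟩ := ell_bd (c := s * Real.exp (-(L * t))) (by positivity) C
    refine ⟨C, K, hK, fun r hr => ⟨hC r hr, fun p => ?_⟩⟩
    have lo : s * Real.exp (-(L * t)) * Mx p.2 ≤ F r p := by
      have a1 := f6 (fl (-r) p) 0 r le_rfl hr.1
      rw [fl_fl, add_neg_cancel, fl_zero, fl_zero, f1] at a1
      have a2 : 0 ≤ ∫ u in (0 : ℝ)..r, gT R δ (F u) (fl u (fl (-r) p)) *
          Real.exp (-∫ r' in u..r, nT R δ (F r') (fl r' (fl (-r) p))) :=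
        intervalIntegral.integral_nonneg hr.1 fun u hu => mul_nonneg
          (hO C _ (hC u ⟨hu.1, hu.2.trans hr.2⟩) _).2.2.2.2.1 (Real.exp_pos _).le
      have a3 := intervalIntegral.integral_mono_on hr.1 (f3 (fl (-r) p) 0 r le_rfl hr.1).2.1
        (intervalIntegrable_const (c := L)) fun u hu =>
          (hO C _ (hC u ⟨hu.1, hu.2.trans hr.2⟩) _).2.2.2.2.2.2.2
      rw [intervalIntegral.integral_const, sub_zero, smul_eq_mul, mul_comm] at a3
      have a4 := Real.exp_le_exp.2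
        (neg_le_neg (a3.trans (mul_le_mul_of_nonneg_left hr.2 hL.le)))
      have a5 : s * Mx p.2 ≤ F₀ (fl (-r) p) := h0 (fl (-r) p)
      have a6 := mul_pos hs (Mx_pos p.2)
      rw [a1, mul_right_comm]
      exact (mul_le_mul a5 a4 (Real.exp_pos _).le (a6.le.trans a5)).trans
        (le_add_of_nonneg_right a2)
    exact ⟨(mul_pos (by positivity) (Mx_pos _)).trans_le lo, hb _ _ lo ((hC r hr).2 p).2⟩
  have ent : ∀ t, 0 ≤ t → Integrable (HH (F t)) ∧ 0 ≤ ∫ p, HH (F t) p ∧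
      relEnt (F t) = ENNReal.ofReal (∫ p, HH (F t) p) := fun t ht => by
    obtain ⟨C, K, -, h⟩ := key t ht
    obtain ⟨a, b⟩ := h t ⟨ht, le_rfl⟩
    exact intH hI a.1 (fun p => (b p).1) (fun p => (a.2 p).2) fun p => (b p).2
  obtain ⟨e1, e2, e3⟩ := ent 0 le_rfl
  rw [f1] at e1 e2 e3
  refine ⟨e3 ▸ ENNReal.ofReal_lt_top, fun t ht => ?_⟩
  obtain ⟨e4, e5, e6⟩ := ent t ht
  obtain ⟨C, K, hK, h⟩ := key t ht
  obtain ⟨-, m1, m2, -⟩ := hM.2.2.2.2.1 F hS.meas R δ
  have mD : Measurable fun y : ℝ × Om => DD R δ (F y.1) y.2 :=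
    (hS.meas.div (continuous_Mx.measurable.comp measurable_snd.snd)).log.mul
      (m1.sub (m2.mul hS.meas))
  have bD : ∀ r ∈ Icc 0 t, ∀ p : Om, ‖DD R δ (F r) p‖ ≤ K * (L * C) * W p.2 := fun r hr p => by
    obtain ⟨a, b⟩ := h r hr
    obtain ⟨-, -, -, -, a1, a2, a3, a4⟩ := hO C _ a p
    have a5 := mul_le_mul a4 (a.2 p).2 (a.2 p).1 hL.le
    have a6 := mul_nonneg a3 (a.2 p).1
    have a7 : |gT R δ (F r) p - nT R δ (F r) p * F r p| ≤ L * C * Real.exp (-‖p.2‖) :=
      abs_le.2 ⟨by linarith, by linarith⟩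
    rw [DD, Real.norm_eq_abs, abs_mul]
    refine (mul_le_mul (b p).2 a7 (abs_nonneg _) (by positivity)).trans_eq ?_
    rw [W]
    ring
  have iD : ∀ r ∈ Icc 0 t, Integrable (DD R δ (F r)) := fun r hr =>
    (intO _).mono' (mD.comp measurable_prodMk_left).aestronglyMeasurable
      (Eventually.of_forall (bD r hr))
  have sl := fun r (hr : r ∈ Icc 0 t) => slice hM hW hR hδ hK (h r hr).1.1
    (fun p => ((h r hr).2 p).1) (fun p => ((h r hr).1.2 p).2) (fun p => ((h r hr).2 p).2) (iD r hr)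
  have iU : Integrable (fun y : ℝ × Om => DD R δ (F y.1) (fl y.1 y.2))
      ((volume.restrict (Icc 0 t)).prod volume) :=
    ((intO (K * (L * C))).comp_snd _).mono'
      (mD.comp (measurable_fst.prodMk continuous_fl.measurable)).aestronglyMeasurable
      ((Measure.quasiMeasurePreserving_fst.ae (ae_restrict_mem measurableSet_Icc)).mono
        fun y hy => bD y.1 hy _)
  have pf := hT.2.2.2.2.2.2.1
  have eU : ∀ᵐ r ∂volume.restrict (Icc 0 t), ∫ p, DD R δ (F r) (fl r p) = ∫ p, DD R δ (F r) p :=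
    (ae_restrict_mem measurableSet_Icc).mono fun r hr => ic (pf r) (iD r hr).1
  have c1 : ∀ p, HH (F t) (fl t p) = HH F₀ p + ∫ r in Icc 0 t, DD R δ (F r) (fl r p) := fun p => by
    have := chain hC (Mx_pos p.2) ht (y := fun r => F r (fl r p))
      ((f3 p 0 t le_rfl ht).1.sub (f3 p 0 t le_rfl ht).2.2) (fun r hr => f5 p 0 r le_rfl hr.1)
      fun r hr => ((h r hr).2 _).1
    simp only [fl_zero, f1] at this
    exact this
  have c2 : ∫ p, HH (F t) p = (∫ p, HH F₀ p) + ∫ r in Icc 0 t, ∫ p, DD R δ (F r) p := by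
    rw [← ic (pf t) e4.1, ← integral_congr_ae eU, integral_integral_swap iU,
      ← integral_add e1 iU.integral_prod_right]
    exact integral_congr_ae (Eventually.of_forall c1)
  have n0 : 0 ≤ᵐ[volume.restrict (Icc 0 t)] fun r => -∫ p, DD R δ (F r) p :=
    (ae_restrict_mem measurableSet_Icc).mono fun r hr => (sl r hr).1
  have c3 : ∫⁻ r in Icc 0 t, ∫⁻ p, eT R δ (F r) p =
      4 * ENNReal.ofReal (∫ r in Icc 0 t, -∫ p, DD R δ (F r) p) := by
    rw [ofReal_integral_eq_lintegral_ofReal (iU.integral_prod_left.congr eU).fun_neg n0,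
      ← lintegral_const_mul' _ _ (by norm_num)]
    exact setLIntegral_congr_fun measurableSet_Icc fun r hr => (sl r hr).2
  rw [c3, ← mul_assoc, one_div, ENNReal.inv_mul_cancel (by norm_num) (by norm_num), one_mul, e3, e6,
    ← ENNReal.ofReal_add e5 (integral_nonneg_of_ae n0), integral_neg, c2, add_neg_cancel_right]

end

end Vale.Agent.P140
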