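import Vale.Agent.P140.StmA

/-!
Existence for the truncated problem, by Picard iteration.
-/

namespace Vale.Agent.P140

open MeasureTheory Set Filter Topology
open scoped ENNReal

noncomputable section

namespace TSEx

theorem int_exp (a K t : ℝ) :
    ∫ s in (0 : ℝ)..t, K * a * Real.exp (K * s) = a * Real.exp (K * t) - a := by
  have h : ∀ s ∈ uIcc (0 : ℝ) t,
      HasDerivAt (fun s => a * Real.exp (K * s)) (K * a * Real.exp (K * s)) s := fun s _ => by
    have h1 := (((hasDerivAt_id s).const_mul K).exp).const_mul a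
    refine h1.congr_deriv ?_
    simp only [id]
    ring
  rw [intervalIntegral.integral_eq_sub_of_hasDerivAt h
    (Continuous.intervalIntegrable (by fun_prop) _ _)]
  simp

theorem int_bd {f g : ℝ → ℝ} {t : ℝ} (ht : 0 ≤ t) (hf : Measurable f) (hg : Continuous g)
    (h : ∀ s ∈ Icc 0 t, |f s| ≤ g s) :
    IntervalIntegrable f volume 0 t ∧ |∫ s in (0 : ℝ)..t, f s| ≤ ∫ s in (0 : ℝ)..t, g s := by
  refine ⟨(hg.intervalIntegrable 0 t).mono_fun' hf.aestronglyMeasurable ?_,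
    intervalIntegral.norm_integral_le_of_norm_le (f := f) ht
      (Eventually.of_forall fun s hs => h s (Ioc_subset_Icc_self hs)) (hg.intervalIntegrable 0 t)⟩
  rw [uIoc_of_le ht]
  exact (ae_restrict_mem measurableSet_Ioc).mono fun s hs => h s (Ioc_subset_Icc_self hs)

theorem meas_int {α : Type} [MeasurableSpace α] {τ : α → ℝ} {G : α → ℝ → ℝ} (hτ : Measurable τ)
    (h0 : ∀ a, 0 ≤ τ a) (hG : Measurable fun z : α × ℝ => G z.1 z.2) :
    Measurable fun a => ∫ s in (0 : ℝ)..τ a, G a s := by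
  have h1 : MeasurableSet {z : α × ℝ | z.2 ∈ Ioc 0 (τ z.1)} :=
    (measurableSet_lt measurable_const measurable_snd).inter
      (measurableSet_le measurable_snd (hτ.comp measurable_fst))
  have h2 := ((hG.indicator h1).stronglyMeasurable.integral_prod_right' (ν := volume)).measurable
  have h3 : (fun a => ∫ s in (0 : ℝ)..τ a, G a s) = fun a =>
      ∫ s, {z : α × ℝ | z.2 ∈ Ioc 0 (τ z.1)}.indicator (fun z => G z.1 z.2) (a, s) := by
    funext a
    rw [intervalIntegral.integral_of_le (h0 a), ← integral_indicator measurableSet_Ioc]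
    rfl
  rw [h3]
  exact h2

theorem meas_fl {α : Type} [MeasurableSpace α] {s : α → ℝ} {p : α → Om} (hs : Measurable s)
    (hp : Measurable p) : Measurable fun a => fl (s a) (p a) :=
  continuous_fl.measurable.comp (hs.prodMk hp)

/-- The properties of the nonlinearity. -/
structure Op (L : ℝ) (H : (Om → ℝ) → Om → ℝ) : Prop where
  pos : 0 < L
  meas : ∀ F : ℝ → Om → ℝ, Measurable (fun y : ℝ × Om => F y.1 y.2) →
    Measurable fun y : ℝ × Om => H (F y.1) y.2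
  bd : ∀ B f, TData B f → ∀ p, 0 ≤ H f p ∧ H f p ≤ 2 * L * B * Real.exp (-‖p.2‖)
  lip : ∀ B, 0 ≤ B → ∃ K, 0 < K ∧ ∀ ε f g, TData B f → TData B g →
    (∀ p : Om, |f p - g p| ≤ ε * Real.exp (-‖p.2‖)) →
    ∀ p : Om, |H f p - H g p| ≤ K * ε * Real.exp (-‖p.2‖)

/-- The Picard map. -/
def Ph (L : ℝ) (H : (Om → ℝ) → Om → ℝ) (F₀ : Om → ℝ) (F : ℝ → Om → ℝ) (t : ℝ) (p : Om) : ℝ :=
  F₀ (fl (-max t 0) p) * Real.exp (-(L * max t 0)) +
    ∫ s in (0 : ℝ)..max t 0, H (F s) (fl (s - max t 0) p) * Real.exp (-(L * (max t 0 - s)))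

/-- The invariant class. -/
def Inv (L C : ℝ) (F : ℝ → Om → ℝ) : Prop :=
  Measurable (fun y : ℝ × Om => F y.1 y.2) ∧
    ∀ t p, 0 ≤ F t p ∧ F t p ≤ C * Real.exp (2 * L * max t 0) * Real.exp (-‖p.2‖)

variable {L C : ℝ} {H : (Om → ℝ) → Om → ℝ} {F₀ : Om → ℝ} {F G : ℝ → Om → ℝ}

theorem Inv.data (h : Inv L C F) (t : ℝ) : TData (C * Real.exp (2 * L * max t 0)) (F t) :=
  ⟨h.1.comp (measurable_const.prodMk measurable_id), h.2 t⟩

theorem Inv.data' (h : Inv L C F) (hL : 0 < L) (hC : 0 ≤ C) {t T : ℝ} (ht : t ∈ Icc 0 T) :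
    TData (C * Real.exp (2 * L * T)) (F t) := by
  refine ⟨(h.data t).1, fun p => ⟨(h.2 t p).1, (h.2 t p).2.trans ?_⟩⟩
  rw [max_eq_left ht.1]
  have := ht.2
  gcongr

theorem exp_le (hL : 0 < L) {x : ℝ} (hx : 0 ≤ x) : Real.exp (-(L * x)) ≤ 1 :=
  Real.exp_le_one_iff.2 (neg_nonpos.2 (by positivity))

theorem Op.meas1 (h : Op L H) (hF : Inv L C F) (τ : ℝ) (p : Om) :
    Measurable fun s => H (F s) (fl (s - τ) p) :=
  (h.meas F hF.1).comp (measurable_id.prodMk (meas_fl (by fun_prop) measurable_const))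

theorem Op.int (h : Op L H) (hF : Inv L C F) {τ : ℝ} (hτ : 0 ≤ τ) (p : Om) :
    IntervalIntegrable (fun s => H (F s) (fl (s - τ) p) * Real.exp (-(L * (τ - s)))) volume 0 τ ∧
    |∫ s in (0 : ℝ)..τ, H (F s) (fl (s - τ) p) * Real.exp (-(L * (τ - s)))| ≤
      C * Real.exp (-‖p.2‖) * Real.exp (2 * L * τ) - C * Real.exp (-‖p.2‖) := by
  rw [← int_exp]
  refine int_bd hτ ((h.meas1 hF τ p).mul (by fun_prop)) (by fun_prop) fun s hs => ?_
  obtain ⟨h1, h2⟩ := h.bd _ _ (hF.data s) (fl (s - τ) p)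
  rw [fl_snd, max_eq_left hs.1] at h2
  rw [abs_of_nonneg (by positivity)]
  refine (mul_le_of_le_one_right h1 (exp_le h.pos (by linarith [hs.2]))).trans (h2.trans_eq ?_)
  ring

theorem Op.inv (h : Op L H) (h0 : TData C F₀) (hF : Inv L C F) : Inv L C (Ph L H F₀ F) := by
  have hτ : Measurable fun y : ℝ × Om => max y.1 0 := by fun_prop
  refine ⟨Measurable.add ?_ (meas_int hτ (fun _ => le_max_right _ _) ?_), fun t p => ?_⟩
  · exact (h0.1.comp (meas_fl hτ.neg measurable_snd)).mul (by fun_prop)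
  · refine Measurable.mul ?_ (by fun_prop)
    exact (h.meas F hF.1).comp (measurable_snd.prodMk (meas_fl (by fun_prop) (by fun_prop)))
  · have ht : 0 ≤ max t 0 := le_max_right _ _
    obtain ⟨h1, h2⟩ := h0.2 (fl (-max t 0) p)
    rw [fl_snd] at h2
    have h3 := mul_le_of_le_one_right h1 (exp_le h.pos ht)
    have h4 := (le_abs_self _).trans (h.int hF ht p).2
    refine ⟨add_nonneg (by positivity) (intervalIntegral.integral_nonneg ht fun s _ =>
      mul_nonneg (h.bd _ _ (hF.data s) _).1 (Real.exp_pos _).le), ?_⟩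
    unfold Ph
    linarith

theorem Op.contr (h : Op L H) (hC : 0 ≤ C) (T : ℝ) : ∃ K, 0 < K ∧ ∀ F G a, Inv L C F →
    Inv L C G → 0 ≤ a →
    (∀ t ∈ Icc 0 T, ∀ p : Om, |F t p - G t p| ≤ a * Real.exp (K * t) * Real.exp (-‖p.2‖)) →
    ∀ t ∈ Icc 0 T, ∀ p : Om, |Ph L H F₀ F t p - Ph L H F₀ G t p| ≤
      a / 2 * Real.exp (K * t) * Real.exp (-‖p.2‖) := by
  obtain ⟨K, hK, h1⟩ := h.lip (C * Real.exp (2 * L * T)) (by positivity)
  refine ⟨2 * K, by positivity, fun F G a hF hG ha hd t ht p => ?_⟩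
  unfold Ph
  rw [max_eq_left ht.1, add_sub_add_left_eq_sub,
    ← intervalIntegral.integral_sub (h.int hF ht.1 p).1 (h.int hG ht.1 p).1]
  refine (int_bd ht.1 (((h.meas1 hF t p).fun_mul (by fun_prop)).fun_sub
    ((h.meas1 hG t p).fun_mul (by fun_prop)))
    (g := fun s => 2 * K * (a / 2 * Real.exp (-‖p.2‖)) * Real.exp (2 * K * s)) (by fun_prop)
    fun s hs => ?_).2.trans ?_
  · have hs' : s ∈ Icc 0 T := ⟨hs.1, hs.2.trans ht.2⟩
    have h2 := h1 _ _ _ (hF.data' h.pos hC hs') (hG.data' h.pos hC hs') (hd s hs') (fl (s - t) p)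
    rw [fl_snd] at h2
    rw [← sub_mul, abs_mul, abs_of_pos (Real.exp_pos _)]
    refine (mul_le_of_le_one_right (abs_nonneg _)
      (exp_le h.pos (by linarith [hs.2]))).trans (h2.trans_eq ?_)
    ring
  · rw [int_exp]
    have : 0 ≤ a / 2 * Real.exp (-‖p.2‖) := by positivity
    linarith

theorem Ph_max (F : ℝ → Om → ℝ) (t : ℝ) : Ph L H F₀ F (max t 0) = Ph L H F₀ F t := by
  funext p
  unfold Ph
  rw [max_eq_left (le_max_right t 0)]

theorem Op.fix (h : Op L H) (h0 : TData C F₀) : ∃ F, Inv L C F ∧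
    ∀ t, 0 ≤ t → ∀ p, F t p = Ph L H F₀ F t p := by
  have hC : 0 ≤ C := by
    obtain ⟨h1, h2⟩ := h0.2 0
    exact nonneg_of_mul_nonneg_left (h1.trans h2) (Real.exp_pos _)
  obtain ⟨u, hu0, hu⟩ : ∃ u : ℕ → ℝ → Om → ℝ, u 0 = (fun _ _ => 0) ∧
      ∀ m, u (m + 1) = Ph L H F₀ (u m) :=
    ⟨fun m => (Ph L H F₀)^[m] fun _ _ => 0, rfl, fun m => Function.iterate_succ_apply' _ _ _⟩
  have hinv : ∀ m, Inv L C (u m) := fun m => by
    induction m with
    | zero => exact hu0 ▸ ⟨measurable_const, fun t p => ⟨le_rfl, by positivity⟩⟩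
    | succ m ih => exact hu m ▸ h.inv h0 ih
  have hmax : ∀ m t, u m (max t 0) = u m t := fun m t => by
    cases m with
    | zero => rw [hu0]
    | succ m => rw [hu, Ph_max]
  have hgeo : ∀ T, ∃ K B, 0 < K ∧ 0 ≤ B ∧ (∀ F G a, Inv L C F → Inv L C G → 0 ≤ a →
      (∀ t ∈ Icc 0 T, ∀ p : Om, |F t p - G t p| ≤ a * Real.exp (K * t) * Real.exp (-‖p.2‖)) →
      ∀ t ∈ Icc 0 T, ∀ p : Om, |Ph L H F₀ F t p - Ph L H F₀ G t p| ≤
        a / 2 * Real.exp (K * t) * Real.exp (-‖p.2‖)) ∧ ∀ t ∈ Icc 0 T, ∀ (p : Om) (m : ℕ),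
      dist (u m t p) (u (m + 1) t p) ≤
        2 * B * Real.exp (K * t) * Real.exp (-‖p.2‖) / 2 / 2 ^ m := fun T => by
    obtain ⟨K, hK, h1⟩ := h.contr (F₀ := F₀) hC T
    refine ⟨K, C * Real.exp (2 * L * T), hK, by positivity, h1, fun t ht p m => ?_⟩
    have h2 : ∀ m : ℕ, ∀ t ∈ Icc 0 T, ∀ p : Om, |u m t p - u (m + 1) t p| ≤
        C * Real.exp (2 * L * T) / 2 ^ m * Real.exp (K * t) * Real.exp (-‖p.2‖) := by
      intro m
      induction m with
      | zero =>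
        intro t ht p
        obtain ⟨h3, h4⟩ := ((hinv 1).data' h.pos hC ht).2 p
        rw [hu0, zero_sub, abs_neg, abs_of_nonneg h3, pow_zero, div_one]
        refine h4.trans (mul_le_mul_of_nonneg_right (le_mul_of_one_le_right (by positivity)
          (Real.one_le_exp (mul_nonneg hK.le ht.1))) (Real.exp_pos _).le)
      | succ m ih =>
        intro t ht p
        have h3 := h1 _ _ _ (hinv m) (hinv (m + 1)) (by positivity) ih t ht p
        rw [← hu, ← hu] at h3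
        refine h3.trans_eq ?_
        ring
    rw [Real.dist_eq]
    refine (h2 m t ht p).trans_eq ?_
    ring
  have hlim : ∀ t p, ∃ a, Tendsto (fun m => u m t p) atTop (𝓝 a) := fun t p => by
    obtain ⟨K, B, -, -, -, h1⟩ := hgeo (max t 0)
    have h2 := cauchySeq_of_le_geometric_two (h1 _ ⟨le_max_right _ _, le_rfl⟩ p)
    simp only [hmax] at h2
    exact cauchySeq_tendsto_of_complete h2
  choose F hF using hlim
  have hI : Inv L C F := ⟨measurable_of_tendsto_metrizable (fun m => (hinv m).1)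
    (tendsto_pi_nhds.2 fun y => hF y.1 y.2), fun t p =>
      ⟨ge_of_tendsto' (hF t p) fun m => ((hinv m).2 t p).1,
        le_of_tendsto' (hF t p) fun m => ((hinv m).2 t p).2⟩⟩
  refine ⟨F, hI, fun t ht p => ?_⟩
  obtain ⟨K, B, -, hB, h1, h2⟩ := hgeo t
  have h3 : ∀ m : ℕ, dist (u (m + 1) t p) (Ph L H F₀ F t p) ≤
      B * Real.exp (K * t) * Real.exp (-‖p.2‖) * (1 / 2) ^ m := fun m => by
    rw [hu, Real.dist_eq]
    refine (h1 _ _ (2 * B / 2 ^ m) (hinv m) hI (by positivity) (fun s hs q => ?_) t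
      ⟨ht, le_rfl⟩ p).trans_eq (by rw [one_div, inv_pow]; ring)
    rw [← Real.dist_eq]
    exact (dist_le_of_le_geometric_two_of_tendsto (h2 s hs q) (hF s q) m).trans_eq (by ring)
  refine tendsto_nhds_unique ((tendsto_add_atTop_iff_nat 1).2 (hF t p))
    (tendsto_iff_dist_tendsto_zero.2 (squeeze_zero (fun _ => dist_nonneg) h3 ?_))
  have h4 := (tendsto_pow_atTop_nhds_zero_of_lt_one (r := (1 / 2 : ℝ)) (by norm_num)
    (by norm_num)).const_mul (B * Real.exp (K * t) * Real.exp (-‖p.2‖))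
  rwa [mul_zero] at h4

theorem op (hM : MeasStmt) (hO : TOpStmt) {R δ : ℝ} (hR : 0 < R) (hδ : 0 < δ) :
    ∃ L, Op L fun f p => gT R δ f p + (L - nT R δ f p) * f p := by
  obtain ⟨L, hL, h1, h2, -⟩ := hO R δ hR hδ
  refine ⟨L, hL, fun F hF => ?_, fun B f hf p => ?_, fun B hB => ?_⟩
  · obtain ⟨-, h3, h4, -⟩ := hM.2.2.2.2.1 F hF R δ
    exact h3.add ((measurable_const.sub h4).mul hF)
  · obtain ⟨-, -, -, -, a1, a2, a3, a4⟩ := h1 B f hf p
    obtain ⟨a5, a6⟩ := hf.2 p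
    have a7 : (L - nT R δ f p) * f p ≤ L * (B * Real.exp (-‖p.2‖)) :=
      mul_le_mul (by linarith) a6 a5 hL.le
    exact ⟨add_nonneg a1 (mul_nonneg (by linarith) a5), by linarith⟩
  · refine ⟨L * (1 + B) ^ 2 + L + L * (1 + B) * B, by positivity, fun ε f g hf hg hd p => ?_⟩
    obtain ⟨-, -, -, -, -, -, a3, a4⟩ := h1 B f hf p
    obtain ⟨a5, a6⟩ := hg.2 p
    obtain ⟨b1, b2⟩ := h2 B ε f g hf hg hd p
    have b3 : |(L - nT R δ f p) * (f p - g p)| ≤ L * (ε * Real.exp (-‖p.2‖)) := by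
      rw [abs_mul, abs_of_nonneg (by linarith)]
      exact mul_le_mul (by linarith) (hd p) (abs_nonneg _) hL.le
    have b4 : |(nT R δ f p - nT R δ g p) * g p| ≤ L * (1 + B) * ε * (B * Real.exp (-‖p.2‖)) := by
      rw [abs_mul, abs_of_nonneg a5]
      exact mul_le_mul b2 a6 a5 ((abs_nonneg _).trans b2)
    rw [abs_le] at b1 b3 b4 ⊢
    constructor <;> linarith [b1.1, b1.2, b3.1, b3.2, b4.1, b4.2]

end TSEx

open TSEx in
theorem tsEx (hM : MeasStmt) (hO : TOpStmt) (hE : ExpStmt) : TSExStmt := by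
  intro R δ C hR hδ F₀ h0
  obtain ⟨L, h⟩ := op hM hO hR hδ
  obtain ⟨F, hI, hF⟩ := h.fix h0
  have hC : 0 ≤ C := by
    obtain ⟨h1, h2⟩ := h0.2 0
    exact nonneg_of_mul_nonneg_left (h1.trans h2) (Real.exp_pos _)
  refine ⟨F, hI.1, fun t p => (hI.2 t p).1,
    fun T => ⟨_, fun t ht p => ((hI.data' h.pos hC ht).2 p).2⟩, fun t ht p => ?_⟩
  have hq : IntervalIntegrable (fun s => gT R δ (F s) (fl s p) +
      (L - nT R δ (F s) (fl s p)) * F s (fl s p)) volume 0 t := by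
    have h1 := h.meas1 hI 0 p
    simp only [sub_zero] at h1
    refine (int_bd ht h1 (g := fun _ => 2 * L * (C * Real.exp (2 * L * t)) * Real.exp (-‖p.2‖))
      continuous_const fun s hs => ?_).1
    obtain ⟨h2, h3⟩ := h.bd _ _ (hI.data' h.pos hC hs) (fl s p)
    rw [abs_of_nonneg h2]
    exact h3
  have h1 := (hE.2 0 t (F₀ p) (fun s => F s (fl s p)) _ (fun _ => L) ht hq
    intervalIntegrable_const fun s hs => ?_).2 t ⟨ht, le_rfl⟩
  · refine h1.trans ?_
    congr 2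
    funext s
    ring
  · rw [hF s hs.1]
    unfold Ph
    simp only [max_eq_left hs.1, fl_fl, neg_add_cancel, fl_zero, sub_add_cancel,
      intervalIntegral.integral_const, smul_eq_mul, sub_zero, mul_comm L]

end

end Vale.Agent.P140
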