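import Vale.Agent.P140.StmA

/-! P140: flight facts and stability for the truncated problem. -/

namespace Vale.Agent.P140

open MeasureTheory Set Filter Topology
open scoped ENNReal

noncomputable section

namespace TSStab

lemma ii_of_bdd {g : ℝ → ℝ} (hg : Measurable g) {s t M : ℝ} (h : ∀ r ∈ uIcc s t, |g r| ≤ M) :
    IntervalIntegrable g volume s t :=
  (intervalIntegrable_const (c := M)).mono_fun' hg.aestronglyMeasurable
    ((ae_restrict_iff' measurableSet_uIoc).2 (Eventually.of_forall fun r hr =>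
      h r (uIoc_subset_uIcc hr)))

lemma meas_fl (p : Om) : Measurable fun r : ℝ => (r, fl r p) :=
  measurable_id.prodMk (continuous_fl.comp (continuous_id.prodMk continuous_const)).measurable

lemma exp_le (v : E) : Real.exp (-‖v‖) ≤ 1 := Real.exp_le_one_iff.2 (neg_nonpos.2 (norm_nonneg v))

lemma nonneg_of {C : ℝ} {v : E} (h : 0 ≤ C * Real.exp (-‖v‖)) : 0 ≤ C :=
  nonneg_of_mul_nonneg_left h (Real.exp_pos _)

lemma mul_exp_le {C : ℝ} {v : E} (h : 0 ≤ C * Real.exp (-‖v‖)) : C * Real.exp (-‖v‖) ≤ C :=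
  mul_le_of_le_one_right (nonneg_of h) (exp_le v)

/-- Gronwall's inequality by iteration of an a priori bound. -/
lemma iter {ι : Type} {u : ℝ → ι → ℝ} {w : ι → ℝ} {T a L B : ℝ} (ha : 0 ≤ a)
    (hw : ∀ p, 0 ≤ w p) (h0 : ∀ t ∈ Icc 0 T, ∀ p, u t p ≤ B * w p)
    (hs : ∀ b : ℝ → ℝ, Continuous b → (∀ s ∈ Icc 0 T, ∀ p, u s p ≤ b s * w p) →
      ∀ t ∈ Icc 0 T, ∀ p, u t p ≤ (a + ∫ s in (0 : ℝ)..t, L * b s) * w p) :
    ∀ t ∈ Icc 0 T, ∀ p, u t p ≤ a * Real.exp (L * t) * w p := by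
  have key : ∀ k : ℕ, ∀ t ∈ Icc 0 T, ∀ p,
      u t p ≤ (a * Real.exp (L * t) + B * ((L * t) ^ k / k.factorial)) * w p := by
    intro k
    induction k with
    | zero =>
      intro t ht p
      refine (h0 t ht p).trans (mul_le_mul_of_nonneg_right ?_ (hw p))
      have := mul_nonneg ha (Real.exp_pos (L * t)).le
      simp only [pow_zero, Nat.factorial_zero, Nat.cast_one, div_one, mul_one]
      linarith
    | succ k ih =>
      intro t ht p
      refine (hs _ (by fun_prop) ih t ht p).trans (le_of_eq ?_)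
      congr 1
      have h := intervalIntegral.integral_eq_sub_of_hasDerivAt (a := 0) (b := t)
        (f := fun s => a * Real.exp (L * s) + B * ((L * s) ^ (k + 1) / (k + 1).factorial))
        (f' := fun s => L * (a * Real.exp (L * s) + B * ((L * s) ^ k / k.factorial)))
        (fun s _ => by
          have h1 := (hasDerivAt_id s).const_mul L
          refine ((h1.exp.const_mul a).add
            (((h1.pow (k + 1)).div_const ((k + 1).factorial : ℝ)).const_mul B)).congr_deriv ?_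
          simp only [id, Nat.factorial_succ, Nat.add_sub_cancel]
          push_cast
          field_simp)
        (Continuous.intervalIntegrable (by fun_prop) _ _)
      rw [h]
      simp
  intro t ht p
  have h1 := (((FloorSemiring.tendsto_pow_div_factorial_atTop (L * t)).const_mul B).const_add
    (a * Real.exp (L * t))).mul_const (w p)
  rw [mul_zero, add_zero] at h1
  exact ge_of_tendsto' h1 fun k => key k t ht p

lemma fl_back (t : ℝ) (p : Om) : fl t (fl (-t) p) = p := by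
  rw [fl_fl, add_neg_cancel, fl_zero]

lemma int_w {t L c : ℝ} (b : ℝ → ℝ) :
    ∫ s in (0 : ℝ)..t, L * b s * c = (∫ s in (0 : ℝ)..t, L * b s) * c :=
  intervalIntegral.integral_mul_const _ _

end TSStab

open TSStab in
theorem tsFl (hM : MeasStmt) (hO : TOpStmt) (hE : ExpStmt) : TSFlStmt := by
  intro R δ F₀ F hR hδ hF
  obtain ⟨L, hL, hO1, -, -⟩ := hO R δ hR hδ
  obtain ⟨-, hg, hn, -⟩ := hM.2.2.2.2.1 F hF.meas R δ
  have hT : ∀ T : ℝ, ∃ C : ℝ, ∀ t ∈ Icc (0 : ℝ) T, TData C (F t) := fun T => by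
    obtain ⟨C, hC⟩ := hF.bound T
    exact ⟨C, fun t ht => ⟨hF.meas.comp (measurable_const.prodMk measurable_id),
      fun p => ⟨hF.nonneg t p, hC t ht p⟩⟩⟩
  have hI : ∀ p s t, 0 ≤ s → 0 ≤ t →
      IntervalIntegrable (fun r => gT R δ (F r) (fl r p)) volume s t ∧
      IntervalIntegrable (fun r => nT R δ (F r) (fl r p)) volume s t ∧
      IntervalIntegrable (fun r => nT R δ (F r) (fl r p) * F r (fl r p)) volume s t := by
    intro p s t hs ht
    obtain ⟨C, hC⟩ := hT (max s t)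
    have hm : ∀ r ∈ uIcc s t, r ∈ Icc 0 (max s t) := fun r hr =>
      ⟨(le_min hs ht).trans hr.1, hr.2⟩
    refine ⟨ii_of_bdd (hg.comp (meas_fl p)) (M := L * C) fun r hr => ?_,
      ii_of_bdd (hn.comp (meas_fl p)) (M := L) fun r hr => ?_,
      ii_of_bdd ((hn.mul hF.meas).comp (meas_fl p)) (M := L * C) fun r hr => ?_⟩
    · obtain ⟨-, -, -, -, h1, h2, -⟩ := hO1 C _ (hC r (hm r hr)) (fl r p)
      exact (abs_of_nonneg h1).trans_le (h2.trans (mul_exp_le (h1.trans h2)))
    · obtain ⟨-, -, -, -, -, -, h1, h2⟩ := hO1 C _ (hC r (hm r hr)) (fl r p)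
      exact (abs_of_nonneg h1).trans_le h2
    · obtain ⟨-, -, -, -, -, -, h1, h2⟩ := hO1 C _ (hC r (hm r hr)) (fl r p)
      obtain ⟨h3, h4⟩ := (hC r (hm r hr)).2 (fl r p)
      exact (abs_of_nonneg (mul_nonneg h1 h3)).trans_le
        (mul_le_mul h2 (h4.trans (mul_exp_le (h3.trans h4))) h3 hL.le)
  have hJ : ∀ p s t, 0 ≤ s → 0 ≤ t → IntervalIntegrable
      (fun r => gT R δ (F r) (fl r p) - nT R δ (F r) (fl r p) * F r (fl r p)) volume s t :=
    fun p s t hs ht => (hI p s t hs ht).1.sub (hI p s t hs ht).2.2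
  have hc : ∀ p, ContinuousOn (fun t => F t (fl t p)) (Ici 0) := by
    intro p t ht
    have h0 : (0 : ℝ) ≤ t + 1 := by linarith [mem_Ici.1 ht]
    have h1 := intervalIntegral.continuousOn_primitive_interval' (hJ p 0 (t + 1) le_rfl h0)
      left_mem_uIcc
    rw [uIcc_of_le h0] at h1
    have h2 : ContinuousOn (fun t => F t (fl t p)) (Icc 0 (t + 1)) :=
      (continuousOn_const.add h1).congr fun r hr => hF.mild r hr.1 p
    exact (h2 t ⟨ht, by linarith⟩).mono_of_mem_nhdsWithin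
      (mem_nhdsWithin.2 ⟨Iio (t + 1), isOpen_Iio, by simp, fun x hx => ⟨hx.2, hx.1.le⟩⟩)
  have hm : ∀ p s t, 0 ≤ s → s ≤ t → F t (fl t p) = F s (fl s p) +
      ∫ r in s..t, (gT R δ (F r) (fl r p) - nT R δ (F r) (fl r p) * F r (fl r p)) := by
    intro p s t hs hst
    rw [hF.mild t (hs.trans hst) p, hF.mild s hs p, add_assoc,
      intervalIntegral.integral_add_adjacent_intervals (hJ p 0 s le_rfl hs)
        (hJ p s t hs (hs.trans hst))]
  refine ⟨funext fun p => by simpa [fl_zero] using hF.mild 0 le_rfl p, hT, hI, hc, hm,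
    fun p s t hs hst => ?_⟩
  exact hE.1 s t (fun r => F r (fl r p)) (fun r => gT R δ (F r) (fl r p))
    (fun r => nT R δ (F r) (fl r p)) hst (hI p s t hs (hs.trans hst)).1
    (hI p s t hs (hs.trans hst)).2.1 ((hc p).mono fun r hr => hs.trans hr.1)
    fun r hr => hm p s r hs hr.1

namespace TSStab

/-- The uniform a priori bound. -/
lemma apriori (hF : TSFlStmt) {R δ L C T : ℝ} (hR : 0 < R) (hδ : 0 < δ) (hL : 0 < L)
    (hO : ∀ (C : ℝ) (f : Om → ℝ), TData C f → ∀ p : Om,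
      gT R δ f p ≤ L * C * Real.exp (-‖p.2‖) ∧ 0 ≤ nT R δ f p)
    {F₀ : Om → ℝ} {F : ℝ → Om → ℝ} (h0 : TData C F₀) (h : TS R δ F₀ F) :
    ∀ t ∈ Icc (0 : ℝ) T, TData (C * Real.exp (L * T)) (F t) := by
  obtain ⟨-, -, hI, -⟩ := hF R δ F₀ F hR hδ h
  obtain ⟨B, hB⟩ := h.bound T
  have hC : 0 ≤ C := nonneg_of ((h0.2 0).1.trans (h0.2 0).2)
  have hm : ∀ t, Measurable (F t) := fun t => h.meas.comp (measurable_const.prodMk measurable_id)
  have key := iter (u := F) (w := fun p => Real.exp (-‖p.2‖)) (L := L) hC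
    (fun p => (Real.exp_pos _).le) hB (fun b hb hu t ht p => by
      have h1 := h.mild t ht.1 (fl (-t) p)
      rw [fl_back] at h1
      obtain ⟨i1, -, i2⟩ := hI (fl (-t) p) 0 t le_rfl ht.1
      have h2 := intervalIntegral.integral_mono_on ht.1 (i1.sub i2)
        (g := fun s => L * b s * Real.exp (-‖p.2‖))
        (Continuous.intervalIntegrable (by fun_prop) _ _) fun s hs => by
          obtain ⟨h3, h4⟩ := hO (b s) (F s) ⟨hm s, fun q =>
            ⟨h.nonneg s q, hu s ⟨hs.1, hs.2.trans ht.2⟩ q⟩⟩ (fl s (fl (-t) p))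
          have h5 := mul_nonneg h4 (h.nonneg s (fl s (fl (-t) p)))
          simp only [fl_snd] at h3
          linarith
      rw [int_w] at h2
      have h3 := (h0.2 (fl (-t) p)).2
      rw [fl_snd] at h3
      rw [h1, add_mul]
      linarith)
  refine fun t ht => ⟨hm t, fun p => ⟨h.nonneg t p, (key t ht p).trans ?_⟩⟩
  gcongr
  exact ht.2

lemma abs_diff {a a' n n' f f' A L N D C : ℝ} (h1 : |a - a'| ≤ A) (h2 : 0 ≤ n) (h3 : n ≤ L)
    (h4 : |n - n'| ≤ N) (h5 : |f - f'| ≤ D) (h6 : 0 ≤ f') (h7 : f' ≤ C) :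
    |a - n * f - (a' - n' * f')| ≤ A + L * D + N * C := by
  have e : a - n * f - (a' - n' * f') = (a - a') - (n * (f - f') + (n - n') * f') := by ring
  have h8 : |n * (f - f')| ≤ L * D := by
    rw [abs_mul, abs_of_nonneg h2]
    exact mul_le_mul h3 h5 (abs_nonneg _) (h2.trans h3)
  have h9 : |(n - n') * f'| ≤ N * C := by
    rw [abs_mul, abs_of_nonneg h6]
    exact mul_le_mul h4 h7 h6 ((abs_nonneg _).trans h4)
  rw [e]
  linarith [abs_sub (a - a') (n * (f - f') + (n - n') * f'),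
    abs_add_le (n * (f - f')) ((n - n') * f')]

end TSStab

open TSStab in
theorem tsStab (hM : MeasStmt) (hO : TOpStmt) (hF : TSFlStmt) : TSStabStmt := by
  intro R δ C T hR hδ
  obtain ⟨L, hL, hO1, hO2, -⟩ := hO R δ hR hδ
  obtain ⟨D, hD⟩ : ∃ D : ℝ, D = C * Real.exp (L * T) := ⟨_, rfl⟩
  obtain ⟨L', hL'⟩ : ∃ L' : ℝ, L' = L * (1 + D) ^ 2 + L + L * (1 + D) * D := ⟨_, rfl⟩
  refine ⟨Real.exp (L' * T), fun F₀ G₀ F G hF0 hG0 hf hg ε hε => ?_⟩
  have hO3 : ∀ (C : ℝ) (f : Om → ℝ), TData C f → ∀ p : Om,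
      gT R δ f p ≤ L * C * Real.exp (-‖p.2‖) ∧ 0 ≤ nT R δ f p := fun C f h p =>
    ⟨(hO1 C f h p).2.2.2.2.2.1, (hO1 C f h p).2.2.2.2.2.2.1⟩
  have a1 := apriori (T := T) hF hR hδ hL hO3 hF0 hf
  have a2 := apriori (T := T) hF hR hδ hL hO3 hG0 hg
  rw [← hD] at a1 a2
  have hε0 : 0 ≤ ε := nonneg_of ((abs_nonneg _).trans (hε 0))
  have hC : 0 ≤ C := nonneg_of ((hF0.2 0).1.trans (hF0.2 0).2)
  have hD0 : 0 ≤ D := hD ▸ by positivity
  have hL0 : 0 ≤ L' := hL' ▸ by positivity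
  obtain ⟨-, -, hI, -⟩ := hF R δ F₀ F hR hδ hf
  obtain ⟨-, -, hJ, -⟩ := hF R δ G₀ G hR hδ hg
  have key := iter (u := fun t p => |F t p - G t p|) (w := fun p => Real.exp (-‖p.2‖)) (L := L')
    (T := T) (B := D) hε0 (fun p => (Real.exp_pos _).le) (fun t ht p => by
      obtain ⟨h1, h2⟩ := (a1 t ht).2 p
      obtain ⟨h3, h4⟩ := (a2 t ht).2 p
      rw [abs_le]
      constructor <;> linarith) (fun b hb hu t ht p => by
      have h1 := hf.mild t ht.1 (fl (-t) p)
      have h2 := hg.mild t ht.1 (fl (-t) p)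
      rw [fl_back] at h1 h2
      obtain ⟨i1, -, i2⟩ := hI (fl (-t) p) 0 t le_rfl ht.1
      obtain ⟨j1, -, j2⟩ := hJ (fl (-t) p) 0 t le_rfl ht.1
      have h3 := intervalIntegral.norm_integral_le_of_norm_le ht.1
        (f := fun s => gT R δ (F s) (fl s (fl (-t) p))
          - nT R δ (F s) (fl s (fl (-t) p)) * F s (fl s (fl (-t) p))
          - (gT R δ (G s) (fl s (fl (-t) p))
          - nT R δ (G s) (fl s (fl (-t) p)) * G s (fl s (fl (-t) p))))
        (g := fun s => L' * b s * Real.exp (-‖p.2‖)) (μ := volume)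
        (Eventually.of_forall fun s hs => by
          have hs' : s ∈ Icc 0 T := ⟨hs.1.le, hs.2.trans ht.2⟩
          obtain ⟨h4, h5⟩ := hO2 D (b s) (F s) (G s) (a1 s hs') (a2 s hs') (hu s hs')
            (fl s (fl (-t) p))
          obtain ⟨-, -, -, -, -, -, h6, h7⟩ := hO1 D (F s) (a1 s hs') (fl s (fl (-t) p))
          obtain ⟨h8, h9⟩ := (a2 s hs').2 (fl s (fl (-t) p))
          refine (abs_diff h4 h6 h7 h5 (hu s hs' _) h8 h9).trans (le_of_eq ?_)
          simp only [fl_snd, hL']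
          ring)
        (Continuous.intervalIntegrable (by fun_prop) _ _)
      rw [int_w, intervalIntegral.integral_sub (i1.sub i2) (j1.sub j2), Real.norm_eq_abs] at h3
      have h4 := hε (fl (-t) p)
      rw [fl_snd] at h4
      simp only [h1, h2, add_sub_add_comm, add_mul]
      exact (abs_add_le _ _).trans (add_le_add h4 h3))
  intro t ht p
  refine (key t ht p).trans ?_
  rw [mul_comm ε]
  gcongr
  exact ht.2

end

end Vale.Agent.P140
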