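import Vale.Agent.P140.StmA

/-! Test functions along flights. -/

namespace Vale.Agent.P140

open MeasureTheory Set Filter Topology
open scoped ENNReal

namespace TestX

theorem pr_quot : IsOpenQuotientMap pr := by
  have h1 : IsOpenQuotientMap (fun x : ℝ => (x : UnitAddCircle)) :=
    QuotientAddGroup.isOpenQuotientMap_mk
  have h2 := IsOpenQuotientMap.piMap (ι := Fin 3) fun _ => h1
  exact h2.comp (PiLp.homeomorph 2 (fun _ : Fin 3 => ℝ)).isOpenQuotientMap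

theorem exists_cube : ∃ K : Set E, IsCompact K ∧ ∀ x : T3, ∃ X ∈ K, pr X = x := by
  refine ⟨(fun r : Fin 3 → ℝ => (WithLp.toLp 2 r : E)) '' Icc 0 1,
    isCompact_Icc.image (by fun_prop), fun x => ?_⟩
  choose r hr h using fun i => AddCircle.eq_coe_Ico (p := (1 : ℝ)) (x i)
  exact ⟨WithLp.toLp 2 r, ⟨r, ⟨fun i => (hr i).1, fun i => (hr i).2.le⟩, rfl⟩, funext h⟩

theorem fl_pr (s : ℝ) (X v : E) : fl s (pr X, v) = (pr (X + s • v), v) := by
  simp only [fl, pr_add]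

theorem line_deriv (t s₀ : ℝ) (X v : E) :
    HasDerivAt (fun s : ℝ => (t + s, X + s • v)) ((1 : ℝ), v) s₀ := by
  have h1 : HasDerivAt (fun s : ℝ => X + s • v) v s₀ := by
    simpa using ((hasDerivAt_id s₀).smul_const v).const_add X
  exact ((hasDerivAt_id s₀).const_add t).prodMk h1

variable {φ : ℝ → Om → ℝ}

theorem key (h : ContDiff ℝ (⊤ : ℕ∞) (fun q : ℝ × E × E => φ q.1 (pr q.2.1, q.2.2)))
    (t s₀ : ℝ) (X v : E) : HasDerivAt (fun s => φ (t + s) (fl s (pr X, v)))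
      (fderiv ℝ (fun q : ℝ × E × E => φ q.1 (pr q.2.1, q.2.2)) (t + s₀, X + s₀ • v, v)
        (1, v, 0)) s₀ := by
  have h1 : HasDerivAt (fun s : ℝ => X + s • v) v s₀ := by
    simpa using ((hasDerivAt_id s₀).smul_const v).const_add X
  have h2 : HasDerivAt (fun s : ℝ => (t + s, X + s • v, v)) ((1 : ℝ), v, (0 : E)) s₀ :=
    ((hasDerivAt_id s₀).const_add t).prodMk (h1.prodMk (hasDerivAt_const s₀ v))
  have h3 := ((h.differentiable (by simp)) (t + s₀, X + s₀ • v, v)).hasFDerivAt.comp_hasDerivAt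
    s₀ h2
  simp only [fl_pr]
  exact h3

theorem trans_eq (h : ContDiff ℝ (⊤ : ℕ∞) (fun q : ℝ × E × E => φ q.1 (pr q.2.1, q.2.2)))
    (t : ℝ) (X v : E) : trans φ t (pr X, v) =
      fderiv ℝ (fun q : ℝ × E × E => φ q.1 (pr q.2.1, q.2.2)) (t, X, v) (1, v, 0) := by
  have := (key h t 0 X v).deriv
  rwa [add_zero, zero_smul, add_zero] at this

theorem quot3 : IsOpenQuotientMap (fun q : ℝ × E × E => ((q.1, pr q.2.1, q.2.2) : ℝ × Om)) :=
  IsOpenQuotientMap.id.prodMap (pr_quot.prodMap IsOpenQuotientMap.id)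

theorem cont (h : ContDiff ℝ (⊤ : ℕ∞) (fun q : ℝ × E × E => φ q.1 (pr q.2.1, q.2.2))) :
    Continuous (fun y : ℝ × Om => φ y.1 y.2) :=
  quot3.continuous_comp_iff.1 h.continuous

theorem cont_trans (h : ContDiff ℝ (⊤ : ℕ∞) (fun q : ℝ × E × E => φ q.1 (pr q.2.1, q.2.2))) :
    Continuous (fun y : ℝ × Om => trans φ y.1 y.2) := by
  refine quot3.continuous_comp_iff.1 ?_
  have e : ((fun y : ℝ × Om => trans φ y.1 y.2) ∘
      fun q : ℝ × E × E => ((q.1, pr q.2.1, q.2.2) : ℝ × Om)) = fun q =>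
      fderiv ℝ (fun q : ℝ × E × E => φ q.1 (pr q.2.1, q.2.2)) q (1, q.2.2, 0) :=
    funext fun q => trans_eq h q.1 q.2.1 q.2.2
  rw [e]
  exact (h.continuous_fderiv (by simp)).clm_apply (by fun_prop)

theorem along (h : ContDiff ℝ (⊤ : ℕ∞) (fun q : ℝ × E × E => φ q.1 (pr q.2.1, q.2.2)))
    (t : ℝ) (p : Om) : HasDerivAt (fun s => φ s (fl s p)) (trans φ t (fl t p)) t := by
  obtain ⟨x, v⟩ := p
  obtain ⟨X, rfl⟩ := pr_quot.surjective x
  have := key h 0 t X v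
  simp only [zero_add] at this
  rwa [fl_pr, trans_eq h]

theorem trans_zero {t : ℝ} {p : Om} (h : ∀ᶠ s in 𝓝 (0 : ℝ), φ (t + s) (fl s p) = 0) :
    trans φ t p = 0 := by
  have : (fun s : ℝ => φ (t + s) (fl s p)) =ᶠ[𝓝 0] fun _ => 0 := h
  rw [trans, this.deriv_eq, deriv_const]

theorem ev_lt {R t : ℝ} (h : R < t) : ∀ᶠ s in 𝓝 (0 : ℝ), R < t + s :=
  (continuous_const.add continuous_id).continuousAt.eventually
    (lt_mem_nhds (by simpa using h))

theorem part1 (hφ : IsTest φ) :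
    ∃ R C : ℝ, 0 < R ∧ (∀ t p, (R < t ∨ R < ‖p.2‖) → φ t p = 0 ∧ trans φ t p = 0) ∧
      ∀ t p, 0 ≤ t → |φ t p| ≤ C ∧ |trans φ t p| ≤ C := by
  obtain ⟨h, R₀, hR⟩ := hφ
  have h0 : ∀ t (p : Om), (max R₀ 1 < t ∨ max R₀ 1 < ‖p.2‖) → φ t p = 0 ∧ trans φ t p = 0 := by
    intro t p h1
    have h2 : R₀ < t ∨ R₀ < ‖p.2‖ := h1.imp (le_max_left _ _).trans_lt (le_max_left _ _).trans_lt
    refine ⟨hR t p h2, trans_zero ?_⟩
    rcases h2 with h2 | h2
    · exact (ev_lt h2).mono fun s hs => hR _ _ (Or.inl hs)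
    · exact Eventually.of_forall fun s => hR _ _ (Or.inr h2)
  have hK : IsCompact (Icc (0 : ℝ) (max R₀ 1) ×ˢ
      ((univ : Set T3) ×ˢ Metric.closedBall (0 : E) (max R₀ 1))) :=
    isCompact_Icc.prod (isCompact_univ.prod (isCompact_closedBall _ _))
  obtain ⟨C₁, h1⟩ := hK.exists_bound_of_continuousOn (cont h).continuousOn
  obtain ⟨C₂, h2⟩ := hK.exists_bound_of_continuousOn (cont_trans h).continuousOn
  refine ⟨max R₀ 1, max (max C₁ C₂) 0, lt_max_of_lt_right one_pos, h0, fun t p ht => ?_⟩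
  by_cases h3 : max R₀ 1 < t ∨ max R₀ 1 < ‖p.2‖
  · rw [(h0 t p h3).1, (h0 t p h3).2, abs_zero]
    exact ⟨le_max_right _ _, le_max_right _ _⟩
  · rw [not_or, not_lt, not_lt] at h3
    have h4 : (t, p) ∈ Icc (0 : ℝ) (max R₀ 1) ×ˢ
        ((univ : Set T3) ×ˢ Metric.closedBall (0 : E) (max R₀ 1)) :=
      ⟨⟨ht, h3.1⟩, mem_univ _, mem_closedBall_zero_iff.2 h3.2⟩
    exact ⟨(h1 _ h4).trans ((le_max_left _ _).trans (le_max_left _ _)),
      (h2 _ h4).trans ((le_max_right _ _).trans (le_max_left _ _))⟩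

variable {χ : ℝ → T3 → ℝ}

theorem transX_eq (h : ContDiff ℝ (⊤ : ℕ∞) (fun q : ℝ × E => χ q.1 (pr q.2)))
    (t : ℝ) (X v : E) : trans (fun t p => χ t p.1) t (pr X, v) =
      fderiv ℝ (fun q : ℝ × E => χ q.1 (pr q.2)) (t, X) (1, v) := by
  have h3 := ((h.differentiable (by simp)) (t + 0, X + (0 : ℝ) • v)).hasFDerivAt.comp_hasDerivAt
    0 (line_deriv t 0 X v)
  rw [add_zero, zero_smul, add_zero] at h3
  rw [← h3.deriv, trans]
  simp only [fl_pr]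
  rfl

theorem contX (h : ContDiff ℝ (⊤ : ℕ∞) (fun q : ℝ × E => χ q.1 (pr q.2))) :
    Continuous (fun y : ℝ × T3 => χ y.1 y.2) :=
  (IsOpenQuotientMap.id.prodMap pr_quot).continuous_comp_iff.1 h.continuous

theorem part2 (hχ : IsTestX χ) :
    ∃ R C : ℝ, 0 < R ∧ (∀ t (p : Om), R < t → χ t p.1 = 0 ∧ trans (fun t p => χ t p.1) t p = 0) ∧
      ∀ t (p : Om), 0 ≤ t → |χ t p.1| ≤ C ∧
        |trans (fun t p => χ t p.1) t p| ≤ C * (1 + ‖p.2‖) := by
  obtain ⟨h, R₀, hR⟩ := hχ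
  have h0 : ∀ t (p : Om), max R₀ 1 < t → χ t p.1 = 0 ∧ trans (fun t p => χ t p.1) t p = 0 := by
    intro t p h1
    have h2 : R₀ < t := (le_max_left _ _).trans_lt h1
    exact ⟨hR t _ h2, trans_zero ((ev_lt h2).mono fun s hs => hR _ _ hs)⟩
  obtain ⟨K, hK, hK'⟩ := exists_cube
  have hK2 : IsCompact (Icc (0 : ℝ) (max R₀ 1) ×ˢ K) := isCompact_Icc.prod hK
  obtain ⟨C₁, h1⟩ := hK2.exists_bound_of_continuousOn h.continuous.continuousOn
  obtain ⟨C₂, h2⟩ := hK2.exists_bound_of_continuousOn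
    (h.continuous_fderiv (by simp)).continuousOn
  refine ⟨max R₀ 1, max (max C₁ C₂) 0, lt_max_of_lt_right one_pos, h0, fun t p ht => ?_⟩
  have hC : (0 : ℝ) ≤ max (max C₁ C₂) 0 := le_max_right _ _
  by_cases h3 : max R₀ 1 < t
  · rw [(h0 t p h3).1, (h0 t p h3).2, abs_zero]
    exact ⟨hC, by positivity⟩
  · obtain ⟨x, v⟩ := p
    obtain ⟨X, hX, rfl⟩ := hK' x
    have h4 : (t, X) ∈ Icc (0 : ℝ) (max R₀ 1) ×ˢ K := ⟨⟨ht, not_lt.1 h3⟩, hX⟩
    refine ⟨(h1 _ h4).trans ((le_max_left _ _).trans (le_max_left _ _)), ?_⟩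
    rw [transX_eq h, ← Real.norm_eq_abs]
    refine (ContinuousLinearMap.le_opNorm _ _).trans (mul_le_mul
      ((h2 _ h4).trans ((le_max_right _ _).trans (le_max_left _ _))) ?_ (norm_nonneg _) hC)
    rw [Prod.norm_def, norm_one]
    exact max_le (le_add_of_nonneg_right (norm_nonneg _)) (le_add_of_nonneg_left zero_le_one)

end TestX

theorem test : TestStmt := by
  refine ⟨fun φ h => ⟨TestX.cont h.1, TestX.cont_trans h.1, TestX.along h.1, TestX.part1 h⟩,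
    fun χ h => ?_⟩
  have h1 : ContDiff ℝ (⊤ : ℕ∞) (fun q : ℝ × E × E =>
      (fun t (p : Om) => χ t p.1) q.1 (pr q.2.1, q.2.2)) :=
    h.1.comp (contDiff_fst.prodMk (contDiff_fst.comp contDiff_snd))
  exact ⟨TestX.contX h.1, TestX.cont_trans (φ := fun t p => χ t p.1) h1,
    TestX.along (φ := fun t p => χ t p.1) h1, TestX.part2 h⟩

end Vale.Agent.P140
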