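import Vale.Agent.P140.StmA

/-!
The torus and free flights.
-/

namespace Vale.Agent.P140

open MeasureTheory Set Filter Topology
open scoped ENNReal

noncomputable section

namespace Torus

lemma meas_rep : Measurable rep := by
  unfold rep
  refine (PiLp.volume_preserving_toLp (Fin 3)).measurable.comp (measurable_pi_lambda _ fun i => ?_)
  exact measurable_subtype_coe.comp
    ((AddCircle.measurableEquivIco (1 : ℝ) (-1 / 2)).measurable.comp (measurable_pi_apply i))

lemma pr_rep (x : T3) : pr (rep x) = x := by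
  funext i
  exact AddCircle.coe_equivIco

lemma rep_mem (x : T3) (i : Fin 3) : rep x i ∈ Ico (-1 / 2 : ℝ) (1 / 2) := by
  have h := (AddCircle.equivIco (1 : ℝ) (-1 / 2) (x i)).2
  exact ⟨h.1, h.2.trans_eq (by norm_num)⟩

lemma rep_pr (X : E) (h : ∀ i, X i ∈ Ico (-1 / 2 : ℝ) (1 / 2)) : rep (pr X) = X := by
  ext i
  refine AddCircle.equivIco_coe_of_mem ?_
  rw [show (-1 / 2 + 1 : ℝ) = 1 / 2 by norm_num]
  exact h i

lemma meas_cube : MeasurableSet {X : E | ∀ i, X i ∈ Ico (-1 / 2 : ℝ) (1 / 2)} := by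
  have : {X : E | ∀ i, X i ∈ Ico (-1 / 2 : ℝ) (1 / 2)}
      = WithLp.ofLp ⁻¹' (univ.pi fun _ : Fin 3 => Ico (-1 / 2 : ℝ) (1 / 2)) := by
    ext X; simp
  rw [this]
  exact (PiLp.volume_preserving_ofLp (Fin 3)).measurable
    (MeasurableSet.univ_pi fun _ => measurableSet_Ico)

lemma mp_pr : MeasurePreserving pr
    ((volume : Measure E).restrict {X : E | ∀ i, X i ∈ Ico (-1 / 2 : ℝ) (1 / 2)})
    (volume : Measure T3) := by
  have h1 : MeasurePreserving (β := UnitAddCircle) ((↑) : ℝ → UnitAddCircle)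
      (volume.restrict (Ico (-1 / 2 : ℝ) (1 / 2))) := by
    have := AddCircle.measurePreserving_mk (1 : ℝ) (-1 / 2)
    rwa [show (-1 / 2 + 1 : ℝ) = 1 / 2 by norm_num,
      ← Measure.restrict_congr_set Ico_ae_eq_Ioc] at this
  have h2 := measurePreserving_pi (fun _ : Fin 3 => volume.restrict (Ico (-1 / 2 : ℝ) (1 / 2)))
    (fun _ : Fin 3 => (volume : Measure UnitAddCircle)) fun _ => h1
  rw [← Measure.restrict_pi_pi] at h2
  have h3 := (PiLp.volume_preserving_ofLp (Fin 3)).restrict_preimage
    (s := univ.pi fun _ : Fin 3 => Ico (-1 / 2 : ℝ) (1 / 2))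
    (MeasurableSet.univ_pi fun _ => measurableSet_Ico)
  have e : {X : E | ∀ i, X i ∈ Ico (-1 / 2 : ℝ) (1 / 2)}
      = WithLp.ofLp ⁻¹' (univ.pi fun _ : Fin 3 => Ico (-1 / 2 : ℝ) (1 / 2)) := by
    ext X; simp
  rw [e]
  exact h2.comp h3

lemma mp_rep : MeasurePreserving rep (volume : Measure T3)
    ((volume : Measure E).restrict {X : E | ∀ i, X i ∈ Ico (-1 / 2 : ℝ) (1 / 2)}) := by
  refine ⟨meas_rep, ?_⟩
  rw [← mp_pr.map_eq, Measure.map_map meas_rep mp_pr.measurable]
  have : (rep ∘ pr) =ᵐ[(volume : Measure E).restrict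
      {X : E | ∀ i, X i ∈ Ico (-1 / 2 : ℝ) (1 / 2)}] id :=
    (ae_restrict_mem meas_cube).mono fun X hX => rep_pr X hX
  rw [Measure.map_congr this, Measure.map_id]

lemma vol_univ : (volume : Measure T3) univ = 1 := by
  rw [volume_pi, Measure.pi_univ]
  simp

lemma mp_fl (s : ℝ) : MeasurePreserving (fl s) (volume : Measure Om) volume := by
  have h1 : MeasurePreserving (fun p : E × T3 => (id p.1, p.2 + pr (s • p.1)))
      ((volume : Measure E).prod (volume : Measure T3)) (volume.prod volume) := by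
    refine (MeasurePreserving.id volume).skew_product (g := fun v x => x + pr (s • v)) ?_ ?_
    · exact measurable_snd.add
        ((continuous_pr.comp (continuous_const_smul s)).measurable.comp measurable_fst)
    · exact Eventually.of_forall fun v => map_add_right_eq_self _ _
  exact (Measure.measurePreserving_swap.comp h1).comp Measure.measurePreserving_swap

lemma mp_flt (μ : Measure ℝ) [SFinite μ] (c d : ℝ) :
    MeasurePreserving (fun y : ℝ × Om => (y.1, fl (c * y.1 + d) y.2))
      (μ.prod (volume : Measure Om)) (μ.prod volume) := by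
  refine (MeasurePreserving.id μ).skew_product (g := fun t p => fl (c * t + d) p) ?_ ?_
  · have : Continuous fun y : ℝ × Om => (c * y.1 + d, y.2) := by fun_prop
    exact (continuous_fl.comp this).measurable
  · exact Eventually.of_forall fun t => (mp_fl _).map_eq

lemma ball_le (x : T3) (τ V : ℝ) (f : T3 → ℝ≥0∞) (hf : Measurable f) (hτ : 0 < τ)
    (hV : τ * V ≤ 1 / 2) :
    ∫⁻ v in Metric.ball (0 : E) V, f (x - pr (τ • v))
      ≤ ENNReal.ofReal (τ⁻¹ ^ 3) * ∫⁻ y, f y := by
  have hg : Measurable fun y : T3 => f (x - y) := hf.comp (measurable_const.sub measurable_id)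
  have hG : Measurable ({X : E | ∀ i, X i ∈ Ico (-1 / 2 : ℝ) (1 / 2)}.indicator
      fun X => f (x - pr X)) := (hg.comp continuous_pr.measurable).indicator meas_cube
  have h1 : ∫⁻ v in Metric.ball (0 : E) V, f (x - pr (τ • v))
      ≤ ∫⁻ v : E, {X : E | ∀ i, X i ∈ Ico (-1 / 2 : ℝ) (1 / 2)}.indicator
        (fun X => f (x - pr X)) (τ • v) := by
    rw [← lintegral_indicator Metric.isOpen_ball.measurableSet]
    refine lintegral_mono fun v => ?_
    by_cases hv : v ∈ Metric.ball (0 : E) V
    swap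
    · rw [indicator_of_notMem hv]; exact zero_le
    have hm : τ • v ∈ {X : E | ∀ i, X i ∈ Ico (-1 / 2 : ℝ) (1 / 2)} := by
      intro i
      have a1 : |v i| ≤ ‖v‖ := by simpa using PiLp.norm_apply_le v i
      have a2 : ‖v‖ < V := by simpa using hv
      have a3 : τ * |v i| < τ * V := mul_lt_mul_of_pos_left (a1.trans_lt a2) hτ
      have a4 : |τ * v i| < 1 / 2 := by rw [abs_mul, abs_of_pos hτ]; linarith
      have a5 := abs_lt.1 a4
      change τ * v i ∈ _
      constructor <;> linarith [a5.1, a5.2]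
    rw [indicator_of_mem hv, indicator_of_mem hm]
  refine h1.trans (le_of_eq ?_)
  have : (volume : Measure T3).IsNegInvariant :=
    Measure.IsAddHaarMeasure.isNegInvariant_of_regular _
  rw [← lintegral_map hG (measurable_const_smul τ), Measure.map_addHaar_smul _ hτ.ne',
    lintegral_smul_measure, lintegral_indicator meas_cube, mp_pr.lintegral_comp hg,
    lintegral_sub_left_eq_self, smul_eq_mul]
  congr 2
  rw [finrank_euclideanSpace, Fintype.card_fin, abs_of_pos (by positivity), inv_pow]

end Torus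

theorem torus : TorusStmt :=
  ⟨Torus.meas_rep, Torus.pr_rep, Torus.rep_mem, Torus.rep_pr, Torus.mp_rep, Torus.vol_univ,
    Torus.mp_fl, fun μ _ c d => Torus.mp_flt μ c d, Torus.ball_le⟩

end

end Vale.Agent.P140
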