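import Vale.Agent.P140.StmA

/-! Basic facts on uniform integrability. -/

namespace Vale.Agent.P140

open MeasureTheory Set Filter Topology
open scoped ENNReal

namespace UIAux

variable {α : Type} [MeasurableSpace α] {μ : Measure α}

theorem tri (a b c : ℝ) :
    ENNReal.ofReal (a - c) ≤ ENNReal.ofReal (a - b) + ENNReal.ofReal (b - c) := by
  rw [show a - c = (a - b) + (b - c) by ring]
  exact ENNReal.ofReal_add_le

theorem ltri {a b c : α → ℝ} (ha : Measurable a) (hb : Measurable b) :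
    ∫⁻ x, ENNReal.ofReal (a x - c x) ∂μ ≤
      ∫⁻ x, ENNReal.ofReal (a x - b x) ∂μ + ∫⁻ x, ENNReal.ofReal (b x - c x) ∂μ := by
  rw [← lintegral_add_left (ha.fun_sub hb).ennreal_ofReal]
  exact lintegral_mono fun x => tri _ _ _

theorem half {ε : ℝ} (hε : 0 < ε) :
    ENNReal.ofReal (ε / 2) + ENNReal.ofReal (ε / 2) = ENNReal.ofReal ε := by
  rw [← ENNReal.ofReal_add (by positivity) (by positivity), add_halves]

theorem int_abs_le {f : α → ℝ} (hf : Measurable f) {c : ℝ} (hc : 0 ≤ c)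
    (h : ∫⁻ x, ENNReal.ofReal |f x| ∂μ ≤ ENNReal.ofReal c) : ∫ x, |f x| ∂μ ≤ c := by
  rw [integral_eq_lintegral_of_nonneg_ae (Eventually.of_forall fun x => abs_nonneg _)
    hf.abs.aestronglyMeasurable]
  exact ENNReal.toReal_le_of_le_ofReal hc h

theorem p1 {f : ℕ → α → ℝ} (h : UI μ f) :
    (∀ n, Integrable (f n) μ) ∧ ∃ C : ℝ, ∀ n, ∫ x, |f n x| ∂μ ≤ C := by
  obtain ⟨g, gm, g0, gi, hg⟩ := h.2 1 one_pos
  have key : ∀ n, ∫⁻ x, ENNReal.ofReal |f n x| ∂μ ≤ ENNReal.ofReal (1 + ∫ x, g x ∂μ) := by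
    intro n
    have h1 := ltri (μ := μ) (c := fun _ => 0) (h.1 n).abs gm
    simp only [sub_zero] at h1
    rw [ENNReal.ofReal_add zero_le_one (integral_nonneg g0),
      ofReal_integral_eq_lintegral_ofReal gi (Eventually.of_forall g0)]
    exact h1.trans (add_le_add (hg n) le_rfl)
  refine ⟨fun n => ⟨(h.1 n).aestronglyMeasurable, ?_⟩, _, fun n =>
    int_abs_le (h.1 n) (add_nonneg zero_le_one (integral_nonneg g0)) (key n)⟩
  rw [hasFiniteIntegral_iff_norm]
  exact (key n).trans_lt ENNReal.ofReal_lt_top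

theorem trunc {g : α → ℝ} (gm : Measurable g) (g0 : ∀ x, 0 ≤ g x) (gi : Integrable g μ) {ε : ℝ}
    (hε : 0 < ε) : ∃ (M : ℝ) (A : Set α), 0 ≤ M ∧ MeasurableSet A ∧ μ A < ⊤ ∧
      ∫⁻ x, ENNReal.ofReal (g x - A.indicator (fun _ => M) x) ∂μ ≤ ENNReal.ofReal ε := by
  have hA : ∀ k : ℕ, MeasurableSet {x | 1 / ((k : ℝ) + 1) ≤ g x} := fun k =>
    measurableSet_le measurable_const gm
  have ht : Tendsto (fun k : ℕ => ∫⁻ x, ENNReal.ofReal
      (g x - {x | 1 / ((k : ℝ) + 1) ≤ g x}.indicator (fun _ => (k : ℝ)) x) ∂μ) atTop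
      (𝓝 (∫⁻ _, 0 ∂μ)) := by
    refine tendsto_lintegral_of_dominated_convergence (fun x => ENNReal.ofReal (g x))
      (fun k => (gm.sub (measurable_const.indicator (hA k))).ennreal_ofReal)
      (fun k => Eventually.of_forall fun x => ENNReal.ofReal_le_ofReal ?_) ?_
      (Eventually.of_forall fun x => ?_)
    · have : 0 ≤ {x | 1 / ((k : ℝ) + 1) ≤ g x}.indicator (fun _ => (k : ℝ)) x :=
        indicator_nonneg (fun _ _ => Nat.cast_nonneg k) x
      linarith
    · rw [← ofReal_integral_eq_lintegral_ofReal gi (Eventually.of_forall g0)]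
      exact ENNReal.ofReal_ne_top
    · refine tendsto_const_nhds.congr' ?_
      rcases (g0 x).eq_or_lt with h0 | h0
      · refine Eventually.of_forall fun k => (ENNReal.ofReal_of_nonpos ?_).symm
        have : 0 ≤ {x | 1 / ((k : ℝ) + 1) ≤ g x}.indicator (fun _ => (k : ℝ)) x :=
          indicator_nonneg (fun _ _ => Nat.cast_nonneg k) x
        linarith
      · filter_upwards [tendsto_one_div_add_atTop_nhds_zero_nat.eventually (ge_mem_nhds h0),
          tendsto_natCast_atTop_atTop.eventually_ge_atTop (g x)] with k h1 h2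
        refine (ENNReal.ofReal_of_nonpos ?_).symm
        rw [indicator_of_mem (show x ∈ {x | 1 / ((k : ℝ) + 1) ≤ g x} from h1)]
        linarith
  rw [lintegral_zero] at ht
  obtain ⟨k, hk⟩ := (ht.eventually (ge_mem_nhds (ENNReal.ofReal_pos.2 hε))).exists
  exact ⟨k, _, Nat.cast_nonneg k, hA k, gi.measure_ge_lt_top (by positivity), hk⟩

theorem p2 {f : ℕ → α → ℝ} (h : UI μ f) {ε : ℝ} (hε : 0 < ε) :
    ∃ (M : ℝ) (A : Set α), 0 ≤ M ∧ MeasurableSet A ∧ μ A < ⊤ ∧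
      ∀ n, ∫⁻ x, ENNReal.ofReal (|f n x| - A.indicator (fun _ => M) x) ∂μ ≤ ENNReal.ofReal ε := by
  obtain ⟨g, gm, g0, gi, hg⟩ := h.2 (ε / 2) (half_pos hε)
  obtain ⟨M, A, h1, h2, h3, h4⟩ := trunc gm g0 gi (half_pos hε)
  refine ⟨M, A, h1, h2, h3, fun n => (ltri (h.1 n).abs gm).trans ?_⟩
  rw [← half hε]
  exact add_le_add (hg n) h4

theorem p3 {f : ℕ → α → ℝ} (h : UI μ f) {ε : ℝ} (hε : 0 < ε) : ∃ η : ℝ, 0 < η ∧ ∀ A,
    MeasurableSet A → μ A ≤ ENNReal.ofReal η → ∀ n, ∫ x in A, |f n x| ∂μ ≤ ε := by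
  obtain ⟨M, B, h1, h2, -, h4⟩ := p2 h (half_pos hε)
  refine ⟨ε / 2 / (M + 1), by positivity, fun A _ hA n => int_abs_le (h.1 n) hε.le ?_⟩
  have k1 := ltri (μ := μ.restrict A) (c := fun _ => 0) (h.1 n).abs
    (measurable_const.indicator h2 : Measurable (B.indicator fun _ => M))
  simp only [sub_zero] at k1
  rw [← half hε]
  refine k1.trans (add_le_add ((lintegral_mono' Measure.restrict_le_self le_rfl).trans (h4 n)) ?_)
  calc ∫⁻ x in A, ENNReal.ofReal (B.indicator (fun _ => M) x) ∂μ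
      ≤ ∫⁻ _ in A, ENNReal.ofReal (M + 1) ∂μ := lintegral_mono fun x =>
        ENNReal.ofReal_le_ofReal ((indicator_le_self' (fun _ _ => h1) x).trans (by simp))
    _ ≤ ENNReal.ofReal (M + 1) * ENNReal.ofReal (ε / 2 / (M + 1)) := by
        rw [setLIntegral_const]; gcongr
    _ = ENNReal.ofReal (ε / 2) := by
        rw [← ENNReal.ofReal_mul (by positivity)]
        congr 1
        field_simp

theorem p4 {f g : ℕ → α → ℝ} (h : UI μ f) (hg : ∀ n, Measurable (g n))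
    (hle : ∀ n, ∀ᵐ x ∂μ, |g n x| ≤ |f n x|) : UI μ g := by
  refine ⟨hg, fun ε hε => ?_⟩
  obtain ⟨G, gm, g0, gi, hG⟩ := h.2 ε hε
  refine ⟨G, gm, g0, gi, fun n => le_trans (lintegral_mono_ae ?_) (hG n)⟩
  filter_upwards [hle n] with x hx
  exact ENNReal.ofReal_le_ofReal (by linarith)

theorem p5 {f g : ℕ → α → ℝ} (h : UI μ f) (h' : UI μ g) : UI μ (fun n x => f n x + g n x) := by
  refine ⟨fun n => (h.1 n).add (h'.1 n), fun ε hε => ?_⟩
  obtain ⟨G, gm, g0, gi, hG⟩ := h.2 _ (half_pos hε)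
  obtain ⟨G', gm', g0', gi', hG'⟩ := h'.2 _ (half_pos hε)
  refine ⟨fun x => G x + G' x, gm.add gm', fun x => add_nonneg (g0 x) (g0' x), gi.add gi',
    fun n => ?_⟩
  rw [← half hε]
  refine le_trans ?_ (add_le_add (hG n) (hG' n))
  rw [← lintegral_add_left ((h.1 n).abs.fun_sub gm).ennreal_ofReal]
  refine lintegral_mono fun x => le_trans (ENNReal.ofReal_le_ofReal ?_) ENNReal.ofReal_add_le
  have := abs_add_le (f n x) (g n x)
  linarith

theorem p6 {f : ℕ → α → ℝ} (c : ℝ) (h : UI μ f) : UI μ (fun n x => c * f n x) := by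
  refine ⟨fun n => (h.1 n).const_mul c, fun ε hε => ?_⟩
  obtain ⟨G, gm, g0, gi, hG⟩ := h.2 (ε / (|c| + 1)) (by positivity)
  refine ⟨fun x => |c| * G x, gm.const_mul _, fun x => mul_nonneg (abs_nonneg c) (g0 x),
    gi.const_mul _, fun n => ?_⟩
  calc ∫⁻ x, ENNReal.ofReal (|c * f n x| - |c| * G x) ∂μ
      = ∫⁻ x, ENNReal.ofReal |c| * ENNReal.ofReal (|f n x| - G x) ∂μ := by
        refine lintegral_congr fun x => ?_
        rw [← ENNReal.ofReal_mul (abs_nonneg c), abs_mul, mul_sub]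
    _ = ENNReal.ofReal |c| * ∫⁻ x, ENNReal.ofReal (|f n x| - G x) ∂μ :=
        lintegral_const_mul' _ _ ENNReal.ofReal_ne_top
    _ ≤ ENNReal.ofReal (|c| + 1) * ENNReal.ofReal (ε / (|c| + 1)) :=
        mul_le_mul' (ENNReal.ofReal_le_ofReal (by simp)) (hG n)
    _ = ENNReal.ofReal ε := by
        rw [← ENNReal.ofReal_mul (by positivity)]
        congr 1
        field_simp

theorem p7 {f : ℕ → α → ℝ} (hf : ∀ n, Measurable (f n)) (h : ∀ ε : ℝ, 0 < ε → ∃ g : ℕ → α → ℝ,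
    UI μ g ∧ ∀ n, ∫⁻ x, ENNReal.ofReal (|f n x| - |g n x|) ∂μ ≤ ENNReal.ofReal ε) : UI μ f := by
  refine ⟨hf, fun ε hε => ?_⟩
  obtain ⟨g, hg, h1⟩ := h _ (half_pos hε)
  obtain ⟨G, gm, g0, gi, hG⟩ := hg.2 _ (half_pos hε)
  refine ⟨G, gm, g0, gi, fun n => (ltri (hf n).abs (hg.1 n).abs).trans ?_⟩
  rw [← half hε]
  exact add_le_add (h1 n) (hG n)

theorem p8 {β : Type} [MeasurableSpace β] {ν : Measure β} {e : α → β} {f : ℕ → β → ℝ}
    (he : MeasurePreserving e μ ν) (h : UI ν f) : UI μ (fun n x => f n (e x)) := by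
  refine ⟨fun n => (h.1 n).comp he.measurable, fun ε hε => ?_⟩
  obtain ⟨G, gm, g0, gi, hG⟩ := h.2 ε hε
  refine ⟨fun x => G (e x), gm.comp he.measurable, fun x => g0 _,
    he.integrable_comp_of_integrable gi, fun n => le_trans (le_of_eq ?_) (hG n)⟩
  exact he.lintegral_comp ((h.1 n).abs.sub gm).ennreal_ofReal

theorem p9 {β : Type} [MeasurableSpace β] {ν : Measure β} [SFinite ν] {f : ℕ → α × β → ℝ}
    (h : UI (μ.prod ν) f) : UI μ (fun n x => ∫ y, f n (x, y) ∂ν) := by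
  refine ⟨fun n => (h.1 n).stronglyMeasurable.integral_prod_right'.measurable, fun ε hε => ?_⟩
  obtain ⟨G, gm, g0, gi, hG⟩ := h.2 ε hε
  refine ⟨fun x => ∫ y, G (x, y) ∂ν, gm.stronglyMeasurable.integral_prod_right'.measurable,
    fun x => integral_nonneg fun y => g0 _, gi.integral_prod_left, fun n => le_trans ?_ (hG n)⟩
  rw [lintegral_prod _ ((h.1 n).abs.fun_sub gm).ennreal_ofReal.aemeasurable]
  refine lintegral_mono_ae ?_
  filter_upwards [((integrable_prod_iff gi.aestronglyMeasurable).1 gi).1] with x hx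
  rw [ENNReal.ofReal_sub _ (integral_nonneg fun y => g0 _), tsub_le_iff_right,
    ofReal_integral_eq_lintegral_ofReal hx (Eventually.of_forall fun y => g0 _)]
  have k1 := ltri (μ := ν) (a := fun y => |f n (x, y)|) (b := fun y => G (x, y))
    (c := fun _ => 0) ((h.1 n).abs.comp measurable_prodMk_left) (gm.comp measurable_prodMk_left)
  simp only [sub_zero] at k1
  refine le_trans ?_ k1
  have k2 := enorm_integral_le_lintegral_enorm (μ := ν) fun y => f n (x, y)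
  simpa only [Real.enorm_eq_ofReal_abs] using k2

end UIAux

theorem ui : UIStmt := by
  refine ⟨?_, ?_, fun α _ μ => ⟨fun _ h => UIAux.p1 h, fun _ h _ hε => UIAux.p2 h hε,
    fun _ h _ hε => UIAux.p3 h hε, fun _ _ => UIAux.p4, fun _ _ => UIAux.p5,
    fun _ c => UIAux.p6 c, fun _ => UIAux.p7, fun _ _ _ _ _ => UIAux.p8,
    fun _ _ _ _ _ => UIAux.p9⟩⟩
  · rw [← Nat.cofinite_eq_atTop]
    exact hyperfilter_le_cofinite
  · unfold UF
    infer_instance

end Vale.Agent.P140
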