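import Vale.Agent.P140.StmA

/-!
Weak limits along the ultrafilter: products, lower semicontinuity.
-/

namespace Vale.Agent.P140

open MeasureTheory Set Filter Topology
open scoped ENNReal

noncomputable section

namespace WLaux

variable {α : Type} [MeasurableSpace α] {μ : Measure α}

lemma approx {F : Filter ℕ} {s : ℕ → ℝ} {l : ℝ}
    (h : ∀ ε : ℝ, 0 < ε → ∃ (u : ℕ → ℝ) (l' : ℝ), Tendsto u F (𝓝 l') ∧
      (∀ᶠ n in F, |s n - u n| ≤ ε) ∧ |l - l'| ≤ ε) : Tendsto s F (𝓝 l) := by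
  rw [Metric.tendsto_nhds]
  intro ε hε
  obtain ⟨u, l', h1, h2, h3⟩ := h (ε / 4) (by positivity)
  filter_upwards [h2, Metric.tendsto_nhds.1 h1 (ε / 4) (by positivity)] with n hn hn'
  rw [Real.dist_eq] at hn' ⊢
  have := abs_lt.1 hn'
  have := abs_le.1 hn
  have := abs_le.1 h3
  rw [abs_lt]; constructor <;> linarith

lemma int_mul {f ψ : α → ℝ} (hf : Integrable f μ) (hψ : Measurable ψ) {C : ℝ}
    (hC : ∀ x, |ψ x| ≤ C) : Integrable (fun x => f x * ψ x) μ :=
  hf.mul_bdd hψ.aestronglyMeasurable (Eventually.of_forall fun x => by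
    rw [Real.norm_eq_abs]; exact hC x)

lemma int_pos {h : α → ℝ} (hh : Measurable h) {ε : ℝ} (hε : 0 ≤ ε)
    (h1 : ∫⁻ x, ENNReal.ofReal (h x) ∂μ ≤ ENNReal.ofReal ε) : ∫ x, max (h x) 0 ∂μ ≤ ε := by
  rw [integral_eq_lintegral_of_nonneg_ae (f := fun x => max (h x) 0)
    (Eventually.of_forall fun x => le_max_right _ _)
    (hh.max measurable_const).aestronglyMeasurable]
  refine ENNReal.toReal_le_of_le_ofReal hε (le_trans (le_of_eq ?_) h1)
  refine lintegral_congr fun x => ?_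
  rcases le_total (h x) 0 with h2 | h2
  · rw [max_eq_right h2, ENNReal.ofReal_zero, ENNReal.ofReal_of_nonpos h2]
  · rw [max_eq_left h2]

lemma abs_sub_le {u v w : α → ℝ} (hu : Integrable u μ) (hv : Integrable v μ)
    (hw : Integrable w μ) (h : ∀ᵐ x ∂μ, |u x - v x| ≤ w x) :
    |∫ x, u x ∂μ - ∫ x, v x ∂μ| ≤ ∫ x, w x ∂μ := by
  rw [← integral_sub hu hv, ← Real.norm_eq_abs]
  exact norm_integral_le_of_norm_le hw h

lemma p1 {f a : ℕ → α → ℝ} {g b : α → ℝ} {C : ℝ} (hf : UI μ f) (hi : ∀ n, Integrable (f n) μ)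
    (hw : WL μ f g) (hm : MC μ a b) (ha : ∀ n x, |a n x| ≤ C) (hb : ∀ x, |b x| ≤ C) :
    Tendsto (fun n => ∫ x, f n x * a n x ∂μ) UF (𝓝 (∫ x, g x * b x ∂μ)) := by
  refine approx fun ε hε => ⟨fun n => ∫ x, f n x * b x ∂μ, _, hw.2.2 b hm.2.1 ⟨C, hb⟩, ?_,
    by simpa using hε.le⟩
  set K : ℝ := max 1 (2 * C) with hK
  have hK1 : 1 ≤ K := le_max_left _ _
  have hK0 : 0 < K := by linarith
  obtain ⟨G, hG, hG0, hGi, hGf⟩ := hf.2 (ε / (2 * K)) (by positivity)
  have h1 := hm.2.2 G hG hG0 hGi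
  filter_upwards [h1.eventually (ge_mem_nhds (show (0 : ℝ) < ε / (2 * K) by positivity))]
    with n hn
  have hm1 : Measurable fun x => min 1 |a n x - b x| :=
    measurable_const.min ((hm.1 n).sub hm.2.1).abs
  have i1 : Integrable (fun x => max (|f n x| - G x) 0) μ := ((hi n).abs.sub hGi).pos_part
  have i2 : Integrable (fun x => G x * min 1 |a n x - b x|) μ :=
    int_mul hGi hm1 (C := 1) fun x => by
      rw [abs_of_nonneg (le_min zero_le_one (abs_nonneg _))]; exact min_le_left _ _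
  have h2 := abs_sub_le (int_mul (hi n) (hm.1 n) (ha n)) (int_mul (hi n) hm.2.1 hb)
    ((i1.const_mul K).add (i2.const_mul K)) (Eventually.of_forall fun x => by
      simp only [Pi.add_apply]
      rw [← mul_sub, abs_mul]
      have e1 : |a n x - b x| ≤ K := by
        have := abs_sub (a n x) (b x)
        have := ha n x
        have := hb x
        have : 2 * C ≤ K := le_max_right _ _
        linarith
      have e2 : |a n x - b x| ≤ K * min 1 |a n x - b x| := by
        rcases le_total 1 |a n x - b x| with h | h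
        · rw [min_eq_left h, mul_one]; exact e1
        · rw [min_eq_right h]; exact le_mul_of_one_le_left (abs_nonneg _) hK1
      have e3 : |f n x| ≤ max (|f n x| - G x) 0 + G x := by
        have := le_max_left (|f n x| - G x) 0
        linarith
      calc |f n x| * |a n x - b x| ≤ (max (|f n x| - G x) 0 + G x) * |a n x - b x| :=
            mul_le_mul_of_nonneg_right e3 (abs_nonneg _)
        _ = max (|f n x| - G x) 0 * |a n x - b x| + G x * |a n x - b x| := add_mul _ _ _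
        _ ≤ max (|f n x| - G x) 0 * K + G x * (K * min 1 |a n x - b x|) :=
            add_le_add (mul_le_mul_of_nonneg_left e1 (le_max_right _ _))
              (mul_le_mul_of_nonneg_left e2 (hG0 x))
        _ = _ := by ring)
  refine h2.trans ?_
  simp only [Pi.add_apply]
  rw [integral_add (i1.const_mul K) (i2.const_mul K), integral_const_mul, integral_const_mul]
  have h3 := int_pos ((hf.1 n).abs.sub hG) (by positivity) (hGf n)
  calc _ ≤ K * (ε / (2 * K)) + K * (ε / (2 * K)) :=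
        add_le_add (mul_le_mul_of_nonneg_left h3 hK0.le) (mul_le_mul_of_nonneg_left hn hK0.le)
    _ = ε := by field_simp; ring

lemma set_tendsto {f : ℕ → α → ℝ} {g : α → ℝ} (hw : WL μ f g) {s : Set α} (hs : MeasurableSet s) :
    Tendsto (fun n => ∫ x in s, f n x ∂μ) UF (𝓝 (∫ x in s, g x ∂μ)) := by
  have h := hw.2.2 (s.indicator fun _ => 1) (measurable_const.indicator hs)
    ⟨1, fun x => by by_cases hx : x ∈ s <;> simp [hx]⟩
  have e : ∀ u : α → ℝ, ∫ x, u x * s.indicator (fun _ => (1 : ℝ)) x ∂μ = ∫ x in s, u x ∂μ := by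
    intro u
    rw [← integral_indicator hs]
    refine integral_congr_ae (Eventually.of_forall fun x => ?_)
    by_cases hx : x ∈ s <;> simp [hx]
  simpa only [e] using h

lemma lim_bdd [SigmaFinite μ] [UF.NeBot] {f : ℕ → α → ℝ} {g : α → ℝ} {C : ℝ}
    (hC : ∀ n x, |f n x| ≤ C) (hw : WL μ f g) (hi : ∀ n, Integrable (f n) μ) :
    ∀ᵐ x ∂μ, |g x| ≤ C := by
  have hc : ∀ s, μ s < ∞ → IntegrableOn (fun _ : α => C) s μ := fun s hs =>
    integrableOn_const hs.ne
  have h1 : 0 ≤ᵐ[μ] fun x => C - g x := by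
    refine ae_nonneg_of_forall_setIntegral_nonneg_of_sigmaFinite
      (fun s _ hs => (hc s hs).sub hw.2.1.integrableOn) fun s hs hs' => ?_
    rw [integral_sub (hc s hs') hw.2.1.integrableOn, sub_nonneg]
    exact le_of_tendsto' (set_tendsto hw hs) fun n =>
      integral_mono (hi n).integrableOn (hc s hs') fun x => (abs_le.1 (hC n x)).2
  have h2 : 0 ≤ᵐ[μ] fun x => g x - -C := by
    refine ae_nonneg_of_forall_setIntegral_nonneg_of_sigmaFinite
      (fun s _ hs => hw.2.1.integrableOn.sub (hc s hs).neg) fun s hs hs' => ?_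
    have hc' : IntegrableOn (fun _ : α => -C) s μ := (hc s hs').neg
    rw [integral_sub hw.2.1.integrableOn hc', sub_nonneg]
    exact ge_of_tendsto' (set_tendsto hw hs) fun n =>
      integral_mono hc' (hi n).integrableOn fun x => (abs_le.1 (hC n x)).1
  filter_upwards [h1, h2] with x hx hx'
  simp only [Pi.zero_apply] at hx hx'
  rw [abs_le]; constructor <;> linarith

lemma exists_bdd {b : α → ℝ} (hb : Integrable b μ) {ε : ℝ} (hε : 0 < ε) :
    ∃ ψ : α → ℝ, Measurable ψ ∧ (∃ C, ∀ x, |ψ x| ≤ C) ∧ Integrable ψ μ ∧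
      ∫ x, |b x - ψ x| ∂μ ≤ ε := by
  obtain ⟨ψ, h1, h2⟩ := (memLp_one_iff_integrable.2 hb).exists_simpleFunc_eLpNorm_sub_lt
    ENNReal.one_ne_top (ε := ENNReal.ofReal ε) (by simpa using hε)
  have h3 := memLp_one_iff_integrable.1 h2
  refine ⟨ψ, ψ.measurable, ψ.exists_forall_norm_le, h3, ?_⟩
  rw [eLpNorm_one_eq_lintegral_enorm] at h1
  have h4 := integral_norm_eq_lintegral_enorm (hb.sub h3).aestronglyMeasurable
  exact (le_of_eq h4).trans (ENNReal.toReal_le_of_le_ofReal hε.le h1.le)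

lemma p2 [SigmaFinite μ] [UF.NeBot] {f a : ℕ → α → ℝ} {g b : α → ℝ} {C : ℝ} (hC0 : 0 < C)
    (hf : ∀ n, Measurable (f n)) (hC : ∀ n x, |f n x| ≤ C) (hw : WL μ f g)
    (hi : ∀ n, Integrable (f n) μ) (ha : ∀ n, Integrable (a n) μ) (hb : Integrable b μ)
    (hl : Tendsto (fun n => ∫ x, |a n x - b x| ∂μ) UF (𝓝 0)) :
    Tendsto (fun n => ∫ x, f n x * a n x ∂μ) UF (𝓝 (∫ x, g x * b x ∂μ)) := by
  have hg := lim_bdd hC hw hi
  have key : ∀ (u v w : α → ℝ), AEStronglyMeasurable u μ → (∀ᵐ x ∂μ, |u x| ≤ C) →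
      Integrable v μ → Integrable w μ →
      |∫ x, u x * v x ∂μ - ∫ x, u x * w x ∂μ| ≤ C * ∫ x, |v x - w x| ∂μ := by
    intro u v w hu huC hv hw
    rw [← integral_const_mul]
    refine abs_sub_le (hv.bdd_mul hu huC) (hw.bdd_mul hu huC) ((hv.sub hw).abs.const_mul C) ?_
    filter_upwards [huC] with x hx
    rw [← mul_sub, abs_mul]
    exact mul_le_mul_of_nonneg_right hx (abs_nonneg _)
  refine approx fun ε hε => ?_
  obtain ⟨ψ, h1, h2, h3, h4⟩ := exists_bdd hb (show 0 < ε / (2 * C) by positivity)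
  have e : C * (ε / (2 * C)) = ε / 2 := by field_simp
  refine ⟨fun n => ∫ x, f n x * ψ x ∂μ, _, hw.2.2 ψ h1 h2, ?_, ?_⟩
  · filter_upwards [hl.eventually (ge_mem_nhds (show (0 : ℝ) < ε / (2 * C) by positivity))]
      with n hn
    have k1 := key (f n) (a n) b (hf n).aestronglyMeasurable (Eventually.of_forall (hC n))
      (ha n) hb
    have k2 := key (f n) b ψ (hf n).aestronglyMeasurable (Eventually.of_forall (hC n)) hb h3
    have k3 := mul_le_mul_of_nonneg_left hn hC0.le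
    have k4 := mul_le_mul_of_nonneg_left h4 hC0.le
    have := abs_le.1 k1
    have := abs_le.1 k2
    rw [abs_le]; constructor <;> linarith
  · have k2 := key g b ψ hw.1.aestronglyMeasurable hg hb h3
    have k4 := mul_le_mul_of_nonneg_left h4 hC0.le
    linarith

lemma p3 [UF.NeBot] {f : ℕ → α → ℝ} {g : α → ℝ} {Φ : α → ℝ≥0∞} {c : ℝ≥0∞}
    (hi : ∀ n, Integrable (f n) μ) (h0 : ∀ n x, 0 ≤ f n x) (hw : WL μ f g) (hΦ : Measurable Φ)
    (hc : ∀ᶠ n in UF, ∫⁻ x, ENNReal.ofReal (f n x) * Φ x ∂μ ≤ c) :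
    ∫⁻ x, ENNReal.ofReal (g x) * Φ x ∂μ ≤ c := by
  have hk : ∀ k : ℕ, ∫⁻ x, ENNReal.ofReal (g x) * min (Φ x) k ∂μ ≤ c := by
    intro k
    set ψ : α → ℝ := fun x => if 0 ≤ g x then (min (Φ x) k).toReal else 0 with hψ
    have hne : ∀ x, min (Φ x) (k : ℝ≥0∞) ≠ ⊤ := fun x =>
      ne_top_of_le_ne_top (ENNReal.natCast_ne_top k) (min_le_right _ _)
    have hψm : Measurable ψ :=
      Measurable.ite (measurableSet_le measurable_const hw.1)
        (hΦ.min measurable_const).ennreal_toReal measurable_const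
    have hψ0 : ∀ x, 0 ≤ ψ x := fun x => by
      simp only [hψ]; split_ifs
      · exact ENNReal.toReal_nonneg
      · exact le_rfl
    have hψle : ∀ x, ENNReal.ofReal (ψ x) ≤ min (Φ x) k := fun x => by
      simp only [hψ]; split_ifs
      · exact ENNReal.ofReal_toReal_le
      · simp
    have hψb : ∀ x, |ψ x| ≤ k := fun x => by
      rw [abs_of_nonneg (hψ0 x)]
      have := (hψle x).trans (min_le_right _ _)
      rw [← ENNReal.ofReal_natCast] at this
      exact (ENNReal.ofReal_le_ofReal_iff (Nat.cast_nonneg k)).1 this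
    have h1 := ENNReal.tendsto_ofReal (hw.2.2 ψ hψm ⟨k, hψb⟩)
    have h2 : ENNReal.ofReal (∫ x, g x * ψ x ∂μ) ≤ c := by
      refine le_of_tendsto h1 ?_
      filter_upwards [hc] with n hn
      rw [ofReal_integral_eq_lintegral_ofReal (int_mul (hi n) hψm hψb)
        (Eventually.of_forall fun x => mul_nonneg (h0 n x) (hψ0 x))]
      refine le_trans (lintegral_mono fun x => ?_) hn
      rw [ENNReal.ofReal_mul (h0 n x)]
      exact mul_le_mul_right ((hψle x).trans (min_le_left _ _)) _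
    rw [ofReal_integral_eq_lintegral_ofReal (int_mul hw.2.1 hψm hψb)
      (Eventually.of_forall fun x => by
        simp only [hψ, Pi.zero_apply]; split_ifs with h
        · exact mul_nonneg h ENNReal.toReal_nonneg
        · simp)] at h2
    refine le_trans (le_of_eq (lintegral_congr fun x => ?_)) h2
    simp only [hψ]; split_ifs with h
    · rw [ENNReal.ofReal_mul h, ENNReal.ofReal_toReal (hne x)]
    · rw [ENNReal.ofReal_of_nonpos (not_le.1 h).le]; simp
  have e : ∀ x, ENNReal.ofReal (g x) * Φ x = ⨆ k : ℕ, ENNReal.ofReal (g x) * min (Φ x) k := by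
    intro x
    rw [← ENNReal.mul_iSup]
    congr 1
    have := inf_iSup_eq (Φ x) (fun k : ℕ => (k : ℝ≥0∞))
    rw [ENNReal.iSup_natCast, inf_top_eq] at this
    exact this
  simp only [e]
  rw [lintegral_iSup (f := fun (k : ℕ) x => ENNReal.ofReal (g x) * min (Φ x) k)
    (fun k => hw.1.ennreal_ofReal.mul (hΦ.min measurable_const))
    (fun i j hij x => mul_le_mul_right (min_le_min_left _ (by exact_mod_cast hij)) _)]
  exact iSup_le hk

lemma p5 [UF.NeBot] {f f' : ℕ → α → ℝ} {g g' : α → ℝ} (hi : ∀ n, Integrable (f n) μ)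
    (hi' : ∀ n, Integrable (f' n) μ) (hw : WL μ f g) (hw' : WL μ f' g')
    (h : ∀ n, ∀ᵐ x ∂μ, f n x ≤ f' n x) : ∀ᵐ x ∂μ, g x ≤ g' x := by
  have h1 : 0 ≤ᵐ[μ] fun x => g' x - g x := by
    refine ae_nonneg_of_forall_setIntegral_nonneg (hw'.2.1.sub hw.2.1) fun s hs _ => ?_
    rw [integral_sub hw'.2.1.integrableOn hw.2.1.integrableOn, sub_nonneg]
    exact le_of_tendsto_of_tendsto' (set_tendsto hw hs) (set_tendsto hw' hs) fun n =>
      integral_mono_ae (hi n).integrableOn (hi' n).integrableOn (ae_restrict_of_ae (h n))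
  filter_upwards [h1] with x hx
  simpa using hx

lemma wl_zero : WL μ (fun _ _ => 0) (fun _ => 0) :=
  ⟨measurable_const, integrable_zero _ _ _, fun _ _ _ => tendsto_const_nhds⟩

lemma p4 [UF.NeBot] {f : ℕ → α → ℝ} {g W ψ : α → ℝ} {C : ℝ}
    (hi : ∀ n, Integrable (f n) μ) (h0 : ∀ n x, 0 ≤ f n x) (hw : WL μ f g) (hW : Measurable W)
    (hW1 : ∀ x, 1 ≤ W x) (hfW : ∀ n, Integrable (fun x => f n x * W x ^ 2) μ)
    (hC : ∀ n, ∫ x, f n x * W x ^ 2 ∂μ ≤ C) (hψ : Measurable ψ) (hψW : ∀ x, |ψ x| ≤ C * W x) :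
    Integrable (fun x => g x * W x ^ 2) μ ∧
      Tendsto (fun n => ∫ x, f n x * ψ x ∂μ) UF (𝓝 (∫ x, g x * ψ x ∂μ)) := by
  have hC0 : 0 ≤ C :=
    (integral_nonneg fun x => mul_nonneg (h0 0 x) (sq_nonneg _)).trans (hC 0)
  have hg0 : ∀ᵐ x ∂μ, 0 ≤ g x :=
    p5 (fun _ => integrable_zero _ _ _) hi wl_zero hw fun n => Eventually.of_forall (h0 n)
  have hg0' : 0 ≤ᵐ[μ] fun x => g x * W x ^ 2 := by
    filter_upwards [hg0] with x hx
    exact mul_nonneg hx (sq_nonneg _)
  have h1 : ∫⁻ x, ENNReal.ofReal (g x * W x ^ 2) ∂μ ≤ ENNReal.ofReal C := by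
    have := p3 (Φ := fun x => ENNReal.ofReal (W x ^ 2)) (c := ENNReal.ofReal C) hi h0 hw
      (hW.pow_const 2).ennreal_ofReal (Eventually.of_forall fun n => by
        refine le_trans (le_of_eq ?_) (ENNReal.ofReal_le_ofReal (hC n))
        rw [ofReal_integral_eq_lintegral_ofReal (hfW n)
          (Eventually.of_forall fun x => mul_nonneg (h0 n x) (sq_nonneg _))]
        exact lintegral_congr fun x => (ENNReal.ofReal_mul (h0 n x)).symm)
    refine le_trans (le_of_eq (lintegral_congr fun x => ?_)) this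
    exact ENNReal.ofReal_mul' (sq_nonneg _)
  have hgm : AEStronglyMeasurable (fun x => g x * W x ^ 2) μ :=
    (hw.1.mul (hW.pow_const 2)).aestronglyMeasurable
  have hgW : Integrable (fun x => g x * W x ^ 2) μ :=
    ⟨hgm, (hasFiniteIntegral_iff_ofReal hg0').2 (h1.trans_lt ENNReal.ofReal_lt_top)⟩
  have hgC : ∫ x, g x * W x ^ 2 ∂μ ≤ C := by
    rw [integral_eq_lintegral_of_nonneg_ae hg0' hgm]
    exact ENNReal.toReal_le_of_le_ofReal hC0 h1
  refine ⟨hgW, approx fun ε hε => ?_⟩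
  set L : ℝ := C * C / ε + 1 with hL
  have hL0 : 0 < L := by positivity
  set φ : α → ℝ := fun x => if W x ≤ L then ψ x else 0 with hφ
  have hφm : Measurable φ :=
    Measurable.ite (measurableSet_le hW measurable_const) hψ measurable_const
  have hφb : ∀ x, |φ x| ≤ C * L := fun x => by
    simp only [hφ]; split_ifs with h
    · exact (hψW x).trans (mul_le_mul_of_nonneg_left h hC0)
    · rw [abs_zero]; positivity
  have key : ∀ u : α → ℝ, Integrable u μ → (∀ᵐ x ∂μ, 0 ≤ u x) →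
      Integrable (fun x => u x * W x ^ 2) μ → ∫ x, u x * W x ^ 2 ∂μ ≤ C →
      |∫ x, u x * ψ x ∂μ - ∫ x, u x * φ x ∂μ| ≤ ε := by
    intro u hu hu0 huW huC
    have i1 : Integrable (fun x => u x * ψ x) μ := by
      refine (huW.const_mul C).mono' (hu.aestronglyMeasurable.mul hψ.aestronglyMeasurable) ?_
      filter_upwards [hu0] with x hx
      rw [Real.norm_eq_abs, abs_mul, abs_of_nonneg hx]
      have e1 : W x ≤ W x ^ 2 := by nlinarith [hW1 x]
      calc u x * |ψ x| ≤ u x * (C * W x ^ 2) :=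
            mul_le_mul_of_nonneg_left ((hψW x).trans (mul_le_mul_of_nonneg_left e1 hC0)) hx
        _ = _ := by ring
    refine (abs_sub_le i1 (int_mul hu hφm hφb) (huW.const_mul (C / L)) ?_).trans ?_
    · filter_upwards [hu0] with x hx
      rw [← mul_sub, abs_mul, abs_of_nonneg hx]
      have e1 : |ψ x - φ x| ≤ C / L * W x ^ 2 := by
        simp only [hφ]; split_ifs with h
        · rw [sub_self, abs_zero]; positivity
        · rw [sub_zero]
          refine (hψW x).trans ?_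
          have e2 : 1 ≤ W x / L := (one_le_div hL0).2 (not_le.1 h).le
          have e3 : 0 ≤ C * W x := mul_nonneg hC0 (by linarith [hW1 x])
          calc C * W x ≤ C * W x * (W x / L) := le_mul_of_one_le_right e3 e2
            _ = _ := by ring
      calc u x * |ψ x - φ x| ≤ u x * (C / L * W x ^ 2) := mul_le_mul_of_nonneg_left e1 hx
        _ = _ := by ring
    · rw [integral_const_mul]
      calc _ ≤ C / L * C := mul_le_mul_of_nonneg_left huC (by positivity)
        _ ≤ ε := by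
          rw [div_mul_eq_mul_div, div_le_iff₀ hL0, hL, mul_add, mul_div_cancel₀ _ hε.ne']
          linarith
  exact ⟨fun n => ∫ x, f n x * φ x ∂μ, _, hw.2.2 φ hφm ⟨_, hφb⟩,
    Eventually.of_forall fun n => key _ (hi n) (Eventually.of_forall (h0 n)) (hfW n) (hC n),
    key g hw.2.1 hg0 hgW hgC⟩

lemma p6 [UF.NeBot] {f : ℕ → α → ℝ} {g : α → ℝ} {c : ℝ} (hi : ∀ n, Integrable (f n) μ)
    (hw : WL μ f g) (hc : ∀ᶠ n in UF, ∫ x, |f n x| ∂μ ≤ c) : ∫ x, |g x| ∂μ ≤ c := by
  set ψ : α → ℝ := fun x => if 0 ≤ g x then 1 else -1 with hψ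
  have hψm : Measurable ψ :=
    Measurable.ite (measurableSet_le measurable_const hw.1) measurable_const measurable_const
  have hψb : ∀ x, |ψ x| ≤ 1 := fun x => by simp only [hψ]; split_ifs <;> simp
  have e : ∫ x, |g x| ∂μ = ∫ x, g x * ψ x ∂μ := by
    refine integral_congr_ae (Eventually.of_forall fun x => ?_)
    simp only [hψ]; split_ifs with h
    · rw [abs_of_nonneg h, mul_one]
    · rw [abs_of_neg (not_le.1 h)]; ring
  rw [e]
  refine le_of_tendsto (hw.2.2 ψ hψm ⟨1, hψb⟩) ?_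
  filter_upwards [hc] with n hn
  refine le_trans (integral_mono (int_mul (hi n) hψm hψb) (hi n).abs fun x => ?_) hn
  calc f n x * ψ x ≤ |f n x * ψ x| := le_abs_self _
    _ = |f n x| * |ψ x| := abs_mul _ _
    _ ≤ |f n x| := mul_le_of_le_one_right (abs_nonneg _) (hψb x)

lemma p7 {e : α ≃ᵐ α} {f : ℕ → α → ℝ} {g : α → ℝ} (he : MeasurePreserving e μ μ)
    (hw : WL μ f g) : WL μ (fun n x => f n (e x)) (fun x => g (e x)) := by
  refine ⟨hw.1.comp e.measurable, he.integrable_comp_of_integrable hw.2.1,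
    fun ψ hψ ⟨C, hC⟩ => ?_⟩
  have h := hw.2.2 (fun y => ψ (e.symm y)) (hψ.comp e.symm.measurable) ⟨C, fun y => hC _⟩
  have k : ∀ u : α → ℝ, ∫ x, u (e x) * ψ x ∂μ = ∫ y, u y * ψ (e.symm y) ∂μ := by
    intro u
    rw [← he.integral_comp' (fun y => u y * ψ (e.symm y))]
    simp only [MeasurableEquiv.symm_apply_apply]
  simpa only [k] using h

end WLaux

theorem wl (h : UIStmt) : WLStmt := by
  intro α _ μ _
  have := h.2.1
  have hi : ∀ f, UI μ f → ∀ n, Integrable (f n) μ := fun f hf => ((h.2.2 α μ).1 f hf).1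
  refine ⟨fun f a g b C hf hw hm ha hb => WLaux.p1 hf (hi f hf) hw hm ha hb,
    fun f a g b C hf hC hw hfi ha hb hl => WLaux.p2 (C := max C 1) (by positivity) hf
      (fun n x => (hC n x).trans (le_max_left _ _)) hw hfi ha hb hl,
    fun f g Φ c hf h0 hw hΦ hc => WLaux.p3 (hi f hf) h0 hw hΦ hc,
    fun f g W ψ C hf h0 hw hW hW1 hfW hC hψ hψW =>
      WLaux.p4 (hi f hf) h0 hw hW hW1 hfW hC hψ hψW,
    fun f f' g g' hf hf' hw hw' hle => WLaux.p5 (hi f hf) (hi f' hf') hw hw' hle,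
    fun f g c hf hw hc => WLaux.p6 (hi f hf) hw hc,
    fun e f g he hw => WLaux.p7 he hw⟩

end

end Vale.Agent.P140
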