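import Vale.Agent.P140.StmA

/-! Existence of weak limits along the ultrafilter; identification from rectangles. -/

namespace Vale.Agent.P140

open MeasureTheory Set Filter Topology
open scoped ENNReal NNReal

namespace WLEx

variable {α : Type} [MeasurableSpace α] {μ : Measure α}

theorem int_simple {h : α → ℝ} (hh : Integrable h μ) (s : SimpleFunc α ℝ) :
    Integrable (fun x => h x * s x) μ := by
  obtain ⟨C, hC⟩ := s.exists_forall_norm_le
  exact hh.mul_bdd s.aestronglyMeasurable (Eventually.of_forall hC)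

theorem int_piece (h : α → ℝ) (c : ℝ) {A : Set α} (hA : MeasurableSet A) :
    ∫ x, h x * (SimpleFunc.piecewise A hA (SimpleFunc.const α c) (SimpleFunc.const α 0)) x ∂μ
      = (∫ x in A, h x ∂μ) * c := by
  rw [← integral_mul_const, ← integral_indicator hA]
  refine integral_congr_ae (Eventually.of_forall fun x => ?_)
  by_cases hx : x ∈ A <;> simp [hx]

theorem simple_lim {l : Filter ℕ} {f : ℕ → α → ℝ} {g : α → ℝ} (hf : ∀ n, Integrable (f n) μ)
    (hg : Integrable g μ)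
    (hA : ∀ A, MeasurableSet A → Tendsto (fun n => ∫ x in A, f n x ∂μ) l (𝓝 (∫ x in A, g x ∂μ)))
    (s : SimpleFunc α ℝ) :
    Tendsto (fun n => ∫ x, f n x * s x ∂μ) l (𝓝 (∫ x, g x * s x ∂μ)) := by
  induction s using SimpleFunc.induction with
  | const c hs =>
    simp only [int_piece]
    exact (hA _ hs).mul_const c
  | add _ h1 h2 =>
    simp only [SimpleFunc.coe_add, Pi.add_apply, mul_add]
    rw [integral_add (int_simple hg _) (int_simple hg _)]
    refine (h1.add h2).congr fun n => ?_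
    rw [integral_add (int_simple (hf n) _) (int_simple (hf n) _)]

theorem approx {ψ : α → ℝ} (hψ : Measurable ψ) {C : ℝ} (hC : ∀ x, |ψ x| ≤ C) {ε : ℝ}
    (hε : 0 < ε) : ∃ s : SimpleFunc α ℝ, ∀ x, |ψ x - s x| ≤ ε := by
  have hm : Measurable fun x => ε * (⌊ψ x / ε⌋ : ℝ) :=
    measurable_const.mul (measurable_from_top.comp (hψ.div_const ε).floor)
  refine ⟨⟨fun x => ε * (⌊ψ x / ε⌋ : ℝ), fun y => hm (measurableSet_singleton y), ?_⟩, fun x => ?_⟩
  · refine ((Set.finite_Icc ⌊-C / ε⌋ ⌊C / ε⌋).image fun k : ℤ => ε * (k : ℝ)).subset ?_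
    rintro _ ⟨x, rfl⟩
    have h1 := abs_le.1 (hC x)
    exact ⟨⌊ψ x / ε⌋, ⟨Int.floor_mono (div_le_div_of_nonneg_right h1.1 hε.le),
      Int.floor_mono (div_le_div_of_nonneg_right h1.2 hε.le)⟩, rfl⟩
  · have h1 := Int.floor_le (ψ x / ε)
    have h2 := Int.lt_floor_add_one (ψ x / ε)
    rw [le_div_iff₀ hε] at h1
    rw [div_lt_iff₀ hε] at h2
    change |ψ x - ε * (⌊ψ x / ε⌋ : ℝ)| ≤ ε
    rw [abs_le]
    constructor <;> nlinarith

theorem close {h ψ : α → ℝ} (hh : Integrable h μ) (hψ : Measurable ψ) {C : ℝ}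
    (hC : ∀ x, |ψ x| ≤ C) {ε : ℝ} (s : SimpleFunc α ℝ) (hs : ∀ x, |ψ x - s x| ≤ ε) :
    |∫ x, h x * ψ x ∂μ - ∫ x, h x * s x ∂μ| ≤ (∫ x, |h x| ∂μ) * ε := by
  rw [← integral_sub (hh.mul_bdd hψ.aestronglyMeasurable (Eventually.of_forall hC))
    (int_simple hh s), ← integral_mul_const, ← Real.norm_eq_abs]
  refine norm_integral_le_of_norm_le (hh.abs.mul_const ε) (Eventually.of_forall fun x => ?_)
  rw [← mul_sub, norm_mul]
  exact mul_le_mul_of_nonneg_left (hs x) (abs_nonneg _)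

theorem bdd_lim {l : Filter ℕ} {f : ℕ → α → ℝ} {g : α → ℝ} (hf : ∀ n, Integrable (f n) μ)
    (hg : Integrable g μ) {B : ℝ} (hB : ∀ n, ∫ x, |f n x| ∂μ ≤ B)
    (hA : ∀ A, MeasurableSet A → Tendsto (fun n => ∫ x in A, f n x ∂μ) l (𝓝 (∫ x in A, g x ∂μ)))
    {ψ : α → ℝ} (hψ : Measurable ψ) {C : ℝ} (hC : ∀ x, |ψ x| ≤ C) :
    Tendsto (fun n => ∫ x, f n x * ψ x ∂μ) l (𝓝 (∫ x, g x * ψ x ∂μ)) := by
  rw [Metric.tendsto_nhds]
  intro ε hε
  have hB0 : 0 ≤ B := (integral_nonneg fun x => abs_nonneg _).trans (hB 0)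
  have hG : 0 ≤ ∫ x, |g x| ∂μ := integral_nonneg fun x => abs_nonneg _
  obtain ⟨δ, hδ⟩ : ∃ δ, δ = ε / (B + ∫ x, |g x| ∂μ + 1) := ⟨_, rfl⟩
  have hδ0 : 0 < δ := by rw [hδ]; positivity
  have hδ1 : δ * (B + ∫ x, |g x| ∂μ + 1) = ε := by
    rw [hδ, div_mul_cancel₀ _ (by positivity)]
  obtain ⟨s, hs⟩ := approx hψ hC hδ0
  filter_upwards [Metric.tendsto_nhds.1 (simple_lim hf hg hA s) δ hδ0] with n hn
  have h1 := abs_le.1 ((close (hf n) hψ hC s hs).trans
    (mul_le_mul_of_nonneg_right (hB n) hδ0.le))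
  have h2 := abs_le.1 (close hg hψ hC s hs)
  rw [Real.dist_eq, abs_lt] at hn ⊢
  constructor <;> nlinarith [h1.1, h1.2, h2.1, h2.2, hn.1, hn.2]

/-- Setwise limits of measures with a uniform domination. -/
theorem lim_measure (U : Ultrafilter ℕ) (ν : ℕ → Measure α)
    (hd : ∀ ε : ℝ≥0, 0 < ε → ∃ κ : Measure α, IsFiniteMeasure κ ∧
      ∀ n A, MeasurableSet A → ν n A ≤ ε + κ A) :
    ∃ ρ : Measure α, IsFiniteMeasure ρ ∧
      ∀ A, MeasurableSet A → Tendsto (fun n => ν n A) U (𝓝 (ρ A)) := by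
  have h1 : ∀ A : Set α, ∃ m : ℝ≥0∞, Tendsto (fun n => ν n A) U (𝓝 m) := fun A =>
    ⟨_, (U.map fun n => ν n A).le_nhds_lim⟩
  choose m hm using h1
  have m0 : m ∅ = 0 := tendsto_nhds_unique (hm ∅) (by simp)
  have mU : ∀ ⦃A : ℕ → Set α⦄, (∀ i, MeasurableSet (A i)) →
      Pairwise (Function.onFun Disjoint A) → m (⋃ i, A i) = ∑' i, m (A i) := by
    intro A hA hdis
    refine le_antisymm (ENNReal.le_of_forall_pos_le_add fun ε hε _ => ?_) ?_
    · obtain ⟨κ, hκ, h2⟩ := hd (ε / 2) (half_pos hε)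
      have h3 : ∑' i, κ (A i) ≠ ∞ := by
        rw [← measure_iUnion hdis hA]
        exact measure_ne_top _ _
      have h4 : (0 : ℝ≥0∞) < (ε / 2 : ℝ≥0) := ENNReal.coe_pos.2 (half_pos hε)
      obtain ⟨N, hN⟩ := ((ENNReal.tendsto_sum_nat_add _ h3).eventually
        (Iic_mem_nhds h4)).exists
      have h5 : ∀ n, ν n (⋃ i, A i) ≤ ∑ i ∈ Finset.range N, ν n (A i) + ε := by
        intro n
        have hdis' : Pairwise (Function.onFun Disjoint fun i => A (i + N)) :=
          fun i j hij => hdis (by omega)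
        have h6 := h2 n (⋃ i, A (i + N)) (MeasurableSet.iUnion fun i => hA _)
        rw [measure_iUnion hdis' fun i => hA _, measure_iUnion hdis' fun i => hA _] at h6
        rw [measure_iUnion hdis hA, ← Summable.sum_add_tsum_nat_add' (k := N) ENNReal.summable]
        refine add_le_add le_rfl (h6.trans ((add_le_add le_rfl hN).trans ?_))
        rw [← ENNReal.coe_add, add_halves]
      have h7 := le_of_tendsto_of_tendsto' (hm _)
        ((tendsto_finsetSum (Finset.range N) fun i _ => hm (A i)).add tendsto_const_nhds) h5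
      exact h7.trans (add_le_add (ENNReal.sum_le_tsum _) le_rfl)
    · rw [ENNReal.tsum_eq_iSup_sum]
      refine iSup_le fun s => le_of_tendsto_of_tendsto'
        (tendsto_finsetSum s fun i _ => hm (A i)) (hm _) fun n => ?_
      rw [measure_iUnion hdis hA]
      exact ENNReal.sum_le_tsum s
  refine ⟨Measure.ofMeasurable (fun A _ => m A) m0 mU, ⟨?_⟩, fun A hA => ?_⟩
  · rw [Measure.ofMeasurable_apply _ MeasurableSet.univ]
    obtain ⟨κ, hκ, h2⟩ := hd 1 one_pos
    exact (le_of_tendsto' (hm univ) fun n => h2 n univ MeasurableSet.univ).trans_lt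
      (ENNReal.add_lt_top.2 ⟨ENNReal.coe_lt_top, measure_lt_top _ _⟩)
  · rw [Measure.ofMeasurable_apply _ hA]
    exact hm A

theorem set_eq {h : α → ℝ} (hh : Measurable h) (h0 : ∀ x, 0 ≤ h x) {A : Set α}
    (hA : MeasurableSet A) :
    ∫ x in A, h x ∂μ = ((μ.withDensity fun x => ENNReal.ofReal (h x)) A).toReal := by
  rw [withDensity_apply _ hA,
    integral_eq_lintegral_of_nonneg_ae (Eventually.of_forall h0) hh.aestronglyMeasurable]

end WLEx

open WLEx in
theorem wlEx (h : UIStmt) : WLExStmt := by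
  intro α _ μ _ f h0 hf
  obtain ⟨hi, B, hB⟩ := (h.2.2 α μ).1 f hf
  obtain ⟨ρ, hρ, hl⟩ := lim_measure (Filter.hyperfilter ℕ)
    (fun n => μ.withDensity fun x => ENNReal.ofReal (f n x)) (by
      intro ε hε
      obtain ⟨g, hg, hg0, hgi, h1⟩ := hf.2 ε hε
      refine ⟨μ.withDensity fun x => ENNReal.ofReal (g x),
        isFiniteMeasure_withDensity_ofReal hgi.2, fun n A hA => ?_⟩
      rw [withDensity_apply _ hA, withDensity_apply _ hA]
      have h2 := h1 n
      rw [ENNReal.ofReal_coe_nnreal] at h2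
      calc ∫⁻ x in A, ENNReal.ofReal (f n x) ∂μ
          ≤ ∫⁻ x in A, (ENNReal.ofReal (|f n x| - g x) + ENNReal.ofReal (g x)) ∂μ := by
            refine lintegral_mono fun x => le_trans ?_ ENNReal.ofReal_add_le
            exact ENNReal.ofReal_le_ofReal (by linarith [le_abs_self (f n x)])
        _ = ∫⁻ x in A, ENNReal.ofReal (|f n x| - g x) ∂μ
            + ∫⁻ x in A, ENNReal.ofReal (g x) ∂μ :=
            lintegral_add_right _ hg.ennreal_ofReal
        _ ≤ _ := add_le_add ((setLIntegral_le_lintegral _ _).trans h2) le_rfl)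
  have hac : ρ ≪ μ := Measure.AbsolutelyContinuous.mk fun A hA h1 => by
    refine tendsto_nhds_unique (hl A hA) ?_
    simp only [withDensity_absolutelyContinuous μ _ h1]
    exact tendsto_const_nhds
  refine ⟨fun x => (ρ.rnDeriv μ x).toReal, fun x => ENNReal.toReal_nonneg,
    (Measure.measurable_rnDeriv ρ μ).ennreal_toReal, Measure.integrable_toReal_rnDeriv, ?_⟩
  rintro ψ hψ ⟨C, hC⟩
  refine bdd_lim hi Measure.integrable_toReal_rnDeriv hB (fun A hA => ?_) hψ hC
  rw [Measure.setIntegral_toReal_rnDeriv hac]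
  simp only [set_eq (hf.1 _) (h0 _) hA]
  exact (ENNReal.tendsto_toReal (measure_ne_top ρ A)).comp (hl A hA)

open WLEx in
theorem rect (h : UIStmt) (hW : WLExStmt) : RectStmt := by
  intro α β _ _ μ ν _ _ f g h0 hf hg hg0 hgi hA
  obtain ⟨g', hg0', hg', hgi', hl⟩ := hW _ (μ.prod (ν.prod ν)) f h0 hf
  have := h.2.1
  have i1 := isFiniteMeasure_withDensity_ofReal hgi.2
  have i2 := isFiniteMeasure_withDensity_ofReal hgi'.2
  have h1 : ((μ.prod (ν.prod ν)).withDensity fun x => ENNReal.ofReal (g x))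
      = (μ.prod (ν.prod ν)).withDensity fun x => ENNReal.ofReal (g' x) := by
    refine Measure.ext_prod₃ fun {A B C} hA' hB hC => ?_
    have hS : MeasurableSet (A ×ˢ B ×ˢ C) := hA'.prod (hB.prod hC)
    have h2 := hl ((A ×ˢ B ×ˢ C).indicator 1) (measurable_one.indicator hS)
      ⟨1, fun x => by by_cases hx : x ∈ A ×ˢ B ×ˢ C <;> simp [hx]⟩
    have h3 : ∀ k : α × β × β → ℝ, ∫ x, k x * (A ×ˢ B ×ˢ C).indicator 1 x ∂(μ.prod (ν.prod ν))
        = ∫ x in A ×ˢ B ×ˢ C, k x ∂(μ.prod (ν.prod ν)) := by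
      intro k
      rw [← integral_indicator hS]
      refine integral_congr_ae (Eventually.of_forall fun x => ?_)
      by_cases hx : x ∈ A ×ˢ B ×ˢ C <;> simp [hx]
    simp only [h3] at h2
    have h4 := tendsto_nhds_unique (hA A B C hA' hB hC) h2
    rw [set_eq hg hg0 hS, set_eq hg' hg0' hS] at h4
    exact (ENNReal.toReal_eq_toReal_iff' (measure_ne_top _ _) (measure_ne_top _ _)).1 h4
  rw [withDensity_eq_iff_of_sigmaFinite hg.ennreal_ofReal.aemeasurable
    hg'.ennreal_ofReal.aemeasurable] at h1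
  refine ⟨hg, hgi, fun ψ hψ hC => ?_⟩
  have h2 : ∫ x, g x * ψ x ∂(μ.prod (ν.prod ν)) = ∫ x, g' x * ψ x ∂(μ.prod (ν.prod ν)) := by
    refine integral_congr_ae ?_
    filter_upwards [h1] with x hx
    rw [(ENNReal.ofReal_eq_ofReal_iff (hg0 x) (hg0' x)).1 hx]
  rw [h2]
  exact hl ψ hψ hC

end Vale.Agent.P140
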