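import Vale.Agent.P140.DLMain
import Vale.Agent.P140.PrePost
import Vale.Agent.P140.Meas
import Vale.Agent.P140.Graph
import Vale.Agent.P140.Carl
import Vale.Agent.P140.Sym
import Vale.Agent.P140.Arch
import Vale.Agent.P140.Torus
import Vale.Agent.P140.Test
import Vale.Agent.P140.Chain
import Vale.Agent.P140.UI
import Vale.Agent.P140.WLEx
import Vale.Agent.P140.WL
import Vale.Agent.P140.MC
import Vale.Agent.P140.TOp
import Vale.Agent.P140.TSEx
import Vale.Agent.P140.TSStab
import Vale.Agent.P140.TSCons
import Vale.Agent.P140.TSEnt
import Vale.Agent.P140.Ineq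
import Vale.Agent.P140.Apr
import Vale.Agent.P140.RenUI
import Vale.Agent.P140.Beta
import Vale.Agent.P140.Rep
import Vale.Agent.P140.LimEx
import Vale.Agent.P140.AvL2
import Vale.Agent.P140.AvBdd
import Vale.Agent.P140.Av
import Vale.Agent.P140.AvF
import Vale.Agent.P140.Nu
import Vale.Agent.P140.NuExp
import Vale.Agent.P140.Prod
import Vale.Agent.P140.GainW
import Vale.Agent.P140.Super
import Vale.Agent.P140.RenGain
import Vale.Agent.P140.SubM
import Vale.Agent.P140.Mild
import Vale.Agent.P140.EntLsc
import Vale.Agent.P140.DissLsc
import Vale.Agent.P140.Int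
import Vale.Agent.P140.Renorm
import Vale.Agent.P140.Cons

/-!
Wiring of the stability theory: instability of the truncated problems gives the goal.
-/

namespace Vale.Agent.P140

theorem weakP : WeakStmt := weak prePost
theorem carlP : CarlStmt := carl graph
theorem symP : SymStmt := sym graph meas
theorem expP : ExpStmt := expForm chain
theorem wlExP : WLExStmt := wlEx ui
theorem rectP : RectStmt := rect ui wlExP
theorem wlP : WLStmt := wl ui
theorem mcP : MCStmt := mc ui
theorem tOpP : TOpStmt := tOp meas carlP
theorem tsExP : TSExStmt := tsEx meas tOpP expP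
theorem tsFlP : TSFlStmt := tsFl meas tOpP expP
theorem tsStabP : TSStabStmt := tsStab meas tOpP tsFlP
theorem tsConsP : TSConsStmt := tsCons meas weakP torus test chain tOpP tsFlP
theorem tsEntP : TSEntStmt := tsEnt meas weakP torus chain tOpP tsFlP ineq
theorem aprP : AprStmt := apr ui torus tsFlP tsConsP tsEntP ineq
theorem renUIP : RenUIStmt := renUI meas ui ineq tOpP tsFlP
theorem betaP : BetaStmt := beta meas chain tsFlP
theorem equiP : EquiStmt := equi ui torus tsFlP renUIP betaP
theorem wlYP : WLYStmt := wlY ui torus wlP equiP
theorem limExP : LimExStmt := limEx ui wlExP wlP torus equiP repr wlYP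
theorem avP : AvStmt := av ui torus (avBdd ui torus (avL2 torus))
theorem avFP : AvFStmt := avF meas ui wlP torus tsFlP renUIP betaP avP
theorem nuP : NuStmt := nuConv meas ui mcP tOpP tsFlP avFP
theorem nuExpP : NuExpStmt := nuExp meas torus mcP tsFlP avFP nuP
theorem prodP : ProdStmt := prodW meas ui wlP mcP rectP tsFlP avFP nuExpP
theorem gainWP : GainWStmt := gainW meas weakP prePost ui wlP tsFlP tOpP prodP
theorem superP : SuperStmt := super meas torus ui wlP mcP tsFlP nuExpP gainWP
theorem renGainP : RenGainStmt := renGain meas ui wlP mcP ineq tOpP tsFlP renUIP nuExpP gainWP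
theorem subMP : SubMStmt :=
  subM meas torus ui wlExP wlP mcP expP tsFlP renUIP betaP nuExpP nuP renGainP
theorem mildP : MildStmt := mild meas torus nuExpP superP subMP
theorem flightP : FlightStmt := flight meas torus expP nuExpP mildP
theorem dissLscP : DissLscStmt := dissLsc meas prePost weakP ui ineq tsFlP tOpP prodP
theorem entP : EntStmt := ent ui tsEntP (entLsc ui ineq) dissLscP
theorem intP : IntStmt := intL meas ineq entP
theorem renormP : RenormStmt := renormL meas torus test chain intP flightP
theorem consP : ConsStmt := consL ui wlP test tsConsP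

theorem goal_of_inst (hN : InstStmt) : Goal :=
  goal_of ui aprP limExP entP intP renormP consP (weakCont torus) differ hN

end Vale.Agent.P140
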