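import Vale.Agent.P140.StmB

namespace Vale.Agent.P140

open MeasureTheory Set Filter Topology

theorem isSol_of_lim (hE : EntStmt) (hI : IntStmt) (hR : RenormStmt) (hC : ConsStmt)
    (hW : WeakContStmt) {R δ Fn F₀ F} (h : Lim R δ Fn F₀ F) : IsSol F₀ F where
  meas := h.meas
  nonneg := h.nonneg
  weakCont := hW _ _ _ _ _ h
  init := h.init
  bound := (hI _ _ _ _ _ h).1
  gainInt := (hI _ _ _ _ _ h).2.1
  lossInt := (hI _ _ _ _ _ h).2.2
  renorm := hR _ _ _ _ _ h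
  mass := (hC _ _ _ _ _ h).1
  momentum := (hC _ _ _ _ _ h).2.1
  energy := (hC _ _ _ _ _ h).2.2
  entropy := hE _ _ _ _ _ h

theorem goal_of (hU : UIStmt) (hA : AprStmt) (hL : LimExStmt) (hE : EntStmt) (hI : IntStmt)
    (hR : RenormStmt) (hC : ConsStmt) (hW : WeakContStmt) (hD : DifferStmt) (hN : InstStmt) :
    Goal := by
  obtain ⟨F₀, R, δ, A, B, t, c, d, ψ, hA', hB', ht, hψ, hb, hcd, hn⟩ := hN
  obtain ⟨F, hF⟩ := hL _ _ _ _ (hA _ _ _ _ hA')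
  obtain ⟨G, hG⟩ := hL _ _ _ _ (hA _ _ _ _ hB')
  have sF := isSol_of_lim hE hI hR hC hW hF
  have sG := isSol_of_lim hE hI hR hC hW hG
  refine ⟨F₀, hA'.datum, F, G, sF, sG, hD F₀ F G sF sG t ψ ht hψ hb ?_⟩
  haveI := hU.2.1
  have h1 : ∫ p, F t p * ψ p ≤ c :=
    le_of_tendsto ((hF.wl t ht).2.2 ψ hψ hb) (Eventually.of_forall fun n => (hn n).1)
  have h2 : d ≤ ∫ p, G t p * ψ p :=
    ge_of_tendsto ((hG.wl t ht).2.2 ψ hψ hb) (Eventually.of_forall fun n => (hn n).2)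
  intro h
  linarith

end Vale.Agent.P140
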