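import Vale.Agent.P140.StmB

/-!
Abstract lower semicontinuity of the functional (f, g) ↦ ∫ κ jj(f, g) under weak limits.
-/

namespace Vale.Agent.P140

open MeasureTheory Set Filter Topology
open scoped ENNReal

noncomputable section

namespace DissLsc

/-- Weak limits are transported by measure preserving maps with a measurable left inverse. -/
lemma wl_comp {α β : Type} [MeasurableSpace α] [MeasurableSpace β] {μ : Measure α}
    {ν : Measure β} {e : α → β} {e' : β → α} (he : MeasurePreserving e μ ν)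
    (he' : Measurable e') (hl : ∀ x, e' (e x) = x) {f : ℕ → β → ℝ} {g : β → ℝ}
    (hf : ∀ n, Measurable (f n)) (h : WL ν f g) :
    WL μ (fun n x => f n (e x)) (fun x => g (e x)) := by
  refine ⟨h.1.comp he.measurable, he.integrable_comp_of_integrable h.2.1, ?_⟩
  intro ψ hψ ⟨C, hC⟩
  have key : ∀ u : β → ℝ, Measurable u →
      ∫ x, u (e x) * ψ x ∂μ = ∫ y, u y * ψ (e' y) ∂ν := by
    intro u hu
    have hm : Measurable fun y => u y * ψ (e' y) := hu.mul (hψ.comp he')
    rw [← he.map_eq, integral_map he.measurable.aemeasurable hm.aestronglyMeasurable]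
    simp only [hl]
  simp only [key _ (hf _), key _ h.1]
  exact h.2.2 _ (hψ.comp he') ⟨C, fun y => hC _⟩

/-- Weak limits lift to the product with a finite measure. -/
lemma wl_fst {α β : Type} [MeasurableSpace α] [MeasurableSpace β] {μ : Measure α} [SFinite μ]
    {ν : Measure β} [IsFiniteMeasure ν] {f : ℕ → α → ℝ} {g : α → ℝ}
    (hf : ∀ n, Measurable (f n)) (hi : ∀ n, Integrable (f n) μ) (h : WL μ f g) :
    WL (μ.prod ν) (fun n x => f n x.1) (fun x => g x.1) := by
  refine ⟨h.1.comp measurable_fst, h.2.1.comp_fst ν, ?_⟩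
  intro ψ hψ ⟨C, hC⟩
  have key : ∀ u : α → ℝ, Measurable u → Integrable u μ →
      ∫ x, u x.1 * ψ x ∂(μ.prod ν) = ∫ x, u x * ∫ y, ψ (x, y) ∂ν ∂μ := by
    intro u hu hui
    have h1 : Integrable (fun x : α × β => u x.1 * ψ x) (μ.prod ν) :=
      (hui.comp_fst ν).mul_bdd (c := C) hψ.aestronglyMeasurable
        (Eventually.of_forall fun x => by simpa using hC x)
    rw [integral_prod _ h1]
    simp only [integral_const_mul]
  simp only [key _ (hf _) (hi _), key _ h.1 h.2.1]
  refine h.2.2 _ ?_ ⟨C * ν.real univ, fun x => ?_⟩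
  · exact (hψ.stronglyMeasurable.integral_prod_right' (ν := ν)).measurable
  · have := norm_integral_le_of_norm_le_const (μ := ν) (f := fun y => ψ (x, y)) (C := C)
      (Eventually.of_forall fun y => by simpa using hC (x, y))
    simpa using this

open Classical in
/-- The ratio used in the linear lower bound. -/
def rr (M : ℝ) (z : ℝ × ℝ) : ℝ :=
  if z.2 = 0 then M else if z.1 = 0 then M⁻¹ else
    if M⁻¹ ≤ z.1 / z.2 ∧ z.1 / z.2 ≤ M then z.1 / z.2 else 1

lemma measurable_rr (M : ℝ) : Measurable (rr M) := by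
  unfold rr
  refine Measurable.ite (measurableSet_eq_fun measurable_snd measurable_const) measurable_const ?_
  refine Measurable.ite (measurableSet_eq_fun measurable_fst measurable_const) measurable_const ?_
  refine Measurable.ite ?_ (measurable_fst.div measurable_snd) measurable_const
  exact (measurableSet_le measurable_const (measurable_fst.div measurable_snd)).inter
    (measurableSet_le (measurable_fst.div measurable_snd) measurable_const)

lemma rr_mem {M : ℝ} (hM : 1 ≤ M) (z : ℝ × ℝ) : M⁻¹ ≤ rr M z ∧ rr M z ≤ M := by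
  have h1 : M⁻¹ ≤ 1 := inv_le_one_of_one_le₀ hM
  unfold rr
  split_ifs with h h' h''
  · exact ⟨h1.trans hM, le_rfl⟩
  · exact ⟨le_rfl, h1.trans hM⟩
  · exact h''
  · exact ⟨h1, hM⟩

/-- First coefficient. -/
def ca (r : ℝ) : ℝ := Real.log r + 1 - r⁻¹

/-- Second coefficient. -/
def cb (r : ℝ) : ℝ := -Real.log r + 1 - r

lemma measurable_ca : Measurable ca := by unfold ca; fun_prop

lemma measurable_cb : Measurable cb := by unfold cb; fun_prop

lemma coef_bound {M r : ℝ} (hM : 1 ≤ M) (h1 : M⁻¹ ≤ r) (h2 : r ≤ M) :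
    |ca r| ≤ 2 * M + 1 ∧ |cb r| ≤ 2 * M + 1 := by
  have hM0 : 0 < M := by linarith
  have hr : 0 < r := lt_of_lt_of_le (inv_pos.2 hM0) h1
  have h3 : r⁻¹ ≤ M := by
    rw [inv_le_comm₀ hr hM0]; exact h1
  have h4 : Real.log r ≤ M := by have := Real.log_le_sub_one_of_pos hr; linarith
  have h5 : -M ≤ Real.log r := by
    have := Real.log_le_sub_one_of_pos (inv_pos.2 hr)
    rw [Real.log_inv] at this; linarith
  have h6 : 0 < r⁻¹ := inv_pos.2 hr
  unfold ca cb
  constructor <;> rw [abs_le] <;> constructor <;> linarith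

/-- The linear lower bound evaluated at the point itself. -/
def ll (M : ℝ) (z : ℝ × ℝ) : ℝ := ca (rr M z) * z.1 + cb (rr M z) * z.2

lemma ca_nonneg {M : ℝ} (hM : 1 ≤ M) : 0 ≤ ca M := by
  have h1 : M⁻¹ ≤ 1 := inv_le_one_of_one_le₀ hM
  have := Real.log_nonneg hM
  unfold ca; linarith

lemma cb_inv (M : ℝ) : cb M⁻¹ = ca M := by
  unfold ca cb; rw [Real.log_inv]; ring

lemma ll_ratio {A B : ℝ} (hA : 0 < A) (hB : 0 < B) :
    ca (A / B) * A + cb (A / B) * B = (A - B) * Real.log (A / B) := by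
  unfold ca cb; field_simp; ring

lemma ratio_nonneg {A B : ℝ} (hA : 0 < A) (hB : 0 < B) : 0 ≤ (A - B) * Real.log (A / B) := by
  rcases le_total A B with h | h
  · exact mul_nonneg_of_nonpos_of_nonpos (by linarith)
      (Real.log_nonpos (by positivity) ((div_le_one hB).2 h))
  · exact mul_nonneg (by linarith) (Real.log_nonneg ((one_le_div hB).2 h))

lemma ll_nonneg {M : ℝ} (hM : 1 ≤ M) {A B : ℝ} (hA : 0 ≤ A) (hB : 0 ≤ B) : 0 ≤ ll M (A, B) := by
  unfold ll rr
  dsimp only
  split_ifs with h h' h''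
  · rw [h]; simpa using mul_nonneg (ca_nonneg hM) hA
  · rw [h', cb_inv]; simpa using mul_nonneg (ca_nonneg hM) hB
  · rw [ll_ratio (lt_of_le_of_ne hA (Ne.symm h')) (lt_of_le_of_ne hB (Ne.symm h))]
    exact ratio_nonneg (lt_of_le_of_ne hA (Ne.symm h')) (lt_of_le_of_ne hB (Ne.symm h))
  · simp [ca, cb]

lemma tendsto_ca : Tendsto (fun N : ℕ => ca ((N : ℝ) + 1)) atTop atTop := by
  have h1 : Tendsto (fun N : ℕ => Real.log ((N : ℝ) + 1)) atTop atTop :=
    Real.tendsto_log_atTop.comp (tendsto_atTop_add_const_right _ _ tendsto_natCast_atTop_atTop)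
  refine tendsto_atTop_mono (fun N => ?_) h1
  have : ((N : ℝ) + 1)⁻¹ ≤ 1 := inv_le_one_of_one_le₀ (by have := N.cast_nonneg (α := ℝ); linarith)
  unfold ca; linarith

lemma tendsto_ll {A B : ℝ} (hA : 0 ≤ A) (hB : 0 ≤ B) :
    Tendsto (fun N : ℕ => ENNReal.ofReal (ll ((N : ℝ) + 1) (A, B))) atTop (𝓝 (jj A B)) := by
  have top : ∀ C : ℝ, 0 < C →
      Tendsto (fun N : ℕ => ENNReal.ofReal (ca ((N : ℝ) + 1) * C)) atTop (𝓝 ⊤) := fun C hC =>
    ENNReal.tendsto_ofReal_atTop.comp (tendsto_ca.atTop_mul_const hC)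
  by_cases h : B = 0
  · subst h
    by_cases h' : A = 0
    · subst h'; simp [ll, jj]
    · have : jj A 0 = ⊤ := by simp [jj, h']
      rw [this]
      refine (top A (lt_of_le_of_ne hA (Ne.symm h'))).congr fun N => ?_
      simp [ll, rr]
  · by_cases h' : A = 0
    · subst h'
      have : jj 0 B = ⊤ := by simp [jj, Ne.symm h]
      rw [this]
      refine (top B (lt_of_le_of_ne hB (Ne.symm h))).congr fun N => ?_
      simp [ll, rr, h, cb_inv]
    · have hA' := lt_of_le_of_ne hA (Ne.symm h')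
      have hB' := lt_of_le_of_ne hB (Ne.symm h)
      have hj : jj A B = ENNReal.ofReal ((A - B) * Real.log (A / B)) := by
        unfold jj
        split_ifs with h1 h2
        · simp [h1]
        · exact absurd h2 (by tauto)
        · rfl
      rw [hj]
      refine tendsto_const_nhds.congr' ?_
      have hN : Tendsto (fun N : ℕ => (N : ℝ) + 1) atTop atTop :=
        tendsto_atTop_add_const_right _ _ tendsto_natCast_atTop_atTop
      filter_upwards [hN.eventually_ge_atTop (A / B), hN.eventually_ge_atTop (B / A)] with N h1 h2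
      have h3 : ((N : ℝ) + 1)⁻¹ ≤ A / B := by
        rw [inv_le_comm₀ (by positivity) (by positivity), inv_div]; exact h2
      simp only [ll, rr, h, h', if_false, h1, h3, and_self, if_true]
      rw [ll_ratio hA' hB']

/-- Abstract lower semicontinuity. -/
lemma lsc (hI : IneqStmt) (hU : UIStmt) {α : Type} [MeasurableSpace α] {μ : Measure α}
    {f g : ℕ → α → ℝ} {f₀ g₀ κ : α → ℝ} {K : ℝ} {c : ℝ≥0∞}
    (hf0 : ∀ n x, 0 ≤ f n x) (hg0 : ∀ n x, 0 ≤ g n x)
    (hfi : ∀ n, Integrable (f n) μ) (hgi : ∀ n, Integrable (g n) μ)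
    (hf : WL μ f f₀) (hg : WL μ g g₀) (h0 : ∀ x, 0 ≤ f₀ x) (h0' : ∀ x, 0 ≤ g₀ x)
    (hκ : Measurable κ) (hκ0 : ∀ x, 0 ≤ κ x) (hκK : ∀ x, κ x ≤ K)
    (hc : ∀ᶠ n in UF, ∫⁻ x, ENNReal.ofReal (κ x) * jj (f n x) (g n x) ∂μ ≤ c) :
    ∫⁻ x, ENNReal.ofReal (κ x) * jj (f₀ x) (g₀ x) ∂μ ≤ c := by
  have := hU.2.1
  by_cases hct : c = ⊤
  · simp [hct]
  have hp : Measurable fun x => (f₀ x, g₀ x) := hf.1.prodMk hg.1
  have step : ∀ M : ℝ, 1 ≤ M →
      ∫⁻ x, ENNReal.ofReal (κ x * ll M (f₀ x, g₀ x)) ∂μ ≤ c := by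
    intro M hM
    set a : α → ℝ := fun x => κ x * ca (rr M (f₀ x, g₀ x)) with ha
    set b : α → ℝ := fun x => κ x * cb (rr M (f₀ x, g₀ x)) with hb
    have ham : Measurable a := hκ.mul (measurable_ca.comp ((measurable_rr M).comp hp))
    have hbm : Measurable b := hκ.mul (measurable_cb.comp ((measurable_rr M).comp hp))
    have hab : ∀ x, |a x| ≤ K * (2 * M + 1) ∧ |b x| ≤ K * (2 * M + 1) := by
      intro x
      have h1 := rr_mem hM (f₀ x, g₀ x)
      have h2 := coef_bound hM h1.1 h1.2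
      simp only [ha, hb, abs_mul, abs_of_nonneg (hκ0 x)]
      exact ⟨mul_le_mul (hκK x) h2.1 (abs_nonneg _) ((hκ0 x).trans (hκK x)),
        mul_le_mul (hκK x) h2.2 (abs_nonneg _) ((hκ0 x).trans (hκK x))⟩
    have ia : ∀ u : α → ℝ, Integrable u μ → Integrable (fun x => u x * a x) μ := fun u hu =>
      hu.mul_bdd (c := K * (2 * M + 1)) ham.aestronglyMeasurable
        (Eventually.of_forall fun x => by simpa using (hab x).1)
    have ib : ∀ u : α → ℝ, Integrable u μ → Integrable (fun x => u x * b x) μ := fun u hu =>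
      hu.mul_bdd (c := K * (2 * M + 1)) hbm.aestronglyMeasurable
        (Eventually.of_forall fun x => by simpa using (hab x).2)
    have lim := (hf.2.2 a ham ⟨_, fun x => (hab x).1⟩).add (hg.2.2 b hbm ⟨_, fun x => (hab x).2⟩)
    have hle : ∫ x, f₀ x * a x ∂μ + ∫ x, g₀ x * b x ∂μ ≤ c.toReal := by
      refine le_of_tendsto lim ?_
      filter_upwards [hc] with n hn
      rw [← integral_add (ia _ (hfi n)) (ib _ (hgi n))]
      have hi := (ia _ (hfi n)).add (ib _ (hgi n))
      have h1 : ∫⁻ x, ENNReal.ofReal (f n x * a x + g n x * b x) ∂μ ≤ c := by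
        refine le_trans (lintegral_mono fun x => ?_) hn
        have hr : 0 < rr M (f₀ x, g₀ x) :=
          lt_of_lt_of_le (inv_pos.2 (by linarith)) (rr_mem hM _).1
        have h2 := hI.2.2.2.1 (f n x) (g n x) _ (hf0 n x) (hg0 n x) hr
        have h3 : f n x * a x + g n x * b x = κ x *
            ((Real.log (rr M (f₀ x, g₀ x)) + 1 - (rr M (f₀ x, g₀ x))⁻¹) * f n x +
              (-Real.log (rr M (f₀ x, g₀ x)) + 1 - rr M (f₀ x, g₀ x)) * g n x) := by
          simp only [ha, hb, ca, cb]; ring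
        rw [h3, ENNReal.ofReal_mul (hκ0 x)]
        exact mul_le_mul_right h2 _
      have h4 := integral_eq_lintegral_pos_part_sub_lintegral_neg_part hi
      have h5 := ENNReal.toReal_mono hct h1
      have h6 : 0 ≤ (∫⁻ x, ENNReal.ofReal (-(f n x * a x + g n x * b x)) ∂μ).toReal :=
        ENNReal.toReal_nonneg
      simp only [Pi.add_apply] at h4
      linarith
    have he : ∀ x, κ x * ll M (f₀ x, g₀ x) = f₀ x * a x + g₀ x * b x := by
      intro x; simp only [ha, hb, ll]; ring
    have hi : Integrable (fun x => f₀ x * a x + g₀ x * b x) μ :=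
      (ia _ hf.2.1).add (ib _ hg.2.1)
    simp only [he]
    rw [← integral_add (ia _ hf.2.1) (ib _ hg.2.1)] at hle
    rw [← ofReal_integral_eq_lintegral_ofReal hi (Eventually.of_forall fun x => ?_)]
    · exact ENNReal.ofReal_le_of_le_toReal hle
    · have := mul_nonneg (hκ0 x) (ll_nonneg hM (h0 x) (h0' x))
      rw [he] at this
      exact this
  have hm : ∀ N : ℕ, Measurable fun x => ENNReal.ofReal (κ x * ll ((N : ℝ) + 1) (f₀ x, g₀ x)) := by
    intro N
    refine (hκ.mul ?_).ennreal_ofReal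
    unfold ll
    exact ((measurable_ca.comp ((measurable_rr _).comp hp)).mul hf.1).add
      ((measurable_cb.comp ((measurable_rr _).comp hp)).mul hg.1)
  have fat := lintegral_liminf_le (μ := μ) (u := atTop) hm
  have hpt : ∀ x, liminf (fun N : ℕ => ENNReal.ofReal (κ x * ll ((N : ℝ) + 1) (f₀ x, g₀ x))) atTop
      = ENNReal.ofReal (κ x) * jj (f₀ x) (g₀ x) := by
    intro x
    refine Tendsto.liminf_eq ?_
    simp only [ENNReal.ofReal_mul (hκ0 x)]
    exact ENNReal.Tendsto.const_mul (tendsto_ll (h0 x) (h0' x)) (Or.inr ENNReal.ofReal_ne_top)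
  simp only [hpt] at fat
  refine fat.trans (liminf_le_of_frequently_le' (Eventually.of_forall fun N => ?_).frequently)
  exact step _ (by have := N.cast_nonneg (α := ℝ); linarith)

end DissLsc

end

end Vale.Agent.P140
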