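import Vale.Agent.P140.StmA

/-! Elementary inequalities on entropy and dissipation. -/

namespace Vale.Agent.P140

open MeasureTheory Set
open scoped ENNReal

namespace Ineq

theorem fen {f m : ℝ} (hf : 0 ≤ f) (hm : 0 < m) (ψ : ℝ) :
    ψ * f - (Real.exp ψ - 1) * m ≤ f * Real.log (f / m) - f + m := by
  have he := Real.exp_pos ψ
  rcases hf.eq_or_lt with h | h
  · rw [← h]; nlinarith
  have h1 := Real.log_le_sub_one_of_pos (show 0 < Real.exp ψ * m / f by positivity)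
  rw [mul_div_assoc, Real.log_mul he.ne' (by positivity), Real.log_exp, ← inv_div,
    Real.log_inv] at h1
  have h2 := mul_le_mul_of_nonneg_left h1 hf
  have h3 : f * (Real.exp ψ * (f / m)⁻¹ - 1) = Real.exp ψ * m - f := by field_simp
  rw [h3] at h2
  linarith

theorem ent_nonneg {f m : ℝ} (hf : 0 ≤ f) (hm : 0 < m) : 0 ≤ f * Real.log (f / m) - f + m := by
  simpa using fen hf hm 0

theorem p1 (A B K : ℝ) (_hA : 0 ≤ A) (hB : 0 ≤ B) (hK : 1 < K) :
    ENNReal.ofReal A ≤ ENNReal.ofReal (K * B) + jj A B / ENNReal.ofReal (Real.log K) := by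
  rcases le_or_gt A (K * B) with h | h
  · exact (ENNReal.ofReal_le_ofReal h).trans le_self_add
  have h1 : B ≤ K * B := le_mul_of_one_le_left hB hK.le
  have h2 : A ≠ B := (h1.trans_lt h).ne'
  have hl := Real.log_pos hK
  rw [jj, if_neg h2]
  rcases hB.eq_or_lt with h3 | h3
  · rw [if_pos (Or.inr h3.symm), ENNReal.top_div_of_ne_top ENNReal.ofReal_ne_top]
    simp
  have h4 : 0 < A := by linarith
  have h5 : Real.log K ≤ Real.log (A / B) :=
    Real.log_le_log (by linarith) ((le_div_iff₀ h3).2 h.le)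
  have h6 : A - B ≤ (A - B) * Real.log (A / B) / Real.log K := by
    rw [le_div_iff₀ hl]
    exact mul_le_mul_of_nonneg_left h5 (by linarith)
  rw [if_neg (not_or.2 ⟨h4.ne', h3.ne'⟩), ← ENNReal.ofReal_div_of_pos hl,
    ← ENNReal.ofReal_add (by linarith) (by linarith)]
  exact ENNReal.ofReal_le_ofReal (by linarith)

theorem p2 (A B c : ℝ) (hc : 0 < c) : jj (A / c) (B / c) = jj A B / ENNReal.ofReal c := by
  unfold jj
  simp only [div_left_inj' hc.ne', div_eq_zero_iff, hc.ne', or_false]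
  split_ifs
  · simp
  · rw [ENNReal.top_div_of_ne_top ENNReal.ofReal_ne_top]
  · rw [← ENNReal.ofReal_div_of_pos hc, div_div_div_cancel_right₀ hc.ne']
    congr 1; ring

theorem p3 (A B : ℝ) : jj A B = jj B A := by
  unfold jj
  have h : (A - B) * Real.log (A / B) = (B - A) * Real.log (B / A) := by
    rw [← inv_div A B, Real.log_inv]; ring
  simp only [h, eq_comm (a := A) (b := B), or_comm (a := A = 0)]

theorem p4 (A B r : ℝ) (hA : 0 ≤ A) (hB : 0 ≤ B) (hr : 0 < r) :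
    ENNReal.ofReal ((Real.log r + 1 - r⁻¹) * A + (-Real.log r + 1 - r) * B) ≤ jj A B := by
  unfold jj
  split_ifs with h1 h2
  · rw [← h1, nonpos_iff_eq_zero, ENNReal.ofReal_eq_zero]
    have h3 : 2 - r - r⁻¹ ≤ 0 := by
      have h4 : 2 - r - r⁻¹ = -((r - 1) ^ 2 / r) := by field_simp; ring
      rw [h4, neg_nonpos]; positivity
    nlinarith
  · exact le_top
  · push Not at h2
    have h3 := fen hA (hB.lt_of_ne' h2.2) (Real.log r)
    have h4 := fen hB (hA.lt_of_ne' h2.1) (-Real.log r)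
    rw [Real.exp_log hr] at h3
    rw [Real.exp_neg, Real.exp_log hr, ← inv_div A B, Real.log_inv] at h4
    exact ENNReal.ofReal_le_ofReal (by linarith)

theorem p5 {f m K : ℝ} (hf : 0 ≤ f) (hm : 0 < m) (hK : Real.exp 2 ≤ K) :
    (f - K * m) * (Real.log K - 1) ≤ f * Real.log (f / m) - f + m := by
  have hK0 : 0 < K := (Real.exp_pos 2).trans_le hK
  have h1 := fen hf hm (Real.log K)
  rw [Real.exp_log hK0] at h1
  have h2 : 2 ≤ Real.log K := (Real.le_log_iff_exp_le hK0).2 hK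
  have h3 : 0 ≤ K * m * (Real.log K - 2) := mul_nonneg (by positivity) (by linarith)
  linarith

/-- The normalising constant. -/
noncomputable def L : ℝ := 3 / 2 * Real.log (2 * Real.pi)

theorem L_ge : 1 / 2 ≤ L := by
  have h1 := Real.one_sub_inv_le_log_of_pos (show 0 < 2 * Real.pi by positivity)
  have h2 : (2 * Real.pi)⁻¹ ≤ 1 / 2 := by
    rw [one_div]
    exact inv_anti₀ (by norm_num) (by linarith [Real.pi_gt_three])
  unfold L; linarith

theorem Mx_eq (v : E) : Mx v = Real.exp (-(‖v‖ ^ 2 / 2 + L)) := by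
  unfold Mx L
  rw [Real.rpow_def_of_pos (by positivity), ← Real.exp_add]
  congr 1; ring

theorem ent_eq {f : ℝ} (hf : 0 ≤ f) (v : E) :
    f * Real.log (f / Mx v) = f * Real.log f + f * (‖v‖ ^ 2 / 2 + L) := by
  rcases hf.eq_or_lt with h | h
  · rw [← h]; simp
  · rw [Real.log_div h.ne' (Mx_pos v).ne', Mx_eq, Real.log_exp]; ring

theorem p6 (f : ℝ) (v : E) (hf : 0 ≤ f) : f * |Real.log f| ≤
    (f * Real.log (f / Mx v) - f + Mx v) + (1 + L) * (f * (1 + ‖v‖ ^ 2) + Mx v) := by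
  have h1 := ent_nonneg hf (Mx_pos v)
  have h2 := ent_eq hf v
  have h3 := L_ge
  have h4 := Mx_pos v
  have h5 : 0 ≤ f * ‖v‖ ^ 2 := by positivity
  have h6 : 0 ≤ L * f := mul_nonneg (by linarith) hf
  have h7 : 0 ≤ L * (f * ‖v‖ ^ 2) := mul_nonneg (by linarith) h5
  have h8 : 0 ≤ L * Mx v := mul_nonneg (by linarith) h4.le
  rcases abs_cases (Real.log f) with h | h <;> rw [h.1] <;> nlinarith

theorem gauss {b : ℝ} (hb : 0 < b) : Integrable (fun v : E => Real.exp (-b * ‖v‖ ^ 2)) := by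
  refine Integrable.of_integral_ne_zero ?_
  rw [GaussianFourier.integral_rexp_neg_mul_sq_norm hb]
  positivity

theorem Mx_fun : Mx = fun v : E =>
    (2 * Real.pi) ^ (-(3 / 2 : ℝ)) * Real.exp (-(1 / 2) * ‖v‖ ^ 2) := by
  funext v; unfold Mx; congr 2; ring

theorem int_Mx : Integrable Mx := by
  rw [Mx_fun]; exact (gauss (by norm_num)).const_mul _

theorem integral_Mx : ∫ v, Mx v = 1 := by
  rw [Mx_fun]
  simp only
  rw [integral_const_mul, GaussianFourier.integral_rexp_neg_mul_sq_norm (by norm_num)]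
  have h1 : Real.pi / (1 / 2) = 2 * Real.pi := by ring
  have h2 : ((Module.finrank ℝ E : ℝ) / 2 : ℝ) = 3 / 2 := by simp
  rw [h1, h2, ← Real.rpow_add (by positivity)]
  simp

theorem int_Mx2 : Integrable (fun v => Mx v * (1 + ‖v‖ ^ 2)) := by
  refine ((gauss (b := 1 / 4) (by norm_num)).const_mul 4).mono'
    (continuous_Mx.mul (by fun_prop)).aestronglyMeasurable (ae_of_all _ fun v => ?_)
  rw [Real.norm_of_nonneg (mul_nonneg (Mx_pos v).le (by positivity)), Mx_eq]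
  have h1 := Real.add_one_le_exp (‖v‖ ^ 2 / 4)
  have h2 : Real.exp (-(‖v‖ ^ 2 / 2 + L)) * Real.exp (‖v‖ ^ 2 / 4) ≤
      Real.exp (-(1 / 4) * ‖v‖ ^ 2) := by
    rw [← Real.exp_add]
    exact Real.exp_le_exp.2 (by linarith [L_ge])
  have h3 := mul_le_mul_of_nonneg_left (show 1 + ‖v‖ ^ 2 ≤ 4 * Real.exp (‖v‖ ^ 2 / 4) by linarith)
    (Real.exp_pos (-(‖v‖ ^ 2 / 2 + L))).le
  linarith

theorem Mx_le (v : E) : Mx v ≤ Real.exp (-‖v‖) := by
  rw [Mx_eq]
  exact Real.exp_le_exp.2 (by nlinarith [L_ge, sq_nonneg (‖v‖ - 1)])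

theorem relEnt_lt (F₀ : Om → ℝ) (h : IsDatum F₀) : relEnt F₀ < ⊤ := by
  obtain ⟨-, h0, hi⟩ := h
  have h1 : Integrable (fun p : Om => Mx p.2) := int_Mx.comp_snd (volume : Measure T3)
  refine lt_of_le_of_lt (lintegral_mono fun p => ENNReal.ofReal_le_ofReal ?_)
    ((hi.const_mul (1 + L)).add h1).lintegral_lt_top
  have hf := h0 p
  have h3 := L_ge
  have h4 : F₀ p * Real.log (F₀ p) ≤ F₀ p * |Real.log (F₀ p)| :=
    mul_le_mul_of_nonneg_left (le_abs_self _) hf
  have h5 : 0 ≤ F₀ p * ‖p.2‖ ^ 2 := by positivity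
  have h6 : 0 ≤ L * (F₀ p * ‖p.2‖ ^ 2) := mul_nonneg (by linarith) h5
  have h7 : 0 ≤ L * (F₀ p * |Real.log (F₀ p)|) := mul_nonneg (by linarith) (by positivity)
  rw [ent_eq hf, Pi.add_apply]
  nlinarith

end Ineq

open Ineq in
theorem ineq : IneqStmt :=
  ⟨p1, fun A B c _ _ hc => p2 A B c hc, p3, p4,
    fun _ _ hf hm => ⟨ent_nonneg hf hm, fun _ hK => p5 hf hm hK, fen hf hm⟩,
    ⟨1 + L, p6⟩, int_Mx, integral_Mx, int_Mx2, Mx_le, relEnt_lt⟩

end Vale.Agent.P140
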