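import Vale.Agent.P140.StmB

/-! Integrability of the limit. -/

namespace Vale.Agent.P140

open MeasureTheory Set Filter Topology
open scoped ENNReal

noncomputable section

namespace IntL

/-- The dissipation density. -/
def dd (f : Om → ℝ) (p : Om) : ℝ≥0∞ :=
  ∫⁻ q : E × S2, ENNReal.ofReal |cf p.2 q.1 q.2| *
    jj (f (p.1, vp p.2 q.1 q.2) * f (p.1, wp p.2 q.1 q.2)) (f (p.1, p.2) * f (p.1, q.1))
      ∂(volume.prod sph)

theorem dd_int (f : Om → ℝ) : ∫⁻ p, dd f p = 4 * diss f := by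
  rw [diss, ← mul_assoc, one_div, ENNReal.mul_inv_cancel (by norm_num) (by norm_num), one_mul]
  rfl

theorem bound (hI : IneqStmt) {Cm : ℝ} {H : ℝ≥0∞} (hH : H ≠ ⊤) : ∃ C : ℝ, ∀ f : Om → ℝ,
    Measurable f → (∀ p, 0 ≤ f p) → Integrable (fun p : Om => f p * (1 + ‖p.2‖) ^ 2) →
    ∫ p : Om, f p * (1 + ‖p.2‖) ^ 2 ≤ Cm → relEnt f ≤ H →
    Integrable (fun p : Om => f p * (1 + ‖p.2‖ ^ 2 + |Real.log (f p)|)) ∧
      ∫ p : Om, f p * (1 + ‖p.2‖ ^ 2 + |Real.log (f p)|) ≤ C := by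
  obtain ⟨-, -, -, -, h5, ⟨C0, h6⟩, h7, -⟩ := hI
  have hM : Integrable fun p : Om => Mx p.2 := h7.comp_snd volume
  refine ⟨H.toReal + ((1 + |C0|) * Cm + |C0| * ∫ p : Om, Mx p.2), fun f hf h0 h1 h2 h3 => ?_⟩
  have hMx : Measurable fun p : Om => Mx p.2 := continuous_Mx.measurable.comp measurable_snd
  have hn : ∀ p : Om, 0 ≤ f p * Real.log (f p / Mx p.2) - f p + Mx p.2 :=
    fun p => (h5 _ _ (h0 p) (Mx_pos _)).1
  have hm : Measurable fun p : Om => f p * Real.log (f p / Mx p.2) - f p + Mx p.2 :=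
    ((hf.mul (hf.div hMx).log).sub hf).add hMx
  have hi : Integrable fun p : Om => f p * Real.log (f p / Mx p.2) - f p + Mx p.2 :=
    ⟨hm.aestronglyMeasurable, (hasFiniteIntegral_iff_ofReal (Eventually.of_forall hn)).2
      (h3.trans_lt hH.lt_top)⟩
  have hv : ∫ p : Om, (f p * Real.log (f p / Mx p.2) - f p + Mx p.2) ≤ H.toReal := by
    rw [integral_eq_lintegral_of_nonneg_ae (Eventually.of_forall hn) hm.aestronglyMeasurable]
    exact ENNReal.toReal_mono hH h3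
  have hle : ∀ p : Om, f p * (1 + ‖p.2‖ ^ 2 + |Real.log (f p)|) ≤
      (f p * Real.log (f p / Mx p.2) - f p + Mx p.2) +
        ((1 + |C0|) * (f p * (1 + ‖p.2‖) ^ 2) + |C0| * Mx p.2) := by
    intro p
    have a1 := h6 (f p) p.2 (h0 p)
    have a2 : f p * (1 + ‖p.2‖ ^ 2) ≤ f p * (1 + ‖p.2‖) ^ 2 :=
      mul_le_mul_of_nonneg_left (by nlinarith [norm_nonneg p.2]) (h0 p)
    have a3 : 0 ≤ f p * (1 + ‖p.2‖ ^ 2) := mul_nonneg (h0 p) (by positivity)
    have a4 := (Mx_pos p.2).le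
    have a5 : C0 * (f p * (1 + ‖p.2‖ ^ 2) + Mx p.2) ≤ |C0| * (f p * (1 + ‖p.2‖) ^ 2 + Mx p.2) :=
      mul_le_mul (le_abs_self _) (by linarith) (by linarith) (abs_nonneg _)
    nlinarith
  have hb0 : Integrable fun p : Om => (1 + |C0|) * (f p * (1 + ‖p.2‖) ^ 2) + |C0| * Mx p.2 :=
    (h1.const_mul (1 + |C0|)).add (hM.const_mul |C0|)
  have hb := hi.add hb0
  have hI1 : Integrable fun p : Om => f p * (1 + ‖p.2‖ ^ 2 + |Real.log (f p)|) := by
    refine hb.mono' (Measurable.aestronglyMeasurable ?_) (Eventually.of_forall fun p => ?_)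
    · exact hf.mul ((measurable_const.add (measurable_snd.norm.pow_const 2)).add
        (continuous_abs.measurable.comp hf.log))
    · rw [Real.norm_of_nonneg (mul_nonneg (h0 p) (by positivity))]
      exact hle p
  refine ⟨hI1, (integral_mono hI1 hb hle).trans ?_⟩
  simp only [Pi.add_apply]
  rw [integral_add hi hb0, integral_add (h1.const_mul _) (hM.const_mul _), integral_const_mul, integral_const_mul]
  have := mul_le_mul_of_nonneg_left h2 (by positivity : 0 ≤ 1 + |C0|)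
  linarith

theorem freq_le {f : Om → ℝ} (hf : Measurable f) (h0 : ∀ p, 0 ≤ f p) (x : T3) (v : E) :
    freqK kF (sl f x) v ≤ ENNReal.ofReal (1 + ‖v‖) *
      ((∫⁻ w : E, ENNReal.ofReal (f (x, w) * (1 + ‖w‖) ^ 2)) * sph univ) := by
  have hm : Measurable fun w : E => ENNReal.ofReal (f (x, w) * (1 + ‖w‖) ^ 2) :=
    ((hf.comp measurable_prodMk_left).mul (by fun_prop)).ennreal_ofReal
  rw [← one_mul (sph univ), ← lintegral_const,
    ← lintegral_prod_mul hm.aemeasurable aemeasurable_const,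
    ← lintegral_const_mul' _ _ ENNReal.ofReal_ne_top]
  refine lintegral_mono fun q => ?_
  simp only [kF, sl, mul_one]
  rw [← ENNReal.ofReal_mul (abs_nonneg _), ← ENNReal.ofReal_mul (by positivity)]
  refine ENNReal.ofReal_le_ofReal ?_
  have a1 := (abs_cf_le v q.1 q.2).trans (norm_sub_le _ _)
  have a2 := norm_nonneg v
  have a3 := norm_nonneg q.1
  have a4 : |cf v q.1 q.2| ≤ (1 + ‖v‖) * (1 + ‖q.1‖) ^ 2 := by
    nlinarith [mul_nonneg a2 a3, mul_nonneg a2 (sq_nonneg ‖q.1‖), sq_nonneg ‖q.1‖]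
  calc _ ≤ (1 + ‖v‖) * (1 + ‖q.1‖) ^ 2 * f (x, q.1) := mul_le_mul_of_nonneg_right a4 (h0 _)
    _ = _ := by ring

theorem loss (hM : MeasStmt) (hI : IneqStmt) (Cm : ℝ) : ∃ K : ℝ≥0∞, K ≠ ⊤ ∧ ∀ f : Om → ℝ,
    Measurable f → (∀ p, 0 ≤ f p) → Integrable (fun p : Om => f p * (1 + ‖p.2‖) ^ 2) →
    ∫ p : Om, f p * (1 + ‖p.2‖) ^ 2 ≤ Cm →
    ∫⁻ p, Qm f p / ENNReal.ofReal (1 + f p / Mx p.2) ≤ K := by
  obtain ⟨-, -, -, -, -, -, hQ⟩ := hM
  obtain ⟨-, -, -, -, -, -, -, -, h9, -⟩ := hI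
  have hA : ∫⁻ v : E, ENNReal.ofReal (Mx v * (1 + ‖v‖)) ≠ ⊤ := by
    refine ((lintegral_mono fun v => ENNReal.ofReal_le_ofReal ?_).trans_lt
      (h9.const_mul 2).lintegral_lt_top).ne
    have := (Mx_pos v).le
    nlinarith [mul_nonneg this (sq_nonneg (‖v‖ - 1)), mul_nonneg this (sq_nonneg ‖v‖)]
  refine ⟨(ENNReal.ofReal Cm * sph univ) * ∫⁻ v : E, ENNReal.ofReal (Mx v * (1 + ‖v‖)),
    ENNReal.mul_ne_top (ENNReal.mul_ne_top ENNReal.ofReal_ne_top (measure_ne_top _ _)) hA,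
    fun f hf h0 h1 h2 => ?_⟩
  have hm : Measurable fun p : Om => ENNReal.ofReal (f p * (1 + ‖p.2‖) ^ 2) :=
    (hf.mul (by fun_prop)).ennreal_ofReal
  have hm1 : Measurable fun x : T3 =>
      (∫⁻ w : E, ENNReal.ofReal (f (x, w) * (1 + ‖w‖) ^ 2)) * sph univ :=
    hm.lintegral_prod_right'.mul_const _
  have hm2 : Measurable fun v : E => ENNReal.ofReal (Mx v * (1 + ‖v‖)) :=
    (continuous_Mx.measurable.mul (by fun_prop)).ennreal_ofReal
  calc _ ≤ ∫⁻ p : Om, ((∫⁻ w : E, ENNReal.ofReal (f (p.1, w) * (1 + ‖w‖) ^ 2)) * sph univ) *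
        ENNReal.ofReal (Mx p.2 * (1 + ‖p.2‖)) := by
        refine lintegral_mono fun p => ?_
        have hp := Mx_pos p.2
        have hq : 0 < 1 + f p / Mx p.2 := by have := h0 p; positivity
        rw [(hQ f p hf h0).2, ENNReal.mul_div_right_comm, ← ENNReal.ofReal_div_of_pos hq,
          ENNReal.ofReal_mul hp.le, mul_comm _ (ENNReal.ofReal (Mx p.2) * _), mul_assoc]
        refine mul_le_mul' (ENNReal.ofReal_le_ofReal ?_) (freq_le hf h0 _ _)
        rw [div_le_iff₀ hq, mul_add, mul_div_cancel₀ _ hp.ne']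
        linarith
    _ = (∫⁻ x : T3, (∫⁻ w : E, ENNReal.ofReal (f (x, w) * (1 + ‖w‖) ^ 2)) * sph univ) *
        ∫⁻ v : E, ENNReal.ofReal (Mx v * (1 + ‖v‖)) :=
        lintegral_prod_mul hm1.aemeasurable hm2.aemeasurable
    _ ≤ _ := by
        rw [lintegral_mul_const _ hm.lintegral_prod_right', ← lintegral_prod _ hm.aemeasurable]
        refine mul_le_mul' (mul_le_mul' ?_ le_rfl) le_rfl
        rw [← Measure.volume_eq_prod, ← ofReal_integral_eq_lintegral_ofReal h1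
          (Eventually.of_forall fun p => mul_nonneg (h0 p) (by positivity))]
        exact ENNReal.ofReal_le_ofReal h2

theorem gain_le (hI : IneqStmt) {f : Om → ℝ} (hf : Measurable f) (h0 : ∀ p, 0 ≤ f p) (p : Om) :
    Qp f p ≤ 2 * Qm f p + (ENNReal.ofReal (Real.log 2))⁻¹ * dd f p := by
  have hl : (ENNReal.ofReal (Real.log 2))⁻¹ ≠ ⊤ :=
    ENNReal.inv_ne_top.2 (ENNReal.ofReal_pos.2 (Real.log_pos one_lt_two)).ne'
  have hc : Measurable fun q : E × S2 => cf p.2 q.1 q.2 :=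
    (continuous_cf.comp (continuous_const.prodMk continuous_id)).measurable
  have hm : Measurable fun q : E × S2 =>
      2 * ENNReal.ofReal (|cf p.2 q.1 q.2| * (f (p.1, p.2) * f (p.1, q.1))) :=
    ((continuous_abs.measurable.comp hc).mul (measurable_const.mul
      (hf.comp (measurable_const.prodMk measurable_fst)))).ennreal_ofReal.const_mul 2
  rw [Qp, Qm, dd, ← lintegral_const_mul' _ _ hl, ← lintegral_const_mul' _ _ ENNReal.ofNat_ne_top,
    ← lintegral_add_left hm]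
  refine lintegral_mono fun q => ?_
  have h := hI.1 _ _ 2 (mul_nonneg (h0 (p.1, vp p.2 q.1 q.2)) (h0 (p.1, wp p.2 q.1 q.2)))
    (mul_nonneg (h0 (p.1, p.2)) (h0 (p.1, q.1))) one_lt_two
  rw [ENNReal.ofReal_mul zero_le_two, ENNReal.ofReal_ofNat, ENNReal.div_eq_inv_mul] at h
  simp only
  rw [ENNReal.ofReal_mul (abs_nonneg _), ENNReal.ofReal_mul (abs_nonneg _), mul_left_comm 2,
    mul_left_comm (ENNReal.ofReal (Real.log 2))⁻¹, ← mul_add]
  exact mul_le_mul' le_rfl h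

theorem gain (hM : MeasStmt) (hI : IneqStmt) {f : Om → ℝ} (hf : Measurable f)
    (h0 : ∀ p, 0 ≤ f p) : ∫⁻ p, Qp f p / ENNReal.ofReal (1 + f p / Mx p.2) ≤
      2 * (∫⁻ p, Qm f p / ENNReal.ofReal (1 + f p / Mx p.2)) +
        (ENNReal.ofReal (Real.log 2))⁻¹ * 4 * diss f := by
  have hl : (ENNReal.ofReal (Real.log 2))⁻¹ ≠ ⊤ :=
    ENNReal.inv_ne_top.2 (ENNReal.ofReal_pos.2 (Real.log_pos one_lt_two)).ne'
  have hQ0 : Measurable fun y : ℝ × Om => Qm f y.2 :=
    (hM.2.2.2.2.1 (fun _ => f) (hf.comp measurable_snd) 0 0).2.2.2.2.2.2.1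
  have hQ : Measurable fun p : Om => Qm f p :=
    Measurable.comp (g := fun y : ℝ × Om => Qm f y.2) (f := Prod.mk (0 : ℝ)) hQ0
      measurable_prodMk_left
  have hMx : Measurable fun p : Om => Mx p.2 := continuous_Mx.measurable.comp measurable_snd
  have hm : Measurable fun p : Om => 2 * (Qm f p / ENNReal.ofReal (1 + f p / Mx p.2)) :=
    (hQ.div (measurable_const.add (hf.div hMx)).ennreal_ofReal).const_mul 2
  rw [mul_assoc, ← dd_int, ← lintegral_const_mul' _ _ hl,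
    ← lintegral_const_mul' _ _ ENNReal.ofNat_ne_top, ← lintegral_add_left hm]
  refine lintegral_mono fun p => ?_
  have h1 : 1 ≤ ENNReal.ofReal (1 + f p / Mx p.2) :=
    ENNReal.one_le_ofReal.2 (le_add_of_nonneg_right (div_nonneg (h0 p) (Mx_pos _).le))
  refine (ENNReal.div_le_div_right (gain_le hI hf h0 p) _).trans ?_
  rw [ENNReal.add_div, mul_div_assoc]
  refine add_le_add le_rfl ?_
  rw [div_eq_mul_inv]
  exact mul_le_of_le_one_right' (ENNReal.inv_le_one.2 h1)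

end IntL

theorem intL (hM : MeasStmt) (hI : IneqStmt) (h : EntStmt) : IntStmt := by
  intro R δ Fn F₀ F hL
  obtain ⟨Cm, hC⟩ := hL.mom
  have hH : relEnt F₀ ≠ ⊤ := (hI.2.2.2.2.2.2.2.2.2.2 F₀ hL.apr.datum).ne
  have hm : ∀ t, Measurable (F t) := fun t => hL.meas.comp measurable_prodMk_left
  obtain ⟨K, hK, hQ⟩ := IntL.loss hM hI Cm
  have hl : (ENNReal.ofReal (Real.log 2))⁻¹ * 4 ≠ ⊤ := ENNReal.mul_ne_top
    (ENNReal.inv_ne_top.2 (ENNReal.ofReal_pos.2 (Real.log_pos one_lt_two)).ne') ENNReal.ofNat_ne_top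
  refine ⟨fun T => ?_, fun T => ?_, fun T => ?_⟩
  · obtain ⟨C, hb⟩ := IntL.bound hI (Cm := Cm) hH
    exact ⟨C, fun t ht => hb _ (hm t) (hL.nonneg t) (hC t ht.1).1 (hC t ht.1).2
      (le_self_add.trans (h R δ Fn F₀ F hL t ht.1))⟩
  · rcases lt_or_ge T 0 with hT | hT
    · rw [Icc_eq_empty (not_le.2 hT), Measure.restrict_empty, lintegral_zero_measure]
      exact ENNReal.zero_lt_top
    calc _ ≤ ∫⁻ t in Icc (0 : ℝ) T, (2 * K + (ENNReal.ofReal (Real.log 2))⁻¹ * 4 * diss (F t)) :=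
          setLIntegral_mono' measurableSet_Icc fun t ht =>
            (IntL.gain hM hI (hm t) (hL.nonneg t)).trans (add_le_add (mul_le_mul' le_rfl
              (hQ _ (hm t) (hL.nonneg t) (hC t ht.1).1 (hC t ht.1).2)) le_rfl)
      _ < ⊤ := by
          rw [lintegral_add_left measurable_const, lintegral_const_mul' _ _ hl, setLIntegral_const]
          exact ENNReal.add_lt_top.2 ⟨ENNReal.mul_lt_top
            (ENNReal.mul_ne_top ENNReal.ofNat_ne_top hK).lt_top measure_Icc_lt_top,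
            ENNReal.mul_lt_top hl.lt_top
              ((le_add_self.trans (h R δ Fn F₀ F hL T hT)).trans_lt hH.lt_top)⟩
  · calc _ ≤ ∫⁻ _ in Icc (0 : ℝ) T, K :=
          setLIntegral_mono' measurableSet_Icc fun t ht =>
            hQ _ (hm t) (hL.nonneg t) (hC t ht.1).1 (hC t ht.1).2
      _ < ⊤ := by
          rw [setLIntegral_const]
          exact ENNReal.mul_lt_top hK.lt_top measure_Icc_lt_top

end

end Vale.Agent.P140
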