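import Vale.Agent.P140.StmC

/-!
The Harnack type inequality for the main linear operator.
-/

namespace Vale.Agent.P140

open MeasureTheory Set Filter Topology
open scoped ENNReal

noncomputable section

namespace LYAux

lemma gb_le (hc : BaseC) {g : Geo} (hg : g.Ok) {C : ℝ} (hO : OSP g C) {f : ST}
    {B t : ℝ} (hB : 0 ≤ B) (ht : t ∈ Icc (0 : ℝ) g.R)
    (hf : ∀ s ∈ Icc (0 : ℝ) t, ∀ p, f s p ≤ ENNReal.ofReal B * wt g 0 1 s p) (p : Om) :
    GB g f t p ≤ ENNReal.ofReal (2 * C * g.c / g.κ * B) * wt g 0 1 t p := by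
  have h1 := hO.cold 0 1 le_rfl le_rfl (by norm_num) t ht p
  have hκ := hg.κ0
  unfold GB
  calc duh 0 (fun s p => 2 * G2 kF (BB g) f s p) t p
      ≤ duh 0 (fun s p => (2 * ENNReal.ofReal B) * G2 kF (CC g) (wt g 0 1) s p) t p := by
        refine hc.alg.duh_mono _ _ _ _ _ fun s hs q => ?_
        rw [mul_assoc]
        refine mul_le_mul_right ?_ _
        have := hc.alg.gain_mul kF (fun u => CC g s (q.1, u)) (fun u => wt g 0 1 s (q.1, u)) q.2
          1 (ENNReal.ofReal B) ENNReal.one_ne_top ENNReal.ofReal_ne_top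
        rw [one_mul] at this
        unfold G2
        rw [← this]
        refine hc.alg.gain_mono _ _ _ _ _ _ _ (fun _ _ _ => le_rfl) (fun u => ?_)
          (fun u => hf s ⟨hs.1.le, hs.2⟩ (q.1, u))
        rw [one_mul]; exact le_self_add
    _ = (2 * ENNReal.ofReal B) * duh 0 (G2 kF (CC g) (wt g 0 1)) t p :=
        hc.alg.duh_mul _ _ _ _ _ (ENNReal.mul_ne_top (by norm_num) ENNReal.ofReal_ne_top)
    _ ≤ (2 * ENNReal.ofReal B) * (ENNReal.ofReal (C * g.c / (g.κ * (1 : ℕ))) * wt g 0 1 t p) :=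
        mul_le_mul_right h1 _
    _ = _ := by
        rw [← mul_assoc, ← ENNReal.ofReal_ofNat, ← ENNReal.ofReal_mul (by norm_num),
          ← ENNReal.ofReal_mul (by positivity)]
        congr 2
        push_cast
        field_simp

lemma gk_le (hb : Base) (hc : BaseC) {g : Geo} {η A t : ℝ} {h : ST}
    (hh : ∀ s ∈ Icc (0 : ℝ) t, ∀ p : Om, p.2 ∈ VV η g.κ →
      h s p ≤ ENNReal.ofReal A * wt g 0 1 s p + GK g η h s p) (p : Om) :
    GK g η h t p ≤ GB g (fun s p => ENNReal.ofReal A * wt g 0 1 s p) t p +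
      GK g η (GK g η h) t p := by
  have hjw : JM (fun s p => ENNReal.ofReal A * wt g 0 1 s p) :=
    Measurable.const_mul ((hc.me.jm g).2.2.2.2.1 0 1) _
  have hjG := hc.alg.jm_G2 kF _ _ hb.meas.1 (hc.me.jm g).1 hjw
  have hm : Measurable (fun s => 2 * G2 kF (BB g) (fun s p => ENNReal.ofReal A * wt g 0 1 s p) s
      (fl (s - t) p)) := (hc.alg.jm_flight _ hjG t p).1.const_mul _
  have hcut : MeasurableSet (cutS g η t p) := (hc.me.kk g η).2.2 t p
  calc GK g η h t p ≤ ∫⁻ s in Ioc 0 t ∩ cutS g η t p,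
        (2 * G2 kF (BB g) (fun s p => ENNReal.ofReal A * wt g 0 1 s p) s (fl (s - t) p) +
          2 * G2 kF (BB g) (restr (good η g.κ p.2) (GK g η h)) s (fl (s - t) p)) := by
        unfold GK
        refine setLIntegral_mono' (measurableSet_Ioc.inter hcut) fun s hs => ?_
        rw [← mul_add]
        refine mul_le_mul_right ?_ _
        unfold G2
        rw [← hc.alg.gain_add_right _ _ _ _ _ hb.meas.1 (hc.alg.jm_slice _ (hc.me.jm g).1 _ _)
          (hc.alg.jm_slice _ hjw _ _)]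
        refine hc.alg.gain_mono _ _ _ _ _ _ _ (fun _ _ _ => le_rfl) (fun _ => le_rfl)
          (fun u => ?_)
        by_cases hu : u ∈ good η g.κ p.2
        · unfold restr
          simp only [indicator_of_mem hu]
          exact hh s ⟨hs.1.1.le, hs.1.2⟩ _ hu.1
        · unfold restr
          simp only [indicator_of_notMem hu]
          exact zero_le
    _ ≤ _ := by
        rw [lintegral_add_left hm]
        refine add_le_add_left ?_ _
        exact lintegral_mono_set inter_subset_left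

lemma main (hb : Base) (hc : BaseC) {g : Geo} (hg : g.Ok) {C₁ C₂ ε η : ℝ} (hC₁ : 0 ≤ C₁)
    (hC₂ : 0 ≤ C₂) (hε : 0 ≤ ε) (hO : OSP g C₁)
    (hεε : ε * (1 + 2 * C₁ * g.c / g.κ * (1 + 2 * C₁ * g.c / g.κ)) ≤ 1 / 4)
    (ha : ∀ (h : ST) (N : ℝ), JM h → 0 ≤ N → ∀ T ∈ Icc (0 : ℝ) g.R,
      (∀ t ∈ Icc (0 : ℝ) T, ∀ p, h t p ≤ ENNReal.ofReal N * wt g 0 1 t p) →
      ∀ t ∈ Icc (0 : ℝ) T, ∀ p : Om,
        GB g h t p ≤ ENNReal.ofReal (ε * N) * wt g 0 1 t p + GB g (restr (VV η g.κ) h) t p ∧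
        (p.2 ∈ VV η g.κ → GB g h t p ≤ ENNReal.ofReal (ε * N) * wt g 0 1 t p + GK g η h t p))
    (hb' : ∀ (h : ST) (Φ : ℝ), JM h → 0 ≤ Φ → ∀ T ∈ Icc (0 : ℝ) g.R,
      (∀ s ∈ Icc (0 : ℝ) T, ∫⁻ p in KK g η s, h s p ≤ ENNReal.ofReal (Φ * g.te s ^ 18)) →
      ∀ t ∈ Icc (0 : ℝ) T, ∀ p : Om, ‖p.2‖ ≤ 1 / η →
        GK g η (GK g η h) t p ≤ ENNReal.ofReal (C₂ * Φ) * wt g 0 1 t p) :
    LYP g η (1 + 2 * C₁ * g.c / g.κ * (1 + 2 * C₁ * g.c / g.κ) + 2 * C₁ * g.c / g.κ * C₂) := by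
  intro h N A Φ hm hN hA hΦ T hT h1 h2 h3 t ht p
  set L := 2 * C₁ * g.c / g.κ with hL
  have hL0 : 0 ≤ L := by have := hg.c1; have := hg.κ0; positivity
  have hA' : 0 ≤ A + ε * N := by positivity
  have s1 : ∀ s ∈ Icc (0 : ℝ) T, ∀ p : Om, p.2 ∈ VV η g.κ →
      h s p ≤ ENNReal.ofReal (A + ε * N) * wt g 0 1 s p + GK g η h s p := by
    intro s hs q hq
    refine (h2 s hs q).trans ?_
    rw [ENNReal.ofReal_add hA (by positivity), add_mul, add_assoc]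
    exact add_le_add_right ((ha h N hm hN T hT h1 s hs q).2 hq) _
  have s2 : ∀ s ∈ Icc (0 : ℝ) T, ∀ p : Om, restr (VV η g.κ) h s p ≤
      ENNReal.ofReal ((A + ε * N) + (L * (A + ε * N) + C₂ * Φ)) * wt g 0 1 s p := by
    intro s hs q
    by_cases hq : q.2 ∈ VV η g.κ
    swap
    · unfold restr; rw [indicator_of_notMem hq]; exact zero_le
    have e1 : restr (VV η g.κ) h s q = h s q := by
      unfold restr; rw [indicator_of_mem hq]
    have hsR : s ∈ Icc (0 : ℝ) g.R := ⟨hs.1, hs.2.trans hT.2⟩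
    rw [e1, ENNReal.ofReal_add hA' (by positivity), add_mul,
      ENNReal.ofReal_add (mul_nonneg hL0 hA') (mul_nonneg hC₂ hΦ), add_mul]
    refine (s1 s hs q hq).trans (add_le_add_right ?_ _)
    refine (gk_le hb hc (A := A + ε * N) (fun r hr => s1 r ⟨hr.1, hr.2.trans hs.2⟩) q).trans ?_
    exact add_le_add (gb_le hc hg hO hA' hsR (fun _ _ _ => le_rfl) q)
      (hb' h Φ hm hΦ T hT h3 s hs q hq.1)
  have htR : t ∈ Icc (0 : ℝ) g.R := ⟨ht.1, ht.2.trans hT.2⟩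
  have hB : 0 ≤ (A + ε * N) + (L * (A + ε * N) + C₂ * Φ) := by positivity
  have s3 := gb_le hc hg hO hB htR (fun r hr => s2 r ⟨hr.1, hr.2.trans ht.2⟩) p
  refine (add_le_add_right ((ha h N hm hN T hT h1 t ht p).1.trans (add_le_add_right s3 _)) _).trans
    ?_
  rw [← add_mul, ← add_mul, ← ENNReal.ofReal_add (by positivity) (by positivity),
    ← ENNReal.ofReal_add hA (by positivity)]
  refine mul_le_mul_left (ENNReal.ofReal_le_ofReal ?_) _
  have e1 : ε * (1 + L * (1 + L)) * N ≤ 1 / 4 * N := mul_le_mul_of_nonneg_right hεε hN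
  have e2 : 0 ≤ L * C₂ * A := by positivity
  have e3 : 0 ≤ (1 + L * (1 + L)) * Φ := by positivity
  nlinarith

end LYAux

open LYAux in
theorem lyC (hb : Base) (hc : BaseC) (hO : OSStmt) (ha : LYaStmt) (hb' : LYbStmt) : LYStmt := by
  intro c κ hc1 hκ0 hκ1
  obtain ⟨C₁, hC₁, hO⟩ := hO
  have hL : 0 ≤ 2 * C₁ * c / κ := by positivity
  have hM : 0 < 1 + 2 * C₁ * c / κ * (1 + 2 * C₁ * c / κ) := by positivity
  have hε : 0 < 1 / (4 * (1 + 2 * C₁ * c / κ * (1 + 2 * C₁ * c / κ))) := by positivity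
  filter_upwards [ha c κ _ hc1 hκ0 hκ1 hε, Ioc_mem_nhdsGT (zero_lt_one' ℝ)] with η hη hη1
  obtain ⟨C₂, hC₂, hb'⟩ := hb' c κ η hc1 hκ0 hκ1 hη1.1 hη1.2
  refine ⟨1 + 2 * C₁ * c / κ * (1 + 2 * C₁ * c / κ) + 2 * C₁ * c / κ * C₂, ?_, ?_⟩
  · have : 0 ≤ 2 * C₁ * c / κ * (1 + 2 * C₁ * c / κ) := by positivity
    have : 0 ≤ 2 * C₁ * c / κ * C₂ := by positivity
    linarith
  unfold EvR at hη hb' ⊢
  filter_upwards [hη, hb', Ioc_mem_nhdsGT (pow_pos hκ0 2)] with R h1 h2 hR K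
  have hg : (⟨c, κ, R, K⟩ : Geo).Ok := ⟨hc1, hκ0, hκ1, hR.1, hR.2⟩
  refine main hb hc hg (by linarith) hC₂ hε.le (hO _ hg) (le_of_eq ?_) (h1 K) (h2 K)
  show 1 / (4 * (1 + 2 * C₁ * c / κ * (1 + 2 * C₁ * c / κ))) *
    (1 + 2 * C₁ * c / κ * (1 + 2 * C₁ * c / κ)) = 1 / 4
  generalize 1 + 2 * C₁ * c / κ * (1 + 2 * C₁ * c / κ) = M at hM ⊢
  field_simp

end

end Vale.Agent.P140
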