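import Vale.Agent.P140.Graph

/-! The marginal of the hard-sphere collision kernel in one velocity coordinate. -/

namespace Vale.Agent.P140

open MeasureTheory Set Filter Topology
open scoped ENNReal

noncomputable section

namespace Marg

/-- The doubling map. -/
def dbl (n x : E) : E := (2 * inner ℝ n x) • x - (‖x‖ ^ 2) • n

/-- Its derivative. -/
def dbl' (n x : E) : E →L[ℝ] E :=
  ((2 * inner ℝ n x) • ContinuousLinearMap.id ℝ E +
    ((2 : ℝ) • innerSL ℝ n).smulRight x) - ((2 : ℝ) • innerSL ℝ x).smulRight n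

theorem hasFDeriv (n x : E) : HasFDerivAt (dbl n) (dbl' n x) x := by
  have h1 : HasFDerivAt (fun y : E => 2 * inner ℝ n y) ((2 : ℝ) • innerSL ℝ n) x := by
    have := ((innerSL ℝ n).hasFDerivAt (x := x)).const_mul 2
    simpa using this
  have h2 : HasFDerivAt (fun y : E => ‖y‖ ^ 2) ((2 : ℝ) • innerSL ℝ x) x := by
    have := (hasStrictFDerivAt_norm_sq x).hasFDerivAt
    rwa [← Nat.cast_smul_eq_nsmul ℝ, Nat.cast_ofNat] at this
  exact (h1.smul (hasFDerivAt_id x)).sub (h2.smul_const n)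

theorem inner3 (x y : E) : inner ℝ x y = x 0 * y 0 + x 1 * y 1 + x 2 * y 2 := by
  rw [PiLp.inner_apply, Fin.sum_univ_three]
  simp [mul_comm]

theorem nsq3 (x : E) : ‖x‖ ^ 2 = x 0 ^ 2 + x 1 ^ 2 + x 2 ^ 2 := by
  rw [EuclideanSpace.real_norm_sq_eq, Fin.sum_univ_three]

theorem det_dbl (n x : E) (hn : ‖n‖ = 1) : (dbl' n x).det = 8 * inner ℝ n x * ‖x‖ ^ 2 := by
  have h := nsq3 n
  rw [hn] at h
  rw [ContinuousLinearMap.det, ← LinearMap.det_toMatrix (EuclideanSpace.basisFun (Fin 3) ℝ).toBasis,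
    Matrix.det_fin_three]
  simp only [LinearMap.toMatrix_apply, dbl']
  simp [inner3]
  rw [nsq3]
  linear_combination (-8 * (n 0 * x 0 + n 1 * x 1 + n 2 * x 2) * (x 0 ^ 2 + x 1 ^ 2 + x 2 ^ 2)) * h

theorem norm_dbl (n x : E) (hn : ‖n‖ = 1) : ‖dbl n x‖ = ‖x‖ ^ 2 := by
  have h : ‖dbl n x‖ ^ 2 = (‖x‖ ^ 2) ^ 2 := by
    unfold dbl
    rw [norm_sub_sq_real, norm_smul, norm_smul, real_inner_smul_left, real_inner_smul_right, hn,
      real_inner_comm, mul_pow, mul_pow, Real.norm_eq_abs, Real.norm_eq_abs, sq_abs, sq_abs]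
    ring
  exact (pow_left_inj₀ (norm_nonneg _) (by positivity) two_ne_zero).1 h

theorem inj (n : E) (hn : ‖n‖ = 1) (S : Set E)
    (hS : ∀ x ∈ S, ∀ y ∈ S, 0 < inner ℝ n x * inner ℝ n y) : InjOn (dbl n) S := by
  intro x hx y hy h
  have h1 : ‖x‖ ^ 2 = ‖y‖ ^ 2 := by rw [← norm_dbl n x hn, h, norm_dbl n y hn]
  have h2 : (2 * inner ℝ n x) • x = (2 * inner ℝ n y) • y := by
    unfold dbl at h
    rw [h1] at h
    exact sub_left_injective h
  have h3 := congrArg (fun z => inner ℝ n z) h2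
  simp only [real_inner_smul_right] at h3
  have hp := hS x hx y hy
  have h4 : inner ℝ n x = inner ℝ n y := by
    have h5 : (inner ℝ n x - inner ℝ n y) * (inner ℝ n x + inner ℝ n y) = 0 := by linarith
    rcases mul_eq_zero.1 h5 with h6 | h6
    · linarith
    · have : inner ℝ n y = -inner ℝ n x := by linarith
      rw [this] at hp
      nlinarith [sq_nonneg (inner ℝ n x)]
  have h7 : (2 * inner ℝ n x) ≠ 0 := by
    intro h8
    have : inner ℝ n x = 0 := by linarith
    rw [this, zero_mul] at hp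
    exact lt_irrefl _ hp
  rw [← h4] at h2
  exact smul_right_injective E h7 h2

theorem half (n : E) (hn : ‖n‖ = 1) (S : Set E) (hm : MeasurableSet S)
    (hS : ∀ x ∈ S, ∀ y ∈ S, 0 < inner ℝ n x * inner ℝ n y) (G : E → ℝ≥0∞) :
    ∫⁻ x in S, ENNReal.ofReal |8 * inner ℝ n x * ‖x‖ ^ 2| * G (dbl n x) ≤ ∫⁻ y, G y := by
  have h := lintegral_image_eq_lintegral_abs_det_fderiv_mul volume hm
    (fun x _ => (hasFDeriv n x).hasFDerivWithinAt) (inj n hn S hS) G
  simp only [det_dbl n _ hn] at h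
  rw [← h]
  exact setLIntegral_le_lintegral _ _

theorem whole (n : E) (hn : ‖n‖ = 1) (G : E → ℝ≥0∞) :
    ∫⁻ x, ENNReal.ofReal |8 * inner ℝ n x * ‖x‖ ^ 2| * G (dbl n x) ≤ 2 * ∫⁻ y, G y := by
  have hc : Measurable fun x : E => inner ℝ n x := by fun_prop
  have m1 : MeasurableSet {x : E | 0 < inner ℝ n x} := measurableSet_lt measurable_const hc
  have m2 : MeasurableSet {x : E | inner ℝ n x < 0} := measurableSet_lt hc measurable_const
  have h1 := half n hn _ m1 (fun x hx y hy => mul_pos hx hy) G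
  have h2 := half n hn _ m2 (fun x hx y hy => mul_pos_of_neg_of_neg hx hy) G
  rw [← lintegral_add_compl _ m1, two_mul]
  refine add_le_add h1 (le_trans ?_ h2)
  rw [← lintegral_indicator m1.compl, ← lintegral_indicator m2]
  refine lintegral_mono fun x => ?_
  by_cases hx : inner ℝ n x < 0
  · rw [indicator_of_mem (s := {x : E | inner ℝ n x < 0}) hx]
    exact indicator_le_self _ _ _
  · by_cases hx' : 0 < inner ℝ n x
    · rw [indicator_of_notMem (s := {x : E | 0 < inner ℝ n x}ᶜ) (fun h => h hx')]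
      exact zero_le
    · have : inner ℝ n x = 0 := le_antisymm (not_lt.1 hx') (not_lt.1 hx)
      refine (indicator_le_self _ _ _).trans ?_
      simp [this]

theorem pow_int (k : ℕ) (c : ℝ) (hc : 0 ≤ c) :
    ∫⁻ r in Ioi (0 : ℝ), (Iio (1 : ℝ)).indicator (fun r => ENNReal.ofReal (c * r ^ k)) r =
      ENNReal.ofReal (c / (k + 1)) := by
  rw [lintegral_indicator measurableSet_Iio, Measure.restrict_restrict measurableSet_Iio,
    Iio_inter_Ioi, setLIntegral_congr Ioo_ae_eq_Ioc, ← ofReal_integral_eq_lintegral_ofReal,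
    ← intervalIntegral.integral_of_le zero_le_one, intervalIntegral.integral_const_mul,
    integral_pow]
  · congr 1
    simp [div_eq_mul_inv]
  · exact (by fun_prop : Continuous fun r : ℝ => c * r ^ k).integrableOn_Ioc
  · filter_upwards [ae_restrict_mem measurableSet_Ioc] with r hr
    have := hr.1
    positivity

/-- The doubling map of the sphere pushes |n · ω| dω to at most half of the surface measure. -/
theorem sigma (n : E) (hn : ‖n‖ = 1) (g : E → ℝ≥0∞) (hg : Measurable g) :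
    ∫⁻ ω : S2, ENNReal.ofReal |inner ℝ n (ω : E)| * g ((2 * inner ℝ n (ω : E)) • (ω : E) - n) ∂sph
      ≤ 2⁻¹ * ∫⁻ ω : S2, g ω ∂sph := by
  obtain ⟨G, hG⟩ : ∃ G : E → ℝ≥0∞,
    G = fun y => (Iio (1 : ℝ)).indicator 1 ‖y‖ * g (‖y‖⁻¹ • y) := ⟨_, rfl⟩
  have hGm : Measurable G := by
    rw [hG]
    exact ((measurable_one.indicator measurableSet_Iio).comp measurable_norm).mul
      (hg.comp (by fun_prop))
  have hd : Measurable (dbl n) := by unfold dbl; fun_prop
  have h := whole n hn G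
  have hm2 : Measurable fun x : E =>
      ENNReal.ofReal |8 * inner ℝ n x * ‖x‖ ^ 2| * G (dbl n x) :=
    (by fun_prop : Measurable fun x : E =>
      ENNReal.ofReal |8 * inner ℝ n x * ‖x‖ ^ 2|).mul (hGm.comp hd)
  rw [← Graph.polar G hGm, ← Graph.polar _ hm2] at h
  have hn' : ∀ (ω : S2) (a : ℝ), 0 < a → ‖a • (ω : E)‖ = a := fun ω a ha => by
    rw [norm_smul, norm_S2, mul_one, Real.norm_of_nonneg ha.le]
  have e1 : ∀ ω : S2, ∫⁻ a in Ioi (0 : ℝ), ENNReal.ofReal (a ^ 2) * G (a • (ω : E)) =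
      ENNReal.ofReal (1 / 3) * g ω := by
    intro ω
    rw [show (1 / 3 : ℝ) = 1 / ((2 : ℕ) + 1) by norm_num, ← pow_int 2 1 zero_le_one,
      ← lintegral_mul_const _ ((by fun_prop : Measurable fun r : ℝ =>
        ENNReal.ofReal (1 * r ^ 2)).indicator measurableSet_Iio)]
    refine setLIntegral_congr_fun measurableSet_Ioi fun a ha => ?_
    have ha' : 0 < a := ha
    simp only [hG, hn' ω a ha', smul_smul, inv_mul_cancel₀ ha'.ne', one_smul]
    by_cases h1 : a ∈ Iio (1 : ℝ)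
    · simp [indicator_of_mem h1]
    · simp [indicator_of_notMem h1]
  have e2 : ∀ ω : S2, ∫⁻ a in Ioi (0 : ℝ), ENNReal.ofReal (a ^ 2) *
      (ENNReal.ofReal |8 * inner ℝ n (a • (ω : E)) * ‖a • (ω : E)‖ ^ 2| * G (dbl n (a • (ω : E)))) =
      ENNReal.ofReal (4 / 3) * (ENNReal.ofReal |inner ℝ n (ω : E)| *
        g ((2 * inner ℝ n (ω : E)) • (ω : E) - n)) := by
    intro ω
    rw [show (4 / 3 : ℝ) = 8 / ((5 : ℕ) + 1) by norm_num, ← pow_int 5 8 (by norm_num),
      ← lintegral_mul_const _ ((by fun_prop : Measurable fun r : ℝ =>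
        ENNReal.ofReal (8 * r ^ 5)).indicator measurableSet_Iio)]
    refine setLIntegral_congr_fun measurableSet_Ioi fun a ha => ?_
    have ha' : 0 < a := ha
    have e3 : (a ^ 2)⁻¹ • dbl n (a • (ω : E)) = (2 * inner ℝ n (ω : E)) • (ω : E) - n := by
      unfold dbl
      rw [hn' ω a ha', real_inner_smul_right, smul_sub, smul_smul, smul_smul, smul_smul,
        inv_mul_cancel₀ (by positivity), one_smul]
      congr 2
      field_simp
    simp only [hG, norm_dbl n _ hn, hn' ω a ha', e3, real_inner_smul_right]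
    by_cases h1 : a ∈ Iio (1 : ℝ)
    · have h2 : a ^ 2 ∈ Iio (1 : ℝ) := by
        have : a < 1 := h1
        show a ^ 2 < 1
        nlinarith
      rw [indicator_of_mem h1, indicator_of_mem h2, Pi.one_apply, one_mul,
        ← mul_assoc (ENNReal.ofReal (a ^ 2)), ← mul_assoc (ENNReal.ofReal (8 * a ^ 5)),
        ← ENNReal.ofReal_mul (by positivity), ← ENNReal.ofReal_mul (by positivity)]
      congr 2
      rw [abs_mul, abs_mul, abs_mul, abs_of_pos ha', abs_of_pos (by positivity : 0 < a ^ 2),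
        abs_of_pos (by norm_num : (0 : ℝ) < 8)]
      ring
    · have h2 : a ^ 2 ∉ Iio (1 : ℝ) := by
        have : 1 ≤ a := not_lt.1 h1
        show ¬ a ^ 2 < 1
        nlinarith
      simp [indicator_of_notMem h1, indicator_of_notMem h2]
  simp only [e1, e2] at h
  rw [lintegral_const_mul' _ _ ENNReal.ofReal_ne_top,
    lintegral_const_mul' _ _ ENNReal.ofReal_ne_top, ← mul_assoc] at h
  have e4 : (2 : ℝ≥0∞) * ENNReal.ofReal (1 / 3) = ENNReal.ofReal (4 / 3) * 2⁻¹ := by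
    rw [show (2 : ℝ≥0∞)⁻¹ = ENNReal.ofReal (1 / 2) by
        rw [one_div, ENNReal.ofReal_inv_of_pos two_pos, ENNReal.ofReal_ofNat],
      ← ENNReal.ofReal_mul (by norm_num), ← ENNReal.ofReal_ofNat 2,
      ← ENNReal.ofReal_mul (by norm_num)]
    norm_num
  rw [e4, mul_assoc] at h
  exact (ENNReal.mul_le_mul_iff_right (by simp) ENNReal.ofReal_ne_top).1 h

theorem line (m c : ℝ) (φ : ℝ → ℝ≥0∞) :
    ENNReal.ofReal |c| * ∫⁻ s in Icc (-1 : ℝ) 1, φ (m + c * s) ≤
      ∫⁻ p in Icc (m - |c|) (m + |c|), φ p := by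
  rcases eq_or_ne c 0 with rfl | hc
  · simp
  have hd : ∀ s ∈ Icc (-1 : ℝ) 1, HasDerivWithinAt (fun s : ℝ => m + c * s) c (Icc (-1) 1) s :=
    fun s _ => by simpa using (((hasDerivAt_id s).const_mul c).const_add m).hasDerivWithinAt
  have h := lintegral_image_eq_lintegral_abs_deriv_mul measurableSet_Icc hd
    (fun a _ b _ h => mul_left_cancel₀ hc (add_left_cancel h)) φ
  rw [lintegral_const_mul' _ _ ENNReal.ofReal_ne_top] at h
  rw [← h]
  refine lintegral_mono_set ?_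
  rintro _ ⟨s, hs, rfl⟩
  have h1 : |c * s| ≤ |c| := by
    rw [abs_mul]
    exact mul_le_of_le_one_right (abs_nonneg _) (abs_le.2 ⟨hs.1, hs.2⟩)
  have h2 := abs_le.1 h1
  exact ⟨by simp only; linarith [h2.1], by simp only; linarith [h2.2]⟩

end Marg

/-- The sigma representation of hard-sphere collisions (as an upper bound). -/
theorem sigma_rep (u w : E) (Φ : E × E → ℝ≥0∞) (hΦ : Measurable Φ) :
    ∫⁻ ω : S2, ENNReal.ofReal |cf u w ω| * Φ (vp u w ω, wp u w ω) ∂sph ≤
      ENNReal.ofReal (‖u - w‖ / 2) * ∫⁻ σ : S2,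
        Φ ((2⁻¹ : ℝ) • (u + w) - (‖u - w‖ / 2) • (σ : E),
          (2⁻¹ : ℝ) • (u + w) + (‖u - w‖ / 2) • (σ : E)) ∂sph := by
  rcases eq_or_ne (u - w) 0 with h0 | h0
  · simp [cf, h0]
  have hr : 0 < ‖u - w‖ := norm_pos_iff.2 h0
  obtain ⟨n, hn⟩ : ∃ n : E, n = ‖u - w‖⁻¹ • (u - w) := ⟨_, rfl⟩
  have hn1 : ‖n‖ = 1 := by rw [hn, norm_smul, norm_inv, norm_norm, inv_mul_cancel₀ hr.ne']
  have hz : u - w = ‖u - w‖ • n := by rw [hn, smul_smul, mul_inv_cancel₀ hr.ne', one_smul]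
  have hc : ∀ ω : S2, cf u w ω = ‖u - w‖ * inner ℝ n (ω : E) := fun ω => by
    rw [← real_inner_smul_left, ← hz]; rfl
  have hu : u = (2⁻¹ : ℝ) • (u + w) + (‖u - w‖ / 2) • n := by
    rw [div_eq_inv_mul, mul_smul, ← hz]; module
  have hw : w = (2⁻¹ : ℝ) • (u + w) - (‖u - w‖ / 2) • n := by
    rw [div_eq_inv_mul, mul_smul, ← hz]; module
  have h := Marg.sigma n hn1 (fun σ => Φ ((2⁻¹ : ℝ) • (u + w) - (‖u - w‖ / 2) • σ,
    (2⁻¹ : ℝ) • (u + w) + (‖u - w‖ / 2) • σ)) (hΦ.comp (by fun_prop))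
  have e : ∀ ω : S2, ENNReal.ofReal |cf u w ω| * Φ (vp u w ω, wp u w ω) =
      ENNReal.ofReal ‖u - w‖ * (ENNReal.ofReal |inner ℝ n (ω : E)| *
        Φ ((2⁻¹ : ℝ) • (u + w) - (‖u - w‖ / 2) • ((2 * inner ℝ n (ω : E)) • (ω : E) - n),
          (2⁻¹ : ℝ) • (u + w) + (‖u - w‖ / 2) • ((2 * inner ℝ n (ω : E)) • (ω : E) - n))) := by
    intro ω
    have e1 : vp u w ω =
        (2⁻¹ : ℝ) • (u + w) - (‖u - w‖ / 2) • ((2 * inner ℝ n (ω : E)) • (ω : E) - n) := by
      unfold vp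
      rw [hc]
      nth_rewrite 1 [hu]
      module
    have e2 : wp u w ω =
        (2⁻¹ : ℝ) • (u + w) + (‖u - w‖ / 2) • ((2 * inner ℝ n (ω : E)) • (ω : E) - n) := by
      unfold wp
      rw [hc]
      nth_rewrite 1 [hw]
      module
    rw [e1, e2, hc, abs_mul, abs_of_pos hr, ENNReal.ofReal_mul hr.le, mul_assoc]
  simp only [e]
  rw [lintegral_const_mul' _ _ ENNReal.ofReal_ne_top, div_eq_mul_inv,
    ENNReal.ofReal_mul hr.le, ENNReal.ofReal_inv_of_pos two_pos, ENNReal.ofReal_ofNat, mul_assoc]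
  exact mul_le_mul_right h _

/-- Marginal of the outgoing velocity v' in the direction e. -/
theorem marg_vp (hA : ArchStmt) (e : E) (he : ‖e‖ = 1) (u w : E) (φ : ℝ → ℝ≥0∞)
    (hφ : Measurable φ) :
    ∫⁻ ω : S2, ENNReal.ofReal |cf u w ω| * φ (inner ℝ e (vp u w ω)) ∂sph ≤
      ENNReal.ofReal (2 * Real.pi) * ∫⁻ p in Icc ((inner ℝ e u + inner ℝ e w - ‖u - w‖) / 2)
        ((inner ℝ e u + inner ℝ e w + ‖u - w‖) / 2), φ p := by
  have h := sigma_rep u w (fun z => φ (inner ℝ e z.1)) (hφ.comp (by fun_prop))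
  refine h.trans ?_
  have e1 : ∀ σ : S2, inner ℝ e ((2⁻¹ : ℝ) • (u + w) - (‖u - w‖ / 2) • (σ : E)) =
      (inner ℝ e u + inner ℝ e w) / 2 + -(‖u - w‖ / 2) * inner ℝ e (σ : E) := fun σ => by
    rw [inner_sub_right, real_inner_smul_right, real_inner_smul_right, inner_add_right]; ring
  simp only [e1]
  rw [hA e he (fun s => φ ((inner ℝ e u + inner ℝ e w) / 2 + -(‖u - w‖ / 2) * s))
    (hφ.comp (by fun_prop)), mul_left_comm]
  have h2 := Marg.line ((inner ℝ e u + inner ℝ e w) / 2) (-(‖u - w‖ / 2)) φ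
  rw [abs_neg, abs_of_nonneg (by positivity : 0 ≤ ‖u - w‖ / 2), ← sub_div, ← add_div] at h2
  exact mul_le_mul_right h2 _

/-- Marginal of the outgoing velocity w' in the direction e. -/
theorem marg_wp (hA : ArchStmt) (e : E) (he : ‖e‖ = 1) (u w : E) (φ : ℝ → ℝ≥0∞)
    (hφ : Measurable φ) :
    ∫⁻ ω : S2, ENNReal.ofReal |cf u w ω| * φ (inner ℝ e (wp u w ω)) ∂sph ≤
      ENNReal.ofReal (2 * Real.pi) * ∫⁻ p in Icc ((inner ℝ e u + inner ℝ e w - ‖u - w‖) / 2)
        ((inner ℝ e u + inner ℝ e w + ‖u - w‖) / 2), φ p := by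
  have h := marg_vp hA e he w u φ hφ
  simp only [vp_swap u w, cf_swap u w, abs_neg] at h
  rwa [norm_sub_rev, add_comm (inner ℝ e w)] at h

/-- Marginal of v' in a coordinate. -/
theorem marg_vp_coord (hA : ArchStmt) (i : Fin 3) (u w : E) (φ : ℝ → ℝ≥0∞) (hφ : Measurable φ) :
    ∫⁻ ω : S2, ENNReal.ofReal |cf u w ω| * φ (vp u w ω i) ∂sph ≤
      ENNReal.ofReal (2 * Real.pi) *
        ∫⁻ p in Icc ((u i + w i - ‖u - w‖) / 2) ((u i + w i + ‖u - w‖) / 2), φ p := by
  have h := marg_vp hA (EuclideanSpace.single i 1) (by simp) u w φ hφ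
  simpa only [EuclideanSpace.inner_single_left, map_one, one_mul] using h

/-- Marginal of w' in a coordinate. -/
theorem marg_wp_coord (hA : ArchStmt) (i : Fin 3) (u w : E) (φ : ℝ → ℝ≥0∞) (hφ : Measurable φ) :
    ∫⁻ ω : S2, ENNReal.ofReal |cf u w ω| * φ (wp u w ω i) ∂sph ≤
      ENNReal.ofReal (2 * Real.pi) *
        ∫⁻ p in Icc ((u i + w i - ‖u - w‖) / 2) ((u i + w i + ‖u - w‖) / 2), φ p := by
  have h := marg_wp hA (EuclideanSpace.single i 1) (by simp) u w φ hφ
  simpa only [EuclideanSpace.inner_single_left, map_one, one_mul] using h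

/-- Area of the sphere. -/
theorem sph_univ (hA : ArchStmt) : sph univ = ENNReal.ofReal (4 * Real.pi) := by
  have h := hA (EuclideanSpace.single 0 1) (by simp) (fun _ => 1) measurable_const
  simp only [lintegral_const, one_mul, Measure.restrict_apply_univ, Real.volume_Icc] at h
  rw [h, ← ENNReal.ofReal_mul (by positivity)]
  congr 1
  ring

/-- Total cross section. -/
theorem lint_cf (hA : ArchStmt) (u w : E) :
    ∫⁻ ω : S2, ENNReal.ofReal |cf u w ω| ∂sph = ENNReal.ofReal (2 * Real.pi * ‖u - w‖) := by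
  rcases eq_or_ne (u - w) 0 with h0 | h0
  · simp [cf, h0]
  have hr : 0 < ‖u - w‖ := norm_pos_iff.2 h0
  obtain ⟨n, hn⟩ : ∃ n : E, n = ‖u - w‖⁻¹ • (u - w) := ⟨_, rfl⟩
  have hn1 : ‖n‖ = 1 := by rw [hn, norm_smul, norm_inv, norm_norm, inv_mul_cancel₀ hr.ne']
  have hz : u - w = ‖u - w‖ • n := by rw [hn, smul_smul, mul_inv_cancel₀ hr.ne', one_smul]
  have hc : ∀ ω : S2, cf u w ω = ‖u - w‖ * inner ℝ n (ω : E) := fun ω => by
    rw [← real_inner_smul_left, ← hz]; rfl
  simp only [hc]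
  rw [hA n hn1 (fun s => ENNReal.ofReal |‖u - w‖ * s|) (by fun_prop),
    ENNReal.ofReal_mul (by positivity : 0 ≤ 2 * Real.pi)]
  congr 1
  have hi : ∫ s in (-1 : ℝ)..1, |s| = 1 := by
    rw [← intervalIntegral.integral_add_adjacent_intervals (b := 0)
      (continuous_abs.intervalIntegrable _ _) (continuous_abs.intervalIntegrable _ _),
      intervalIntegral.integral_congr (g := fun s => -s) (fun s hs => abs_of_nonpos (by
        rw [uIcc_of_le (by norm_num)] at hs; exact hs.2)),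
      intervalIntegral.integral_congr (a := 0) (b := 1) (g := fun s => s) (fun s hs =>
        abs_of_nonneg (by rw [uIcc_of_le (by norm_num)] at hs; exact hs.1)),
      intervalIntegral.integral_neg, integral_id, integral_id]
    norm_num
  rw [← ofReal_integral_eq_lintegral_ofReal (by fun_prop : Continuous fun s : ℝ =>
      |‖u - w‖ * s|).integrableOn_Icc (Eventually.of_forall fun s => abs_nonneg _),
    integral_Icc_eq_integral_Ioc, ← intervalIntegral.integral_of_le (by norm_num)]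
  simp only [abs_mul, abs_of_pos hr]
  rw [intervalIntegral.integral_const_mul, hi, mul_one]

theorem kT_le_self (R a r : ℝ) (ha : 0 ≤ a) : kT R a r ≤ a := by
  unfold kT
  split_ifs
  · exact min_le_left _ _
  · exact ha

theorem le_kT_add (R a r : ℝ) (hR : 0 < R) (ha : 0 ≤ a) (hr : r ≤ R) : a ≤ kT R a r + 1 / R := by
  unfold kT
  rw [if_pos hr]
  have h1 : 0 < 1 / R := by positivity
  rcases le_total a (1 / R) with h | h
  · have : 0 ≤ min a (R * a ^ 2) := le_min ha (by positivity)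
    linarith
  · have h2 : 1 ≤ R * a := by
      rw [div_le_iff₀ hR] at h
      linarith
    have : a ≤ R * a ^ 2 := by nlinarith
    rw [min_eq_left this]
    linarith

/-- Lower bound of the truncated total cross section. -/
theorem lint_kT_ge (hA : ArchStmt) (R : ℝ) (hR : 0 < R) (u w : E) (h : ‖u - w‖ ≤ R) :
    ENNReal.ofReal (2 * Real.pi * ‖u - w‖) ≤
      ∫⁻ ω : S2, ENNReal.ofReal (kT R |cf u w ω| ‖u - w‖) ∂sph + ENNReal.ofReal (4 * Real.pi / R) := by
  have h1 : ENNReal.ofReal (4 * Real.pi / R) = ∫⁻ _ : S2, ENNReal.ofReal (1 / R) ∂sph := by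
    rw [lintegral_const, sph_univ hA, ← ENNReal.ofReal_mul (by positivity)]
    congr 1
    ring
  rw [← lint_cf hA, h1, ← lintegral_add_right _ measurable_const]
  refine lintegral_mono fun ω => ?_
  exact (ENNReal.ofReal_le_ofReal (le_kT_add R _ _ hR (abs_nonneg _) h)).trans
    ENNReal.ofReal_add_le

/-- Upper bound of the truncated total cross section. -/
theorem lint_kT_le (hA : ArchStmt) (R : ℝ) (u w : E) :
    ∫⁻ ω : S2, ENNReal.ofReal (kT R |cf u w ω| ‖u - w‖) ∂sph ≤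
      ENNReal.ofReal (2 * Real.pi * ‖u - w‖) := by
  rw [← lint_cf hA]
  exact lintegral_mono fun ω => ENNReal.ofReal_le_ofReal (kT_le_self R _ _ (abs_nonneg _))

end

end Vale.Agent.P140
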