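import Vale.Agent.P140.AvFA

/-!
The collision frequency as a convolution in velocity.
-/

namespace Vale.Agent.P140

open MeasureTheory Set Filter Topology
open scoped ENNReal

noncomputable section

namespace Nu

open AvF

/-- Total mass of the sphere. -/
def cS : ℝ := sph.real univ

lemma cS_nonneg : 0 ≤ cS := measureReal_nonneg

/-- The angular integral of a kernel. -/
def AK (k : ℝ → ℝ → ℝ) (z : E) : ℝ := ∫ ω : S2, k |inner ℝ z (ω : E)| ‖z‖ ∂sph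

/-- Kernels between zero and the hard-sphere kernel. -/
def Sub (k : ℝ → ℝ → ℝ) : Prop := IsKer k ∧ ∀ a b, 0 ≤ a → 0 ≤ k a b ∧ k a b ≤ a

lemma abs_inner_le (z : E) (ω : S2) : |inner ℝ z (ω : E)| ≤ ‖z‖ := by
  have := abs_real_inner_le_norm z (ω : E)
  rwa [norm_S2, mul_one] at this

lemma meas_k {k : ℝ → ℝ → ℝ} (hk : IsKer k) :
    Measurable (fun q : E × S2 => k |inner ℝ q.1 (q.2 : E)| ‖q.1‖) := by
  have h : Measurable (fun q : E × S2 => (|inner ℝ q.1 (q.2 : E)|, ‖q.1‖)) := by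
    refine Continuous.measurable ?_
    fun_prop
  exact Measurable.comp (g := fun z : ℝ × ℝ => k z.1 z.2) hk h

lemma meas_AK {k : ℝ → ℝ → ℝ} (hk : IsKer k) : Measurable (AK k) :=
  ((meas_k hk).stronglyMeasurable.integral_prod_right' (ν := sph)).measurable

lemma int_k {k : ℝ → ℝ → ℝ} (hk : Sub k) (z : E) :
    Integrable (fun ω : S2 => k |inner ℝ z (ω : E)| ‖z‖) sph := by
  refine Integrable.of_bound (C := ‖z‖)
    ((meas_k hk.1).comp (measurable_const.prodMk measurable_id)).aestronglyMeasurable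
    (Eventually.of_forall fun ω => ?_)
  obtain ⟨h1, h2⟩ := hk.2 |inner ℝ z (ω : E)| ‖z‖ (abs_nonneg _)
  rw [Real.norm_of_nonneg h1]
  exact h2.trans (abs_inner_le z ω)

lemma AK_nonneg {k : ℝ → ℝ → ℝ} (hk : Sub k) (z : E) : 0 ≤ AK k z :=
  integral_nonneg fun _ => (hk.2 _ _ (abs_nonneg _)).1

lemma integral_le_cS {f : S2 → ℝ} (hf : Integrable f sph) {c : ℝ} (h : ∀ ω, f ω ≤ c) :
    ∫ ω, f ω ∂sph ≤ cS * c := by
  calc ∫ ω, f ω ∂sph ≤ ∫ _ω, c ∂sph := integral_mono hf (integrable_const c) h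
    _ = cS * c := by simp [cS]

lemma AK_le {k : ℝ → ℝ → ℝ} (hk : Sub k) (z : E) : AK k z ≤ cS * ‖z‖ :=
  integral_le_cS (int_k hk z) fun ω => (hk.2 _ _ (abs_nonneg _)).2.trans (abs_inner_le z ω)

lemma AK_sub_le {k : ℝ → ℝ → ℝ} (hk : Sub k) {r : ℝ} {v : E} (hv : ‖v‖ ≤ r) (w : E) :
    AK k (v - w) ≤ cS * (1 + r) * (1 + ‖w‖) := by
  have h1 : ‖v - w‖ ≤ (1 + r) * (1 + ‖w‖) := by
    have := norm_sub_le v w
    nlinarith [norm_nonneg v, norm_nonneg w]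
  calc AK k (v - w) ≤ cS * ‖v - w‖ := AK_le hk _
    _ ≤ cS * ((1 + r) * (1 + ‖w‖)) := by gcongr; exact cS_nonneg
    _ = cS * (1 + r) * (1 + ‖w‖) := by ring

lemma abs_AK_le {k : ℝ → ℝ → ℝ} (hk : Sub k) (v w : E) :
    |AK k (v - w)| ≤ cS * (1 + ‖v‖) * (1 + ‖w‖) := by
  rw [abs_of_nonneg (AK_nonneg hk _)]
  exact AK_sub_le hk le_rfl w

lemma sub_kF (hM : MeasStmt) : Sub kF := ⟨hM.1, fun _ _ h => ⟨h, le_rfl⟩⟩

lemma sub_kT (hM : MeasStmt) {R : ℝ} (hR : 0 < R) : Sub (kT R) := by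
  refine ⟨hM.2.1 R, fun a b h => ?_⟩
  unfold kT
  split_ifs
  · exact ⟨le_min h (by positivity), min_le_left _ _⟩
  · exact ⟨le_rfl, h⟩

lemma AF_lip (hM : MeasStmt) (z z' : E) : |AK kF z - AK kF z'| ≤ cS * ‖z - z'‖ := by
  unfold AK
  rw [← integral_sub (int_k (sub_kF hM) z) (int_k (sub_kF hM) z')]
  refine abs_integral_le_integral_abs.trans
    (integral_le_cS ((int_k (sub_kF hM) z).sub (int_k (sub_kF hM) z')).abs fun ω => ?_)
  unfold kF
  refine (abs_abs_sub_abs_le_abs_sub _ _).trans ?_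
  rw [← inner_sub_left]
  exact abs_inner_le _ ω

lemma kT_err {R a s : ℝ} (hR : 0 < R) (ha : 0 ≤ a) (has : a ≤ s) :
    a - kT R a s ≤ (1 + s ^ 2) / R := by
  rw [le_div_iff₀ hR]
  unfold kT
  split_ifs with h
  · rcases le_total a (R * a ^ 2) with h1 | h1
    · rw [min_eq_left h1]; nlinarith [sq_nonneg s]
    · rw [min_eq_right h1]; nlinarith [sq_nonneg s, sq_nonneg (R * a - 1)]
  · have h1 : R < s := not_le.1 h
    nlinarith

lemma AF_sub_AT (hM : MeasStmt) {R : ℝ} (hR : 0 < R) (z : E) :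
    |AK (kT R) z - AK kF z| ≤ cS * ((1 + ‖z‖ ^ 2) / R) := by
  unfold AK
  rw [← integral_sub (int_k (sub_kT hM hR) z) (int_k (sub_kF hM) z)]
  refine abs_integral_le_integral_abs.trans
    (integral_le_cS ((int_k (sub_kT hM hR) z).sub (int_k (sub_kF hM) z)).abs fun ω => ?_)
  have h1 := ((sub_kT hM hR).2 |inner ℝ z (ω : E)| ‖z‖ (abs_nonneg _)).2
  have h2 := kT_err hR (abs_nonneg (inner ℝ z (ω : E))) (abs_inner_le z ω)
  show |kT R |inner ℝ z (ω : E)| ‖z‖ - (|inner ℝ z (ω : E)|)| ≤ _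
  rw [abs_sub_comm, abs_of_nonneg (by linarith)]
  exact h2

lemma int_w {g ψ : E → ℝ} {C : ℝ} (hg : Measurable g) (h0 : ∀ w, 0 ≤ g w)
    (hI : Integrable (fun w => g w * (1 + ‖w‖) ^ 2)) (hψ : Measurable ψ)
    (hb : ∀ w, |ψ w| ≤ C * (1 + ‖w‖) ^ 2) : Integrable (fun w => g w * ψ w) := by
  refine (hI.const_mul C).mono' (hg.mul hψ).aestronglyMeasurable
    (Eventually.of_forall fun w => ?_)
  rw [Real.norm_eq_abs, abs_mul, abs_of_nonneg (h0 w)]
  calc g w * |ψ w| ≤ g w * (C * (1 + ‖w‖) ^ 2) := by gcongr; exacts [h0 w, hb w]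
    _ = C * (g w * (1 + ‖w‖) ^ 2) := by ring

lemma one_le_w (w : E) : 1 ≤ (1 + ‖w‖) ^ 2 ∧ 1 + ‖w‖ ≤ (1 + ‖w‖) ^ 2 := by
  constructor <;> nlinarith [norm_nonneg w]

lemma int_AK {k : ℝ → ℝ → ℝ} (hk : Sub k) {g : E → ℝ} (hg : Measurable g) (h0 : ∀ w, 0 ≤ g w)
    (hI : Integrable (fun w => g w * (1 + ‖w‖) ^ 2)) (v : E) :
    Integrable (fun w => g w * AK k (v - w)) := by
  refine int_w (C := cS * (1 + ‖v‖)) hg h0 hI ((meas_AK hk.1).comp (by fun_prop)) fun w => ?_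
  refine (abs_AK_le hk v w).trans ?_
  have := cS_nonneg
  gcongr
  exact (one_le_w w).2

lemma freq_eq {k : ℝ → ℝ → ℝ} (hk : Sub k) {g : E → ℝ} (hg : Measurable g) (h0 : ∀ w, 0 ≤ g w)
    (hI : Integrable (fun w => g w * (1 + ‖w‖) ^ 2)) (v : E) :
    freqK k (fun w => ENNReal.ofReal (g w)) v = ENNReal.ofReal (∫ w, g w * AK k (v - w)) := by
  have hm : Measurable (fun q : E × S2 => k |cf v q.1 q.2| ‖v - q.1‖) :=
    (meas_k hk.1).comp (f := fun q : E × S2 => (v - q.1, q.2)) (by fun_prop)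
  have hm2 : Measurable (fun q : E × S2 =>
      ENNReal.ofReal (k |cf v q.1 q.2| ‖v - q.1‖) * ENNReal.ofReal (g q.1)) :=
    hm.ennreal_ofReal.mul (hg.comp measurable_fst).ennreal_ofReal
  unfold freqK
  simp only
  rw [lintegral_prod _ hm2.aemeasurable,
    ofReal_integral_eq_lintegral_ofReal (int_AK hk hg h0 hI v)
      (Eventually.of_forall fun w => mul_nonneg (h0 w) (AK_nonneg hk _))]
  refine lintegral_congr fun w => ?_
  have hm3 : Measurable (fun ω : S2 => ENNReal.ofReal (k |cf v w ω| ‖v - w‖)) :=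
    (hm.comp (f := fun ω : S2 => (w, ω)) (by fun_prop)).ennreal_ofReal
  simp only
  rw [lintegral_mul_const _ hm3,
    mul_comm (g w), ENNReal.ofReal_mul (AK_nonneg hk _)]
  congr 1
  unfold AK
  rw [ofReal_integral_eq_lintegral_ofReal (int_k hk _)
    (Eventually.of_forall fun ω => (hk.2 _ _ (abs_nonneg _)).1)]
  rfl

lemma freq_toReal {k : ℝ → ℝ → ℝ} (hk : Sub k) {g : E → ℝ} (hg : Measurable g)
    (h0 : ∀ w, 0 ≤ g w) (hI : Integrable (fun w => g w * (1 + ‖w‖) ^ 2)) (v : E) :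
    (freqK k (fun w => ENNReal.ofReal (g w)) v).toReal = ∫ w, g w * AK k (v - w) := by
  rw [freq_eq hk hg h0 hI,
    ENNReal.toReal_ofReal (integral_nonneg fun w => mul_nonneg (h0 w) (AK_nonneg hk _))]

lemma conv_le {k : ℝ → ℝ → ℝ} (hk : Sub k) {g : E → ℝ} (hg : Measurable g)
    (h0 : ∀ w, 0 ≤ g w) (hI : Integrable (fun w => g w * (1 + ‖w‖) ^ 2)) {r : ℝ} {v : E}
    (hv : ‖v‖ ≤ r) : 0 ≤ ∫ w, g w * AK k (v - w) ∧
      ∫ w, g w * AK k (v - w) ≤ cS * (1 + r) * ∫ w, g w * (1 + ‖w‖) := by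
  refine ⟨integral_nonneg fun w => mul_nonneg (h0 w) (AK_nonneg hk _), ?_⟩
  have hJ : Integrable (fun w => g w * (1 + ‖w‖)) :=
    int_w (C := 1) hg h0 hI (by fun_prop) fun w => by
      rw [abs_of_nonneg (by positivity), one_mul]; exact (one_le_w w).2
  rw [← integral_const_mul]
  refine integral_mono (int_AK hk hg h0 hI v) (hJ.const_mul _) fun w => ?_
  calc g w * AK k (v - w) ≤ g w * (cS * (1 + r) * (1 + ‖w‖)) := by
        gcongr; exacts [h0 w, AK_sub_le hk hv w]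
    _ = cS * (1 + r) * (g w * (1 + ‖w‖)) := by ring

/-- Integrability of cut frequencies. -/
lemma cut_freq_int {k : ℝ → ℝ → ℝ} (hk : Sub k) {T r : ℝ} {F : ℝ → Om → ℝ} {N : ℝ × Om → ℝ}
    (hm : Measurable (fun y : ℝ × Om => F y.1 y.2)) (h0 : ∀ t p, 0 ≤ F t p)
    (hI : Integrable (fun y : ℝ × Om => F y.1 y.2 * (1 + ‖y.2.2‖) ^ 2) (mY T))
    (hN : Measurable N)
    (hb : ∀ y, |N y| ≤ (freqK k (sl (F y.1) y.2.1) y.2.2).toReal) :
    Integrable (fun y : ℝ × Om => cut r y.2 * N y) (mY T) := by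
  have hJ : Integrable (fun y : ℝ × Om => F y.1 y.2 * (1 + ‖y.2.2‖)) (mY T) :=
    int_weight (C := 1) hm (fun y => h0 _ _) hI (by fun_prop) fun y => by
      rw [abs_of_nonneg (by positivity), one_mul]
  have h1 := (cut_int (r := r) ((int_marg hJ).const_mul (cS * (1 + r)))).1
  refine h1.mono' (((meas_cut r).comp measurable_snd).mul hN).aestronglyMeasurable ?_
  filter_upwards [ae_lift (ae_slice hI)] with y hy
  rw [Real.norm_eq_abs, abs_mul, abs_of_nonneg (cut_nonneg _ _)]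
  unfold cut
  split_ifs with h
  · rw [one_mul, one_mul]
    have hg : Measurable (fun w => F y.1 (y.2.1, w)) :=
      hm.comp (f := fun w : E => (y.1, (y.2.1, w))) (by fun_prop)
    refine (hb y).trans ?_
    have e := freq_toReal hk hg (fun w => h0 _ _) hy y.2.2
    exact e.le.trans (conv_le hk hg (fun w => h0 _ _) hy h).2
  · simp

lemma abs_nT_le {R δ : ℝ} (hδ : 0 < δ) {f : Om → ℝ} (h0 : ∀ p, 0 ≤ f p) (p : Om) :
    |nT R δ f p| ≤ (freqK (kT R) (sl f p.1) p.2).toReal := by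
  have h1 : 0 ≤ rho f p.1 := integral_nonneg fun v => h0 _
  have h2 : 0 ≤ δ * rho f p.1 := by positivity
  unfold nT
  rw [abs_of_nonneg (div_nonneg ENNReal.toReal_nonneg (by linarith))]
  exact div_le_self ENNReal.toReal_nonneg (by linarith)

lemma cut_nT_int (hM : MeasStmt) {R δ : ℕ → ℝ} {Fn : ℕ → ℝ → Om → ℝ} {F₀ : Om → ℝ}
    (hap : Apr R δ Fn F₀) (T r : ℝ) (n : ℕ) :
    Integrable (fun y : ℝ × Om => cut r y.2 * nT (R n) (δ n) (Fn n y.1) y.2) (mY T) := by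
  obtain ⟨Cm, hCm⟩ := hap.mom
  exact cut_freq_int (sub_kT hM (hap.Rpos n)) (hap.ts n).meas (hap.ts n).nonneg
    (mom_int (hap.ts n).meas (hap.ts n).nonneg (hCm n)).1
    (hM.2.2.2.2.1 _ (hap.ts n).meas (R n) (δ n)).2.2.1
    fun y => abs_nT_le (hap.δpos n) ((hap.ts n).nonneg y.1) y.2

end Nu

end

end Vale.Agent.P140
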