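import Mathlib

/-!
The periodic hard-sphere Boltzmann equation and its renormalized entropy solutions
(definitions used by the final statement).
-/

namespace Vale.Agent.P140.Pub

open MeasureTheory Set
open scoped ENNReal

noncomputable section

/-- Velocity space. -/
abbrev E : Type := EuclideanSpace ℝ (Fin 3)

/-- The torus ℝ³/ℤ³ (Haar probability measure). -/
abbrev T3 : Type := Fin 3 → UnitAddCircle

/-- Phase space Ω = T³ × ℝ³. -/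
abbrev Om : Type := T3 × E

/-- The unit sphere. -/
abbrev S2 : Type := Metric.sphere (0 : E) 1

/-- Lebesgue measure dx dv on Ω. -/
def vol : Measure Om := volume

/-- Surface measure on the unit sphere (total mass 4π). -/
def sph : Measure S2 := (volume : Measure E).toSphere

/-- The measure dv_* dω. -/
def vs : Measure (E × S2) := (volume : Measure E).prod sph

/-- Lebesgue measure on [0, ∞) × Ω. -/
def tm : Measure (ℝ × Om) := (volume.restrict (Ici (0 : ℝ))).prod vol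

/-- The projection ℝ³ → T³. -/
def pr (x : E) : T3 := fun i => (x i : UnitAddCircle)

/-- Free flight (x, v) ↦ (x + s v, v). -/
def fl (s : ℝ) (p : Om) : Om := (p.1 + pr (s • p.2), p.2)

/-- a = (v - v_*) · ω. -/
def cf (v w : E) (ω : S2) : ℝ := inner ℝ (v - w) (ω : E)

/-- v' = v - a ω. -/
def vp (v w : E) (ω : S2) : E := v - cf v w ω • (ω : E)

/-- v_*' = v_* + a ω. -/
def wp (v w : E) (ω : S2) : E := w + cf v w ω • (ω : E)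

/-- The Maxwellian M. -/
def Mx (v : E) : ℝ := (2 * Real.pi) ^ (-(3 / 2 : ℝ)) * Real.exp (-‖v‖ ^ 2 / 2)

/-- The gain term Q⁺(f, f)(x, v). -/
def Qp (f : Om → ℝ) (p : Om) : ℝ≥0∞ :=
  ∫⁻ q : E × S2, ENNReal.ofReal
    (|cf p.2 q.1 q.2| * (f (p.1, vp p.2 q.1 q.2) * f (p.1, wp p.2 q.1 q.2))) ∂vs

/-- The loss term Q⁻(f, f)(x, v). -/
def Qm (f : Om → ℝ) (p : Om) : ℝ≥0∞ :=
  ∫⁻ q : E × S2, ENNReal.ofReal (|cf p.2 q.1 q.2| * (f (p.1, p.2) * f (p.1, q.1))) ∂vs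

/-- Relative entropy H_M(f). -/
def relEnt (f : Om → ℝ) : ℝ≥0∞ :=
  ∫⁻ p : Om, ENNReal.ofReal (f p * Real.log (f p / Mx p.2) - f p + Mx p.2) ∂vol

open Classical in
/-- (A - B) log (A / B) with its lower semicontinuous extended value on the boundary. -/
def jj (A B : ℝ) : ℝ≥0∞ :=
  if A = B then 0 else if A = 0 ∨ B = 0 then ⊤ else ENNReal.ofReal ((A - B) * Real.log (A / B))

/-- Entropy production D(f). -/
def diss (f : Om → ℝ) : ℝ≥0∞ :=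
  (1 / 4) * ∫⁻ p : Om, ∫⁻ q : E × S2, ENNReal.ofReal |cf p.2 q.1 q.2| *
    jj (f (p.1, vp p.2 q.1 q.2) * f (p.1, wp p.2 q.1 q.2)) (f (p.1, p.2) * f (p.1, q.1)) ∂vs ∂vol

/-- f (1 + |v|² + |log f|). -/
def wgt (f : Om → ℝ) (p : Om) : ℝ := f p * (1 + ‖p.2‖ ^ 2 + |Real.log (f p)|)

/-- A datum. -/
def IsDatum (F₀ : Om → ℝ) : Prop := Measurable F₀ ∧ (∀ p, 0 ≤ F₀ p) ∧ Integrable (wgt F₀) vol

/-- Smooth test functions on [0, ∞) × T³ × ℝ³ with compact support. -/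
def IsTest (φ : ℝ → Om → ℝ) : Prop :=
  ContDiff ℝ (⊤ : ℕ∞) (fun q : ℝ × E × E => φ q.1 (pr q.2.1, q.2.2)) ∧
    ∃ R : ℝ, ∀ t p, (R < t ∨ R < ‖p.2‖) → φ t p = 0

/-- Smooth test functions on [0, ∞) × T³ with compact support. -/
def IsTestX (χ : ℝ → T3 → ℝ) : Prop :=
  ContDiff ℝ (⊤ : ℕ∞) (fun q : ℝ × E => χ q.1 (pr q.2)) ∧ ∃ R : ℝ, ∀ t x, R < t → χ t x = 0

/-- (∂_t + v · ∇_x) φ, the derivative of φ along free flight. -/
def trans (φ : ℝ → Om → ℝ) (t : ℝ) (p : Om) : ℝ :=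
  deriv (fun s : ℝ => φ (t + s) (fl s p)) 0

/-- Weak L¹ continuity on [0, ∞), against bounded measurable tests. -/
def WeakCont (F : ℝ → Om → ℝ) : Prop :=
  ∀ ψ : Om → ℝ, Measurable ψ → (∃ C : ℝ, ∀ p, |ψ p| ≤ C) →
    ContinuousOn (fun t => ∫ p, F t p * ψ p ∂vol) (Ici 0)

/-- sup over t ≤ T of ∫ F (1 + |v|² + |log F|) is finite. -/
def Bounds (F : ℝ → Om → ℝ) : Prop :=
  ∀ T : ℝ, ∃ C : ℝ, ∀ t ∈ Icc (0 : ℝ) T, Integrable (wgt (F t)) vol ∧ ∫ p, wgt (F t) p ∂vol ≤ C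

/-- Q / (1 + F / M) is integrable on [0, T] × Ω. -/
def CollInt (Q : (Om → ℝ) → Om → ℝ≥0∞) (F : ℝ → Om → ℝ) : Prop :=
  ∀ T : ℝ,
    ∫⁻ t in Icc (0 : ℝ) T, ∫⁻ p, Q (F t) p / ENNReal.ofReal (1 + F t p / Mx p.2) ∂vol < ⊤

/-- β ∈ C¹([0, ∞)) with derivative β', β(0) = 0, |β'(z)| ≤ C / (1 + z). -/
def IsBeta (β β' : ℝ → ℝ) : Prop :=
  β 0 = 0 ∧ (∀ z, 0 ≤ z → HasDerivWithinAt β (β' z) (Ici 0) z) ∧ ContinuousOn β' (Ici 0) ∧
    ∃ C : ℝ, ∀ z, 0 ≤ z → |β' z| ≤ C / (1 + z)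

/-- The integrand of the weak form of (∂_t + v·∇_x)(M β(G)) = β'(G) Q(F, F). -/
def renInt (F : ℝ → Om → ℝ) (β β' : ℝ → ℝ) (φ : ℝ → Om → ℝ) (y : ℝ × Om) : ℝ :=
  Mx y.2.2 * β (F y.1 y.2 / Mx y.2.2) * trans φ y.1 y.2 +
    β' (F y.1 y.2 / Mx y.2.2) * ((Qp (F y.1) y.2).toReal - (Qm (F y.1) y.2).toReal) * φ y.1 y.2

/-- The renormalized equation in distributions, with initial value M β(F₀ / M). -/
def Renorm (F₀ : Om → ℝ) (F : ℝ → Om → ℝ) : Prop :=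
  ∀ β β' : ℝ → ℝ, IsBeta β β' → ∀ φ, IsTest φ → Integrable (renInt F β β' φ) tm ∧
    ∫ y, renInt F β β' φ y ∂tm + ∫ p : Om, Mx p.2 * β (F₀ p / Mx p.2) * φ 0 p ∂vol = 0

/-- The integrand of the weak form of the local mass balance. -/
def massInt (F : ℝ → Om → ℝ) (χ : ℝ → T3 → ℝ) (y : ℝ × Om) : ℝ :=
  F y.1 y.2 * trans (fun t p => χ t p.1) y.1 y.2

/-- The local mass balance B₁ in distributions, with initial trace. -/
def MassBal (F₀ : Om → ℝ) (F : ℝ → Om → ℝ) : Prop :=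
  ∀ χ, IsTestX χ → Integrable (massInt F χ) tm ∧
    ∫ y, massInt F χ y ∂tm + ∫ p : Om, F₀ p * χ 0 p.1 ∂vol = 0

/-- Total momentum. -/
def mom (f : Om → ℝ) : E := ∫ p : Om, f p • p.2 ∂vol

/-- Total energy. -/
def energy (f : Om → ℝ) : ℝ := ∫ p : Om, ‖p.2‖ ^ 2 * f p ∂vol

/-- Renormalized entropy solutions with datum F₀. -/
def IsSol (F₀ : Om → ℝ) (F : ℝ → Om → ℝ) : Prop :=
  Measurable (fun y : ℝ × Om => F y.1 y.2) ∧ (∀ t p, 0 ≤ F t p) ∧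
  WeakCont F ∧ F 0 =ᵐ[vol] F₀ ∧ Bounds F ∧
  CollInt Qp F ∧ CollInt Qm F ∧ Renorm F₀ F ∧
  MassBal F₀ F ∧ (∀ t, 0 ≤ t → mom (F t) = mom F₀) ∧ (∀ t, 0 ≤ t → energy (F t) ≤ energy F₀) ∧
  ∀ t, 0 ≤ t → relEnt (F t) + ∫⁻ s in Icc (0 : ℝ) t, diss (F s) ≤ relEnt F₀

end

end Vale.Agent.P140.Pub
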