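import Vale.Agent.P140.CAll
import Vale.Agent.P140.Pub

/-! Transfer of the final theorem to the definitions of the statement. -/

namespace Vale.Agent.P140

open MeasureTheory

theorem pub_sol {F₀ : Om → ℝ} {F : ℝ → Om → ℝ} (h : IsSol F₀ F) : Pub.IsSol F₀ F :=
  ⟨h.meas, h.nonneg, h.weakCont, h.init, h.bound, h.gainInt, h.lossInt,
    fun β β' hβ => h.renorm β β' hβ.1 hβ.2.1 hβ.2.2.1 hβ.2.2.2, h.mass, h.momentum, h.energy,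
    h.entropy⟩

theorem pub_goal : ∃ F₀ : Pub.Om → ℝ, Pub.IsDatum F₀ ∧ ∃ F G : ℝ → Pub.Om → ℝ,
    Pub.IsSol F₀ F ∧ Pub.IsSol F₀ G ∧
    ¬ (fun y : ℝ × Pub.Om => F y.1 y.2) =ᵐ[Pub.tm] (fun y : ℝ × Pub.Om => G y.1 y.2) := by
  obtain ⟨F₀, h0, F, G, hF, hG, hne⟩ := goalAll
  exact ⟨F₀, h0, F, G, pub_sol hF, pub_sol hG, hne⟩

end Vale.Agent.P140
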