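import Vale.Agent.P140.StmC
import Vale.Agent.P140.TOp

namespace Vale.Agent.P140

open MeasureTheory Set Filter Topology
open scoped ENNReal

noncomputable section

namespace ShootAux

lemma int_exp_om (hb : Base) : Integrable (fun p : Om => Real.exp (-‖p.2‖)) := by
  have h1 : (volume : Measure T3) univ = 1 := hb.torus.2.2.2.2.2.1
  have : IsProbabilityMeasure (volume : Measure T3) := ⟨h1⟩
  have := (integrable_const (μ := (volume : Measure T3)) (1 : ℝ)).mul_prod TOp.integrable_exp_neg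
  simp only [one_mul] at this
  exact this

lemma int_ts (hb : Base) {Rk δ : ℝ} {F₀ : Om → ℝ} {F : ℝ → Om → ℝ} (h : TS Rk δ F₀ F) {t : ℝ}
    (ht : 0 ≤ t) : Integrable (F t) := by
  obtain ⟨C, hC⟩ := h.bound t
  have hm : Measurable (F t) := h.meas.comp (measurable_const.prodMk measurable_id)
  refine Integrable.mono' ((int_exp_om hb).const_mul C) hm.aestronglyMeasurable
    (Eventually.of_forall fun p => ?_)
  rw [Real.norm_eq_abs, abs_of_nonneg (h.nonneg t p)]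
  exact hC t ⟨ht, le_rfl⟩ p

/-- The lifted solution. -/
def up (F : ℝ → Om → ℝ) : ST := fun t p => ENNReal.ofReal (F t p)

lemma phi_lip (hb : Base) (hc : BaseC) (hWU : WUStmt) {g : Geo} (hg : g.Ok) {q : Par}
    (hp : 0 ≤ q.p) : ∃ L : ℝ, 0 < L ∧ ∀ (F G : ℝ → Om → ℝ) (e t : ℝ), 0 ≤ e → t ∈ Icc (0 : ℝ) 1 →
      Measurable (F t) → (∀ p : Om, G t p ≤ F t p + e * Real.exp (-‖p.2‖)) →
      Phi g q (up G) t ≤ Phi g q (up F) t + ENNReal.ofReal (L * e) := by
  have hB := hc.gb g hg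
  set W : ℝ := 2 * (g.κ * g.te 0)⁻¹ ^ 18 with hW
  have hκ := hg.κ0
  have h0 := hB.te.1
  have hW0 : 0 < W := by positivity
  set I : ℝ := ∫ p : Om, Real.exp (-‖p.2‖) with hI
  have hI0 : 0 ≤ I := integral_nonneg fun p => (Real.exp_pos _).le
  refine ⟨W * I + 1, by positivity, fun F G e t he ht hF hFG => ?_⟩
  have hWt : ∀ p, WW g q t p ≤ ENNReal.ofReal W := by
    intro p
    refine ((hWU g q hg hp).1 t ht p).trans (ENNReal.ofReal_le_ofReal ?_)
    have h1 : g.te 0 ≤ g.te t := by rw [hB.te.2.2 t]; linarith [ht.1]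
    have h2 : (g.κ * g.te t)⁻¹ ≤ (g.κ * g.te 0)⁻¹ :=
      inv_anti₀ (by positivity) (by gcongr)
    have h3 : 0 ≤ (g.κ * g.te t)⁻¹ := by have : 0 < g.te t := by linarith
                                         positivity
    rw [hW]; gcongr
  have hm : Measurable fun p => WW g q t p * up F t p :=
    (hc.alg.jm_time _ (hc.me.ww g q).2 t).mul hF.ennreal_ofReal
  calc Phi g q (up G) t ≤ ∫⁻ p, (WW g q t p * up F t p +
        ENNReal.ofReal (W * e * Real.exp (-‖p.2‖))) := by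
        refine lintegral_mono fun p => ?_
        have h1 : up G t p ≤ up F t p + ENNReal.ofReal (e * Real.exp (-‖p.2‖)) :=
          (ENNReal.ofReal_le_ofReal (hFG p)).trans ENNReal.ofReal_add_le
        calc WW g q t p * up G t p ≤ WW g q t p * (up F t p +
              ENNReal.ofReal (e * Real.exp (-‖p.2‖))) := by gcongr
          _ = WW g q t p * up F t p + WW g q t p * ENNReal.ofReal (e * Real.exp (-‖p.2‖)) :=
              mul_add _ _ _
          _ ≤ WW g q t p * up F t p + ENNReal.ofReal W * ENNReal.ofReal (e * Real.exp (-‖p.2‖)) := by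
              gcongr; exact hWt p
          _ = _ := by rw [← ENNReal.ofReal_mul hW0.le, mul_assoc W]
    _ = Phi g q (up F) t + ∫⁻ p : Om, ENNReal.ofReal (W * e * Real.exp (-‖p.2‖)) :=
        lintegral_add_left hm _
    _ ≤ _ := by
        gcongr
        rw [← ofReal_integral_eq_lintegral_ofReal ((int_exp_om hb).const_mul _)
          (Eventually.of_forall fun p => by positivity), integral_const_mul]
        refine ENNReal.ofReal_le_ofReal ?_
        rw [← hI]; nlinarith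

/-- Upper bound of the functional by the mass outside the cold sets. -/
lemma phi_le (hb : Base) (hc : BaseC) (hWU : WUStmt) {g : Geo} (hg : g.Ok) {q : Par}
    (hp : 0 ≤ q.p) (hD : 2 * g.R ^ 6 < q.D) {T : ℝ} (hT : 0 < T) (hT1 : T ≤ 1) {Rk δ : ℝ}
    {F₀ : Om → ℝ} {F : ℝ → Om → ℝ} (h : TS Rk δ F₀ F) :
    Phi g q (up F) T ≤ ENNReal.ofReal (2 * (g.κ * T)⁻¹ ^ 18 * ∫ p in (⋃ j, Cold g j T)ᶜ, F T p) := by
  have hB := hc.gb g hg
  have hκ := hg.κ0
  have h0 := hB.te.1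
  set A : Set Om := (⋃ j, Cold g j T)ᶜ with hA
  have hAm : MeasurableSet A := (MeasurableSet.iUnion fun j => (hc.me.tube g j).2.2.2 T).compl
  set W : ℝ := 2 * (g.κ * T)⁻¹ ^ 18 with hW
  have hW0 : 0 ≤ W := by positivity
  have hint := int_ts hb h hT.le
  calc Phi g q (up F) T ≤ ∫⁻ p, A.indicator (fun p => ENNReal.ofReal (W * F T p)) p := by
        refine lintegral_mono fun p => ?_
        by_cases hpA : p ∈ A
        · rw [indicator_of_mem hpA, ENNReal.ofReal_mul hW0]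
          refine mul_le_mul' ?_ le_rfl
          refine ((hWU g q hg hp).1 T ⟨hT.le, hT1⟩ p).trans (ENNReal.ofReal_le_ofReal ?_)
          have h1 : T ≤ g.te T := by rw [hB.te.2.2 T]; linarith
          have h2 : (g.κ * g.te T)⁻¹ ≤ (g.κ * T)⁻¹ := inv_anti₀ (by positivity) (by gcongr)
          have h3 : 0 ≤ (g.κ * g.te T)⁻¹ := by have : 0 < g.te T := by linarith
                                               positivity
          rw [hW]; gcongr
        · have : p ∈ ⋃ j, Cold g j T := by simpa [hA] using hpA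
          obtain ⟨j, hj⟩ := mem_iUnion.1 this
          simp only [(hWU g q hg hp).2.2.2 hD j T ⟨hT.le, hT1⟩ p hj, zero_mul]
          exact zero_le
    _ = ∫⁻ p in A, ENNReal.ofReal (W * F T p) := lintegral_indicator hAm _
    _ = _ := by
        rw [← ofReal_integral_eq_lintegral_ofReal ((hint.const_mul W).integrableOn)
          (Eventually.of_forall fun p => mul_nonneg hW0 (h.nonneg T p)), integral_const_mul]

/-- Mass of a quiet solution outside the cold sets. -/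
lemma quiet (hb : Base) (hc : BaseC) {g : Geo} (hg : g.Ok) {C₂ : ℝ} (hP : PPP g C₂) (hC : 0 ≤ C₂)
    {Λ : ℕ} (hΛ : 1 ≤ Λ) {T : ℝ} (hT : 0 ≤ T) (hT1 : T ≤ g.R) {Rk δ : ℝ}
    {F₀ : Om → ℝ} {F : ℝ → Om → ℝ} (h : TS Rk δ F₀ F) (hL : Lin g Λ (g.R ^ 19) T (up F)) :
    ∫ p in (⋃ j, Cold g j T)ᶜ, F T p ≤ 2 * C₂ * g.R ^ 19 := by
  have hB := hc.gb g hg
  have hR := hg.R0
  have hT32 : T ∈ Icc (0 : ℝ) (1 / 32) := ⟨hT, by linarith [hB.R_le]⟩
  set A : Set Om := (⋃ j, Cold g j T)ᶜ with hA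
  have hAm : MeasurableSet A := (MeasurableSet.iUnion fun j => (hc.me.tube g j).2.2.2 T).compl
  have hint := int_ts hb h hT
  have hψ : Measurable (psE g T) := hc.alg.jm_time _ (hc.me.jm g).2.2.2.1 T
  have key : ∀ p ∈ A, ENNReal.ofReal (F T p) ≤ ENNReal.ofReal (2 * g.R ^ 19) * psE g T p := by
    intro p hp
    have h1 : CC g T p = 0 := by
      by_contra hne
      obtain ⟨j, -, hj⟩ := hB.cc_supp T ⟨hT, by linarith [hT32.2]⟩ p hne
      exact hp (mem_iUnion.2 ⟨j, hj⟩)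
    have hl : (0 : ℝ) ≤ 1 / (8 * Λ) := by positivity
    have hl' : (1 : ℝ) / (8 * Λ) ≤ 1 / 8 := by
      have : (1 : ℝ) ≤ Λ := by exact_mod_cast hΛ
      exact one_div_le_one_div_of_le (by norm_num) (by linarith)
    obtain ⟨t1, t2, -, -⟩ := hB.tau_bd _ hl hl' T hT32 p
    have t0 : 0 ≤ tau g (1 / (8 * Λ)) T p := by
      have := hB.te.1; have := hB.te.2.2 T; linarith
    have hps : 0 ≤ ps g T p := by
      have := hB.ps_bd T hT32 p; linarith [this.2.1, this.2.2.2.1]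
    have h2 : wt g (1 / (8 * Λ)) Λ T p ≤ psE g T p := by
      refine ENNReal.ofReal_le_ofReal ?_
      have := pow_le_one₀ (n := Λ) t0 t2
      nlinarith
    have h3 := hL T ⟨hT, le_rfl⟩ p
    have h4 : up F T p ≤ ENNReal.ofReal (g.R ^ 19) * psE g T p + Z0 g Λ T p := tsub_le_iff_right.1 h3
    calc ENNReal.ofReal (F T p) ≤ ENNReal.ofReal (g.R ^ 19) * psE g T p + Z0 g Λ T p := h4
      _ ≤ ENNReal.ofReal (g.R ^ 19) * psE g T p + ENNReal.ofReal (g.R ^ 19) * psE g T p := by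
          gcongr
          simp only [Z0, h1, zero_add]
          gcongr
      _ = _ := by
          rw [← add_mul, ← ENNReal.ofReal_add (by positivity) (by positivity), two_mul]
  have hψint : ∫⁻ p, psE g T p ≤ ENNReal.ofReal C₂ := by
    have h1 : (volume : Measure T3) univ = 1 := hb.torus.2.2.2.2.2.1
    rw [Measure.volume_eq_prod, lintegral_prod _ hψ.aemeasurable]
    calc ∫⁻ x : T3, ∫⁻ u, psE g T (x, u) ≤ ∫⁻ _ : T3, ENNReal.ofReal C₂ :=
          lintegral_mono fun x => hP.dens T hT32 x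
      _ = _ := by rw [lintegral_const, h1, mul_one]
  have fin : ENNReal.ofReal (∫ p in A, F T p) ≤ ENNReal.ofReal (2 * C₂ * g.R ^ 19) := by
    rw [ofReal_integral_eq_lintegral_ofReal hint.integrableOn
      (Eventually.of_forall fun p => h.nonneg T p)]
    calc ∫⁻ p in A, ENNReal.ofReal (F T p)
        ≤ ∫⁻ p in A, ENNReal.ofReal (2 * g.R ^ 19) * psE g T p :=
          setLIntegral_mono' hAm key
      _ ≤ ∫⁻ p, ENNReal.ofReal (2 * g.R ^ 19) * psE g T p := setLIntegral_le_lintegral _ _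
      _ = ENNReal.ofReal (2 * g.R ^ 19) * ∫⁻ p, psE g T p := lintegral_const_mul _ hψ
      _ ≤ ENNReal.ofReal (2 * g.R ^ 19) * ENNReal.ofReal C₂ := by gcongr
      _ = _ := by rw [← ENNReal.ofReal_mul (by positivity)]; ring_nf
  exact (ENNReal.ofReal_le_ofReal_iff (by positivity)).1 fin

/-- The crude growth bound gives the linear regime for tiny seeds. -/
lemma lin_of_he (hc : BaseC) {g : Geo} (hg : g.Ok) {Λ : ℕ} {ε : ℝ} (hH : HEP g Λ ε)
    {s Rk δ e T : ℝ} {F : ST} (hs : 0 ≤ s) (hR : 0 < Rk) (hF : Sub g s Rk δ F)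
    (hT : T ∈ Icc (0 : ℝ) g.R) (h1 : 2 * s * (g.te T / g.te 0) ^ Λ ≤ ε)
    (h2 : 2 * s * (g.te T / g.te 0) ^ Λ ≤ e) : Lin g Λ e T F := by
  have hB := hc.gb g hg
  intro t ht p
  refine ((hH s Rk δ F hs hR hF).2 T hT h1 t ht p).trans ?_
  refine mul_le_mul' (ENNReal.ofReal_le_ofReal (le_trans ?_ h2)) le_rfl
  have h0 := hB.te.1
  have a1 : g.te t ≤ g.te T := by rw [hB.te.2.2 t, hB.te.2.2 T]; linarith [ht.2]
  have a2 : 0 ≤ g.te t := by rw [hB.te.2.2 t]; linarith [ht.1]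
  gcongr

/-- Shooting in the seed. -/
lemma core (hb : Base) (hc : BaseC) (hIF : IFStmt) (hWU : WUStmt) (hD : DatStmt) (hB : BootStmt)
    {g : Geo} {q : Par} {Λ : ℕ} {η C c₂ ε C₁ C₂ ε₀ ε₁ T Cm a b : ℝ} (hg : g.Ok) (hp : 0 ≤ q.p)
    (hboot : ∀ s ∈ Icc (0 : ℝ) b, BootH g q Λ η C c₂ ε C₁ C₂ ε₀ ε₁ s T)
    (hM : MonoP g q Cm) (hCm : Cm * q.V * ε₀ ≤ 1) (hVT : q.V * T ≤ g.R / 4)
    (hT : T ∈ Icc (0 : ℝ) g.R) (ha : 0 < a) (hab : a ≤ b) (hb1 : b ≤ 1) (hε₁ : 0 < ε₁)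
    (h1 : 2 * a * (g.te T / g.te 0) ^ Λ ≤ ε) (h2 : 2 * a * (g.te T / g.te 0) ^ Λ ≤ ε₀)
    (h3 : 2 * a * (g.te T / g.te 0) ^ Λ ≤ g.R ^ 19)
    (hphi : ENNReal.ofReal (4 * ε₁) ≤
      ENNReal.ofReal b * ∫⁻ p, WW g q 0 p * ENNReal.ofReal (Mx p.2)) :
    ∃ R₁ δ₁ : ℝ, 0 < R₁ ∧ 0 < δ₁ ∧ ∀ Rk δ, R₁ ≤ Rk → 0 < δ → δ ≤ δ₁ →
      ∃ (s : ℝ) (F₁ F₂ : ℝ → Om → ℝ), s ∈ Icc a b ∧ TS Rk δ (seed g a) F₁ ∧
        TS Rk δ (seed g s) F₂ ∧ Lin g Λ (g.R ^ 19) T (up F₁) ∧
        ENNReal.ofReal (ε₁ / 2) < Phi g q (up F₂) T := by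
  obtain ⟨R₁, δ₁, hR₁, hδ₁, hM⟩ := hM
  refine ⟨R₁, δ₁, hR₁, hδ₁, fun Rk δ hRk hδ hδ' => ?_⟩
  have hRk0 : 0 < Rk := hR₁.trans_le hRk
  have hGB := hc.gb g hg
  obtain ⟨-, hB0, C₀, hC₀⟩ := hD.1 g hg
  have hex : ∀ s : ℝ, ∃ F : ℝ → Om → ℝ, s ∈ Icc (0 : ℝ) 1 → TS Rk δ (seed g s) F := by
    intro s
    by_cases hs : s ∈ Icc (0 : ℝ) 1
    · obtain ⟨F, hF⟩ := hb.tsEx Rk δ C₀ hRk0 hδ _ (hC₀ s hs)
      exact ⟨F, fun _ => hF⟩
    · exact ⟨fun _ _ => 0, fun h => absurd h hs⟩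
  choose F hF using hex
  have hI : ∀ s ∈ Icc a b, s ∈ Icc (0 : ℝ) 1 := fun s hs => ⟨ha.le.trans hs.1, hs.2.trans hb1⟩
  have hS : ∀ s ∈ Icc a b, Sub g s Rk δ (up (F s)) := fun s hs =>
    hIF g s Rk δ (F s) hg (hI s hs).1 hRk0 hδ (hF s (hI s hs))
  have hbo : ∀ s ∈ Icc a b, BootH g q Λ η C c₂ ε C₁ C₂ ε₀ ε₁ s T := fun s hs =>
    hboot s ⟨(hI s hs).1, hs.2⟩
  have haa : a ∈ Icc a b := ⟨le_rfl, hab⟩
  have hba := hbo a haa
  by_contra hcon
  push Not at hcon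
  have hsm : ∀ s ∈ Icc a b, Phi g q (up (F s)) T ≤ ENNReal.ofReal (ε₁ / 2) := fun s hs =>
    hcon s (F a) (F s) hs (hF a (hI a haa)) (hF s (hI s hs))
      (lin_of_he hc hg hba.he ha.le hRk0 (hS a haa) hT h1 h3)
  have hmono : ∀ s ∈ Icc a b, Lin g Λ ε₀ T (up (F s)) → ∀ t ∈ Icc (0 : ℝ) T,
      Phi g q (up (F s)) t ≤ ENNReal.ofReal (3 * (ε₁ / 2)) := by
    intro s hs hl t ht
    refine (hM Λ ε₀ s Rk δ _ hba.Λ1 hba.ε₀0.le hCm (hI s hs).1 hRk hδ' (hS s hs) T hT hVT hl t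
      ht).trans ?_
    rw [ENNReal.ofReal_mul (by norm_num), ENNReal.ofReal_ofNat]
    gcongr
    exact hsm s hs
  obtain ⟨K₀, hK₀⟩ := hb.tsStab Rk δ C₀ T hRk0 hδ
  obtain ⟨L, hL0, hL⟩ := phi_lip hb hc hWU hg hp
  set h : ℝ := ε₁ / (L * (|K₀| + 1)) with hh
  have hh0 : 0 < h := by positivity
  have hT1 : T ≤ 1 := by linarith [hT.2, hGB.R_le]
  have step : ∀ s' ∈ Icc a b, ∀ s ∈ Icc a b, s' ≤ s → s ≤ s' + h → Lin g Λ ε₀ T (up (F s')) →
      Lin g Λ ε₀ T (up (F s)) := by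
    intro s' hs' s hs h4 h5 hl
    refine hB _ _ _ _ _ _ _ _ _ _ _ _ _ (hbo s hs) Rk δ _ hRk0 (hS s hs) fun t ht => ?_
    have hd : ∀ p : Om, |seed g s p - seed g s' p| ≤ h * Real.exp (-‖p.2‖) := by
      intro p
      have e1 : seed g s p - seed g s' p = (s - s') * Mx p.2 := by simp only [seed]; ring
      have e2 := hb.ineq.2.2.2.2.2.2.2.2.2.1 p.2
      have e3 := Mx_pos p.2
      rw [e1, abs_of_nonneg (mul_nonneg (by linarith) e3.le)]
      exact mul_le_mul (by linarith) e2 e3.le hh0.le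
    have hst := hK₀ _ _ _ _ (hC₀ s (hI s hs)) (hC₀ s' (hI s' hs')) (hF s (hI s hs))
      (hF s' (hI s' hs')) h hd t ht
    have hm : Measurable (F s' t) :=
      (hF s' (hI s' hs')).meas.comp (measurable_const.prodMk measurable_id)
    have h6 := hL (F s') (F s) ((|K₀| + 1) * h) t (by positivity) ⟨ht.1, ht.2.trans hT1⟩ hm
      fun p => by
        have e1 := (abs_le.1 (hst p)).2
        have e2 : K₀ * h * Real.exp (-‖p.2‖) ≤ (|K₀| + 1) * h * Real.exp (-‖p.2‖) := by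
          have := le_abs_self K₀
          have := Real.exp_pos (-‖p.2‖)
          gcongr; linarith
        linarith
    have e3 : L * ((|K₀| + 1) * h) = ε₁ := by rw [hh]; field_simp
    calc Phi g q (up (F s)) t ≤ ENNReal.ofReal (3 * (ε₁ / 2)) + ENNReal.ofReal ε₁ := by
          refine h6.trans ?_
          rw [e3]; gcongr; exact hmono s' hs' hl t ht
      _ ≤ ENNReal.ofReal (3 * ε₁) := by
          rw [← ENNReal.ofReal_add (by positivity) hε₁.le]
          exact ENNReal.ofReal_le_ofReal (by linarith)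
  have ind : ∀ n : ℕ, ∀ s ∈ Icc a b, s ≤ a + n * h → Lin g Λ ε₀ T (up (F s)) := by
    intro n
    induction n with
    | zero =>
      intro s hs h4
      have : s = a := le_antisymm (by simpa using h4) hs.1
      rw [this]
      exact lin_of_he hc hg hba.he ha.le hRk0 (hS a haa) hT h1 h2
    | succ n ih =>
      intro s hs h4
      by_cases h5 : s ≤ a + n * h
      · exact ih s hs h5
      · push Not at h5
        have hn : (0 : ℝ) ≤ n * h := by positivity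
        have hs' : a + n * h ∈ Icc a b := ⟨by linarith, by linarith [hs.2]⟩
        refine step _ hs' s hs h5.le ?_ (ih _ hs' le_rfl)
        push_cast at h4; linarith
  obtain ⟨n, hn⟩ := exists_nat_ge ((b - a) / h)
  have hbb : b ∈ Icc a b := ⟨hab, le_rfl⟩
  have hlb := ind n b hbb (by rw [div_le_iff₀ hh0] at hn; linarith)
  have h7 := hmono b hbb hlb 0 ⟨le_rfl, hT.1⟩
  have h8 : ENNReal.ofReal b * ∫⁻ p, WW g q 0 p * ENNReal.ofReal (Mx p.2) ≤
      Phi g q (up (F b)) 0 := by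
    rw [← lintegral_const_mul' _ _ ENNReal.ofReal_ne_top]
    refine lintegral_mono fun p => ?_
    rw [(hS b hbb).init p, mul_left_comm, ← ENNReal.ofReal_mul (hI b hbb).1]
    refine mul_le_mul' le_rfl (ENNReal.ofReal_le_ofReal ?_)
    have := hB0 p
    simp only [seed]; linarith
  have h9 := (ENNReal.ofReal_le_ofReal_iff (by positivity)).1 (hphi.trans (h8.trans h7))
  linarith

end ShootAux

end

end Vale.Agent.P140
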