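import Vale.Agent.P140.Basic

/-!
Statements, part A: collision geometry, torus, calculus along flights, weak compactness,
the truncated problem.
-/

namespace Vale.Agent.P140

open MeasureTheory Set Filter Topology
open scoped ENNReal

noncomputable section

/-! ### Collision geometry -/

/-- The pre/post collision map preserves Lebesgue measure. -/
def PrePostStmt : Prop :=
  MeasurePreserving
    (fun z : E × E × S2 => (vp z.1 z.2.1 z.2.2, wp z.1 z.2.1 z.2.2, z.2.2))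
    ((volume : Measure E).prod ((volume : Measure E).prod sph))
    ((volume : Measure E).prod ((volume : Measure E).prod sph))

/-- A kernel is a jointly measurable function. -/
def IsKer (k : ℝ → ℝ → ℝ) : Prop := Measurable (fun z : ℝ × ℝ => k z.1 z.2)

/-- Measurability of the collision operators in parameters; kernels; relation with Qp, Qm. -/
def MeasStmt : Prop :=
  IsKer kF ∧ (∀ R, IsKer (kT R)) ∧ (∀ R, IsKer (kC R)) ∧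
  (∀ (α : Type) [MeasurableSpace α] (k : ℝ → ℝ → ℝ) (f g : α → E → ℝ≥0∞) (u : α → E), IsKer k →
    Measurable (fun z : α × E => f z.1 z.2) → Measurable (fun z : α × E => g z.1 z.2) →
    Measurable u →
    Measurable (fun a => gainK k (f a) (g a) (u a)) ∧ Measurable (fun a => freqK k (g a) (u a))) ∧
  (∀ (F : ℝ → Om → ℝ), Measurable (fun y : ℝ × Om => F y.1 y.2) → ∀ R δ : ℝ,
    Measurable (fun y : ℝ × T3 => rho (F y.1) y.2) ∧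
    Measurable (fun y : ℝ × Om => gT R δ (F y.1) y.2) ∧
    Measurable (fun y : ℝ × Om => nT R δ (F y.1) y.2) ∧
    Measurable (fun y : ℝ × Om => nu (F y.1) y.2) ∧
    Measurable (fun y : ℝ × Om => eT R δ (F y.1) y.2) ∧
    Measurable (fun y : ℝ × Om => Qp (F y.1) y.2) ∧
    Measurable (fun y : ℝ × Om => Qm (F y.1) y.2) ∧
    Measurable (fun t : ℝ => diss (F t)) ∧ Measurable (fun t : ℝ => relEnt (F t))) ∧
  Measurable (fun z : ℝ × ℝ => jj z.1 z.2) ∧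
  (∀ (f : Om → ℝ) (p : Om), Measurable f → (∀ p, 0 ≤ f p) →
    Qp f p = gainK kF (sl f p.1) (sl f p.1) p.2 ∧
    Qm f p = ENNReal.ofReal (f p) * freqK kF (sl f p.1) p.2)

/-- Weak form of the gain term, and the exchange v ↔ w. -/
def WeakStmt : Prop :=
  (∀ (k : ℝ → ℝ → ℝ) (f g φ : E → ℝ≥0∞), IsKer k → Measurable f → Measurable g → Measurable φ →
    ∫⁻ v, φ v * gainK k f g v =
      ∫⁻ v, f v * ∫⁻ q : E × S2, ENNReal.ofReal (k |cf v q.1 q.2| ‖v - q.1‖) *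
        (g q.1 * φ (vp v q.1 q.2)) ∂(volume.prod sph)) ∧
  (∀ (k : ℝ → ℝ → ℝ) (f g φ : E → ℝ≥0∞), IsKer k → Measurable f → Measurable g → Measurable φ →
    ∫⁻ v, φ v * gainK k f g v =
      ∫⁻ v, g v * ∫⁻ q : E × S2, ENNReal.ofReal (k |cf v q.1 q.2| ‖v - q.1‖) *
        (f q.1 * φ (wp v q.1 q.2)) ∂(volume.prod sph)) ∧
  (∀ Φ : E × E × S2 → ℝ≥0∞, Measurable Φ →
    ∫⁻ v, ∫⁻ q : E × S2, Φ (v, q.1, q.2) ∂(volume.prod sph) =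
      ∫⁻ v, ∫⁻ q : E × S2, Φ (q.1, v, q.2) ∂(volume.prod sph)) ∧
  (∀ Φ : E × E × S2 → ℝ≥0∞, Measurable Φ →
    ∫⁻ v, ∫⁻ q : E × S2, Φ (v, q.1, q.2) ∂(volume.prod sph) =
      ∫⁻ v, ∫⁻ q : E × S2, Φ (vp v q.1 q.2, wp v q.1 q.2, q.2) ∂(volume.prod sph))

/-- Graph parametrization of the plane orthogonal to p. -/
def gr (p : E) (y : ℝ × ℝ) : E := !₂[y.1, y.2, -(p 0 * y.1 + p 1 * y.2) / p 2]

/-- Carleman representation, graph form. -/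
def GraphStmt : Prop :=
  ∀ (Φ : E × E → ℝ≥0∞), Measurable Φ → ∀ v : E,
    ∫⁻ q : E × S2, ENNReal.ofReal |cf v q.1 q.2| * Φ (v - vp v q.1 q.2, v - wp v q.1 q.2)
        ∂(volume.prod sph) =
      2 * ∫⁻ p : E, ∫⁻ y : ℝ × ℝ, (ENNReal.ofReal |p 2|)⁻¹ * Φ (p, gr p y)

/-- Carleman representation. -/
def CarlStmt : Prop :=
  ∃ ι : E → (E2 →ₗᵢ[ℝ] E), (∀ p y, inner ℝ (ι p y) p = 0) ∧
    ∀ (Φ : E × E → ℝ≥0∞), Measurable Φ →
      AEMeasurable (fun p : E => ∫⁻ y : E2, Φ (p, ι p y)) volume ∧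
      ∀ v : E,
      ∫⁻ q : E × S2, ENNReal.ofReal |cf v q.1 q.2| * Φ (v - vp v q.1 q.2, v - wp v q.1 q.2)
          ∂(volume.prod sph) =
        2 * ∫⁻ p : E, (ENNReal.ofReal ‖p‖)⁻¹ * ∫⁻ y : E2, Φ (p, ι p y)

/-- Symmetry of the hard-sphere gain term in dimension three. -/
def SymStmt : Prop :=
  (∀ (Φ : E × E → ℝ≥0∞), Measurable Φ → ∀ v : E,
    ∫⁻ q : E × S2, ENNReal.ofReal |cf v q.1 q.2| * Φ (vp v q.1 q.2, wp v q.1 q.2)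
        ∂(volume.prod sph) =
      ∫⁻ q : E × S2, ENNReal.ofReal |cf v q.1 q.2| * Φ (wp v q.1 q.2, vp v q.1 q.2)
        ∂(volume.prod sph)) ∧
  (∀ (f g : E → ℝ≥0∞), Measurable f → Measurable g → ∀ v : E,
    gainK kF f g v = gainK kF g f v ∧ ∀ R, gainK (kC R) f g v = gainK (kC R) g f v)

/-- Archimedes: the height function on the sphere is uniformly distributed. -/
def ArchStmt : Prop :=
  ∀ n : E, ‖n‖ = 1 → ∀ f : ℝ → ℝ≥0∞, Measurable f →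
    ∫⁻ ω : S2, f (inner ℝ n (ω : E)) ∂sph =
      ENNReal.ofReal (2 * Real.pi) * ∫⁻ u in Icc (-1 : ℝ) 1, f u

/-! ### Torus and flights -/

def TorusStmt : Prop :=
  Measurable rep ∧ (∀ x, pr (rep x) = x) ∧ (∀ x i, rep x i ∈ Ico (-1 / 2 : ℝ) (1 / 2)) ∧
  (∀ X : E, (∀ i, X i ∈ Ico (-1 / 2 : ℝ) (1 / 2)) → rep (pr X) = X) ∧
  MeasurePreserving rep (volume : Measure T3)
    ((volume : Measure E).restrict {X : E | ∀ i, X i ∈ Ico (-1 / 2 : ℝ) (1 / 2)}) ∧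
  (volume : Measure T3) univ = 1 ∧
  (∀ s : ℝ, MeasurePreserving (fl s) (volume : Measure Om) volume) ∧
  (∀ (μ : Measure ℝ) [SFinite μ] (c d : ℝ),
    MeasurePreserving (fun y : ℝ × Om => (y.1, fl (c * y.1 + d) y.2))
      (μ.prod (volume : Measure Om)) (μ.prod volume)) ∧
  (∀ (x : T3) (τ V : ℝ) (f : T3 → ℝ≥0∞), Measurable f → 0 < τ → τ * V ≤ 1 / 2 →
    ∫⁻ v in Metric.ball (0 : E) V, f (x - pr (τ • v)) ≤ ENNReal.ofReal (τ⁻¹ ^ 3) * ∫⁻ y, f y)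

/-- Test functions along flights. -/
def TestStmt : Prop :=
  (∀ φ, IsTest φ →
    Continuous (fun y : ℝ × Om => φ y.1 y.2) ∧ Continuous (fun y : ℝ × Om => trans φ y.1 y.2) ∧
    (∀ t p, HasDerivAt (fun s => φ s (fl s p)) (trans φ t (fl t p)) t) ∧
    ∃ R C : ℝ, 0 < R ∧ (∀ t p, (R < t ∨ R < ‖p.2‖) → φ t p = 0 ∧ trans φ t p = 0) ∧
      ∀ t p, 0 ≤ t → |φ t p| ≤ C ∧ |trans φ t p| ≤ C) ∧
  (∀ χ, IsTestX χ →
    Continuous (fun y : ℝ × T3 => χ y.1 y.2) ∧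
    Continuous (fun y : ℝ × Om => trans (fun t p => χ t p.1) y.1 y.2) ∧
    (∀ t (p : Om), HasDerivAt (fun s => χ s (fl s p).1)
      (trans (fun t p => χ t p.1) t (fl t p)) t) ∧
    ∃ R C : ℝ, 0 < R ∧ (∀ t (p : Om), R < t → χ t p.1 = 0 ∧ trans (fun t p => χ t p.1) t p = 0) ∧
      ∀ t (p : Om), 0 ≤ t → |χ t p.1| ≤ C ∧ |trans (fun t p => χ t p.1) t p| ≤ C * (1 + ‖p.2‖))

/-! ### Calculus for primitives of integrable functions -/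

/-- Chain rule. -/
def ChainStmt : Prop :=
  ∀ (V : Type) [NormedAddCommGroup V] [NormedSpace ℝ V] [CompleteSpace V]
    (a b : ℝ) (y g : ℝ → V) (S : Set V) (Φ : V → ℝ) (Φ' : V → V →L[ℝ] ℝ),
    a ≤ b → IntervalIntegrable g volume a b → (∀ t ∈ Icc a b, y t = y a + ∫ s in a..t, g s) →
    Convex ℝ S → (∀ t ∈ Icc a b, y t ∈ S) → (∀ z ∈ S, HasFDerivWithinAt Φ (Φ' z) S z) →
    ContinuousOn Φ' S →
    IntervalIntegrable (fun s => Φ' (y s) (g s)) volume a b ∧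
      Φ (y b) = Φ (y a) + ∫ s in a..b, Φ' (y s) (g s)

/-- Integrating factors. -/
def ExpStmt : Prop :=
  (∀ (a b : ℝ) (y q n : ℝ → ℝ), a ≤ b → IntervalIntegrable q volume a b →
    IntervalIntegrable n volume a b → ContinuousOn y (Icc a b) →
    (∀ t ∈ Icc a b, y t = y a + ∫ s in a..t, (q s - n s * y s)) →
    y b = y a * Real.exp (-∫ s in a..b, n s) + ∫ r in a..b, q r * Real.exp (-∫ s in r..b, n s)) ∧
  (∀ (a b y₀ : ℝ) (y q n : ℝ → ℝ), a ≤ b → IntervalIntegrable q volume a b →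
    IntervalIntegrable n volume a b →
    (∀ t ∈ Icc a b, y t = y₀ * Real.exp (-∫ s in a..t, n s) +
      ∫ r in a..t, q r * Real.exp (-∫ s in r..t, n s)) →
    ContinuousOn y (Icc a b) ∧ ∀ t ∈ Icc a b, y t = y₀ + ∫ s in a..t, (q s - n s * y s))

/-! ### Weak compactness along an ultrafilter -/

/-- The ultrafilter along which limits are taken. -/
def UF : Filter ℕ := (Filter.hyperfilter ℕ : Filter ℕ)

/-- Uniform integrability (with tightness). -/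
def UI {α : Type} [MeasurableSpace α] (μ : Measure α) (f : ℕ → α → ℝ) : Prop :=
  (∀ n, Measurable (f n)) ∧ ∀ ε : ℝ, 0 < ε → ∃ g : α → ℝ, Measurable g ∧ (∀ x, 0 ≤ g x) ∧
    Integrable g μ ∧ ∀ n, ∫⁻ x, ENNReal.ofReal (|f n x| - g x) ∂μ ≤ ENNReal.ofReal ε

/-- Weak L¹ limit along UF. -/
def WL {α : Type} [MeasurableSpace α] (μ : Measure α) (f : ℕ → α → ℝ) (g : α → ℝ) : Prop :=
  Measurable g ∧ Integrable g μ ∧ ∀ ψ : α → ℝ, Measurable ψ → (∃ C : ℝ, ∀ x, |ψ x| ≤ C) →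
    Tendsto (fun n => ∫ x, f n x * ψ x ∂μ) UF (𝓝 (∫ x, g x * ψ x ∂μ))

/-- Local convergence in measure along UF. -/
def MC {α : Type} [MeasurableSpace α] (μ : Measure α) (a : ℕ → α → ℝ) (b : α → ℝ) : Prop :=
  (∀ n, Measurable (a n)) ∧ Measurable b ∧ ∀ g : α → ℝ, Measurable g → (∀ x, 0 ≤ g x) →
    Integrable g μ → Tendsto (fun n => ∫ x, g x * min 1 |a n x - b x| ∂μ) UF (𝓝 0)

/-- Basic facts on UI. -/
def UIStmt : Prop :=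
  UF ≤ atTop ∧ UF.NeBot ∧
  ∀ (α : Type) [MeasurableSpace α] (μ : Measure α),
    (∀ f, UI μ f → (∀ n, Integrable (f n) μ) ∧ ∃ C : ℝ, ∀ n, ∫ x, |f n x| ∂μ ≤ C) ∧
    (∀ f, UI μ f → ∀ ε : ℝ, 0 < ε → ∃ (M : ℝ) (A : Set α), 0 ≤ M ∧ MeasurableSet A ∧ μ A < ⊤ ∧
      ∀ n, ∫⁻ x, ENNReal.ofReal (|f n x| - A.indicator (fun _ => M) x) ∂μ ≤ ENNReal.ofReal ε) ∧
    (∀ f, UI μ f → ∀ ε : ℝ, 0 < ε → ∃ η : ℝ, 0 < η ∧ ∀ A, MeasurableSet A →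
      μ A ≤ ENNReal.ofReal η → ∀ n, ∫ x in A, |f n x| ∂μ ≤ ε) ∧
    (∀ f g : ℕ → α → ℝ, UI μ f → (∀ n, Measurable (g n)) →
      (∀ n, ∀ᵐ x ∂μ, |g n x| ≤ |f n x|) → UI μ g) ∧
    (∀ f g : ℕ → α → ℝ, UI μ f → UI μ g → UI μ (fun n x => f n x + g n x)) ∧
    (∀ (f : ℕ → α → ℝ) (c : ℝ), UI μ f → UI μ (fun n x => c * f n x)) ∧
    (∀ f : ℕ → α → ℝ, (∀ n, Measurable (f n)) → (∀ ε : ℝ, 0 < ε → ∃ g : ℕ → α → ℝ, UI μ g ∧
      ∀ n, ∫⁻ x, ENNReal.ofReal (|f n x| - |g n x|) ∂μ ≤ ENNReal.ofReal ε) → UI μ f) ∧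
    (∀ (β : Type) [MeasurableSpace β] (ν : Measure β) (e : α → β) (f : ℕ → β → ℝ),
      MeasurePreserving e μ ν → UI ν f → UI μ (fun n x => f n (e x))) ∧
    (∀ (β : Type) [MeasurableSpace β] (ν : Measure β) [SFinite ν] (f : ℕ → α × β → ℝ),
      UI (μ.prod ν) f → UI μ (fun n x => ∫ y, f n (x, y) ∂ν))

/-- Existence of weak limits. -/
def WLExStmt : Prop :=
  ∀ (α : Type) [MeasurableSpace α] (μ : Measure α) [SigmaFinite μ] (f : ℕ → α → ℝ),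
    (∀ n x, 0 ≤ f n x) → UI μ f → ∃ g, (∀ x, 0 ≤ g x) ∧ WL μ f g

/-- Products of weakly and strongly convergent sequences, lower semicontinuity. -/
def WLStmt : Prop :=
  ∀ (α : Type) [MeasurableSpace α] (μ : Measure α) [SigmaFinite μ],
    (∀ (f a : ℕ → α → ℝ) (g b : α → ℝ) (C : ℝ), UI μ f → WL μ f g → MC μ a b →
      (∀ n x, |a n x| ≤ C) → (∀ x, |b x| ≤ C) →
      Tendsto (fun n => ∫ x, f n x * a n x ∂μ) UF (𝓝 (∫ x, g x * b x ∂μ))) ∧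
    (∀ (f a : ℕ → α → ℝ) (g b : α → ℝ) (C : ℝ), (∀ n, Measurable (f n)) → (∀ n x, |f n x| ≤ C) →
      WL μ f g → (∀ n, Integrable (f n) μ) → (∀ n, Integrable (a n) μ) → Integrable b μ →
      Tendsto (fun n => ∫ x, |a n x - b x| ∂μ) UF (𝓝 0) →
      Tendsto (fun n => ∫ x, f n x * a n x ∂μ) UF (𝓝 (∫ x, g x * b x ∂μ))) ∧
    (∀ (f : ℕ → α → ℝ) (g : α → ℝ) (Φ : α → ℝ≥0∞) (c : ℝ≥0∞), UI μ f → (∀ n x, 0 ≤ f n x) →
      WL μ f g → Measurable Φ →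
      (∀ᶠ n in UF, ∫⁻ x, ENNReal.ofReal (f n x) * Φ x ∂μ ≤ c) →
      ∫⁻ x, ENNReal.ofReal (g x) * Φ x ∂μ ≤ c) ∧
    (∀ (f : ℕ → α → ℝ) (g W ψ : α → ℝ) (C : ℝ), UI μ f → (∀ n x, 0 ≤ f n x) → WL μ f g →
      Measurable W → (∀ x, 1 ≤ W x) → (∀ n, Integrable (fun x => f n x * W x ^ 2) μ) →
      (∀ n, ∫ x, f n x * W x ^ 2 ∂μ ≤ C) → Measurable ψ → (∀ x, |ψ x| ≤ C * W x) →
      Integrable (fun x => g x * W x ^ 2) μ ∧
      Tendsto (fun n => ∫ x, f n x * ψ x ∂μ) UF (𝓝 (∫ x, g x * ψ x ∂μ))) ∧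
    (∀ (f f' : ℕ → α → ℝ) (g g' : α → ℝ), UI μ f → UI μ f' → WL μ f g → WL μ f' g' →
      (∀ n, ∀ᵐ x ∂μ, f n x ≤ f' n x) → ∀ᵐ x ∂μ, g x ≤ g' x) ∧
    (∀ (f : ℕ → α → ℝ) (g : α → ℝ) (c : ℝ), UI μ f → WL μ f g →
      (∀ᶠ n in UF, ∫ x, |f n x| ∂μ ≤ c) → ∫ x, |g x| ∂μ ≤ c) ∧
    (∀ (e : α ≃ᵐ α) (f : ℕ → α → ℝ) (g : α → ℝ), MeasurePreserving e μ μ → WL μ f g →
      WL μ (fun n x => f n (e x)) (fun x => g (e x)))

/-- Convergence in measure. -/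
def MCStmt : Prop :=
  ∀ (α : Type) [MeasurableSpace α] (μ : Measure α) [SigmaFinite μ],
    (∀ (a : ℕ → α → ℝ) (b : α → ℝ) (A : ℕ → Set α), (∀ n, Measurable (a n)) → Measurable b →
      (∀ k, MeasurableSet (A k)) → Monotone A → (∀ x, ∃ k, x ∈ A k) →
      (∀ k, Tendsto (fun n => ∫⁻ x in A k, ENNReal.ofReal |a n x - b x| ∂μ) UF (𝓝 0)) →
      MC μ a b) ∧
    (∀ (a a' : ℕ → α → ℝ) (b b' : α → ℝ) (Φ : ℝ × ℝ → ℝ), Continuous Φ → MC μ a b → MC μ a' b' →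
      MC μ (fun n x => Φ (a n x, a' n x)) (fun x => Φ (b x, b' x))) ∧
    (∀ (b : α → ℝ), Measurable b → MC μ (fun _ => b) b) ∧
    (∀ (c : ℕ → ℝ) (d : ℝ), Tendsto c UF (𝓝 d) → MC μ (fun n _ => c n) (fun _ => d)) ∧
    (∀ (a : ℕ → α → ℝ) (b : α → ℝ), UI μ a → MC μ a b → Integrable b μ →
      Tendsto (fun n => ∫ x, |a n x - b x| ∂μ) UF (𝓝 0)) ∧
    (∀ (β : Type) [MeasurableSpace β] (ν : Measure β) [SFinite ν] (a : ℕ → α → ℝ) (b : α → ℝ),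
      MC μ a b → MC (μ.prod ν) (fun n x => a n x.1) (fun x => b x.1)) ∧
    (∀ (β : Type) [MeasurableSpace β] (ν : Measure β) [SFinite ν] (a : ℕ → α → ℝ) (b : α → ℝ),
      MC μ a b → MC (ν.prod μ) (fun n x => a n x.2) (fun x => b x.2)) ∧
    (∀ (β : Type) [MeasurableSpace β] (ν : Measure β) (e : β ≃ᵐ α) (a : ℕ → α → ℝ) (b : α → ℝ),
      MeasurePreserving e ν μ → MC μ a b → MC ν (fun n x => a n (e x)) (fun x => b (e x)))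

/-- Identification of a weak limit on a triple product from rectangles. -/
def RectStmt : Prop :=
  ∀ (α β : Type) [MeasurableSpace α] [MeasurableSpace β] (μ : Measure α) (ν : Measure β)
    [SigmaFinite μ] [SigmaFinite ν] (f : ℕ → α × β × β → ℝ) (g : α × β × β → ℝ),
    (∀ n x, 0 ≤ f n x) → UI (μ.prod (ν.prod ν)) f → Measurable g → (∀ x, 0 ≤ g x) →
    Integrable g (μ.prod (ν.prod ν)) →
    (∀ A B C, MeasurableSet A → MeasurableSet B → MeasurableSet C →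
      Tendsto (fun n => ∫ x in A ×ˢ B ×ˢ C, f n x ∂(μ.prod (ν.prod ν))) UF
        (𝓝 (∫ x in A ×ˢ B ×ˢ C, g x ∂(μ.prod (ν.prod ν))))) →
    WL (μ.prod (ν.prod ν)) f g

/-! ### The truncated problem -/

/-- Admissible data for the truncated problem. -/
def TData (C : ℝ) (F₀ : Om → ℝ) : Prop :=
  Measurable F₀ ∧ ∀ p : Om, 0 ≤ F₀ p ∧ F₀ p ≤ C * Real.exp (-‖p.2‖)

/-- Pointwise estimates of the truncated operators in the weighted sup norm. -/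
def TOpStmt : Prop :=
  ∀ R δ : ℝ, 0 < R → 0 < δ → ∃ L : ℝ, 0 < L ∧
    (∀ (C : ℝ) (f : Om → ℝ), TData C f → ∀ p : Om,
      gainK (kT R) (sl f p.1) (sl f p.1) p.2 ≠ ⊤ ∧ freqK (kT R) (sl f p.1) p.2 ≠ ⊤ ∧
      Integrable (fun v => f (p.1, v)) ∧ 0 ≤ rho f p.1 ∧
      0 ≤ gT R δ f p ∧ gT R δ f p ≤ L * C * Real.exp (-‖p.2‖) ∧
      0 ≤ nT R δ f p ∧ nT R δ f p ≤ L) ∧
    (∀ (C ε : ℝ) (f g : Om → ℝ), TData C f → TData C g →
      (∀ p : Om, |f p - g p| ≤ ε * Real.exp (-‖p.2‖)) → ∀ p : Om,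
      |gT R δ f p - gT R δ g p| ≤ L * (1 + C) ^ 2 * ε * Real.exp (-‖p.2‖) ∧
      |nT R δ f p - nT R δ g p| ≤ L * (1 + C) * ε) ∧
    (∀ (C ε : ℝ) (f g : Om → ℝ), TData C f → TData ε g → ∀ p : Om,
      gainK (kT R) (sl f p.1) (sl g p.1) p.2 ≤ ENNReal.ofReal (L * C * ε * Real.exp (-‖p.2‖)) ∧
      gainK (kT R) (sl g p.1) (sl f p.1) p.2 ≤ ENNReal.ofReal (L * C * ε * Real.exp (-‖p.2‖)))

def TSExStmt : Prop :=
  ∀ R δ C : ℝ, 0 < R → 0 < δ → ∀ F₀, TData C F₀ → ∃ F, TS R δ F₀ F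

/-- Uniform bound and Lipschitz dependence on the datum. -/
def TSStabStmt : Prop :=
  ∀ R δ C T : ℝ, 0 < R → 0 < δ → ∃ K : ℝ, ∀ F₀ G₀ F G, TData C F₀ → TData C G₀ →
    TS R δ F₀ F → TS R δ G₀ G → ∀ ε : ℝ, (∀ p : Om, |F₀ p - G₀ p| ≤ ε * Real.exp (-‖p.2‖)) →
    ∀ t ∈ Icc (0 : ℝ) T, ∀ p : Om, |F t p - G t p| ≤ K * ε * Real.exp (-‖p.2‖)

/-- Flight-wise facts: integrability, continuity, exponential form. -/
def TSFlStmt : Prop :=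
  ∀ R δ F₀ F, 0 < R → 0 < δ → TS R δ F₀ F →
    F 0 = F₀ ∧ (∀ T : ℝ, ∃ C : ℝ, ∀ t ∈ Icc (0 : ℝ) T, TData C (F t)) ∧
    (∀ p s t, 0 ≤ s → 0 ≤ t →
      IntervalIntegrable (fun r => gT R δ (F r) (fl r p)) volume s t ∧
      IntervalIntegrable (fun r => nT R δ (F r) (fl r p)) volume s t ∧
      IntervalIntegrable (fun r => nT R δ (F r) (fl r p) * F r (fl r p)) volume s t) ∧
    (∀ p, ContinuousOn (fun t => F t (fl t p)) (Ici 0)) ∧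
    (∀ p s t, 0 ≤ s → s ≤ t → F t (fl t p) = F s (fl s p) +
      ∫ r in s..t, (gT R δ (F r) (fl r p) - nT R δ (F r) (fl r p) * F r (fl r p))) ∧
    (∀ p s t, 0 ≤ s → s ≤ t → F t (fl t p) =
      F s (fl s p) * Real.exp (-∫ r in s..t, nT R δ (F r) (fl r p)) +
      ∫ r in s..t, gT R δ (F r) (fl r p) * Real.exp (-∫ r' in r..t, nT R δ (F r') (fl r' p)))

/-- Conservation laws of the truncated problem. -/
def TSConsStmt : Prop :=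
  ∀ R δ F₀ F, 0 < R → 0 < δ → TS R δ F₀ F →
    (∀ t, 0 ≤ t → Integrable (fun p : Om => F t p * (1 + ‖p.2‖ ^ 2)) ∧
      ∫ p : Om, F t p = ∫ p : Om, F₀ p ∧ ∫ p : Om, F t p • p.2 = ∫ p : Om, F₀ p • p.2 ∧
      ∫ p : Om, ‖p.2‖ ^ 2 * F t p = ∫ p : Om, ‖p.2‖ ^ 2 * F₀ p) ∧
    (∀ χ, IsTestX χ →
      Integrable (fun y : ℝ × Om => F y.1 y.2 * trans (fun t p => χ t p.1) y.1 y.2) tm ∧
      ∫ y, F y.1 y.2 * trans (fun t p => χ t p.1) y.1 y.2 ∂tm + ∫ p : Om, F₀ p * χ 0 p.1 = 0)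

/-- Entropy inequality of the truncated problem. -/
def TSEntStmt : Prop :=
  ∀ R δ F₀ F, 0 < R → 0 < δ → TS R δ F₀ F → ∀ s : ℝ, 0 < s → (∀ p : Om, s * Mx p.2 ≤ F₀ p) →
    relEnt F₀ < ⊤ ∧ ∀ t, 0 ≤ t →
      relEnt (F t) + (1 / 4) * ∫⁻ r in Icc (0 : ℝ) t, ∫⁻ p, eT R δ (F r) p ≤ relEnt F₀

/-- Elementary inequalities on entropy and dissipation. -/
def IneqStmt : Prop :=
  (∀ A B K : ℝ, 0 ≤ A → 0 ≤ B → 1 < K →
    ENNReal.ofReal A ≤ ENNReal.ofReal (K * B) + jj A B / ENNReal.ofReal (Real.log K)) ∧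
  (∀ A B c : ℝ, 0 ≤ A → 0 ≤ B → 0 < c → jj (A / c) (B / c) = jj A B / ENNReal.ofReal c) ∧
  (∀ A B : ℝ, jj A B = jj B A) ∧
  (∀ A B r : ℝ, 0 ≤ A → 0 ≤ B → 0 < r →
    ENNReal.ofReal ((Real.log r + 1 - r⁻¹) * A + (-Real.log r + 1 - r) * B) ≤ jj A B) ∧
  (∀ f m : ℝ, 0 ≤ f → 0 < m → 0 ≤ f * Real.log (f / m) - f + m ∧
    (∀ K : ℝ, Real.exp 2 ≤ K →
      (f - K * m) * (Real.log K - 1) ≤ f * Real.log (f / m) - f + m) ∧
    (∀ ψ : ℝ, ψ * f - (Real.exp ψ - 1) * m ≤ f * Real.log (f / m) - f + m)) ∧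
  (∃ C : ℝ, ∀ (f : ℝ) (v : E), 0 ≤ f → f * |Real.log f| ≤
    (f * Real.log (f / Mx v) - f + Mx v) + C * (f * (1 + ‖v‖ ^ 2) + Mx v)) ∧
  Integrable Mx ∧ ∫ v, Mx v = 1 ∧ Integrable (fun v => Mx v * (1 + ‖v‖ ^ 2)) ∧
  (∀ v, Mx v ≤ Real.exp (-‖v‖)) ∧
  (∀ F₀, IsDatum F₀ → relEnt F₀ < ⊤)

end

end Vale.Agent.P140
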