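import Vale.Agent.P140.StmA

/-!
Statements, part B: the DiPerna-Lions limit of solutions of the truncated problems.
-/

namespace Vale.Agent.P140

open MeasureTheory Set Filter Topology
open scoped ENNReal

noncomputable section

/-- Lebesgue measure on [0, T]. -/
def mT (T : ℝ) : Measure ℝ := volume.restrict (Icc (0 : ℝ) T)

instance (T : ℝ) : IsFiniteMeasure (mT T) := by unfold mT; infer_instance

/-- [0, T] × T³. -/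
def mX (T : ℝ) : Measure (ℝ × T3) := (mT T).prod volume

/-- [0, T] × Ω. -/
def mY (T : ℝ) : Measure (ℝ × Om) := (mT T).prod volume

/-- [0, T] × T³ × ℝ³ × ℝ³. -/
def mZ (T : ℝ) : Measure ((ℝ × T3) × E × E) := (mX T).prod ((volume : Measure E).prod volume)

instance (T : ℝ) : SigmaFinite (mX T) := by unfold mX; infer_instance
instance (T : ℝ) : SigmaFinite (mY T) := by unfold mY; infer_instance
instance (T : ℝ) : SigmaFinite (mZ T) := by unfold mZ; infer_instance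

/-- An approximating sequence. -/
structure Seq (R δ : ℕ → ℝ) (Fn : ℕ → ℝ → Om → ℝ) (F₀ : Om → ℝ) : Prop where
  Rpos : ∀ n, 0 < R n
  δpos : ∀ n, 0 < δ n
  Rlim : Tendsto R atTop atTop
  δlim : Tendsto δ atTop (𝓝 0)
  ts : ∀ n, TS (R n) (δ n) (Fn n 0) (Fn n)
  low : ∀ n, ∃ s : ℝ, 0 < s ∧ ∀ p : Om, s * Mx p.2 ≤ Fn n 0 p
  datum : IsDatum F₀
  conv : Tendsto (fun n => ∫ p : Om, |Fn n 0 p - F₀ p| * (1 + ‖p.2‖ ^ 2)) atTop (𝓝 0)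
  ent : ∀ ε : ℝ, 0 < ε → ∀ᶠ n in atTop, relEnt (Fn n 0) ≤ relEnt F₀ + ENNReal.ofReal ε

/-- A priori bounds of an approximating sequence. -/
structure Apr (R δ : ℕ → ℝ) (Fn : ℕ → ℝ → Om → ℝ) (F₀ : Om → ℝ) : Prop extends
    Seq R δ Fn F₀ where
  mom : ∃ C : ℝ, ∀ n t, 0 ≤ t → Integrable (fun p : Om => Fn n t p * (1 + ‖p.2‖) ^ 2) ∧
    ∫ p : Om, Fn n t p * (1 + ‖p.2‖) ^ 2 ≤ C
  entB : ∃ C : ℝ, ∀ n t, 0 ≤ t → relEnt (Fn n t) ≤ ENNReal.ofReal C ∧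
    ∫⁻ r in Icc (0 : ℝ) t, ∫⁻ p, eT (R n) (δ n) (Fn n r) p ≤ ENNReal.ofReal C
  tail : ∀ ε : ℝ, 0 < ε → ∃ K : ℝ, 0 < K ∧ ∀ n t, 0 ≤ t →
    ∫⁻ p : Om, ENNReal.ofReal (Fn n t p - K * Mx p.2) ≤ ENNReal.ofReal ε
  uiT : ∀ t, 0 ≤ t → UI volume (fun n => Fn n t)
  uiY : ∀ T, UI (mY T) (fun n y => Fn n y.1 y.2)

def AprStmt : Prop := ∀ R δ Fn F₀, Seq R δ Fn F₀ → Apr R δ Fn F₀

/-- Indicator of the velocity ball. -/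
def cut (r : ℝ) (p : Om) : ℝ := if ‖p.2‖ ≤ r then 1 else 0

/-- Uniform integrability of the renormalized collision terms. -/
def RenUIStmt : Prop :=
  ∀ R δ Fn F₀, Apr R δ Fn F₀ → ∀ T r m : ℝ, 0 < m →
    UI (mY T) (fun n y => cut r y.2 * nT (R n) (δ n) (Fn n y.1) y.2) ∧
    UI (mY T) (fun n y => cut r y.2 *
      (nT (R n) (δ n) (Fn n y.1) y.2 * Fn n y.1 y.2 / (1 + Fn n y.1 y.2 / m))) ∧
    UI (mY T) (fun n y => cut r y.2 * (gT (R n) (δ n) (Fn n y.1) y.2 / (1 + Fn n y.1 y.2 / m)))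

/-- The renormalization y ↦ y / (1 + y / m) along flights. -/
def BetaStmt : Prop :=
  ∀ R δ F₀ F, 0 < R → 0 < δ → TS R δ F₀ F → ∀ m : ℝ, 0 < m → ∀ p s t, 0 ≤ s → s ≤ t →
    IntervalIntegrable (fun r => gT R δ (F r) (fl r p) / (1 + F r (fl r p) / m) ^ 2) volume s t ∧
    IntervalIntegrable (fun r => nT R δ (F r) (fl r p) * F r (fl r p) /
      (1 + F r (fl r p) / m) ^ 2) volume s t ∧
    F t (fl t p) / (1 + F t (fl t p) / m) = F s (fl s p) / (1 + F s (fl s p) / m) +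
      ∫ r in s..t, (gT R δ (F r) (fl r p) / (1 + F r (fl r p) / m) ^ 2 -
        nT R δ (F r) (fl r p) * F r (fl r p) / (1 + F r (fl r p) / m) ^ 2)

/-- Equicontinuity in time along flights. -/
def EquiStmt : Prop :=
  ∀ R δ Fn F₀, Apr R δ Fn F₀ → ∀ T ε : ℝ, 0 < ε → ∃ η : ℝ, 0 < η ∧ ∀ n, ∀ s ∈ Icc (0 : ℝ) T,
    ∀ t ∈ Icc (0 : ℝ) T, |s - t| ≤ η → ∫ p, |Fn n t (fl t p) - Fn n s (fl s p)| ≤ ε

/-- The weak limit. -/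
structure Lim (R δ : ℕ → ℝ) (Fn : ℕ → ℝ → Om → ℝ) (F₀ : Om → ℝ) (F : ℝ → Om → ℝ) : Prop where
  apr : Apr R δ Fn F₀
  meas : Measurable (fun y : ℝ × Om => F y.1 y.2)
  nonneg : ∀ t p, 0 ≤ F t p
  wl : ∀ t, 0 ≤ t → WL volume (fun n => Fn n t) (F t)
  wlY : ∀ T, WL (mY T) (fun n y => Fn n y.1 y.2) (fun y => F y.1 y.2)
  cont : ∀ T ε : ℝ, 0 < ε → ∃ η : ℝ, 0 < η ∧ ∀ s ∈ Icc (0 : ℝ) T,
    ∀ t ∈ Icc (0 : ℝ) T, |s - t| ≤ η → ∫ p, |F t (fl t p) - F s (fl s p)| ≤ ε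
  init : F 0 =ᵐ[volume] F₀
  mom : ∃ C : ℝ, ∀ t, 0 ≤ t → Integrable (fun p : Om => F t p * (1 + ‖p.2‖) ^ 2) ∧
    ∫ p : Om, F t p * (1 + ‖p.2‖) ^ 2 ≤ C

/-- A jointly measurable representative of an L¹-continuous curve. -/
def RepStmt : Prop :=
  ∀ (α : Type) [MeasurableSpace α] (μ : Measure α) [SigmaFinite μ] (f : ℝ → α → ℝ),
    (∀ t, 0 ≤ t → Measurable (f t) ∧ Integrable (f t) μ ∧ ∀ x, 0 ≤ f t x) →
    (∀ T ε : ℝ, 0 < ε → ∃ η : ℝ, 0 < η ∧ ∀ s ∈ Icc (0 : ℝ) T, ∀ t ∈ Icc (0 : ℝ) T, |s - t| ≤ η →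
      ∫ x, |f t x - f s x| ∂μ ≤ ε) →
    ∃ g : ℝ → α → ℝ, Measurable (fun y : ℝ × α => g y.1 y.2) ∧ (∀ t x, 0 ≤ g t x) ∧
      ∀ t, 0 ≤ t → g t =ᵐ[μ] f t

/-- Weak convergence on [0, T] × Ω from weak convergence at each time. -/
def WLYStmt : Prop :=
  ∀ R δ Fn F₀ (F : ℝ → Om → ℝ), Apr R δ Fn F₀ → Measurable (fun y : ℝ × Om => F y.1 y.2) →
    (∀ t, 0 ≤ t → WL volume (fun n => Fn n t) (F t)) →
    (∀ T ε : ℝ, 0 < ε → ∃ η : ℝ, 0 < η ∧ ∀ s ∈ Icc (0 : ℝ) T,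
      ∀ t ∈ Icc (0 : ℝ) T, |s - t| ≤ η → ∫ p, |F t (fl t p) - F s (fl s p)| ≤ ε) →
    ∀ T, WL (mY T) (fun n y => Fn n y.1 y.2) (fun y => F y.1 y.2)

def LimExStmt : Prop := ∀ R δ Fn F₀, Apr R δ Fn F₀ → ∃ F, Lim R δ Fn F₀ F

/-! ### Velocity averaging -/

/-- The dispersive L² estimate: small translations of velocity averages are small. -/
def AvL2Stmt : Prop :=
  ∀ (T M : ℝ) (ψ : E → ℝ), 0 ≤ T → Measurable ψ → (∀ v, |ψ v| ≤ 1) →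
    (∃ r : ℝ, ∀ v, r < ‖v‖ → ψ v = 0) → ∀ ε : ℝ, 0 < ε → ∃ η : ℝ, 0 < η ∧
    ∀ (g₀ : Om → ℝ) (h g : ℝ → Om → ℝ), Measurable g₀ →
      Measurable (fun y : ℝ × Om => h y.1 y.2) → Measurable (fun y : ℝ × Om => g y.1 y.2) →
      (∀ p, |g₀ p| ≤ M) → (∀ t p, |h t p| ≤ M) →
      (∀ t ∈ Icc (0 : ℝ) T, ∀ p, g t (fl t p) = g₀ p + ∫ s in (0 : ℝ)..t, h s (fl s p)) →
      ∀ z : E, ‖z‖ ≤ η →
        ∫ y, ((∫ v, g y.1 (y.2 + pr z, v) * ψ v) - ∫ v, g y.1 (y.2, v) * ψ v) ^ 2 ∂(mX T) ≤ ε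

/-- Averages of bounded solutions are eventually close to a fixed integrable function. -/
def AvBddStmt : Prop :=
  ∀ (T M : ℝ) (ψ : E → ℝ), 0 ≤ T → Measurable ψ → (∀ v, |ψ v| ≤ 1) →
    (∃ r : ℝ, ∀ v, r < ‖v‖ → ψ v = 0) →
    ∀ (g₀ : ℕ → Om → ℝ) (h g : ℕ → ℝ → Om → ℝ), (∀ n, Measurable (g₀ n)) →
      (∀ n, Measurable (fun y : ℝ × Om => h n y.1 y.2)) →
      (∀ n, Measurable (fun y : ℝ × Om => g n y.1 y.2)) →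
      (∀ n p, |g₀ n p| ≤ M) → (∀ n t p, |h n t p| ≤ M) →
      (∀ n, ∀ t ∈ Icc (0 : ℝ) T, ∀ p,
        g n t (fl t p) = g₀ n p + ∫ s in (0 : ℝ)..t, h n s (fl s p)) →
      ∀ ε : ℝ, 0 < ε → ∃ ζ : ℝ × T3 → ℝ, Integrable ζ (mX T) ∧ ∀ᶠ n in UF,
        ∫ y, |(∫ v, g n y.1 (y.2, v) * ψ v) - ζ y| ∂(mX T) ≤ ε

/-- L¹ velocity averaging. -/
def AvStmt : Prop :=
  ∀ (T : ℝ) (ψ : E → ℝ), 0 ≤ T → Measurable ψ → (∀ v, |ψ v| ≤ 1) →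
    (∃ r : ℝ, ∀ v, r < ‖v‖ → ψ v = 0) →
    ∀ (g₀ : ℕ → Om → ℝ) (h g : ℕ → ℝ → Om → ℝ), UI volume g₀ →
      UI (mY T) (fun n y => h n y.1 y.2) → (∀ n, Measurable (fun y : ℝ × Om => g n y.1 y.2)) →
      (∀ n p, IntervalIntegrable (fun s => h n s (fl s p)) volume 0 T) →
      (∀ n, ∀ t ∈ Icc (0 : ℝ) T, ∀ p,
        g n t (fl t p) = g₀ n p + ∫ s in (0 : ℝ)..t, h n s (fl s p)) →
      ∀ ε : ℝ, 0 < ε → ∃ ζ : ℝ × T3 → ℝ, Integrable ζ (mX T) ∧ ∀ᶠ n in UF,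
        ∫ y, |(∫ v, g n y.1 (y.2, v) * ψ v) - ζ y| ∂(mX T) ≤ ε

/-- Strong convergence of velocity averages of the sequence. -/
def AvFStmt : Prop :=
  ∀ R δ Fn F₀ F, Lim R δ Fn F₀ F → ∀ (T C : ℝ) (ψ : E → ℝ), Measurable ψ →
    (∀ v, |ψ v| ≤ C * (1 + ‖v‖)) →
    Integrable (fun y : ℝ × T3 => ∫ v, F y.1 (y.2, v) * ψ v) (mX T) ∧
    UI (mX T) (fun n y => ∫ v, Fn n y.1 (y.2, v) * ψ v) ∧
    Tendsto (fun n => ∫ y, |(∫ v, Fn n y.1 (y.2, v) * ψ v) - ∫ v, F y.1 (y.2, v) * ψ v| ∂(mX T))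
      UF (𝓝 0)

/-- Strong convergence of the collision frequency. -/
def NuStmt : Prop :=
  ∀ R δ Fn F₀ F, Lim R δ Fn F₀ F → ∀ T r : ℝ,
    Integrable (fun y : ℝ × Om => cut r y.2 * nu (F y.1) y.2) (mY T) ∧
    (∀ᵐ y ∂(mY T), freqK kF (sl (F y.1) y.2.1) y.2.2 ≠ ⊤) ∧
    Tendsto (fun n => ∫ y, cut r y.2 * |nT (R n) (δ n) (Fn n y.1) y.2 - nu (F y.1) y.2| ∂(mY T))
      UF (𝓝 0)

/-- Integrated collision frequency along flights. -/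
def NN (n : ℝ → Om → ℝ) (t : ℝ) (p : Om) : ℝ := ∫ s in (0 : ℝ)..t, n s (fl s p)

/-- Convergence of the integrating factors. -/
def NuExpStmt : Prop :=
  ∀ R δ Fn F₀ F, Lim R δ Fn F₀ F → ∀ T : ℝ, 0 ≤ T →
    (∀ᵐ p, IntervalIntegrable (fun s => nu (F s) (fl s p)) volume 0 T) ∧
    (∀ t ∈ Icc (0 : ℝ) T, MC volume (fun n => NN (fun s => nT (R n) (δ n) (Fn n s)) t)
      (NN (fun s => nu (F s)) t)) ∧
    MC (mY T) (fun n y => NN (fun s => nT (R n) (δ n) (Fn n s)) y.1 y.2)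
      (fun y => NN (fun s => nu (F s)) y.1 y.2) ∧
    MC (mX T) (fun n y => rho (Fn n y.1) y.2) (fun y => rho (F y.1) y.2)

/-- Normalized tensor square. -/
def PP (ε : ℝ) (F : ℝ → Om → ℝ) (z : (ℝ × T3) × E × E) : ℝ :=
  F z.1.1 (z.1.2, z.2.1) * F z.1.1 (z.1.2, z.2.2) / (1 + ε * rho (F z.1.1) z.1.2)

def ProdStmt : Prop :=
  ∀ R δ Fn F₀ F, Lim R δ Fn F₀ F → ∀ T ε : ℝ, 0 < ε →
    UI (mZ T) (fun n => PP ε (Fn n)) ∧ WL (mZ T) (fun n => PP ε (Fn n)) (PP ε F)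

/-- Normalized gain with a bounded kernel. -/
def GG (k : ℝ → ℝ → ℝ) (ε : ℝ) (F : ℝ → Om → ℝ) (y : ℝ × Om) : ℝ :=
  (gainK k (sl (F y.1) y.2.1) (sl (F y.1) y.2.1) y.2.2).toReal / (1 + ε * rho (F y.1) y.2.1)

def GainWStmt : Prop :=
  ∀ R δ Fn F₀ F, Lim R δ Fn F₀ F → ∀ (T ε r : ℝ) (k : ℝ → ℝ → ℝ), 0 < ε → IsKer k →
    (∀ a b, 0 ≤ a → a ≤ b → 0 ≤ k a b ∧ k a b ≤ kC r a b) →
    (∀ᵐ y ∂(mY T), gainK k (sl (F y.1) y.2.1) (sl (F y.1) y.2.1) y.2.2 ≠ ⊤) ∧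
    UI (mY T) (fun n => GG k ε (Fn n)) ∧ WL (mY T) (fun n => GG k ε (Fn n)) (GG k ε F)

/-- Duhamel term of the limit. -/
def Duh (F : ℝ → Om → ℝ) (s t : ℝ) (p : Om) : ℝ≥0∞ :=
  ∫⁻ r in Icc s t, Qp (F r) (fl r p) * ENNReal.ofReal
    (Real.exp (-(NN (fun s => nu (F s)) t p - NN (fun s => nu (F s)) r p)))

/-- The limit is a supersolution. -/
def SuperStmt : Prop :=
  ∀ R δ Fn F₀ F, Lim R δ Fn F₀ F → ∀ s t : ℝ, 0 ≤ s → s ≤ t → ∀ᵐ p,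
    ENNReal.ofReal (F s (fl s p) *
      Real.exp (-(NN (fun s => nu (F s)) t p - NN (fun s => nu (F s)) s p))) + Duh F s t p ≤
      ENNReal.ofReal (F t (fl t p))

/-- Weak limits of renormalized gain terms are below the gain term of the limit. -/
def RenGainStmt : Prop :=
  ∀ R δ Fn F₀ F, Lim R δ Fn F₀ F → ∀ (T r m : ℝ) (q : ℝ × Om → ℝ), 0 < m →
    WL (mY T) (fun n y => cut r y.2 *
      (gT (R n) (δ n) (Fn n y.1) y.2 / (1 + Fn n y.1 y.2 / m) ^ 2)) q →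
    ∀ᵐ y ∂(mY T), ENNReal.ofReal (q y) ≤ Qp (F y.1) y.2

/-- The renormalized subsolution inequality at fixed level m. -/
def SubMStmt : Prop :=
  ∀ R δ Fn F₀ F, Lim R δ Fn F₀ F → ∀ t ε : ℝ, 0 ≤ t → 0 < ε →
    ∃ (b : Om → ℝ) (e : ℝ × Om → ℝ), Measurable b ∧ Measurable e ∧ (∀ y, 0 ≤ e y) ∧
      ∫⁻ p, ENNReal.ofReal (F t (fl t p) - b p) ≤ ENNReal.ofReal ε ∧
      ∫⁻ y, ENNReal.ofReal (e y) ∂(mY t) ≤ ENNReal.ofReal ε ∧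
      (∀ᵐ y ∂(mY t), e y ≤ F y.1 (fl y.1 y.2)) ∧
      ∀ᵐ p, ENNReal.ofReal (b p) ≤
        ENNReal.ofReal (F₀ p * Real.exp (-NN (fun s => nu (F s)) t p)) + Duh F 0 t p +
        ∫⁻ r in Icc (0 : ℝ) t, ENNReal.ofReal (e (r, p) * nu (F r) (fl r p) *
          Real.exp (-(NN (fun s => nu (F s)) t p - NN (fun s => nu (F s)) r p)))

/-- The limit is a mild solution in exponential form. -/
def MildStmt : Prop :=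
  ∀ R δ Fn F₀ F, Lim R δ Fn F₀ F → ∀ t : ℝ, 0 ≤ t → ∀ᵐ p,
    ENNReal.ofReal (F t (fl t p)) =
      ENNReal.ofReal (F₀ p * Real.exp (-NN (fun s => nu (F s)) t p)) + Duh F 0 t p

/-- Lower semicontinuity of the relative entropy. -/
def EntLscStmt : Prop :=
  ∀ (f : ℕ → Om → ℝ) (g : Om → ℝ) (c : ℝ≥0∞), (∀ n p, 0 ≤ f n p) → (∀ p, 0 ≤ g p) →
    UI volume f → WL volume f g → (∀ᶠ n in UF, relEnt (f n) ≤ c) → relEnt g ≤ c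

/-- Lower semicontinuity of the dissipation. -/
def DissLscStmt : Prop :=
  ∀ R δ Fn F₀ F, Lim R δ Fn F₀ F → ∀ (t : ℝ) (c : ℝ≥0∞), 0 ≤ t →
    (∀ᶠ n in UF, (1 / 4) * ∫⁻ r in Icc (0 : ℝ) t, ∫⁻ p, eT (R n) (δ n) (Fn n r) p ≤ c) →
    ∫⁻ s in Icc (0 : ℝ) t, diss (F s) ≤ c

def EntStmt : Prop :=
  ∀ R δ Fn F₀ F, Lim R δ Fn F₀ F → ∀ t, 0 ≤ t →
    relEnt (F t) + ∫⁻ s in Icc (0 : ℝ) t, diss (F s) ≤ relEnt F₀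

/-- The integrability conditions of the limit. -/
def IntStmt : Prop :=
  ∀ R δ Fn F₀ F, Lim R δ Fn F₀ F →
    (∀ T : ℝ, ∃ C : ℝ, ∀ t ∈ Icc (0 : ℝ) T,
      Integrable (fun p : Om => F t p * (1 + ‖p.2‖ ^ 2 + |Real.log (F t p)|)) ∧
        ∫ p : Om, F t p * (1 + ‖p.2‖ ^ 2 + |Real.log (F t p)|) ≤ C) ∧
    (∀ T : ℝ,
      ∫⁻ t in Icc (0 : ℝ) T, ∫⁻ p, Qp (F t) p / ENNReal.ofReal (1 + F t p / Mx p.2) < ⊤) ∧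
    (∀ T : ℝ,
      ∫⁻ t in Icc (0 : ℝ) T, ∫⁻ p, Qm (F t) p / ENNReal.ofReal (1 + F t p / Mx p.2) < ⊤)

/-- For almost every flight the limit agrees for almost every time with an absolutely
continuous function solving the equation. -/
def FlightStmt : Prop :=
  ∀ R δ Fn F₀ F, Lim R δ Fn F₀ F → ∀ T : ℝ, 0 ≤ T → ∀ᵐ p : Om, ∃ y : ℝ → ℝ,
    (∀ t ∈ Icc (0 : ℝ) T, 0 ≤ y t) ∧ (∀ᵐ t ∂(mT T), y t = F t (fl t p)) ∧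
    IntervalIntegrable (fun s => (Qp (F s) (fl s p)).toReal - (Qm (F s) (fl s p)).toReal)
      volume 0 T ∧
    ∀ t ∈ Icc (0 : ℝ) T, y t = F₀ p +
      ∫ s in (0 : ℝ)..t, ((Qp (F s) (fl s p)).toReal - (Qm (F s) (fl s p)).toReal)

def RenormStmt : Prop :=
  ∀ R δ Fn F₀ F, Lim R δ Fn F₀ F →
    ∀ β β' : ℝ → ℝ, β 0 = 0 → (∀ z, 0 ≤ z → HasDerivWithinAt β (β' z) (Ici 0) z) →
    ContinuousOn β' (Ici 0) → (∃ C : ℝ, ∀ z, 0 ≤ z → |β' z| ≤ C / (1 + z)) →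
    ∀ φ, IsTest φ → Integrable (renInt F β β' φ) tm ∧
      ∫ y, renInt F β β' φ y ∂tm + ∫ p : Om, Mx p.2 * β (F₀ p / Mx p.2) * φ 0 p = 0

def ConsStmt : Prop :=
  ∀ R δ Fn F₀ F, Lim R δ Fn F₀ F →
    (∀ χ, IsTestX χ →
      Integrable (fun y : ℝ × Om => F y.1 y.2 * trans (fun t p => χ t p.1) y.1 y.2) tm ∧
      ∫ y, F y.1 y.2 * trans (fun t p => χ t p.1) y.1 y.2 ∂tm + ∫ p : Om, F₀ p * χ 0 p.1 = 0) ∧
    (∀ t, 0 ≤ t → ∫ p : Om, F t p • p.2 = ∫ p : Om, F₀ p • p.2) ∧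
    (∀ t, 0 ≤ t → ∫ p : Om, ‖p.2‖ ^ 2 * F t p ≤ ∫ p : Om, ‖p.2‖ ^ 2 * F₀ p)

def WeakContStmt : Prop :=
  ∀ R δ Fn F₀ F, Lim R δ Fn F₀ F → ∀ ψ : Om → ℝ, Measurable ψ → (∃ C : ℝ, ∀ p, |ψ p| ≤ C) →
    ContinuousOn (fun t => ∫ p, F t p * ψ p) (Ici 0)

/-- Two solutions with different tested values at some time are different. -/
def DifferStmt : Prop :=
  ∀ F₀ F G, IsSol F₀ F → IsSol F₀ G → ∀ (t : ℝ) (ψ : Om → ℝ), 0 ≤ t → Measurable ψ →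
    (∃ C : ℝ, ∀ p, |ψ p| ≤ C) → ∫ p, F t p * ψ p ≠ ∫ p, G t p * ψ p →
    ¬ (fun y : ℝ × Om => F y.1 y.2) =ᵐ[tm] (fun y : ℝ × Om => G y.1 y.2)

/-- The instability statement proved in part C. -/
def InstStmt : Prop :=
  ∃ (F₀ : Om → ℝ) (R δ : ℕ → ℝ) (A B : ℕ → ℝ → Om → ℝ) (t c d : ℝ) (ψ : Om → ℝ),
    Seq R δ A F₀ ∧ Seq R δ B F₀ ∧ 0 ≤ t ∧ Measurable ψ ∧ (∃ C : ℝ, ∀ p, |ψ p| ≤ C) ∧ c < d ∧
    ∀ n, ∫ p, A n t p * ψ p ≤ c ∧ d ≤ ∫ p, B n t p * ψ p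

end

end Vale.Agent.P140
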