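import Vale.Agent.P140.StmB

/-! Subsolution at level m: general lemmas. -/

namespace Vale.Agent.P140.SubMX

open MeasureTheory Set Filter Topology
open scoped ENNReal

noncomputable section

def bt (m x : ℝ) : ℝ := x / (1 + x / m)

def gm (m x : ℝ) : ℝ := x / (1 + x / m) - x / (1 + x / m) ^ 2

def wf (z : ℝ × ℝ) : ℝ := Real.exp (-max 0 (z.1 - z.2))

theorem continuous_wf : Continuous wf := by unfold wf; fun_prop

theorem wf_pos (z : ℝ × ℝ) : 0 < wf z := Real.exp_pos _

theorem wf_le_one (z : ℝ × ℝ) : wf z ≤ 1 :=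
  Real.exp_le_one_iff.2 (neg_nonpos.2 (le_max_left _ _))

theorem wf_le (z : ℝ × ℝ) : wf z ≤ Real.exp (-(z.1 - z.2)) :=
  Real.exp_le_exp.2 (neg_le_neg (le_max_right _ _))

theorem measurable_bt (m : ℝ) : Measurable (bt m) := by unfold bt; fun_prop

theorem measurable_gm (m : ℝ) : Measurable (gm m) := by unfold gm; fun_prop

variable {m x : ℝ}

theorem bt_eq (hm : 0 < m) (hx : 0 ≤ x) : x - bt m x = x * (x / (m + x)) := by
  unfold bt; field_simp; ring

theorem gm_eq (hm : 0 < m) (hx : 0 ≤ x) : gm m x = x * (x / (m + x)) * (m / (m + x)) := by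
  unfold gm; field_simp; ring

theorem bt_nonneg (hm : 0 < m) (hx : 0 ≤ x) : 0 ≤ bt m x := by unfold bt; positivity

theorem bt_le (hm : 0 < m) (hx : 0 ≤ x) : bt m x ≤ x := by
  have h := bt_eq hm hx
  have : 0 ≤ x * (x / (m + x)) := by positivity
  linarith

theorem gm_nonneg (hm : 0 < m) (hx : 0 ≤ x) : 0 ≤ gm m x := by
  rw [gm_eq hm hx]; positivity

theorem gm_le (hm : 0 < m) (hx : 0 ≤ x) : gm m x ≤ x - bt m x := by
  rw [gm_eq hm hx, bt_eq hm hx]
  exact mul_le_of_le_one_right (by positivity) ((div_le_one (by positivity)).2 (by linarith))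

theorem gm_le_m (hm : 0 < m) (hx : 0 ≤ x) : gm m x ≤ m := by
  rw [gm_eq hm hx]
  have h : x / (m + x) ≤ 1 := (div_le_one (by positivity)).2 (by linarith)
  have h0 : 0 ≤ x / (m + x) := by positivity
  calc _ = m * (x / (m + x) * (x / (m + x))) := by ring
    _ ≤ m := mul_le_of_le_one_right hm.le (mul_le_one₀ h h0 h)

theorem bt_mono (hm : 0 < m) {y : ℝ} (hx : 0 ≤ x) (h : x ≤ y) : bt m x ≤ bt m y := by
  unfold bt
  have hy := hx.trans h
  rw [div_le_div_iff₀ (by positivity) (by positivity)]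
  have : x * (y / m) = y * (x / m) := by ring
  nlinarith

theorem sub_bt_le (hm : 0 < m) {y : ℝ} (hx : 0 ≤ x) (hy : 0 ≤ y) :
    x - bt m x ≤ max (x - y) 0 + (y - bt m y) := by
  rcases le_total x y with h | h
  · rw [max_eq_right (by linarith), zero_add, bt_eq hm hx, bt_eq hm hy]
    refine mul_le_mul h ?_ (by positivity) hy
    rw [div_le_div_iff₀ (by positivity) (by positivity)]
    nlinarith
  · have := bt_mono hm hy h
    rw [max_eq_left (by linarith)]
    linarith

variable {α : Type} [MeasurableSpace α] {μ : Measure α}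

theorem trunc_small {f : ℕ → α → ℝ} (h : UI μ f) (h0 : ∀ n x, 0 ≤ f n x) {ε : ℝ} (hε : 0 < ε) :
    ∀ᶠ m : ℕ in atTop, ∀ n, ∫⁻ x, ENNReal.ofReal (f n x - bt m (f n x)) ∂μ ≤ ENNReal.ofReal ε := by
  obtain ⟨g, hg, hg0, hgi, hf⟩ := h.2 (ε / 2) (half_pos hε)
  have h1 : Tendsto (fun m : ℕ => ∫⁻ x, ENNReal.ofReal (g x - bt m (g x)) ∂μ) atTop
      (𝓝 (∫⁻ _, 0 ∂μ)) := by
    refine tendsto_lintegral_filter_of_dominated_convergence (fun x => ENNReal.ofReal (g x))
      (Eventually.of_forall fun m => (hg.sub ((measurable_bt _).comp hg)).ennreal_ofReal) ?_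
      hgi.lintegral_lt_top.ne (ae_of_all _ fun x => ?_)
    · filter_upwards [eventually_gt_atTop 0] with m hm
      refine ae_of_all _ fun x => ENNReal.ofReal_le_ofReal ?_
      linarith [bt_nonneg (m := m) (by exact_mod_cast hm) (hg0 x)]
    · rw [← ENNReal.ofReal_zero]
      refine ENNReal.tendsto_ofReal ?_
      have h2 : Tendsto (fun m : ℕ => g x - g x / (1 + g x / m)) atTop
          (𝓝 (g x - g x / (1 + 0))) :=
        tendsto_const_nhds.sub (tendsto_const_nhds.div (tendsto_const_nhds.add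
          (tendsto_const_div_atTop_nhds_zero_nat _)) (by norm_num))
      simpa [bt] using h2
  rw [lintegral_zero] at h1
  filter_upwards [eventually_gt_atTop 0, h1.eventually
    (ge_mem_nhds (ENNReal.ofReal_pos.2 (half_pos hε)))] with m hm h2 n
  calc _ ≤ ∫⁻ x, ENNReal.ofReal (|f n x| - g x) + ENNReal.ofReal (g x - bt m (g x)) ∂μ := by
        refine lintegral_mono fun x => ?_
        refine (ENNReal.ofReal_le_ofReal (sub_bt_le (m := m) (by exact_mod_cast hm) (h0 n x)
          (hg0 x))).trans (ENNReal.ofReal_add_le.trans ?_)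
        rw [abs_of_nonneg (h0 n x), ENNReal.ofReal_max, ENNReal.ofReal_zero, max_eq_left zero_le]
    _ ≤ ENNReal.ofReal (ε / 2) + ENNReal.ofReal (ε / 2) := by
        refine (lintegral_add_right _
          (hg.sub ((measurable_bt _).comp hg)).ennreal_ofReal).trans_le ?_
        exact add_le_add (hf n) h2
    _ = _ := by rw [← ENNReal.ofReal_add (half_pos hε).le (half_pos hε).le, add_halves]

theorem wl_zero : WL μ (fun _ _ => 0) (fun _ => 0) :=
  ⟨measurable_const, integrable_zero _ _ _, fun _ _ _ => tendsto_const_nhds⟩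

theorem int_mul {f ψ : α → ℝ} (hf : Integrable f μ) (hψ : Measurable ψ) (h : ∀ x, |ψ x| ≤ 1) :
    Integrable (fun x => f x * ψ x) μ :=
  hf.mul_bdd hψ.aestronglyMeasurable (ae_of_all _ h)

theorem wl_sub_le {f f' : ℕ → α → ℝ} {g g' : α → ℝ} (h : WL μ f g) (h' : WL μ f' g')
    (hi : ∀ n, Integrable (f n) μ) (hi' : ∀ n, Integrable (f' n) μ) (hle : ∀ n x, f' n x ≤ f n x)
    {ε : ℝ} (hε : 0 ≤ ε)
    (hb : ∀ n, ∫⁻ x, ENNReal.ofReal (f n x - f' n x) ∂μ ≤ ENNReal.ofReal ε) :
    ∫⁻ x, ENNReal.ofReal (g x - g' x) ∂μ ≤ ENNReal.ofReal ε := by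
  let ψ : α → ℝ := fun x => if g' x ≤ g x then 1 else 0
  have hψ : Measurable ψ :=
    Measurable.ite (measurableSet_le h'.1 h.1) measurable_const measurable_const
  have h1 : ∀ x, |ψ x| ≤ 1 := fun x => by simp only [ψ]; split_ifs <;> simp
  have h2 := (h.2.2 ψ hψ ⟨1, h1⟩).sub (h'.2.2 ψ hψ ⟨1, h1⟩)
  haveI : UF.NeBot := inferInstanceAs (Filter.NeBot (Filter.hyperfilter ℕ : Filter ℕ))
  have h3 := le_of_tendsto h2 (b := ε) (Eventually.of_forall fun n => by
    rw [← integral_sub (int_mul (hi n) hψ h1) (int_mul (hi' n) hψ h1)]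
    have h4 := hb n
    rw [← ofReal_integral_eq_lintegral_ofReal (f := fun x => f n x - f' n x) ((hi n).sub (hi' n))
      (ae_of_all _ fun x => sub_nonneg.2 (hle n x)), ENNReal.ofReal_le_ofReal_iff hε] at h4
    refine le_trans (integral_mono ((int_mul (hi n) hψ h1).sub (int_mul (hi' n) hψ h1))
      ((hi n).sub (hi' n)) fun x => ?_) h4
    have h5 := (abs_le.1 (h1 x)).2
    have h6 := hle n x
    simp only [Pi.sub_apply]
    nlinarith)
  rw [← integral_sub (int_mul h.2.1 hψ h1) (int_mul h'.2.1 hψ h1)] at h3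
  refine le_trans (le_of_eq ?_) (ENNReal.ofReal_le_ofReal h3)
  rw [ofReal_integral_eq_lintegral_ofReal (f := fun x => g x * ψ x - g' x * ψ x)
    ((int_mul h.2.1 hψ h1).sub (int_mul h'.2.1 hψ h1)) (ae_of_all _ fun x => ?_)]
  · refine lintegral_congr fun x => ?_
    simp only [ψ]
    split_ifs with h4
    · simp
    · simp [ENNReal.ofReal_of_nonpos (sub_nonpos.2 (not_le.1 h4).le)]
  · simp only [ψ, Pi.zero_apply]
    split_ifs with h4
    · simpa using h4
    · simp

theorem l1_mul {a w : ℕ → α → ℝ} {b w₀ : α → ℝ} (ha : ∀ n, Integrable (a n) μ)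
    (hb : Integrable b μ) (hbm : Measurable b)
    (h : Tendsto (fun n => ∫ x, |a n x - b x| ∂μ) UF (𝓝 0)) (hw : MC μ w w₀)
    (h1 : ∀ n x, 0 ≤ w n x ∧ w n x ≤ 1) (h2 : ∀ x, 0 ≤ w₀ x ∧ w₀ x ≤ 1) :
    Tendsto (fun n => ∫ x, |a n x * w n x - b x * w₀ x| ∂μ) UF (𝓝 0) := by
  have h3 := h.add (hw.2.2 (fun x => |b x|) hbm.abs (fun x => abs_nonneg _) hb.abs)
  rw [add_zero] at h3
  refine squeeze_zero (fun n => integral_nonneg fun x => abs_nonneg _) (fun n => ?_) h3
  have h4 : Integrable (fun x => |b x| * min 1 |w n x - w₀ x|) μ :=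
    int_mul hb.abs (measurable_const.min ((hw.1 n).sub hw.2.1).abs) fun x => by
      rw [abs_of_nonneg (le_min zero_le_one (abs_nonneg _))]
      exact min_le_left _ _
  rw [← integral_add (f := fun x => |a n x - b x|) ((ha n).sub hb).abs h4]
  refine integral_mono_of_nonneg (ae_of_all _ fun x => abs_nonneg _) (((ha n).sub hb).abs.add h4)
    (ae_of_all _ fun x => ?_)
  have h5 : |w n x - w₀ x| ≤ 1 := abs_le.2 ⟨by linarith [h1 n x, h2 x], by linarith [h1 n x, h2 x]⟩
  simp only [Pi.sub_apply]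
  rw [min_eq_right h5, show a n x * w n x - b x * w₀ x =
    (a n x - b x) * w n x + b x * (w n x - w₀ x) by ring]
  refine (abs_add_le _ _).trans ?_
  rw [abs_mul, abs_mul, abs_of_nonneg (h1 n x).1]
  exact add_le_add_left (mul_le_of_le_one_right (abs_nonneg _) (h1 n x).2) _

theorem ofReal_int_le {f : α → ℝ} {g : α → ℝ≥0∞}
    (h : ∀ᵐ x ∂μ, 0 ≤ f x ∧ ENNReal.ofReal (f x) ≤ g x) :
    ENNReal.ofReal (∫ x, f x ∂μ) ≤ ∫⁻ x, g x ∂μ :=
  (Real.ofReal_le_enorm _).trans ((enorm_integral_le_lintegral_enorm _).trans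
    (lintegral_mono_ae (h.mono fun x hx => by rw [Real.enorm_eq_ofReal hx.1]; exact hx.2)))

/-- Flight as a measurable equivalence. -/
def flE (s : ℝ) : Om ≃ᵐ Om where
  toFun := fl s
  invFun := fl (-s)
  left_inv p := by rw [fl_fl, neg_add_cancel, fl_zero]
  right_inv p := by rw [fl_fl, add_neg_cancel, fl_zero]
  measurable_toFun := (continuous_fl.comp (Continuous.prodMk_right s)).measurable
  measurable_invFun := (continuous_fl.comp (Continuous.prodMk_right (-s))).measurable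

/-- Flight coordinates on space-time. -/
def flY : (ℝ × Om) ≃ᵐ (ℝ × Om) where
  toFun y := (y.1, fl y.1 y.2)
  invFun y := (y.1, fl (-y.1) y.2)
  left_inv y := by simp only [fl_fl, neg_add_cancel, fl_zero]
  right_inv y := by simp only [fl_fl, add_neg_cancel, fl_zero]
  measurable_toFun := (continuous_fst.prodMk continuous_fl).measurable
  measurable_invFun := (continuous_fst.prodMk
    (continuous_fl.comp (continuous_fst.neg.prodMk continuous_snd))).measurable

theorem mp_flY (hT : TorusStmt) (t : ℝ) : MeasurePreserving flY (mY t) (mY t) := by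
  have h := hT.2.2.2.2.2.2.2.1 (mT t) 1 0
  simp only [one_mul, add_zero] at h
  exact h

theorem mp_flE (hT : TorusStmt) (t : ℝ) : MeasurePreserving (flE t) volume volume :=
  hT.2.2.2.2.2.2.1 t

theorem ae_swap {t : ℝ} {P : ℝ × Om → Prop} (h : ∀ᵐ y ∂(mY t), P y) :
    ∀ᵐ p : Om, ∀ᵐ r ∂(mT t), P (r, p) :=
  Measure.ae_ae_of_ae_prod
    ((Measure.measurePreserving_swap (μ := volume) (ν := mT t)).quasiMeasurePreserving.ae h)

end

end Vale.Agent.P140.SubMX
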