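import Vale.Agent.P140.SubMa

/-! Subsolution at level m: the inequality along one flight. -/

namespace Vale.Agent.P140.SubMX

open MeasureTheory Set Filter Topology
open scoped ENNReal

noncomputable section

theorem rho_nonneg {f : Om → ℝ} (h : ∀ p, 0 ≤ f p) (x : T3) : 0 ≤ rho f x :=
  integral_nonneg fun _ => h _

theorem nT_nonneg (R : ℝ) {δ : ℝ} (hδ : 0 < δ) {f : Om → ℝ} (h : ∀ p, 0 ≤ f p) (p : Om) :
    0 ≤ nT R δ f p := by
  have := rho_nonneg h p.1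
  unfold nT; positivity

theorem gT_nonneg (R : ℝ) {δ : ℝ} (hδ : 0 < δ) {f : Om → ℝ} (h : ∀ p, 0 ≤ f p) (p : Om) :
    0 ≤ gT R δ f p := by
  have := rho_nonneg h p.1
  unfold gT; positivity

theorem one_flight (hE : ExpStmt) (hF : TSFlStmt) (hB : BetaStmt) {R δ m t : ℝ} {F₀ : Om → ℝ}
    {F : ℝ → Om → ℝ} (hR : 0 < R) (hδ : 0 < δ) (h : TS R δ F₀ F) (hm : 0 < m) (ht : 0 ≤ t)
    (p : Om) :
    bt m (F t (fl t p)) ≤ F 0 p * wf (NN (fun s => nT R δ (F s)) t p, 0) +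
      ∫ r, (gT R δ (F r) (fl r p) / (1 + F r (fl r p) / m) ^ 2 + gm m (F r (fl r p)) *
        nT R δ (F r) (fl r p)) *
        wf (NN (fun s => nT R δ (F s)) t p, NN (fun s => nT R δ (F s)) r p) ∂(mT t) := by
  obtain ⟨-, -, h1, h2, -, -⟩ := hF R δ F₀ F hR hδ h
  have h3 : ContinuousOn (fun r => F r (fl r p)) (Icc 0 t) := (h2 p).mono Icc_subset_Ici_self
  have h4 : ∀ r ∈ Icc 0 t, 1 + F r (fl r p) / m ≠ 0 := fun r _ => by
    have := h.nonneg r (fl r p)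
    positivity
  have h5 : ContinuousOn (fun r => bt m (F r (fl r p))) (Icc 0 t) :=
    h3.div (continuousOn_const.add (h3.div_const m)) h4
  have h6 : ContinuousOn (fun r => gm m (F r (fl r p))) (uIcc 0 t) := by
    rw [uIcc_of_le ht]
    exact h5.sub (h3.div ((continuousOn_const.add (h3.div_const m)).pow 2)
      fun r hr => pow_ne_zero 2 (h4 r hr))
  have h7 := (h1 p 0 t le_rfl ht).2.1
  have h8 := hE.1 0 t (fun r => bt m (F r (fl r p))) (fun r => gT R δ (F r) (fl r p) /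
    (1 + F r (fl r p) / m) ^ 2 + gm m (F r (fl r p)) * nT R δ (F r) (fl r p))
    (fun r => nT R δ (F r) (fl r p)) ht
    ((hB R δ F₀ F hR hδ h m hm p 0 t le_rfl ht).1.add (h7.continuousOn_mul h6)) h7 h5
    fun s hs => by
      refine (hB R δ F₀ F hR hδ h m hm p 0 s le_rfl hs.1).2.2.trans ?_
      refine congrArg₂ _ rfl (intervalIntegral.integral_congr fun r _ => ?_)
      simp only [bt, gm]
      ring
  have h9 : ∀ r ∈ Icc 0 t, Real.exp (-∫ s in r..t, nT R δ (F s) (fl s p)) =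
      wf (NN (fun s => nT R δ (F s)) t p, NN (fun s => nT R δ (F s)) r p) := fun r hr => by
    rw [wf, NN, NN, intervalIntegral.integral_interval_sub_left h7 (h1 p 0 r le_rfl hr.1).2.1,
      max_eq_right (intervalIntegral.integral_nonneg hr.2 fun s _ =>
        nT_nonneg R hδ (h.nonneg s) _)]
  refine h8.trans_le (add_le_add ?_ (le_of_eq ?_))
  · rw [h9 0 ⟨le_rfl, ht⟩, fl_zero]
    simp only [NN, intervalIntegral.integral_same]
    exact mul_le_mul_of_nonneg_right (bt_le hm (h.nonneg 0 p)) (wf_pos _).le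
  · rw [intervalIntegral.integral_of_le ht, ← integral_Icc_eq_integral_Ioc]
    exact setIntegral_congr_fun measurableSet_Icc fun r hr => by simp only [h9 r hr]

theorem cut_mem (r : ℝ) (p : Om) : 0 ≤ cut r p ∧ cut r p ≤ 1 := by
  unfold cut; split_ifs <;> simp

theorem measurable_cut (r : ℝ) : Measurable (cut r) :=
  Measurable.ite (measurableSet_le measurable_snd.norm measurable_const) measurable_const
    measurable_const

theorem cut_fl {r : ℝ} {p : Om} (h : ‖p.2‖ ≤ r) (s : ℝ) : cut r (fl s p) = 1 := if_pos h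

/-- Passage to the limit in the tested inequality, abstract form. -/
theorem tested (hU : UIStmt) (hW : WLStmt) (hC : MCStmt) {t m : ℝ}
    {B f u : ℕ → Om → ℝ} {b f₀ u₀ ψ : Om → ℝ} {G Eg a w : ℕ → ℝ × Om → ℝ}
    {q e a₀ w₀ : ℝ × Om → ℝ} (hB : UI volume B) (hb : WL volume B b) (hf : UI volume f)
    (hf₀ : WL volume f f₀) (hu : MC volume u u₀) (hu1 : ∀ n x, 0 ≤ u n x ∧ u n x ≤ 1)
    (hu2 : ∀ x, 0 ≤ u₀ x ∧ u₀ x ≤ 1) (hG : UI (mY t) G) (hq : WL (mY t) G q)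
    (hE : UI (mY t) Eg) (hE1 : ∀ n x, |Eg n x| ≤ m) (he : WL (mY t) Eg e)
    (ha : ∀ n, Integrable (a n) (mY t)) (ha₀ : Integrable a₀ (mY t)) (ham : Measurable a₀)
    (hl : Tendsto (fun n => ∫ x, |a n x - a₀ x| ∂(mY t)) UF (𝓝 0))
    (hw : MC (mY t) w w₀) (hw1 : ∀ n x, 0 ≤ w n x ∧ w n x ≤ 1)
    (hw2 : ∀ x, 0 ≤ w₀ x ∧ w₀ x ≤ 1) (hψ : Measurable ψ) (hψ1 : ∀ x, 0 ≤ ψ x ∧ ψ x ≤ 1)
    (h : ∀ n p, ψ p ≠ 0 → B n p ≤ f n p * u n p +
      ∫ r, (G n (r, p) + Eg n (r, p) * a n (r, p)) * w n (r, p) ∂(mT t)) :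
    ∫ p, b p * ψ p ≤ (∫ p, f₀ p * (u₀ p * ψ p)) + (∫ y, q y * (w₀ y * ψ y.2) ∂(mY t)) +
      ∫ y, e y * (a₀ y * (w₀ y * ψ y.2)) ∂(mY t) := by
  haveI := hU.2.1
  have k : ∀ {x y : ℝ}, 0 ≤ x ∧ x ≤ 1 → 0 ≤ y ∧ y ≤ 1 → 0 ≤ x * y ∧ x * y ≤ 1 := fun hx hy =>
    ⟨mul_nonneg hx.1 hy.1, mul_le_one₀ hx.2 hy.1 hy.2⟩
  have k' : ∀ {x : ℝ}, 0 ≤ x ∧ x ≤ 1 → |x| ≤ 1 := fun hx => (abs_of_nonneg hx.1).trans_le hx.2
  have hψ2 : Measurable fun y : ℝ × Om => ψ y.2 := hψ.comp measurable_snd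
  have m1 := (hC Om volume).2.1 _ _ _ _ (fun z => z.1 * z.2) (by fun_prop) hu
    ((hC Om volume).2.2.1 ψ hψ)
  have m2 := (hC _ (mY t)).2.1 _ _ _ _ (fun z => z.1 * z.2) (by fun_prop) hw
    ((hC _ (mY t)).2.2.1 _ hψ2)
  have l0 := hb.2.2 ψ hψ ⟨1, fun x => k' (hψ1 x)⟩
  have l1 := (hW Om volume).1 _ _ _ _ 1 hf hf₀ m1 (fun n x => k' (k (hu1 n x) (hψ1 x)))
    fun x => k' (k (hu2 x) (hψ1 x))
  have l2 := (hW _ (mY t)).1 _ _ _ _ 1 hG hq m2 (fun n x => k' (k (hw1 n x) (hψ1 x.2)))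
    fun x => k' (k (hw2 x) (hψ1 x.2))
  have i1 : ∀ n, Integrable (fun y => a n y * (w n y * ψ y.2)) (mY t) := fun n =>
    int_mul (ha n) (m2.1 n) fun x => k' (k (hw1 n x) (hψ1 x.2))
  have l3 := (hW _ (mY t)).2.1 _ _ _ _ m hE.1 hE1 he ((hU.2.2 _ _).1 _ hE).1 i1
    (int_mul ha₀ m2.2.1 fun x => k' (k (hw2 x) (hψ1 x.2)))
    (l1_mul ha ha₀ ham hl m2 (fun n x => k (hw1 n x) (hψ1 x.2)) fun x => k (hw2 x) (hψ1 x.2))
  refine le_of_tendsto_of_tendsto' l0 ((l1.add l2).add l3) fun n => ?_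
  have i0 := int_mul (((hU.2.2 _ _).1 _ hB).1 n) hψ fun x => k' (hψ1 x)
  have i2 := int_mul (((hU.2.2 _ _).1 _ hf).1 n) (m1.1 n) fun x => k' (k (hu1 n x) (hψ1 x))
  have i3 := int_mul (((hU.2.2 _ _).1 _ hG).1 n) (m2.1 n) fun x => k' (k (hw1 n x) (hψ1 x.2))
  have i4 : Integrable (fun y => Eg n y * (a n y * (w n y * ψ y.2))) (mY t) :=
    (i1 n).bdd_mul (hE.1 n).aestronglyMeasurable (ae_of_all _ (hE1 n))
  have i5 : Integrable (fun y => G n y * (w n y * ψ y.2) + Eg n y * (a n y * (w n y * ψ y.2)))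
    ((mT t).prod volume) := i3.add i4
  rw [add_assoc, ← integral_add i3 i4, mY, integral_prod_symm _ i5,
    ← integral_add i2 i5.integral_prod_right]
  refine integral_mono i0 (i2.add i5.integral_prod_right) fun p => ?_
  rcases eq_or_ne (ψ p) 0 with h0 | h0
  · simp [h0]
  refine (mul_le_mul_of_nonneg_right (h n p h0) (hψ1 p).1).trans_eq ?_
  rw [add_mul, ← integral_mul_const, mul_assoc]
  exact congrArg₂ _ rfl (integral_congr_ae (ae_of_all _ fun r => by ring))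

end

end Vale.Agent.P140.SubMX
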