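import Vale.Agent.P140.DissLscA

/-!
Auxiliary facts for the supersolution property.
-/

namespace Vale.Agent.P140

open MeasureTheory Set Filter Topology
open scoped ENNReal

noncomputable section

namespace Super

/-- Bounded continuous form of the integrating factor. -/
def ex (z : ℝ × ℝ) : ℝ := Real.exp (-max (z.1 - z.2) 0)

lemma continuous_ex : Continuous ex := by unfold ex; fun_prop

lemma ex_pos (z : ℝ × ℝ) : 0 < ex z := Real.exp_pos _

lemma ex_le_one (z : ℝ × ℝ) : ex z ≤ 1 :=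
  Real.exp_le_one_iff.2 (neg_nonpos.2 (le_max_right _ _))

lemma ex_eq {x y : ℝ} (h : 0 ≤ x - y) : ex (x, y) = Real.exp (-(x - y)) := by
  unfold ex; rw [max_eq_left h]

lemma rho_nonneg {f : Om → ℝ} (hf : ∀ p, 0 ≤ f p) (x : T3) : 0 ≤ rho f x :=
  integral_nonneg fun _ => hf _

lemma den_pos {f : Om → ℝ} (hf : ∀ p, 0 ≤ f p) {ε : ℝ} (hε : 0 ≤ ε) (x : T3) :
    0 < 1 + ε * rho f x := by
  have := mul_nonneg hε (rho_nonneg hf x); linarith

lemma kT_mono {R R' a r : ℝ} (hR : 0 ≤ R) (h : R ≤ R') (ha : 0 ≤ a) : kT R a r ≤ kT R' a r := by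
  unfold kT
  have h2 : R * a ^ 2 ≤ R' * a ^ 2 := mul_le_mul_of_nonneg_right h (sq_nonneg a)
  split_ifs with h1 h3
  · exact min_le_min le_rfl h2
  · exact absurd (h1.trans h) h3
  · exact le_min ha (mul_nonneg (hR.trans h) (sq_nonneg a))
  · exact le_rfl

lemma kT_le {R : ℝ} (hR : 0 ≤ R) (a b : ℝ) (ha : 0 ≤ a) (_h : a ≤ b) :
    0 ≤ kT R a b ∧ kT R a b ≤ kC R a b := by
  unfold kT kC
  split_ifs
  · exact ⟨le_min ha (mul_nonneg hR (sq_nonneg a)), min_le_left _ _⟩
  · exact ⟨le_rfl, le_rfl⟩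

lemma gain_mono {R R' : ℝ} (hR : 0 ≤ R) (h : R ≤ R') (f g : E → ℝ≥0∞) (v : E) :
    gainK (kT R) f g v ≤ gainK (kT R') f g v :=
  lintegral_mono fun _ =>
    mul_le_mul_left (ENNReal.ofReal_le_ofReal (kT_mono hR h (abs_nonneg _))) _

lemma gain_fin {R C : ℝ} {f : Om → ℝ} (hf : TData C f) (p : Om) :
    gainK (kT R) (sl f p.1) (sl f p.1) p.2 ≠ ⊤ := by
  have hC : ∀ v, sl f p.1 v ≤ ENNReal.ofReal C := by
    intro v
    have h1 := (hf.2 (p.1, v)).1
    have h2 := (hf.2 (p.1, v)).2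
    have h3 : Real.exp (-‖v‖) ≤ 1 := Real.exp_le_one_iff.2 (neg_nonpos.2 (norm_nonneg _))
    have h4 : 0 < Real.exp (-‖v‖) := Real.exp_pos _
    have h5 : 0 ≤ C := by
      by_contra h
      have := mul_neg_of_neg_of_pos (not_le.1 h) h4
      linarith
    exact ENNReal.ofReal_le_ofReal (h2.trans (by nlinarith))
  have hS : MeasurableSet (Metric.closedBall p.2 R ×ˢ (univ : Set S2)) :=
    Metric.isClosed_closedBall.measurableSet.prod MeasurableSet.univ
  have hle : gainK (kT R) (sl f p.1) (sl f p.1) p.2 ≤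
      ∫⁻ q : E × S2, (Metric.closedBall p.2 R ×ˢ (univ : Set S2)).indicator
        (fun _ => ENNReal.ofReal R * (ENNReal.ofReal C * ENNReal.ofReal C)) q
        ∂(volume.prod sph) := by
    refine lintegral_mono fun q => ?_
    by_cases h : ‖p.2 - q.1‖ ≤ R
    · have hq : q ∈ Metric.closedBall p.2 R ×ˢ (univ : Set S2) :=
        ⟨by rw [Metric.mem_closedBall, dist_comm, dist_eq_norm]; exact h, mem_univ _⟩
      rw [indicator_of_mem hq]
      refine mul_le_mul' (ENNReal.ofReal_le_ofReal ?_) (mul_le_mul' (hC _) (hC _))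
      unfold kT
      rw [if_pos h]
      exact (min_le_left _ _).trans ((abs_cf_le _ _ _).trans h)
    · simp [kT, h]
  refine ne_top_of_le_ne_top ?_ hle
  rw [lintegral_indicator_const hS, Measure.prod_prod]
  exact ENNReal.mul_ne_top (ENNReal.mul_ne_top ENNReal.ofReal_ne_top
    (ENNReal.mul_ne_top ENNReal.ofReal_ne_top ENNReal.ofReal_ne_top))
    (ENNReal.mul_ne_top measure_closedBall_lt_top.ne (measure_ne_top _ _))

lemma NN_sub {n : ℝ → Om → ℝ} {p : Om} {T r t : ℝ}
    (h : IntervalIntegrable (fun s => n s (fl s p)) volume 0 T) (hr : r ∈ Icc 0 T)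
    (ht : t ∈ Icc 0 T) : NN n t p - NN n r p = ∫ s in r..t, n s (fl s p) := by
  have hT : 0 ≤ T := hr.1.trans hr.2
  have k : ∀ u ∈ Icc 0 T, IntervalIntegrable (fun s => n s (fl s p)) volume 0 u := fun u hu =>
    h.mono_set (by rw [uIcc_of_le hu.1, uIcc_of_le hT]; exact Icc_subset_Icc le_rfl hu.2)
  exact intervalIntegral.integral_interval_sub_left (k t ht) (k r hr)

lemma GG_nonneg (k : ℝ → ℝ → ℝ) {ε : ℝ} (hε : 0 ≤ ε) {G : ℝ → Om → ℝ} (hG : ∀ t p, 0 ≤ G t p)
    (y : ℝ × Om) : 0 ≤ GG k ε G y :=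
  div_nonneg ENNReal.toReal_nonneg (den_pos (hG _) hε _).le

/-- The pointwise inequality for solutions of the truncated problem. -/
lemma pt (hF : TSFlStmt) {R δ M ε : ℝ} {F₀ : Om → ℝ} {G : ℝ → Om → ℝ} (hts : TS R δ F₀ G)
    (hR : 0 < R) (hδ : 0 < δ) (hM : 0 ≤ M) (hMR : M ≤ R) (hδε : δ ≤ ε) {s t : ℝ} (hs : 0 ≤ s)
    (hst : s ≤ t) (p : Om) (hm : Measurable fun r => NN (fun s => nT R δ (G s)) r p) :
    G s (fl s p) * ex (NN (fun s => nT R δ (G s)) t p, NN (fun s => nT R δ (G s)) s p) +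
      ∫ r, GG (kT M) ε G (r, fl r p) * ((Icc s t).indicator (fun _ => (1 : ℝ)) r *
        ex (NN (fun s => nT R δ (G s)) t p, NN (fun s => nT R δ (G s)) r p)) ∂(mT t) ≤
      G t (fl t p) := by
  obtain ⟨-, hb, hi, -, -, he⟩ := hF R δ F₀ G hR hδ hts
  have ht : 0 ≤ t := hs.trans hst
  obtain ⟨C, hC⟩ := hb t
  have hn0 : ∀ r q, 0 ≤ nT R δ (G r) q := fun r q =>
    div_nonneg ENNReal.toReal_nonneg (den_pos (hts.nonneg r) hδ.le _).le
  have hex : ∀ r ∈ Icc 0 t, ex (NN (fun s => nT R δ (G s)) t p, NN (fun s => nT R δ (G s)) r p) =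
      Real.exp (-∫ r' in r..t, nT R δ (G r') (fl r' p)) := by
    intro r hr
    have h1 := NN_sub (n := fun s => nT R δ (G s)) (hi p 0 t le_rfl ht).2.1 hr ⟨ht, le_rfl⟩
    rw [ex_eq, h1]
    rw [h1]
    exact intervalIntegral.integral_nonneg hr.2 fun u _ => hn0 _ _
  rw [he p s t hs hst, hex s ⟨hs, hst⟩]
  refine add_le_add le_rfl ?_
  have hsub : Icc s t ⊆ Icc 0 t := Icc_subset_Icc hs le_rfl
  set u : ℝ → ℝ := fun r => gT R δ (G r) (fl r p) *
    ex (NN (fun s => nT R δ (G s)) t p, NN (fun s => nT R δ (G s)) r p) with hu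
  have hui : IntegrableOn u (Icc s t) := by
    have h1 := (intervalIntegrable_iff_integrableOn_Icc_of_le hst).1 (hi p s t hs ht).1
    refine Integrable.mul_bdd (c := 1) h1 (continuous_ex.measurable.comp
      (measurable_const.prodMk hm)).aestronglyMeasurable (Eventually.of_forall fun r => ?_)
    rw [Real.norm_eq_abs, abs_of_pos (ex_pos _)]
    exact ex_le_one _
  have h2 : ∫ r in s..t, gT R δ (G r) (fl r p) *
      Real.exp (-∫ r' in r..t, nT R δ (G r') (fl r' p)) =
      ∫ r, (Icc s t).indicator u r ∂(mT t) := by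
    rw [integral_indicator measurableSet_Icc]
    unfold mT
    rw [Measure.restrict_restrict measurableSet_Icc, inter_eq_left.2 hsub,
      intervalIntegral.integral_of_le hst, ← integral_Icc_eq_integral_Ioc]
    refine setIntegral_congr_fun measurableSet_Icc fun r hr => ?_
    simp only [hu]
    rw [hex r (hsub hr)]
  rw [h2]
  refine integral_mono_of_nonneg (Eventually.of_forall fun r => ?_) ?_
    (Eventually.of_forall fun r => ?_)
  · exact mul_nonneg (GG_nonneg _ (hδ.le.trans hδε) hts.nonneg _)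
      (mul_nonneg (indicator_nonneg (fun _ _ => zero_le_one) _) (ex_pos _).le)
  · unfold mT
    exact (hui.integrable_indicator measurableSet_Icc).integrableOn
  · by_cases hr : r ∈ Icc s t
    · simp only [indicator_of_mem hr, one_mul, hu]
      refine mul_le_mul_of_nonneg_right ?_ (ex_pos _).le
      refine div_le_div₀ ENNReal.toReal_nonneg (ENNReal.toReal_mono
        (gain_fin (hC r (hsub hr)) _) (gain_mono hM hMR _ _ _))
        (den_pos (hts.nonneg r) hδ.le _) ?_
      have := mul_le_mul_of_nonneg_right hδε (rho_nonneg (hts.nonneg r) (fl r p).1)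
      simp only
      linarith
    · simp [indicator_of_notMem hr]

lemma tendsto_gain (hM : MeasStmt) {f : Om → ℝ} (hf : Measurable f) (h0 : ∀ p, 0 ≤ f p) (p : Om) :
    Tendsto (fun N : ℕ => gainK (kT ((N : ℝ) + 1)) (sl f p.1) (sl f p.1) p.2) atTop
      (𝓝 (Qp f p)) := by
  rw [(hM.2.2.2.2.2.2 f p hf h0).1]
  have hN : Tendsto (fun N : ℕ => (N : ℝ) + 1) atTop atTop :=
    tendsto_atTop_add_const_right _ _ tendsto_natCast_atTop_atTop
  have hs : Measurable (sl f p.1) := (hf.comp measurable_prodMk_left).ennreal_ofReal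
  have h1 : Measurable fun q : E × S2 => vp p.2 q.1 q.2 :=
    continuous_vp.measurable.comp measurable_prodMk_left
  have h2 : Measurable fun q : E × S2 => wp p.2 q.1 q.2 :=
    continuous_wp.measurable.comp measurable_prodMk_left
  have h3 : Measurable fun q : E × S2 => |cf p.2 q.1 q.2| :=
    (continuous_cf.measurable.comp measurable_prodMk_left).abs
  have h4 : Measurable fun q : E × S2 => ‖p.2 - q.1‖ := by fun_prop
  unfold gainK
  refine lintegral_tendsto_of_tendsto_of_monotone (fun N => ?_) (Eventually.of_forall fun q => ?_)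
    (Eventually.of_forall fun q => ?_)
  · exact (((hM.2.1 _).comp (h3.prodMk h4)).ennreal_ofReal.mul
      ((hs.comp h1).mul (hs.comp h2))).aemeasurable
  · intro a b hab
    refine mul_le_mul_left (ENNReal.ofReal_le_ofReal (kT_mono (by positivity) ?_ (abs_nonneg _))) _
    have : (a : ℝ) ≤ b := Nat.cast_le.2 hab
    linarith
  · refine tendsto_const_nhds.congr' ?_
    set a := |cf p.2 q.1 q.2| with ha
    have ha0 : 0 ≤ a := abs_nonneg _
    filter_upwards [hN.eventually_ge_atTop ‖p.2 - q.1‖, hN.eventually_ge_atTop a⁻¹] with N h1 h2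
    congr 2
    unfold kF kT
    rw [if_pos h1]
    refine (min_eq_left ?_).symm
    rcases ha0.eq_or_lt with h | h
    · rw [← h]; simp
    · have : a⁻¹ * a ^ 2 = a := by field_simp
      nlinarith [mul_le_mul_of_nonneg_right h2 (sq_nonneg a)]

lemma tendsto_GG (hM : MeasStmt) {G : ℝ → Om → ℝ} (hG : Measurable fun y : ℝ × Om => G y.1 y.2)
    (h0 : ∀ t p, 0 ≤ G t p) (y : ℝ × Om)
    (hy : ∀ N : ℕ, gainK (kT ((N : ℝ) + 1)) (sl (G y.1) y.2.1) (sl (G y.1) y.2.1) y.2.2 ≠ ⊤) :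
    Tendsto (fun N : ℕ => ENNReal.ofReal (GG (kT ((N : ℝ) + 1)) ((N : ℝ) + 1)⁻¹ G y)) atTop
      (𝓝 (Qp (G y.1) y.2)) := by
  have hN : Tendsto (fun N : ℕ => (N : ℝ) + 1) atTop atTop :=
    tendsto_atTop_add_const_right _ _ tendsto_natCast_atTop_atTop
  have h1 := tendsto_gain hM (f := G y.1) (hG.comp measurable_prodMk_left : Measurable (G y.1)) (h0 y.1) y.2
  have h2 : Tendsto (fun N : ℕ =>
      ENNReal.ofReal ((1 + ((N : ℝ) + 1)⁻¹ * rho (G y.1) y.2.1)⁻¹)) atTop (𝓝 1) := by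
    have h3 : Tendsto (fun N : ℕ => (1 + ((N : ℝ) + 1)⁻¹ * rho (G y.1) y.2.1)⁻¹) atTop
        (𝓝 ((1 + 0 * rho (G y.1) y.2.1)⁻¹)) :=
      (tendsto_const_nhds.add ((tendsto_inv_atTop_zero.comp hN).mul_const _)).inv₀ (by simp)
    have := (ENNReal.continuous_ofReal.tendsto _).comp h3
    simpa [Function.comp_def] using this
  have h4 := ENNReal.Tendsto.mul h1 (Or.inr ENNReal.one_ne_top) h2 (Or.inl one_ne_zero)
  rw [mul_one] at h4
  refine h4.congr fun N => ?_
  unfold GG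
  rw [div_eq_mul_inv, ENNReal.ofReal_mul ENNReal.toReal_nonneg, ENNReal.ofReal_toReal (hy N)]

end Super

end

end Vale.Agent.P140
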