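import Vale.Agent.P140.StmA

/-! Symmetrization of the truncated entropy production at a fixed position. -/

namespace Vale.Agent.P140

open MeasureTheory Set
open scoped ENNReal

noncomputable section

namespace TSEnt

/-- Weight. -/
def W (v : E) : ℝ := (1 + ‖v‖ ^ 2) * Real.exp (-‖v‖)

theorem W_pos (v : E) : 0 < W v := by unfold W; positivity

theorem exp_le_W (v : E) : Real.exp (-‖v‖) ≤ W v :=
  le_mul_of_one_le_left (Real.exp_pos _).le (le_add_of_nonneg_right (sq_nonneg _))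

theorem intW : Integrable W := by
  refine ((integrable_one_add_norm (E := E) (μ := volume) (r := 4) (by
    simp only [finrank_euclideanSpace, Fintype.card_fin]; norm_num)).const_mul
    (720 * Real.exp 1)).mono' (Continuous.aestronglyMeasurable (by unfold W; fun_prop))
    (Filter.Eventually.of_forall fun v => ?_)
  have h0 := norm_nonneg v
  have h1 := Real.pow_div_factorial_le_exp (1 + ‖v‖) (by positivity) 6
  rw [Real.norm_of_nonneg (W_pos v).le, Real.rpow_neg (by positivity), Real.rpow_ofNat,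
    ← div_eq_mul_inv, le_div_iff₀ (by positivity), W, Real.exp_neg, mul_right_comm,
    ← div_eq_mul_inv, div_le_iff₀ (Real.exp_pos _), mul_assoc, ← Real.exp_add]
  norm_num [Nat.factorial] at h1
  have h2 : (1 + ‖v‖ ^ 2) * (1 + ‖v‖) ^ 4 ≤ (1 + ‖v‖) ^ 2 * (1 + ‖v‖) ^ 4 := by
    gcongr
    nlinarith
  linarith

theorem ic {α β : Type} [MeasurableSpace α] [MeasurableSpace β] {μ : Measure α} {ν : Measure β}
    {e : α → β} (he : MeasurePreserving e μ ν) {Φ : β → ℝ} (h : AEStronglyMeasurable Φ ν) :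
    ∫ x, Φ (e x) ∂μ = ∫ y, Φ y ∂ν := by
  rw [← he.map_eq] at h ⊢
  exact (integral_map he.aemeasurable h).symm

theorem log_Mx (v : E) :
    Real.log (Mx v) = Real.log ((2 * Real.pi) ^ (-(3 / 2 : ℝ))) - ‖v‖ ^ 2 / 2 := by
  have := Real.pi_pos
  rw [Mx, Real.log_mul (by positivity) (Real.exp_pos _).ne', Real.log_exp]
  ring

theorem ell_bd {c : ℝ} (hc : 0 < c) (C : ℝ) : ∃ K : ℝ, 0 < K ∧ ∀ (y : ℝ) (v : E), c * Mx v ≤ y →
    y ≤ C * Real.exp (-‖v‖) → |Real.log (y / Mx v)| ≤ K * (1 + ‖v‖ ^ 2) := by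
  obtain ⟨a, ha⟩ : ∃ a, a = Real.log ((2 * Real.pi) ^ (-(3 / 2 : ℝ))) := ⟨_, rfl⟩
  refine ⟨|Real.log c| + |Real.log C| + |a| + 1, by positivity, fun y v h1 h2 => ?_⟩
  have hM := Mx_pos v
  have hy : 0 < y := (mul_pos hc hM).trans_le h1
  have hC : 0 < C := (mul_pos_iff_of_pos_right (Real.exp_pos _)).1 (hy.trans_le h2)
  have h3 : Real.log c ≤ Real.log (y / Mx v) := Real.log_le_log hc ((le_div_iff₀ hM).2 h1)
  have h4 : Real.log y ≤ Real.log C := Real.log_le_log hy (h2.trans (mul_le_of_le_one_right hC.le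
    (Real.exp_le_one_iff.2 (neg_nonpos.2 (norm_nonneg v)))))
  have h5 := Real.log_div hy.ne' hM.ne'
  rw [log_Mx, ← ha] at h5
  have h6 := mul_nonneg (show 0 ≤ |Real.log c| + |Real.log C| + |a| by positivity) (sq_nonneg ‖v‖)
  rw [abs_le]
  constructor <;> nlinarith [neg_abs_le (Real.log c), le_abs_self (Real.log C), neg_abs_le a,
    abs_nonneg (Real.log c), abs_nonneg (Real.log C), abs_nonneg a, sq_nonneg ‖v‖]

/-- Collision configurations. -/
abbrev Z : Type := E × E × S2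

/-- Their measure. -/
def mu : Measure Z := (volume : Measure E).prod ((volume : Measure E).prod sph)

/-- Exchange of the particles. -/
def sg (z : Z) : Z := (z.2.1, z.1, z.2.2)

/-- Collision map. -/
def ta (z : Z) : Z := (vp z.1 z.2.1 z.2.2, wp z.1 z.2.1 z.2.2, z.2.2)

/-- Kernel. -/
def kk (R : ℝ) (z : Z) : ℝ := kT R |cf z.1 z.2.1 z.2.2| ‖z.1 - z.2.1‖

/-- Tensor square. -/
def BB (g : E → ℝ) (z : Z) : ℝ := g z.1 * g z.2.1

theorem m_sg : Measurable sg :=
  measurable_snd.fst.prodMk (measurable_fst.prodMk measurable_snd.snd)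

theorem m_ta : Measurable ta :=
  continuous_vp.measurable.prodMk (continuous_wp.measurable.prodMk measurable_snd.snd)

theorem mp_of {e : Z → Z} (he : Measurable e) (h : ∀ Φ : Z → ℝ≥0∞, Measurable Φ →
    ∫⁻ v, ∫⁻ q : E × S2, Φ (v, q.1, q.2) ∂(volume.prod sph) =
      ∫⁻ v, ∫⁻ q : E × S2, Φ (e (v, q)) ∂(volume.prod sph)) : MeasurePreserving e mu mu := by
  refine ⟨he, Measure.ext_of_lintegral _ fun Φ hΦ => ?_⟩
  rw [lintegral_map hΦ he, mu, lintegral_prod _ hΦ.aemeasurable,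
    lintegral_prod (fun z => Φ (e z)) (hΦ.comp he).aemeasurable]
  exact (h Φ hΦ).symm

theorem ta_ta (z : Z) : ta (ta z) = z := Prod.ext (vp_post _ _ _) (Prod.ext (wp_post _ _ _) rfl)

theorem kk_ta (R : ℝ) (z : Z) : kk R (ta z) = kk R z := by
  simp only [kk, ta, cf_post, abs_neg, norm_post]

theorem kk_sg (R : ℝ) (z : Z) : kk R (sg z) = kk R z := by
  simp only [kk, sg, cf_swap z.1 z.2.1, abs_neg, norm_sub_rev z.1]

theorem BB_sg (g : E → ℝ) (z : Z) : BB g (sg z) = BB g z := mul_comm _ _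

theorem kk_mem {R : ℝ} (hR : 0 < R) (z : Z) : 0 ≤ kk R z ∧ kk R z ≤ R := by
  unfold kk kT
  split_ifs with h
  · exact ⟨le_min (abs_nonneg _) (by positivity),
      (min_le_left _ _).trans ((abs_cf_le _ _ _).trans h)⟩
  · exact ⟨le_rfl, hR.le⟩

theorem m_kk (hM : MeasStmt) (R : ℝ) : Measurable (kk R) :=
  (hM.2.1 R).comp ((continuous_abs.measurable.comp continuous_cf.measurable).prodMk
    (measurable_fst.sub measurable_snd.fst).norm)

theorem m_BB {g : E → ℝ} (hg : Measurable g) : Measurable (BB g) :=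
  (hg.comp measurable_fst).mul (hg.comp measurable_snd.fst)

theorem en (z : Z) : ‖(ta z).1‖ ^ 2 + ‖(ta z).2.1‖ ^ 2 = ‖z.1‖ ^ 2 + ‖z.2.1‖ ^ 2 := by
  simpa only [sub_zero, ta] using energy_post z.1 z.2.1 0 z.2.2

theorem dom (hM : MeasStmt) {R C K : ℝ} (hR : 0 < R) (hK : 0 < K) {g l : E → ℝ}
    (hg : Measurable g) (hl : Measurable l) (g0 : ∀ v, 0 ≤ g v)
    (up : ∀ v, g v ≤ C * Real.exp (-‖v‖)) (lb : ∀ v, |l v| ≤ K * (1 + ‖v‖ ^ 2)) {u : Z → E}
    (hu : Measurable u) (ub : ∀ z, ‖u z‖ ^ 2 ≤ ‖z.1‖ ^ 2 + ‖z.2.1‖ ^ 2) :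
    Integrable (fun z => kk R z * BB g z * l (u z)) mu := by
  refine ((intW.mul_prod (intW.comp_fst sph)).const_mul (R * C * C * K)).mono'
    (((m_kk hM R).mul (m_BB hg)).mul (hl.comp hu)).aestronglyMeasurable
    (Filter.Eventually.of_forall fun z => ?_)
  obtain ⟨k0, k1⟩ := kk_mem hR z
  have a1 : |l (u z)| ≤ K * ((1 + ‖z.1‖ ^ 2) * (1 + ‖z.2.1‖ ^ 2)) :=
    (lb _).trans (mul_le_mul_of_nonneg_left
      (by nlinarith [ub z, mul_nonneg (sq_nonneg ‖z.1‖) (sq_nonneg ‖z.2.1‖)]) hK.le)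
  have a2 := (g0 z.1).trans (up z.1)
  have a3 := (g0 z.2.1).trans (up z.2.1)
  rw [Real.norm_eq_abs, abs_mul, BB, abs_of_nonneg (mul_nonneg k0 (mul_nonneg (g0 _) (g0 _)))]
  refine (mul_le_mul (mul_le_mul k1 (mul_le_mul (up _) (up _) (g0 _) a2)
    (mul_nonneg (g0 _) (g0 _)) hR.le) a1 (abs_nonneg _)
    (mul_nonneg hR.le (mul_nonneg a2 a3))).trans_eq ?_
  simp only [W]
  ring

/-- Logarithm of the relative density. -/
def ell (g : E → ℝ) (v : E) : ℝ := Real.log (g v / Mx v)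

/-- Dissipation density. -/
def QQ (R : ℝ) (g : E → ℝ) (z : Z) : ℝ :=
  kk R z * ((BB g (ta z) - BB g z) * Real.log (BB g (ta z) / BB g z))

theorem vel (hM : MeasStmt) (hW : WeakStmt) {R C K : ℝ} (hR : 0 < R) (hK : 0 < K) {g : E → ℝ}
    (hg : Measurable g) (g0 : ∀ v, 0 < g v) (up : ∀ v, g v ≤ C * Real.exp (-‖v‖))
    (lb : ∀ v, |ell g v| ≤ K * (1 + ‖v‖ ^ 2)) :
    Integrable (fun z => kk R z * BB g (ta z) * ell g z.1) mu ∧
    Integrable (fun z => kk R z * BB g z * ell g z.1) mu ∧ Integrable (QQ R g) mu ∧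
    ∫ z, QQ R g z ∂mu = 4 * (∫ z, kk R z * BB g z * ell g z.1 ∂mu -
      ∫ z, kk R z * BB g (ta z) * ell g z.1 ∂mu) := by
  have ps : MeasurePreserving sg mu mu := mp_of m_sg hW.2.2.1
  have pt : MeasurePreserving ta mu mu := mp_of m_ta hW.2.2.2
  have hl : Measurable (ell g) := (hg.div continuous_Mx.measurable).log
  have d := fun {u : Z → E} => dom hM hR hK hg hl (fun v => (g0 v).le) up lb (u := u)
  have i1 := d measurable_fst fun z => le_add_of_nonneg_right (sq_nonneg _)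
  have i2 := d m_ta.fst fun z => (le_add_of_nonneg_right (sq_nonneg _)).trans (en z).le
  have i3 := d measurable_snd.fst fun z => le_add_of_nonneg_left (sq_nonneg _)
  have i4 := d m_ta.snd.fst fun z => (le_add_of_nonneg_left (sq_nonneg _)).trans (en z).le
  have e3 : ∫ z, kk R z * BB g z * ell g z.2.1 ∂mu = ∫ z, kk R z * BB g z * ell g z.1 ∂mu := by
    rw [← ic ps i1.1]
    simp only [kk_sg, BB_sg]
    rfl
  have e4 : ∫ z, kk R z * BB g z * ell g (ta z).2.1 ∂mu =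
      ∫ z, kk R z * BB g z * ell g (ta z).1 ∂mu := by
    rw [← ic ps i2.1]
    simp only [kk_sg, BB_sg, show ∀ z, (ta (sg z)).1 = (ta z).2.1 from fun z => vp_swap _ _ _]
  have e2 : ∫ z, kk R z * BB g (ta z) * ell g z.1 ∂mu =
      ∫ z, kk R z * BB g z * ell g (ta z).1 ∂mu := by
    rw [← ic pt i2.1]
    simp only [kk_ta, ta_ta]
  have j2 : Integrable (fun z => kk R z * BB g (ta z) * ell g z.1) mu := by
    simpa only [Function.comp_def, kk_ta, ta_ta] using pt.integrable_comp_of_integrable i2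
  obtain ⟨P, hP⟩ : ∃ P : Z → ℝ, P = fun z => kk R z * BB g z * ell g z.1 +
    kk R z * BB g z * ell g z.2.1 - kk R z * BB g z * ell g (ta z).1 -
      kk R z * BB g z * ell g (ta z).2.1 := ⟨_, rfl⟩
  have iP : Integrable P mu := hP ▸ ((i1.add i3).sub i2).sub i4
  have eP : ∫ z, P z ∂mu = 2 * (∫ z, kk R z * BB g z * ell g z.1 ∂mu -
      ∫ z, kk R z * BB g (ta z) * ell g z.1 ∂mu) := by
    have a1 := integral_sub ((i1.add i3).sub i2) i4
    have a2 := integral_sub (i1.add i3) i2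
    have a3 := integral_add i1 i3
    simp only [Pi.add_apply, Pi.sub_apply] at a1 a2
    rw [hP, a1, a2, a3, e3, e4, e2]
    ring
  have hQ : QQ R g = fun z => P z + P (ta z) := funext fun z => by
    have a := en z
    simp only [hP, QQ, ell, kk_ta, ta_ta, Real.log_div (g0 _).ne' (Mx_pos _).ne', log_Mx]
    have b : ∀ z, Real.log (BB g z) = Real.log (g z.1) + Real.log (g z.2.1) := fun z =>
      Real.log_mul (g0 _).ne' (g0 _).ne'
    have b0 : ∀ z, BB g z ≠ 0 := fun z => (mul_pos (g0 _) (g0 _)).ne'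
    rw [Real.log_div (b0 _) (b0 _), b, b]
    linear_combination (kk R z * (BB g z - BB g (ta z)) / 2) * a
  have iP' : Integrable (fun z => P (ta z)) mu := pt.integrable_comp_of_integrable iP
  refine ⟨j2, i1, hQ ▸ iP.add iP', ?_⟩
  rw [hQ, integral_add iP iP', ic pt iP.1, eP]
  ring

end TSEnt

end

end Vale.Agent.P140
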