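import Vale.Agent.P140.StmC

/-!
Auxiliary lemmas for the lower bounds of the adjoint weight.
-/

namespace Vale.Agent.P140

open MeasureTheory Set Filter Topology
open scoped ENNReal

namespace W1Aux

lemma sg_cases (j : ℕ) : sg j = 1 ∨ sg j = -1 := by
  unfold sg
  exact neg_one_pow_eq_or ℝ j

lemma abs_sg (j : ℕ) : |sg j| = 1 := by
  rcases sg_cases j with h | h <;> simp [h]

lemma sg_zero : sg 0 = 1 := by simp [sg]

lemma sg_one : sg 1 = -1 := by simp [sg]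

/-- Distance of a velocity to the beam velocity. -/
lemma dist_uu (ha : GeoAStmt) (κ σ : ℝ) (hκ : 0 ≤ κ) (x : T3) (v : E) :
    ‖hz v‖ - κ ≤ ‖v - uu κ σ x‖ ∧ |v 2 - σ| ≤ ‖v - uu κ σ x‖ ∧
      ‖v - uu κ σ x‖ ≤ ‖hz v‖ + κ + |v 2 - σ| ∧ ‖v - uu κ σ x‖ ≤ ‖v‖ + κ + |σ| := by
  obtain ⟨h1, h2, h3⟩ := ha.uu_le κ σ x hκ
  obtain ⟨n1, n2, n3⟩ := ha.norm_sq (v - uu κ σ x)
  have hs : hz (v - uu κ σ x) = hz v - hz (uu κ σ x) := (ha.hz_add v (uu κ σ x) 0).2.1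
  have hc : (v - uu κ σ x) 2 = v 2 - σ := by
    rw [PiLp.sub_apply, h2]
  rw [hs] at n1 n2
  rw [hc] at n1 n3
  have t1 : ‖hz v‖ - ‖hz (uu κ σ x)‖ ≤ ‖hz v - hz (uu κ σ x)‖ := norm_sub_norm_le _ _
  have t2 : ‖hz v - hz (uu κ σ x)‖ ≤ ‖hz v‖ + ‖hz (uu κ σ x)‖ := norm_sub_le _ _
  have t3 : ‖v - uu κ σ x‖ ≤ ‖v‖ + ‖uu κ σ x‖ := norm_sub_le _ _
  refine ⟨by linarith, n3, ?_, by linarith⟩
  have h0 : 0 ≤ ‖hz v - hz (uu κ σ x)‖ + |v 2 - σ| := by positivity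
  have : ‖v - uu κ σ x‖ ≤ ‖hz v - hz (uu κ σ x)‖ + |v 2 - σ| := by
    apply le_of_sq_le_sq' _ h0
    rw [n1, add_sq, sq_abs]
    have : 0 ≤ 2 * ‖hz v - hz (uu κ σ x)‖ * |v 2 - σ| := by positivity
    linarith
  linarith
  where
  le_of_sq_le_sq' {a b : ℝ} (h : a ^ 2 ≤ b ^ 2) (hb : 0 ≤ b) : a ≤ b :=
    le_trans (le_abs_self a) (by
      have := sq_le_sq.1 h
      rwa [abs_of_nonneg hb] at this)

/-- A lower bound for an integral by a constant on a measurable subset. -/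
lemma const_mul_le (a b : ℝ) (S : Set ℝ) (hS : MeasurableSet S) (hsub : S ⊆ Icc a b)
    (k : ℝ≥0∞) (f : ℝ → ℝ≥0∞) (hf : ∀ s ∈ S, k ≤ f s) :
    k * volume S ≤ ∫⁻ s in Ioc a b, f s := by
  rw [setLIntegral_congr (Ioc_ae_eq_Icc (μ := (volume : Measure ℝ)))]
  calc k * volume S = ∫⁻ _ in S, k := (setLIntegral_const S k).symm
    _ ≤ ∫⁻ s in S, f s := setLIntegral_mono' hS hf
    _ ≤ ∫⁻ s in Icc a b, f s := lintegral_mono_set hsub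

/-- An upper bound for an integral by a constant. -/
lemma le_const_mul (a b k : ℝ) (hk : 0 ≤ k) (f : ℝ → ℝ≥0∞)
    (hf : ∀ s ∈ Ioc a b, f s ≤ ENNReal.ofReal k) :
    ∫⁻ s in Ioc a b, f s ≤ ENNReal.ofReal (k * (b - a)) := by
  calc ∫⁻ s in Ioc a b, f s ≤ ∫⁻ _ in Ioc a b, ENNReal.ofReal k :=
        setLIntegral_mono' measurableSet_Ioc hf
    _ = ENNReal.ofReal (k * (b - a)) := by
        rw [setLIntegral_const, Real.volume_Ioc, ENNReal.ofReal_mul hk]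

/-- Time spent in the core of a ring of given parity. -/
lemma core_time (hL : LineStmt) (g : Geo) (hg : g.Ok) (hB : GeoB g) (X w : ℂ)
    (t a b s₁ s₂ l₁ l₂ : ℝ) (i : ℕ) (h1 : s₁ ∈ Icc a b) (h2 : s₂ ∈ Icc a b)
    (e1 : ‖X + ((s₁ - t : ℝ) : ℂ) * w‖ - g.κ * s₁ ≤ l₁)
    (e2 : l₂ ≤ ‖X + ((s₂ - t : ℝ) : ℂ) * w‖ - g.κ * s₂)
    (k1 : g.r (g.K + 1) ≤ l₁) (k2 : l₂ ≤ g.R) (k3 : l₂ / 1000 ≤ l₂ - l₁) (k4 : 0 < l₂) :
    ∃ j ≤ g.K, sg j = sg i ∧ ∃ S : Set ℝ, MeasurableSet S ∧ S ⊆ Icc a b ∧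
      (∀ s ∈ S, |‖X + ((s - t : ℝ) : ℂ) * w‖ - g.κ * s - g.mid j| ≤ 1 / 5 * g.w j) ∧
      ENNReal.ofReal (l₂ / 20000 / (‖w‖ + g.κ)) ≤ volume S := by
  obtain ⟨j, hj, hs, a1, a2, a3⟩ := hL.ring g hg l₁ l₂ i k1 k2 k3 k4
  obtain ⟨r0, -, r1, -⟩ := hB.r_pos j
  have hw : g.w j = g.r j / 4000 := rfl
  have hm : g.mid j = g.r j - g.w j / 2 := rfl
  refine ⟨j, hj, hs, {s ∈ Icc a b | ‖X + ((s - t : ℝ) : ℂ) * w‖ - g.κ * s ∈
    Icc (g.mid j - g.w j / 5) (g.mid j + g.w j / 5)}, ?_, fun s hs => hs.1, ?_, ?_⟩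
  · refine measurableSet_Icc.inter ?_
    have hc : Continuous fun s : ℝ => ‖X + ((s - t : ℝ) : ℂ) * w‖ - g.κ * s := by fun_prop
    exact hc.measurable measurableSet_Icc
  · intro s hs
    obtain ⟨-, b1, b2⟩ := hs
    rw [abs_le]; constructor <;> linarith
  · refine le_trans ?_ (hL.cross X w g.κ t a b s₁ s₂ (g.mid j - g.w j / 5) (g.mid j + g.w j / 5)
      hg.κ0 h1 h2 (by linarith) (by linarith) (by linarith))
    apply ENNReal.ofReal_le_ofReal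
    have : 0 < ‖w‖ + g.κ := by have := hg.κ0; positivity
    apply div_le_div_of_nonneg_right _ this.le
    linarith

/-- The basic lower bound along one flight. -/
lemma flight_lb (he : EnStmt) (t b d B : ℝ) (A : ℝ≥0∞) (n ν : ℝ → ℝ≥0∞) (G : Set ℝ)
    (htb : t ≤ b) (hb1 : b ≤ 1) (hd : 0 ≤ d) (hB0 : 0 ≤ B) (hA : A ≠ ⊤) (hn : Measurable n)
    (hG : MeasurableSet G) (hν : ∀ s ∈ Ioc t b, s ∈ G → A * n s ≤ ν s)
    (hB : ∫⁻ s in Ioc t b, Gᶜ.indicator n s ≤ ENNReal.ofReal B)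
    (hfin : ∫⁻ s in Ioc t b, n s ≠ ⊤)
    (hdep : ENNReal.ofReal d ≤ ∫⁻ s in Ioc t b, G.indicator n s) :
    A * ENNReal.ofReal (Real.exp (-B) * (1 - Real.exp (-d))) ≤
      ∫⁻ s in Ioc t 1, en (∫⁻ r in Ioc t s, n r) * ν s := by
  have hng : Measurable (G.indicator n) := hn.indicator hG
  have hfin' : ∫⁻ s in Ioc t b, G.indicator n s ≠ ⊤ :=
    ne_top_of_le_ne_top hfin (lintegral_mono fun s => indicator_le_self G n s)
  have hex := he.expo t b (G.indicator n) htb hng hfin'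
  have h1 : en (∫⁻ r in Ioc t b, G.indicator n r) ≤ ENNReal.ofReal (Real.exp (-d)) := by
    rw [← he.ofReal d hd]; exact he.anti _ _ hdep
  have h2 : ENNReal.ofReal (1 - Real.exp (-d)) ≤
      ∫⁻ s in Ioc t b, en (∫⁻ r in Ioc t s, G.indicator n r) * G.indicator n s := by
    rw [ENNReal.ofReal_sub _ (Real.exp_pos _).le, ENNReal.ofReal_one, tsub_le_iff_right]
    exact hex.symm.le.trans (add_le_add le_rfl h1)
  have h3 : ∀ s ∈ Ioc t b, A * ENNReal.ofReal (Real.exp (-B)) *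
      (en (∫⁻ r in Ioc t s, G.indicator n r) * G.indicator n s) ≤
      en (∫⁻ r in Ioc t s, n r) * ν s := by
    intro s hs
    by_cases hsG : s ∈ G
    · rw [indicator_of_mem hsG]
      have e1 : ∫⁻ r in Ioc t s, n r ≤
          (∫⁻ r in Ioc t s, G.indicator n r) + ENNReal.ofReal B := by
        have : ∫⁻ r in Ioc t s, n r =
            (∫⁻ r in Ioc t s, G.indicator n r) + ∫⁻ r in Ioc t s, Gᶜ.indicator n r := by
          rw [← lintegral_add_left hng]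
          congr 1
          funext r
          by_cases hr : r ∈ G
          · simp [hr]
          · simp [hr]
        rw [this]
        gcongr
        exact le_trans (lintegral_mono_set (Ioc_subset_Ioc_right hs.2)) hB
      have e2 : en (∫⁻ r in Ioc t s, G.indicator n r) * ENNReal.ofReal (Real.exp (-B)) ≤
          en (∫⁻ r in Ioc t s, n r) := by
        rw [← he.ofReal B hB0, ← he.add]; exact he.anti _ _ e1
      calc A * ENNReal.ofReal (Real.exp (-B)) * (en (∫⁻ r in Ioc t s, G.indicator n r) * n s)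
          = (en (∫⁻ r in Ioc t s, G.indicator n r) * ENNReal.ofReal (Real.exp (-B))) *
              (A * n s) := by ring
        _ ≤ en (∫⁻ r in Ioc t s, n r) * ν s := mul_le_mul' e2 (hν s hs hsG)
    · rw [indicator_of_notMem hsG]; simp
  calc A * ENNReal.ofReal (Real.exp (-B) * (1 - Real.exp (-d)))
      = A * ENNReal.ofReal (Real.exp (-B)) * ENNReal.ofReal (1 - Real.exp (-d)) := by
        rw [ENNReal.ofReal_mul (Real.exp_pos _).le, mul_assoc]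
    _ ≤ A * ENNReal.ofReal (Real.exp (-B)) *
        ∫⁻ s in Ioc t b, en (∫⁻ r in Ioc t s, G.indicator n r) * G.indicator n s := by gcongr
    _ = ∫⁻ s in Ioc t b, A * ENNReal.ofReal (Real.exp (-B)) *
        (en (∫⁻ r in Ioc t s, G.indicator n r) * G.indicator n s) := by
        rw [lintegral_const_mul' _ _ (ENNReal.mul_ne_top hA ENNReal.ofReal_ne_top)]
    _ ≤ ∫⁻ s in Ioc t b, en (∫⁻ r in Ioc t s, n r) * ν s :=
        setLIntegral_mono' measurableSet_Ioc h3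
    _ ≤ _ := lintegral_mono_set (Ioc_subset_Ioc_right hb1)

lemma th_le (g : Geo) (hg : g.Ok) (hB : GeoB g) (j : ℕ) : g.th j ≤ g.R := by
  obtain ⟨-, -, -, -, -, a1, -, a2⟩ := hB.r_pos j
  have a3 : g.R ^ 6 ≤ g.R := pow_le_of_le_one hg.R0.le (by linarith [hB.R_le]) (by norm_num)
  linarith

/-- Upper bound for the frequency at one point. -/
lemma nu_up (hF : FreqStmt) (g : Geo) (q : Par) (V₀ : ℝ) (hg : g.Ok) (hκη : g.κ ≤ q.η)
    (hp : 0 ≤ q.p) (hColl : Coll q.p q.η q.D V₀) (hV : V₀ ≤ q.V) (s : ℝ) (hs : s ∈ Icc (0 : ℝ) 1)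
    (y : Om) (M ρ : ℝ) (hM0 : 0 ≤ M) (hρ : 0 < ρ)
    (h : ∀ j ≤ g.K, y.1 ∈ Tube g j s → ‖y.2 - uu g.κ (sg j) y.1‖ + g.th j ≤ M ∧ ρ ≤ ‖pl y.1‖) :
    Nu (BB g) s y ≤ ENNReal.ofReal (16 * Real.pi * g.c * M / ρ) := by
  obtain ⟨f0, f1⟩ := hF g q V₀ hg hκη hp hColl hV s hs y
  by_cases hin : InT g s y.1
  · obtain ⟨j, hj, ht⟩ := hin
    obtain ⟨a1, a2⟩ := h j hj ht
    refine ((f1 j hj ht 0 M).1 a1).trans (ENNReal.ofReal_le_ofReal ?_)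
    have := hg.c1
    have := Real.pi_pos
    exact div_le_div_of_nonneg_left (by positivity) hρ a2
  · rw [f0 hin]; exact zero_le

/-- Lower bound for the frequency in a core. -/
lemma nu_low (hF : FreqStmt) (g : Geo) (q : Par) (V₀ : ℝ) (hg : g.Ok) (hB : GeoB g)
    (hκη : g.κ ≤ q.η) (hp : 0 ≤ q.p) (hColl : Coll q.p q.η q.D V₀) (hV : V₀ ≤ q.V) (s : ℝ)
    (hs : s ∈ Icc (0 : ℝ) 1) (y : Om) (j : ℕ) (hj : j ≤ g.K) (hcore : y.1 ∈ Core g j s)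
    (m ρ : ℝ) (hm0 : 0 ≤ m) (hm : m + g.th j ≤ ‖y.2 - uu g.κ (sg j) y.1‖) (hρ : ‖pl y.1‖ ≤ ρ) :
    ENNReal.ofReal (Real.pi * g.c * m / (8 * ρ)) ≤ Nu (BB g) s y := by
  obtain ⟨-, f1⟩ := hF g q V₀ hg hκη hp hColl hV s hs y
  have htube := hB.core j s hs.1 hcore
  have hne : pl y.1 ≠ 0 := (hB.inT s hs _ ⟨j, hj, htube⟩).2.2.1
  have hY0 : 0 < ‖pl y.1‖ := norm_pos_iff.2 hne
  refine le_trans (ENNReal.ofReal_le_ofReal ?_) (((f1 j hj htube m 0).2 hm).1 hcore)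
  have := hg.c1
  have := Real.pi_pos
  exact div_le_div_of_nonneg_left (by positivity) (by positivity) (by linarith)

/-- Lower bound for the weighted frequency in a tube. -/
lemma nus_low (hF : FreqStmt) (g : Geo) (q : Par) (V₀ : ℝ) (hg : g.Ok) (hB : GeoB g)
    (hκη : g.κ ≤ q.η) (hp : 0 ≤ q.p) (hColl : Coll q.p q.η q.D V₀) (hV : V₀ ≤ q.V) (s : ℝ)
    (hs : s ∈ Icc (0 : ℝ) 1) (y : Om) (j : ℕ) (hj : j ≤ g.K) (htube : y.1 ∈ Tube g j s)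
    (m ρ a : ℝ) (hm0 : 0 ≤ m) (hm : m + g.th j ≤ ‖y.2 - uu g.κ (sg j) y.1‖) (hρ : ‖pl y.1‖ ≤ ρ)
    (hv : ‖y.2‖ ≤ q.V) (hD : q.D ≤ m) (hcut : ‖pl y.1‖ ≤ g.R / 4 + q.V * s) (ha0 : 0 ≤ a)
    (ha : a ≤ min (2 * m) 1) :
    ENNReal.ofReal (81 / 50 * ρ⁻¹ ^ 18 * a ^ q.p) * Nu (BB g) s y ≤ nuS g q s y := by
  obtain ⟨-, f1⟩ := hF g q V₀ hg hκη hp hColl hV s hs y
  have hne : pl y.1 ≠ 0 := (hB.inT s hs _ ⟨j, hj, htube⟩).2.2.1
  have hY0 : 0 < ‖pl y.1‖ := norm_pos_iff.2 hne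
  refine le_trans ?_ (((f1 j hj htube m 0).2 hm).2 hv hD hm0)
  have hSS : SS g q.V s y.1 = ‖pl y.1‖⁻¹ ^ 18 := by
    unfold SS
    rw [if_pos hcut]
  rw [hSS]
  refine mul_le_mul' (ENNReal.ofReal_le_ofReal ?_) le_rfl
  have h1 : ρ⁻¹ ≤ ‖pl y.1‖⁻¹ := inv_anti₀ hY0 hρ
  have h2 : 0 ≤ ρ⁻¹ := inv_nonneg.2 (by linarith)
  have h3 : a ^ q.p ≤ min (2 * m) 1 ^ q.p := Real.rpow_le_rpow ha0 ha hp
  have h4 : 0 ≤ a ^ q.p := Real.rpow_nonneg ha0 _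
  gcongr

end W1Aux

end Vale.Agent.P140
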